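import Vale.Agent.P353.HMol3

open MeasureTheory NormedSpace Filter Topology
open Complex (I)
open scoped InnerProductSpace ContDiff

noncomputable section
namespace Vale.Agent.P353
variable {S E F : Type} [NormedAddCommGroup S] [InnerProductSpace ℝ S] [FiniteDimensional ℝ S]
  [NormedAddCommGroup E] [InnerProductSpace ℝ E] [FiniteDimensional ℝ E]
  [MeasurableSpace E] [BorelSpace E]
  [NormedAddCommGroup F] [InnerProductSpace ℂ F] [CompleteSpace F]

theorem rel_int {τ R d a : ℝ} {ρ : E → ℝ} (hρ : Bump τ ρ) (hR : 0 < R) {φ χ : E → F}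
    (hφ : Tst φ) (hχ : Tst χ) (k1 : kin φ ≤ a) (k2 : kin χ ≤ a)
    (w1 : wt (fun x => ‖x‖ ^ 2) φ ≤ a) (w2 : wt (fun x => ‖x‖ ^ 2) χ ≤ a)
    (hd : ∀ x ∈ Metric.closedBall (0 : E) R, ‖mol ρ φ x - mol ρ χ x‖ ≤ d) :
    n2 (fun x => φ x - χ x) ≤
      12 * τ ^ 2 * a + 3 * d ^ 2 * volume.real (Metric.closedBall (0 : E) R) + 4 * a / R ^ 2 := by
  have i0 : Integrable fun x => ‖φ x - χ x‖ ^ 2 := int_sq (hφ.memLp.sub hχ.memLp)
  have i1 : Integrable fun x => ‖mol ρ φ x - φ x‖ ^ 2 :=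
    int_sq ((mol_memLp hρ hφ.memLp).1.sub hφ.memLp)
  have i2 : Integrable fun x => ‖mol ρ χ x - χ x‖ ^ 2 :=
    int_sq ((mol_memLp hρ hχ.memLp).1.sub hχ.memLp)
  have hm : MeasurableSet (Metric.closedBall (0 : E) R) := Metric.isClosed_closedBall.measurableSet
  have i3 : Integrable ((Metric.closedBall (0 : E) R).indicator fun _ => 3 * d ^ 2) :=
    (integrableOn_const (isCompact_closedBall (0 : E) R).measure_lt_top.ne).integrable_indicator hm
  have i4 := hφ.int_wt (w := fun x => ‖x‖ ^ 2) (by fun_prop)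
  have i5 := hχ.int_wt (w := fun x => ‖x‖ ^ 2) (by fun_prop)
  have j1 := (i1.const_mul 3).add (i2.const_mul 3)
  have j2 := (i4.const_mul (2 / R ^ 2)).add (i5.const_mul (2 / R ^ 2))
  have key := integral_mono i0 ((j1.add i3).add j2) fun x => by
    simp only [Pi.add_apply]
    have p1 := sq_nonneg ‖mol ρ φ x - φ x‖
    have p2 := sq_nonneg ‖mol ρ χ x - χ x‖
    have p3 : 0 ≤ 2 / R ^ 2 * (‖x‖ ^ 2 * ‖φ x‖ ^ 2) := by positivity
    have p4 : 0 ≤ 2 / R ^ 2 * (‖x‖ ^ 2 * ‖χ x‖ ^ 2) := by positivity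
    by_cases hx : x ∈ Metric.closedBall (0 : E) R
    · rw [Set.indicator_of_mem hx]
      have e : φ x - χ x =
          (mol ρ φ x - mol ρ χ x) + (mol ρ χ x - χ x) - (mol ρ φ x - φ x) := by abel
      have q1 : ‖φ x - χ x‖ ≤ d + ‖mol ρ χ x - χ x‖ + ‖mol ρ φ x - φ x‖ := by
        rw [e]
        refine (norm_sub_le _ _).trans (add_le_add ((norm_add_le _ _).trans ?_) le_rfl)
        exact add_le_add (hd x hx) le_rfl
      have q2 := pow_le_pow_left₀ (norm_nonneg _) q1 2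
      nlinarith [sq_nonneg (d - ‖mol ρ χ x - χ x‖), sq_nonneg (d - ‖mol ρ φ x - φ x‖),
        sq_nonneg (‖mol ρ χ x - χ x‖ - ‖mol ρ φ x - φ x‖)]
    · rw [Set.indicator_of_notMem hx]
      have hx' : R ≤ ‖x‖ := (not_le.1 fun h => hx (mem_closedBall_zero_iff.2 h)).le
      have q0 : 2 ≤ 2 / R ^ 2 * ‖x‖ ^ 2 := by
        rw [div_mul_eq_mul_div, le_div_iff₀ (by positivity)]
        have := pow_le_pow_left₀ hR.le hx' 2
        linarith
      have q1 := pow_le_pow_left₀ (norm_nonneg _) (norm_sub_le (φ x) (χ x)) 2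
      have q2 := mul_le_mul_of_nonneg_right q0 (sq_nonneg ‖φ x‖)
      have q3 := mul_le_mul_of_nonneg_right q0 (sq_nonneg ‖χ x‖)
      nlinarith [sq_nonneg (‖φ x‖ - ‖χ x‖)]
  rw [integral_add' (j1.add i3) j2, integral_add' j1 i3,
    integral_add' (i1.const_mul 3) (i2.const_mul 3),
    integral_add' (i4.const_mul _) (i5.const_mul _), integral_const_mul, integral_const_mul,
    integral_const_mul, integral_const_mul, integral_indicator_const _ hm, smul_eq_mul] at key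
  have m1 := mol_approx hρ hφ
  have m2 := mol_approx hρ hχ
  have m3 := mul_le_mul_of_nonneg_left k1 (sq_nonneg τ)
  have m4 := mul_le_mul_of_nonneg_left k2 (sq_nonneg τ)
  have m5 := mul_le_mul_of_nonneg_left w1 (show 0 ≤ 2 / R ^ 2 by positivity)
  have m6 := mul_le_mul_of_nonneg_left w2 (show 0 ≤ 2 / R ^ 2 by positivity)
  have e : 4 * a / R ^ 2 = 2 * (2 / R ^ 2 * a) := by ring
  unfold n2 at m1 m2 ⊢
  unfold wt at m5 m6
  linarith

/-- Discretisation.  Fix `R`, `τ` and a bump `ρ`.  Then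
`n2 (φ - χ) ≤ 2 ∫_{ball R} + tails`, tails `≤ A / R ^ 2` (`tail_le_wt`), on the ball replace `φ` by
`mol ρ φ` (`mol_approx`), which is bounded (`mol_sup`) and Lipschitz (`mol_lip`) uniformly.  Take a
finite `δ`-net `q i` of the closed ball of `E` and a finite `δ`-net `z k` of the closed ball of `F`
(`totallyBounded`, `FiniteDimensional.proper`); label `φ` by `i ↦` a net point near `mol ρ φ (q i)`. -/
theorem rel_discr [FiniteDimensional ℂ F] (A : ℝ) {ε : ℝ} (hε : 0 < ε) :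
    ∃ (β : Type) (_ : Fintype β) (lab : (E → F) → β), ∀ φ χ : E → F,
      (Tst φ ∧ n2 φ ≤ A ∧ kin φ ≤ A ∧ wt (fun x => ‖x‖ ^ 2) φ ≤ A) →
      (Tst χ ∧ n2 χ ≤ A ∧ kin χ ≤ A ∧ wt (fun x => ‖x‖ ^ 2) χ ≤ A) →
      lab φ = lab χ → n2 (fun x => φ x - χ x) ≤ ε := by
  classical
  haveI : ProperSpace F := FiniteDimensional.proper ℂ F
  set a := max A 1 with ha
  have ha1 : 1 ≤ a := le_max_right _ _
  have haA : A ≤ a := le_max_left _ _
  have ha0 : 0 < a := by linarith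
  set R := 12 * a / ε + 1 with hR
  have hR0 : 0 < R := by positivity
  set τ := min 1 (ε / (36 * a)) with hτ
  have hτ0 : 0 < τ := lt_min one_pos (by positivity)
  obtain ⟨ρ, hρ⟩ := exists_bump E hτ0
  set v := volume.real (Metric.closedBall (0 : E) R) with hv
  have hv0 : 0 ≤ v := measureReal_nonneg
  set d := min 1 (ε / (9 * (v + 1))) with hd
  have hd0 : 0 < d := lt_min one_pos (by positivity)
  have hN := n2_nonneg' ρ
  set N := n2 ρ * (2 * a) with hNdef
  have hN0 : 0 ≤ N := by positivity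
  obtain ⟨t, ht, hcov⟩ := Metric.totallyBounded_iff.1 (isCompact_closedBall (0 : E) R).totallyBounded
    (d / (4 * (N + 1))) (by positivity)
  obtain ⟨t', ht', hcov'⟩ := Metric.totallyBounded_iff.1
    (isCompact_closedBall (0 : F) (N + 1)).totallyBounded (d / 4) (by positivity)
  haveI := ht.fintype
  haveI := ht'.fintype
  refine ⟨Set (t × t'), inferInstance, fun φ => {y | dist (mol ρ φ y.1) y.2 < d / 4},
    fun φ χ ⟨hφ, n1, k1, w1⟩ ⟨hχ, n2', k2, w2⟩ hlab => ?_⟩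
  have lip : ∀ ψ : E → F, Tst ψ → kin ψ ≤ A → ∀ x y, dist x y < d / (4 * (N + 1)) →
      ‖mol ρ ψ x - mol ρ ψ y‖ ≤ d / 4 := by
    intro ψ hψ hk x y hxy
    have h1 := mol_lip hρ hψ x y
    rw [dist_eq_norm, lt_div_iff₀ (by positivity)] at hxy
    have h2 : ‖x - y‖ * (N + 1) ≤ d / 4 := by linarith
    have h3 := pow_le_pow_left₀ (by positivity) h2 2
    have h4 : n2 ρ * (‖x - y‖ ^ 2 * (2 * kin ψ)) ≤ ‖x - y‖ ^ 2 * N := by
      have := mul_le_mul_of_nonneg_left (hk.trans haA) (mul_nonneg hN (sq_nonneg ‖x - y‖))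
      rw [hNdef]; linarith
    have h5 : ‖x - y‖ ^ 2 * N ≤ ‖x - y‖ ^ 2 * (N + 1) ^ 2 :=
      mul_le_mul_of_nonneg_left (by nlinarith) (sq_nonneg _)
    refine (pow_le_pow_iff_left₀ (norm_nonneg _) (by positivity) two_ne_zero).1 ?_
    rw [mul_pow] at h3
    linarith
  have hdd : ∀ x ∈ Metric.closedBall (0 : E) R, ‖mol ρ φ x - mol ρ χ x‖ ≤ d := by
    intro x hx
    obtain ⟨q, hq, hxq⟩ := Set.mem_iUnion₂.1 (hcov hx)
    have hb : mol ρ φ q ∈ Metric.closedBall (0 : F) (N + 1) := by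
      rw [mem_closedBall_zero_iff]
      have h1 := mol_sup hρ hφ.memLp q
      have h2 := mul_le_mul_of_nonneg_left (n1.trans haA) hN
      refine (pow_le_pow_iff_left₀ (norm_nonneg _) (by positivity) two_ne_zero).1 ?_
      have h3 : n2 ρ * a ≤ N := by rw [hNdef]; nlinarith
      nlinarith
    obtain ⟨z, hz, hqz⟩ := Set.mem_iUnion₂.1 (hcov' hb)
    have h1 : ((⟨q, hq⟩, ⟨z, hz⟩) : t × t') ∈ {y : t × t' | dist (mol ρ φ y.1) y.2 < d / 4} := hqz
    have hlab' : {y : t × t' | dist (mol ρ φ y.1) y.2 < d / 4} =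
      {y : t × t' | dist (mol ρ χ y.1) y.2 < d / 4} := hlab
    rw [hlab'] at h1
    have h2 : dist (mol ρ χ q) z < d / 4 := h1
    have h3 : dist (mol ρ φ q) z < d / 4 := hqz
    have h4 := lip φ hφ k1 x q hxq
    have h5 := lip χ hχ k2 x q hxq
    rw [← dist_eq_norm] at h4 h5 ⊢
    have h6 := dist_triangle4 (mol ρ φ x) (mol ρ φ q) (mol ρ χ q) (mol ρ χ x)
    have h7 := dist_triangle_right (mol ρ φ q) (mol ρ χ q) z
    rw [dist_comm (mol ρ χ q) (mol ρ χ x)] at h6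
    linarith
  have main := rel_int hρ hR0 hφ hχ (k1.trans haA) (k2.trans haA) (w1.trans haA) (w2.trans haA) hdd
  have b1 : 12 * τ ^ 2 * a ≤ ε / 3 := by
    have h1 : τ ≤ 1 := min_le_left _ _
    have h2 : τ * (36 * a) ≤ ε := (le_div_iff₀ (by positivity)).1 (min_le_right _ _)
    have h3 : τ ^ 2 * a ≤ τ * a := mul_le_mul_of_nonneg_right (by nlinarith) ha0.le
    linarith
  have b2 : 3 * d ^ 2 * v ≤ ε / 3 := by
    have h1 : d ≤ 1 := min_le_left _ _
    have h2 : d * (9 * (v + 1)) ≤ ε := (le_div_iff₀ (by positivity)).1 (min_le_right _ _)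
    have h3 : d ^ 2 * v ≤ d * v := mul_le_mul_of_nonneg_right (by nlinarith) hv0
    linarith
  have b3 : 4 * a / R ^ 2 ≤ ε / 3 := by
    rw [div_le_iff₀ (by positivity)]
    have h0 : 0 ≤ 12 * a / ε := by positivity
    have h1 : R ≤ R ^ 2 := by nlinarith
    have h2 : ε * R = 12 * a + ε := by rw [hR]; field_simp
    have h3 := mul_le_mul_of_nonneg_left h1 hε.le
    linarith
  linarith

/-- Rellich compactness with a confining weight: `Metric.totallyBounded_of_finite_discretization` for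
the range of `n ↦ toLp (φ n)`, then the closure is compact and `IsCompact.tendsto_subseq`. -/
theorem rellich [FiniteDimensional ℂ F] (φ : ℕ → E → F) (h : ∀ n, Tst (φ n)) (A : ℝ)
    (h1 : ∀ n, n2 (φ n) ≤ A) (h2 : ∀ n, kin (φ n) ≤ A)
    (h3 : ∀ n, wt (fun x => ‖x‖ ^ 2) (φ n) ≤ A) :
    ∃ κ : ℕ → ℕ, StrictMono κ ∧ ∃ ψ : Lp F 2 (volume : Measure E),
      Tendsto (fun n => (h (κ n)).memLp.toLp (φ (κ n))) atTop (𝓝 ψ) := by
  set f : ℕ → Lp F 2 (volume : Measure E) := fun n => (h n).memLp.toLp (φ n) with hf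
  have tb : TotallyBounded (Set.range f) := by
    refine Metric.totallyBounded_of_finite_discretization fun ε hε => ?_
    obtain ⟨β, hβ, lab, hlab⟩ := rel_discr (E := E) (F := F) A (ε := ε ^ 2 / 2) (by positivity)
    refine ⟨β, hβ, fun x => lab (φ x.2.choose), fun x y hxy => ?_⟩
    have k1 := hlab _ _ ⟨h _, h1 _, h2 _, h3 _⟩ ⟨h _, h1 _, h2 _, h3 _⟩ hxy
    rw [← x.2.choose_spec, ← y.2.choose_spec, dist_eq_norm]
    have k2 := n2_toLp_sub (h x.2.choose).memLp (f y.2.choose)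
    have k3 : n2 (fun z => φ x.2.choose z - f y.2.choose z) =
        n2 fun z => φ x.2.choose z - φ y.2.choose z :=
      n2_congr ((h y.2.choose).memLp.coeFn_toLp.mono fun z hz => by
        simp only [hf]; rw [hz])
    refine lt_of_pow_lt_pow_left₀ 2 hε.le ?_
    have k4 : 0 < ε ^ 2 := by positivity
    calc ‖f x.2.choose - f y.2.choose‖ ^ 2 = _ := k2
      _ < ε ^ 2 := by rw [k3]; linarith
  have hc : IsCompact (closure (Set.range f)) :=
    tb.closure.isCompact_of_isClosed isClosed_closure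
  obtain ⟨ψ, -, κ, hκ, hlim⟩ := hc.tendsto_subseq (x := f) fun n => subset_closure ⟨n, rfl⟩
  exact ⟨κ, hκ, ψ, hlim⟩

end Vale.Agent.P353
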