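import Vale.Agent.P353.AMod0

open MeasureTheory NormedSpace
open Complex (I)
open scoped InnerProductSpace ContDiff

noncomputable section
namespace Vale.Agent.P353

section gen
variable {S E F : Type} [NormedAddCommGroup S] [InnerProductSpace ℝ S] [FiniteDimensional ℝ S]
  [NormedAddCommGroup E] [InnerProductSpace ℝ E] [FiniteDimensional ℝ E]
  [NormedAddCommGroup F] [InnerProductSpace ℂ F] [CompleteSpace F]

lemma cv_equiv {g : E →L[ℝ] E} (hg : ∀ u v, ⟪g u, g v⟫_ℝ = ⟪u, v⟫_ℝ) :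
    ∃ e : E ≃ₗᵢ[ℝ] E, ∀ x, e x = g x :=
  ⟨(LinearMap.isometryOfInner g.toLinearMap hg).toLinearIsometryEquiv rfl, fun _ => rfl⟩

omit [FiniteDimensional ℝ E] [CompleteSpace F] in
lemma cv_fderiv_left (g : E →L[ℝ] E) (U : F →L[ℂ] F) {φ : E → F} (hd : Differentiable ℝ φ)
    (x v : E) : fderiv ℝ (fun x => U (φ (g x))) x v = U (fderiv ℝ φ (g x) (g v)) := by
  have h1 : HasFDerivAt (fun x => U (φ (g x)))
      ((U.restrictScalars ℝ).comp ((fderiv ℝ φ (g x)).comp g)) x :=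
    (U.restrictScalars ℝ).hasFDerivAt.comp x ((hd (g x)).hasFDerivAt.comp x g.hasFDerivAt)
  rw [h1.fderiv]
  rfl

omit [FiniteDimensional ℝ E] [CompleteSpace F] in
lemma cv_fderiv {g : E →L[ℝ] E} {U : F →L[ℂ] F} {φ : E → F} (hd : Differentiable ℝ φ)
    (h : ∀ x, φ (g x) = U (φ x)) (x v : E) :
    fderiv ℝ φ (g x) (g v) = U (fderiv ℝ φ x v) := by
  have h1 := cv_fderiv_left g 1 hd x v
  have h2 := cv_fderiv_left 1 U hd x v
  simp only [one_apply_eq_self] at h1 h2
  rw [← h1, ← h2]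
  simp only [h]

lemma cv_g2 {g : E →L[ℝ] E} {U : F →L[ℂ] F} (hg : ∀ u v, ⟪g u, g v⟫_ℝ = ⟪u, v⟫_ℝ)
    (hU : U ∈ unitary (F →L[ℂ] F)) {φ : E → F} (hd : Differentiable ℝ φ) (x : E) :
    g2 (fun x => U (φ (g x))) x = g2 φ (g x) := by
  let _ : MeasurableSpace E := borel E
  have _ : BorelSpace E := ⟨rfl⟩
  obtain ⟨e, he⟩ := cv_equiv hg
  rw [g2_onb ((stdOrthonormalBasis ℝ E).map e) φ (g x), g2]
  refine Finset.sum_congr rfl fun k _ => ?_
  rw [cv_fderiv_left g U hd, ContinuousLinearMap.norm_map_of_mem_unitary hU,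
    OrthonormalBasis.map_apply, he]

lemma cv_int [MeasurableSpace E] [BorelSpace E] {g : E →L[ℝ] E}
    (hg : ∀ u v, ⟪g u, g v⟫_ℝ = ⟪u, v⟫_ℝ) (f : E → ℝ) : ∫ x, f (g x) = ∫ x, f x := by
  obtain ⟨e, he⟩ := cv_equiv hg
  have := e.measurePreserving.integral_comp e.toHomeomorph.measurableEmbedding f
  simpa only [he] using this

omit [CompleteSpace F] in
lemma cv_tst {g : E →L[ℝ] E} (U : F →L[ℂ] F) (hg : ∀ u v, ⟪g u, g v⟫_ℝ = ⟪u, v⟫_ℝ)
    {φ : E → F} (h : Tst φ) : Tst fun x => U (φ (g x)) := by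
  obtain ⟨e, he⟩ := cv_equiv hg
  refine ⟨(U.restrictScalars ℝ).contDiff.comp (h.1.comp g.contDiff), ?_⟩
  have h1 : HasCompactSupport (φ ∘ e.toHomeomorph) := h.2.comp_homeomorph e.toHomeomorph
  have h2 : HasCompactSupport (U ∘ (φ ∘ e.toHomeomorph)) := h1.comp_left (map_zero U)
  have h3 : (fun x => U (φ (g x))) = U ∘ (φ ∘ e.toHomeomorph) := by
    funext x
    simp [he]
  rw [h3]
  exact h2

lemma cv_sch [MeasurableSpace E] [BorelSpace E] {g : E →L[ℝ] E} {U : F →L[ℂ] F}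
    (hg : ∀ u v, ⟪g u, g v⟫_ℝ = ⟪u, v⟫_ℝ) (hU : U ∈ unitary (F →L[ℂ] F))
    {w : E → ℝ} {B : E → F →L[ℂ] F} (hw : ∀ x, w (g x) = w x)
    (hB : ∀ x, B x * U = U * B (g x)) {φ : E → F} (hd : Differentiable ℝ φ) :
    sch w B (fun x => U (φ (g x))) = sch w B φ := by
  have h1 : kin (fun x => U (φ (g x))) = kin φ := by
    unfold kin
    simp only [cv_g2 hg hU hd]
    rw [cv_int hg (g2 φ)]
  have h2 : wt w (fun x => U (φ (g x))) = wt w φ := by
    unfold wt
    rw [← cv_int hg (fun x => w x * ‖φ x‖ ^ 2)]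
    simp only [ContinuousLinearMap.norm_map_of_mem_unitary hU, hw]
  have h3 : opf B (fun x => U (φ (g x))) = opf B φ := by
    unfold opf
    rw [← cv_int hg (fun x => (⟪φ x, B x (φ x)⟫_ℂ).re)]
    refine integral_congr_ae (Filter.Eventually.of_forall fun x => ?_)
    have : B x (U (φ (g x))) = U (B (g x) (φ (g x))) := by
      have := congrArg (fun A : F →L[ℂ] F => A (φ (g x))) (hB x)
      simpa only [mul_apply_eq_comp] using this
    simp only [this, ContinuousLinearMap.inner_map_map_of_mem_unitary hU]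
  unfold sch
  rw [h1, h2, h3]

omit [FiniteDimensional ℝ S] in
lemma cv_skew_smul {T : S →L[ℝ] S} (h : Skew T) (t : ℝ) : Skew (t • T) := by
  intro u v
  simp only [smul_apply, inner_smul_left, inner_smul_right, h u v]
  simp

lemma cv_flow (T : S →L[ℝ] S) (x : S) (t : ℝ) :
    HasDerivAt (fun t : ℝ => expL (t • T) x) (T (expL (t • T) x)) t := by
  have h1 := (hasDerivAt_expL T t).clm_apply (hasDerivAt_const t x)
  have h2 : expL (t • T) (T x) = T (expL (t • T) x) :=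
    expL_intertwine T (T := t • T) (T' := t • T) (fun u => by simp) x
  simpa [h2] using h1

omit [FiniteDimensional ℝ S] in
lemma cv_expL_zero (T : S →L[ℝ] S) (x : S) : expL ((0 : ℝ) • T) x = x := by
  simp [expL]

lemma cv_ode {T : S →L[ℝ] S} {c : ℝ → S} (hc : ∀ t, HasDerivAt c (T (c t)) t) (t : ℝ) :
    c t = expL (t • T) (c 0) := by
  have h1 : ∀ t, HasDerivAt (fun t : ℝ => expL (t • (-T)) (c t)) 0 t := by
    intro t
    have := (hasDerivAt_expL (-T) t).clm_apply (hc t)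
    simpa using this
  have h2 := is_const_of_deriv_eq_zero (fun t => (h1 t).differentiableAt)
    (fun t => (h1 t).deriv) t 0
  simp only [cv_expL_zero] at h2
  rw [← h2]
  have h3 := congrArg (fun A : S →L[ℝ] S => A (c t)) (expL_mul_neg (t • T)).1
  simp only [mul_apply_eq_comp, one_apply_eq_self] at h3
  rw [smul_neg, h3]

lemma cv_cancel (T : S →L[ℝ] S) (t : ℝ) (x : S) : expL (t • T) (expL ((-t) • T) x) = x := by
  have h3 := congrArg (fun A : S →L[ℝ] S => A x) (expL_mul_neg (t • T)).1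
  simp only [mul_apply_eq_comp, one_apply_eq_self] at h3
  rw [neg_smul, h3]

lemma cv_spin_commute (C : Cl S F) {T U : S →L[ℝ] S} (hT : Skew T) (hU : Skew U)
    (h : ∀ u, T (U u) = U (T u)) : Commute (C.spin T) (C.spin U) := by
  have h3 := C.spin_lie hT hU
  have h4 : T * U - U * T = (0 : ℝ) • 0 := by
    rw [zero_smul, sub_eq_zero]
    exact ContinuousLinearMap.ext h
  rw [h4, C.spin_smul, zero_smul, sub_eq_zero] at h3
  exact h3

lemma cv_bil (Γ : E →L[ℝ] S →L[ℝ] S) {T' : E →L[ℝ] E} {T : S →L[ℝ] S}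
    (h : ∀ y v, Γ (T' y) v + Γ y (T v) = T (Γ y v)) (t : ℝ) (x : E) (u : S) :
    Γ (expL (t • T') x) (expL (t • T) u) = expL (t • T) (Γ x u) := by
  have h := cv_ode (T := T) (c := fun t : ℝ => Γ (expL (t • T') x) (expL (t • T) u)) (fun t => by
    rw [← h]
    exact (Γ.hasFDerivAt.comp_hasDerivAt t (cv_flow T' x t)).clm_apply (cv_flow T u t)) t
  simpa only [cv_expL_zero] using h

lemma cv_conj (C : Cl S F) {T : S →L[ℝ] S} (hT : Skew T) (t c : ℝ) {X Y : S →L[ℝ] S}
    (h : ∀ u, expL (t • T) (X u) = Y (expL (t • T) u)) :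
    (I • C.spin (c • Y)) * exp (t • C.spin T) = exp (t • C.spin T) * (I • C.spin (c • X)) := by
  have hs := cv_skew_smul hT t
  have h1 := C.conj_spin (expL_inner hs) (expL_mul_neg _).1 (C.exp_spin_th hs) (c • X)
  have h2 : expL (t • T) * (c • X) * expL (-(t • T)) = c • Y := by
    refine ContinuousLinearMap.ext fun u => ?_
    rw [mul_apply_eq_comp, mul_apply_eq_comp, smul_apply, smul_apply, map_smul, h, ← neg_smul,
      cv_cancel]
  rw [h2, C.spin_smul t] at h1
  rw [smul_mul_assoc, mul_smul_comm, h1]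

lemma cv_rot_deriv (X : F →L[ℂ] F) (T : E →L[ℝ] E) {φ : E → F} (h : Differentiable ℝ φ) (x : E)
    (t : ℝ) : HasDerivAt (fun t : ℝ => exp (t • X) (φ (expL ((-t) • T) x)))
      ((-I) • ((-I) • fderiv ℝ (fun x => exp (t • X) (φ (expL ((-t) • T) x))) x (T x) +
        I • X (exp (t • X) (φ (expL ((-t) • T) x))))) t := by
  have h1 : HasDerivAt (fun t : ℝ => exp (t • X)) (X * exp (t • X)) t :=
    hasDerivAt_exp_smul_const' (𝕂 := ℝ) X t
  have h2 : HasDerivAt (fun t : ℝ => (exp (t • X)).restrictScalars ℝ)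
      ((X * exp (t • X)).restrictScalars ℝ) t :=
    (ContinuousLinearMap.restrictScalarsL ℂ F F ℝ ℝ).hasFDerivAt.comp_hasDerivAt t h1
  have h3 : HasDerivAt (fun t : ℝ => expL ((-t) • T) x) (-T (expL ((-t) • T) x)) t := by
    have := cv_flow (-T) x t
    simpa only [smul_neg, neg_smul, neg_apply] using this
  have h4 := h2.clm_apply ((h _).hasFDerivAt.comp_hasDerivAt t h3)
  have h5 : expL ((-t) • T) (T x) = T (expL ((-t) • T) x) :=
    expL_intertwine T (T := (-t) • T) (T' := (-t) • T) (fun u => by simp) x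
  refine h4.congr_deriv ?_
  rw [cv_fderiv_left _ _ h x (T x), h5, smul_add, smul_smul, smul_smul]
  simp [add_comm]

end gen

variable {V F : Type} [NormedAddCommGroup V] [InnerProductSpace ℝ V] [FiniteDimensional ℝ V]
  [MeasurableSpace V] [BorelSpace V]
  [NormedAddCommGroup F] [InnerProductSpace ℂ F] [CompleteSpace F]

/-- a Dirac operator commutes with a compatible pair of rotations -/
theorem dirac_cov {S E : Type} [NormedAddCommGroup S] [InnerProductSpace ℝ S]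
    [FiniteDimensional ℝ S] [NormedAddCommGroup E] [InnerProductSpace ℝ E] [FiniteDimensional ℝ E]
    (C : Cl S F) (ψ : E →L[ℝ] S) (s : E → S) {g : E →L[ℝ] E} {g' : S →L[ℝ] S} {U : F →L[ℂ] F}
    (hg : ∀ u v, ⟪g u, g v⟫_ℝ = ⟪u, v⟫_ℝ) (hU : ∀ u, U * C.th u = C.th (g' u) * U)
    (hψ : ∀ u, ψ (g u) = g' (ψ u)) (hs : ∀ x, s (g x) = g' (s x)) {φ : E → F}
    (hd : Differentiable ℝ φ) (h : ∀ x, φ (g x) = U (φ x)) (x : E) :
    C.dirac ψ s φ (g x) = U (C.dirac ψ s φ x) := by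
  let _ : MeasurableSpace E := borel E
  have _ : BorelSpace E := ⟨rfl⟩
  obtain ⟨e, he⟩ := cv_equiv hg
  have hU' : ∀ u w, U (C.th u w) = C.th (g' u) (U w) := by
    intro u w
    have := congrArg (fun A : F →L[ℂ] F => A w) (hU u)
    simpa only [mul_apply_eq_comp] using this
  rw [dirac_onb C ψ s ((stdOrthonormalBasis ℝ E).map e) φ (g x), Cl.dirac, map_add, map_smul,
    map_sum, hU', hs, h]
  congr 2
  refine Finset.sum_congr rfl fun k _ => ?_
  rw [OrthonormalBasis.map_apply, he, hU', hψ, cv_fderiv hd h]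


omit [MeasurableSpace V] [BorelSpace V] in
lemma cv_lift_inner {n : ℕ} (L : CL V) (ξ : V) (u v : PiLp 2 (fun _ : Fin n => V)) :
    ⟪lift (L.ex ξ) u, lift (L.ex ξ) v⟫_ℝ = ⟪u, v⟫_ℝ := by
  simp only [PiLp.inner_apply, lift_apply, CL.ex_inner]

omit [MeasurableSpace V] [BorelSpace V] in
lemma cv_mat_lift {n m : ℕ} (N : Matrix (Fin n) (Fin m) ℝ) (g : V →L[ℝ] V)
    (u : PiLp 2 (fun _ : Fin m => V)) : mat N (lift g u) = lift g (mat N u) :=
  congrArg (fun A : PiLp 2 (fun _ : Fin m => V) →L[ℝ] PiLp 2 (fun _ : Fin n => V) => A u)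
    (mat_lift N g)

omit [MeasurableSpace V] [BorelSpace V] in
lemma cv_mat_mul {n m k : ℕ} (A : Matrix (Fin n) (Fin m) ℝ) (N : Matrix (Fin m) (Fin k) ℝ)
    (u : PiLp 2 (fun _ : Fin k => V)) : mat (A * N) u = mat A (mat N u) :=
  congrArg (fun A : PiLp 2 (fun _ : Fin k => V) →L[ℝ] PiLp 2 (fun _ : Fin n => V) => A u)
    (mat_mul A N)

omit [FiniteDimensional ℝ V] [MeasurableSpace V] [BorelSpace V] in
lemma cv_mat_tens {n m : ℕ} (N : Matrix (Fin n) (Fin m) ℝ) (e : Fin m → ℝ) (y : V) :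
    mat N (tens e y) = tens (N.mulVec e) y := by
  ext i
  simp only [mat_apply, tens_apply, Matrix.mulVec, dotProduct, Finset.sum_smul, smul_smul]

theorem Mod.Inv.dirac {M : Mod V F} (N : Matrix (Fin 16) (Fin 9) ℝ) {s : EE V → SS V}
    (hs : ∀ ξ x, s (lift (M.L.ex ξ) x) = lift (M.L.ex ξ) (s x)) {φ : EE V → F}
    (hd : Differentiable ℝ φ) (h : M.Inv φ) : M.Inv (M.C.dirac (mat N) s φ) := fun ξ x =>
  dirac_cov M.C (mat N) s (cv_lift_inner M.L ξ) (M.rho_th ξ) (cv_mat_lift N _) (hs ξ) hd (h ξ) x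

theorem Mod.Inv.D {M : Mod V F} (P : Par) (lam mu : ℝ) {φ : EE V → F} (hd : Differentiable ℝ φ)
    (h : M.Inv φ) : M.Inv (M.D P lam mu φ) := by
  refine Mod.Inv.dirac _ (fun ξ x => ?_) hd h
  rw [s0_aut _ _ _ (M.L.ex_br ξ), P.s1_lift, map_add, map_smul, map_smul]

lemma cv_hat_g (G : Gam) {A : M9} (hA : A.transpose = -A) {e : R16}
    (he : (G.hat A).mulVec e = 0) (k : Fin 9) :
    (G.hat A).mulVec ((G.g k).mulVec e) = ∑ l, A l k • (G.g l).mulVec e := by
  have h := congrArg (fun N : M16 => N.mulVec e) (G.hat_comm hA k)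
  simp only [Matrix.sub_mulVec, ← Matrix.mulVec_mulVec, he, Matrix.mulVec_zero, sub_zero,
    Matrix.sum_mulVec, Matrix.smul_mulVec] at h
  exact h

lemma cv_hat_gg (G : Gam) {A : M9} (hA : A.transpose = -A) (i j : Fin 9) :
    G.hat A * (G.g i * G.g j) - G.g i * G.g j * G.hat A =
      ∑ l, A l i • (G.g l * G.g j) + ∑ l, A l j • (G.g i * G.g l) := by
  have h1 := G.hat_comm hA i
  have h2 := G.hat_comm hA j
  have h3 : G.hat A * (G.g i * G.g j) - G.g i * G.g j * G.hat A =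
      (G.hat A * G.g i - G.g i * G.hat A) * G.g j +
        G.g i * (G.hat A * G.g j - G.g j * G.hat A) := by noncomm_ring
  rw [h3, h1, h2, Finset.sum_mul, Finset.mul_sum]
  simp only [smul_mul_assoc, mul_smul_comm]

lemma cv_hat_g2 (G : Gam) {A : M9} (hA : A.transpose = -A) {e : R16}
    (he : (G.hat A).mulVec e = 0) (i j : Fin 9) :
    (G.hat A).mulVec ((G.g2 i j).mulVec e) =
      ∑ l, A l i • (G.g2 l j).mulVec e + ∑ l, A l j • (G.g2 i l).mulVec e := by
  have h : G.hat A * G.g2 i j - G.g2 i j * G.hat A =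
      ∑ l, A l i • G.g2 l j + ∑ l, A l j • G.g2 i l := by
    have h3 : G.hat A * G.g2 i j - G.g2 i j * G.hat A =
        (1 / 2 : ℝ) • ((G.hat A * (G.g i * G.g j) - G.g i * G.g j * G.hat A) -
          (G.hat A * (G.g j * G.g i) - G.g j * G.g i * G.hat A)) := by
      simp only [Gam.g2, mul_smul_comm, smul_mul_assoc, ← smul_sub]
      congr 1
      noncomm_ring
    rw [h3, cv_hat_gg G hA, cv_hat_gg G hA]
    simp only [Gam.g2, smul_sub, smul_add, Finset.smul_sum, Finset.sum_sub_distrib, smul_smul,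
      mul_comm (1 / 2 : ℝ)]
    abel
  have h := congrArg (fun N : M16 => N.mulVec e) h
  simp only [Matrix.sub_mulVec, ← Matrix.mulVec_mulVec, he, Matrix.mulVec_zero, sub_zero,
    Matrix.sum_mulVec, Matrix.smul_mulVec, Matrix.add_mulVec] at h
  exact h

omit [FiniteDimensional ℝ V] [MeasurableSpace V] [BorelSpace V] in
lemma cv_tens_sum {n : ℕ} {ι : Type} [Fintype ι] (a : ι → ℝ) (v : ι → Fin n → ℝ) (y : V) :
    tens (∑ l, a l • v l) y = ∑ l, tens (v l) (a l • y) := by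
  ext i
  simp only [tens_apply, Finset.sum_apply, Pi.smul_apply, smul_eq_mul, Finset.sum_smul,
    WithLp.ofLp_sum, smul_smul, mul_comm]

omit [FiniteDimensional ℝ V] [MeasurableSpace V] [BorelSpace V] in
lemma cv_tens_add {n : ℕ} (v w : Fin n → ℝ) (y : V) : tens (v + w) y = tens v y + tens w y := by
  ext i
  simp [add_smul]

lemma cv_psi (G : Gam) {A : M9} (hA : A.transpose = -A) {e : R16}
    (he : (G.hat A).mulVec e = 0) (u : EE V) :
    mat (G.hat A) (G.psi e u) = G.psi e (mat A u) := by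
  rw [G.psi_eq, G.psi_eq, map_sum]
  simp only [cv_mat_tens, cv_hat_g G hA he, cv_tens_sum, mat_apply, map_sum]
  exact Finset.sum_comm

lemma cv_s1 (P : Par) (u : EE V) : mat (P.hat Amat) (P.s1 u) = P.s1 (mat Amat u) := by
  have h8 : (mat Amat u : EE V) 8 = 0 := by
    simp only [mat_apply, fun i => (Amat_eight i).2.1, zero_smul, Finset.sum_const_zero]
  have h0 : tens (0 : R16) (u 8) = 0 := by
    ext i
    simp
  have hs : ∀ y : EE V, P.s1 y = P.psi P.e (mat Amat y) + P.δ • tens P.χ (y 8) := fun _ => rfl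
  rw [hs, hs, map_add, map_smul, cv_psi P.toGam Amat_transpose P.hat_e.1, cv_mat_tens,
    P.hat_e.2, h8, h0, map_zero]

lemma cv_s0_inf (G : Gam) (L : CL V) {A : M9} (hA : A.transpose = -A) {e : R16}
    (he : (G.hat A).mulVec e = 0) (y : EE V) :
    fderiv ℝ (s0 G L e) y (mat A y) = mat (G.hat A) (s0 G L e y) := by
  have h1 : ∑ i, ∑ j, ∑ l, tens ((G.g2 i l).mulVec e) (A l j • L.br (y i) (y j)) =
      ∑ i, ∑ j, tens ((G.g2 i j).mulVec e) (L.br (y i) (mat A y j)) := by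
    refine Finset.sum_congr rfl fun i _ => ?_
    rw [Finset.sum_comm]
    simp only [mat_apply, map_sum, map_smul]
  have h2 : ∑ i, ∑ j, ∑ l, tens ((G.g2 l j).mulVec e) (A l i • L.br (y i) (y j)) =
      ∑ i, ∑ j, tens ((G.g2 i j).mulVec e) (L.br (y i) (mat A y j)) := by
    rw [← h1, Finset.sum_comm]
    refine Finset.sum_congr rfl fun i _ => Finset.sum_congr rfl fun j _ =>
      Finset.sum_congr rfl fun l _ => ?_
    rw [G.g2_swap i l, L.skew (y j) (y i)]
    ext s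
    simp [Matrix.neg_mulVec]
  rw [fderiv_s0, s0, map_smul, map_sum]
  simp only [map_sum (mat (G.hat A)), cv_mat_tens, cv_hat_g2 G hA he, cv_tens_add, cv_tens_sum,
    Finset.sum_add_distrib]
  rw [h1, h2]
  module

lemma cv_s0 (G : Gam) (L : CL V) {A : M9} (hA : A.transpose = -A) {e : R16}
    (he : (G.hat A).mulVec e = 0) (t : ℝ) (x : EE V) :
    s0 G L e (expL (t • (mat A : EE V →L[ℝ] EE V)) x) =
      expL (t • (mat (G.hat A) : SS V →L[ℝ] SS V)) (s0 G L e x) := by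
  have hd : Differentiable ℝ (s0 G L e) := (contDiff_s0 G L e).differentiable (by simp)
  have h := cv_ode (T := (mat (G.hat A) : SS V →L[ℝ] SS V))
    (c := fun t : ℝ => s0 G L e (expL (t • (mat A : EE V →L[ℝ] EE V)) x)) (fun t => by
      rw [← cv_s0_inf G L hA he]
      exact (hd _).hasFDerivAt.comp_hasDerivAt t (cv_flow _ x t)) t
  simpa only [cv_expL_zero] using h

theorem Mod.RInv.D {M : Mod V F} (P : Par) (lam mu : ℝ) {φ : EE V → F} (hd : Differentiable ℝ φ)
    (h : M.RInv P.toGam Amat φ) : M.RInv P.toGam Amat (M.D P lam mu φ) := by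
  intro t x
  have hs : Skew (t • (mat (P.hat Amat) : SS V →L[ℝ] SS V)) :=
    cv_skew_smul (skew_mat (P.toGam.hat_transpose Amat)) t
  refine dirac_cov M.C (P.psi P.e) _ (g' := expL (t • (mat (P.hat Amat) : SS V →L[ℝ] SS V)))
    (expL_inner (cv_skew_smul (skew_mat Amat_transpose) t)) (fun u => ?_) (fun u => ?_)
    (fun y => ?_) hd (h t) x
  · rw [← M.C.spin_smul]
    exact M.C.exp_spin_th hs u
  · refine (expL_intertwine (P.psi P.e) (fun u => ?_) u).symm
    rw [smul_apply, smul_apply, map_smul, cv_psi P.toGam Amat_transpose P.hat_e.1]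
  · rw [map_add, map_smul, map_smul, cv_s0 P.toGam M.L Amat_transpose P.hat_e.1]
    congr 2
    refine (expL_intertwine P.s1 (fun u => ?_) y).symm
    rw [smul_apply, smul_apply, map_smul, cv_s1]

/-- rotation of a function -/
def Mod.rot (M : Mod V F) (G : Gam) (A : M9) (t : ℝ) (φ : EE V → F) (x : EE V) : F :=
  exp (t • M.C.spin (mat (G.hat A))) (φ (expL ((-t) • (mat A : EE V →L[ℝ] EE V)) x))

omit [MeasurableSpace V] [BorelSpace V] in
lemma cv_R_inner {A : M9} (hA : A.transpose = -A) (t : ℝ) (u v : EE V) :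
    ⟪expL (t • (mat A : EE V →L[ℝ] EE V)) u, expL (t • (mat A : EE V →L[ℝ] EE V)) v⟫_ℝ =
      ⟪u, v⟫_ℝ := expL_inner (cv_skew_smul (skew_mat hA) t) u v

omit [MeasurableSpace V] [BorelSpace V] in
lemma cv_U_unitary (M : Mod V F) (G : Gam) (A : M9) (t : ℝ) :
    exp (t • M.C.spin (mat (G.hat A))) ∈ unitary (F →L[ℂ] F) := by
  rw [← M.C.spin_smul]
  exact M.C.exp_spin_unitary (cv_skew_smul (skew_mat (G.hat_transpose A)) t)

theorem Mod.rot_tst (M : Mod V F) (G : Gam) {A : M9} (hA : A.transpose = -A) (t : ℝ)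
    {φ : EE V → F} (h : Tst φ) : Tst (M.rot G A t φ) :=
  cv_tst _ (cv_R_inner hA (-t)) h

theorem Mod.rot_inv (M : Mod V F) (G : Gam) {A : M9} (hA : A.transpose = -A) (t : ℝ)
    {φ : EE V → F} (h : M.Inv φ) : M.Inv (M.rot G A t φ) := by
  intro ξ x
  have h1 : expL ((-t) • (mat A : EE V →L[ℝ] EE V)) (lift (M.L.ex ξ) x) =
      lift (M.L.ex ξ) (expL ((-t) • (mat A : EE V →L[ℝ] EE V)) x) := by
    refine expL_intertwine (lift (M.L.ex ξ)) (fun u => ?_) x
    rw [smul_apply, smul_apply, map_smul, cv_mat_lift]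
  have h2 : Commute (M.C.spin (mat (G.hat A))) (M.C.spin (lift (M.L.br ξ))) :=
    cv_spin_commute M.C (skew_mat (G.hat_transpose A)) (skew_lift (M.L.skew_br ξ))
      (cv_mat_lift _ _)
  have h5 : Commute (exp (t • M.C.spin (mat (G.hat A)))) (M.rho ξ) := (h2.smul_left t).exp
  have h6 := congrArg (fun B : F →L[ℂ] F => B (φ (expL ((-t) • (mat A : EE V →L[ℝ] EE V)) x))) h5
  simp only [mul_apply_eq_comp] at h6
  unfold Mod.rot
  rw [h1, h ξ, h6]

lemma cv_antisym {A : M9} (hA : A.transpose = -A) (k : Fin 9 → Fin 9 → ℝ)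
    (hk : ∀ j l, k j l = k l j) : ∑ j, ∑ l, A j l * k j l = 0 := by
  have h1 : ∑ j, ∑ l, A j l * k j l = -∑ j, ∑ l, A j l * k j l := by
    conv_lhs => rw [Finset.sum_comm]
    simp only [← Finset.sum_neg_distrib]
    refine Finset.sum_congr rfl fun j _ => Finset.sum_congr rfl fun l _ => ?_
    have : A l j = -A j l := congrFun (congrFun hA j) l
    rw [this, hk l j]
    ring
  linarith

omit [MeasurableSpace V] [BorelSpace V] in
lemma cv_pot (L : CL V) {A : M9} (hA : A.transpose = -A) (t : ℝ) (x : EE V) :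
    L.pot (expL (t • (mat A : EE V →L[ℝ] EE V)) x) = L.pot x := by
  set y : ℝ → EE V := fun t => expL (t • (mat A : EE V →L[ℝ] EE V)) x with hy
  have hc : ∀ i t, HasDerivAt (fun t => y t i) (mat A (y t) i) t := fun i t =>
    (PiLp.proj (𝕜 := ℝ) 2 (fun _ : Fin 9 => V) i).hasFDerivAt.comp_hasDerivAt t
      (cv_flow (mat A : EE V →L[ℝ] EE V) x t)
  have hb : ∀ i j t, HasDerivAt (fun t => ‖L.br (y t i) (y t j)‖ ^ 2)
      (2 * ⟪L.br (y t i) (y t j), L.br (mat A (y t) i) (y t j) + L.br (y t i) (mat A (y t) j)⟫_ℝ)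
      t := fun i j t =>
    ((L.br.hasFDerivAt.comp_hasDerivAt t (hc i t)).clm_apply (hc j t)).norm_sq
  have hz : ∀ z : EE V, ∑ i, ∑ j,
      2 * ⟪L.br (z i) (z j), L.br (mat A z i) (z j) + L.br (z i) (mat A z j)⟫_ℝ = 0 := by
    intro z
    have h1 : ∑ i, ∑ j, ⟪L.br (z i) (z j), L.br (z i) (mat A z j)⟫_ℝ = 0 := by
      refine Finset.sum_eq_zero fun i _ => ?_
      simp only [mat_apply, map_sum, map_smul, inner_sum, inner_smul_right]
      exact cv_antisym hA _ fun j l => real_inner_comm _ _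
    have h2 : ∑ i, ∑ j, ⟪L.br (z i) (z j), L.br (mat A z i) (z j)⟫_ℝ = 0 := by
      rw [Finset.sum_comm, ← h1]
      refine Finset.sum_congr rfl fun i _ => Finset.sum_congr rfl fun j _ => ?_
      rw [L.skew (z j) (z i), L.skew (mat A z j) (z i), inner_neg_neg]
    simp only [inner_add_right, ← Finset.mul_sum, Finset.sum_add_distrib, h1, h2]
    simp
  have hp : ∀ t, HasDerivAt (fun t => L.pot (y t)) 0 t := by
    intro t
    have h1 := (HasDerivAt.fun_sum (u := Finset.univ) fun i _ =>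
      HasDerivAt.fun_sum (u := Finset.univ) fun j _ => hb i j t).const_mul (1 / 4 : ℝ)
    rw [hz, mul_zero] at h1
    exact h1
  have h2 := is_const_of_deriv_eq_zero (fun t => (hp t).differentiableAt)
    (fun t => (hp t).deriv) t 0
  simpa only [hy, cv_expL_zero] using h2

omit [MeasurableSpace V] [BorelSpace V] in
lemma cv_Gm_inf (G : Gam) (L : CL V) {A : M9} (hA : A.transpose = -A) (y : EE V) (v : SS V) :
    Gm G L (mat A y) v + Gm G L y (mat (G.hat A) v) = mat (G.hat A) (Gm G L y v) := by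
  have hG : ∀ (y : EE V) (v : SS V), Gm G L y v = ∑ j, mat (G.g j) (lift (L.br (y j)) v) := by
    intro y v
    simp [Gm]
  have h1 : ∀ (j : Fin 9) (w : SS V), mat (G.hat A) (mat (G.g j) w) =
      mat (G.g j) (mat (G.hat A) w) + ∑ l, A l j • mat (G.g l) w := by
    intro j w
    have h2 : G.hat A * G.g j = G.g j * G.hat A + ∑ l, A l j • G.g l := by
      rw [← G.hat_comm hA j]
      abel
    rw [← cv_mat_mul, ← cv_mat_mul, h2]
    ext s
    simp only [mat_apply, Matrix.add_apply, Matrix.sum_apply, Matrix.smul_apply, smul_eq_mul,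
      add_smul, Finset.sum_add_distrib, PiLp.add_apply, WithLp.ofLp_sum, Finset.sum_apply,
      WithLp.ofLp_smul, Pi.smul_apply, Finset.sum_smul, Finset.smul_sum,
      smul_smul]
    congr 1
    exact Finset.sum_comm
  have h3 : ∀ l : Fin 9, (lift (L.br (mat A y l)) v : SS V) =
      ∑ j, A l j • lift (L.br (y j)) v := by
    intro l
    ext s
    simp
  rw [hG, hG, hG, map_sum]
  simp only [h1, h3, map_sum, map_smul, Finset.sum_add_distrib, ← cv_mat_lift]
  rw [add_comm, Finset.sum_comm]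

lemma cv_Gm (G : Gam) (L : CL V) {A : M9} (hA : A.transpose = -A) (t : ℝ) (x : EE V) (u : SS V) :
    Gm G L (expL (t • (mat A : EE V →L[ℝ] EE V)) x)
        (expL (t • (mat (G.hat A) : SS V →L[ℝ] SS V)) u) =
      expL (t • (mat (G.hat A) : SS V →L[ℝ] SS V)) (Gm G L x u) := by
  obtain ⟨Γ, hΓ⟩ := Gm_clm G L
  have h := cv_bil Γ (T' := mat A) (T := mat (G.hat A))
    (fun y v => by rw [hΓ, hΓ]; exact cv_Gm_inf G L hA y v) t x u
  rwa [hΓ, hΓ] at h

theorem Mod.rot_q0 (M : Mod V F) (G : Gam) {A : M9} (hA : A.transpose = -A) (t lam : ℝ)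
    {φ : EE V → F} (h : Tst φ) : M.q0 G lam (M.rot G A t φ) = M.q0 G lam φ := by
  refine cv_sch (cv_R_inner hA (-t)) (cv_U_unitary M G A t) (fun x => ?_) (fun x => ?_)
    (h.1.differentiable (by simp))
  · rw [cv_pot M.L hA]
  · refine cv_conj M.C (skew_mat (G.hat_transpose A)) t (-lam) fun u => ?_
    rw [← cv_Gm G M.L hA, cv_cancel]

theorem Mod.rot_n2 (M : Mod V F) (G : Gam) {A : M9} (hA : A.transpose = -A) (t : ℝ)
    (φ : EE V → F) : n2 (M.rot G A t φ) = n2 φ := by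
  unfold n2 Mod.rot
  rw [← cv_int (cv_R_inner hA (-t)) (fun x => ‖φ x‖ ^ 2)]
  simp only [ContinuousLinearMap.norm_map_of_mem_unitary (cv_U_unitary M G A t)]

theorem Mod.rot_deriv (M : Mod V F) (G : Gam) {A : M9} (hA : A.transpose = -A) (t : ℝ)
    {φ : EE V → F} (h : Differentiable ℝ φ) (x : EE V) :
    HasDerivAt (fun t => M.rot G A t φ x) ((-I) • M.J G A (M.rot G A t φ) x) t :=
  cv_rot_deriv (M.C.spin (mat (G.hat A))) (mat A : EE V →L[ℝ] EE V) h x t

/-- invariant forms have invariant densities -/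
theorem Mod.Inv.g2 {M : Mod V F} {φ : EE V → F} (hd : Differentiable ℝ φ) (h : M.Inv φ) :
    M.L.SInv (g2 φ) := by
  intro ξ x
  have h1 := cv_g2 (cv_lift_inner M.L ξ) (one_mem (unitary (F →L[ℂ] F))) hd x
  have h2 := cv_g2 (g := (1 : EE V →L[ℝ] EE V)) (fun _ _ => rfl) (M.rho_unitary ξ) hd x
  simp only [one_apply_eq_self, h ξ] at h1 h2
  rw [← h1, h2]

theorem Mod.Inv.opf_density {M : Mod V F} {T : EE V → SS V →L[ℝ] SS V}
    (hT : ∀ ξ x u, T (lift (M.L.ex ξ) x) (lift (M.L.ex ξ) u) = lift (M.L.ex ξ) (T x u))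
    {φ : EE V → F} (h : M.Inv φ) :
    M.L.SInv fun x => (⟪φ x, (I • M.C.spin (T x)) (φ x)⟫_ℂ).re := by
  intro ξ x
  have hc : ∀ u : SS V, lift (M.L.ex ξ) (lift (M.L.ex (-ξ)) u) = u := by
    intro u
    ext i
    exact congrArg (fun A : V →L[ℝ] V => A (u i)) (M.L.ex_neg ξ).1
  have h1 := M.C.conj_spin (g' := lift (M.L.ex (-ξ))) (cv_lift_inner M.L ξ)
    (ContinuousLinearMap.ext hc) (M.rho_th ξ) (T x)
  have h2 : (lift (M.L.ex ξ) * T x * lift (M.L.ex (-ξ)) : SS V →L[ℝ] SS V) =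
      T (lift (M.L.ex ξ) x) := by
    refine ContinuousLinearMap.ext fun u => ?_
    rw [mul_apply_eq_comp, mul_apply_eq_comp, ← hT, hc]
  rw [h2] at h1
  have h3 := congrArg (fun B : F →L[ℂ] F => B (φ x)) h1
  simp only [mul_apply_eq_comp] at h3
  simp only [h ξ x, smul_apply]
  rw [← h3, ← map_smul, ContinuousLinearMap.inner_map_map_of_mem_unitary (M.rho_unitary ξ)]

end Vale.Agent.P353
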