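import Vale.Agent.P353.ASpin

open MeasureTheory NormedSpace
open Complex (I)
open scoped InnerProductSpace ContDiff

noncomputable section
namespace Vale.Agent.P353
variable {S F : Type} [NormedAddCommGroup S] [InnerProductSpace ℝ S] [FiniteDimensional ℝ S]
  [NormedAddCommGroup F] [InnerProductSpace ℂ F] [CompleteSpace F]

namespace AExp
section alg
variable {A : Type} [NormedRing A] [NormedAlgebra ℝ A] [CompleteSpace A]

theorem add {x y : A} (h : Commute x y) : exp (x + y) = exp x * exp y := by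
  letI : NormedAlgebra ℚ A := NormedAlgebra.restrictScalars ℚ ℝ A
  exact exp_add_of_commute h

theorem exp_mul_neg (x : A) : exp x * exp (-x) = 1 ∧ exp (-x) * exp x = 1 := by
  rw [← add (Commute.refl x).neg_right, ← add (Commute.refl x).neg_left, add_neg_cancel,
    neg_add_cancel, exp_zero]
  exact ⟨rfl, rfl⟩

theorem contDiff : ContDiff ℝ ∞ (fun x : A => exp x) :=
  contDiff_iff_contDiffAt.2 fun x => (exp_analytic (𝕂 := ℝ) x).contDiffAt

theorem conj (θ : S →L[ℝ] A) {s : A} {T : S →L[ℝ] S} (h : ∀ u, s * θ u - θ u * s = θ (T u))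
    (u : S) : exp s * θ u = θ (expL T u) * exp s := by
  haveI := FiniteDimensional.complete ℝ S
  have h1 : ∀ t : ℝ, HasDerivAt
      (fun t : ℝ => exp (t • -s) * θ (exp (t • T) u) * exp (t • s)) 0 t := fun t => by
    have a1 := hasDerivAt_exp_smul_const (-s) t
    have a2 := θ.hasFDerivAt.comp_hasDerivAt t
      ((hasDerivAt_exp_smul_const' T t).clm_apply (hasDerivAt_const t u))
    have a3 := hasDerivAt_exp_smul_const' s t
    refine ((a1.mul a2).mul a3).congr_deriv ?_
    simp only [Function.comp_apply, map_zero, add_zero, ContinuousLinearMap.mul_apply, ← h,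
      Pi.mul_apply]
    noncomm_ring
  have h2 := is_const_of_deriv_eq_zero (fun t => (h1 t).differentiableAt) (fun t => (h1 t).deriv)
    1 0
  simp only [one_smul, zero_smul, exp_zero, one_mul, mul_one, ContinuousLinearMap.one_apply] at h2
  rw [← h2, ← mul_assoc, ← mul_assoc, (exp_mul_neg s).1, one_mul]
  rfl

end alg

theorem star_skew [CompleteSpace S] {T : S →L[ℝ] S} (h : Skew T) : star T = -T := by
  rw [ContinuousLinearMap.star_eq_adjoint, eq_comm, ContinuousLinearMap.eq_adjoint_iff]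
  intro x y
  rw [ContinuousLinearMap.neg_apply, inner_neg_left, h, neg_neg]

section par
variable {ι A : Type} [Ring A] [Algebra ℝ A] {c : ι → A}

theorem anti (hc : ∀ i j, i ≠ j → c i * c j = -(c j * c i)) {j : ι} :
    ∀ l : List ι, j ∉ l → c j * (l.map c).prod = (-1 : ℝ) ^ l.length • ((l.map c).prod * c j)
  | [], _ => by simp
  | a :: l, h => by
    rw [List.mem_cons, not_or] at h
    rw [List.map_cons, List.prod_cons, ← mul_assoc, hc _ _ h.1, neg_mul, mul_assoc, anti hc l h.2,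
      List.length_cons, pow_succ, mul_neg_one, neg_smul, mul_smul_comm, mul_assoc]

theorem anti' (hc : ∀ i j, i ≠ j → c i * c j = -(c j * c i)) {j : ι} :
    ∀ l : List ι, l.Nodup → j ∈ l →
      c j * (l.map c).prod = -((-1 : ℝ) ^ l.length • ((l.map c).prod * c j))
  | [], _, h => by simp at h
  | a :: l, hl, h => by
    rw [List.nodup_cons] at hl
    rw [List.map_cons, List.prod_cons, List.length_cons, pow_succ, mul_neg_one, neg_smul, neg_neg]
    rcases List.mem_cons.1 h with rfl | h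
    · rw [mul_assoc, ← mul_smul_comm, ← anti hc l hl.1]
    · have h1 : j ≠ a := fun e => hl.1 (e ▸ h)
      rw [← mul_assoc, hc _ _ h1, neg_mul, mul_assoc, anti' hc l hl.2 h, mul_neg, neg_neg,
        mul_smul_comm, mul_assoc]

theorem prod_star [StarRing A] (hc : ∀ i j, i ≠ j → c i * c j = -(c j * c i))
    (h1 : ∀ i, c i * c i = 1) (h2 : ∀ i, star (c i) = c i) : ∀ l : List ι, l.Nodup →
      star (l.map c).prod * (l.map c).prod = 1 ∧
        (star (l.map c).prod = (l.map c).prod ∨ star (l.map c).prod = -(l.map c).prod)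
  | [], _ => by simp
  | a :: l, hl => by
    rw [List.nodup_cons] at hl
    obtain ⟨e1, e2⟩ := prod_star hc h1 h2 l hl.2
    have e3 := anti hc l hl.1
    rw [List.map_cons, List.prod_cons, star_mul, h2]
    refine ⟨by rw [mul_assoc, ← mul_assoc (c a), h1, one_mul, e1], ?_⟩
    rcases neg_one_pow_eq_or ℝ l.length with e | e <;> rcases e2 with e2 | e2 <;>
      simp [e3, e, e2]

end par

theorem deriv_inv {φ : S → F} (hd : Differentiable ℝ φ) {T : S →L[ℝ] S} {s : F →L[ℂ] F} {x : S}
    (h : ∀ t : ℝ, φ (expL (t • T) x) = exp (t • s) (φ x)) : fderiv ℝ φ x (T x) = s (φ x) := by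
  haveI := FiniteDimensional.complete ℝ S
  have a1 := (hasDerivAt_exp_smul_const' T (0 : ℝ)).clm_apply (hasDerivAt_const 0 x)
  have a2 := (hd _).hasFDerivAt.comp_hasDerivAt (0 : ℝ) a1
  have a3 := (((ContinuousLinearMap.apply ℂ F (φ x)).restrictScalars ℝ).hasFDerivAt).comp_hasDerivAt
    (0 : ℝ) (hasDerivAt_exp_smul_const' s (0 : ℝ))
  have a4 := a2.unique (a3.congr_of_eventuallyEq (Filter.Eventually.of_forall h))
  simpa using a4

end AExp

theorem expL_inner {T : S →L[ℝ] S} (h : Skew T) (u v : S) : ⟪expL T u, expL T v⟫_ℝ = ⟪u, v⟫_ℝ := by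
  haveI := FiniteDimensional.complete ℝ S
  have h1 : star (expL T) * expL T = 1 := by
    rw [expL, star_exp, AExp.star_skew h]
    exact (AExp.exp_mul_neg T).2
  rw [← ContinuousLinearMap.adjoint_inner_right, ← ContinuousLinearMap.star_eq_adjoint,
    ← ContinuousLinearMap.mul_apply, h1, ContinuousLinearMap.one_apply]
theorem expL_mul_neg (T : S →L[ℝ] S) : expL T * expL (-T) = 1 ∧ expL (-T) * expL T = 1 := by
  haveI := FiniteDimensional.complete ℝ S
  exact AExp.exp_mul_neg T
theorem expL_add {T U : S →L[ℝ] S} (h : T * U = U * T) : expL (T + U) = expL T * expL U := by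
  haveI := FiniteDimensional.complete ℝ S
  exact AExp.add h
theorem hasDerivAt_expL (T : S →L[ℝ] S) (t : ℝ) :
    HasDerivAt (fun t : ℝ => expL (t • T)) (expL (t • T) * T) t := by
  haveI := FiniteDimensional.complete ℝ S
  exact hasDerivAt_exp_smul_const T t
theorem contDiff_expL : ContDiff ℝ ∞ (expL : (S →L[ℝ] S) → S →L[ℝ] S) := by
  haveI := FiniteDimensional.complete ℝ S
  exact AExp.contDiff
theorem hasFDerivAt_expL_zero :
    HasFDerivAt (expL : (S →L[ℝ] S) → S →L[ℝ] S) (ContinuousLinearMap.id ℝ _) 0 := by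
  haveI := FiniteDimensional.complete ℝ S
  exact hasFDerivAt_exp_zero
/-- intertwiners pass to exponentials -/
theorem expL_intertwine {S' : Type} [NormedAddCommGroup S'] [InnerProductSpace ℝ S']
    [FiniteDimensional ℝ S'] (j : S' →L[ℝ] S) {T : S →L[ℝ] S} {T' : S' →L[ℝ] S'}
    (h : ∀ u, T (j u) = j (T' u)) (u : S') : expL T (j u) = j (expL T' u) := by
  haveI := FiniteDimensional.complete ℝ S
  haveI := FiniteDimensional.complete ℝ S'
  have h1 : ∀ k : ℕ, ∀ u, (T ^ k) (j u) = j ((T' ^ k) u) := fun k => by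
    induction k with
    | zero => simp
    | succ k ih => simp [pow_succ, h, ih]
  have h2 := (ContinuousLinearMap.apply ℝ S (j u)).hasSum (exp_series_hasSum_exp' (𝕂 := ℝ) T)
  have h3 := (j ∘L ContinuousLinearMap.apply ℝ S' u).hasSum (exp_series_hasSum_exp' (𝕂 := ℝ) T')
  simp only [map_smul, ContinuousLinearMap.apply_apply, ContinuousLinearMap.comp_apply, h1] at h2 h3
  exact h2.unique h3
theorem expL_lift {n : ℕ} (T : S →L[ℝ] S) : expL (lift (n := n) T) = lift (expL T) := by
  ext x i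
  exact (expL_intertwine (PiLp.proj 2 (fun _ : Fin n => S) i) (T := T) (T' := lift T)
    (fun _ => rfl) x).symm
theorem Cl.exp_spin_th (C : Cl S F) {T : S →L[ℝ] S} (h : Skew T) (u : S) :
    exp (C.spin T) * C.th u = C.th (expL T u) * exp (C.spin T) := by
  exact AExp.conj C.th (C.spin_comm h) u
theorem Cl.exp_spin_unitary (C : Cl S F) {T : S →L[ℝ] S} (h : Skew T) :
    exp (C.spin T) ∈ unitary (F →L[ℂ] F) := by
  rw [Unitary.mem_iff, star_exp, C.spin_star h]
  exact (AExp.exp_mul_neg _).symm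
theorem Cl.exp_spin_neg (C : Cl S F) {T : S →L[ℝ] S} (h : Skew T) :
    star (exp (C.spin T)) = exp (C.spin (-T)) := by
  rw [star_exp, C.spin_star h, ← neg_one_smul ℝ T, C.spin_smul, neg_one_smul]
/-- a unitary implementing the orthogonal map `g` conjugates spin lifts -/
theorem Cl.conj_spin (C : Cl S F) {U : F →L[ℂ] F} {g g' : S →L[ℝ] S}
    (hg : ∀ u v, ⟪g u, g v⟫_ℝ = ⟪u, v⟫_ℝ) (hg' : g * g' = 1) (hU : ∀ u, U * C.th u = C.th (g u) * U)
    (T : S →L[ℝ] S) : U * C.spin T = C.spin (g * T * g') * U := by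
  let e : S ≃ₗᵢ[ℝ] S := (LinearMap.isometryOfInner g.toLinearMap hg).toLinearIsometryEquiv rfl
  have h1 : ∀ x, g' (g x) = x := fun x => e.injective (by
    change (g * g') (g x) = g x
    rw [hg', ContinuousLinearMap.one_apply])
  have h2 : ∀ a, (stdOrthonormalBasis ℝ S).map e a = g (stdOrthonormalBasis ℝ S a) := fun _ => rfl
  rw [C.spin_onb (g * T * g') ((stdOrthonormalBasis ℝ S).map e), Cl.spin, mul_smul_comm, smul_mul_assoc,
    Finset.mul_sum, Finset.sum_mul]
  refine congrArg _ (Finset.sum_congr rfl fun a _ => ?_)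
  rw [← mul_assoc, hU, mul_assoc, hU, h2, ContinuousLinearMap.mul_apply,
    ContinuousLinearMap.mul_apply, h1, mul_assoc]
theorem contDiff_exp_clm : ContDiff ℝ ∞ (fun A : F →L[ℂ] F => exp A) := by
  exact AExp.contDiff
/-- Schur lemma -/
theorem Cl.Irr.scalar [FiniteDimensional ℂ F] {C : Cl S F} (h : C.Irr) {A : F →L[ℂ] F}
    (hA : ∀ u, A * C.th u = C.th u * A) : ∃ c : ℂ, A = c • 1 := by
  rcases subsingleton_or_nontrivial F with hF | hF
  · exact ⟨0, Subsingleton.elim _ _⟩
  obtain ⟨c, hc⟩ := Module.End.exists_eigenvalue A.toLinearMap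
  rcases h (Module.End.eigenspace A.toLinearMap c) (fun u w hw => by
    rw [Module.End.mem_eigenspace_iff] at hw ⊢
    change (A * C.th u) w = _
    rw [hA, ContinuousLinearMap.mul_apply, ← map_smul]
    exact congrArg _ hw) with h1 | h1
  · exact absurd h1 hc
  · refine ⟨c, ContinuousLinearMap.ext fun w => ?_⟩
    exact Module.End.mem_eigenspace_iff.1 (h1 ▸ Submodule.mem_top :
      w ∈ Module.End.eigenspace A.toLinearMap c)
/-- a parity operator -/
theorem Cl.exists_parity (C : Cl S F) (h : Even (Module.finrank ℝ S)) :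
    ∃ Γ : F →L[ℂ] F, IsSelfAdjoint Γ ∧ Γ * Γ = 1 ∧ ∀ u, Γ * C.th u = -(C.th u * Γ) := by
  let b := stdOrthonormalBasis ℝ S
  let c : Fin (Module.finrank ℝ S) → F →L[ℂ] F := fun i => C.th (√2 • b i)
  have h0 : ∀ i j, c i * c j + c j * c i = (2 * ⟪b i, b j⟫_ℝ : ℝ) • (1 : F →L[ℂ] F) := by
    intro i j
    rw [C.car, real_inner_smul_left, real_inner_smul_right, ← mul_assoc,
      Real.mul_self_sqrt zero_le_two]
  have h1 : ∀ i j, i ≠ j → c i * c j = -(c j * c i) := fun i j hij => by
    rw [eq_neg_iff_add_eq_zero, h0, b.orthonormal.2 hij, mul_zero, zero_smul]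
  have h2 : ∀ i, c i * c i = 1 := fun i => by
    rw [C.th_sq, norm_smul, b.orthonormal.1 i, mul_one, Real.norm_eq_abs, sq_abs,
      Real.sq_sqrt zero_le_two, div_self two_ne_zero, one_smul]
  obtain ⟨h3, h4⟩ := AExp.prod_star h1 h2 (fun i => C.sa _) _ (List.nodup_finRange _)
  set w := ((List.finRange (Module.finrank ℝ S)).map c).prod
  have h5 : ∀ u, w * C.th u = -(C.th u * w) := fun u => by
    have h6 : ∀ i, w * C.th (b i) = -(C.th (b i) * w) := fun i => by
      have h7 := AExp.anti' h1 _ (List.nodup_finRange _) (List.mem_finRange i)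
      rw [List.length_finRange, h.neg_one_pow, one_smul] at h7
      change C.th (√2 • b i) * w = -(w * C.th (√2 • b i)) at h7
      rw [map_smul, smul_mul_assoc, mul_smul_comm, ← smul_neg] at h7
      rw [smul_right_injective _ (Real.sqrt_ne_zero'.2 zero_lt_two) h7, neg_neg]
    rw [← b.sum_repr u]
    simp only [map_sum, map_smul, Finset.mul_sum, Finset.sum_mul, mul_smul_comm, smul_mul_assoc,
      h6, smul_neg, Finset.sum_neg_distrib]
  rcases h4 with h4 | h4
  · exact ⟨w, h4, by rwa [h4] at h3, h5⟩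
  · refine ⟨I • w, ?_, ?_, fun u => ?_⟩
    · rw [IsSelfAdjoint, star_smul, h4, Complex.star_def, Complex.conj_I, neg_smul_neg]
    · rw [h4, neg_mul] at h3
      rw [smul_mul_smul_comm, Complex.I_mul_I, neg_one_smul, h3]
    · rw [smul_mul_assoc, h5, mul_smul_comm, smul_neg]

section
variable {V : Type} [NormedAddCommGroup V] [InnerProductSpace ℝ V] [FiniteDimensional ℝ V]
theorem CL.skew_br (L : CL V) (ξ : V) : Skew (L.br ξ) := by
  exact L.inv ξ
theorem skew_lift {n : ℕ} {T : V →L[ℝ] V} (h : Skew T) : Skew (lift (n := n) T) := by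
  intro u v
  simp only [PiLp.inner_apply, lift_apply, h _ _, Finset.sum_neg_distrib]
theorem skew_mat {n : ℕ} {M : Matrix (Fin n) (Fin n) ℝ} (h : M.transpose = -M) :
    Skew (mat M : PiLp 2 (fun _ : Fin n => V) →L[ℝ] _) := by
  intro u v
  have h1 : ∀ i j, M i j = -M j i := fun i j => congrFun (congrFun h j) i
  simp only [PiLp.inner_apply, mat_apply, sum_inner, inner_sum, real_inner_smul_left,
    real_inner_smul_right, ← Finset.sum_neg_distrib]
  rw [Finset.sum_comm]
  exact Finset.sum_congr rfl fun i _ => Finset.sum_congr rfl fun j _ => by rw [h1 j i, neg_mul]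
theorem symm_mat {n : ℕ} {M : Matrix (Fin n) (Fin n) ℝ} (h : M.IsSymm) :
    Symm (mat M : PiLp 2 (fun _ : Fin n => V) →L[ℝ] _) := by
  intro u v
  simp only [PiLp.inner_apply, mat_apply, sum_inner, inner_sum, real_inner_smul_left,
    real_inner_smul_right]
  rw [Finset.sum_comm]
  exact Finset.sum_congr rfl fun i _ => Finset.sum_congr rfl fun j _ => by rw [h.apply i j]
theorem mat_mul {n m k : ℕ} (M : Matrix (Fin n) (Fin m) ℝ) (N : Matrix (Fin m) (Fin k) ℝ) :
    (mat (M * N) : PiLp 2 (fun _ : Fin k => V) →L[ℝ] _) = mat M ∘L mat N := by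
  ext x i
  simp only [ContinuousLinearMap.comp_apply, mat_apply, Matrix.mul_apply, Finset.sum_smul,
    Finset.smul_sum, smul_smul]
  exact Finset.sum_comm
theorem mat_lift {W : Type} [NormedAddCommGroup W] [InnerProductSpace ℝ W] {n m : ℕ}
    (M : Matrix (Fin n) (Fin m) ℝ) (g : V →L[ℝ] W) : mat M ∘L lift g = lift g ∘L mat M := by
  ext x i
  simp only [ContinuousLinearMap.comp_apply, mat_apply, lift_apply, map_sum, map_smul]
theorem tr_mat_lift {n : ℕ} (M : Matrix (Fin n) (Fin n) ℝ) (g : V →L[ℝ] V) :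
    tr (mat M ∘L lift g) = M.trace * tr g := by
  rw [tr_eq_sum (Pi.orthonormalBasis fun _ : Fin n => stdOrthonormalBasis ℝ V),
    tr_eq_sum (stdOrthonormalBasis ℝ V), Fintype.sum_sigma, Matrix.trace, Finset.sum_mul]
  refine Finset.sum_congr rfl fun i _ => ?_
  rw [Finset.mul_sum]
  refine Finset.sum_congr rfl fun a _ => ?_
  have h : ∀ (p : Prop) [Decidable p] (v w : V), ⟪if p then v else 0, w⟫_ℝ =
      if p then ⟪v, w⟫_ℝ else 0 := fun p _ v w => by split_ifs <;> simp
  simp [PiLp.inner_apply, Pi.single_apply, apply_ite g, inner_smul_right, smul_ite, h]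
theorem CL.ex_inner (L : CL V) (ξ a b : V) : ⟪L.ex ξ a, L.ex ξ b⟫_ℝ = ⟪a, b⟫_ℝ := by
  exact expL_inner (L.skew_br ξ) a b
theorem CL.ex_br (L : CL V) (ξ a b : V) : L.ex ξ (L.br a b) = L.br (L.ex ξ a) (L.ex ξ b) := by
  haveI := FiniteDimensional.complete ℝ V
  have h := AExp.conj L.br (s := L.br ξ) (T := L.br ξ) (fun u => by
    ext v
    simp [L.jac ξ u v]) a
  exact congrArg (fun A : V →L[ℝ] V => A b) h
theorem CL.ex_neg (L : CL V) (ξ : V) : L.ex ξ * L.ex (-ξ) = 1 ∧ L.ex (-ξ) * L.ex ξ = 1 := by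
  rw [CL.ex, CL.ex, map_neg]
  exact expL_mul_neg _
theorem Mod.rho_th (M : Mod V F) (ξ : V) (u : SS V) :
    M.rho ξ * M.C.th u = M.C.th (lift (M.L.ex ξ) u) * M.rho ξ := by
  rw [CL.ex, ← expL_lift]
  exact M.C.exp_spin_th (skew_lift (M.L.skew_br ξ)) u
theorem Mod.rho_unitary (M : Mod V F) (ξ : V) : M.rho ξ ∈ unitary (F →L[ℂ] F) := by
  exact M.C.exp_spin_unitary (skew_lift (M.L.skew_br ξ))
/-- infinitesimal gauge invariance -/
theorem Mod.Inv.deriv {M : Mod V F} {φ : EE V → F} (h : M.Inv φ) (hd : Differentiable ℝ φ)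
    (ξ : V) (x : EE V) :
    fderiv ℝ φ x (lift (M.L.br ξ) x) = M.C.spin (lift (M.L.br ξ)) (φ x) := by
  refine AExp.deriv_inv hd fun t => ?_
  have h1 : t • lift (n := 9) (M.L.br ξ) = lift (M.L.br (t • ξ)) := by
    ext x i
    simp
  have h2 : t • lift (n := 16) (M.L.br ξ) = lift (M.L.br (t • ξ)) := by
    ext x i
    simp
  rw [h1, expL_lift, ← Cl.spin_smul, h2]
  exact h _ x
theorem Mod.RInv.J_eq {M : Mod V F} {G : Gam} {A : M9} {φ : EE V → F} (h : M.RInv G A φ)
    (hd : Differentiable ℝ φ) (x : EE V) : M.J G A φ x = 0 := by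
  rw [Mod.J, AExp.deriv_inv hd fun t => h t x, neg_smul, neg_add_cancel]
theorem Mod.Inv.norm {M : Mod V F} {φ : EE V → F} (h : M.Inv φ) : M.L.SInv fun x => ‖φ x‖ := by
  intro ξ x
  simp only [h ξ x]
  exact (M.rho ξ).norm_map_of_mem_unitary (M.rho_unitary ξ) _
theorem Mod.Inv.smul {M : Mod V F} {φ : EE V → F} (h : M.Inv φ) {a : EE V → ℝ}
    (ha : M.L.SInv a) : M.Inv fun x => a x • φ x := by
  intro ξ x
  simp only [h ξ x, ha ξ x]
  exact ((M.rho ξ).map_smul_of_tower _ _).symm
end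

end Vale.Agent.P353
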