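import Vale.Agent.P353.Defs

/-! The Fierz identity for nine real symmetric anticommuting matrices of size sixteen. -/

namespace Vale.Agent.P353

open Matrix

/-- the Clifford relations -/
structure IsGam (γ : Fin 9 → M16) : Prop where
  symm : ∀ i, (γ i)ᵀ = γ i
  anti : ∀ i j, γ i * γ j + γ j * γ i = if i = j then (2 : ℝ) • (1 : M16) else 0

namespace IsGam

variable {γ : Fin 9 → M16} (h : IsGam γ)
include h

theorem sq (i : Fin 9) : γ i * γ i = 1 := by
  have h1 := h.anti i i
  rw [if_pos rfl, ← two_smul ℝ] at h1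
  exact smul_right_injective _ two_ne_zero h1

theorem swap {i j : Fin 9} (hij : i ≠ j) : γ i * γ j = -(γ j * γ i) := by
  have h1 := h.anti i j
  rw [if_neg hij] at h1
  exact eq_neg_of_add_eq_zero_left h1

omit h in
/-- products of generators -/
def gp (γ : Fin 9 → M16) (l : List (Fin 9)) : M16 := (l.map γ).prod

theorem conj_gp (k : Fin 9) (l : List (Fin 9)) :
    γ k * gp γ l * γ k = ((-1 : ℝ) ^ l.countP (· ≠ k)) • gp γ l := by
  induction l with
  | nil => simp [gp, h.sq]
  | cons i l ih =>
    have e : gp γ (i :: l) = γ i * gp γ l := by simp [gp]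
    by_cases hi : i = k
    · subst hi
      rw [e, List.countP_cons_of_neg (by simp), ← mul_smul_comm, ← ih]
      simp only [mul_assoc]
    · rw [e, List.countP_cons_of_pos (by simpa using hi), pow_succ, mul_smul, ← mul_assoc,
        h.swap (Ne.symm hi), smul_comm, ← mul_smul_comm, ← ih]
      simp only [mul_assoc, neg_mul, neg_smul, one_smul]

theorem tr_mul_gp (l : List (Fin 9)) : (gp γ l)ᵀ * gp γ l = 1 := by
  induction l with
  | nil => simp [gp]
  | cons i l ih =>
    have e : gp γ (i :: l) = γ i * gp γ l := by simp [gp]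
    rw [e, transpose_mul, h.symm, mul_assoc, ← mul_assoc (γ i), h.sq, one_mul, ih]

theorem tr_gp {l : List (Fin 9)} (hl : l.Nodup) :
    (gp γ l)ᵀ = ((-1 : ℝ) ^ l.length.choose 2) • gp γ l := by
  induction l with
  | nil => simp [gp]
  | cons i l ih =>
    have e : gp γ (i :: l) = γ i * gp γ l := by simp [gp]
    obtain ⟨h1, h2⟩ := List.nodup_cons.1 hl
    have h3 := h.conj_gp i l
    rw [List.countP_eq_length.2 fun j hj => by simpa using fun e : j = i => h1 (e ▸ hj)] at h3
    have h4 : gp γ l * γ i = ((-1 : ℝ) ^ l.length) • (γ i * gp γ l) := by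
      rw [← mul_smul_comm, ← h3, ← mul_assoc, ← mul_assoc, h.sq, one_mul]
    rw [e, transpose_mul, h.symm, ih h2, smul_mul_assoc, h4, smul_smul, List.length_cons,
      Nat.choose_succ_succ, Nat.choose_one_right, pow_add, mul_comm]

theorem orth {A B : M16} {k : Fin 9} {a : ℝ} (ha : a * a = 1) (hA : γ k * A * γ k = a • A)
    (hB : γ k * B * γ k = (-a) • B) : (Aᵀ * B).trace = 0 := by
  have h1 : ((γ k * A * γ k)ᵀ * (γ k * B * γ k)).trace = (Aᵀ * B).trace := by
    have e : (γ k * A * γ k)ᵀ * (γ k * B * γ k) = γ k * (Aᵀ * (γ k * γ k) * B * γ k) := by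
      simp only [transpose_mul, h.symm, mul_assoc]
    rw [e, trace_mul_comm, h.sq, mul_one, mul_assoc, h.sq, mul_one]
  rw [hA, hB, transpose_smul, smul_mul_smul_comm, trace_smul, mul_neg, ha, smul_eq_mul] at h1
  linarith

omit h in
/-- the word of a set -/
def wd (I : Finset (Fin 8)) : List (Fin 9) := (I.sort (· ≤ ·)).map Fin.castSucc

omit h in
theorem wd_nodup (I : Finset (Fin 8)) : (wd I).Nodup :=
  (I.sort_nodup _).map (Fin.castSucc_injective 8)

omit h in
theorem wd_length (I : Finset (Fin 8)) : (wd I).length = I.card := by simp [wd]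

omit h in
theorem mem_wd {I : Finset (Fin 8)} {k : Fin 8} : k.castSucc ∈ wd I ↔ k ∈ I := by simp [wd]

omit h in
theorem last_wd (I : Finset (Fin 8)) : Fin.last 8 ∉ wd I := by
  intro hI
  obtain ⟨k, -, hk⟩ := List.mem_map.1 hI
  exact Fin.castSucc_ne_last k hk

theorem conj_wd (k : Fin 9) (I : Finset (Fin 8)) : γ k * gp γ (wd I) * γ k =
    ((if k ∈ wd I then -1 else 1) * (-1 : ℝ) ^ I.card) • gp γ (wd I) := by
  rw [h.conj_gp, ← wd_length, List.length_eq_countP_add_countP (· ≠ k), pow_add]
  congr 1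
  have e : List.countP (fun a => decide ¬decide (a ≠ k) = true) (wd I) = (wd I).count k := by
    rw [List.count_eq_countP]
    exact List.countP_congr fun a _ => by simp
  rw [e]
  split_ifs with hk
  · rw [List.count_eq_one_of_mem (wd_nodup I) hk]
    ring
  · rw [List.count_eq_zero_of_not_mem hk]
    ring

theorem conj_gam (k i : Fin 9) : γ k * γ i * γ k = (if k = i then 1 else -1 : ℝ) • γ i := by
  split_ifs with hk
  · rw [hk, h.sq, one_mul, one_smul]
  · rw [h.swap hk, neg_mul, mul_assoc, h.sq, mul_one, neg_smul, one_smul]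

theorem orth_wd {I J : Finset (Fin 8)} (hIJ : I ≠ J) :
    ((gp γ (wd I))ᵀ * gp γ (wd J)).trace = 0 := by
  have hs : ∀ K : Finset (Fin 8), (-1 : ℝ) ^ K.card = 1 ∨ (-1 : ℝ) ^ K.card = -1 := fun K =>
    neg_one_pow_eq_or ℝ _
  by_cases hp : (-1 : ℝ) ^ I.card = (-1) ^ J.card
  · obtain ⟨k, hk⟩ : ∃ k, ¬(k ∈ I ↔ k ∈ J) := by
      by_contra hn
      push Not at hn
      exact hIJ (Finset.ext hn)
    refine h.orth ?_ (h.conj_wd k.castSucc I) ?_
    · rcases hs I with e | e <;> rw [e] <;> split_ifs <;> norm_num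
    · rw [h.conj_wd, hp]
      simp only [mem_wd]
      by_cases h1 : k ∈ I <;> by_cases h2 : k ∈ J <;> simp_all
  · refine h.orth ?_ (h.conj_wd (Fin.last 8) I) ?_
    · rcases hs I with e | e <;> rw [e] <;> split_ifs <;> norm_num
    · rw [h.conj_wd, if_neg (last_wd _), if_neg (last_wd _)]
      rcases hs I with e | e <;> rcases hs J with e' | e' <;> simp_all

theorem span_wd (S : M16) : ∃ c : Finset (Fin 8) → ℝ, S = ∑ I, c I • gp γ (wd I) := by
  have hli : LinearIndependent ℝ fun I : Finset (Fin 8) => gp γ (wd I) := by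
    refine Fintype.linearIndependent_iff.2 fun c hc I => ?_
    have h1 := congrArg (fun M => ((gp γ (wd I))ᵀ * M).trace) hc
    simp only [Finset.mul_sum, trace_sum, mul_smul_comm, trace_smul, mul_zero, trace_zero] at h1
    rw [Finset.sum_eq_single I (fun J _ hJ => by rw [h.orth_wd hJ.symm, smul_zero]) (by simp),
      h.tr_mul_gp] at h1
    simpa using h1
  have h2 := hli.span_eq_top_of_card_eq_finrank' (by simp [Module.finrank_matrix])
  obtain ⟨c, hc⟩ := (Submodule.mem_span_range_iff_exists_fun ℝ).1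
    (h2 ▸ Submodule.mem_top : S ∈ Submodule.span ℝ (Set.range fun I => gp γ (wd I)))
  exact ⟨c, hc.symm⟩

omit h in
theorem wd_single (i : Fin 8) : gp γ (wd {i}) = γ i.castSucc := by simp [wd, gp]

omit h in
theorem wd_empty : gp γ (wd ∅) = 1 := by simp [wd, gp]

theorem orth_last {I : Finset (Fin 8)} (hI : I ≠ Finset.univ) :
    (γ (Fin.last 8) * gp γ (wd I)).trace = 0 := by
  rw [← h.symm (Fin.last 8)]
  rcases neg_one_pow_eq_or ℝ I.card with e | e
  · obtain ⟨k, hk⟩ : ∃ k, k ∉ I := by
      by_contra hn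
      push Not at hn
      exact hI (Finset.eq_univ_of_forall hn)
    refine h.orth (a := -1) (k := k.castSucc) (by norm_num) ?_ ?_
    · rw [h.conj_gam, if_neg (Fin.castSucc_ne_last k)]
    · rw [h.conj_wd, if_neg (mt mem_wd.1 hk), e]
      norm_num
  · refine h.orth (a := 1) (k := Fin.last 8) (by norm_num) ?_ ?_
    · rw [h.conj_gam, if_pos rfl]
    · rw [h.conj_wd, if_neg (last_wd _), e]
      norm_num

theorem last_eq : (γ (Fin.last 8) * gp γ (wd Finset.univ)).trace • γ (Fin.last 8) =
    (16 : ℝ) • gp γ (wd Finset.univ) := by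
  obtain ⟨c, hc⟩ := h.span_wd (γ (Fin.last 8))
  have h0 : ∀ I, I ≠ Finset.univ → c I = 0 := fun I hI => by
    have h1 := h.orth_last hI
    rw [← trace_transpose, transpose_mul, h.symm, hc] at h1
    simp only [Finset.mul_sum, trace_sum, mul_smul_comm, trace_smul] at h1
    rw [Finset.sum_eq_single I (fun J _ hJ => by rw [h.orth_wd hJ.symm, smul_zero]) (by simp),
      h.tr_mul_gp] at h1
    simpa using h1
  rw [Finset.sum_eq_single Finset.univ (fun I _ hI => by rw [h0 I hI, zero_smul]) (by simp)] at hc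
  have h2 := h.sq (Fin.last 8)
  have h3 := h.tr_mul_gp (wd Finset.univ)
  rw [h.tr_gp (wd_nodup _), wd_length, show (Finset.univ : Finset (Fin 8)).card.choose 2 = 2 * 14
    from by decide, pow_mul, neg_one_sq, one_pow, one_smul] at h3
  rw [hc, smul_mul_smul_comm, h3] at h2
  have h4 : c Finset.univ * c Finset.univ = 1 := by simpa using congrFun (congrFun h2 0) 0
  rw [hc, smul_mul_assoc, h3, trace_smul, trace_one, smul_smul, Fintype.card_fin, smul_eq_mul]
  congr 1
  push_cast
  linear_combination 16 * h4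

theorem fierz_wd {I : Finset (Fin 8)} (hI : (-1 : ℝ) ^ I.card.choose 2 = 1) :
    ∑ k, γ k * gp γ (wd I) * γ k = gp γ (wd I) + (1 / 2 : ℝ) • ((gp γ (wd I)).trace • (1 : M16) -
      ∑ i, (γ i * gp γ (wd I)).trace • γ i) := by
  have e1 : ∑ k, γ k * gp γ (wd I) * γ k =
      ((9 - 2 * I.card) * (-1 : ℝ) ^ I.card) • gp γ (wd I) := by
    simp only [h.conj_wd, ← Finset.sum_smul, ← Finset.sum_mul]
    congr 2
    rw [Fin.sum_univ_castSucc, if_neg (last_wd _)]
    simp only [mem_wd, Finset.sum_ite, Finset.sum_const, Finset.filter_mem_eq_inter,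
      Finset.univ_inter, Finset.filter_notMem_eq_sdiff, Finset.card_univ_sdiff, Fintype.card_fin]
    have : I.card ≤ 8 := by simpa using I.card_le_univ
    simp only [nsmul_eq_mul, Nat.cast_sub this]
    push_cast
    ring
  have e2 : I ≠ ∅ → (gp γ (wd I)).trace = 0 := fun hI => by
    simpa [wd_empty] using h.orth_wd hI.symm
  have e3 : ∀ i : Fin 8, I ≠ {i} → (γ i.castSucc * gp γ (wd I)).trace = 0 := fun i hI => by
    simpa [wd_single, h.symm] using h.orth_wd hI.symm
  have hc : I.card ≤ 8 := by simpa using I.card_le_univ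
  rw [e1, Fin.sum_univ_castSucc]
  by_cases h8 : I = Finset.univ
  · subst h8
    rw [e2 (by decide), Finset.sum_eq_zero fun i _ => by
      rw [e3 i (by revert i; decide), zero_smul], h.last_eq, Finset.card_univ, Fintype.card_fin]
    module
  rw [h.orth_last h8, zero_smul, add_zero]
  by_cases h0 : I = ∅
  · subst h0
    rw [Finset.sum_eq_zero fun i _ => by rw [e3 i (Finset.singleton_ne_empty i).symm, zero_smul],
      wd_empty, trace_one, Fintype.card_fin, Finset.card_empty]
    module
  rw [e2 h0]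
  by_cases h1 : I.card = 1
  · obtain ⟨i, rfl⟩ := Finset.card_eq_one.1 h1
    rw [Finset.sum_eq_single i (fun j _ hj => by
      rw [e3 j (Finset.singleton_injective.ne hj.symm), zero_smul]) (by simp), wd_single, h.sq,
      trace_one, Fintype.card_fin, Finset.card_singleton]
    module
  rw [Finset.sum_eq_zero fun i _ => by
    rw [e3 i fun e => h1 (e ▸ Finset.card_singleton i), zero_smul]]
  have h0' : I.card ≠ 0 := mt Finset.card_eq_zero.1 h0
  have h8' : I.card ≠ 8 := fun e => h8 (Finset.eq_univ_of_card _ (by simpa using e))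
  generalize I.card = p at *
  interval_cases p <;> first | omega | module | norm_num [Nat.choose] at hI

/-- The Fierz identity. -/
theorem fierz {S : M16} (hS : Sᵀ = S) : ∑ k, γ k * S * γ k =
    S + (1 / 2 : ℝ) • (S.trace • (1 : M16) - ∑ i, (γ i * S).trace • γ i) := by
  obtain ⟨c, hc⟩ := h.span_wd S
  have e : S = ∑ I, (c I * (1 + (-1 : ℝ) ^ I.card.choose 2) / 2) • gp γ (wd I) := by
    have h1 := congrArg transpose hc
    rw [hS, transpose_sum] at h1
    simp only [transpose_smul, h.tr_gp (wd_nodup _), wd_length] at h1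
    rw [show S = (1 / 2 : ℝ) • (S + S) by module]
    nth_rewrite 1 [hc]
    rw [h1, ← Finset.sum_add_distrib, Finset.smul_sum]
    exact Finset.sum_congr rfl fun I _ => by module
  rw [e]
  simp only [Finset.mul_sum, Finset.sum_mul, trace_sum, mul_smul_comm, smul_mul_assoc, trace_smul,
    Finset.sum_smul]
  rw [Finset.sum_comm, Finset.sum_comm (f := fun i I => (_ • (γ i * gp γ (wd I)).trace) • γ i),
    ← Finset.sum_sub_distrib, Finset.smul_sum, ← Finset.sum_add_distrib]
  refine Finset.sum_congr rfl fun I _ => ?_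
  rcases neg_one_pow_eq_or ℝ (I.card.choose 2) with e | e
  · rw [← Finset.smul_sum, h.fierz_wd e]
    simp only [smul_eq_mul, mul_smul, ← Finset.smul_sum]
    module
  · simp [e]

end IsGam

theorem Gam.isGam (G : Gam) : IsGam G.g := ⟨fun i => G.symm i, G.cl⟩

end Vale.Agent.P353
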