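import Mathlib

/-! Number operators in a C*-algebra. -/

noncomputable section
namespace Vale.Agent.P353

section ring
variable {A : Type} [Ring A]

/-- falling factorial -/
def afFall (N : A) : ℕ → A
  | 0 => 1
  | k + 1 => afFall N k * (N - k)

theorem afFall_semi {N M a : A} (h : N * a = a * M) (k : ℕ) :
    afFall N k * a = a * afFall M k := by
  induction k with
  | zero => simp [afFall]
  | succ k ih =>
    rw [afFall, afFall, mul_assoc, sub_mul, h, Nat.cast_comm, ← mul_sub, ← mul_assoc, ih, mul_assoc]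

theorem afFall_succ (N : A) (k : ℕ) : afFall N (k + 1) = N * afFall (N - 1) k := by
  induction k with
  | zero => simp [afFall]
  | succ k ih =>
    rw [afFall, ih, afFall, mul_assoc, Nat.cast_succ, sub_sub, add_comm 1]

end ring

theorem afFall_cont (k : ℕ) : Continuous fun x : ℝ => afFall x k := by
  induction k with
  | zero => exact continuous_const
  | succ k ih => exact ih.mul (continuous_id.sub continuous_const)

theorem afFall_pos {x : ℝ} {k : ℕ} (h : (k : ℝ) < x + 1) : 0 < afFall x k := by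
  induction k with
  | zero => exact zero_lt_one
  | succ k ih =>
    rw [Nat.cast_succ] at h
    exact mul_pos (ih (by linarith)) (by linarith)

theorem afFall_zero {m k : ℕ} (h : m < k) : afFall (m : ℝ) k = 0 := by
  induction k with
  | zero => exact absurd h (Nat.not_lt_zero _)
  | succ k ih =>
    rcases Nat.lt_succ_iff_lt_or_eq.1 h with h1 | h1
    · rw [afFall, ih h1, zero_mul]
    · rw [afFall, h1, sub_self, mul_zero]

theorem afFall_nat {x : ℝ} (h : ∀ k, 0 ≤ afFall x k) : ∃ m : ℕ, x = m := by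
  have h0 : 0 ≤ x := by simpa [afFall] using h 1
  refine ⟨⌊x⌋₊, ((Nat.floor_le h0).eq_or_lt.resolve_right fun h1 => ?_).symm⟩
  have h2 := Nat.lt_floor_add_one x
  have h3 : 0 < afFall x (⌊x⌋₊ + 1) := afFall_pos (by push_cast; linarith)
  exact (h (⌊x⌋₊ + 1 + 1)).not_gt (mul_neg_of_pos_of_neg h3 (by push_cast; linarith))

/-- the vacuum polynomial -/
def afPv (n : ℕ) (x : ℝ) : ℝ := ∏ k ∈ Finset.range n, (1 - ((k : ℝ) + 1)⁻¹ * x)

theorem afPv_cont (n : ℕ) : Continuous (afPv n) := by
  unfold afPv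
  fun_prop

theorem afPv_val {n m : ℕ} (h : m ≤ n) : afPv n m = if m = 0 then 1 else 0 := by
  rcases m with _ | m
  · simp [afPv]
  · rw [if_neg m.succ_ne_zero]
    refine Finset.prod_eq_zero (Finset.mem_range.2 h) ?_
    rw [Nat.cast_succ, inv_mul_cancel₀ (by positivity), sub_self]

variable {A : Type} [CStarAlgebra A] {N : A}

/-- the vacuum projection -/
def afVac (n : ℕ) (N : A) : A :=
  ((List.range n).map fun k : ℕ => (1 : A) - ((k : ℂ) + 1)⁻¹ • N).prod

theorem afVac_succ (n : ℕ) (N : A) :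
    afVac (n + 1) N = afVac n N * (1 - ((n : ℂ) + 1)⁻¹ • N) := by
  simp [afVac, List.range_succ]

theorem afVac_semi {M a : A} (h : a * N = M * a) (n : ℕ) : a * afVac n N = afVac n M * a := by
  induction n with
  | zero => simp [afVac]
  | succ n ih =>
    rw [afVac_succ, afVac_succ, ← mul_assoc, ih, mul_assoc, mul_assoc, mul_sub, sub_mul,
      mul_smul_comm, smul_mul_assoc, h, mul_one, one_mul]

theorem afVac_cfc (hN : IsSelfAdjoint N) (n : ℕ) : afVac n N = cfc (afPv n) N := by
  induction n with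
  | zero =>
    have e : afPv 0 = fun _ => 1 := funext fun x => by simp [afPv]
    rw [e, cfc_const_one ℝ N]
    simp [afVac]
  | succ n ih =>
    have e : afPv (n + 1) = fun x => afPv n x * (1 - ((n : ℝ) + 1)⁻¹ * x) :=
      funext fun x => Finset.prod_range_succ _ _
    rw [afVac_succ, ih, e, cfc_mul _ _ N (afPv_cont n).continuousOn, cfc_sub _ _ N,
      cfc_const_one ℝ N, cfc_const_mul_id _ N, ← Complex.coe_smul]
    push_cast
    rfl

theorem afFall_cfc (hN : IsSelfAdjoint N) (k : ℕ) :
    afFall N k = cfc (fun x : ℝ => afFall x k) N := by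
  induction k with
  | zero => exact (cfc_const_one ℝ N).symm
  | succ k ih =>
    simp only [afFall]
    rw [cfc_mul _ _ N (afFall_cont k).continuousOn, cfc_sub _ _ N, cfc_id' ℝ N, cfc_const _ N,
      ← ih, map_natCast]

variable [PartialOrder A] [StarOrderedRing A]

theorem af_spec {ι : Type} [Fintype ι] {a : ι → A} (hs : IsSelfAdjoint N)
    (hN : N = (1 / 4 : ℝ) • ∑ i, star (a i) * a i) (hl : ∀ i, N * a i = a i * (N - 1)) :
    ∀ x ∈ spectrum ℝ N, ∃ m : ℕ, x = m := by
  have h : ∀ k, 0 ≤ afFall N k := fun k => by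
    induction k with
    | zero => exact zero_le_one
    | succ k ih =>
      have e : afFall N (k + 1) = (1 / 4 : ℝ) • ∑ i, star (a i) * afFall N k * a i := by
        rw [afFall_succ]
        simp only [mul_assoc, afFall_semi (hl _)]
        simp only [← mul_assoc]
        rw [← Finset.sum_mul, ← smul_mul_assoc, ← hN]
      rw [e]
      exact smul_nonneg (by norm_num)
        (Finset.sum_nonneg fun i _ => star_left_conjugate_nonneg ih (a i))
  intro x hx
  refine afFall_nat fun k => ?_
  have h1 := h k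
  rw [afFall_cfc hs] at h1
  exact (cfc_nonneg_iff _ N (afFall_cont k).continuousOn).1 h1 x hx

theorem af_all {n : ℕ} (hs : IsSelfAdjoint N) (h : ∀ x ∈ spectrum ℝ N, ∃ m ≤ n, x = (m : ℝ)) :
    afVac n N * afVac n N = afVac n N ∧ IsSelfAdjoint (afVac n N) ∧ N * afVac n N = 0 ∧
      afFall N (n + 1) = 0 ∧ 1 - afVac n N ≤ N := by
  have hc := (afPv_cont n).continuousOn (s := spectrum ℝ N)
  rw [afVac_cfc hs, afFall_cfc hs]
  refine ⟨?_, cfc_predicate _ _, ?_, ?_, ?_⟩
  · rw [← cfc_mul _ _ N hc hc]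
    refine cfc_congr fun x hx => ?_
    obtain ⟨m, hm, rfl⟩ := h x hx
    simp only [afPv_val hm]
    split_ifs <;> simp
  · have e : N * cfc (afPv n) N = cfc (fun x : ℝ => x * afPv n x) N := by
      rw [cfc_mul _ _ N (by fun_prop) hc, cfc_id' ℝ N]
    rw [e, ← cfc_zero ℝ N]
    refine cfc_congr fun x hx => ?_
    obtain ⟨m, hm, rfl⟩ := h x hx
    simp only [afPv_val hm]
    split_ifs with h1 <;> simp [h1]
  · rw [← cfc_zero ℝ N]
    refine cfc_congr fun x hx => ?_
    obtain ⟨m, hm, rfl⟩ := h x hx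
    exact afFall_zero (Nat.lt_succ_of_le hm)
  · have e : 1 - cfc (afPv n) N = cfc (fun x : ℝ => 1 - afPv n x) N := by
      rw [cfc_sub _ _ N (by fun_prop) hc, cfc_const_one ℝ N]
    rw [e]
    refine (cfc_le_iff _ (fun x : ℝ => x) N (continuousOn_const.sub hc)).2 (fun x hx => ?_)
      |>.trans_eq (cfc_id' ℝ N)
    obtain ⟨m, hm, rfl⟩ := h x hx
    change 1 - afPv n m ≤ m
    rw [afPv_val hm]
    split_ifs with h1
    · simp [h1]
    · simpa using Nat.one_le_iff_ne_zero.2 h1

end Vale.Agent.P353
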