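import Vale.Agent.P353.ASpin

open MeasureTheory NormedSpace
open Complex (I)
open scoped InnerProductSpace ContDiff

noncomputable section
namespace Vale.Agent.P353
variable {S : Type} [NormedAddCommGroup S] [InnerProductSpace ℝ S] [FiniteDimensional ℝ S]

/-- symmetric and bounded below by `c` -/
def Pos (c : ℝ) (T : S →L[ℝ] S) : Prop := Symm T ∧ ∀ u, c * ‖u‖ ^ 2 ≤ ⟪u, T u⟫_ℝ

open Classical in
/-- the nonnegative square root -/
def psq (T : S →L[ℝ] S) : S →L[ℝ] S := if h : ∃ R, Pos 0 R ∧ R * R = T then h.choose else 0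

namespace APsq
variable {ι : Type} [Fintype ι] {b : OrthonormalBasis ι ℝ S} {μ : ι → ℝ} {A T R : S →L[ℝ] S}

theorem ext_b (b : OrthonormalBasis ι ℝ S) {S' : Type} [NormedAddCommGroup S']
    [NormedSpace ℝ S'] {A B : S →L[ℝ] S'} (h : ∀ i, A (b i) = B (b i)) : A = B :=
  ContinuousLinearMap.coe_injective (b.toBasis.ext fun i => by simpa using h i)

theorem inner_eig (h : ∀ i, A (b i) = μ i • b i) (u v : S) :
    ⟪v, A u⟫_ℝ = ∑ i, μ i * (⟪b i, u⟫_ℝ * ⟪b i, v⟫_ℝ) := by
  conv_lhs => rw [← b.sum_repr' u]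
  simp only [map_sum, map_smul, h, inner_sum, real_inner_smul_right, real_inner_comm v]
  exact Finset.sum_congr rfl fun i _ => by ring

theorem pos_eig {c : ℝ} (h : ∀ i, A (b i) = μ i • b i) (hc : ∀ i, c ≤ μ i) : Pos c A := by
  refine ⟨fun u v => ?_, fun u => ?_⟩
  · rw [real_inner_comm, inner_eig h, inner_eig h]
    exact Finset.sum_congr rfl fun i _ => by ring
  · have h1 := inner_eig (A := 1) (b := b) (μ := fun _ => 1) (fun i => by simp) u u
    rw [ContinuousLinearMap.one_apply, real_inner_self_eq_norm_sq] at h1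
    rw [inner_eig h, h1, Finset.mul_sum]
    refine Finset.sum_le_sum fun i _ => ?_
    rw [one_mul]
    exact mul_le_mul_of_nonneg_right (hc i) (mul_self_nonneg _)

theorem exists_eig (h : Symm A) : ∃ (b : OrthonormalBasis (Fin (Module.finrank ℝ S)) ℝ S)
    (μ : Fin (Module.finrank ℝ S) → ℝ), ∀ i, A (b i) = μ i • b i :=
  have h1 : A.toLinearMap.IsSymmetric := h
  ⟨h1.eigenvectorBasis rfl, h1.eigenvalues rfl, fun i => h1.apply_eigenvectorBasis rfl i⟩

theorem le_eig {c : ℝ} (hA : Pos c A) (h : ∀ i, A (b i) = μ i • b i) (i : ι) : c ≤ μ i := by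
  simpa [h, real_inner_smul_right, b.orthonormal.1 i] using hA.2 (b i)

theorem exists_dg (b : OrthonormalBasis ι ℝ S) (μ : ι → ℝ) :
    ∃ A : S →L[ℝ] S, ∀ i, A (b i) = μ i • b i :=
  ⟨LinearMap.toContinuousLinearMap (b.toBasis.constr ℝ fun i => μ i • b i), fun i =>
    b.toBasis.constr_basis ℝ (fun i => μ i • b i) i ▸ by simp⟩

theorem root_eig (h : Pos 0 R) {v : S} {l : ℝ} (hv : (R * R) v = l • v) : R v = √l • v := by
  rw [ContinuousLinearMap.mul_apply] at hv
  rcases le_or_gt l 0 with hl | hl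
  · have h1 := h.1 v (R v)
    rw [hv, real_inner_smul_right, real_inner_self_eq_norm_sq, real_inner_self_eq_norm_sq] at h1
    have h2 := mul_nonpos_of_nonpos_of_nonneg hl (sq_nonneg ‖v‖)
    rw [Real.sqrt_eq_zero'.2 hl, zero_smul, ← norm_eq_zero, ← sq_eq_zero_iff]
    exact le_antisymm (h1.trans_le h2) (sq_nonneg _)
  · have h1 : R (R v - √l • v) = -√l • (R v - √l • v) := by
      rw [map_sub, map_smul, hv, smul_sub, smul_smul, neg_mul, Real.mul_self_sqrt hl.le, neg_smul,
        neg_smul]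
      abel
    have h2 := h.2 (R v - √l • v)
    rw [h1, real_inner_smul_right, real_inner_self_eq_norm_sq, zero_mul, neg_mul, neg_nonneg,
      mul_nonpos_iff_pos_imp_nonpos] at h2
    rw [← sub_eq_zero, ← norm_eq_zero, ← sq_eq_zero_iff]
    exact le_antisymm (h2.1 (Real.sqrt_pos.2 hl)) (sq_nonneg _)

/-- functions of an operator commute with everything that commutes with the operator -/
theorem comm_fun {B : S →L[ℝ] S} (f : ℝ → ℝ) (h : ∀ i, T (b i) = μ i • b i)
    (hB : ∀ i, B (b i) = f (μ i) • b i) (hA : A * T = T * A) : A * B = B * A := by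
  refine ext_b b fun i => ?_
  have h1 : T (A (b i)) = μ i • A (b i) := by
    rw [← ContinuousLinearMap.mul_apply, ← hA, ContinuousLinearMap.mul_apply, h, map_smul]
  have h2 : Symm T := by
    intro u v
    rw [real_inner_comm, inner_eig h, inner_eig h]
    exact Finset.sum_congr rfl fun i _ => by ring
  rw [ContinuousLinearMap.mul_apply, ContinuousLinearMap.mul_apply, hB, map_smul,
    ← b.sum_repr' (A (b i)), map_sum, Finset.smul_sum]
  refine Finset.sum_congr rfl fun j _ => ?_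
  have h3 := h2 (b j) (A (b i))
  rw [h, h1, real_inner_smul_left, real_inner_smul_right] at h3
  rcases mul_eq_mul_right_iff.1 h3 with e | e
  · rw [map_smul, hB, e, smul_comm]
  · simp [e]

theorem le_norm {c : ℝ} (hA : Pos c A) (u : S) : c * ‖u‖ ≤ ‖A u‖ := by
  rcases (norm_nonneg u).eq_or_lt with h | h
  · simp [← h]
  · refine le_of_mul_le_mul_left ?_ h
    have h1 := (hA.2 u).trans (real_inner_le_norm _ _)
    linarith

end APsq

theorem psq_spec {T : S →L[ℝ] S} (h : Pos 0 T) : Pos 0 (psq T) ∧ psq T * psq T = T := by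
  obtain ⟨b, μ, hb⟩ := APsq.exists_eig h.1
  obtain ⟨R, hR⟩ := APsq.exists_dg b fun i => √(μ i)
  have h1 : ∃ R, Pos 0 R ∧ R * R = T := ⟨R, APsq.pos_eig hR fun _ => Real.sqrt_nonneg _,
    APsq.ext_b b fun i => by
      rw [ContinuousLinearMap.mul_apply, hR, map_smul, hR, smul_smul, hb,
        Real.mul_self_sqrt (APsq.le_eig h hb i)]⟩
  rw [psq, dif_pos h1]
  exact h1.choose_spec
theorem psq_unique {T R : S →L[ℝ] S} (h : Pos 0 R) (hR : R * R = T) : psq T = R := by
  have h1 : ∃ R, Pos 0 R ∧ R * R = T := ⟨R, h, hR⟩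
  obtain ⟨b, μ, hb⟩ := APsq.exists_eig (A := R * R) fun u v => (h.1 _ _).trans (h.1 _ _)
  rw [psq, dif_pos h1]
  refine APsq.ext_b b fun i => ?_
  rw [APsq.root_eig h (hb i), APsq.root_eig h1.choose_spec.1 (l := μ i)]
  rw [h1.choose_spec.2, ← hR, hb]
theorem psq_pos {c : ℝ} (hc : 0 ≤ c) {T : S →L[ℝ] S} (h : Pos (c ^ 2) T) : Pos c (psq T) := by
  have h0 : Pos 0 T := ⟨h.1, fun u => le_trans (by
    rw [zero_mul]
    positivity) (h.2 u)⟩
  obtain ⟨b, μ, hb⟩ := APsq.exists_eig h.1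
  refine APsq.pos_eig (b := b) (μ := fun i => √(μ i)) (fun i => APsq.root_eig (psq_spec h0).1 ?_)
    fun i => Real.le_sqrt_of_sq_le (APsq.le_eig h hb i)
  rw [(psq_spec h0).2, hb]
/-- anything that intertwines the squares intertwines the roots -/
theorem psq_intertwine {S' : Type} [NormedAddCommGroup S'] [InnerProductSpace ℝ S']
    [FiniteDimensional ℝ S'] {T : S →L[ℝ] S} {T' : S' →L[ℝ] S'} (h : Pos 0 T) (h' : Pos 0 T')
    (j : S' →L[ℝ] S) (hj : ∀ u, T (j u) = j (T' u)) (u : S') : psq T (j u) = j (psq T' u) := by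
  obtain ⟨b, μ, hb⟩ := APsq.exists_eig h'.1
  have h1 : psq T ∘L j = j ∘L psq T' := APsq.ext_b b fun i => by
    rw [ContinuousLinearMap.comp_apply, ContinuousLinearMap.comp_apply,
      APsq.root_eig (psq_spec h).1 (l := μ i), APsq.root_eig (psq_spec h').1 (l := μ i), map_smul]
    · rw [(psq_spec h').2, hb]
    · rw [(psq_spec h).2, hj, hb, map_smul]
  exact congrArg (fun A : S' →L[ℝ] S => A u) h1
/-- Sylvester estimate -/
theorem sylvester {c : ℝ} (hc : 0 < c) {A B : S →L[ℝ] S} (hA : Pos c A) (hB : Pos c B)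
    (K : S →L[ℝ] S) : 2 * c * ‖K‖ ≤ ‖A * K + K * B‖ := by
  haveI := FiniteDimensional.complete ℝ S
  have h0 : ∀ u v, ⟪u, (ContinuousLinearMap.adjoint K * K) v⟫_ℝ = ⟪K u, K v⟫_ℝ := fun u v =>
    ContinuousLinearMap.adjoint_inner_right K u (K v)
  obtain ⟨b, μ, hb⟩ := APsq.exists_eig (A := ContinuousLinearMap.adjoint K * K) fun u v => by
    rw [real_inner_comm, h0, h0, real_inner_comm]
  set m := ‖A * K + K * B‖ / (2 * c) with hm
  have hm0 : 0 ≤ m := by positivity
  have h1 : ∀ i, -m ^ 2 ≤ -μ i := fun i => by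
    have a1 : μ i = ‖K (b i)‖ ^ 2 := by
      simpa [hb, real_inner_smul_right, b.orthonormal.1 i] using h0 (b i) (b i)
    have a2 := h0 (B (b i)) (b i)
    have a3 := hB.2 (b i)
    have a4 := hA.2 (K (b i))
    have a5 := real_inner_le_norm (K (b i)) ((A * K + K * B) (b i))
    have a6 := (A * K + K * B).le_opNorm (b i)
    rw [hb, real_inner_smul_right, real_inner_comm, real_inner_comm (K (b i)), a1] at a2
    rw [b.orthonormal.1 i] at a3 a6
    rw [ContinuousLinearMap.add_apply, inner_add_right, ContinuousLinearMap.mul_apply,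
      ContinuousLinearMap.mul_apply, ← a2] at a5
    rw [neg_le_neg_iff, a1]
    refine pow_le_pow_left₀ (norm_nonneg _) ?_ 2
    rcases (norm_nonneg (K (b i))).eq_or_lt with e | e
    · rwa [← e]
    · rw [hm, le_div_iff₀ (by positivity)]
      refine le_of_mul_le_mul_left ?_ e
      have a7 := mul_le_mul_of_nonneg_left a3 (sq_nonneg ‖K (b i)‖)
      have a8 := mul_le_mul_of_nonneg_left a6 e.le
      rw [ContinuousLinearMap.add_apply, ContinuousLinearMap.mul_apply,
        ContinuousLinearMap.mul_apply] at a8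
      linarith
  have h2 := APsq.pos_eig (A := -(ContinuousLinearMap.adjoint K * K)) (b := b)
    (fun i => by rw [ContinuousLinearMap.neg_apply, hb, neg_smul]) h1
  rw [← le_div_iff₀' (by positivity)]
  refine K.opNorm_le_bound hm0 fun u => ?_
  have h3 := h2.2 u
  rw [ContinuousLinearMap.neg_apply, inner_neg_right, h0, real_inner_self_eq_norm_sq] at h3
  exact (pow_le_pow_iff_left₀ (norm_nonneg _) (by positivity) two_ne_zero).1 (by linarith)
theorem psq_lip {c : ℝ} (hc : 0 < c) {A B : S →L[ℝ] S} (hA : Pos (c ^ 2) A) (hB : Pos (c ^ 2) B) :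
    2 * c * ‖psq A - psq B‖ ≤ ‖A - B‖ := by
  have h0 : ∀ {T : S →L[ℝ] S}, Pos (c ^ 2) T → psq T * psq T = T := fun h =>
    (psq_spec ⟨h.1, fun u => le_trans (by
      rw [zero_mul]
      positivity) (h.2 u)⟩).2
  have h1 := sylvester hc (psq_pos hc.le hA) (psq_pos hc.le hB) (psq A - psq B)
  rwa [mul_sub, sub_mul, h0 hA, h0 hB, sub_add_sub_cancel] at h1
theorem Pos.isUnit {c : ℝ} (hc : 0 < c) {A : S →L[ℝ] S} (hA : Pos c A) :
    IsUnit A ∧ ‖Ring.inverse A‖ ≤ c⁻¹ ∧ Pos 0 (Ring.inverse A) := by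
  haveI := FiniteDimensional.complete ℝ S
  have h1 : Function.Injective A := (injective_iff_map_eq_zero A).2 fun u hu => by
    have h2 := APsq.le_norm hA u
    rw [hu, norm_zero] at h2
    exact norm_le_zero_iff.1 (nonpos_of_mul_nonpos_right h2 hc)
  have h2 : IsUnit A := ContinuousLinearMap.isUnit_iff_bijective.2
    ⟨h1, LinearMap.injective_iff_surjective (f := A.toLinearMap).1 h1⟩
  have h3 : ∀ u, A (Ring.inverse A u) = u := fun u => by
    rw [← ContinuousLinearMap.mul_apply, Ring.mul_inverse_cancel A h2,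
      ContinuousLinearMap.one_apply]
  refine ⟨h2, ContinuousLinearMap.opNorm_le_bound _ (by positivity) fun u => ?_, fun u v => ?_,
    fun u => ?_⟩
  · have h4 := APsq.le_norm hA (Ring.inverse A u)
    rwa [h3, ← le_inv_mul_iff₀ hc] at h4
  · have h4 := hA.1 (Ring.inverse A u) (Ring.inverse A v)
    rw [h3, h3] at h4
    exact h4.symm
  · have h4 := hA.2 (Ring.inverse A u)
    rw [h3, real_inner_comm] at h4
    exact le_trans (by
      rw [zero_mul]
      positivity) h4
/-- positivity is open among symmetric operators -/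
theorem Pos.perturb {c d : ℝ} {A B : S →L[ℝ] S} (hA : Pos c A) (hB : Symm B) (h : ‖B - A‖ ≤ d) :
    Pos (c - d) B := by
  refine ⟨hB, fun u => ?_⟩
  have h1 := hA.2 u
  have h2 := (abs_le.1 (abs_real_inner_le_norm u ((B - A) u))).1
  have h3 := mul_le_mul_of_nonneg_left (((B - A).le_opNorm u).trans
    (mul_le_mul_of_nonneg_right h (norm_nonneg u))) (norm_nonneg u)
  rw [ContinuousLinearMap.sub_apply] at h2 h3
  rw [inner_sub_right] at h2
  linarith
/-- an injective symmetric nonnegative operator is positive definite -/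
theorem Pos.exists_pos {A : S →L[ℝ] S} (hA : Pos 0 A) (h : ∀ u, A u = 0 → u = 0) :
    ∃ c > 0, Pos c A := by
  obtain ⟨b, μ, hb⟩ := APsq.exists_eig hA.1
  have h1 : ∀ i, 0 < μ i := fun i => (APsq.le_eig hA hb i).lt_of_ne fun e =>
    b.orthonormal.ne_zero i (h _ (by rw [hb, ← e, zero_smul]))
  have h2 : ∀ᶠ c in nhdsWithin (0 : ℝ) (Set.Ioi 0), ∀ i, c ≤ μ i :=
    Filter.eventually_all.2 fun i => (eventually_le_nhds (h1 i)).filter_mono nhdsWithin_le_nhds
  obtain ⟨c, h3, h4⟩ := (h2.and self_mem_nhdsWithin).exists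
  exact ⟨c, h4, APsq.pos_eig hb h3⟩
/-- smooth dependence of the root (inverse function theorem for `R ↦ R * R`) -/
theorem contDiffAt_psq {E : Type} [NormedAddCommGroup E] [NormedSpace ℝ E] {T : E → S →L[ℝ] S}
    {x : E} (hT : ContDiffAt ℝ ∞ T x) (hs : ∀ᶠ y in nhds x, Symm (T y)) {c : ℝ} (hc : 0 < c)
    (h : Pos c (T x)) : ContDiffAt ℝ ∞ (fun y => psq (T y)) x := by
  haveI := FiniteDimensional.complete ℝ S
  have hd : 0 < √(c / 2) := by positivity
  have hd' : √(c / 2) ^ 2 = c - c / 2 := by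
    rw [Real.sq_sqrt (by positivity)]
    ring
  have h0 : Filter.Tendsto (fun y => ‖T y - T x‖) (nhds x) (nhds 0) :=
    tendsto_iff_norm_sub_tendsto_zero.1 hT.continuousAt
  have h1 : ∀ᶠ y in nhds x, Pos (√(c / 2) ^ 2) (T y) := by
    filter_upwards [hs, h0.eventually (eventually_le_nhds (half_pos hc))] with y h1 h2
    rw [hd']
    exact h.perturb h1 h2
  have h2 := h1.self_of_nhds
  have h3 : Filter.Tendsto (fun y => psq (T y)) (nhds x) (nhds (psq (T x))) := by
    rw [tendsto_iff_norm_sub_tendsto_zero]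
    refine squeeze_zero' (Filter.Eventually.of_forall fun _ => norm_nonneg _)
      (h1.mono fun y hy => (le_div_iff₀' (by positivity)).2 (psq_lip hd hy h2)) ?_
    simpa using h0.div_const (2 * √(c / 2))
  have h4 : ∀ {A : S →L[ℝ] S}, Pos (√(c / 2) ^ 2) A → psq A * psq A = A := fun h =>
    (psq_spec ⟨h.1, fun u => le_trans (by
      rw [zero_mul]
      positivity) (h.2 u)⟩).2
  set R := psq (T x) with hR
  obtain ⟨L, h5, hL⟩ : ∃ L : (S →L[ℝ] S) →L[ℝ] S →L[ℝ] S,
      HasFDerivAt (fun K : S →L[ℝ] S => K * K) L R ∧ ∀ K, L K = R * K + K * R :=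
    ⟨_, (hasFDerivAt_id (𝕜 := ℝ) R).mul' (hasFDerivAt_id R), fun K => by simp⟩
  have h6 : Function.Injective L := (injective_iff_map_eq_zero L).2 fun K hK => by
    have a1 := sylvester hd (psq_pos hd.le h2) (psq_pos hd.le h2) K
    rw [← hL, hK, norm_zero] at a1
    exact norm_le_zero_iff.1 (nonpos_of_mul_nonpos_right a1 (by positivity))
  let e := (LinearEquiv.ofInjectiveEndo L.toLinearMap h6).toContinuousLinearEquiv
  have h7 : HasFDerivAt (fun K : S →L[ℝ] S => K * K) (e : (S →L[ℝ] S) →L[ℝ] S →L[ℝ] S) R := h5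
  have h8 : ContDiffAt ℝ ∞ (fun K : S →L[ℝ] S => K * K) R := contDiffAt_id.mul contDiffAt_id
  have h9 := h8.to_localInverse h7 (by simp)
  beta_reduce at h9
  rw [h4 h2] at h9
  refine (h9.comp x hT).congr_of_eventuallyEq ?_
  filter_upwards [h1, h3.eventually (h8.hasStrictFDerivAt' h7 (by simp)).eventually_left_inverse]
    with y a1 a2
  rw [h4 a1] at a2
  exact a2.symm
/-- polar decomposition of a skew operator: `T = J * |T|` with a contraction `J` -/
theorem skew_polar {T : S →L[ℝ] S} (h : Skew T) : Pos 0 (-(T * T)) ∧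
    ∃ J : S →L[ℝ] S, Skew J ∧ (∀ u, ‖J u‖ ≤ ‖u‖) ∧ J * psq (-(T * T)) = T ∧
      psq (-(T * T)) * J = T ∧ (∀ A, A * T = T * A → A * J = J * A) ∧
      ((∀ u, T u = 0 → u = 0) → CS J) := by
  have h0 : ∀ u v, ⟪u, (-(T * T)) v⟫_ℝ = ⟪T u, T v⟫_ℝ := fun u v => by
    rw [ContinuousLinearMap.neg_apply, inner_neg_right, h, ContinuousLinearMap.mul_apply]
  have h1 : Pos 0 (-(T * T)) := ⟨fun u v => by rw [real_inner_comm, h0, h0, real_inner_comm],
    fun u => by
      rw [h0, zero_mul]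
      exact real_inner_self_nonneg⟩
  obtain ⟨b, μ, hb⟩ := APsq.exists_eig h1.1
  obtain ⟨Q, hQ⟩ := APsq.exists_dg b fun i => (√(μ i))⁻¹
  have h2 : ∀ A, A * T = T * A → A * Q = Q * A := fun A hA =>
    APsq.comm_fun (fun t => (√t)⁻¹) hb hQ (by
      rw [mul_neg, neg_mul, ← mul_assoc, hA, mul_assoc, hA, mul_assoc])
  have h3 : ∀ A, A * T = T * A → A * (T * Q) = T * Q * A := fun A hA => by
    rw [← mul_assoc, hA, mul_assoc, h2 A hA, mul_assoc]
  have h4 : ∀ i, μ i = 0 → T (b i) = 0 := fun i hi => by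
    have a := h0 (b i) (b i)
    rw [hb, hi, zero_smul, inner_zero_right] at a
    exact inner_self_eq_zero.1 a.symm
  have h5 : T * Q * psq (-(T * T)) = T := APsq.ext_b b fun i => by
    rw [ContinuousLinearMap.mul_apply, APsq.root_eig (psq_spec h1).1 (l := μ i)
      (by rw [(psq_spec h1).2, hb]), map_smul, ContinuousLinearMap.mul_apply, hQ, map_smul,
      smul_smul]
    rcases (APsq.le_eig h1 hb i).eq_or_lt with e | e
    · rw [h4 i e.symm, smul_zero]
    · rw [mul_inv_cancel₀ (Real.sqrt_pos.2 e).ne', one_smul]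
  have h6 : psq (-(T * T)) * T = T * psq (-(T * T)) := ContinuousLinearMap.ext fun u =>
    psq_intertwine h1 h1 T (fun u => by simp) u
  have h7 : Skew (T * Q) := fun u v => by
    rw [ContinuousLinearMap.mul_apply, h, (APsq.pos_eig hQ fun i => inv_nonneg.2
      (Real.sqrt_nonneg _)).1, h2 T rfl, ContinuousLinearMap.mul_apply]
  have h8 : ∀ i, (T * Q * (T * Q)) (b i) = (-(μ i * (μ i)⁻¹)) • b i := fun i => by
    have a : T * Q * (T * Q) = -(-(T * T) * Q * Q) := by
      rw [mul_assoc, ← mul_assoc Q, ← h2 T rfl]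
      noncomm_ring
    rw [a, ContinuousLinearMap.neg_apply, ContinuousLinearMap.mul_apply, hQ, map_smul,
      ContinuousLinearMap.mul_apply, hQ, map_smul, hb, smul_smul, smul_smul, ← mul_inv,
      Real.mul_self_sqrt (APsq.le_eig h1 hb i), neg_smul, mul_comm]
  refine ⟨h1, T * Q, h7, fun u => ?_, h5, (h3 _ h6).trans h5, h3, fun hT => ⟨h7, ?_⟩⟩
  · have a := (APsq.pos_eig h8 fun i => neg_le_neg mul_inv_le_one).2 u
    have a' := h7 u ((T * Q) u)
    rw [real_inner_self_eq_norm_sq] at a'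
    rw [ContinuousLinearMap.mul_apply] at a
    exact (pow_le_pow_iff_left₀ (norm_nonneg _) (norm_nonneg _) two_ne_zero).1 (by linarith)
  · refine APsq.ext_b b fun i => ?_
    rw [h8, mul_inv_cancel₀ fun e => b.orthonormal.ne_zero i (hT _ (h4 i e))]
    simp

end Vale.Agent.P353
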