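import Vale.Agent.P353.AExp
import Vale.Agent.P353.APsq
import Vale.Agent.P353.AFockx1

open MeasureTheory NormedSpace
open Complex (I)
open scoped InnerProductSpace ContDiff

noncomputable section
namespace Vale.Agent.P353
variable {S F : Type} [NormedAddCommGroup S] [InnerProductSpace ℝ S] [FiniteDimensional ℝ S]
  [NormedAddCommGroup F] [InnerProductSpace ℂ F] [CompleteSpace F]

theorem af_inner (C : Cl S F) (u : S) (w w' : F) : ⟪w, C.th u w'⟫_ℂ = ⟪C.th u w, w'⟫_ℂ :=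
  ((C.sa u).isSymmetric w w').symm

theorem af_pair (C : Cl S F) {u v : S} (hu : ‖u‖ ≤ 1) (hv : ‖v‖ ≤ 1) (w : F) :
    -(1 / 2) * ‖w‖ ^ 2 ≤ (I * ⟪w, C.th u (C.th v w)⟫_ℂ).re := by
  have h1 := C.norm_th_apply u w
  have h2 := C.norm_th_apply v w
  have h3 : ‖I * ⟪w, C.th u (C.th v w)⟫_ℂ‖ ≤ ‖C.th u w‖ * ‖C.th v w‖ := by
    rw [norm_mul, Complex.norm_I, one_mul, af_inner]
    exact norm_inner_le_norm _ _
  have h4 := (abs_le.1 ((Complex.abs_re_le_norm _).trans h3)).1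
  have h5 := mul_le_mul_of_nonneg_right (pow_le_one₀ (n := 2) (norm_nonneg _) hu) (sq_nonneg ‖w‖)
  have h6 := mul_le_mul_of_nonneg_right (pow_le_one₀ (n := 2) (norm_nonneg _) hv) (sq_nonneg ‖w‖)
  nlinarith [sq_nonneg (‖C.th u w‖ - ‖C.th v w‖)]

theorem af_fb (C : Cl S F) {J T : S →L[ℝ] S} (hJ1 : ∀ u, ‖J u‖ ≤ ‖u‖) (hT : Pos 0 T) (w : F) :
    -(tr T / 4) * ‖w‖ ^ 2 ≤ (⟪w, (I • C.spin (J * T)) w⟫_ℂ).re := by
  have hs : T.toLinearMap.IsSymmetric := hT.1
  let b := hs.eigenvectorBasis rfl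
  let t := hs.eigenvalues rfl
  have hb : ∀ i, T (b i) = t i • b i := hs.apply_eigenvectorBasis rfl
  have ht : ∀ i, ⟪b i, T (b i)⟫_ℝ = t i := fun i => by
    rw [hb, real_inner_smul_right, real_inner_self_eq_norm_sq, b.orthonormal.1 i]
    ring
  have e : ⟪w, (I • C.spin (J * T)) w⟫_ℂ =
      ∑ i, ((t i / 2 : ℝ) : ℂ) * (I * ⟪w, C.th (J (b i)) (C.th (b i) w)⟫_ℂ) := by
    rw [C.spin_onb _ b, ← Complex.coe_smul]
    simp only [smul_apply, inner_smul_right, sum_apply, inner_sum,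
      mul_apply_eq_comp, hb, map_smul, ← Complex.coe_smul, Finset.mul_sum]
    exact Finset.sum_congr rfl fun i _ => by push_cast; ring
  rw [e, Complex.re_sum, tr_eq_sum b, Finset.sum_div, ← Finset.sum_neg_distrib, Finset.sum_mul]
  refine Finset.sum_le_sum fun i _ => ?_
  have h0 : 0 ≤ t i := by simpa [ht] using hT.2 (b i)
  have h1 := mul_le_mul_of_nonneg_left (af_pair C ((hJ1 _).trans (b.orthonormal.1 i).le)
    (b.orthonormal.1 i).le w) (by positivity : 0 ≤ t i / 2)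
  rw [Complex.re_ofReal_mul, ht]
  linarith

/-- fermion ground state bound -/
theorem Cl.fb (C : Cl S F) {J T : S →L[ℝ] S} (hJ : Skew J) (hJ1 : ∀ u, ‖J u‖ ≤ ‖u‖)
    (hT : Pos 0 T) (hc : J * T = T * J) (w : F) :
    -(tr T / 4) * ‖w‖ ^ 2 ≤ (⟪w, (I • C.spin (J * T)) w⟫_ℂ).re := af_fb C hJ1 hT w

/-- annihilation operator -/
def afA (C : Cl S F) (J : S →L[ℝ] S) (u : S) : F →L[ℂ] F := C.th u - I • C.th (J u)

theorem af_star (C : Cl S F) (J : S →L[ℝ] S) (u : S) :
    star (afA C J u) = C.th u + I • C.th (J u) := by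
  rw [afA, star_sub, star_smul, (C.sa _).star_eq, (C.sa _).star_eq, Complex.star_def,
    Complex.conj_I, neg_smul, sub_neg_eq_add]

theorem af_jj {J : S →L[ℝ] S} (hJ : CS J) (u : S) : J (J u) = -u :=
  congrArg (fun T : S →L[ℝ] S => T u) hJ.2

theorem af_norm {J : S →L[ℝ] S} (hJ : CS J) (u : S) : ‖J u‖ ^ 2 = ‖u‖ ^ 2 := by
  rw [← real_inner_self_eq_norm_sq, hJ.1, af_jj hJ, inner_neg_right, neg_neg,
    real_inner_self_eq_norm_sq]

theorem af_aa (C : Cl S F) {J : S →L[ℝ] S} (hJ : CS J) {u : S} (hu : ‖u‖ = 1) :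
    star (afA C J u) * afA C J u = 1 + (2 * I) • (C.th (J u) * C.th u) := by
  have h0 : ⟪u, J u⟫_ℝ = 0 := by linarith [hJ.1 u u, real_inner_comm u (J u)]
  have h1 := C.car u (J u)
  rw [h0, zero_smul] at h1
  rw [af_star, afA]
  simp only [add_mul, mul_sub, smul_mul_assoc, mul_smul_comm, C.th_sq, af_norm hJ, hu,
    eq_neg_of_add_eq_zero_left h1, ← Complex.coe_smul]
  match_scalars
  · linear_combination (-1 / 2 : ℂ) * Complex.I_mul_I
  · ring

theorem af_num (C : Cl S F) {J : S →L[ℝ] S} (hJ : CS J) : C.num J = (1 / 4 : ℝ) •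
    ∑ i, star (afA C J (stdOrthonormalBasis ℝ S i)) * afA C J (stdOrthonormalBasis ℝ S i) := by
  simp only [af_aa C hJ ((stdOrthonormalBasis ℝ S).orthonormal.1 _), Finset.sum_add_distrib,
    ← Finset.smul_sum, Finset.sum_const, Finset.card_univ, Fintype.card_fin, Cl.num, Cl.spin,
    ← Complex.coe_smul, ← Nat.cast_smul_eq_nsmul ℂ]
  match_scalars <;> ring

theorem af_pos (C : Cl S F) {J : S →L[ℝ] S} (hJ : CS J) : 0 ≤ C.num J := by
  rw [af_num C hJ]
  exact smul_nonneg (by norm_num) (Finset.sum_nonneg fun i _ => star_mul_self_nonneg _)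

theorem af_ladder (C : Cl S F) {J : S →L[ℝ] S} (hJ : CS J) (u : S) :
    C.num J * afA C J u = afA C J u * (C.num J - 1) := by
  have h1 := eq_add_of_sub_eq (C.spin_comm hJ.1 u)
  have h2 := eq_add_of_sub_eq (C.spin_comm hJ.1 (J u))
  rw [af_jj hJ, map_neg] at h2
  simp only [afA, Cl.num, add_mul, mul_add, mul_sub, sub_mul, smul_mul_assoc, mul_smul_comm, h1, h2,
    mul_one, one_mul]
  match_scalars
  · linear_combination Complex.I_mul_I
  all_goals ring

theorem af_main (C : Cl S F) {J : S →L[ℝ] S} (hJ : CS J) :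
    C.vac J * C.vac J = C.vac J ∧ IsSelfAdjoint (C.vac J) ∧ C.num J * C.vac J = 0 ∧
      afFall (C.num J) (Module.finrank ℝ S + 1) = 0 ∧ 1 - C.vac J ≤ C.num J := by
  have hs := IsSelfAdjoint.of_nonneg (af_pos C hJ)
  have h1 : CS (-J) := ⟨fun u v => by simp [hJ.1 u v], by rw [neg_mul_neg, hJ.2]⟩
  have h2 : C.num J ≤ algebraMap ℝ _ ((Module.finrank ℝ S : ℝ) / 2) := by
    refine sub_nonneg.1 ((af_pos C h1).trans_eq ?_)
    rw [Cl.num, Cl.num, ← neg_one_smul ℝ J, C.spin_smul, Algebra.algebraMap_eq_smul_one,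
      ← Complex.coe_smul, ← Complex.coe_smul]
    match_scalars <;> ring
  refine af_all hs fun x hx => ?_
  obtain ⟨m, rfl⟩ := af_spec hs (af_num C hJ) (fun i => af_ladder C hJ _) x hx
  have h3 := (le_algebraMap_iff_spectrum_le hs).1 h2 _ hx
  have h4 : (0 : ℝ) ≤ Module.finrank ℝ S := Nat.cast_nonneg _
  exact ⟨m, Nat.cast_le.1 (by linarith : (m : ℝ) ≤ Module.finrank ℝ S), rfl⟩

theorem af_lin (C : Cl S F) (J : S →L[ℝ] S) {w : F}
    (h : ∀ i, afA C J (stdOrthonormalBasis ℝ S i) w = 0) (u : S) : afA C J u w = 0 := by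
  have e : afA C J u = ∑ i, ((stdOrthonormalBasis ℝ S).repr u i) •
      afA C J (stdOrthonormalBasis ℝ S i) := by
    conv_lhs => rw [← (stdOrthonormalBasis ℝ S).sum_repr u]
    simp only [afA, map_sum, map_smul, Finset.smul_sum, smul_sub, Finset.sum_sub_distrib,
      smul_comm I]
  simp [e, h]

theorem af_ker (C : Cl S F) {J : S →L[ℝ] S} (hJ : CS J) {w : F} :
    C.num J w = 0 ↔ ∀ u, afA C J u w = 0 := by
  refine ⟨fun h => af_lin C J fun i => ?_, fun h => by simp [af_num C hJ, h]⟩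
  have e : ⟪w, C.num J w⟫_ℂ =
      ((1 / 4 * ∑ i, ‖afA C J (stdOrthonormalBasis ℝ S i) w‖ ^ 2 : ℝ) : ℂ) := by
    rw [af_num C hJ, ← Complex.coe_smul]
    simp only [smul_apply, inner_smul_right, sum_apply, inner_sum,
      mul_apply_eq_comp, ContinuousLinearMap.star_eq_adjoint,
      ContinuousLinearMap.adjoint_inner_right, inner_self_eq_norm_sq_to_K]
    push_cast
    rfl
  rw [h, inner_zero_right] at e
  have h1 : ∑ i, ‖afA C J (stdOrthonormalBasis ℝ S i) w‖ ^ 2 = 0 := by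
    linarith [Complex.ofReal_eq_zero.1 e.symm]
  simpa using (Finset.sum_eq_zero_iff_of_nonneg fun i _ => sq_nonneg _).1 h1 i (Finset.mem_univ i)

theorem af_ann (C : Cl S F) (J : S →L[ℝ] S) (u : S) (w : F) :
    afA C J u w = 0 ↔ C.th (J u) w = (-I) • C.th u w := by
  rw [afA, sub_apply, smul_apply, sub_eq_zero]
  refine ⟨fun h => ?_, fun h => ?_⟩ <;> rw [h, smul_smul] <;> simp

theorem af_fix (C : Cl S F) (J : S →L[ℝ] S) {w : F} (h : C.num J w = 0) (n : ℕ) :
    afVac n (C.num J) w = w := by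
  induction n with
  | zero => simp [afVac]
  | succ n ih => simp [afVac_succ, h, ih]

theorem Cl.vac_idem (C : Cl S F) {J : S →L[ℝ] S} (hJ : CS J) :
    C.vac J * C.vac J = C.vac J ∧ IsSelfAdjoint (C.vac J) :=
  ⟨(af_main C hJ).1, (af_main C hJ).2.1⟩
theorem Cl.vac_ann (C : Cl S F) {J : S →L[ℝ] S} (hJ : CS J) (u : S) :
    C.th (J u) * C.vac J = (-I) • (C.th u * C.vac J) :=
  ContinuousLinearMap.ext fun w => (af_ann C J u _).1 ((af_ker C hJ).1
    (congrArg (fun T : F →L[ℂ] F => T w) (af_main C hJ).2.2.1) u)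
theorem Cl.vac_cre (C : Cl S F) {J : S →L[ℝ] S} (hJ : CS J) (u : S) :
    C.vac J * C.th (J u) = I • (C.vac J * C.th u) := by
  have h := congrArg star (C.vac_ann hJ u)
  rwa [star_smul, star_mul, star_mul, (C.sa _).star_eq, (C.sa _).star_eq,
    (C.vac_idem hJ).2.star_eq, Complex.star_def, map_neg, Complex.conj_I, neg_neg] at h
/-- a vector killed by all annihilators is a vacuum -/
theorem Cl.vac_of_ann (C : Cl S F) {J : S →L[ℝ] S} (hJ : CS J) {w : F}
    (h : ∀ u, C.th (J u) w = (-I) • C.th u w) : C.vac J w = w :=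
  af_fix C J ((af_ker C hJ).2 fun u => (af_ann C J u w).2 (h u)) _
theorem Cl.vac_ne (C : Cl S F) [Nontrivial F] {J : S →L[ℝ] S} (hJ : CS J) : C.vac J ≠ 0 := by
  intro h
  have h0 : ∀ w, C.num J w = 0 → w = 0 := fun w hw => by
    rw [← af_fix C J hw (Module.finrank ℝ S)]
    exact congrArg (fun T : F →L[ℂ] F => T w) h
  have h1 : ∀ (k : ℕ) w, (C.num J - k) w = 0 → w = 0 := fun k => by
    induction k with
    | zero => simpa using h0
    | succ k ih =>
      refine fun w hw => h0 w ((af_ker C hJ).2 fun u => ih _ ?_)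
      have e : (C.num J - k) * afA C J u = afA C J u * (C.num J - (k + 1 : ℕ)) := by
        rw [sub_mul, af_ladder C hJ, Nat.cast_comm, ← mul_sub, Nat.cast_succ, sub_sub, add_comm 1]
      have h2 := congrArg (fun T : F →L[ℂ] F => T w) e
      simpa only [mul_apply_eq_comp, hw, map_zero] using h2
  have h2 : ∀ (k : ℕ) w, afFall (C.num J) k w = 0 → w = 0 := fun k => by
    induction k with
    | zero => exact fun w hw => hw
    | succ k ih => exact fun w hw => h1 k w (ih _ hw)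
  obtain ⟨w, hw⟩ := exists_ne (0 : F)
  exact hw (h2 _ w (congrArg (fun T : F →L[ℂ] F => T w) (af_main C hJ).2.2.2.1))
/-- spectral gap above the vacuum -/
theorem Cl.vac_gap (C : Cl S F) {J T : S →L[ℝ] S} (hJ : CS J) {c : ℝ} (hc0 : 0 ≤ c) (hT : Pos c T)
    (hc : J * T = T * J) (w : F) :
    -(tr T / 4) * ‖w‖ ^ 2 + c * (‖w‖ ^ 2 - ‖C.vac J w‖ ^ 2) ≤
      (⟪w, (I • C.spin (J * T)) w⟫_ℂ).re := by
  have h1 : Pos 0 (T - c • 1) := ⟨fun u v => by
    simp [inner_sub_left, inner_sub_right, real_inner_smul_left, real_inner_smul_right, hT.1 u v],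
    fun u => by simpa [inner_sub_right, real_inner_smul_right] using hT.2 u⟩
  have h2 := af_fb C (J := J) (fun u => (pow_le_pow_iff_left₀ (norm_nonneg _) (norm_nonneg _)
    two_ne_zero).1 (af_norm hJ u).le) h1 w
  have h3 : tr (T - c • 1) = tr T - c * Module.finrank ℝ S := by
    simp [tr, LinearMap.trace_one]
  have h4 : (⟪w, (I • C.spin (J * T)) w⟫_ℂ).re = (⟪w, (I • C.spin (J * (T - c • 1))) w⟫_ℂ).re +
      c * (⟪w, (I • C.spin J) w⟫_ℂ).re := by
    have e : J * T = J * (T - c • 1) + c • J := by simp [mul_sub]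
    have e2 : ((c : ℂ) • I • C.spin J) w = (c : ℂ) • (I • C.spin J) w := rfl
    conv_lhs => rw [e, C.spin_add, C.spin_smul, smul_add, smul_comm I c, add_apply, inner_add_right,
      Complex.add_re, ← Complex.coe_smul, e2, inner_smul_right, Complex.re_ofReal_mul]
  have h5 : ⟪w, C.vac J w⟫_ℂ = (‖C.vac J w‖ ^ 2 : ℝ) := by
    conv_lhs => rw [← (C.vac_idem hJ).1]
    exact ((C.vac_idem hJ).2.isSymmetric w _).symm.trans
      ((inner_self_eq_norm_sq_to_K _).trans (by push_cast; rfl))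
  have h6 : ⟪w, w⟫_ℂ = (‖w‖ ^ 2 : ℝ) := (inner_self_eq_norm_sq_to_K _).trans (by push_cast; rfl)
  have h7 : 0 ≤ (⟪w, (C.num J - (1 - C.vac J)) w⟫_ℂ).re :=
    ContinuousLinearMap.IsPositive.re_inner_nonneg_right (af_main C hJ).2.2.2.2 w
  have e : ⟪w, (C.num J - (1 - C.vac J)) w⟫_ℂ = ((Module.finrank ℝ S / 4 * ‖w‖ ^ 2 - ‖w‖ ^ 2 +
      ‖C.vac J w‖ ^ 2 : ℝ) : ℂ) + ⟪w, (I • C.spin J) w⟫_ℂ := by
    rw [Cl.num, sub_apply, sub_apply, add_apply, smul_apply, one_apply_eq_self,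
      inner_sub_right, inner_sub_right, inner_add_right, inner_smul_right, h5, h6]
    push_cast
    ring
  rw [e, Complex.add_re, Complex.ofReal_re] at h7
  rw [h3] at h2
  rw [h4]
  nlinarith [mul_nonneg hc0 h7]

theorem af_two (C : Cl S F) {J : S →L[ℝ] S} (hJ : CS J) (u v : S) :
    C.vac J * (C.th u * C.th v) * C.vac J =
      ((1 / 2 : ℂ) * ((⟪u, v⟫_ℝ : ℝ) + I * (⟪u, J v⟫_ℝ : ℝ))) • C.vac J := by
  have h0 : ∀ u v, C.vac J * (C.th u * C.th v) * C.vac J + C.vac J * (C.th v * C.th u) * C.vac J =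
      ((⟪u, v⟫_ℝ : ℝ) : ℂ) • C.vac J := fun u v => by
    rw [← add_mul, ← mul_add, C.car, mul_smul_comm, smul_mul_assoc, mul_one, (C.vac_idem hJ).1,
      Complex.coe_smul]
  have h1 := h0 u v
  have h2 := h0 u (J v)
  have e1 : C.vac J * (C.th u * C.th (J v)) * C.vac J =
      (-I) • (C.vac J * (C.th u * C.th v) * C.vac J) := by
    simp only [mul_assoc, C.vac_ann hJ, mul_smul_comm]
  have e2 : C.vac J * (C.th (J v) * C.th u) * C.vac J =
      I • (C.vac J * (C.th v * C.th u) * C.vac J) := by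
    simp only [← mul_assoc, C.vac_cre hJ, smul_mul_assoc]
  rw [e1, e2] at h2
  generalize C.vac J * (C.th u * C.th v) * C.vac J = X at h1 h2 ⊢
  generalize C.vac J * (C.th v * C.th u) * C.vac J = Y at h1 h2
  have e3 : X = (1 / 2 : ℂ) • ((X + Y) + I • ((-I) • X + I • Y)) := by
    match_scalars
    · linear_combination (1 / 2 : ℂ) * Complex.I_mul_I
    · linear_combination (-1 / 2 : ℂ) * Complex.I_mul_I
  rw [e3, h1, h2]
  module

theorem Cl.vac_spin_vac (C : Cl S F) {J T : S →L[ℝ] S} (hJ : CS J) (hT : Skew T) :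
    C.vac J * C.spin T * C.vac J = (-(I * (tr (J * T) / 4 : ℝ))) • C.vac J := by
  have h1 : ∀ u, ⟪T u, u⟫_ℝ = 0 := fun u => by linarith [hT u u, real_inner_comm u (T u)]
  have h2 : ∀ u, ⟪T u, J u⟫_ℝ = -⟪u, (J * T) u⟫_ℝ := fun u => by
    rw [real_inner_comm, hJ.1]
    rfl
  rw [Cl.spin, mul_smul_comm, smul_mul_assoc, Finset.mul_sum, Finset.sum_mul,
    tr_eq_sum (stdOrthonormalBasis ℝ S), ← Complex.coe_smul]
  simp only [af_two C hJ, h1, h2, ← Finset.sum_smul, smul_smul]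
  congr 1
  push_cast
  simp only [Finset.mul_sum, Finset.sum_div, ← Finset.sum_neg_distrib]
  exact Finset.sum_congr rfl fun i _ => by ring
/-- a skew operator commuting with `J` acts on the vacuum by its charge -/
theorem Cl.spin_vac (C : Cl S F) {J T : S →L[ℝ] S} (hJ : CS J) (hT : Skew T)
    (hc : J * T = T * J) : C.spin T * C.vac J = (-(I * (tr (J * T) / 4 : ℝ))) • C.vac J := by
  have h1 := C.spin_lie hT hJ.1
  rw [hc, sub_self, ← zero_smul ℝ J, C.spin_smul, zero_smul, sub_eq_zero] at h1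
  have h2 : C.spin T * C.vac J = C.vac J * C.spin T := afVac_semi (by
    simp only [Cl.num, add_mul, mul_add, smul_mul_assoc, mul_smul_comm, h1, mul_one, one_mul]) _
  rw [← C.vac_spin_vac hJ hT, ← h2, mul_assoc, (C.vac_idem hJ).1]
theorem Cl.vac_conj (C : Cl S F) {U : F →L[ℂ] F} {g g' : S →L[ℝ] S}
    (hg : ∀ u v, ⟪g u, g v⟫_ℝ = ⟪u, v⟫_ℝ) (hg' : g * g' = 1) (hU : ∀ u, U * C.th u = C.th (g u) * U)
    (J : S →L[ℝ] S) : U * C.vac J = C.vac (g * J * g') * U :=
  afVac_semi (by simp only [Cl.num, add_mul, mul_add, smul_mul_assoc, mul_smul_comm,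
    C.conj_spin hg hg' hU J, mul_one, one_mul]) _
/-- operators that commute or anticommute with all generators commute with the vacuum projection -/
theorem Cl.vac_comm (C : Cl S F) {A : F →L[ℂ] F} {s : ℝ} (hs : s * s = 1)
    (hA : ∀ u, A * C.th u = s • (C.th u * A)) (J : S →L[ℝ] S) : A * C.vac J = C.vac J * A := by
  have h1 : ∀ u v, A * (C.th u * C.th v) = C.th u * C.th v * A := fun u v => by
    rw [← mul_assoc, hA, smul_mul_assoc, mul_assoc, hA, mul_smul_comm, smul_smul, hs, one_smul,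
      mul_assoc]
  exact afVac_semi (by simp only [Cl.num, Cl.spin, add_mul, mul_add, smul_mul_assoc, mul_smul_comm,
    Finset.mul_sum, Finset.sum_mul, h1, mul_one, one_mul]) _
theorem Cl.contDiff_vac (C : Cl S F) : ContDiff ℝ ∞ C.vac := by
  obtain ⟨σ, hσ⟩ := C.spin_clm
  have h1 : ContDiff ℝ ∞ C.num := by
    have h2 : ContDiff ℝ ∞ C.spin := funext hσ ▸ σ.contDiff
    exact contDiff_const.add (h2.const_smul I)
  have h2 : ∀ n, ContDiff ℝ ∞ fun J => afVac n (C.num J) := fun n => by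
    induction n with
    | zero => exact contDiff_const
    | succ n ih =>
      simp only [afVac_succ]
      exact ih.mul (contDiff_const.sub (h1.const_smul _))
  exact h2 _

end Vale.Agent.P353
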