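import Vale.Agent.P353.Defs

open MeasureTheory NormedSpace
open Complex (I)
open scoped InnerProductSpace ContDiff

noncomputable section
namespace Vale.Agent.P353

/-! Gamma matrix algebra. -/

theorem Gam.sw (G : Gam) (i j : Fin 9) :
    G.g i * G.g j = (if i = j then (2 : ℝ) else 0) • (1 : M16) - G.g j * G.g i := by
  have h := G.cl i j
  rw [eq_sub_iff_add_eq, h]
  split_ifs <;> simp

theorem Gam.sq (G : Gam) (i : Fin 9) : G.g i * G.g i = 1 := by
  have h := G.cl i i
  rw [if_pos rfl, ← two_smul ℝ] at h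
  exact smul_right_injective _ (two_ne_zero (α := ℝ)) h

theorem Gam.anti (G : Gam) {i j : Fin 9} (h : i ≠ j) : G.g i * G.g j = -(G.g j * G.g i) := by
  rw [G.sw i j, if_neg h]; simp

theorem Gam.g2_ne (G : Gam) {i j : Fin 9} (h : i ≠ j) : G.g2 i j = G.g i * G.g j := by
  rw [Gam.g2, G.anti h.symm]; module

theorem Gam.g2_self (G : Gam) (i : Fin 9) : G.g2 i i = 0 := by simp [Gam.g2]

theorem Gam.g2_swap (G : Gam) (i j : Fin 9) : G.g2 j i = -G.g2 i j := by
  simp only [Gam.g2]; module

theorem Gam.g2_transpose (G : Gam) (i j : Fin 9) : (G.g2 i j).transpose = -G.g2 i j := by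
  simp only [Gam.g2, Matrix.transpose_smul, Matrix.transpose_sub, Matrix.transpose_mul,
    (G.symm i).eq, (G.symm j).eq]
  module

theorem Gam.mul_eq (G : Gam) (i j : Fin 9) :
    G.g i * G.g j = G.g2 i j + (if i = j then (1 : ℝ) else 0) • (1 : M16) := by
  by_cases h : i = j
  · subst h; simp [G.sq, G.g2_self]
  · simp [h, G.g2_ne h]

theorem exists_ne_five (i j k l m : Fin 9) :
    ∃ n : Fin 9, n ≠ i ∧ n ≠ j ∧ n ≠ k ∧ n ≠ l ∧ n ≠ m := by
  have h : (({i, j, k, l, m} : Finset (Fin 9))).card < (Finset.univ : Finset (Fin 9)).card :=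
    lt_of_le_of_lt Finset.card_le_five (by simp)
  obtain ⟨n, -, hn⟩ := Finset.exists_mem_notMem_of_card_lt_card h
  refine ⟨n, ?_⟩
  simpa only [Finset.mem_insert, Finset.mem_singleton, not_or] using hn

theorem Gam.tr_zero (G : Gam) {W : M16} (n : Fin 9) (h : G.g n * W = -(W * G.g n)) :
    W.trace = 0 := by
  have h1 : (G.g n * W * G.g n).trace = W.trace := by
    rw [Matrix.trace_mul_cycle, G.sq, Matrix.one_mul]
  have h2 : (G.g n * W * G.g n).trace = -W.trace := by
    rw [h, Matrix.neg_mul, Matrix.mul_assoc, G.sq, Matrix.mul_one, Matrix.trace_neg]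
  linarith

theorem anti_mul_two {x W a b : M16} (h : x * W = -(W * x)) (ha : x * a = -(a * x))
    (hb : x * b = -(b * x)) : x * (W * a * b) = -(W * a * b * x) := by
  calc x * (W * a * b) = (x * W) * a * b := by simp only [Matrix.mul_assoc]
    _ = -(W * (x * a) * b) := by rw [h]; simp only [Matrix.neg_mul, Matrix.mul_assoc]
    _ = W * a * (x * b) := by
        rw [ha]; simp only [Matrix.neg_mul, Matrix.mul_neg, neg_neg, Matrix.mul_assoc]
    _ = -(W * a * b * x) := by rw [hb]; simp only [Matrix.mul_neg, Matrix.mul_assoc]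

theorem Gam.tr1 (G : Gam) (i : Fin 9) : (G.g i).trace = 0 := by
  obtain ⟨n, h, -⟩ := exists_ne_five i i i i i
  exact G.tr_zero n (G.anti h)

theorem Gam.tr2 (G : Gam) (i j : Fin 9) : (G.g i * G.g j).trace = if i = j then 16 else 0 := by
  by_cases h : i = j
  · subst h; simp [G.sq]
  · rw [if_neg h]
    have h1 : (G.g i * G.g j).trace = -(G.g j * G.g i).trace := by
      rw [G.anti h, Matrix.trace_neg]
    rw [Matrix.trace_mul_comm (G.g j)] at h1
    linarith

theorem Gam.tr3 (G : Gam) (i j k : Fin 9) : (G.g i * G.g j * G.g k).trace = 0 := by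
  obtain ⟨n, hi, hj, hk, -⟩ := exists_ne_five i j k k k
  exact G.tr_zero n (anti_mul_two (G.anti hi) (G.anti hj) (G.anti hk))

theorem Gam.tr4 (G : Gam) (i j k l : Fin 9) : (G.g i * G.g j * G.g k * G.g l).trace =
    16 * ((if i = j ∧ k = l then 1 else 0) - (if i = k ∧ j = l then 1 else 0) +
      (if i = l ∧ j = k then 1 else 0)) := by
  have e1 : G.g i * G.g j * G.g k * G.g l =
      (if i = j then (2 : ℝ) else 0) • (G.g k * G.g l) - G.g j * (G.g i * G.g k) * G.g l := by
    rw [G.sw i j]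
    simp only [Matrix.sub_mul, Matrix.smul_mul, Matrix.one_mul, Matrix.mul_assoc]
  have e2 : G.g j * (G.g i * G.g k) * G.g l =
      (if i = k then (2 : ℝ) else 0) • (G.g j * G.g l) - G.g j * G.g k * (G.g i * G.g l) := by
    rw [G.sw i k]
    simp only [Matrix.sub_mul, Matrix.mul_sub, Matrix.smul_mul, Matrix.mul_smul, Matrix.mul_one,
      Matrix.mul_assoc]
  have e3 : G.g j * G.g k * (G.g i * G.g l) =
      (if i = l then (2 : ℝ) else 0) • (G.g j * G.g k) - G.g j * G.g k * G.g l * G.g i := by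
    rw [G.sw i l]
    simp only [Matrix.mul_sub, Matrix.mul_smul, Matrix.mul_one, Matrix.mul_assoc]
  have e4 : (G.g j * G.g k * G.g l * G.g i).trace = (G.g i * G.g j * G.g k * G.g l).trace := by
    rw [Matrix.trace_mul_comm]; simp only [Matrix.mul_assoc]
  have t1 := congrArg Matrix.trace e1
  have t2 := congrArg Matrix.trace e2
  have t3 := congrArg Matrix.trace e3
  simp only [Matrix.trace_sub, Matrix.trace_smul, G.tr2, smul_eq_mul] at t1 t2 t3
  rw [e4] at t3
  have a1 : (if i = j then (2 : ℝ) else 0) * (if k = l then 16 else 0) =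
      32 * (if i = j ∧ k = l then 1 else 0) := by
    by_cases h : i = j <;> by_cases h' : k = l <;> simp [h, h']; norm_num
  have a2 : (if i = k then (2 : ℝ) else 0) * (if j = l then 16 else 0) =
      32 * (if i = k ∧ j = l then 1 else 0) := by
    by_cases h : i = k <;> by_cases h' : j = l <;> simp [h, h']; norm_num
  have a3 : (if i = l then (2 : ℝ) else 0) * (if j = k then 16 else 0) =
      32 * (if i = l ∧ j = k then 1 else 0) := by
    by_cases h : i = l <;> by_cases h' : j = k <;> simp [h, h']; norm_num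
  rw [a1] at t1
  rw [a2] at t2
  rw [a3] at t3
  linarith

theorem Gam.tr5 (G : Gam) (i j k l m : Fin 9) :
    (G.g i * G.g j * G.g k * G.g l * G.g m).trace = 0 := by
  obtain ⟨n, hi, hj, hk, hl, hm⟩ := exists_ne_five i j k l m
  exact G.tr_zero n (anti_mul_two (anti_mul_two (G.anti hi) (G.anti hj) (G.anti hk))
    (G.anti hl) (G.anti hm))

theorem Gam.hat_transpose (G : Gam) (A : M9) : (G.hat A).transpose = -G.hat A := by
  simp only [Gam.hat, Matrix.transpose_smul, Matrix.transpose_sum, G.g2_transpose, smul_neg,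
    Finset.sum_neg_distrib]

theorem Gam.g2_comm (G : Gam) (l m k : Fin 9) :
    G.g2 l m * G.g k - G.g k * G.g2 l m =
      (if m = k then (2 : ℝ) else 0) • G.g l - (if l = k then (2 : ℝ) else 0) • G.g m := by
  have h0 : G.g2 l m = G.g l * G.g m - (if l = m then (1 : ℝ) else 0) • (1 : M16) := by
    rw [G.mul_eq l m]; simp
  have e1 : G.g l * G.g m * G.g k =
      (if m = k then (2 : ℝ) else 0) • G.g l - G.g l * G.g k * G.g m := by
    rw [Matrix.mul_assoc, G.sw m k]
    simp only [Matrix.mul_sub, Matrix.mul_smul, Matrix.mul_one, Matrix.mul_assoc]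
  have e2 : G.g l * G.g k * G.g m =
      (if l = k then (2 : ℝ) else 0) • G.g m - G.g k * (G.g l * G.g m) := by
    rw [G.sw l k]
    simp only [Matrix.sub_mul, Matrix.smul_mul, Matrix.one_mul, Matrix.mul_assoc]
  rw [h0]
  simp only [Matrix.sub_mul, Matrix.mul_sub, Matrix.smul_mul, Matrix.mul_smul, Matrix.one_mul,
    Matrix.mul_one]
  rw [e1, e2]
  module

theorem Gam.hat_comm (G : Gam) {A : M9} (hA : A.transpose = -A) (k : Fin 9) :
    G.hat A * G.g k - G.g k * G.hat A = ∑ l, A l k • G.g l := by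
  have hA' : ∀ a b, A a b = -A b a := fun a b => by
    have := congrFun (congrFun hA b) a
    simpa using this
  have h1 : G.hat A * G.g k - G.g k * G.hat A =
      (1 / 4 : ℝ) • ∑ l, ∑ m, A l m • (G.g2 l m * G.g k - G.g k * G.g2 l m) := by
    simp only [Gam.hat, Matrix.smul_mul, Matrix.mul_smul, Matrix.sum_mul, Matrix.mul_sum,
      smul_sub, Finset.sum_sub_distrib]
  have h2 : ∑ l, ∑ m, A l m • ((if m = k then (2 : ℝ) else 0) • G.g l) =
      (2 : ℝ) • ∑ l, A l k • G.g l := by
    rw [Finset.smul_sum]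
    refine Finset.sum_congr rfl fun l _ => ?_
    rw [Finset.sum_eq_single k (fun m _ hm => by simp [hm]) (by simp), if_pos rfl, smul_comm]
  have h3 : ∑ l, ∑ m, A l m • ((if l = k then (2 : ℝ) else 0) • G.g m) =
      (-2 : ℝ) • ∑ l, A l k • G.g l := by
    rw [Finset.sum_eq_single k (fun m _ hm => by simp [hm]) (by simp), if_pos rfl,
      Finset.smul_sum]
    refine Finset.sum_congr rfl fun l _ => ?_
    rw [hA' k l]; module
  rw [h1]
  simp only [G.g2_comm, smul_sub, Finset.sum_sub_distrib]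
  rw [h2, h3]
  module

theorem Gam.sum_conj_g (G : Gam) (j : Fin 9) :
    ∑ k, G.g k * G.g j * G.g k = (-7 : ℝ) • G.g j := by
  have h : ∀ k, G.g k * G.g j * G.g k = (if k = j then (2 : ℝ) else 0) • G.g k - G.g j := by
    intro k
    rw [G.sw k j]
    simp only [Matrix.sub_mul, Matrix.smul_mul, Matrix.one_mul, Matrix.mul_assoc, G.sq,
      Matrix.mul_one]
  simp only [h, Finset.sum_sub_distrib]
  rw [Finset.sum_eq_single j (fun m _ hm => by simp [hm]) (by simp), if_pos rfl, Finset.sum_const,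
    Finset.card_univ, Fintype.card_fin, ← Nat.cast_smul_eq_nsmul ℝ]
  module

theorem Gam.sum_conj_gg (G : Gam) (l m : Fin 9) :
    ∑ k, G.g k * (G.g l * G.g m) * G.g k =
      (2 : ℝ) • (G.g m * G.g l) + (7 : ℝ) • (G.g l * G.g m) := by
  have h : ∀ k, G.g k * (G.g l * G.g m) * G.g k =
      (if k = l then (2 : ℝ) else 0) • (G.g m * G.g k) - G.g l * (G.g k * G.g m * G.g k) := by
    intro k
    rw [← Matrix.mul_assoc, G.sw k l]
    simp only [Matrix.sub_mul, Matrix.smul_mul, Matrix.one_mul, Matrix.mul_assoc]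
  simp only [h, Finset.sum_sub_distrib]
  rw [Finset.sum_eq_single l (fun m _ hm => by simp [hm]) (by simp), if_pos rfl,
    ← Matrix.mul_sum, G.sum_conj_g, Matrix.mul_smul]
  module

theorem Gam.sum_conj_g2 (G : Gam) (l m : Fin 9) :
    ∑ k, G.g k * G.g2 l m * G.g k = (5 : ℝ) • G.g2 l m := by
  simp only [Gam.g2, Matrix.smul_mul, Matrix.mul_smul, Matrix.mul_sub, Matrix.sub_mul]
  rw [← Finset.smul_sum, Finset.sum_sub_distrib, G.sum_conj_gg, G.sum_conj_gg]
  module

theorem Gam.sum_conj_hat (G : Gam) (A : M9) :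
    ∑ k, G.g k * G.hat A * G.g k = (5 : ℝ) • G.hat A := by
  simp only [Gam.hat, Matrix.smul_mul, Matrix.mul_smul, Matrix.mul_sum, Matrix.sum_mul]
  rw [← Finset.smul_sum, smul_comm, Finset.sum_comm, Finset.smul_sum (r := (5 : ℝ))]
  congr 1
  refine Finset.sum_congr rfl fun l _ => ?_
  rw [Finset.sum_comm, Finset.smul_sum]
  refine Finset.sum_congr rfl fun m _ => ?_
  rw [← Finset.smul_sum, G.sum_conj_g2, smul_comm]

theorem plane_transpose (a : Fin 4) : (plane a).transpose = -plane a := by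
  simp only [plane, Matrix.transpose_sub, Matrix.transpose_single, neg_sub]

theorem Amat_transpose : Amat.transpose = -Amat := by
  simp only [Amat, Matrix.transpose_sum, Matrix.transpose_smul, plane_transpose, smul_neg,
    Finset.sum_neg_distrib]

theorem Imat_transpose : Imat.transpose = -Imat := by
  simp only [Imat, Matrix.transpose_sum, plane_transpose, Finset.sum_neg_distrib]

theorem plane_eight (a : Fin 4) (i : Fin 9) : plane a i 8 = 0 ∧ plane a 8 i = 0 := by
  have h1 : p1 a ≠ 8 := by revert a; decide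
  have h2 : p2 a ≠ 8 := by revert a; decide
  simp [plane, h1, h2]

theorem Amat_eight (i : Fin 9) :
    Amat i 8 = 0 ∧ Amat 8 i = 0 ∧ Imat i 8 = 0 ∧ Imat 8 i = 0 := by
  simp only [Amat, Imat, Matrix.sum_apply, Matrix.smul_apply, (plane_eight _ i).1,
    (plane_eight _ i).2, smul_zero, Finset.sum_const_zero, and_self]

theorem Gam.sum_single (G : Gam) (p q : Fin 9) :
    ∑ l, ∑ m, (Matrix.single p q (1 : ℝ) : M9) l m • G.g2 l m = G.g2 p q := by
  rw [Finset.sum_eq_single p (fun l _ hl => by simp [hl.symm]) (by simp),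
    Finset.sum_eq_single q (fun l _ hl => by simp [hl.symm]) (by simp)]
  simp

theorem Gam.hat_plane (G : Gam) (a : Fin 4) :
    G.hat (plane a) = (-1 / 2 : ℝ) • (G.g (p1 a) * G.g (p2 a)) := by
  have h : p1 a ≠ p2 a := by revert a; decide
  simp only [Gam.hat, plane, Matrix.sub_apply, sub_smul, Finset.sum_sub_distrib, G.sum_single]
  rw [G.g2_swap (p1 a), G.g2_ne h]
  module

theorem Gam.hat_Amat (G : Gam) :
    G.hat Amat = (-1 / 2 : ℝ) • ∑ a, eps a • (G.g (p1 a) * G.g (p2 a)) := by
  have h : G.hat Amat = ∑ a, eps a • G.hat (plane a) := by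
    simp only [Gam.hat, Amat, Matrix.sum_apply, Matrix.smul_apply, smul_eq_mul, Finset.sum_smul,
      Finset.smul_sum, smul_smul]
    rw [Finset.sum_comm (s := (Finset.univ : Finset (Fin 4)))]
    refine Finset.sum_congr rfl fun l _ => ?_
    rw [Finset.sum_comm]
    refine Finset.sum_congr rfl fun a _ => Finset.sum_congr rfl fun m _ => ?_
    congr 1; ring
  rw [h, Finset.smul_sum]
  refine Finset.sum_congr rfl fun a _ => ?_
  rw [G.hat_plane, smul_comm]

/-- the vectors `γ^i e` are orthonormal for a unit vector `e` -/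
theorem Gam.dot (G : Gam) {e : R16} (he : e ⬝ᵥ e = 1) (i j : Fin 9) :
    (G.g i).mulVec e ⬝ᵥ (G.g j).mulVec e = if i = j then 1 else 0 := by
  have h : ∀ a b, (G.g a).mulVec e ⬝ᵥ (G.g b).mulVec e = e ⬝ᵥ (G.g a * G.g b).mulVec e := by
    intro a b
    rw [← Matrix.mulVec_mulVec, Matrix.dotProduct_mulVec e (G.g a), ← Matrix.mulVec_transpose,
      (G.symm a).eq]
  by_cases hij : i = j
  · subst hij
    rw [h, G.sq, Matrix.one_mulVec, he, if_pos rfl]
  · rw [if_neg hij]
    have h1 := h i j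
    have h2 := h j i
    rw [G.anti hij, Matrix.neg_mulVec, dotProduct_neg, ← h2,
      dotProduct_comm ((G.g j).mulVec e)] at h1
    linarith

end Vale.Agent.P353
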