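import Vale.Agent.P353.AFock
import Vale.Agent.P353.AGam

open MeasureTheory NormedSpace
open Complex (I)
open scoped InnerProductSpace ContDiff

noncomputable section
namespace Vale.Agent.P353
variable {S F : Type} [NormedAddCommGroup S] [InnerProductSpace ℝ S] [FiniteDimensional ℝ S]
  [NormedAddCommGroup F] [InnerProductSpace ℂ F] [CompleteSpace F]

/-- the algebra generated by the Clifford generators -/
def Cl.alg (C : Cl S F) : Subalgebra ℂ (F →L[ℂ] F) := Algebra.adjoin ℂ (Set.range C.th)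

omit [FiniteDimensional ℝ S] in
theorem Cl.th_mem_alg (C : Cl S F) (u : S) : C.th u ∈ C.alg :=
  Algebra.subset_adjoin ⟨u, rfl⟩

theorem Cl.spin_mem_alg (C : Cl S F) (T : S →L[ℝ] S) : C.spin T ∈ C.alg := by
  unfold Cl.spin
  rw [← Complex.coe_smul]
  exact C.alg.smul_mem (C.alg.sum_mem fun a _ => C.alg.mul_mem (C.th_mem_alg _) (C.th_mem_alg _)) _

theorem Cl.vac_mem_alg (C : Cl S F) (J : S →L[ℝ] S) : C.vac J ∈ C.alg := by
  unfold Cl.vac
  refine C.alg.list_prod_mem fun x hx => ?_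
  obtain ⟨k, -, rfl⟩ := List.mem_map.1 hx
  refine C.alg.sub_mem C.alg.one_mem (C.alg.smul_mem ?_ _)
  exact C.alg.add_mem (C.alg.smul_mem C.alg.one_mem _) (C.alg.smul_mem (C.spin_mem_alg J) _)

/-- annihilation operator -/
def Cl.af2a (C : Cl S F) (J : S →L[ℝ] S) (u : S) : F →L[ℂ] F := C.th u - I • C.th (J u)

theorem Cl.af2_ann (C : Cl S F) {J : S →L[ℝ] S} (hJ : CS J) (u : S) :
    C.af2a J u * C.vac J = 0 := by
  rw [Cl.af2a, sub_mul, smul_mul_assoc, C.vac_ann hJ, smul_smul, mul_neg, Complex.I_mul_I,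
    neg_neg, one_smul, sub_self]

theorem Cl.af2_half (C : Cl S F) {J : S →L[ℝ] S} (hJ : CS J) (u : S) :
    C.vac J * C.th u = (1 / 2 : ℂ) • (C.vac J * C.af2a J u) := by
  rw [Cl.af2a, mul_sub, mul_smul_comm, C.vac_cre hJ, smul_smul, Complex.I_mul_I]
  module

omit [FiniteDimensional ℝ S] in
theorem Cl.af2_car (C : Cl S F) (u v : S) :
    C.th u * C.th v = ((⟪u, v⟫_ℝ : ℝ) : ℂ) • (1 : F →L[ℂ] F) - C.th v * C.th u := by
  rw [Complex.coe_smul, ← C.car u v, add_sub_cancel_right]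

omit [FiniteDimensional ℝ S] in
theorem Cl.af2_acomm (C : Cl S F) {J : S →L[ℝ] S} (hJ : CS J) (u v : S) (X : F →L[ℂ] F) :
    C.af2a J u * (C.th v * X) =
      (((⟪u, v⟫_ℝ : ℝ) : ℂ) + I * (⟪u, J v⟫_ℝ : ℝ)) • X - C.th v * (C.af2a J u * X) := by
  rw [← mul_assoc, ← mul_assoc, Cl.af2a, sub_mul, smul_mul_assoc, C.af2_car u v,
    C.af2_car (J u) v, hJ.1 u v, mul_sub, mul_smul_comm]
  simp only [sub_mul, smul_mul_assoc, one_mul, smul_sub, Complex.ofReal_neg]
  module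

/-- strings of annihilators to the right of the vacuum -/
def Cl.af2w (C : Cl S F) (J : S →L[ℝ] S) : List S → F →L[ℂ] F
  | [] => C.vac J
  | v :: l => C.af2w J l * C.af2a J v

/-- operators with scalar normal ordered expectations -/
def Cl.af2Q (C : Cl S F) (J : S →L[ℝ] S) (X : F →L[ℂ] F) : Prop :=
  ∀ l, C.af2w J l * X ∈ ℂ ∙ C.vac J

theorem Cl.af2Q_a (C : Cl S F) {J : S →L[ℝ] S} {X : F →L[ℂ] F} (h : C.af2Q J X) (v : S) :
    C.af2Q J (C.af2a J v * X) := fun l => by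
  rw [← mul_assoc]
  exact h (v :: l)

theorem Cl.af2Q_th (C : Cl S F) {J : S →L[ℝ] S} (hJ : CS J) (u : S) (l : List S) :
    ∀ X, C.af2Q J X → C.af2w J l * (C.th u * X) ∈ ℂ ∙ C.vac J := by
  induction l with
  | nil =>
    intro X hX
    change C.vac J * (C.th u * X) ∈ _
    rw [← mul_assoc, C.af2_half hJ, smul_mul_assoc]
    exact Submodule.smul_mem _ _ (hX [u])
  | cons v l ih =>
    intro X hX
    change C.af2w J l * C.af2a J v * (C.th u * X) ∈ _
    rw [mul_assoc, C.af2_acomm hJ, mul_sub, mul_smul_comm]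
    exact Submodule.sub_mem _ (Submodule.smul_mem _ _ (hX l)) (ih _ (C.af2Q_a hX v))

theorem Cl.af2Q_alg (C : Cl S F) {J : S →L[ℝ] S} (hJ : CS J) {A : F →L[ℂ] F} (hA : A ∈ C.alg) :
    ∀ X, C.af2Q J X → C.af2Q J (A * X) := by
  induction hA using Algebra.adjoin_induction with
  | mem x hx =>
    obtain ⟨u, rfl⟩ := hx
    exact fun X hX l => C.af2Q_th hJ u l X hX
  | algebraMap r =>
    intro X hX l
    rw [← Algebra.smul_def, mul_smul_comm]
    exact Submodule.smul_mem _ _ (hX l)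
  | add x y _ _ hx hy =>
    intro X hX l
    rw [add_mul, mul_add]
    exact Submodule.add_mem _ (hx X hX l) (hy X hX l)
  | mul x y _ _ hx hy =>
    intro X hX
    rw [mul_assoc]
    exact hx _ (hy X hX)

/-- normal ordering -/
theorem Cl.vac_scalar (C : Cl S F) {J : S →L[ℝ] S} (hJ : CS J) {A : F →L[ℂ] F} (hA : A ∈ C.alg) :
    ∃ c : ℂ, C.vac J * A * C.vac J = c • C.vac J := by
  have h0 : C.af2Q J (C.vac J) := fun l => by
    cases l with
    | nil =>
      change C.vac J * C.vac J ∈ _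
      rw [(C.vac_idem hJ).1]
      exact Submodule.mem_span_singleton_self _
    | cons v l =>
      change C.af2w J l * C.af2a J v * C.vac J ∈ _
      rw [mul_assoc, C.af2_ann hJ, mul_zero]
      exact Submodule.zero_mem _
  obtain ⟨c, hc⟩ := Submodule.mem_span_singleton.1 (C.af2Q_alg hJ hA _ h0 [])
  exact ⟨c, by rw [mul_assoc]; exact hc.symm⟩

theorem Cl.vac_one (C : Cl S F) {J : S →L[ℝ] S} (hJ : CS J) (u : S) :
    C.vac J * C.th u * C.vac J = 0 := by
  rw [C.af2_half hJ, smul_mul_assoc, mul_assoc, C.af2_ann hJ, mul_zero, smul_zero]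

theorem Cl.af2_three (C : Cl S F) {J : S →L[ℝ] S} (hJ : CS J) (u x y : S) :
    C.vac J * (C.th u * (C.th x * C.th y)) * C.vac J = 0 := by
  have h1 : ∀ z, C.vac J * (C.th z * C.vac J) = 0 := fun z => by
    rw [← mul_assoc, C.vac_one hJ]
  have e : C.vac J * (C.th u * (C.th x * C.th y)) * C.vac J =
      C.vac J * C.th u * (C.th x * (C.th y * C.vac J)) := by
    simp only [mul_assoc]
  rw [e, C.af2_half hJ, smul_mul_assoc, mul_assoc, C.af2_acomm hJ, C.af2_acomm hJ, C.af2_ann hJ,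
    mul_zero, sub_zero, mul_sub, mul_smul_comm, mul_smul_comm, mul_smul_comm, h1, h1, smul_zero,
    smul_zero, sub_zero, smul_zero]

theorem Cl.vac_three (C : Cl S F) {J : S →L[ℝ] S} (hJ : CS J) (u : S) (T : S →L[ℝ] S) :
    C.vac J * (C.th u * C.spin T) * C.vac J = 0 := by
  unfold Cl.spin
  rw [mul_smul_comm, mul_smul_comm, smul_mul_assoc, Finset.mul_sum, Finset.mul_sum,
    Finset.sum_mul, Finset.sum_eq_zero fun a _ => C.af2_three hJ _ _ _, smul_zero]

theorem Cl.vac_two (C : Cl S F) {J : S →L[ℝ] S} (hJ : CS J) (u v : S) :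
    C.vac J * (C.th u * C.th v) * C.vac J =
      ((1 / 2 : ℂ) * ((⟪u, v⟫_ℝ : ℝ) + I * (⟪u, J v⟫_ℝ : ℝ))) • C.vac J := by
  have e : C.vac J * (C.th u * C.th v) * C.vac J = C.vac J * C.th u * (C.th v * C.vac J) := by
    simp only [mul_assoc]
  rw [e, C.af2_half hJ, smul_mul_assoc, mul_assoc, C.af2_acomm hJ, C.af2_ann hJ, mul_zero,
    sub_zero, mul_smul_comm, (C.vac_idem hJ).1, smul_smul]

/-- mixed two point function of two vacua -/
theorem Cl.vac_two_mixed (C : Cl S F) {J J0 R : S →L[ℝ] S} (hJ : CS J) (hJ0 : CS J0)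
    (hR : (J + J0) * R = 1) (u v : S) :
    C.vac J0 * (C.th u * C.th v) * C.vac J =
      (((⟪u, J0 (R v)⟫_ℝ : ℝ) : ℂ) - I * (⟪u, R v⟫_ℝ : ℝ)) • (C.vac J0 * C.vac J) := by
  have hv : v = J (R v) + J0 (R v) := (congrArg (fun T : S →L[ℝ] S => T v) hR).symm
  set w := R v with hw
  have e : C.vac J0 * (C.th u * C.th v) * C.vac J = C.vac J0 * (C.th u * (C.th v * C.vac J)) := by
    simp only [mul_assoc]
  have e1 : C.th v * C.vac J = C.th (J0 w) * C.vac J - I • (C.th w * C.vac J) := by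
    conv_lhs => rw [hv]
    rw [map_add, add_mul, C.vac_ann hJ]
    module
  have e2 : ∀ z, C.vac J0 * (C.th u * (C.th z * C.vac J)) =
      ((⟪u, z⟫_ℝ : ℝ) : ℂ) • (C.vac J0 * C.vac J) - C.vac J0 * C.th z * (C.th u * C.vac J) :=
    fun z => by
      rw [← mul_assoc (C.th u), C.af2_car u z, sub_mul, smul_mul_assoc, one_mul, mul_sub,
        mul_smul_comm]
      simp only [mul_assoc]
  rw [e, e1, mul_sub, mul_sub, mul_smul_comm, mul_smul_comm, e2, e2, C.vac_cre hJ0,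
    smul_mul_assoc]
  module

theorem Cl.af2_prod (C : Cl S F) {J J' : S →L[ℝ] S} {K : F →L[ℂ] F}
    (hK : K * C.spin J - C.spin J * K = C.spin J') (l : List ℕ) :
    HasDerivAt (fun t : ℝ => (l.map fun k : ℕ =>
      (1 : F →L[ℂ] F) - ((k : ℂ) + 1)⁻¹ • C.num (J + t • J')).prod)
      (K * (l.map fun k : ℕ => (1 : F →L[ℂ] F) - ((k : ℂ) + 1)⁻¹ • C.num J).prod -
        (l.map fun k : ℕ => (1 : F →L[ℂ] F) - ((k : ℂ) + 1)⁻¹ • C.num J).prod * K) 0 := by
  induction l with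
  | nil =>
    simp only [List.map_nil, List.prod_nil, mul_one, one_mul, sub_self]
    exact hasDerivAt_const _ _
  | cons k l ih =>
    simp only [List.map_cons, List.prod_cons]
    have e : ∀ t : ℝ, (1 : F →L[ℂ] F) - ((k : ℂ) + 1)⁻¹ • C.num (J + t • J') =
        ((1 : F →L[ℂ] F) - ((k : ℂ) + 1)⁻¹ • C.num J) +
          t • (-(((k : ℂ) + 1)⁻¹ • I • C.spin J')) := fun t => by
      rw [Cl.num, Cl.num, C.spin_add, C.spin_smul, ← Complex.coe_smul, ← Complex.coe_smul]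
      module
    have h1 : HasDerivAt (fun t : ℝ => (1 : F →L[ℂ] F) - ((k : ℂ) + 1)⁻¹ • C.num (J + t • J'))
        (-(((k : ℂ) + 1)⁻¹ • I • C.spin J')) 0 := by
      simp only [e]
      have h2 := ((hasDerivAt_id (0 : ℝ)).smul_const
        (-(((k : ℂ) + 1)⁻¹ • I • C.spin J'))).const_add
          ((1 : F →L[ℂ] F) - ((k : ℂ) + 1)⁻¹ • C.num J)
      rw [one_smul] at h2
      exact h2
    refine (h1.mul ih).congr_deriv ?_
    simp only [zero_smul, add_zero]
    rw [← hK, Cl.num]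
    simp only [mul_sub, sub_mul, mul_add, add_mul, smul_add, smul_sub, mul_smul_comm,
      smul_mul_assoc, one_mul, neg_mul, mul_assoc]
    module

/-- derivative of the vacuum projection along a curve of complex structures -/
theorem Cl.fderiv_vac (C : Cl S F) {J J' : S →L[ℝ] S} (hJ : CS J) (hJ' : Skew J')
    (ha : J * J' = -(J' * J)) :
    fderiv ℝ C.vac J J' = C.spin ((1 / 2 : ℝ) • (J * J')) * C.vac J -
      C.vac J * C.spin ((1 / 2 : ℝ) • (J * J')) := by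
  have hs : Skew ((1 / 2 : ℝ) • (J * J')) := fun u v => by
    have e : J' (J v) = -J (J' v) := by
      have h := congrArg (fun T : S →L[ℝ] S => T v) ha
      change J (J' v) = -J' (J v) at h
      rw [h, neg_neg]
    change ⟪(1 / 2 : ℝ) • J (J' u), v⟫_ℝ = -⟪u, (1 / 2 : ℝ) • J (J' v)⟫_ℝ
    rw [real_inner_smul_left, real_inner_smul_right, hJ.1, hJ', e, inner_neg_right]
    ring
  have hK : C.spin ((1 / 2 : ℝ) • (J * J')) * C.spin J -
      C.spin J * C.spin ((1 / 2 : ℝ) • (J * J')) = C.spin J' := by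
    rw [C.spin_lie hs hJ.1]
    have e1 : J * (J * J') = -J' := by rw [← mul_assoc, hJ.2, neg_one_mul]
    have e2 : J * J' * J = J' := by
      rw [ha, neg_mul, mul_assoc, hJ.2, mul_neg_one, neg_neg]
    rw [smul_mul_assoc, mul_smul_comm, e1, e2]
    refine congrArg C.spin ?_
    module
  have h1 := C.af2_prod hK (List.range (Module.finrank ℝ S))
  have h2 := ((C.contDiff_vac.differentiable (by simp)) J).hasFDerivAt.hasLineDerivAt J'
  exact HasDerivAt.unique h2 h1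

/-- in an irreducible module the vacuum is unique -/
theorem Cl.Irr.vac_rank [FiniteDimensional ℂ F] [Nontrivial F] {C : Cl S F} (h : C.Irr)
    {J : S →L[ℝ] S} (hJ : CS J) : ∃ w : F, ‖w‖ = 1 ∧ ∀ v, C.vac J v = ⟪w, v⟫_ℂ • w := by
  obtain ⟨w0, hw0⟩ := DFunLike.ne_iff.1 (C.vac_ne hJ)
  have hw0' : C.vac J w0 ≠ 0 := hw0
  obtain ⟨w, hw1, hw⟩ : ∃ w : F, ‖w‖ = 1 ∧ C.vac J w = w := by
    refine ⟨(‖C.vac J w0‖⁻¹ : ℂ) • C.vac J w0, norm_smul_inv_norm hw0', ?_⟩
    rw [map_smul]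
    exact congrArg _ (congrArg (fun T : F →L[ℂ] F => T w0) (C.vac_idem hJ).1)
  refine ⟨w, hw1, fun v => ?_⟩
  let ev : (F →L[ℂ] F) →ₗ[ℂ] F := (ContinuousLinearMap.apply ℂ F w).toLinearMap
  have hW : (Subalgebra.toSubmodule C.alg).map ev = ⊤ := by
    refine (h _ ?_).resolve_left fun hb => ?_
    · rintro u _ ⟨A, hA, rfl⟩
      exact ⟨C.th u * A, C.alg.mul_mem (C.th_mem_alg u) hA, rfl⟩
    · have h1 : w ∈ (Subalgebra.toSubmodule C.alg).map ev := ⟨1, C.alg.one_mem, rfl⟩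
      rw [hb, Submodule.mem_bot] at h1
      rw [h1, norm_zero] at hw1
      exact zero_ne_one hw1
  have hv : v ∈ (Subalgebra.toSubmodule C.alg).map ev := hW ▸ Submodule.mem_top
  obtain ⟨A, hA, hAv⟩ := hv
  have hAv' : A w = v := hAv
  obtain ⟨c, hc⟩ := C.vac_scalar hJ hA
  have h2 : C.vac J v = c • w := by
    have h3 := congrArg (fun T : F →L[ℂ] F => T w) hc
    change C.vac J (A (C.vac J w)) = c • C.vac J w at h3
    rwa [hw, hAv'] at h3
  have h4 : ⟪w, v⟫_ℂ = c := by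
    have h5 := (C.vac_idem hJ).2.isSymmetric w v
    change ⟪C.vac J w, v⟫_ℂ = ⟪w, C.vac J v⟫_ℂ at h5
    rw [hw, h2, inner_smul_right, inner_self_eq_norm_sq_to_K, hw1] at h5
    simpa using h5
  rw [h2, h4]

/-- the gauge group acts without phases: there is a vector fixed by the whole gauge action -/
theorem Mod.exists_fixed {V : Type} [NormedAddCommGroup V] [InnerProductSpace ℝ V]
    [FiniteDimensional ℝ V] [Nontrivial F] (M : Mod V F) (G : Gam) :
    ∃ w : F, w ≠ 0 ∧ M.C.vac (mat (G.g 0 * G.g 1)) w = w ∧ CS (mat (G.g 0 * G.g 1) : SS V →L[ℝ] SS V) ∧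
      ∀ ξ, M.rho ξ w = w := by
  have h01 : (0 : Fin 9) ≠ 1 := by decide
  have hJ : CS (mat (G.g 0 * G.g 1) : SS V →L[ℝ] SS V) := by
    refine ⟨skew_mat ?_, ?_⟩
    · rw [Matrix.transpose_mul, (G.symm 0).eq, (G.symm 1).eq, G.anti h01.symm]
    · have e : G.g 0 * G.g 1 * (G.g 0 * G.g 1) = -1 := by
        rw [mul_assoc, ← mul_assoc (G.g 1), G.anti h01.symm, neg_mul, mul_assoc, G.sq, mul_one,
          mul_neg, G.sq]
      change (mat (G.g 0 * G.g 1) : SS V →L[ℝ] SS V) ∘L mat (G.g 0 * G.g 1) = -1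
      rw [← mat_mul, e]
      ext x i
      simp [Matrix.one_apply]
  obtain ⟨w0, hw0⟩ := DFunLike.ne_iff.1 (M.C.vac_ne hJ)
  refine ⟨M.C.vac (mat (G.g 0 * G.g 1)) w0, hw0,
    congrArg (fun T : F →L[ℂ] F => T w0) (M.C.vac_idem hJ).1, hJ, fun ξ => ?_⟩
  have h1 := M.C.spin_vac hJ (skew_lift (n := 16) (M.L.skew_br ξ)) (mat_lift _ _)
  have h2 : tr ((mat (G.g 0 * G.g 1) : SS V →L[ℝ] SS V) * lift (M.L.br ξ)) = 0 := by
    change tr (mat (G.g 0 * G.g 1) ∘L lift (M.L.br ξ)) = 0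
    rw [tr_mat_lift, tr_skew (M.L.skew_br ξ), mul_zero]
  rw [h2] at h1
  have h3 : SemiconjBy (M.C.vac (mat (G.g 0 * G.g 1))) 0 (M.C.spin (lift (M.L.br ξ))) := by
    rw [SemiconjBy, h1]
    simp
  let _ : NormedAlgebra ℚ (F →L[ℂ] F) := NormedAlgebra.restrictScalars ℚ ℂ _
  have h4 := h3.exp_right.eq
  rw [exp_zero, mul_one] at h4
  exact (congrArg (fun T : F →L[ℂ] F => T w0) h4).symm

end Vale.Agent.P353
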