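import Vale.Agent.P353.ASpin

open MeasureTheory NormedSpace
open Complex (I)
open scoped InnerProductSpace ContDiff

noncomputable section
namespace Vale.Agent.P353
variable {S E F : Type} [NormedAddCommGroup S] [InnerProductSpace ℝ S] [FiniteDimensional ℝ S]
  [NormedAddCommGroup E] [InnerProductSpace ℝ E] [FiniteDimensional ℝ E]
  [MeasurableSpace E] [BorelSpace E]
  [NormedAddCommGroup F] [InnerProductSpace ℂ F] [CompleteSpace F]

/-! Basic calculus of test functions and forms. -/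

/-- integrability of a function that lives on the support of a test function -/
theorem Tst.int_of {G : Type} [NormedAddCommGroup G] {φ : E → F} (h : Tst φ) {g : E → G}
    (hc : ContinuousOn g (tsupport φ)) (h0 : ∀ x, x ∉ tsupport φ → g x = 0) : Integrable g :=
  (hc.integrableOn_compact h.2).integrable_of_forall_notMem_eq_zero h0

omit [MeasurableSpace E] [BorelSpace E] [FiniteDimensional ℝ E] [CompleteSpace F] in
theorem Tst.continuous {φ : E → F} (h : Tst φ) : Continuous φ := h.1.continuous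

omit [MeasurableSpace E] [BorelSpace E] [FiniteDimensional ℝ E] [CompleteSpace F] in
theorem Tst.differentiable {φ : E → F} (h : Tst φ) : Differentiable ℝ φ :=
  h.1.differentiable (by simp)

omit [MeasurableSpace E] [BorelSpace E] [FiniteDimensional ℝ E] [CompleteSpace F] in
theorem Tst.fderiv_apply {φ : E → F} (h : Tst φ) (v : E) : Tst fun x => fderiv ℝ φ x v :=
  ⟨(h.1.fderiv_right (m := ∞) le_rfl).clm_apply contDiff_const, h.2.fderiv_apply ℝ v⟩

omit [MeasurableSpace E] [BorelSpace E] [FiniteDimensional ℝ E] [CompleteSpace F] in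
theorem af0_clm {n : WithTop ℕ∞} {φ : E → F} (h : ContDiff ℝ n φ) {B : E → F →L[ℂ] F}
    (hB : ContDiff ℝ n B) : ContDiff ℝ n fun x => B x (φ x) :=
  ((ContinuousLinearMap.restrictScalarsL ℂ F F ℝ ℝ).contDiff.comp hB).clm_apply h

theorem Tst.smul {φ : E → F} (h : Tst φ) {a : E → ℝ} (ha : ContDiff ℝ ∞ a) :
    Tst fun x => a x • φ x := ⟨ha.smul h.1, h.2.smul_left⟩
/-- a multiplier that is only smooth near the support -/
theorem Tst.smul_on {φ : E → F} (h : Tst φ) {a : E → ℝ} {U : Set E} (hU : IsOpen U)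
    (hs : tsupport φ ⊆ U) (ha : ContDiffOn ℝ ∞ a U) : Tst fun x => a x • φ x := by
  refine ⟨contDiff_iff_contDiffAt.2 fun x => ?_, h.2.smul_left⟩
  by_cases hx : x ∈ tsupport φ
  · exact (ha.contDiffAt (hU.mem_nhds (hs hx))).smul h.1.contDiffAt
  · refine (contDiffAt_const (c := (0 : F))).congr_of_eventuallyEq ?_
    filter_upwards [notMem_tsupport_iff_eventuallyEq.1 hx] with y hy
    rw [hy, Pi.zero_apply, smul_zero]
theorem Tst.add {φ χ : E → F} (h : Tst φ) (h' : Tst χ) : Tst (φ + χ) := ⟨h.1.add h'.1, h.2.add h'.2⟩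
theorem Tst.csmul {φ : E → F} (h : Tst φ) (c : ℂ) : Tst (c • φ) :=
  ⟨h.1.const_smul c, h.2.smul_left (f := fun _ => c)⟩
theorem Tst.clm {φ : E → F} (h : Tst φ) {B : E → F →L[ℂ] F} (hB : ContDiff ℝ ∞ B) :
    Tst fun x => B x (φ x) :=
  ⟨af0_clm h.1 hB, HasCompactSupport.intro h.2 fun x hx => by
    rw [image_eq_zero_of_notMem_tsupport hx, map_zero]⟩
theorem Tst.dirac (C : Cl S F) (ψ : E →L[ℝ] S) {s : E → S} (hs : ContDiff ℝ ∞ s) {φ : E → F}
    (h : Tst φ) : Tst (C.dirac ψ s φ) := by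
  refine ⟨ContDiff.add (ContDiff.const_smul _ (ContDiff.sum fun k _ =>
    af0_clm (h.fderiv_apply _).1 contDiff_const)) (af0_clm h.1 (C.th.contDiff.comp hs)),
    HasCompactSupport.intro h.2 fun x hx => ?_⟩
  simp [Cl.dirac, image_eq_zero_of_notMem_tsupport hx, fderiv_of_notMem_tsupport ℝ hx]
theorem Tst.memLp {φ : E → F} (h : Tst φ) : MemLp φ 2 volume :=
  h.continuous.memLp_of_hasCompactSupport h.2
theorem Tst.int_wt {φ : E → F} (h : Tst φ) {w : E → ℝ} (hw : ContinuousOn w (tsupport φ)) :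
    Integrable fun x => w x * ‖φ x‖ ^ 2 :=
  h.int_of (hw.mul (h.continuous.norm.pow 2).continuousOn) fun x hx => by
    rw [image_eq_zero_of_notMem_tsupport hx, norm_zero, zero_pow two_ne_zero, mul_zero]
theorem Tst.int_g2 {φ : E → F} (h : Tst φ) : Integrable (g2 φ) :=
  h.int_of (continuous_finset_sum _ fun k _ =>
    (h.fderiv_apply _).continuous.norm.pow 2).continuousOn fun x hx => by
      simp [g2, fderiv_of_notMem_tsupport ℝ hx]
theorem Tst.continuous_g2 {φ : E → F} (h : Tst φ) : Continuous (g2 φ) :=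
  continuous_finset_sum _ fun k _ => (h.fderiv_apply _).continuous.norm.pow 2
theorem Tst.int_opf {φ : E → F} (h : Tst φ) {B : E → F →L[ℂ] F}
    (hB : ContinuousOn B (tsupport φ)) : Integrable fun x => (⟪φ x, B x (φ x)⟫_ℂ).re :=
  h.int_of (Complex.continuous_re.comp_continuousOn (h.continuous.continuousOn.inner
    (hB.clm_apply h.continuous.continuousOn))) fun x hx => by
      rw [image_eq_zero_of_notMem_tsupport hx, inner_zero_left, Complex.zero_re]
omit [CompleteSpace F] in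
theorem af0_self (v : F) : (⟪v, v⟫_ℂ).re = ‖v‖ ^ 2 := inner_self_eq_norm_sq (𝕜 := ℂ) v

theorem g2_onb {ι : Type} [Fintype ι] (b : OrthonormalBasis ι ℝ E) (φ : E → F) (x : E) :
    g2 φ x = ∑ k, ‖fderiv ℝ φ x (b k)‖ ^ 2 := by
  have h := sum_onb (LinearMap.mk₂ ℝ (fun u v => (⟪fderiv ℝ φ x u, fderiv ℝ φ x v⟫_ℂ).re)
    (fun u u' v => by rw [map_add, inner_add_left, Complex.add_re])
    (fun c u v => by rw [map_smul, inner_smul_left_eq_smul, Complex.smul_re])
    (fun u v v' => by rw [map_add, inner_add_right, Complex.add_re])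
    (fun c u v => by rw [map_smul, inner_smul_right_eq_smul, Complex.smul_re]))
    (stdOrthonormalBasis ℝ E) b
  simpa only [LinearMap.mk₂_apply, af0_self, g2] using h
theorem norm_fderiv_sq_le (φ : E → F) (x u : E) : ‖fderiv ℝ φ x u‖ ^ 2 ≤ ‖u‖ ^ 2 * g2 φ x := by
  have h1 : ‖fderiv ℝ φ x u‖ ≤ ∑ k, ‖⟪stdOrthonormalBasis ℝ E k, u⟫_ℝ‖ *
      ‖fderiv ℝ φ x (stdOrthonormalBasis ℝ E k)‖ := by
    conv_lhs => rw [← (stdOrthonormalBasis ℝ E).sum_repr' u, map_sum]
    exact (norm_sum_le _ _).trans_eq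
      (Finset.sum_congr rfl fun k _ => by rw [map_smul, norm_smul])
  refine (pow_le_pow_left₀ (norm_nonneg _) h1 2).trans
    ((Finset.sum_mul_sq_le_sq_mul_sq _ _ _).trans_eq ?_)
  rw [OrthonormalBasis.sum_sq_norm_inner_right, g2]
theorem dirac_onb (C : Cl S F) (ψ : E →L[ℝ] S) (s : E → S) {ι : Type} [Fintype ι]
    (b : OrthonormalBasis ι ℝ E) (φ : E → F) (x : E) : C.dirac ψ s φ x =
      (-I) • ∑ k, C.th (ψ (b k)) (fderiv ℝ φ x (b k)) + C.th (s x) (φ x) := by
  have h := sum_onb (LinearMap.mk₂ ℝ (fun u v => C.th (ψ u) (fderiv ℝ φ x v))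
    (fun u u' v => by rw [map_add, map_add, ContinuousLinearMap.add_apply])
    (fun c u v => by rw [map_smul, map_smul, ContinuousLinearMap.smul_apply])
    (fun u v v' => by rw [map_add, map_add])
    (fun c u v => by rw [map_smul, ContinuousLinearMap.map_smul_of_tower]))
    (stdOrthonormalBasis ℝ E) b
  simp only [LinearMap.mk₂_apply] at h
  rw [Cl.dirac, h]
theorem n2_nonneg (φ : E → F) : 0 ≤ n2 φ := integral_nonneg fun _ => sq_nonneg _
theorem kin_nonneg (φ : E → F) : 0 ≤ kin φ :=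
  mul_nonneg (by norm_num) (integral_nonneg fun _ => Finset.sum_nonneg fun _ _ => sq_nonneg _)
theorem wt_one (φ : E → F) : wt (fun _ => 1) φ = n2 φ := by simp only [wt, n2, one_mul]
theorem wt_const (c : ℝ) (φ : E → F) : wt (fun _ => c) φ = c * n2 φ := integral_const_mul _ _
theorem wt_add {φ : E → F} (h : Tst φ) {w w' : E → ℝ} (hw : ContinuousOn w (tsupport φ))
    (hw' : ContinuousOn w' (tsupport φ)) : wt (fun x => w x + w' x) φ = wt w φ + wt w' φ := by
  simp only [wt, add_mul]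
  exact integral_add (h.int_wt hw) (h.int_wt hw')
theorem wt_smul (c : ℝ) (w : E → ℝ) (φ : E → F) : wt (fun x => c * w x) φ = c * wt w φ := by
  simp only [wt, mul_assoc]
  exact integral_const_mul _ _
theorem wt_mono {φ : E → F} (h : Tst φ) {w w' : E → ℝ} (hw : ContinuousOn w (tsupport φ))
    (hw' : ContinuousOn w' (tsupport φ)) (hle : ∀ x ∈ tsupport φ, w x ≤ w' x) :
    wt w φ ≤ wt w' φ := by
  refine integral_mono (h.int_wt hw) (h.int_wt hw') fun x => ?_
  by_cases hx : x ∈ tsupport φ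
  · exact mul_le_mul_of_nonneg_right (hle x hx) (sq_nonneg _)
  · simp [image_eq_zero_of_notMem_tsupport hx]
theorem wt_mul (w a : E → ℝ) (φ : E → F) :
    wt w (fun x => a x • φ x) = wt (fun x => w x * a x ^ 2) φ := by
  simp only [wt, norm_smul, mul_pow, Real.norm_eq_abs, sq_abs, mul_assoc]
theorem opf_add {φ : E → F} (h : Tst φ) {B B' : E → F →L[ℂ] F}
    (hB : ContinuousOn B (tsupport φ)) (hB' : ContinuousOn B' (tsupport φ)) :
    opf (fun x => B x + B' x) φ = opf B φ + opf B' φ := by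
  simp only [opf, ContinuousLinearMap.add_apply, inner_add_right, Complex.add_re]
  exact integral_add (h.int_opf hB) (h.int_opf hB')
theorem opf_smul (c : ℝ) (B : E → F →L[ℂ] F) (φ : E → F) :
    opf (fun x => c • B x) φ = c * opf B φ := by
  simp only [opf, ContinuousLinearMap.smul_apply, inner_smul_right_eq_smul, Complex.smul_re,
    smul_eq_mul]
  exact integral_const_mul _ _
theorem wt_le_opf {φ : E → F} (h : Tst φ) {w : E → ℝ} {B : E → F →L[ℂ] F}
    (hw : ContinuousOn w (tsupport φ)) (hB : ContinuousOn B (tsupport φ))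
    (hle : ∀ x ∈ tsupport φ, ∀ v, w x * ‖v‖ ^ 2 ≤ (⟪v, B x v⟫_ℂ).re) : wt w φ ≤ opf B φ := by
  refine integral_mono (h.int_wt hw) (h.int_opf hB) fun x => ?_
  by_cases hx : x ∈ tsupport φ
  · exact hle x hx _
  · simp [image_eq_zero_of_notMem_tsupport hx]
theorem abs_opf_le {φ : E → F} (h : Tst φ) {w : E → ℝ} {B : E → F →L[ℂ] F}
    (hw : ContinuousOn w (tsupport φ)) (hB : ContinuousOn B (tsupport φ))
    (hle : ∀ x ∈ tsupport φ, ‖B x‖ ≤ w x) : |opf B φ| ≤ wt w φ := by
  refine abs_integral_le_integral_abs.trans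
    (integral_mono (h.int_opf hB).abs (h.int_wt hw) fun x => ?_)
  by_cases hx : x ∈ tsupport φ
  · refine (Complex.abs_re_le_norm _).trans ((norm_inner_le_norm _ _).trans ?_)
    have h1 := (B x).le_of_opNorm_le (hle x hx) (φ x)
    nlinarith [norm_nonneg (φ x)]
  · simp [image_eq_zero_of_notMem_tsupport hx]
theorem n2_add_le {φ χ : E → F} (h : MemLp φ 2 volume) (h' : MemLp χ 2 volume) {t : ℝ}
    (ht : 0 < t) : n2 (φ + χ) ≤ (1 + t) * n2 φ + (1 + t⁻¹) * n2 χ := by
  have i1 := (memLp_two_iff_integrable_sq_norm h.1).1 h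
  have i2 := (memLp_two_iff_integrable_sq_norm h'.1).1 h'
  rw [n2, n2, n2, ← integral_const_mul, ← integral_const_mul,
    ← integral_add (i1.const_mul _) (i2.const_mul _)]
  refine integral_mono_of_nonneg (Filter.Eventually.of_forall fun x => sq_nonneg _)
    ((i1.const_mul _).add (i2.const_mul _)) (Filter.Eventually.of_forall fun x => ?_)
  refine (pow_le_pow_left₀ (norm_nonneg _) (norm_add_le (φ x) (χ x)) 2).trans ?_
  have h1 : 0 ≤ t⁻¹ * (t * ‖φ x‖ - ‖χ x‖) ^ 2 := by positivity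
  have h2 : t⁻¹ * (t * ‖φ x‖ - ‖χ x‖) ^ 2 =
      t * ‖φ x‖ ^ 2 - 2 * (‖φ x‖ * ‖χ x‖) + t⁻¹ * ‖χ x‖ ^ 2 := by
    field_simp
    ring
  linarith
theorem dirac_add (C : Cl S F) (ψ : E →L[ℝ] S) (s : E → S) {φ χ : E → F}
    (h : Differentiable ℝ φ) (h' : Differentiable ℝ χ) :
    C.dirac ψ s (φ + χ) = C.dirac ψ s φ + C.dirac ψ s χ := by
  funext x
  simp only [Cl.dirac, fderiv_add (h x) (h' x), ContinuousLinearMap.add_apply, map_add,
    Finset.sum_add_distrib, smul_add, Pi.add_apply]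
  abel
theorem dirac_csmul (C : Cl S F) (ψ : E →L[ℝ] S) (s : E → S) {φ : E → F}
    (h : Differentiable ℝ φ) (c : ℂ) : C.dirac ψ s (c • φ) = c • C.dirac ψ s φ := by
  funext x
  simp only [Cl.dirac, fderiv_const_smul (h x) c, ContinuousLinearMap.smul_apply, map_smul,
    ← Finset.smul_sum, smul_add, Pi.smul_apply, smul_comm c (-I)]
theorem dirac_add_pot (C : Cl S F) (ψ : E →L[ℝ] S) (s t : E → S) (φ : E → F) (x : E) :
    C.dirac ψ (fun x => s x + t x) φ x = C.dirac ψ s φ x + C.th (t x) (φ x) := by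
  simp only [Cl.dirac, map_add, ContinuousLinearMap.add_apply, add_assoc]
/-- product rule -/
theorem dirac_smul (C : Cl S F) (ψ : E →L[ℝ] S) (s : E → S) {φ : E → F} {a : E → ℝ} {x : E}
    (h : DifferentiableAt ℝ φ x) (ha : DifferentiableAt ℝ a x) :
    C.dirac ψ s (fun x => a x • φ x) x =
      a x • C.dirac ψ s φ x + (-I) • C.th (ψ (gradient a x)) (φ x) := by
  have h1 : C.th (ψ (gradient a x)) (φ x) = ∑ k, fderiv ℝ a x (stdOrthonormalBasis ℝ E k) •
      C.th (ψ (stdOrthonormalBasis ℝ E k)) (φ x) := by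
    conv_lhs => rw [← (stdOrthonormalBasis ℝ E).sum_repr' (gradient a x)]
    simp only [map_sum, map_smul, ContinuousLinearMap.sum_apply, ContinuousLinearMap.smul_apply,
      inner_gradient_right, conj_trivial]
  simp only [Cl.dirac, fderiv_fun_smul ha h, ContinuousLinearMap.add_apply,
    ContinuousLinearMap.smul_apply, ContinuousLinearMap.smulRight_apply, map_add,
    ContinuousLinearMap.map_smul_of_tower, Finset.sum_add_distrib, smul_add, h1,
    ← Finset.smul_sum, smul_comm (a x) (-I)]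
  abel

end Vale.Agent.P353
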