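import Vale.Agent.P353.AForm0

open MeasureTheory NormedSpace
open Complex (I)
open scoped InnerProductSpace ContDiff

noncomputable section
namespace Vale.Agent.P353
variable {S E F : Type} [NormedAddCommGroup S] [InnerProductSpace ℝ S] [FiniteDimensional ℝ S]
  [NormedAddCommGroup E] [InnerProductSpace ℝ E] [FiniteDimensional ℝ E]
  [MeasurableSpace E] [BorelSpace E]
  [NormedAddCommGroup F] [InnerProductSpace ℂ F] [CompleteSpace F]

theorem af1_int_div {G : Type} [NormedAddCommGroup G] [NormedSpace ℝ G] {u : E → G}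
    (hu : ContDiff ℝ 1 u) (hc : HasCompactSupport u) (v : E) :
    Integrable fun x => fderiv ℝ u x v :=
  ((hu.continuous_fderiv one_ne_zero).clm_apply continuous_const).integrable_of_hasCompactSupport
    (hc.fderiv_apply ℝ v)

/-- the integral of a derivative vanishes -/
theorem af1_div {G : Type} [NormedAddCommGroup G] [NormedSpace ℝ G] {u : E → G}
    (hu : ContDiff ℝ 1 u) (hc : HasCompactSupport u) (v : E) : ∫ x, fderiv ℝ u x v = 0 := by
  have h := integral_smul_fderiv_eq_neg_fderiv_smul_of_integrable (μ := volume)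
    (f := fun _ : E => (1 : ℝ)) (g := u) (v := v) (by simp)
    (by simpa using af1_int_div hu hc v)
    (by simpa using hu.continuous.integrable_of_hasCompactSupport hc)
    (fun _ _ => differentiableAt_const _) fun x _ => hu.differentiable one_ne_zero x
  simpa using h

theorem af1_int {f g : E → F} (hf : Continuous f) (hg : Continuous g) (hc : HasCompactSupport g) :
    Integrable fun x => ⟪f x, g x⟫_ℂ :=
  (hf.inner hg).integrable_of_hasCompactSupport (HasCompactSupport.intro hc fun x hx => by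
    rw [image_eq_zero_of_notMem_tsupport hx, inner_zero_right])

theorem af1_ibp {f g : E → F} (hf : ContDiff ℝ 1 f) (hg : ContDiff ℝ 1 g)
    (hc : HasCompactSupport g) (v : E) :
    ∫ x, ⟪fderiv ℝ f x v, g x⟫_ℂ = -∫ x, ⟪f x, fderiv ℝ g x v⟫_ℂ := by
  have h := af1_div (hf.inner ℂ hg) (HasCompactSupport.intro hc fun x hx => by
    rw [image_eq_zero_of_notMem_tsupport hx, inner_zero_right]) v
  simp only [fderiv_inner_apply ℂ (hf.differentiable one_ne_zero _)
    (hg.differentiable one_ne_zero _)] at h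
  rw [integral_add (af1_int hf.continuous
      ((hg.continuous_fderiv one_ne_zero).clm_apply continuous_const) (hc.fderiv_apply ℝ v))
    (af1_int ((hf.continuous_fderiv one_ne_zero).clm_apply continuous_const) hg.continuous hc)] at h
  exact eq_neg_of_add_eq_zero_right h

omit [FiniteDimensional ℝ S] in
theorem af1_sa (C : Cl S F) (u : S) (a b : F) : ⟪C.th u a, b⟫_ℂ = ⟪a, C.th u b⟫_ℂ :=
  (C.sa u).isSymmetric a b

omit [FiniteDimensional ℝ E] [MeasurableSpace E] [BorelSpace E] [CompleteSpace F] in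
theorem af1_fd (M : F →L[ℂ] F) {φ : E → F} {x : E} (h : DifferentiableAt ℝ φ x) (v : E) :
    fderiv ℝ (fun x => M (φ x)) x v = M (fderiv ℝ φ x v) :=
  congrArg (fun T : E →L[ℝ] F => T v)
    ((M.restrictScalars ℝ).hasFDerivAt.comp x h.hasFDerivAt).fderiv

omit [FiniteDimensional ℝ E] [MeasurableSpace E] [BorelSpace E] [CompleteSpace F] in
theorem Tst.one {φ : E → F} (h : Tst φ) : ContDiff ℝ 1 φ := h.1.of_le (by exact_mod_cast le_top)

/-- the Dirac operator is formally symmetric -/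
theorem dirac_symm (C : Cl S F) (ψ : E →L[ℝ] S) {s : E → S} (hs : Continuous s) {φ χ : E → F}
    (h : ContDiff ℝ 1 φ) (h' : Tst χ) :
    ∫ x, ⟪C.dirac ψ s φ x, χ x⟫_ℂ = ∫ x, ⟪φ x, C.dirac ψ s χ x⟫_ℂ := by
  have h1 : ∀ u, Tst fun x => C.th u (χ x) := fun u => h'.clm (B := fun _ => C.th u) contDiff_const
  have h2 : ∀ u v, Tst fun x => C.th u (fderiv ℝ χ x v) := fun u v =>
    (h'.fderiv_apply v).clm (B := fun _ => C.th u) contDiff_const
  have i1 := fun u v => af1_int ((h.continuous_fderiv one_ne_zero).clm_apply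
    (continuous_const (y := v))) (h1 u).continuous (h1 u).2
  have i2 := fun u v => af1_int h.continuous (h2 u v).continuous (h2 u v).2
  have i3 : Integrable fun x => ⟪φ x, C.th (s x) (χ x)⟫_ℂ := af1_int h.continuous
    ((C.th.continuous.comp hs).clm_apply h'.continuous) (HasCompactSupport.intro h'.2
      fun x hx => by rw [image_eq_zero_of_notMem_tsupport hx, map_zero])
  simp only [Cl.dirac, inner_add_left, inner_add_right, inner_smul_left, inner_smul_right,
    sum_inner, inner_sum, af1_sa]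
  rw [integral_add ((integrable_finset_sum _ fun k _ => i1 _ _).const_mul _) i3,
    integral_add ((integrable_finset_sum _ fun k _ => i2 _ _).const_mul _) i3,
    integral_const_mul, integral_const_mul, integral_finset_sum _ fun k _ => i1 _ _,
    integral_finset_sum _ fun k _ => i2 _ _]
  simp only [fun u v => af1_ibp h (h1 u).one (h1 u).2 v, af1_fd _ (h'.differentiable _),
    Finset.sum_neg_distrib, map_neg, Complex.conj_I]
  ring

omit [FiniteDimensional ℝ S] in
theorem af1_car (C : Cl S F) (u v : S) (a : F) :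
    C.th u (C.th v a) + C.th v (C.th u a) = ((⟪u, v⟫_ℝ : ℝ) : ℂ) • a :=
  (congrArg (fun T : F →L[ℂ] F => T a) (C.car u v)).trans (Complex.coe_smul _ a).symm

theorem af1_anti (C : Cl S F) (ψ : E →L[ℝ] S) {s t : E → S} (hs : ContDiff ℝ ∞ s)
    (ht : ContDiff ℝ ∞ t) {φ χ : E → F} (h : Tst φ) (h' : Tst χ) :
    (∫ x, ⟪C.dirac ψ s χ x, C.th (t x) (φ x)⟫_ℂ) + ∫ x, ⟪C.th (t x) (χ x), C.dirac ψ s φ x⟫_ℂ =
      ∫ x, ⟪χ x, (-I) • fderiv ℝ φ x (ψ.adjoint (t x)) +
        (-I) • (∑ k, C.th (ψ (stdOrthonormalBasis ℝ E k)) *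
          C.th (fderiv ℝ t x (stdOrthonormalBasis ℝ E k))) (φ x) +
        ((⟪s x, t x⟫_ℝ : ℝ) : ℂ) • φ x⟫_ℂ := by
  have hθ : ContDiff ℝ ∞ fun x => C.th (t x) := C.th.contDiff.comp ht
  have h1 : Tst fun x => C.th (t x) (φ x) := h.clm hθ
  have h2 := h1.dirac C ψ hs
  have h3 := h.dirac C ψ hs
  rw [dirac_symm C ψ hs.continuous h'.one h1, ← integral_add
    (af1_int h'.continuous h2.continuous h2.2)
    (af1_int (h'.clm hθ).continuous h3.continuous h3.2)]
  refine integral_congr_ae (Filter.Eventually.of_forall fun x => ?_)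
  have h4 : ∀ v, fderiv ℝ (fun x => C.th (t x) (φ x)) x v =
      C.th (fderiv ℝ t x v) (φ x) + C.th (t x) (fderiv ℝ φ x v) := fun v => by
    have h5 := (((ContinuousLinearMap.restrictScalarsL ℂ F F ℝ ℝ ∘L C.th).hasFDerivAt.comp x
      (ht.differentiable (by simp) x).hasFDerivAt).clm_apply (h.differentiable x).hasFDerivAt).fderiv
    exact (congrArg (fun T : E →L[ℝ] F => T v) h5).trans (add_comm _ _)
  have h6 : fderiv ℝ φ x (ψ.adjoint (t x)) = ∑ k, ((⟪ψ (stdOrthonormalBasis ℝ E k), t x⟫_ℝ : ℝ) : ℂ) •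
      fderiv ℝ φ x (stdOrthonormalBasis ℝ E k) := by
    conv_lhs => rw [← (stdOrthonormalBasis ℝ E).sum_repr' (ψ.adjoint (t x))]
    simp only [map_sum, map_smul, ContinuousLinearMap.adjoint_inner_right, Complex.coe_smul]
  simp only
  rw [af1_sa, ← inner_add_right]
  congr 1
  simp only [Cl.dirac, h4, h6, ← af1_car C, map_add, map_smul, map_sum, Finset.sum_add_distrib,
    smul_add, ContinuousLinearMap.sum_apply, ContinuousLinearMap.mul_apply]
  abel

omit [MeasurableSpace E] [BorelSpace E] in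
theorem af1_spin (C : Cl S F) (A B : E →L[ℝ] S) : C.spin (A ∘L B.adjoint) =
    (1 / 2 : ℝ) • ∑ k, C.th (A (stdOrthonormalBasis ℝ E k)) *
      C.th (B (stdOrthonormalBasis ℝ E k)) := by
  have h1 : ∀ c, C.th (A (B.adjoint c)) = ∑ k, ⟪c, B (stdOrthonormalBasis ℝ E k)⟫_ℝ •
      C.th (A (stdOrthonormalBasis ℝ E k)) := fun c => by
    conv_lhs => rw [← (stdOrthonormalBasis ℝ E).sum_repr' (B.adjoint c)]
    simp only [map_sum, map_smul, ContinuousLinearMap.adjoint_inner_right, real_inner_comm]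
  have h2 : ∀ c, C.th c = ∑ a, ⟪stdOrthonormalBasis ℝ S a, c⟫_ℝ •
      C.th (stdOrthonormalBasis ℝ S a) := fun c => by
    conv_lhs => rw [← (stdOrthonormalBasis ℝ S).sum_repr' c]
    simp only [map_sum, map_smul]
  rw [Cl.spin]
  simp only [ContinuousLinearMap.comp_apply, h1, Finset.sum_mul]
  rw [Finset.sum_comm]
  refine congrArg _ (Finset.sum_congr rfl fun k _ => ?_)
  rw [h2 (B _), Finset.mul_sum]
  simp only [smul_mul_assoc, mul_smul_comm]

omit [MeasurableSpace E] [BorelSpace E] in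
theorem af1_cross (C : Cl S F) (A B : E →L[ℝ] S) (a : F) :
    (⟪a, (I • C.spin (A ∘L B.adjoint - (A ∘L B.adjoint).adjoint)) a⟫_ℂ).re =
      (⟪a, (-I) • (∑ k, C.th (B (stdOrthonormalBasis ℝ E k)) *
        C.th (A (stdOrthonormalBasis ℝ E k))) a⟫_ℂ).re := by
  have h1 : ∀ k, C.th (A (stdOrthonormalBasis ℝ E k)) (C.th (B (stdOrthonormalBasis ℝ E k)) a) =
      ((⟪A (stdOrthonormalBasis ℝ E k), B (stdOrthonormalBasis ℝ E k)⟫_ℝ : ℝ) : ℂ) • a -
      C.th (B (stdOrthonormalBasis ℝ E k)) (C.th (A (stdOrthonormalBasis ℝ E k)) a) := fun k =>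
    eq_sub_of_add_eq (af1_car C _ _ a)
  rw [ContinuousLinearMap.adjoint_comp, ContinuousLinearMap.adjoint_adjoint, sub_eq_add_neg,
    ← neg_one_smul ℝ (B ∘L A.adjoint), C.spin_add, C.spin_smul, af1_spin, af1_spin]
  simp only [ContinuousLinearMap.smul_apply, ContinuousLinearMap.add_apply,
    ContinuousLinearMap.sum_apply, ContinuousLinearMap.mul_apply, h1, Finset.sum_sub_distrib,
    ← Finset.sum_smul, ← Complex.ofReal_sum, inner_smul_right, inner_add_right,
    inner_smul_right_eq_smul, inner_sub_right, inner_self_eq_norm_sq_to_K]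
  simp [← Complex.ofReal_pow]
  ring

theorem af1_swap (M : F →L[ℂ] F) {φ : E → F} (h : Tst φ) (v w : E) :
    ∫ x, ⟪fderiv ℝ φ x v, M (fderiv ℝ φ x w)⟫_ℂ = ∫ x, ⟪fderiv ℝ φ x w, M (fderiv ℝ φ x v)⟫_ℂ := by
  have h1 : ∀ v, Tst fun x => M (fderiv ℝ φ x v) := fun v =>
    (h.fderiv_apply v).clm (B := fun _ => M) contDiff_const
  have h2 : ∀ x v w, fderiv ℝ (fun y => fderiv ℝ φ y w) x v = fderiv ℝ (fderiv ℝ φ) x v w :=
    fun x v w => by
      rw [fderiv_clm_apply ((h.1.fderiv_right (m := ∞) le_rfl).differentiable (by simp) x)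
        (differentiableAt_const _)]
      simp
  rw [af1_ibp h.one (h1 w).one (h1 w).2, af1_ibp h.one (h1 v).one (h1 v).2]
  simp only [af1_fd M ((h.fderiv_apply _).differentiable _), h2]
  refine congrArg _ (integral_congr_ae (Filter.Eventually.of_forall fun x => ?_))
  simp only
  rw [(h.1.contDiffAt.isSymmSndFDerivAt (by
    rw [minSmoothness_of_isRCLikeNormedField]
    exact WithTop.coe_le_coe.2 (le_top : (2 : ℕ∞) ≤ ⊤))).eq v w]

theorem af1_free (C : Cl S F) {ψ : E →L[ℝ] S} (hψ : ∀ u v, ⟪ψ u, ψ v⟫_ℝ = ⟪u, v⟫_ℝ)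
    {φ : E → F} (h : Tst φ) : n2 (C.dirac ψ (fun _ => 0) φ) = kin φ := by
  obtain ⟨b, hb⟩ : ∃ b, b = stdOrthonormalBasis ℝ E := ⟨_, rfl⟩
  have hi : ∀ (M : F →L[ℂ] F) v w,
      Integrable fun x => ⟪fderiv ℝ φ x v, M (fderiv ℝ φ x w)⟫_ℂ := fun M v w =>
    have h1 := (h.fderiv_apply w).clm (B := fun _ => M) contDiff_const
    af1_int (h.fderiv_apply v).continuous h1.continuous h1.2
  have h2 : ∀ x, ‖C.dirac ψ (fun _ => 0) φ x‖ ^ 2 = (∑ k, ∑ l, ⟪fderiv ℝ φ x (b k),
      (C.th (ψ (b k)) * C.th (ψ (b l))) (fderiv ℝ φ x (b l))⟫_ℂ).re := fun x => by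
    rw [dirac_onb C ψ _ b, map_zero, ContinuousLinearMap.zero_apply, add_zero, norm_smul, norm_neg,
      Complex.norm_I, one_mul, ← af0_self, sum_inner]
    simp only [inner_sum, af1_sa, ContinuousLinearMap.mul_apply]
  have h3 : ∀ x, g2 φ x = (∑ k, ∑ l, ⟪fderiv ℝ φ x (b k),
      (C.th (ψ (b k)) * C.th (ψ (b l))) (fderiv ℝ φ x (b l))⟫_ℂ).re + (∑ k, ∑ l, ⟪fderiv ℝ φ x (b k),
      (C.th (ψ (b l)) * C.th (ψ (b k))) (fderiv ℝ φ x (b l))⟫_ℂ).re := fun x => by
    simp only [← Complex.add_re, ← Finset.sum_add_distrib, ← inner_add_right,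
      ContinuousLinearMap.mul_apply, af1_car, hψ, orthonormal_iff_ite.1 b.orthonormal]
    rw [g2_onb b, Complex.re_sum]
    refine Finset.sum_congr rfl fun k _ => ?_
    rw [Finset.sum_eq_single k (fun l _ hl => by simp [hl.symm]) (by simp)]
    simp [← Complex.ofReal_pow]
  have h4 : ∀ M : Fin (Module.finrank ℝ E) → Fin (Module.finrank ℝ E) → F →L[ℂ] F,
      Integrable (fun x => (∑ k, ∑ l, ⟪fderiv ℝ φ x (b k), M k l (fderiv ℝ φ x (b l))⟫_ℂ).re) ∧
      ∫ x, (∑ k, ∑ l, ⟪fderiv ℝ φ x (b k), M k l (fderiv ℝ φ x (b l))⟫_ℂ).re =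
        (∑ k, ∑ l, ∫ x, ⟪fderiv ℝ φ x (b k), M k l (fderiv ℝ φ x (b l))⟫_ℂ).re := fun M => by
    have h5 := integrable_finset_sum Finset.univ fun k _ =>
      integrable_finset_sum Finset.univ fun l _ => hi (M k l) (b k) (b l)
    refine ⟨h5.re, (integral_re h5).trans ?_⟩
    rw [integral_finset_sum _ fun k _ => integrable_finset_sum _ fun l _ => hi _ _ _]
    simp only [integral_finset_sum _ fun l _ => hi _ _ _]
    rfl
  simp only [n2, kin, h2, h3]
  rw [integral_add (h4 _).1 (h4 _).1, (h4 _).2, (h4 _).2,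
    Finset.sum_comm (f := fun k l => ∫ x, ⟪fderiv ℝ φ x (b k),
    (C.th (ψ (b l)) * C.th (ψ (b k))) (fderiv ℝ φ x (b l))⟫_ℂ)]
  simp only [fun k l => af1_swap (C.th (ψ (b k)) * C.th (ψ (b l))) h (b l) (b k)]
  ring

/-- The square of a Dirac type operator (hint: first `s = 0` by two integrations by parts, then
the cross term by one integration by parts). -/
theorem dirac_sq (C : Cl S F) {ψ : E →L[ℝ] S} (hψ : ∀ u v, ⟪ψ u, ψ v⟫_ℝ = ⟪u, v⟫_ℝ)
    {s : E → S} (hs : ContDiff ℝ ∞ s) {φ : E → F} (h : Tst φ) :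
    n2 (C.dirac ψ s φ) =
      sch (fun x => (1 / 2) * ‖s x‖ ^ 2) (fun x => I • C.spin (fderiv ℝ s x ∘L ψ.adjoint -
        (fderiv ℝ s x ∘L ψ.adjoint).adjoint)) φ +
      ∫ x, (⟪φ x, (-I) • fderiv ℝ φ x (ψ.adjoint (s x))⟫_ℂ).re := by
  have h0 : ContDiff ℝ ∞ fun _ : E => (0 : S) := contDiff_const
  have h1 := h.dirac C ψ h0
  have h2 : Tst fun x => C.th (s x) (φ x) := h.clm (C.th.contDiff.comp hs)
  have h3 : Continuous fun x => (-I) • fderiv ℝ φ x (ψ.adjoint (s x)) :=
    ((h.one.continuous_fderiv one_ne_zero).clm_apply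
      (ψ.adjoint.continuous.comp hs.continuous)).const_smul _
  have h4 : Continuous fun x => (-I) • (∑ k, C.th (ψ (stdOrthonormalBasis ℝ E k)) *
      C.th (fderiv ℝ s x (stdOrthonormalBasis ℝ E k))) (φ x) :=
    ((continuous_finset_sum _ fun k _ => continuous_const.mul (C.th.continuous.comp
      ((hs.continuous_fderiv (by simp)).clm_apply continuous_const))).clm_apply
        h.continuous).const_smul _
  have i0 : ∀ {f : E → F}, Continuous f → Integrable fun x => ⟪φ x, f x⟫_ℂ := fun hf =>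
    h.int_of (h.continuous.inner hf).continuousOn fun x hx => by
      rw [image_eq_zero_of_notMem_tsupport hx, inner_zero_left]
  have i1 := af1_int h1.continuous h2.continuous h2.2
  have i2 := af1_int h2.continuous h1.continuous h1.2
  have h5 : ∀ {f : E → ℂ}, Integrable f → (∫ x, f x).re = ∫ x, (f x).re := fun hf =>
    (integral_re hf).symm
  have e1 := congrArg Complex.re (af1_anti C ψ h0 hs h h)
  simp only [inner_zero_left, Complex.ofReal_zero, zero_smul, add_zero, inner_add_right] at e1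
  rw [integral_add (i0 h3) (i0 h4), Complex.add_re, Complex.add_re, h5 i1, h5 i2, h5 (i0 h3),
    h5 (i0 h4)] at e1
  have e2 : ∀ x, ‖C.dirac ψ s φ x‖ ^ 2 = ‖C.dirac ψ (fun _ => 0) φ x‖ ^ 2 +
      (⟪C.dirac ψ (fun _ => 0) φ x, C.th (s x) (φ x)⟫_ℂ).re +
      (⟪C.th (s x) (φ x), C.dirac ψ (fun _ => 0) φ x⟫_ℂ).re + 1 / 2 * ‖s x‖ ^ 2 * ‖φ x‖ ^ 2 :=
    fun x => by
      have h6 := dirac_add_pot C ψ (fun _ => 0) s φ x
      simp only [zero_add] at h6
      rw [h6, ← af0_self, inner_add_add_self, Complex.add_re, Complex.add_re, Complex.add_re,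
        af0_self, af0_self, C.norm_th_apply]
      ring
  have i3 := (memLp_two_iff_integrable_sq_norm h1.memLp.1).1 h1.memLp
  have i4 := h.int_wt (w := fun x => 1 / 2 * ‖s x‖ ^ 2)
    (continuous_const.mul (hs.continuous.norm.pow 2)).continuousOn
  have e3 := af1_free C hψ h
  simp only [n2] at e3
  simp only [n2, sch, wt, opf, e2, af1_cross]
  have e4 := integral_add ((i3.add i1.re).add i2.re) i4
  have e5 := integral_add (i3.add i1.re) i2.re
  have e6 := integral_add i3 i1.re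
  simp only [Pi.add_apply, RCLike.re_to_complex] at e4 e5 e6
  linarith

/-- weak form of the anticommutator of a Dirac operator with a Clifford multiplication -/
theorem dirac_anticomm (C : Cl S F) (ψ : E →L[ℝ] S) {s t : E → S} (hs : ContDiff ℝ ∞ s)
    (ht : ContDiff ℝ ∞ t) {φ χ : E → F} (h : Tst φ) (h' : Tst χ) :
    (∫ x, ⟪C.dirac ψ s χ x, C.th (t x) (φ x)⟫_ℂ) + ∫ x, ⟪C.th (t x) (χ x), C.dirac ψ s φ x⟫_ℂ =
      ∫ x, ⟪χ x, (-I) • fderiv ℝ φ x (ψ.adjoint (t x)) +
        (-I) • (∑ k, C.th (ψ (stdOrthonormalBasis ℝ E k)) *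
          C.th (fderiv ℝ t x (stdOrthonormalBasis ℝ E k))) (φ x) +
        ((⟪s x, t x⟫_ℝ : ℝ) : ℂ) • φ x⟫_ℂ :=
  af1_anti C ψ hs ht h h'

end Vale.Agent.P353
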