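import Vale.Agent.P353.AForm1

open MeasureTheory NormedSpace
open Complex (I)
open scoped InnerProductSpace ContDiff

noncomputable section
namespace Vale.Agent.P353
variable {S E F : Type} [NormedAddCommGroup S] [InnerProductSpace ℝ S] [FiniteDimensional ℝ S]
  [NormedAddCommGroup E] [InnerProductSpace ℝ E] [FiniteDimensional ℝ E]
  [MeasurableSpace E] [BorelSpace E]
  [NormedAddCommGroup F] [InnerProductSpace ℂ F] [CompleteSpace F]

omit [CompleteSpace F] in
theorem af2_sq (s t : ℝ) (u v : F) :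
    ‖s • u + t • v‖ ^ 2 = s ^ 2 * ‖u‖ ^ 2 + 2 * (s * t) * (⟪v, u⟫_ℂ).re + t ^ 2 * ‖v‖ ^ 2 := by
  rw [norm_add_sq (𝕜 := ℂ), norm_smul, norm_smul, inner_re_symm, inner_smul_left_eq_smul,
    inner_smul_right_eq_smul, RCLike.re_to_complex, Complex.smul_re, Complex.smul_re, mul_pow,
    mul_pow, Real.norm_eq_abs, Real.norm_eq_abs, sq_abs, sq_abs, smul_eq_mul, smul_eq_mul]
  ring

omit [MeasurableSpace E] [BorelSpace E] in
theorem af2_grad (a : E → ℝ) (x : E) :
    ‖gradient a x‖ ^ 2 = ∑ k, fderiv ℝ a x (stdOrthonormalBasis ℝ E k) ^ 2 := by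
  simp only [← (stdOrthonormalBasis ℝ E).sum_sq_inner_left, inner_gradient_left]

omit [MeasurableSpace E] [BorelSpace E] in
theorem af2_pt {ι : Type} (T : Finset ι) {a : ι → E → ℝ} (ha : ∀ p ∈ T, ContDiff ℝ ∞ (a p))
    {φ : E → F} (h : Tst φ) {U : Set E} (hU : IsOpen U) (hs : tsupport φ ⊆ U)
    (h1 : ∀ x ∈ U, ∑ p ∈ T, a p x ^ 2 = 1) (x : E) :
    ∑ p ∈ T, g2 (fun x => a p x • φ x) x =
      g2 φ x + (∑ p ∈ T, ‖gradient (a p) x‖ ^ 2) * ‖φ x‖ ^ 2 := by
  have hd : ∀ p ∈ T, DifferentiableAt ℝ (a p) x := fun p hp =>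
    (ha p hp).differentiable (by simp) x
  have h2 : ∀ p ∈ T, g2 (fun x => a p x • φ x) x = a p x ^ 2 * g2 φ x +
      ∑ k, 2 * (a p x * fderiv ℝ (a p) x (stdOrthonormalBasis ℝ E k)) *
        (⟪φ x, fderiv ℝ φ x (stdOrthonormalBasis ℝ E k)⟫_ℂ).re +
      ‖gradient (a p) x‖ ^ 2 * ‖φ x‖ ^ 2 := fun p hp => by
    simp only [g2, fderiv_fun_smul (hd p hp) (h.differentiable x), ContinuousLinearMap.add_apply,
      ContinuousLinearMap.smul_apply, ContinuousLinearMap.smulRight_apply, af2_sq, af2_grad,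
      Finset.sum_add_distrib, Finset.mul_sum, Finset.sum_mul]
  rw [Finset.sum_congr rfl h2, Finset.sum_add_distrib, Finset.sum_add_distrib, ← Finset.sum_mul,
    ← Finset.sum_mul, Finset.sum_comm]
  by_cases hx : x ∈ U
  · have h3 := (HasFDerivAt.fun_sum fun p hp => (hd p hp).hasFDerivAt.pow 2).unique
      ((hasFDerivAt_const (1 : ℝ) x).congr_of_eventuallyEq
        (Filter.mem_of_superset (hU.mem_nhds hx) h1))
    have h4 : ∀ v, ∑ p ∈ T, 2 * (a p x * fderiv ℝ (a p) x v) = 0 := fun v => by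
      simpa [mul_assoc] using congrArg (fun L : E →L[ℝ] ℝ => L v) h3
    simp only [h1 x hx, ← Finset.sum_mul, h4, zero_mul, Finset.sum_const_zero, one_mul, add_zero]
  · have h5 : x ∉ tsupport φ := fun h6 => hx (hs h6)
    simp [g2, image_eq_zero_of_notMem_tsupport h5, fderiv_of_notMem_tsupport ℝ h5]

omit [MeasurableSpace E] [BorelSpace E] in
theorem af2_cont {a : E → ℝ} (ha : ContDiff ℝ ∞ a) : Continuous fun x => ‖gradient a x‖ ^ 2 := by
  simp only [af2_grad]
  exact continuous_finset_sum _ fun k _ =>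
    ((ha.continuous_fderiv (by simp)).clm_apply continuous_const).pow 2

/-- localisation formula for the kinetic energy, finite family -/
theorem kin_ims {ι : Type} (T : Finset ι) {a : ι → E → ℝ} (ha : ∀ p ∈ T, ContDiff ℝ ∞ (a p))
    {φ : E → F} (h : Tst φ) {U : Set E} (hU : IsOpen U) (hs : tsupport φ ⊆ U)
    (h1 : ∀ x ∈ U, ∑ p ∈ T, a p x ^ 2 = 1) :
    ∑ p ∈ T, kin (fun x => a p x • φ x) =
      kin φ + (1 / 2) * wt (fun x => ∑ p ∈ T, ‖gradient (a p) x‖ ^ 2) φ := by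
  simp only [kin, wt]
  rw [← Finset.mul_sum, ← integral_finset_sum _ fun p hp => (h.smul (ha p hp)).int_g2, ← mul_add,
    ← integral_add h.int_g2 (h.int_wt
      (continuous_finset_sum _ fun p hp => af2_cont (ha p hp)).continuousOn)]
  simp only [af2_pt T ha h hU hs h1]

theorem sch_ims {ι : Type} (T : Finset ι) {a : ι → E → ℝ} (ha : ∀ p ∈ T, ContDiff ℝ ∞ (a p))
    {w : E → ℝ} {B : E → F →L[ℂ] F} (hw : Continuous w) (hB : Continuous B)
    {φ : E → F} (h : Tst φ) {U : Set E} (hU : IsOpen U) (hs : tsupport φ ⊆ U)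
    (h1 : ∀ x ∈ U, ∑ p ∈ T, a p x ^ 2 = 1) :
    ∑ p ∈ T, sch w B (fun x => a p x • φ x) =
      sch w B φ + (1 / 2) * wt (fun x => ∑ p ∈ T, ‖gradient (a p) x‖ ^ 2) φ := by
  have h2 : ∀ {g : E → ℝ}, (∀ x, φ x = 0 → g x = 0) → ∀ x, ∑ p ∈ T, a p x ^ 2 * g x = g x :=
    fun hg x => by
      by_cases hx : x ∈ U
      · rw [← Finset.sum_mul, h1 x hx, one_mul]
      · simp [hg x (image_eq_zero_of_notMem_tsupport fun h6 => hx (hs h6))]
  have h3 : ∑ p ∈ T, wt w (fun x => a p x • φ x) = wt w φ := by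
    simp only [wt]
    rw [← integral_finset_sum _ fun p hp => (h.smul (ha p hp)).int_wt hw.continuousOn]
    simp only [norm_smul, mul_pow, Real.norm_eq_abs, sq_abs, mul_left_comm (w _),
      h2 (g := fun x => w x * ‖φ x‖ ^ 2) fun x hx => by simp [hx]]
  have h4 : ∑ p ∈ T, opf B (fun x => a p x • φ x) = opf B φ := by
    simp only [opf]
    rw [← integral_finset_sum _ fun p hp => (h.smul (ha p hp)).int_opf hB.continuousOn]
    simp only [ContinuousLinearMap.map_smul_of_tower, inner_smul_left_eq_smul,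
      inner_smul_right_eq_smul, Complex.smul_re, smul_eq_mul, ← mul_assoc, ← sq,
      h2 (g := fun x => (⟪φ x, B x (φ x)⟫_ℂ).re) fun x hx => by simp [hx]]
  simp only [sch, Finset.sum_add_distrib, kin_ims T ha h hU hs h1, h3, h4]
  ring

/-- angle form -/
theorem sch_ims_angle {ϑ : E → ℝ} (hϑ : ContDiff ℝ ∞ ϑ) {w : E → ℝ} {B : E → F →L[ℂ] F}
    (hw : Continuous w) (hB : Continuous B) {φ : E → F} (h : Tst φ) :
    sch w B (fun x => Real.cos (ϑ x) • φ x) + sch w B (fun x => Real.sin (ϑ x) • φ x) =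
      sch w B φ + (1 / 2) * wt (fun x => ‖gradient ϑ x‖ ^ 2) φ := by
  have h1 := sch_ims (Finset.univ : Finset Bool)
    (a := fun p x => bif p then Real.cos (ϑ x) else Real.sin (ϑ x))
    (by
      rintro (_ | _) -
      · exact hϑ.sin
      · exact hϑ.cos) hw hB h isOpen_univ (Set.subset_univ _)
    fun x _ => by simp
  have h2 : ∀ x, ‖gradient (fun x => Real.cos (ϑ x)) x‖ ^ 2 +
      ‖gradient (fun x => Real.sin (ϑ x)) x‖ ^ 2 = ‖gradient ϑ x‖ ^ 2 := fun x => by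
    have hd := (hϑ.differentiable (by simp) x).hasFDerivAt
    simp only [af2_grad, hd.cos.fderiv, hd.sin.fderiv, ← Finset.sum_add_distrib,
      ContinuousLinearMap.smul_apply, smul_eq_mul]
    refine Finset.sum_congr rfl fun k _ => ?_
    linear_combination (fderiv ℝ ϑ x (stdOrthonormalBasis ℝ E k)) ^ 2 * Real.sin_sq_add_cos_sq (ϑ x)
  simpa only [Fintype.sum_bool, cond_true, cond_false, h2] using h1

omit [FiniteDimensional ℝ E] [MeasurableSpace E] [BorelSpace E] [CompleteSpace F] in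
theorem af2_nsq {φ : E → F} {x : E} (h : DifferentiableAt ℝ φ x) (v : E) :
    fderiv ℝ (fun x => ‖φ x‖ ^ 2) x v = 2 * (⟪φ x, fderiv ℝ φ x v⟫_ℂ).re := by
  have h1 := congrArg (fun L : E →L[ℝ] ℝ => L v)
    (Complex.reCLM.hasFDerivAt.comp x (h.inner ℂ h).hasFDerivAt).fderiv
  simp only [Function.comp_def, Complex.reCLM_apply, af0_self, ContinuousLinearMap.comp_apply,
    fderiv_inner_apply ℂ h h, Complex.add_re] at h1
  have h2 : (⟪fderiv ℝ φ x v, φ x⟫_ℂ).re = (⟪φ x, fderiv ℝ φ x v⟫_ℂ).re :=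
    inner_re_symm (𝕜 := ℂ) _ _
  rw [h1, h2, two_mul]

/-- Riccati (Barta) inequality: expand `|∂_k φ + w_k φ|^2 ≥ 0` and integrate by parts -/
theorem riccati {w : E → E} {U : Set E} (hU : IsOpen U) (hw : ContDiffOn ℝ 1 w U) {φ : E → F}
    (h : Tst φ) (hs : tsupport φ ⊆ U) :
    wt (fun x => (1 / 2) * (tr (fderiv ℝ w x) - ‖w x‖ ^ 2)) φ ≤ kin φ := by
  obtain ⟨b, hb⟩ : ∃ b, b = stdOrthonormalBasis ℝ E := ⟨_, rfl⟩
  have hz : ∀ k x, x ∉ tsupport φ → (fun x => ⟪b k, w x⟫_ℝ * ‖φ x‖ ^ 2) =ᶠ[nhds x] fun _ => 0 :=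
    fun k x hx => by
      filter_upwards [notMem_tsupport_iff_eventuallyEq.1 hx] with y hy
      simp [hy]
  have hu : ∀ k, ContDiff ℝ 1 fun x => ⟪b k, w x⟫_ℝ * ‖φ x‖ ^ 2 := fun k =>
    contDiff_iff_contDiffAt.2 fun x => by
      by_cases hx : x ∈ tsupport φ
      · exact (contDiffAt_const.inner ℝ (hw.contDiffAt (hU.mem_nhds (hs hx)))).mul
          (h.one.norm_sq ℂ).contDiffAt
      · exact contDiffAt_const.congr_of_eventuallyEq (hz k x hx)
  have hc : ∀ k, HasCompactSupport fun x => ⟪b k, w x⟫_ℝ * ‖φ x‖ ^ 2 := fun k =>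
    HasCompactSupport.intro h.2 fun x hx => (hz k x hx).self_of_nhds
  have i1 := fun k => af1_int_div (hu k) (hc k) (b k)
  have i2 := h.int_wt (w := fun x => (1 / 2) * (tr (fderiv ℝ w x) - ‖w x‖ ^ 2)) (by
    simp only [tr_eq_sum b]
    exact (continuousOn_const.mul ((continuousOn_finset_sum _ fun k _ => continuousOn_const.inner
      ((hw.continuousOn_fderiv_of_isOpen hU le_rfl).clm_apply continuousOn_const)).sub
        (hw.continuousOn.norm.pow 2))).mono hs)
  have h1 : kin φ = ∫ x, 1 / 2 * (g2 φ x +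
      ∑ k, fderiv ℝ (fun x => ⟪b k, w x⟫_ℝ * ‖φ x‖ ^ 2) x (b k)) := by
    rw [integral_const_mul, integral_add h.int_g2 (integrable_finset_sum _ fun k _ => i1 k),
      integral_finset_sum _ fun k _ => i1 k]
    simp only [fun k => af1_div (hu k) (hc k) (b k), Finset.sum_const_zero, add_zero, kin]
  rw [h1]
  refine integral_mono i2
    ((h.int_g2.add (integrable_finset_sum _ fun k _ => i1 k)).const_mul _) fun x => ?_
  by_cases hx : x ∈ tsupport φ
  · have hd := (hw.contDiffAt (hU.mem_nhds (hs hx))).differentiableAt one_ne_zero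
    have h2 : ∀ k, fderiv ℝ (fun x => ⟪b k, w x⟫_ℝ * ‖φ x‖ ^ 2) x (b k) =
        2 * (1 * ⟪b k, w x⟫_ℝ) * (⟪φ x, fderiv ℝ φ x (b k)⟫_ℂ).re +
          ⟪b k, fderiv ℝ w x (b k)⟫_ℝ * ‖φ x‖ ^ 2 := fun k => by
      rw [fderiv_fun_mul ((differentiableAt_const _).inner ℝ hd)
        ((h.differentiable x).norm_sq ℂ), ContinuousLinearMap.add_apply,
        ContinuousLinearMap.smul_apply, ContinuousLinearMap.smul_apply,
        af2_nsq (h.differentiable x), fderiv_inner_apply ℝ (differentiableAt_const _) hd]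
      simp
      ring
    have h3 := Finset.sum_nonneg fun k (_ : k ∈ Finset.univ) =>
      sq_nonneg ‖(1 : ℝ) • fderiv ℝ φ x (b k) + ⟪b k, w x⟫_ℝ • φ x‖
    simp only [af2_sq, Finset.sum_add_distrib, one_pow, ← Finset.sum_mul, b.sum_sq_inner_right,
      ← Finset.mul_sum, ← g2_onb b] at h3
    simp only [h2, Finset.sum_add_distrib, ← Finset.sum_mul, ← tr_eq_sum b]
    linarith
  · simp only [fun k => (hz k x hx).fderiv_eq (𝕜 := ℝ)]
    simp [g2, image_eq_zero_of_notMem_tsupport hx, fderiv_of_notMem_tsupport ℝ hx]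

end Vale.Agent.P353
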