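import Vale.Agent.P353.AMod0
import Vale.Agent.P353.AForm2
import Vale.Agent.P353.AFock

open MeasureTheory NormedSpace
open Complex (I)
open scoped InnerProductSpace ContDiff

noncomputable section
namespace Vale.Agent.P353
variable {V F : Type} [NormedAddCommGroup V] [InnerProductSpace ℝ V] [FiniteDimensional ℝ V]
  [MeasurableSpace V] [BorelSpace V]
  [NormedAddCommGroup F] [InnerProductSpace ℂ F] [CompleteSpace F]

/-- the frequency matrix of the free multiplet -/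
def Par.Om (P : Par) : M9 := Matrix.diagonal ![6, 6, 5, 5, 6, 6, 5, 5, P.δ]

omit [MeasurableSpace V] [BorelSpace V] in
theorem afree_pos {n : ℕ} {T : Matrix (Fin n) (Fin n) ℝ} (hT : T.PosSemidef)
    (u : PiLp 2 fun _ : Fin n => V) : 0 ≤ ⟪u, mat T u⟫_ℝ := by
  have h : ⟪u, mat T u⟫_ℝ = ∑ k, (fun i => ⟪u i, stdOrthonormalBasis ℝ V k⟫_ℝ) ⬝ᵥ
      T.mulVec fun i => ⟪u i, stdOrthonormalBasis ℝ V k⟫_ℝ := by
    simp only [PiLp.inner_apply, mat_apply, inner_sum, inner_smul_right, dotProduct, Matrix.mulVec,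
      Finset.mul_sum]
    rw [Finset.sum_comm (γ := Fin (Module.finrank ℝ V))]
    refine Finset.sum_congr rfl fun i _ => ?_
    rw [Finset.sum_comm]
    refine Finset.sum_congr rfl fun j _ => ?_
    rw [← (stdOrthonormalBasis ℝ V).sum_inner_mul_inner, Finset.mul_sum]
    refine Finset.sum_congr rfl fun k _ => ?_
    rw [real_inner_comm (u j)]
    ring
  rw [h]
  exact Finset.sum_nonneg fun k _ => hT.dotProduct_mulVec_nonneg _

omit [MeasurableSpace V] [BorelSpace V] in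
theorem afree_contr {n : ℕ} {J : Matrix (Fin n) (Fin n) ℝ} (hJ : J.transpose = -J)
    (h : (1 - J.transpose * J).PosSemidef) (u : PiLp 2 fun _ : Fin n => V) : ‖mat J u‖ ≤ ‖u‖ := by
  have h1 := afree_pos h u
  have h2 : mat (1 - J.transpose * J) u = u + mat (J * J) u := by
    ext i
    simp [hJ, add_smul, Finset.sum_add_distrib, Matrix.one_apply]
  rw [h2, mat_mul, inner_add_right, ContinuousLinearMap.comp_apply, ← sub_neg_eq_add,
    ← skew_mat hJ, real_inner_self_eq_norm_sq, real_inner_self_eq_norm_sq, sub_nonneg] at h1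
  exact (sq_le_sq₀ (norm_nonneg _) (norm_nonneg _)).1 h1

omit [MeasurableSpace V] [BorelSpace V] in
theorem afree_tr {n : ℕ} (T : Matrix (Fin n) (Fin n) ℝ) :
    tr (mat T : PiLp 2 (fun _ : Fin n => V) →L[ℝ] _) = T.trace * Module.finrank ℝ V := by
  refine (tr_mat_lift T (ContinuousLinearMap.id ℝ V)).trans ?_
  simp [tr]

theorem afree_Amat : Amat = !![0, -6, 0, 0, 0, 0, 0, 0, 0; 6, 0, 0, 0, 0, 0, 0, 0, 0;
    0, 0, 0, -5, 0, 0, 0, 0, 0; 0, 0, 5, 0, 0, 0, 0, 0, 0; 0, 0, 0, 0, 0, 6, 0, 0, 0;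
    0, 0, 0, 0, -6, 0, 0, 0, 0; 0, 0, 0, 0, 0, 0, 0, 5, 0; 0, 0, 0, 0, 0, 0, -5, 0, 0;
    0, 0, 0, 0, 0, 0, 0, 0, 0] := by
  ext i j
  fin_cases i <;> fin_cases j <;>
    simp [Amat, plane, eps, p1, p2, Fin.sum_univ_four]

theorem afree_norm (P : Par) (x : EE V) :
    ‖P.s1 x‖ ^ 2 = ‖mat P.Om x‖ ^ 2 ∧ P.δ ^ 2 * ‖x‖ ^ 2 ≤ ‖mat P.Om x‖ ^ 2 := by
  have h1 : P.δ ^ 2 ≤ 25 := by nlinarith [P.δ0, P.δ1]
  have h2 : ‖P.s1 x‖ ^ 2 = ‖mat P.Om x‖ ^ 2 := by
    rw [P.norm_s1, afree_Amat]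
    simp [PiLp.norm_sq_eq_of_L2, Par.Om, Matrix.diagonal_apply, Fin.sum_univ_succ, norm_smul,
      mul_pow]
    ring
  refine ⟨h2, ?_⟩
  have h3 : ‖x 8‖ ^ 2 ≤ ‖x‖ ^ 2 := pow_le_pow_left₀ (norm_nonneg _) (PiLp.norm_apply_le x 8) 2
  rw [← h2, P.norm_s1]
  nlinarith [(norm_Amat x).1]

omit [MeasurableSpace V] [BorelSpace V] in
theorem afree_cont {w : EE V → EE V} {U : Set (EE V)} (hU : IsOpen U) (hw : ContDiffOn ℝ 1 w U) :
    ContinuousOn (fun x => (1 / 2) * (tr (fderiv ℝ w x) - ‖w x‖ ^ 2)) U := by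
  have h : Continuous (tr : (EE V →L[ℝ] EE V) → ℝ) :=
    ((LinearMap.trace ℝ (EE V)).comp (ContinuousLinearMap.coeLM ℝ)).continuous_of_finiteDimensional
  exact continuousOn_const.mul ((h.comp_continuousOn
    (hw.continuousOn_fderiv_of_isOpen hU le_rfl)).sub (hw.continuousOn.norm.pow 2))

omit [MeasurableSpace V] [BorelSpace V] in
theorem afree_fb (C : Cl (SS V) F) (P : Par) {mu : ℝ} (hmu : 0 ≤ mu) (v : F) :
    -(mu * ((68 + 2 * P.δ) * Module.finrank ℝ V) / 4) * ‖v‖ ^ 2 ≤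
      (⟪v, (I • C.spin (mu • mat P.M1)) v⟫_ℂ).re := by
  obtain ⟨J, T, h1, h2, h3, h4, h5, h6⟩ := P.M1_polar
  have h7 : (mat J : SS V →L[ℝ] SS V) * mat T = mat P.M1 := by
    rw [← h5, mat_mul]
    rfl
  have h8 : (mat T : SS V →L[ℝ] SS V) * mat J = mat P.M1 := by
    rw [← h5, h4, mat_mul]
    rfl
  have h9 := C.fb (T := mu • mat T) (skew_mat h1) (afree_contr h1 h3) ⟨fun a b => ?_, fun a => ?_⟩
    (by rw [mul_smul_comm, smul_mul_assoc, h7, h8]) v
  · have h10 : tr (mu • mat T : SS V →L[ℝ] SS V) = mu * tr (mat T : SS V →L[ℝ] SS V) := by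
      simp [tr]
    rwa [mul_smul_comm, h7, h10, afree_tr, h6] at h9
  · rw [smul_apply, smul_apply, real_inner_smul_left, real_inner_smul_right,
      symm_mat (M := T) h2.isHermitian]
  · rw [zero_mul, smul_apply, real_inner_smul_right]
    exact mul_nonneg hmu (afree_pos h2 a)

/-- The free multiplet.  Apply `riccati` to `w + (99/100) mu Om x` and `Cl.fb` to
`Par.M1_polar`; `‖s1 x‖ = ‖Om x‖`, `tr Om / 2 = 22 + δ / 2`, fermion energy `17 + δ / 2`. -/
theorem Mod.free_bound (M : Mod V F) (P : Par) (hab : ∀ a b, M.L.br a b = 0) (lam : ℝ) {mu : ℝ}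
    (hmu : 0 ≤ mu) {w : EE V → EE V} {U : Set (EE V)} (hU : IsOpen U) (hw : ContDiffOn ℝ 1 w U)
    {φ : EE V → F} (h : Tst φ) (hs : tsupport φ ⊆ U) :
    wt (fun x => (1 / 2) * (tr (fderiv ℝ w x) - ‖w x‖ ^ 2) -
        mu * (99 / 100) * ⟪w x, mat P.Om x⟫_ℝ + mu * (477 / 100) * Module.finrank ℝ V +
        mu ^ 2 * (P.δ ^ 2 / 200) * ‖x‖ ^ 2) φ ≤ M.q P lam mu φ := by
  have h1 : ∀ x, s0 P.toGam M.L P.e x = 0 := fun x => by simp [s0, hab]
  have h2 : ∀ x, (-lam) • Gm P.toGam M.L x + mu • mat P.M1 = mu • mat P.M1 := fun x => by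
    ext u i
    simp [Gm, hab]
  have hW : ContDiffOn ℝ 1 (fun x => w x + ((mu * (99 / 100)) • mat P.Om : EE V →L[ℝ] EE V) x) U :=
    hw.add (ContinuousLinearMap.contDiff _).contDiffOn
  have h3 := riccati hU hW h hs
  have h4 := wt_le_opf h (B := fun _ => I • M.C.spin (mu • mat P.M1)) continuousOn_const
    continuousOn_const fun _ _ v => afree_fb M.C P hmu v
  have c1 := (afree_cont hU hW).mono hs
  have c2 : ContinuousOn (fun x : EE V => (1 / 2) * ‖mu • P.s1 x‖ ^ 2) (tsupport φ) := by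
    fun_prop
  have c3 := (hw.continuousOn.mono hs).inner (𝕜 := ℝ) (mat P.Om).continuous.continuousOn
  simp only [Mod.q, sch, h1, h2, smul_zero, zero_add]
  refine le_trans ?_ (add_le_add (add_le_add h3 le_rfl) h4)
  rw [← wt_add h c1 c2, ← wt_add h (c1.fun_add c2) continuousOn_const]
  refine wt_mono h (((((afree_cont hU hw).mono hs).sub (continuousOn_const.mul c3)).add
    continuousOn_const).add (by fun_prop)) ((c1.add c2).add continuousOn_const) fun x hx => ?_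
  have h5 := ((hw.contDiffAt (hU.mem_nhds (hs hx))).differentiableAt one_ne_zero).hasFDerivAt.add
    ((mu * (99 / 100)) • mat P.Om : EE V →L[ℝ] EE V).hasFDerivAt
  have h6 : tr (fderiv ℝ w x + (mu * (99 / 100)) • mat P.Om) = tr (fderiv ℝ w x) +
      mu * (99 / 100) * ((44 + P.δ) * Module.finrank ℝ V) := by
    have h7 : P.Om.trace = 44 + P.δ := by
      simp [Par.Om, Fin.sum_univ_succ]
      ring
    rw [← h7, ← afree_tr]
    simp [tr]
  obtain ⟨h7, h8⟩ := afree_norm P x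
  have h9 : mu * P.δ * Module.finrank ℝ V ≤ mu * 1 * Module.finrank ℝ V := by
    gcongr
    exact P.δ1
  have h10 := mul_le_mul_of_nonneg_left h8 (sq_nonneg mu)
  have h11 : 0 ≤ mu * Module.finrank ℝ V := by positivity
  have h12 : 0 ≤ mu ^ 2 * (P.δ ^ 2 * ‖x‖ ^ 2) := by positivity
  have h13 : fderiv ℝ (fun x => w x + ((mu * (99 / 100)) • mat P.Om : EE V →L[ℝ] EE V) x) x = _ :=
    h5.fderiv
  rw [h13, h6, norm_add_sq_real, smul_apply, real_inner_smul_right, norm_smul, norm_smul, mul_pow,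
    mul_pow, h7, Real.norm_eq_abs, Real.norm_eq_abs, sq_abs, sq_abs]
  linarith

end Vale.Agent.P353
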