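import Vale.Agent.P353.AGam2x1

set_option linter.unusedSimpArgs false

open MeasureTheory NormedSpace Matrix
open Complex (I)
open scoped InnerProductSpace ContDiff

noncomputable section
namespace Vale.Agent.P353

/-- Existence of a pure spinor.  With `I_a = γ (p1 a) * γ (p2 a)`, the three commuting symmetric
projections `(1 - I_0 I_b) / 2` have a product of trace `2` (the trace of a product of 4 or 8
distinct gammas vanishes: conjugate with one of them), so its range contains a unit vector `e0`;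
the range is invariant under `γ 8`; take `e` proportional to `e0 + γ 8 e0`, or `e0` if that is 0. -/
theorem Gam.exists_par (G : Gam) {δ : ℝ} (h0 : 0 < δ) (h1 : δ ≤ 1) :
    ∃ P : Par, P.toGam = G ∧ P.δ = δ := by
  obtain ⟨v1, n1, a1, -⟩ := gx_step (K := -(G.g 0 * G.g 1 * (G.g 2 * G.g 3))) (U := G.g 2)
    (by simp (disch := decide) only [mul_assoc, mul_neg, neg_mul, neg_neg, gx_sw, gx_sw', gx_sq', Gam.sq,
      mul_one, one_mul]) (G.sq 2) (by simp (disch := decide) only [mul_assoc, mul_neg, neg_mul, neg_neg, gx_sw, gx_sw', gx_sq', Gam.sq,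
      mul_one, one_mul])
    (v := Pi.single 0 1) (by simp)
  obtain ⟨v2, n2, a2, b2⟩ := gx_step (K := -(G.g 0 * G.g 1 * (G.g 4 * G.g 5))) (U := G.g 4)
    (by simp (disch := decide) only [mul_assoc, mul_neg, neg_mul, neg_neg, gx_sw, gx_sw', gx_sq', Gam.sq,
      mul_one, one_mul]) (G.sq 4) (by simp (disch := decide) only [mul_assoc, mul_neg, neg_mul, neg_neg, gx_sw, gx_sw', gx_sq', Gam.sq,
      mul_one, one_mul]) n1
  obtain ⟨v3, n3, a3, b3⟩ := gx_step (K := -(G.g 0 * G.g 1 * (G.g 6 * G.g 7))) (U := G.g 6)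
    (by simp (disch := decide) only [mul_assoc, mul_neg, neg_mul, neg_neg, gx_sw, gx_sw', gx_sq', Gam.sq,
      mul_one, one_mul]) (G.sq 6) (by simp (disch := decide) only [mul_assoc, mul_neg, neg_mul, neg_neg, gx_sw, gx_sw', gx_sq', Gam.sq,
      mul_one, one_mul]) n2
  have c1 := b3 _ (by simp (disch := decide) only [mul_assoc, mul_neg, neg_mul, neg_neg, gx_sw, gx_sw', gx_sq', Gam.sq,
      mul_one, one_mul]) (by simp (disch := decide) only [mul_assoc, mul_neg, neg_mul, neg_neg, gx_sw, gx_sw', gx_sq', Gam.sq,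
      mul_one, one_mul])
    (b2 _ (by simp (disch := decide) only [mul_assoc, mul_neg, neg_mul, neg_neg, gx_sw, gx_sw', gx_sq', Gam.sq,
      mul_one, one_mul]) (by simp (disch := decide) only [mul_assoc, mul_neg, neg_mul, neg_neg, gx_sw, gx_sw', gx_sq', Gam.sq,
      mul_one, one_mul]) a1)
  have c2 := b3 _ (by simp (disch := decide) only [mul_assoc, mul_neg, neg_mul, neg_neg, gx_sw, gx_sw', gx_sq', Gam.sq,
      mul_one, one_mul]) (by simp (disch := decide) only [mul_assoc, mul_neg, neg_mul, neg_neg, gx_sw, gx_sw', gx_sq', Gam.sq,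
      mul_one, one_mul]) a2
  obtain ⟨σ, w, hσ, nw, h8, hw⟩ : ∃ (σ : ℝ) (w : R16), σ * σ = 1 ∧ w ≠ 0 ∧ G.g 8 *ᵥ w = σ • w ∧
      ∀ K : M16, K * G.g 8 = G.g 8 * K → K *ᵥ v3 = v3 → K *ᵥ w = w := by
    by_cases h : v3 + G.g 8 *ᵥ v3 = 0
    · exact ⟨-1, v3, by norm_num, n3, by rw [eq_neg_of_add_eq_zero_right h, neg_one_smul],
        fun _ _ h => h⟩
    · refine ⟨1, _, by norm_num, h, by rw [mulVec_add, gx_gg, one_smul, add_comm], fun K h1 h2 => ?_⟩
      rw [mulVec_add, mulVec_mulVec, h1, ← mulVec_mulVec, h2]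
  have hp : 0 < w ⬝ᵥ w := lt_of_le_of_ne (Finset.sum_nonneg fun i _ => mul_self_nonneg _)
    fun h => nw (dotProduct_self_eq_zero.1 h.symm)
  have key : ∀ X : M16, X * G.g 8 = G.g 8 * X → (-(G.g 0 * G.g 1 * X)) *ᵥ v3 = v3 →
      X *ᵥ w = (G.g 0 * G.g 1) *ᵥ w := fun X h1 h2 => by
    have h3 := hw _ (by
      rw [neg_mul, mul_neg, mul_assoc, h1]
      simp (disch := decide) only [mul_assoc, mul_neg, neg_mul, neg_neg, gx_sw, gx_sw', gx_sq', Gam.sq,
      mul_one, one_mul]) h2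
    conv_rhs => rw [← h3, mulVec_mulVec]
    congr 1
    simp (disch := decide) only [mul_assoc, mul_neg, neg_mul, neg_neg, gx_sw, gx_sw', gx_sq', Gam.sq,
      mul_one, one_mul]
  refine ⟨{ G with
    σ := σ, e := (√(w ⬝ᵥ w))⁻¹ • w, χ := (√(w ⬝ᵥ w))⁻¹ • (G.g 0 * G.g 1) *ᵥ w, δ := δ, hσ := hσ
    he := ?_, h9 := ?_, hχ := fun a => ?_, δ0 := h0, δ1 := h1 }, rfl, rfl⟩
  · rw [smul_dotProduct, dotProduct_smul, smul_eq_mul, smul_eq_mul, ← mul_assoc, ← mul_inv,
      Real.mul_self_sqrt hp.le, inv_mul_cancel₀ hp.ne']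
  · rw [mulVec_smul, h8, smul_comm]
  · rw [mulVec_smul]
    congr 1
    fin_cases a
    · rfl
    · exact key (G.g 2 * G.g 3) (by simp (disch := decide) only [mul_assoc, mul_neg, neg_mul, neg_neg, gx_sw, gx_sw', gx_sq', Gam.sq,
      mul_one, one_mul]) c1
    · exact key (G.g 4 * G.g 5) (by simp (disch := decide) only [mul_assoc, mul_neg, neg_mul, neg_neg, gx_sw, gx_sw', gx_sq', Gam.sq,
      mul_one, one_mul]) c2
    · exact key (G.g 6 * G.g 7) (by simp (disch := decide) only [mul_assoc, mul_neg, neg_mul, neg_neg, gx_sw, gx_sw', gx_sq', Gam.sq,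
      mul_one, one_mul]) a3

theorem Par.χ_unit (P : Par) : P.χ ⬝ᵥ P.χ = 1 ∧ P.χ ⬝ᵥ P.e = 0 := by
  rw [← P.hχ 0, ← mulVec_mulVec]
  refine ⟨?_, ?_⟩
  · rw [gx_dot (gx_T _ _), gx_gg, P.dot P.he, if_pos rfl]
  · rw [gx_dot (gx_T _ _), P.dot P.he, if_neg (by decide)]
theorem Par.gx_h9χ (P : Par) : P.g 8 *ᵥ P.χ = P.σ • P.χ := by
  have h : P.g 8 * (P.g 0 * P.g 1) = P.g 0 * P.g 1 * P.g 8 := by
    simp (disch := decide) only [mul_assoc, mul_neg, neg_mul, neg_neg, gx_sw, gx_sw', gx_sq', Gam.sq,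
      mul_one, one_mul]
  have h0 : (P.g 0 * P.g 1) *ᵥ P.e = P.χ := P.hχ 0
  rw [← h0, mulVec_mulVec, h, ← mulVec_mulVec, P.h9, mulVec_smul]

theorem Par.gx_opp (P : Par) {i : Fin 9} (h : i ≠ 8) :
    P.g 8 *ᵥ P.g i *ᵥ P.e = -(P.σ • P.g i *ᵥ P.e) := by
  rw [mulVec_mulVec, P.anti h.symm, neg_mulVec, ← mulVec_mulVec, P.h9, mulVec_smul]

theorem Par.gx_orth (P : Par) {v : R16} (hv : P.g 8 *ᵥ v = P.σ • v) {i : Fin 9} (h : i ≠ 8) :
    v ⬝ᵥ P.g i *ᵥ P.e = 0 := by
  have h1 := gx_dot (gx_T P.toGam 8) v (P.g i *ᵥ P.e)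
  rw [hv, P.gx_opp h, smul_dotProduct, dotProduct_neg, dotProduct_smul, smul_eq_mul] at h1
  have h2 : P.σ * (v ⬝ᵥ P.g i *ᵥ P.e) = 0 := by linarith
  rw [← one_mul (v ⬝ᵥ _), ← P.hσ, mul_assoc, h2, mul_zero]

theorem Par.χ_dot (P : Par) (i : Fin 9) : P.χ ⬝ᵥ (P.g i).mulVec P.e = 0 := by
  by_cases h : i = 8
  · rw [h, P.h9, dotProduct_smul, P.χ_unit.2, smul_zero]
  · exact P.gx_orth P.gx_h9χ h
theorem Par.h9χ (P : Par) : (P.g 8).mulVec P.χ = P.σ • P.χ := P.gx_h9χ
theorem Par.hat_e (P : Par) : (P.hat Amat).mulVec P.e = 0 ∧ (P.hat Amat).mulVec P.χ = 0 := by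
  have h : ∀ a, (P.g (p1 a) * P.g (p2 a)) *ᵥ P.χ = -P.e := fun a => by
    rw [← P.hχ a, mulVec_mulVec, mul_assoc, ← mul_assoc (P.g (p2 a)),
      P.anti (i := p2 a) (j := p1 a) (by revert a; decide), neg_mul, mul_neg, mul_assoc, P.sq,
      mul_one, P.sq, neg_mulVec, one_mulVec]
  rw [P.hat_Amat, smul_mulVec, smul_mulVec, sum_mulVec, sum_mulVec]
  simp only [smul_mulVec, P.hχ, h, Fin.sum_univ_four, eps]
  constructor <;> simp
theorem Par.e_dot (P : Par) (j : Fin 9) :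
    P.e ⬝ᵥ (P.g j).mulVec P.e = if j = 8 then P.σ else 0 := by
  split_ifs with h
  · rw [h, P.h9, dotProduct_smul, P.he, smul_eq_mul, mul_one]
  · exact P.gx_orth P.h9 h
theorem gx_Imat (a : Fin 4) (j : Fin 9) : Imat (p1 a) j = -(if j = p2 a then 1 else 0) ∧
    Imat (p2 a) j = if j = p1 a then 1 else 0 := by
  have h1 : ∀ a b : Fin 4, p2 a ≠ p1 b := by decide
  have h2 : ∀ a b : Fin 4, p1 a = p1 b ↔ a = b := by decide
  have h3 : ∀ a b : Fin 4, p2 a = p2 b ↔ a = b := by decide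
  simp only [Imat, plane, Matrix.sum_apply, Matrix.sub_apply, Matrix.single_apply, h1, h2, h3,
    (h1 _ _).symm, false_and, if_false, zero_sub, sub_zero, ite_and, Finset.sum_neg_distrib,
    Finset.sum_ite_eq', Finset.mem_univ, if_true, eq_comm (a := j), and_self]

theorem Par.g2_dot (P : Par) (i j : Fin 9) : (P.g2 i j).mulVec P.e ⬝ᵥ P.χ = -Imat i j := by
  by_cases hij : i = j
  · rw [hij, P.g2_self, zero_mulVec, zero_dotProduct]
    have := congrFun (congrFun Imat_transpose j) j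
    rw [transpose_apply, neg_apply] at this
    linarith
  rw [P.g2_ne hij, ← mulVec_mulVec, gx_dot (gx_T _ _)]
  obtain rfl | ⟨a, rfl | rfl⟩ : i = 8 ∨ ∃ a, i = p1 a ∨ i = p2 a := by
    clear hij
    revert i
    decide
  · rw [P.h9χ, dotProduct_smul, dotProduct_comm, P.χ_dot, smul_zero, (Amat_eight j).2.2.2, neg_zero]
  · rw [← P.hχ a, ← mulVec_mulVec, gx_gg, P.dot P.he, (gx_Imat a j).1, neg_neg]
  · rw [← P.hχ a, P.anti (i := p1 a) (j := p2 a) (by clear hij; revert a; decide), neg_mulVec, mulVec_neg,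
      ← mulVec_mulVec, gx_gg, dotProduct_neg, P.dot P.he, (gx_Imat a j).2]
/-- the eight vectors `γ^k e` are an orthonormal basis of the opposite chirality -/
theorem Par.complete (P : Par) :
    ∑ k ∈ Finset.univ.erase (8 : Fin 9),
      Matrix.vecMulVec ((P.g k).mulVec P.e) ((P.g k).mulVec P.e) =
      (1 / 2 : ℝ) • ((1 : M16) - P.σ • P.g 8) := by
  obtain ⟨Q, hQ⟩ : ∃ Q : M16, Q = ∑ k ∈ Finset.univ.erase (8 : Fin 9),
    vecMulVec (P.g k *ᵥ P.e) (P.g k *ᵥ P.e) := ⟨_, rfl⟩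
  obtain ⟨R, hR⟩ : ∃ R : M16, R = (1 / 2 : ℝ) • ((1 : M16) - P.σ • P.g 8) := ⟨_, rfl⟩
  have Qt : Qᵀ = Q := by simp [hQ, transpose_sum]
  have Rt : Rᵀ = R := by simp [hR, gx_T]
  have QQ : Q * Q = Q := by
    rw [hQ, Finset.sum_mul_sum]
    refine Finset.sum_congr rfl fun k hk => ?_
    simp only [vecMulVec_mul_vecMulVec, P.dot P.he, ite_smul, one_smul, zero_smul]
    rw [Finset.sum_eq_single k (fun l _ hl => by rw [if_neg hl.symm, vecMulVec_zero])
      (fun h => absurd hk h), if_pos rfl]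
  have RR : R * R = R := by
    simp only [hR, smul_mul_assoc, mul_smul_comm, mul_sub, sub_mul, mul_one, one_mul, P.sq,
      smul_sub, smul_smul]
    have := P.hσ
    match_scalars
    · linear_combination (1 / 4 : ℝ) * this
    · ring
  have RQ : R * Q = Q := by
    rw [hQ, Finset.mul_sum]
    refine Finset.sum_congr rfl fun k hk => ?_
    rw [mul_vecMulVec, hR, smul_mulVec, sub_mulVec, one_mulVec, smul_mulVec,
      P.gx_opp (Finset.ne_of_mem_erase hk), smul_neg, smul_smul, P.hσ]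
    congr 1
    module
  have QR : Q * R = Q := by rw [← Qt, ← Rt, ← transpose_mul, RQ]
  have := gx_zero (R := R - Q) (by rw [transpose_sub, Qt, Rt])
    (by rw [sub_mul, mul_sub, mul_sub, RR, RQ, QR, QQ, sub_self, sub_zero]) (by
      rw [trace_sub, hR, hQ, trace_sum]
      simp only [trace_vecMulVec, P.dot P.he, if_true, trace_smul, trace_sub, trace_one, P.tr1]
      simp
      norm_num)
  rw [← hQ, ← hR, sub_eq_zero.1 this]
theorem Par.gx_full (P : Par) : ∑ k, vecMulVec (P.g k *ᵥ P.e) (P.g k *ᵥ P.e) =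
    (1 / 2 : ℝ) • ((1 : M16) - P.σ • P.g 8) + vecMulVec P.e P.e := by
  rw [← Finset.sum_erase_add _ _ (Finset.mem_univ 8), P.complete, P.h9, smul_vecMulVec,
    vecMulVec_smul, smul_smul, P.hσ, one_smul]

theorem Par.gx_M1 (P : Par) : P.M1 = -(P.σ • (P.hat Amat * P.g 8)) +
    (P.δ * P.σ) • (vecMulVec P.χ P.e - vecMulVec P.e P.χ) := by
  have h : ∀ k, P.hat Amat *ᵥ P.g k *ᵥ P.e = ∑ l, Amat l k • P.g l *ᵥ P.e := fun k => by
    have := congrArg (· *ᵥ P.e) (P.hat_comm Amat_transpose k)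
    simp only [sub_mulVec, ← mulVec_mulVec, P.hat_e.1, mulVec_zero, sub_zero, sum_mulVec,
      smul_mulVec] at this
    exact this
  have h1 : ∑ l, ∑ k, Amat l k • vecMulVec (P.g l *ᵥ P.e) (P.g k *ᵥ P.e) =
      P.hat Amat * ∑ k, vecMulVec (P.g k *ᵥ P.e) (P.g k *ᵥ P.e) := by
    rw [Finset.sum_comm, Finset.mul_sum]
    refine Finset.sum_congr rfl fun k _ => ?_
    rw [mul_vecMulVec, h]
    ext a b
    simp [vecMulVec_apply, Matrix.sum_apply, Finset.sum_mul, mul_assoc]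
  rw [Par.M1, h1, P.gx_full, mul_add, mul_vecMulVec, P.hat_e.1, zero_vecMulVec]
  simp only [mul_smul_comm, mul_sub, mul_one]
  module

/-- Fierz identity for the pure spinor -/
theorem Par.fierz (P : Par) (j : Fin 9) :
    ∑ k, (Matrix.vecMulVec ((P.g2 k j).mulVec P.e) ((P.g k).mulVec P.e) +
      Matrix.vecMulVec ((P.g k).mulVec P.e) ((P.g2 k j).mulVec P.e)) =
      (if j = 8 then P.σ else 0) • (1 : M16) - P.g j := by
  have h : ∀ k, P.g2 k j *ᵥ P.e = (if k = j then (1 : ℝ) else 0) • P.e - P.g j *ᵥ P.g k *ᵥ P.e :=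
    fun k => by
      rw [P.g2_swap, mulVec_mulVec, P.mul_eq j k, neg_mulVec, add_mulVec, smul_mulVec, one_mulVec]
      simp only [eq_comm (a := j)]
      abel
  have h1 : ∀ u v : R16, vecMulVec u (P.g j *ᵥ v) = vecMulVec u v * P.g j := fun u v => by
    rw [vecMulVec_mul, ← vecMul_transpose, gx_T]
  simp only [h, sub_vecMulVec, vecMulVec_sub, smul_vecMulVec, vecMulVec_smul]
  simp only [Finset.sum_add_distrib, Finset.sum_sub_distrib, ite_smul, one_smul, zero_smul,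
    Finset.sum_ite_eq', Finset.mem_univ, if_true]
  have h2 : ∑ k, vecMulVec (P.g j *ᵥ P.g k *ᵥ P.e) (P.g k *ᵥ P.e) =
      P.g j * ∑ k, vecMulVec (P.g k *ᵥ P.e) (P.g k *ᵥ P.e) := by
    simp only [Finset.mul_sum, mul_vecMulVec]
  have h3 : ∑ k, vecMulVec (P.g k *ᵥ P.e) (P.g j *ᵥ P.g k *ᵥ P.e) =
      (∑ k, vecMulVec (P.g k *ᵥ P.e) (P.g k *ᵥ P.e)) * P.g j := by
    rw [Finset.sum_mul]
    exact Finset.sum_congr rfl fun k _ => h1 _ _
  have h4 := P.cl j 8
  rw [h2, h3, P.gx_full, h1, ← mul_vecMulVec]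
  simp only [mul_add, add_mul, smul_mul_assoc, mul_smul_comm, mul_sub, sub_mul, mul_one, one_mul]
  rw [eq_sub_of_add_eq h4]
  split_ifs <;> module
theorem Par.M1_transpose (P : Par) : P.M1.transpose = -P.M1 := by
  have h := P.hat_comm Amat_transpose 8
  simp only [(Amat_eight _).1, zero_smul, Finset.sum_const_zero, sub_eq_zero] at h
  rw [P.gx_M1]
  simp only [transpose_add, transpose_neg, transpose_smul, transpose_mul, transpose_sub,
    transpose_vecMulVec, gx_T, P.hat_transpose, Matrix.mul_neg]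
  rw [h]
  module
/-- polar form of the mass matrix: singular values `6, 5` (four times each), `11, 1, δ` (twice
each) and `0` (twice).  Hints: `M1 = A^ (P₋ - P₊) + δ σ (χ eᵀ - e χᵀ)` with `P∓ = (1 ∓ σ γ 8) / 2`
(use `complete`, `hat_comm`, `hat_e`); `σ γ 8 = I_0 I_1 I_2 I_3` (both are symmetric involutions
of trace 0 that equal `-1` on the span of the `γ k e`); with `K a b = - I_a I_b` the spectral
projections are products of `(1 ± K a b) / 2`; `T` is the weighted sum of them. -/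
theorem Par.M1_polar (P : Par) : ∃ J T : M16, J.transpose = -J ∧ T.PosSemidef ∧
    (1 - J.transpose * J).PosSemidef ∧ J * T = T * J ∧ J * T = P.M1 ∧ T.trace = 68 + 2 * P.δ := by
  have T : ∀ a b c d : Fin 9, (-(P.g a * P.g b * (P.g c * P.g d)))ᵀ =
      -(P.g d * P.g c * (P.g b * P.g a)) := fun a b c d => by
    simp only [transpose_neg, transpose_mul, gx_T]
  obtain ⟨s, T0, h1, h2, h3, h4, h5, h6, h7, h8⟩ := gx_three
    (A := -(P.g 0 * P.g 1 * (P.g 2 * P.g 3))) (B := -(P.g 0 * P.g 1 * (P.g 4 * P.g 5)))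
    (C := -(P.g 0 * P.g 1 * (P.g 6 * P.g 7)))
    (by rw [T]; simp (disch := decide) only [mul_assoc, mul_neg, neg_mul, neg_neg, gx_sw, gx_sw', gx_sq', Gam.sq,
      mul_one, one_mul]) (by rw [T]; simp (disch := decide) only [mul_assoc, mul_neg, neg_mul, neg_neg, gx_sw, gx_sw', gx_sq', Gam.sq,
      mul_one, one_mul]) (by rw [T]; simp (disch := decide) only [mul_assoc, mul_neg, neg_mul, neg_neg, gx_sw, gx_sw', gx_sq', Gam.sq,
      mul_one, one_mul])
    (by simp (disch := decide) only [mul_assoc, mul_neg, neg_mul, neg_neg, gx_sw, gx_sw', gx_sq', Gam.sq,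
      mul_one, one_mul]) (by simp (disch := decide) only [mul_assoc, mul_neg, neg_mul, neg_neg, gx_sw, gx_sw', gx_sq', Gam.sq,
      mul_one, one_mul]) (by simp (disch := decide) only [mul_assoc, mul_neg, neg_mul, neg_neg, gx_sw, gx_sw', gx_sq', Gam.sq,
      mul_one, one_mul]) (by simp (disch := decide) only [mul_assoc, mul_neg, neg_mul, neg_neg, gx_sw, gx_sw', gx_sq', Gam.sq,
      mul_one, one_mul]) (by simp (disch := decide) only [mul_assoc, mul_neg, neg_mul, neg_neg, gx_sw, gx_sw', gx_sq', Gam.sq,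
      mul_one, one_mul]) (by simp (disch := decide) only [mul_assoc, mul_neg, neg_mul, neg_neg, gx_sw, gx_sw', gx_sq', Gam.sq,
      mul_one, one_mul])
    (gx_tr (P.sq 2) (by simp (disch := decide) only [mul_assoc, mul_neg, neg_mul, neg_neg, gx_sw, gx_sw', gx_sq', Gam.sq,
      mul_one, one_mul])) (gx_tr (P.sq 4) (by simp (disch := decide) only [mul_assoc, mul_neg, neg_mul, neg_neg, gx_sw, gx_sw', gx_sq', Gam.sq,
      mul_one, one_mul])) (gx_tr (P.sq 6) (by simp (disch := decide) only [mul_assoc, mul_neg, neg_mul, neg_neg, gx_sw, gx_sw', gx_sq', Gam.sq,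
      mul_one, one_mul]))
    (gx_tr (P.sq 2) (by simp (disch := decide) only [mul_assoc, mul_neg, neg_mul, neg_neg, gx_sw, gx_sw', gx_sq', Gam.sq,
      mul_one, one_mul])) (gx_tr (P.sq 2) (by simp (disch := decide) only [mul_assoc, mul_neg, neg_mul, neg_neg, gx_sw, gx_sw', gx_sq', Gam.sq,
      mul_one, one_mul])) (gx_tr (P.sq 4) (by simp (disch := decide) only [mul_assoc, mul_neg, neg_mul, neg_neg, gx_sw, gx_sw', gx_sq', Gam.sq,
      mul_one, one_mul]))
    (gx_tr (P.sq 2) (by simp (disch := decide) only [mul_assoc, mul_neg, neg_mul, neg_neg, gx_sw, gx_sw', gx_sq', Gam.sq,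
      mul_one, one_mul]))
  have I0 : (P.g 0 * P.g 1) *ᵥ P.e = P.χ := P.hχ 0
  have ke : ∀ X : M16, X *ᵥ P.e = P.χ → (-(P.g 0 * P.g 1 * X)) *ᵥ P.e = P.e := fun X h => by
    rw [neg_mulVec, ← mulVec_mulVec, h, ← I0, mulVec_mulVec, ← neg_mulVec,
      show -(P.g 0 * P.g 1 * (P.g 0 * P.g 1)) = 1 by simp (disch := decide) only [mul_assoc, mul_neg, neg_mul, neg_neg, gx_sw, gx_sw', gx_sq', Gam.sq,
      mul_one, one_mul], one_mulVec]
  have kχ : ∀ K : M16, K * (P.g 0 * P.g 1) = P.g 0 * P.g 1 * K → K *ᵥ P.e = P.e →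
      K *ᵥ P.χ = P.χ := fun K h h' => by
    rw [← I0, mulVec_mulVec, h, ← mulVec_mulVec, h']
  have e1 := ke (P.g 2 * P.g 3) (P.hχ 1)
  have e2 := ke (P.g 4 * P.g 5) (P.hχ 2)
  have e3 := ke (P.g 6 * P.g 7) (P.hχ 3)
  obtain ⟨a1, a2⟩ := h7 _ e1 e2 e3
  obtain ⟨b1, b2⟩ := h7 _ (kχ _ (by simp (disch := decide) only [mul_assoc, mul_neg, neg_mul, neg_neg, gx_sw, gx_sw', gx_sq', Gam.sq,
      mul_one, one_mul]) e1) (kχ _ (by simp (disch := decide) only [mul_assoc, mul_neg, neg_mul, neg_neg, gx_sw, gx_sw', gx_sq', Gam.sq,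
      mul_one, one_mul]) e2) (kχ _ (by simp (disch := decide) only [mul_assoc, mul_neg, neg_mul, neg_neg, gx_sw, gx_sw', gx_sq', Gam.sq,
      mul_one, one_mul]) e3)
  obtain ⟨c1, c2⟩ := h8 (P.g 0 * P.g 1 * P.g 8) (by simp (disch := decide) only [mul_assoc, mul_neg, neg_mul, neg_neg, gx_sw, gx_sw', gx_sq', Gam.sq,
      mul_one, one_mul]) (by simp (disch := decide) only [mul_assoc, mul_neg, neg_mul, neg_neg, gx_sw, gx_sw', gx_sq', Gam.sq,
      mul_one, one_mul]) (by simp (disch := decide) only [mul_assoc, mul_neg, neg_mul, neg_neg, gx_sw, gx_sw', gx_sq', Gam.sq,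
      mul_one, one_mul])
  obtain ⟨J, T, j1, j2, j3, j4, j5, j6⟩ := gx_polar (U := P.σ • (P.g 0 * P.g 1 * P.g 8))
    (by
      simp only [transpose_smul, transpose_mul, gx_T, ← smul_neg]
      congr 1
      simp (disch := decide) only [mul_assoc, mul_neg, neg_mul, neg_neg, gx_sw, gx_sw', gx_sq', Gam.sq,
      mul_one, one_mul])
    (by
      rw [smul_mul_smul_comm, P.hσ, one_smul]
      simp (disch := decide) only [mul_assoc, mul_neg, neg_mul, neg_neg, gx_sw, gx_sw', gx_sq', Gam.sq,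
      mul_one, one_mul]) h1 (by rw [smul_mul_assoc, mul_smul_comm, c1]) h2 h3 h4
    (by rw [smul_mul_assoc, mul_smul_comm, c2]) a1 b1 a2 b2 P.he P.χ_unit.1 P.χ_unit.2 P.δ0.le P.hσ
  refine ⟨J, T, j1, j2, j3, j4, ?_, by rw [j6, h6]⟩
  rw [j5, h5, P.gx_M1, P.hat_Amat]
  congr 1
  have q : ∀ a : Fin 4, P.g (p1 a) * P.g (p2 a) = ![P.g 0 * P.g 1, P.g 2 * P.g 3, P.g 4 * P.g 5,
      P.g 6 * P.g 7] a := fun a => by fin_cases a <;> rfl
  simp only [q, Fin.sum_univ_four, eps, cons_val_zero, cons_val_one, cons_val, smul_mul_assoc,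
    mul_smul_comm, mul_add, add_mul, mul_sub]
  simp (disch := decide) only [mul_assoc, mul_neg, neg_mul, neg_neg, gx_sw, gx_sw', gx_sq', Gam.sq,
      mul_one, one_mul]
  module

end Vale.Agent.P353
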