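import Vale.Agent.P353.AGam

/-! Auxiliary matrix facts for the pure spinor. -/

set_option linter.unusedSimpArgs false

open Matrix

noncomputable section
namespace Vale.Agent.P353

theorem gx_psd {R : M16} (hs : Rᵀ = R) (hi : R * R = R) : R.PosSemidef := by
  have := posSemidef_conjTranspose_mul_self R
  rwa [conjTranspose_eq_transpose_of_trivial, hs, hi] at this

theorem gx_zero {R : M16} (hs : Rᵀ = R) (hi : R * R = R) (ht : R.trace = 0) : R = 0 := by
  rw [← trace_conjTranspose_mul_self_eq_zero_iff, conjTranspose_eq_transpose_of_trivial, hs, hi,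
    ht]

theorem gx_tr {U X : M16} (hU : U * U = 1) (h : U * X = -(X * U)) : X.trace = 0 := by
  have h1 : X.trace = (U * X * U).trace := by rw [trace_mul_cycle, hU, one_mul]
  rw [h, neg_mul, mul_assoc, hU, mul_one, trace_neg] at h1
  linarith

theorem gx_dot {A : M16} (hs : Aᵀ = A) (u v : R16) : A *ᵥ u ⬝ᵥ v = u ⬝ᵥ A *ᵥ v := by
  rw [dotProduct_mulVec, ← mulVec_transpose, hs]

theorem gx_step {K U : M16} (hK : K * K = 1) (hU : U * U = 1) (h : K * U = -(U * K)) {v : R16}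
    (hv : v ≠ 0) : ∃ w : R16, w ≠ 0 ∧ K *ᵥ w = w ∧
      ∀ K' : M16, K' * K = K * K' → K' * U = U * K' → K' *ᵥ v = v → K' *ᵥ w = w := by
  by_cases h0 : v + K *ᵥ v = 0
  · refine ⟨U *ᵥ v, fun h1 => hv ?_, ?_, fun K' _ h2 h3 => ?_⟩
    · rw [← one_mulVec v, ← hU, ← mulVec_mulVec, h1, mulVec_zero]
    · rw [mulVec_mulVec, h, neg_mulVec, ← mulVec_mulVec, eq_neg_of_add_eq_zero_right h0,
        mulVec_neg, neg_neg]
    · rw [mulVec_mulVec, h2, ← mulVec_mulVec, h3]
  · refine ⟨_, h0, ?_, fun K' h1 _ h3 => ?_⟩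
    · rw [mulVec_add, mulVec_mulVec, hK, one_mulVec, add_comm]
    · rw [mulVec_add, mulVec_mulVec, h1, ← mulVec_mulVec, h3]

theorem gx_sw (G : Gam) {i j : Fin 9} (h : i < j) : G.g j * G.g i = -(G.g i * G.g j) :=
  G.anti h.ne'

theorem gx_sw' (G : Gam) {i j : Fin 9} (h : i < j) (X : M16) :
    G.g j * (G.g i * X) = -(G.g i * (G.g j * X)) := by
  rw [← mul_assoc, gx_sw G h, neg_mul, mul_assoc]

theorem gx_sq' (G : Gam) (i : Fin 9) (X : M16) : G.g i * (G.g i * X) = X := by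
  rw [← mul_assoc, G.sq, one_mul]

theorem gx_T (G : Gam) (i : Fin 9) : (G.g i)ᵀ = G.g i := G.symm i

theorem gx_gg (G : Gam) (i : Fin 9) (v : R16) : G.g i *ᵥ G.g i *ᵥ v = v := by
  rw [mulVec_mulVec, G.sq, one_mulVec]

/-- the polar decomposition from abstract data -/
theorem gx_polar {U s T0 : M16} {e χ : R16} {δ σ : ℝ} (hU : Uᵀ = -U) (hUU : U * U = -1)
    (hs : sᵀ = s) (hUs : U * s = s * U) (hs4 : s * s * (s * s) = s * s) (hT : T0.PosSemidef)
    (hsT : s * T0 = T0 * s) (hUT : U * T0 = T0 * U) (se : s *ᵥ e = 0) (sχ : s *ᵥ χ = 0)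
    (Te : T0 *ᵥ e = 0) (Tχ : T0 *ᵥ χ = 0) (he : e ⬝ᵥ e = 1) (hχ : χ ⬝ᵥ χ = 1) (hχe : χ ⬝ᵥ e = 0)
    (hδ : 0 ≤ δ) (hσ : σ * σ = 1) :
    ∃ J T : M16, Jᵀ = -J ∧ T.PosSemidef ∧ (1 - Jᵀ * J).PosSemidef ∧ J * T = T * J ∧
      J * T = U * (s * T0) + (δ * σ) • (vecMulVec χ e - vecMulVec e χ) ∧
      T.trace = T0.trace + 2 * δ := by
  have heχ : e ⬝ᵥ χ = 0 := by rw [dotProduct_comm, hχe]
  have hTt : T0ᵀ = T0 := by rw [← conjTranspose_eq_transpose_of_trivial]; exact hT.1
  have es : e ᵥ* s = 0 := by rw [← hs, vecMul_transpose, se]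
  have χs : χ ᵥ* s = 0 := by rw [← hs, vecMul_transpose, sχ]
  have eT : e ᵥ* T0 = 0 := by rw [← hTt, vecMul_transpose, Te]
  have χT : χ ᵥ* T0 = 0 := by rw [← hTt, vecMul_transpose, Tχ]
  obtain ⟨E, hE⟩ : ∃ E, E = vecMulVec e e + vecMulVec χ χ := ⟨_, rfl⟩
  obtain ⟨W, hW⟩ : ∃ W, W = vecMulVec χ e - vecMulVec e χ := ⟨_, rfl⟩
  have Et : Eᵀ = E := by simp [hE]
  have Wt : Wᵀ = -W := by simp [hW]
  have EE : E * E = E := by
    simp [hE, mul_add, add_mul, vecMulVec_mul_vecMulVec, he, hχ, hχe, heχ]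
  have WE : W * E = W := by
    simp [hE, hW, mul_add, sub_mul, vecMulVec_mul_vecMulVec, he, hχ, hχe, heχ, sub_eq_add_neg,
      add_mul]
  have EW : E * W = W := by
    simp [hE, hW, mul_add, add_mul, vecMulVec_mul_vecMulVec, he, hχ, hχe, heχ, sub_eq_add_neg,
      add_comm]
  have WW : W * W = -E := by
    simp [hE, hW, mul_add, add_mul, vecMulVec_mul_vecMulVec, he, hχ, hχe, heχ, sub_eq_add_neg,
      add_comm]
  have sE : s * E = 0 := by simp [hE, mul_add, mul_vecMulVec, se, sχ]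
  have Es : E * s = 0 := by simp [hE, add_mul, vecMulVec_mul, es, χs]
  have sW : s * W = 0 := by rw [← EW, ← mul_assoc, sE, zero_mul]
  have Ws : W * s = 0 := by rw [← WE, mul_assoc, Es, mul_zero]
  have TW : T0 * W = 0 := by simp [hW, mul_sub, mul_vecMulVec, Te, Tχ]
  have WT : W * T0 = 0 := by simp [hW, sub_mul, vecMulVec_mul, eT, χT]
  have Jt : (U * s + σ • W)ᵀ = -(U * s + σ • W) := by
    rw [transpose_add, transpose_mul, transpose_smul, hs, hU, Wt, hUs, mul_neg, smul_neg, neg_add]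
  have JT : (U * s + σ • W) * (T0 + δ • E) = U * (s * T0) + (δ * σ) • W := by
    simp only [add_mul, mul_add, mul_smul_comm, smul_mul_assoc, mul_assoc, sE, WT, WE, mul_zero,
      smul_zero, add_zero, zero_add, smul_smul]
  have TJ : (T0 + δ • E) * (U * s + σ • W) = U * (s * T0) + (δ * σ) • W := by
    have e1 : E * (U * s) = 0 := by rw [hUs, ← mul_assoc, Es, zero_mul]
    have e2 : T0 * (U * s) = U * (s * T0) := by rw [← mul_assoc, ← hUT, mul_assoc, hsT]
    simp only [add_mul, mul_add, mul_smul_comm, smul_mul_assoc, e1, e2, TW, EW, smul_zero,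
      add_zero, zero_add, smul_smul, mul_comm σ δ]
  have JJ : (U * s + σ • W)ᵀ * (U * s + σ • W) = s * s + E := by
    have e1 : W * (U * s) = 0 := by rw [hUs, ← mul_assoc, Ws, zero_mul]
    have e2 : U * s * (U * s) = -(s * s) := by
      rw [mul_assoc, ← mul_assoc s, ← hUs, ← mul_assoc, ← mul_assoc, hUU]
      simp
    have e3 : U * s * W = 0 := by rw [mul_assoc, sW, mul_zero]
    rw [Jt]
    simp only [neg_mul, add_mul, mul_add, mul_smul_comm, smul_mul_assoc, e1, e2, e3, WW, smul_zero,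
      add_zero, zero_add, smul_neg, smul_smul, hσ, one_smul, neg_add, neg_neg, neg_zero]
  refine ⟨U * s + σ • W, T0 + δ • E, Jt, hT.add ((gx_psd Et EE).smul hδ), ?_, by rw [JT, TJ],
    by rw [JT, hW], ?_⟩
  · rw [JJ]
    refine gx_psd (by simp [hs, Et]) ?_
    have e1 : s * s * E = 0 := by rw [mul_assoc, sE, mul_zero]
    have e2 : E * (s * s) = 0 := by rw [← mul_assoc, Es, zero_mul]
    simp only [sub_mul, mul_sub, one_mul, mul_one, add_mul, mul_add, hs4, e1, e2, EE]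
    abel
  · rw [trace_add, trace_smul, hE, trace_add, trace_vecMulVec, trace_vecMulVec, he, hχ,
      smul_eq_mul]
    ring

/-- the weights of three commuting involutions -/
theorem gx_three {A B C : M16} (hA : Aᵀ = A) (hB : Bᵀ = B) (hC : Cᵀ = C) (AA : A * A = 1)
    (BB : B * B = 1) (CC : C * C = 1) (BA : B * A = A * B) (CA : C * A = A * C)
    (CB : C * B = B * C) (tA : A.trace = 0) (tB : B.trace = 0) (tC : C.trace = 0)
    (tAB : (A * B).trace = 0) (tAC : (A * C).trace = 0) (tBC : (B * C).trace = 0)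
    (tABC : (A * (B * C)).trace = 0) :
    ∃ s T0 : M16, sᵀ = s ∧ s * s * (s * s) = s * s ∧ T0.PosSemidef ∧ s * T0 = T0 * s ∧
      s * T0 = (1 / 2 : ℝ) • ((6 : ℝ) • (1 : M16) + (5 : ℝ) • A - (6 : ℝ) • B - (5 : ℝ) • C) ∧
      T0.trace = 68 ∧
      (∀ v : R16, A *ᵥ v = v → B *ᵥ v = v → C *ᵥ v = v → s *ᵥ v = 0 ∧ T0 *ᵥ v = 0) ∧
      ∀ U : M16, U * A = A * U → U * B = B * U → U * C = C * U →
        U * s = s * U ∧ U * T0 = T0 * U := by
  have AA' : ∀ X, A * (A * X) = X := fun X => by rw [← mul_assoc, AA, one_mul]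
  have BB' : ∀ X, B * (B * X) = X := fun X => by rw [← mul_assoc, BB, one_mul]
  have CC' : ∀ X, C * (C * X) = X := fun X => by rw [← mul_assoc, CC, one_mul]
  have BA' : ∀ X, B * (A * X) = A * (B * X) := fun X => by rw [← mul_assoc, BA, mul_assoc]
  have CA' : ∀ X, C * (A * X) = A * (C * X) := fun X => by rw [← mul_assoc, CA, mul_assoc]
  have CB' : ∀ X, C * (B * X) = B * (C * X) := fun X => by rw [← mul_assoc, CB, mul_assoc]
  have p1 : ((1 / 4 : ℝ) • (1 + B - A * C - A * (B * C))).PosSemidef := by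
    refine gx_psd ?_ ?_
    · simp only [transpose_smul, transpose_sub, transpose_add, transpose_mul, transpose_one, hA, hB,
        hC, mul_assoc, CA, CB', BA, CA']
      rw [CB]
    · simp only [smul_mul_assoc, mul_smul_comm, mul_add, add_mul, mul_sub, sub_mul, mul_one,
        one_mul, mul_assoc, AA, BB, CC, AA', BB', CC', BA, CA, CB, BA', CA', CB']
      module
  have p2 : ((1 / 2 : ℝ) • (1 - B)).PosSemidef := by
    refine gx_psd (by simp [hB]) ?_
    simp only [smul_mul_assoc, mul_smul_comm, mul_sub, sub_mul, mul_one, one_mul, BB]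
    module
  have p3 : ((1 / 4 : ℝ) • (1 + A - B - A * B)).PosSemidef := by
    refine gx_psd (by simp [hA, hB, BA]) ?_
    simp only [smul_mul_assoc, mul_smul_comm, mul_add, add_mul, mul_sub, sub_mul, mul_one,
      one_mul, mul_assoc, AA, BB, AA', BB', BA, BA']
    module
  have p4 : ((1 / 4 : ℝ) • (1 - C - B + B * C)).PosSemidef := by
    refine gx_psd (by simp [hC, hB, CB]) ?_
    simp only [smul_mul_assoc, mul_smul_comm, mul_add, add_mul, mul_sub, sub_mul, mul_one,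
      one_mul, mul_assoc, BB, CC, BB', CC', CB, CB']
    module
  refine ⟨(1 / 4 : ℝ) • (A - C + A * B - B * C) + (1 / 2 : ℝ) • (1 - B),
    (5 : ℝ) • ((1 / 4 : ℝ) • (1 + B - A * C - A * (B * C))) + (1 / 2 : ℝ) • (1 - B) +
      (5 : ℝ) • ((1 / 4 : ℝ) • (1 + A - B - A * B)) + (5 : ℝ) • ((1 / 4 : ℝ) • (1 - C - B + B * C)),
    by simp [hA, hB, hC, BA, CB], ?_,
    (((p1.smul (by norm_num)).add p2).add (p3.smul (by norm_num))).add (p4.smul (by norm_num)),
    ?_, ?_, ?_, fun v h1 h2 h3 => ⟨?_, ?_⟩, fun U h1 h2 h3 => ?_⟩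
  · have : ((1 / 4 : ℝ) • (A - C + A * B - B * C) + (1 / 2 : ℝ) • (1 - B)) *
        ((1 / 4 : ℝ) • (A - C + A * B - B * C) + (1 / 2 : ℝ) • (1 - B)) =
        (1 / 4 : ℝ) • ((3 : ℝ) • (1 : M16) - B - A * C - A * (B * C)) := by
      simp only [smul_mul_assoc, mul_smul_comm, mul_add, add_mul, mul_sub, sub_mul, mul_one,
        one_mul, mul_assoc, AA, BB, CC, AA', BB', CC', BA, CA, CB, BA', CA', CB']
      module
    rw [this]
    simp only [smul_mul_assoc, mul_smul_comm, mul_add, add_mul, mul_sub, sub_mul, mul_one,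
      one_mul, mul_assoc, AA, BB, CC, AA', BB', CC', BA, CA, CB, BA', CA', CB']
    module
  · simp only [smul_mul_assoc, mul_smul_comm, mul_add, add_mul, mul_sub, sub_mul, mul_one,
      one_mul, mul_assoc, AA, BB, CC, AA', BB', CC', BA, CA, CB, BA', CA', CB']
    module
  · simp only [smul_mul_assoc, mul_smul_comm, mul_add, add_mul, mul_sub, sub_mul, mul_one,
      one_mul, mul_assoc, AA, BB, CC, AA', BB', CC', BA, CA, CB, BA', CA', CB']
    module
  · simp only [trace_add, trace_sub, trace_smul, trace_one, tA, tB, tC, tAB, tAC, tBC, tABC,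
      Fintype.card_fin, smul_eq_mul]
    norm_num
  · simp only [add_mulVec, sub_mulVec, smul_mulVec, one_mulVec, ← mulVec_mulVec, h1, h2, h3]
    module
  · simp only [add_mulVec, sub_mulVec, smul_mulVec, one_mulVec, ← mulVec_mulVec, h1, h2, h3]
    module
  · have h1' : ∀ X, U * (A * X) = A * (U * X) := fun X => by rw [← mul_assoc, h1, mul_assoc]
    have h2' : ∀ X, U * (B * X) = B * (U * X) := fun X => by rw [← mul_assoc, h2, mul_assoc]
    constructor <;>
    simp only [smul_mul_assoc, mul_smul_comm, mul_add, add_mul, mul_sub, sub_mul, mul_one,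
      one_mul, mul_assoc, h1, h2, h3, h1', h2']

end Vale.Agent.P353
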