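import Vale.Agent.P353.AId1

open MeasureTheory NormedSpace
open Complex (I)
open scoped InnerProductSpace ContDiff

noncomputable section
namespace Vale.Agent.P353
variable {V F : Type} [NormedAddCommGroup V] [InnerProductSpace ℝ V] [FiniteDimensional ℝ V]
  [MeasurableSpace V] [BorelSpace V]
  [NormedAddCommGroup F] [InnerProductSpace ℂ F] [CompleteSpace F]

/-- the matrices `a γ^k A^ + b A^ γ^k` -/
def hhW (G : Gam) (A : M9) (k : Fin 9) : M16 :=
  (-5 / 112 : ℝ) • (G.g k * G.hat A) + (9 / 112 : ℝ) • (G.hat A * G.g k)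

def hhT (G : Gam) (A : M9) (β : Fin 16) : Matrix (Fin 16) (Fin 9) ℝ :=
  Matrix.of fun s k => hhW G A k s β

def hhP (G : Gam) (β : Fin 16) : Matrix (Fin 16) (Fin 9) ℝ := Matrix.of fun s i => G.g i s β

theorem hh_tr (G : Gam) {A : M9} (hA : A.transpose = -A) (i k : Fin 9) :
    (G.g i * (G.g k * G.hat A)).trace = -8 * A i k ∧
      (G.g i * (G.hat A * G.g k)).trace = 8 * A i k := by
  have h0 : (G.hat A).trace = 0 := by
    have h := Matrix.trace_transpose (G.hat A)
    rw [G.hat_transpose, Matrix.trace_neg] at h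
    linarith
  have h1 : (G.g i * (G.hat A * G.g k)).trace - (G.g i * (G.g k * G.hat A)).trace = 16 * A i k := by
    rw [← Matrix.trace_sub, ← Matrix.mul_sub, G.hat_comm hA k, Matrix.mul_sum, Matrix.trace_sum]
    simp only [Matrix.mul_smul, Matrix.trace_smul, G.tr2, smul_eq_mul, mul_ite, mul_zero]
    rw [Finset.sum_ite_eq]
    simp [mul_comm]
  have h2 : (G.g i * (G.hat A * G.g k)).trace = -(G.g i * (G.g k * G.hat A)).trace := by
    rw [← Matrix.mul_assoc, Matrix.trace_mul_cycle, G.sw k i, Matrix.sub_mul, Matrix.trace_sub,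
      Matrix.smul_mul, Matrix.one_mul, Matrix.trace_smul, h0, Matrix.mul_assoc]
    simp
  constructor <;> linarith

theorem hh_one (G : Gam) {A : M9} (hA : A.transpose = -A) :
    ∑ β, (hhP G β).transpose * hhT G A β = A := by
  ext i k
  have h : (∑ β, (hhP G β).transpose * hhT G A β) i k = (G.g i * hhW G A k).trace := by
    simp only [Matrix.sum_apply, Matrix.mul_apply, Matrix.transpose_apply, hhP, hhT,
      Matrix.of_apply, Matrix.trace, Matrix.diag_apply]
    refine Finset.sum_congr rfl fun β _ => Finset.sum_congr rfl fun s _ => ?_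
    rw [(G.symm i).apply s β]
  rw [h, hhW, Matrix.mul_add, Matrix.mul_smul, Matrix.mul_smul, Matrix.trace_add,
    Matrix.trace_smul, Matrix.trace_smul, (hh_tr G hA i k).1, (hh_tr G hA i k).2]
  simp only [smul_eq_mul]
  ring

theorem hh_two (G : Gam) (A : M9) :
    ∑ β, hhP G β * (hhT G A β).transpose = (-1 / 2 : ℝ) • G.hat A := by
  have h : ∑ β, hhP G β * (hhT G A β).transpose = ∑ k, G.g k * (hhW G A k).transpose := by
    ext s s'
    simp only [Matrix.sum_apply, Matrix.mul_apply, Matrix.transpose_apply, hhP, hhT,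
      Matrix.of_apply]
    exact Finset.sum_comm
  have h2 : ∀ k, G.g k * (hhW G A k).transpose =
      (5 / 112 : ℝ) • (G.g k * G.hat A * G.g k) - (9 / 112 : ℝ) • G.hat A := by
    intro k
    simp only [hhW, Matrix.transpose_add, Matrix.transpose_smul, Matrix.transpose_mul,
      G.hat_transpose, (G.symm k).eq, Matrix.mul_add, Matrix.mul_smul, Matrix.neg_mul,
      Matrix.mul_neg, ← Matrix.mul_assoc, G.sq, Matrix.one_mul]
    module
  rw [h]
  simp only [h2, Finset.sum_sub_distrib, ← Finset.smul_sum, G.sum_conj_hat, Finset.sum_const,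
    Finset.card_univ, Fintype.card_fin]
  module

theorem hh_five (G : Gam) (A : M9) (i j k : Fin 9) :
    (G.g j * G.g i * hhW G A k).trace = 0 := by
  simp only [hhW, Gam.hat, Gam.g2, Matrix.mul_add, Matrix.mul_smul, Matrix.smul_mul,
    Matrix.mul_sum, Matrix.sum_mul, Matrix.mul_sub, Matrix.sub_mul, Matrix.trace_add,
    Matrix.trace_smul, Matrix.trace_sum, Matrix.trace_sub, ← Matrix.mul_assoc, G.tr5,
    sub_self, smul_zero, Finset.sum_const_zero, add_zero]

section aux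
omit [MeasurableSpace V] [BorelSpace V]

omit [FiniteDimensional ℝ V] in
theorem hh_psi (G : Gam) (β : Fin 16) :
    (G.psi (Pi.single β 1) : EE V →L[ℝ] SS V) = mat (hhP G β) := by
  simp only [Gam.psi, hhP, Matrix.mulVec_single_one]
  rfl

theorem hh_adj {n m : ℕ} (M : Matrix (Fin n) (Fin m) ℝ) :
    (mat M : PiLp 2 (fun _ : Fin m => V) →L[ℝ] _).adjoint = mat M.transpose := by
  symm
  rw [ContinuousLinearMap.eq_adjoint_iff]
  intro u v
  simp only [PiLp.inner_apply, mat_apply, sum_inner, inner_sum, real_inner_smul_left,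
    real_inner_smul_right, Matrix.transpose_apply]
  exact Finset.sum_comm

omit [FiniteDimensional ℝ V] in
theorem hh_sum {n m : ℕ} {ι : Type} [Fintype ι] (M : ι → Matrix (Fin n) (Fin m) ℝ) :
    ∑ β, (mat (M β) : PiLp 2 (fun _ : Fin m => V) →L[ℝ] _) = mat (∑ β, M β) := by
  ext x i
  simp only [sum_apply, WithLp.ofLp_sum, Finset.sum_apply, mat_apply,
    Matrix.sum_apply, Finset.sum_smul]
  exact Finset.sum_comm

omit [FiniteDimensional ℝ V] in
theorem hh_three (G : Gam) (A : M9) (L : CL V) (x : EE V) :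
    ∑ β, ⟪s0 G L (Pi.single β 1) x, mat (hhT G A β) x⟫_ℝ = 0 := by
  have h1 : ∀ β, (mat (hhT G A β) x : SS V) =
      ∑ k, tens ((hhW G A k).mulVec (Pi.single β 1)) (x k) := by
    intro β
    ext s
    simp only [mat_apply, hhT, Matrix.of_apply, WithLp.ofLp_sum, Finset.sum_apply, tens_apply,
      Matrix.mulVec_single_one, Matrix.col_apply]
  have h2 : ∀ i j k, ∑ β : Fin 16, (G.g i).mulVec ((G.g j).mulVec (Pi.single β 1)) ⬝ᵥ
      (hhW G A k).mulVec (Pi.single β 1) = 0 := by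
    intro i j k
    rw [← hh_five G A i j k]
    refine Finset.sum_congr rfl fun β _ => ?_
    rw [amod0_sym, amod0_sym, Matrix.mulVec_mulVec, Matrix.mulVec_mulVec, single_one_dotProduct,
      Matrix.mulVec_single_one, Matrix.col_apply, Matrix.diag_apply]
  simp only [h1, amod0_s0, real_inner_smul_left, sum_inner, inner_sum, amod0_tens,
    ← Finset.mul_sum]
  rw [Finset.sum_comm]
  refine mul_eq_zero_of_right _ (Finset.sum_eq_zero fun i _ => ?_)
  rw [Finset.sum_comm]
  refine Finset.sum_eq_zero fun j _ => ?_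
  rw [Finset.sum_comm]
  refine Finset.sum_eq_zero fun k _ => ?_
  rw [← Finset.sum_mul, h2, zero_mul]

theorem hh_point (G : Gam) {A : M9} (hA : A.transpose = -A) (M : Mod V F) (lam : ℝ)
    (φ : EE V → F) (x : EE V) : M.J G A φ x = ∑ β,
      ((-I) • fderiv ℝ φ x ((G.psi (Pi.single β 1)).adjoint (mat (hhT G A β) x)) +
        (-I) • (∑ k, M.C.th (G.psi (Pi.single β 1) (stdOrthonormalBasis ℝ (EE V) k)) *
          M.C.th (mat (hhT G A β) (stdOrthonormalBasis ℝ (EE V) k))) (φ x) +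
        ((⟪lam • s0 G M.L (Pi.single β 1) x, mat (hhT G A β) x⟫_ℝ : ℝ) : ℂ) • φ x) := by
  have e1 : ∑ β, (G.psi (Pi.single β 1)).adjoint (mat (hhT G A β) x : SS V) = mat A x := by
    simp only [hh_psi, hh_adj, ← ContinuousLinearMap.comp_apply, ← mat_mul]
    rw [← sum_apply, hh_sum, hh_one G hA]
  obtain ⟨σ, hσ⟩ := M.C.spin_clm
  have e2 : ∑ β, (∑ k, M.C.th (G.psi (Pi.single β 1) (stdOrthonormalBasis ℝ (EE V) k)) *
      M.C.th (mat (hhT G A β) (stdOrthonormalBasis ℝ (EE V) k))) =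
        -M.C.spin (mat (G.hat A)) := by
    have h : ∀ β, (∑ k, M.C.th (G.psi (Pi.single β 1) (stdOrthonormalBasis ℝ (EE V) k)) *
        M.C.th (mat (hhT G A β) (stdOrthonormalBasis ℝ (EE V) k))) =
          (2 : ℝ) • σ (mat (hhP G β * (hhT G A β).transpose)) := by
      intro β
      rw [mat_mul, ← hh_adj, ← hh_psi, hσ, af1_spin, smul_smul]
      norm_num
    have h' : (mat ((-1 / 2 : ℝ) • G.hat A) : SS V →L[ℝ] SS V) = (-1 / 2 : ℝ) • mat (G.hat A) := by
      ext y i
      simp [Finset.smul_sum, smul_smul]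
    simp only [h]
    rw [← Finset.smul_sum, ← map_sum, hh_sum, hh_two, h', map_smul, hσ, smul_smul]
    norm_num
  have e3 : ∑ β, ((⟪lam • s0 G M.L (Pi.single β 1) x, mat (hhT G A β) x⟫_ℝ : ℝ) : ℂ) = 0 := by
    rw [← Complex.ofReal_sum]
    simp only [real_inner_smul_left]
    rw [← Finset.mul_sum, hh_three, mul_zero, Complex.ofReal_zero]
  rw [Finset.sum_add_distrib, Finset.sum_add_distrib, ← Finset.smul_sum, ← Finset.smul_sum,
    ← Finset.sum_smul, e3, ← map_sum, e1, ← sum_apply, e2, Mod.J]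
  simp

end aux

/-- Hasler-Hoppe identity: with `t β x = ∑ k ((a γ^k A^ + b A^ γ^k) e_β) ⊗ x_k`,
`a = -5/112`, `b = 9/112`, the angular momentum is `∑ β {Q_β, θ (t β x)}`. -/
theorem Mod.HH (G : Gam) {A : M9} (hA : A.transpose = -A) (M : Mod V F) :
    ∃ t : Fin 16 → EE V →L[ℝ] SS V, ∀ (lam : ℝ) (φ χ : EE V → F), Tst φ → Tst χ →
      ∫ x, ⟪χ x, M.J G A φ x⟫_ℂ = ∑ β,
        ((∫ x, ⟪M.Q G (Pi.single β 1) lam χ x, M.C.th (t β x) (φ x)⟫_ℂ) +
          ∫ x, ⟪M.C.th (t β x) (χ x), M.Q G (Pi.single β 1) lam φ x⟫_ℂ) := by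
  refine ⟨fun β => mat (hhT G A β), fun lam φ χ h h' => ?_⟩
  have hs : ∀ β : Fin 16, ContDiff ℝ ∞ fun x : EE V => lam • s0 G M.L (Pi.single β 1) x :=
    fun β => (contDiff_s0 G M.L _).const_smul lam
  have key := fun β : Fin 16 => dirac_anticomm M.C (G.psi (Pi.single β 1)) (hs β)
    (mat (hhT G A β) : EE V →L[ℝ] SS V).contDiff h h'
  simp only [ContinuousLinearMap.fderiv] at key
  simp only [Mod.Q, key]
  rw [← integral_finsetSum]
  · refine integral_congr_ae (Filter.Eventually.of_forall fun x => ?_)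
    simp only [hh_point G hA M lam φ x, inner_sum]
  · intro β _
    have c1 := h.continuous
    have c2 := h'.continuous
    have c3 : Continuous (fderiv ℝ φ) := h.1.continuous_fderiv (by simp)
    have c4 := (hs β).continuous
    refine h'.int_of (Continuous.continuousOn ?_) fun x hx => ?_
    · refine c2.inner ((Continuous.add ?_ ?_).add ?_)
      · exact (c3.clm_apply (by fun_prop)).const_smul _
      · exact ((ContinuousLinearMap.continuous _).comp c1).const_smul _
      · exact (Complex.continuous_ofReal.comp (c4.inner (by fun_prop))).smul c1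
    · rw [image_eq_zero_of_notMem_tsupport hx, inner_zero_left]

theorem hh_cs {f g : EE V → F} (hf : Tst f) (hg : Tst g) {s : ℝ} (hs : 0 < s) :
    ‖∫ x, ⟪f x, g x⟫_ℂ‖ ≤ s / 2 * n2 f + 1 / (2 * s) * n2 g := by
  have i1 : Integrable fun x => ‖f x‖ ^ 2 := by
    simpa using hf.int_wt (w := fun _ => 1) continuousOn_const
  have i2 : Integrable fun x => ‖g x‖ ^ 2 := by
    simpa using hg.int_wt (w := fun _ => 1) continuousOn_const
  rw [n2, n2, ← integral_const_mul, ← integral_const_mul,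
    ← integral_add (i1.const_mul _) (i2.const_mul _)]
  refine norm_integral_le_of_norm_le ((i1.const_mul _).add (i2.const_mul _))
    (Filter.Eventually.of_forall fun x => (norm_inner_le_norm _ _).trans ?_)
  have h : s / 2 * ‖f x‖ ^ 2 + 1 / (2 * s) * ‖g x‖ ^ 2 - ‖f x‖ * ‖g x‖ =
      1 / (2 * s) * (s * ‖f x‖ - ‖g x‖) ^ 2 := by
    field_simp
    ring
  have h2 : 0 ≤ 1 / (2 * s) * (s * ‖f x‖ - ‖g x‖) ^ 2 := by positivity
  linarith

theorem Mod.J_bound (G : Gam) {A : M9} (hA : A.transpose = -A) (M : Mod V F) :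
    ∃ K : ℝ, 0 < K ∧ ∀ (lam : ℝ) (φ : EE V → F), Tst φ → ∀ t : ℝ, 0 < t →
      |∫ x, (⟪φ x, M.J G A φ x⟫_ℂ).re| ≤
        t * M.q0 G lam φ + K / t * wt (fun x => ‖x‖ ^ 2) φ := by
  obtain ⟨T, hT⟩ := M.HH G hA
  refine ⟨16 * ∑ β, ‖T β‖ ^ 2 + 1, by positivity, fun lam φ h t ht => ?_⟩
  have c1 := h.continuous
  have c3 : Continuous (fderiv ℝ φ) := h.1.continuous_fderiv (by simp)
  have i0 : Integrable fun x => ⟪φ x, M.J G A φ x⟫_ℂ := by
    refine h.int_of (Continuous.continuousOn ?_) fun x hx => ?_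
    · refine c1.inner (Continuous.add ?_ ?_)
      · exact (c3.clm_apply (by fun_prop)).const_smul _
      · exact ((ContinuousLinearMap.continuous _).comp c1).const_smul _
    · rw [image_eq_zero_of_notMem_tsupport hx, inner_zero_left]
  have e0 : ∫ x, (⟪φ x, M.J G A φ x⟫_ℂ).re = (∫ x, ⟪φ x, M.J G A φ x⟫_ℂ).re :=
    integral_re i0
  have hw : 0 ≤ wt (fun x : EE V => ‖x‖ ^ 2) φ := integral_nonneg fun x => by positivity
  have hQ : ∀ β : Fin 16, Tst (M.Q G (Pi.single β 1) lam φ) := fun β =>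
    h.dirac M.C _ ((contDiff_s0 G M.L _).const_smul lam)
  have hθ : ∀ β, Tst fun x => M.C.th (T β x) (φ x) := fun β =>
    h.clm (M.C.th ∘L T β).contDiff
  have hn : ∀ β, n2 (fun x => M.C.th (T β x) (φ x)) ≤ ‖T β‖ ^ 2 * wt (fun x => ‖x‖ ^ 2) φ := by
    intro β
    have i1 : Integrable fun x => ‖M.C.th (T β x) (φ x)‖ ^ 2 := by
      simpa using (hθ β).int_wt (w := fun _ => 1) continuousOn_const
    rw [n2, wt, ← integral_const_mul]
    refine integral_mono i1 ((h.int_wt (by fun_prop)).const_mul _) fun x => ?_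
    have h1 : ‖T β x‖ ^ 2 ≤ (‖T β‖ * ‖x‖) ^ 2 :=
      pow_le_pow_left₀ (norm_nonneg _) ((T β).le_opNorm x) 2
    have h2 := mul_le_mul_of_nonneg_right h1 (sq_nonneg ‖φ x‖)
    have h3 : 0 ≤ ‖T β x‖ ^ 2 * ‖φ x‖ ^ 2 := by positivity
    simp only [M.C.norm_th_apply]
    nlinarith
  have ht' : 0 < t / 16 := by positivity
  have hb : ∀ β : Fin 16, ‖(∫ x, ⟪M.Q G (Pi.single β 1) lam φ x, M.C.th (T β x) (φ x)⟫_ℂ) +
      ∫ x, ⟪M.C.th (T β x) (φ x), M.Q G (Pi.single β 1) lam φ x⟫_ℂ‖ ≤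
        t / 16 * n2 (M.Q G (Pi.single β 1) lam φ) +
          16 / t * (‖T β‖ ^ 2 * wt (fun x => ‖x‖ ^ 2) φ) := by
    intro β
    have b1 := hh_cs (hQ β) (hθ β) ht'
    have b2 := hh_cs (hθ β) (hQ β) (inv_pos.2 ht')
    have b3 := mul_le_mul_of_nonneg_left (hn β) (show 0 ≤ 16 / t by positivity)
    have q1 : 1 / (2 * (t / 16)) = 16 / t / 2 := by field_simp
    have q2 : (t / 16)⁻¹ / 2 = 16 / t / 2 := by field_simp
    have q3 : 1 / (2 * (t / 16)⁻¹) = t / 16 / 2 := by field_simp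
    rw [q1] at b1
    rw [q2, q3] at b2
    refine (norm_add_le _ _).trans ?_
    linarith
  rw [e0, hT lam φ φ h h]
  refine (Complex.abs_re_le_norm _).trans ((norm_sum_le _ _).trans
    ((Finset.sum_le_sum fun β _ => hb β).trans ?_))
  rw [Finset.sum_add_distrib, ← Finset.mul_sum, ← Finset.mul_sum, ← Finset.sum_mul,
    ← M.sum_Q G lam h]
  have : 0 ≤ 1 / t * wt (fun x : EE V => ‖x‖ ^ 2) φ := by positivity
  have e : (16 * ∑ β, ‖T β‖ ^ 2 + 1) / t * wt (fun x : EE V => ‖x‖ ^ 2) φ =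
      16 / t * ((∑ β, ‖T β‖ ^ 2) * wt (fun x : EE V => ‖x‖ ^ 2) φ) +
        1 / t * wt (fun x : EE V => ‖x‖ ^ 2) φ := by ring
  rw [e]
  linarith

end Vale.Agent.P353
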