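import Vale.Agent.P353.AId1x

open MeasureTheory NormedSpace
open Complex (I)
open scoped InnerProductSpace ContDiff

noncomputable section
namespace Vale.Agent.P353

variable {V F : Type} [NormedAddCommGroup V] [InnerProductSpace ℝ V] [FiniteDimensional ℝ V]
  [MeasurableSpace V] [BorelSpace V]
  [NormedAddCommGroup F] [InnerProductSpace ℂ F] [CompleteSpace F]

theorem single_unit (β : Fin 16) : (Pi.single β 1 : R16) ⬝ᵥ Pi.single β 1 = 1 := by simp

/-- the average of the squares of the sixteen supercharges, on all test functions -/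
theorem Mod.sum_Q (M : Mod V F) (G : Gam) (lam : ℝ) {φ : EE V → F} (h : Tst φ) :
    (1 / 16) * ∑ β, n2 (M.Q G (Pi.single β 1) lam φ) = M.q0 G lam φ := by
  refine sum_dirac_sq M.C (fun β => G.psi_inner (single_unit β))
    (fun β => (contDiff_s0 G M.L _).const_smul lam) h (by simp) (fun x => ?_) (fun x => ?_)
    fun x => ?_
  · simp only [norm_smul, mul_pow, mul_left_comm (1 / 2 : ℝ), norm_s0 G M.L (single_unit _),
      Real.norm_eq_abs, sq_abs]
    simp
  · simp only [fderiv_fun_const_smul ((contDiff_s0 G M.L _).differentiable (by simp) x), skw_smul,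
      ← Finset.smul_sum, sum_skw_s0]
    module
  · simp only [map_smul, ← Finset.smul_sum, sum_adj_s0, smul_zero]

theorem Mod.q0_nonneg (M : Mod V F) (G : Gam) (lam : ℝ) {φ : EE V → F} (h : Tst φ) :
    0 ≤ M.q0 G lam φ := by
  rw [← M.sum_Q G lam h]
  exact mul_nonneg (by norm_num) (Finset.sum_nonneg fun _ _ => n2_nonneg _)

theorem Par.contDiff_s (P : Par) (L : CL V) (lam mu : ℝ) :
    ContDiff ℝ ∞ fun x => lam • s0 P.toGam L P.e x + mu • P.s1 x :=
  ((contDiff_s0 _ _ _).const_smul lam).add ((ContinuousLinearMap.contDiff _).const_smul mu)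

theorem Par.skw_s (P : Par) (L : CL V) (lam mu : ℝ) (x : EE V) :
    skw (P.psi P.e) (fderiv ℝ (fun x => lam • s0 P.toGam L P.e x + mu • P.s1 x) x) =
      ((-lam) • Gm P.toGam L x + mu • mat P.M1) + (lam * P.σ) • lift (L.br (x 8)) +
        mu • mat (P.hat Amat) := by
  rw [fderiv_comb (contDiff_s0 _ _ _), skw_add, skw_smul, skw_smul, P.skw_s0, P.skw_s1]
  module

theorem Mod.der_s (M : Mod V F) (P : Par) (lam mu : ℝ) {φ : EE V → F} (h : Tst φ) (hi : M.Inv φ)
    (x : EE V) :
    fderiv ℝ φ x ((P.psi P.e).adjoint (lam • s0 P.toGam M.L P.e x + mu • P.s1 x)) =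
      (lam * P.σ) • M.C.spin (lift (M.L.br (x 8))) (φ x) + mu • fderiv ℝ φ x (mat Amat x) := by
  have e : contr (fun j => P.e ⬝ᵥ (P.g j).mulVec P.e) x = P.σ • x 8 := by simp [P.e_dot]
  have e2 : lift (M.L.br (P.σ • x 8)) x = P.σ • lift (M.L.br (x 8)) x := by
    ext s
    simp
  rw [map_add, map_smul, map_smul, psi_adj_s0, P.psi_adj_s1, e, e2, map_add, map_smul, map_smul,
    map_smul, hi.deriv (h.1.differentiable (by simp)), smul_smul]

omit [CompleteSpace F] in
theorem re_comb (u a b c d : F) (p q : ℝ) :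
    (⟪u, I • (a + p • b + q • c)⟫_ℂ).re + (⟪u, (-I) • (p • b + q • d)⟫_ℂ).re =
      (⟪u, I • a⟫_ℂ).re + q * (⟪u, (-I) • d + I • c⟫_ℂ).re := by
  simp only [← Complex.coe_smul, inner_add_right, inner_smul_right, ← Complex.add_re,
    ← Complex.re_ofReal_mul]
  congr 1
  ring

/-- the square of the deformed supercharge on gauge invariant functions (uses `Par.fierz`) -/
theorem Mod.D_sq (M : Mod V F) (P : Par) (lam mu : ℝ) {φ : EE V → F} (h : Tst φ) (hi : M.Inv φ) :
    n2 (M.D P lam mu φ) =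
      M.q P lam mu φ + mu * ∫ x, (⟪φ x, M.J P.toGam Amat φ x⟫_ℂ).re := by
  have i4 : Integrable fun x => (⟪φ x, M.J P.toGam Amat φ x⟫_ℂ).re := by
    simp only [Mod.J, inner_add_right, Complex.add_re]
    exact (h.int_der (mat Amat : EE V →L[ℝ] EE V).continuous).add
      (h.int_opf (B := fun _ => I • M.C.spin (mat (P.hat Amat))) continuousOn_const)
  rw [← integral_const_mul]
  refine dirac_sq_of M.C (P.psi_inner P.he) (P.contDiff_s M.L lam mu) h (M.q_cont P lam mu).2
    (i4.const_mul mu) fun x => ?_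
  rw [P.skw_s, M.der_s P lam mu h hi, M.C.spin_add, M.C.spin_add _ ((lam * P.σ) • _),
    M.C.spin_smul (lam * P.σ), M.C.spin_smul mu, add_apply, add_apply, smul_apply, smul_apply,
    smul_apply, Mod.J]
  exact re_comb _ _ _ _ _ _ _

theorem Mod.D_sq' (M : Mod V F) (P : Par) (lam mu : ℝ) {φ : EE V → F} (h : Tst φ) (hi : M.Inv φ)
    (hk : M.RInv P.toGam Amat φ) : n2 (M.D P lam mu φ) = M.q P lam mu φ := by
  simp [M.D_sq P lam mu h hi, hk.J_eq (h.1.differentiable (by simp))]

end Vale.Agent.P353
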