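import Vale.Agent.P353.AMod0
import Vale.Agent.P353.AForm1

open MeasureTheory NormedSpace
open Complex (I)
open scoped InnerProductSpace ContDiff

noncomputable section
namespace Vale.Agent.P353

section gen
variable {S E F : Type} [NormedAddCommGroup S] [InnerProductSpace ℝ S] [FiniteDimensional ℝ S]
  [NormedAddCommGroup E] [InnerProductSpace ℝ E] [FiniteDimensional ℝ E]
  [NormedAddCommGroup F] [InnerProductSpace ℂ F] [CompleteSpace F]

/-- the skew operator entering the square of a Dirac operator -/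
def skw (ψ : E →L[ℝ] S) (T : E →L[ℝ] S) : S →L[ℝ] S :=
  T ∘L ψ.adjoint - (T ∘L ψ.adjoint).adjoint

theorem skw_add (ψ T U : E →L[ℝ] S) : skw ψ (T + U) = skw ψ T + skw ψ U := by
  simp only [skw, ContinuousLinearMap.add_comp, map_add]
  abel

theorem skw_smul (ψ T : E →L[ℝ] S) (c : ℝ) : skw ψ (c • T) = c • skw ψ T := by
  simp only [skw, ContinuousLinearMap.smul_comp, map_smulₛₗ, smul_sub, conj_trivial]

theorem cont_skw (C : Cl S F) (ψ : E →L[ℝ] S) {s : E → S} (hs : ContDiff ℝ ∞ s) :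
    Continuous fun x => I • C.spin (skw ψ (fderiv ℝ s x)) := by
  obtain ⟨σ, hσ⟩ := C.spin_clm
  have h1 : Continuous fun x => fderiv ℝ s x ∘L ψ.adjoint :=
    (hs.continuous_fderiv (by simp)).clm_comp continuous_const
  simp only [← hσ, skw]
  exact (σ.continuous.comp (h1.sub
    (ContinuousLinearMap.adjoint.continuous.comp h1))).const_smul I

omit [CompleteSpace F] in
theorem re_inner_rsmul (c : ℝ) (B : F →L[ℂ] F) (u v : F) :
    (⟪u, (c • B) v⟫_ℂ).re = c * (⟪u, B v⟫_ℂ).re := by
  rw [smul_apply, ← Complex.coe_smul, inner_smul_right, Complex.re_ofReal_mul]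

omit [FiniteDimensional ℝ S] [FiniteDimensional ℝ E] in
theorem fderiv_comb {s : E → S} (hs : ContDiff ℝ ∞ s) (T : E →L[ℝ] S) (a b : ℝ) (x : E) :
    fderiv ℝ (fun x => a • s x + b • T x) x = a • fderiv ℝ s x + b • T :=
  (((hs.differentiable (by simp) x).hasFDerivAt.const_smul a).add
    (T.hasFDerivAt.const_smul b)).fderiv

variable [MeasurableSpace E] [BorelSpace E]

omit [CompleteSpace F] in
theorem Tst.int_der {φ : E → F} (h : Tst φ) {v : E → E} (hv : Continuous v) :
    Integrable fun x => (⟪φ x, (-I) • fderiv ℝ φ x (v x)⟫_ℂ).re := by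
  refine Continuous.integrable_of_hasCompactSupport ?_ (h.2.mono fun x hx => ?_)
  · exact Complex.continuous_re.comp (h.1.continuous.inner
      (((h.1.continuous_fderiv (by simp)).clm_apply hv).const_smul _))
  · intro h0
    exact hx (by simp [h0])

/-- the mean of the squares of a family of Dirac operators -/
theorem sum_dirac_sq {ι : Type} [Fintype ι] (C : Cl S F) {ψ : ι → E →L[ℝ] S}
    (hψ : ∀ i u v, ⟪ψ i u, ψ i v⟫_ℝ = ⟪u, v⟫_ℝ) {s : ι → E → S} (hs : ∀ i, ContDiff ℝ ∞ (s i))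
    {φ : E → F} (h : Tst φ) {c : ℝ} (hc : c * Fintype.card ι = 1) {w : E → ℝ}
    {T : E → S →L[ℝ] S} (hw : ∀ x, c * ∑ i, (1 / 2) * ‖s i x‖ ^ 2 = w x)
    (hT : ∀ x, c • ∑ i, skw (ψ i) (fderiv ℝ (s i) x) = T x)
    (hv : ∀ x, ∑ i, (ψ i).adjoint (s i x) = 0) :
    c * ∑ i, n2 (C.dirac (ψ i) (s i) φ) = sch w (fun x => I • C.spin (T x)) φ := by
  obtain ⟨σ, hσ⟩ := C.spin_clm
  have e1 : c * ∑ i, wt (fun x => (1 / 2) * ‖s i x‖ ^ 2) φ = wt w φ := by
    simp only [wt]
    rw [← integral_finsetSum _ fun i _ => h.int_wt (w := fun x => (1 / 2) * ‖s i x‖ ^ 2)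
      (continuous_const.mul ((hs i).continuous.norm.pow 2)).continuousOn, ← integral_const_mul]
    simp only [← hw, ← Finset.sum_mul, mul_assoc c]
  have e2 : c * ∑ i, opf (fun x => I • C.spin (skw (ψ i) (fderiv ℝ (s i) x))) φ =
      opf (fun x => I • C.spin (T x)) φ := by
    simp only [opf]
    rw [← integral_finsetSum _ fun i _ => h.int_opf (cont_skw C (ψ i) (hs i)).continuousOn,
      ← integral_const_mul]
    refine integral_congr_ae (.of_forall fun x => ?_)
    simp only [← hT, ← hσ, map_smul, map_sum, smul_comm I c, Finset.smul_sum,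
      sum_apply, inner_sum, Complex.re_sum, Finset.mul_sum]
    refine Finset.sum_congr rfl fun i _ => ?_
    rw [re_inner_rsmul]
  have e3 : ∑ i, ∫ x, (⟪φ x, (-I) • fderiv ℝ φ x ((ψ i).adjoint (s i x))⟫_ℂ).re = 0 := by
    rw [← integral_finsetSum _ fun i _ => h.int_der (v := fun x => (ψ i).adjoint (s i x))
      ((ψ i).adjoint.continuous.comp (hs i).continuous)]
    simp only [← Complex.re_sum, ← inner_sum, ← Finset.smul_sum, ← map_sum, hv]
    simp
  simp only [dirac_sq C (hψ _) (hs _) h, Finset.sum_add_distrib, e3, sch, ← e1, ← e2, skw,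
    Finset.sum_const, Finset.card_univ, nsmul_eq_mul]
  linear_combination kin φ * hc

theorem dirac_sq_of (C : Cl S F) {ψ : E →L[ℝ] S} (hψ : ∀ u v, ⟪ψ u, ψ v⟫_ℝ = ⟪u, v⟫_ℝ)
    {s : E → S} (hs : ContDiff ℝ ∞ s) {φ : E → F} (h : Tst φ) {B : E → F →L[ℂ] F}
    (hB : Continuous B) {r : E → ℝ} (hr : Integrable r)
    (e : ∀ x, (⟪φ x, I • C.spin (skw ψ (fderiv ℝ s x)) (φ x)⟫_ℂ).re +
      (⟪φ x, (-I) • fderiv ℝ φ x (ψ.adjoint (s x))⟫_ℂ).re = (⟪φ x, B x (φ x)⟫_ℂ).re + r x) :
    n2 (C.dirac ψ s φ) = sch (fun x => (1 / 2) * ‖s x‖ ^ 2) B φ + ∫ x, r x := by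
  rw [dirac_sq C hψ hs h, sch, sch, add_assoc, add_assoc _ (opf _ _)]
  exact congrArg _ ((integral_add (h.int_opf (cont_skw C ψ hs).continuousOn)
    (h.int_der (ψ.adjoint.continuous.comp hs.continuous))).symm.trans
    ((integral_congr_ae (.of_forall e)).trans (integral_add (h.int_opf hB.continuousOn) hr)))

end gen

section alg
variable {V : Type} [NormedAddCommGroup V] [InnerProductSpace ℝ V]

/-- `mat` as a linear map -/
def matL (V : Type) [NormedAddCommGroup V] [InnerProductSpace ℝ V] (n m : ℕ) :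
    Matrix (Fin n) (Fin m) ℝ →ₗ[ℝ]
      (PiLp 2 (fun _ : Fin m => V) →L[ℝ] PiLp 2 (fun _ : Fin n => V)) where
  toFun := mat
  map_add' M N := by
    ext x i
    simp [add_smul, Finset.sum_add_distrib]
  map_smul' c M := by
    ext x i
    simp [Finset.smul_sum, mul_smul]

theorem matL_apply {n m : ℕ} (M : Matrix (Fin n) (Fin m) ℝ) : matL V n m M = mat M := rfl

theorem mat_one' {n : ℕ} : (mat (1 : Matrix (Fin n) (Fin n) ℝ) :
    PiLp 2 (fun _ : Fin n => V) →L[ℝ] _) = ContinuousLinearMap.id ℝ _ := by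
  ext x i
  simp [Matrix.one_apply]

variable [FiniteDimensional ℝ V]

theorem mat_adjoint {n m : ℕ} (M : Matrix (Fin n) (Fin m) ℝ) :
    (mat M : PiLp 2 (fun _ : Fin m => V) →L[ℝ] _).adjoint = mat M.transpose := by
  symm
  rw [ContinuousLinearMap.eq_adjoint_iff]
  intro x y
  simp only [PiLp.inner_apply, mat_apply, sum_inner, inner_sum, real_inner_smul_left,
    real_inner_smul_right, Matrix.transpose_apply]
  exact Finset.sum_comm

theorem lift_adjoint {n : ℕ} (L : CL V) (ξ : V) :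
    (lift (n := n) (L.br ξ)).adjoint = -lift (L.br ξ) := by
  symm
  rw [ContinuousLinearMap.eq_adjoint_iff]
  intro x y
  simp [PiLp.inner_apply, L.inv]

theorem skw_mat {n m : ℕ} (A B : Matrix (Fin n) (Fin m) ℝ) :
    skw (mat A : PiLp 2 (fun _ : Fin m => V) →L[ℝ] _) (mat B) =
      mat (B * A.transpose - (B * A.transpose).transpose) := by
  rw [skw, mat_adjoint, ← mat_mul, mat_adjoint]
  exact ((matL V n n).map_sub _ _).symm

/-- the symmetric matrices entering the square of a supercharge -/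
def Gam.fz (G : Gam) (e : R16) (j : Fin 9) : M16 :=
  ∑ k, (Matrix.vecMulVec ((G.g2 k j).mulVec e) ((G.g k).mulVec e) +
    Matrix.vecMulVec ((G.g k).mulVec e) ((G.g2 k j).mulVec e))

variable [MeasurableSpace V] [BorelSpace V]

theorem skw_s0 (G : Gam) (L : CL V) (e : R16) (x : EE V) :
    skw (G.psi e) (fderiv ℝ (s0 G L e) x) = ∑ j, mat (G.fz e j) ∘L lift (L.br (x j)) := by
  have e1 : fderiv ℝ (s0 G L e) x ∘L (G.psi e).adjoint = ∑ j, mat
      (∑ k, Matrix.vecMulVec ((G.g2 k j).mulVec e) ((G.g k).mulVec e)) ∘L lift (L.br (x j)) := by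
    ext u s
    rw [ContinuousLinearMap.comp_apply, fderiv_s0, Gam.psi, mat_adjoint]
    simp only [PiLp.neg_apply, WithLp.ofLp_sum, Finset.sum_apply, tens_apply, mat_apply,
      sum_apply, ContinuousLinearMap.comp_apply, lift_apply, map_sum, PiLp.smul_apply,
      map_smul, Matrix.transpose_apply, Matrix.of_apply, Matrix.sum_apply,
      Matrix.vecMulVec_apply, Finset.sum_smul, ← Finset.sum_neg_distrib]
    refine Finset.sum_congr rfl fun j _ => ?_
    rw [Finset.sum_comm]
    refine Finset.sum_congr rfl fun t _ => Finset.sum_congr rfl fun k _ => ?_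
    rw [G.g2_swap j k, Matrix.neg_mulVec, Pi.neg_apply, neg_mul, neg_smul, mul_smul, smul_comm]
  rw [skw, e1, map_sum, ← Finset.sum_sub_distrib]
  refine Finset.sum_congr rfl fun j _ => ?_
  rw [ContinuousLinearMap.adjoint_comp, lift_adjoint, mat_adjoint, ContinuousLinearMap.neg_comp,
    ← mat_lift, sub_neg_eq_add, ← ContinuousLinearMap.add_comp, ← matL_apply, ← matL_apply,
    ← map_add, matL_apply, Gam.fz, Finset.sum_add_distrib, Matrix.transpose_sum]
  simp only [Matrix.transpose_vecMulVec]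

theorem sum_vecMulVec (A B : M16) : ∑ β, Matrix.vecMulVec (A.mulVec (Pi.single β 1))
    (B.mulVec (Pi.single β 1)) = A * B.transpose := by
  ext s t
  simp [Matrix.sum_apply, Matrix.vecMulVec_apply, Matrix.mul_apply]

theorem Gam.sum_fz (G : Gam) (j : Fin 9) :
    ∑ β, G.fz (Pi.single β 1) j = (-16 : ℝ) • G.g j := by
  simp only [Gam.fz]
  rw [Finset.sum_comm]
  simp only [Finset.sum_add_distrib, sum_vecMulVec, (G.symm _).eq, G.g2_transpose]
  rw [← Finset.sum_add_distrib, ← Finset.add_sum_erase _ _ (Finset.mem_univ j),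
    Finset.sum_congr rfl fun k hk => show _ = (-2 : ℝ) • G.g j by
      have hk' := (Finset.mem_erase.1 hk).1
      rw [G.g2_ne hk', mul_neg, ← mul_assoc, G.sq, G.anti hk', neg_mul, mul_assoc, G.sq, one_mul,
        mul_one]
      module]
  rw [G.g2_self, Finset.sum_const, Finset.card_erase_of_mem (Finset.mem_univ j)]
  simp only [zero_mul, neg_zero, mul_zero, add_zero, zero_add, Finset.card_univ, Fintype.card_fin]
  module

theorem sum_skw_s0 (G : Gam) (L : CL V) (x : EE V) :
    ∑ β, skw (G.psi (Pi.single β 1)) (fderiv ℝ (s0 G L (Pi.single β 1)) x) =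
      (-16 : ℝ) • Gm G L x := by
  simp only [skw_s0, Gm, Finset.smul_sum]
  rw [Finset.sum_comm]
  refine Finset.sum_congr rfl fun j _ => ?_
  simp only [← matL_apply]
  rw [← ContinuousLinearMap.finsetSum_comp, ← map_sum, G.sum_fz, map_smul,
    ContinuousLinearMap.smul_comp]

theorem sum_adj_s0 (G : Gam) (L : CL V) (x : EE V) :
    ∑ β, (G.psi (Pi.single β 1)).adjoint (s0 G L (Pi.single β 1) x) = 0 := by
  ext i
  have h1 : ∀ j, ∑ β, G.g j β β = 0 := fun j => G.tr1 j
  simp only [psi_adj_s0, WithLp.ofLp_sum, Finset.sum_apply, lift_apply, contr_apply, map_sum,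
    sum_apply]
  rw [Finset.sum_comm]
  simp [← Finset.sum_smul, h1]

theorem Par.skw_s0 (P : Par) (L : CL V) (x : EE V) :
    skw (P.psi P.e) (fderiv ℝ (s0 P.toGam L P.e) x) =
      P.σ • lift (L.br (x 8)) - Gm P.toGam L x := by
  simp only [P353.skw_s0, Gam.fz, P.fierz, Gm, ← matL_apply, map_sub, map_smul,
    ContinuousLinearMap.sub_comp, Finset.sum_sub_distrib, ContinuousLinearMap.smul_comp]
  rw [Finset.sum_eq_single 8 (fun j _ hj => by ext; simp [hj]) (by simp), if_pos rfl,
    matL_apply, mat_one', ContinuousLinearMap.id_comp]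

omit [MeasurableSpace V] [BorelSpace V] in
theorem skw_psi (G : Gam) (e e' : R16) (A : M9) :
    skw (G.psi e : EE V →L[ℝ] SS V) (G.psi e' ∘L mat A) =
      mat (∑ l, ∑ k, A l k • Matrix.vecMulVec ((G.g l).mulVec e') ((G.g k).mulVec e) -
        (∑ l, ∑ k, A l k • Matrix.vecMulVec ((G.g l).mulVec e') ((G.g k).mulVec e)).transpose) := by
  have e1 : (Matrix.of fun s i => (G.g i).mulVec e' s) * A *
      (Matrix.of fun s i => (G.g i).mulVec e s).transpose =
      ∑ l, ∑ k, A l k • Matrix.vecMulVec ((G.g l).mulVec e') ((G.g k).mulVec e) := by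
    ext s t
    simp only [Matrix.mul_apply, Matrix.of_apply, Matrix.transpose_apply, Matrix.sum_apply,
      Matrix.smul_apply, Matrix.vecMulVec_apply, smul_eq_mul, Finset.sum_mul]
    rw [Finset.sum_comm]
    exact Finset.sum_congr rfl fun l _ => Finset.sum_congr rfl fun k _ => by ring
  rw [Gam.psi, Gam.psi, ← mat_mul, skw_mat, e1]

omit [MeasurableSpace V] [BorelSpace V] in
theorem Par.skw_s1 (P : Par) :
    skw (P.psi P.e : EE V →L[ℝ] SS V) P.s1 = mat P.M1 + mat (P.hat Amat) := by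
  have e1 : (tens P.χ ∘L PiLp.proj 2 (fun _ : Fin 9 => V) 8 : EE V →L[ℝ] SS V) =
      mat (Matrix.vecMulVec P.χ (Pi.single 8 1)) := by
    ext x s
    simp [Matrix.vecMulVec_apply, Pi.single_apply]
  have e2 : Matrix.vecMulVec P.χ (Pi.single (8 : Fin 9) 1) *
      (Matrix.of fun s i => (P.g i).mulVec P.e s).transpose = P.σ • Matrix.vecMulVec P.χ P.e := by
    ext s t
    simp [Matrix.mul_apply, Matrix.vecMulVec_apply, Pi.single_apply, P.h9, mul_left_comm]
  have e3 : (∑ l, ∑ k, Amat l k • Matrix.vecMulVec ((P.g l).mulVec P.e)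
      ((P.g k).mulVec P.e)).transpose = -∑ l, ∑ k, Amat l k • Matrix.vecMulVec
        ((P.g l).mulVec P.e) ((P.g k).mulVec P.e) := by
    simp only [Matrix.transpose_sum, Matrix.transpose_smul, Matrix.transpose_vecMulVec,
      ← Finset.sum_neg_distrib]
    rw [Finset.sum_comm]
    refine Finset.sum_congr rfl fun l _ => Finset.sum_congr rfl fun k _ => ?_
    rw [← neg_smul, ← Matrix.neg_apply, ← Amat_transpose, Matrix.transpose_apply]
  rw [Par.s1, skw_add, skw_smul, skw_psi, e1, Gam.psi, skw_mat, e2, e3, Par.M1,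
    Matrix.transpose_smul, Matrix.transpose_vecMulVec]
  simp only [← matL_apply, map_add, map_sub, map_smul, map_neg]
  module

end alg

end Vale.Agent.P353
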