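import Vale.Agent.P353.AId1

open MeasureTheory NormedSpace
open Complex (I)
open scoped InnerProductSpace ContDiff

noncomputable section
namespace Vale.Agent.P353
variable {V F : Type} [NormedAddCommGroup V] [InnerProductSpace ℝ V] [FiniteDimensional ℝ V]
  [MeasurableSpace V] [BorelSpace V]
  [NormedAddCommGroup F] [InnerProductSpace ℂ F] [CompleteSpace F]

/-- the difference of the mass terms of `q` and of the sum of squares -/
def Par.U (P : Par) (x : EE V) : ℝ := (1 / 2) * (‖P.s1 x‖ ^ 2 - ‖mat P.A' x‖ ^ 2)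

theorem sum_dot (A B : M16) : ∑ β, A.mulVec (Pi.single β 1) ⬝ᵥ B.mulVec (Pi.single β 1) =
    (A.transpose * B).trace := by
  simp [Matrix.trace, Matrix.mul_apply, dotProduct]

theorem Par.norm_s1'_eq (P : Par) (β : Fin 16) (x : EE V) : ‖P.s1' β x‖ = ‖mat P.A' x‖ := by
  have h1 : (P.σ • (P.g 8).mulVec (Pi.single β 1)) ⬝ᵥ (P.σ • (P.g 8).mulVec (Pi.single β 1)) =
      1 := by
    rw [smul_dotProduct, dotProduct_smul, P.dot (single_unit β), if_pos rfl, smul_smul, P.hσ,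
      one_smul]
  rw [← sq_eq_sq₀ (norm_nonneg _) (norm_nonneg _), ← real_inner_self_eq_norm_sq,
    ← real_inner_self_eq_norm_sq]
  exact P.psi_inner h1 _ _

theorem Par.sum_cub (P : Par) (L : CL V) (x y : EE V) :
    ∑ β, ⟪s0 P.toGam L (Pi.single β 1) x, P.psi (P.σ • (P.g 8).mulVec (Pi.single β 1)) y⟫_ℝ =
      16 * (P.σ * ⟪lift (L.br (x 8)) x, y⟫_ℝ) := by
  have h1 : ∀ i j k, ∑ β, (P.g2 i j).mulVec (Pi.single β 1) ⬝ᵥ
      (P.g k).mulVec (P.σ • (P.g 8).mulVec (Pi.single β 1)) =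
      16 * P.σ * ((if j = 8 then if i = k then 1 else 0 else 0) -
        if i = 8 then if j = k then 1 else 0 else 0) := fun i j k => by
    simp only [Matrix.mulVec_smul, Matrix.mulVec_mulVec, dotProduct_smul, ← Finset.smul_sum,
      sum_dot, P.g2_transpose]
    simp only [Gam.g2, neg_mul, smul_mul_assoc, sub_mul, ← mul_assoc, Matrix.trace_neg,
      Matrix.trace_smul, Matrix.trace_sub, P.tr4, smul_eq_mul, ite_and, eq_comm (a := j) (b := i)]
    split_ifs <;> ring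
  have h2 : ∀ e e' : R16, ⟪s0 P.toGam L e x, P.psi e' y⟫_ℝ = -1 / 2 * ∑ i, ∑ j, ∑ k,
      ((P.g2 i j).mulVec e ⬝ᵥ (P.g k).mulVec e') * ⟪L.br (x i) (x j), y k⟫_ℝ := fun e e' => by
    rw [s0, P.psi_eq, real_inner_smul_left, sum_inner]
    refine congrArg _ (Finset.sum_congr rfl fun i _ => ?_)
    rw [sum_inner]
    refine Finset.sum_congr rfl fun j _ => ?_
    rw [inner_sum]
    exact Finset.sum_congr rfl fun k _ => inner_tens _ _ _ _
  simp only [h2, ← Finset.mul_sum]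
  simp only [Finset.sum_comm (s := (Finset.univ : Finset (Fin 16))), ← Finset.sum_mul, h1]
  simp only [mul_sub, sub_mul, Finset.sum_sub_distrib, mul_ite, ite_mul, mul_one, mul_zero,
    zero_mul, Finset.sum_ite_eq', Finset.sum_ite_irrel, Finset.sum_ite_eq, Finset.mem_univ, if_true,
    Finset.sum_const_zero, PiLp.inner_apply, lift_apply, L.skew _ (x 8), inner_neg_left,
    mul_neg, Finset.sum_neg_distrib, ← Finset.mul_sum]
  ring

omit [MeasurableSpace V] [BorelSpace V] in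
theorem Par.sum_adj (P : Par) (y : EE V) : ∑ β, (P.psi (Pi.single β 1)).adjoint
    (P.psi (P.σ • (P.g 8).mulVec (Pi.single β 1)) y) = 0 := by
  have h1 : ∑ β, (Matrix.of fun s i => (P.g i).mulVec (Pi.single β 1) s).transpose *
      (Matrix.of fun s i => (P.g i).mulVec (P.σ • (P.g 8).mulVec (Pi.single β 1)) s) = 0 := by
    ext j k
    have h2 := sum_dot (P.g j) (P.σ • (P.g k * P.g 8))
    rw [(P.symm j).eq, mul_smul_comm, ← mul_assoc, Matrix.trace_smul, P.tr3, smul_zero] at h2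
    simpa only [Matrix.sum_apply, Matrix.mul_apply, Matrix.transpose_apply, Matrix.of_apply,
      Matrix.mulVec_smul, Matrix.mulVec_mulVec, Matrix.smul_mulVec, dotProduct,
      Matrix.zero_apply] using h2
  simp only [Gam.psi, mat_adjoint, ← ContinuousLinearMap.comp_apply, ← mat_mul, ← sum_apply]
  simp only [← matL_apply, ← map_sum, h1, map_zero, zero_apply]

omit [FiniteDimensional ℝ V] [MeasurableSpace V] [BorelSpace V] in
theorem norm_Imat (x : EE V) : ‖mat Imat x‖ ≤ ‖x‖ := by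
  have h1 : ∀ i, mat Imat x i = ![-x 1, x 0, -x 3, x 2, -x 5, x 4, -x 7, x 6, 0] i := fun i => by
    fin_cases i <;> simp [Imat, plane, p1, p2, Fin.sum_univ_succ, Matrix.single_apply]
  rw [← sq_le_sq₀ (norm_nonneg _) (norm_nonneg _), PiLp.norm_sq_eq_of_L2, PiLp.norm_sq_eq_of_L2]
  simp only [h1]
  simp [Fin.sum_univ_succ]
  nlinarith [sq_nonneg ‖x 8‖]

theorem Par.norm_A' (P : Par) (x : EE V) : ‖mat P.A' x‖ ≤ 7 * ‖x‖ := by
  have h1 : ‖mat Amat x‖ ≤ 6 * ‖x‖ := by
    rw [← sq_le_sq₀ (norm_nonneg _) (by positivity)]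
    nlinarith [(norm_Amat x).2, sq_nonneg ‖x 8‖]
  have h2 : |P.σ * P.δ / 2| ≤ 1 := by
    rw [← sq_le_one_iff_abs_le_one, div_pow, mul_pow, sq P.σ, P.hσ]
    nlinarith [P.δ0, P.δ1]
  rw [Par.A', ← matL_apply, map_add, map_smul, matL_apply, matL_apply, add_apply, smul_apply]
  refine (norm_add_le _ _).trans ?_
  rw [norm_smul, Real.norm_eq_abs]
  nlinarith [norm_Imat x, mul_le_mul h2 (norm_Imat x) (norm_nonneg _) zero_le_one]

theorem Par.abs_U (P : Par) (x : EE V) : |P.U x| ≤ 50 * ‖x‖ ^ 2 := by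
  have h1 := pow_le_pow_left₀ (norm_nonneg _) (P.norm_A' x) 2
  have h2 : P.δ ^ 2 * ‖x 8‖ ^ 2 ≤ 1 * ‖x 8‖ ^ 2 :=
    mul_le_mul_of_nonneg_right (pow_le_one₀ P.δ0.le P.δ1) (sq_nonneg _)
  have h3 := P.norm_s1 x
  rw [Par.U, abs_le]
  constructor <;> nlinarith [(norm_Amat x).2, sq_nonneg ‖x 8‖, sq_nonneg ‖P.s1 x‖,
    sq_nonneg ‖mat P.A' x‖, sq_nonneg ‖x‖]

omit [FiniteDimensional ℝ V] [MeasurableSpace V] [BorelSpace V] in
theorem Par.cont_U (P : Par) : Continuous (P.U : EE V → ℝ) :=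
  continuous_const.mul (((ContinuousLinearMap.continuous _).norm.pow 2).sub
    ((ContinuousLinearMap.continuous _).norm.pow 2))

theorem Par.continuous_U (P : Par) : Continuous (P.U : EE V → ℝ) := P.cont_U

theorem Par.norm_s1' (P : Par) (β : Fin 16) (x : EE V) : ‖P.s1' β x‖ ≤ 7 * ‖x‖ :=
  (P.norm_s1'_eq β x).trans_le (P.norm_A' x)

/-- the matrices of the mass terms of the deformed supercharges -/
def Par.Nm (P : Par) (β : Fin 16) : M16 :=
  ∑ l, ∑ k, P.A' l k • Matrix.vecMulVec ((P.g l).mulVec (P.σ • (P.g 8).mulVec (Pi.single β 1)))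
    ((P.g k).mulVec (Pi.single β 1))

theorem Par.sos_w (P : Par) (L : CL V) (lam mu : ℝ) (x : EE V) :
    (1 / 16) * ∑ β, (1 / 2) * ‖lam • s0 P.toGam L (Pi.single β 1) x + mu • P.s1' β x‖ ^ 2 =
      (1 / 2) * ‖lam • s0 P.toGam L P.e x + mu • P.s1 x‖ ^ 2 + (-mu ^ 2) * P.U x := by
  have h1 : ∀ e : R16, e ⬝ᵥ e = 1 → ‖s0 P.toGam L e x‖ ^ 2 = 2 * L.pot x := fun e he => by
    rw [← norm_s0 P.toGam L he]
    ring
  have h2 : ∑ β, ⟪s0 P.toGam L (Pi.single β 1) x, P.s1' β x⟫_ℝ = _ :=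
    P.sum_cub L x (mat P.A' x)
  simp only [norm_add_sq_real, norm_smul, mul_pow, Real.norm_eq_abs, sq_abs, h1 _ (single_unit _),
    h1 _ P.he, P.norm_s1'_eq, real_inner_smul_left, real_inner_smul_right, ← Finset.mul_sum,
    Finset.sum_add_distrib, h2, P.inner_s0_s1, Par.U, Finset.sum_const, Finset.card_univ,
    Fintype.card_fin, nsmul_eq_mul]
  push_cast
  ring

theorem Par.sos_T (P : Par) (L : CL V) (lam mu : ℝ) (x : EE V) :
    (1 / 16 : ℝ) • ∑ β, skw (P.psi (Pi.single β 1))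
      (fderiv ℝ (fun x => lam • s0 P.toGam L (Pi.single β 1) x + mu • P.s1' β x) x) =
      ((-lam) • Gm P.toGam L x + mu • mat P.M1) +
        (-mu) • mat (P.M1 - (1 / 16 : ℝ) • ∑ β, (P.Nm β - (P.Nm β).transpose)) := by
  have h1 : ∀ β, skw (P.psi (Pi.single β 1) : EE V →L[ℝ] SS V) (P.s1' β) =
      matL V 16 16 (P.Nm β - (P.Nm β).transpose) := fun β => skw_psi _ _ _ _
  simp only [fderiv_comb (contDiff_s0 P.toGam L _), skw_add, skw_smul, Finset.sum_add_distrib,
    ← Finset.smul_sum, sum_skw_s0, h1, ← map_sum]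
  rw [← matL_apply, ← matL_apply, map_sub, map_smul]
  module

theorem Par.sos_v (P : Par) (L : CL V) (lam mu : ℝ) (x : EE V) :
    ∑ β, (P.psi (Pi.single β 1)).adjoint
      (lam • s0 P.toGam L (Pi.single β 1) x + mu • P.s1' β x) = 0 := by
  have h1 : ∑ β, (P.psi (Pi.single β 1)).adjoint (P.s1' β x) = 0 := P.sum_adj (mat P.A' x)
  simp only [map_add, map_smul, Finset.sum_add_distrib, ← Finset.smul_sum, sum_adj_s0, h1,
    smul_zero, add_zero]

theorem Mod.sos_sch (M : Mod V F) (P : Par) (lam mu : ℝ) {φ : EE V → F} (h : Tst φ) :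
    M.sos P lam mu φ =
      sch (fun x => (1 / 2) * ‖lam • s0 P.toGam M.L P.e x + mu • P.s1 x‖ ^ 2 + (-mu ^ 2) * P.U x)
        (fun x => I • M.C.spin (((-lam) • Gm P.toGam M.L x + mu • mat P.M1) +
          (-mu) • mat (P.M1 - (1 / 16 : ℝ) • ∑ β, (P.Nm β - (P.Nm β).transpose)))) φ := by
  unfold Mod.sos Mod.D'
  refine sum_dirac_sq M.C (fun β => P.psi_inner (single_unit β)) (fun β => ?_) h (by simp)
    (fun x => ?_) (fun x => ?_) fun x => ?_
  · exact ((contDiff_s0 P.toGam M.L _).const_smul lam).add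
      ((ContinuousLinearMap.contDiff _).const_smul mu)
  · exact P.sos_w M.L lam mu x
  · exact P.sos_T M.L lam mu x
  · exact P.sos_v M.L lam mu x

theorem sch_add {S E : Type} [NormedAddCommGroup S] [InnerProductSpace ℝ S] [FiniteDimensional ℝ S]
    [NormedAddCommGroup E] [InnerProductSpace ℝ E] [FiniteDimensional ℝ E] [MeasurableSpace E]
    [BorelSpace E] (C : Cl S F) {φ : E → F} (h : Tst φ) {w u : E → ℝ} {T : E → S →L[ℝ] S}
    (hw : Continuous w) (hu : Continuous u) (hT : Continuous fun x => I • C.spin (T x))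
    (a b : ℝ) (Y : S →L[ℝ] S) :
    sch (fun x => w x + a * u x) (fun x => I • C.spin (T x + b • Y)) φ =
      sch w (fun x => I • C.spin (T x)) φ + a * wt u φ + b * opf (fun _ => I • C.spin Y) φ := by
  simp only [C.spin_add, C.spin_smul, smul_add, smul_comm I b]
  rw [sch, sch, wt_add h (w' := fun x => a * u x) hw.continuousOn
    (continuous_const.mul hu).continuousOn, wt_smul,
    opf_add h hT.continuousOn continuousOn_const, opf_smul]
  ring

/-- The deformed form is a sum of squares up to a mass term and a constant fermion bilinear; the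
matrix `M'` does not depend on the Lie algebra. -/
theorem Par.sos_eq (P : Par) : ∃ M' : M16, M'.transpose = -M' ∧
    ∀ (V F : Type) [NormedAddCommGroup V] [InnerProductSpace ℝ V] [FiniteDimensional ℝ V]
      [MeasurableSpace V] [BorelSpace V] [NormedAddCommGroup F] [InnerProductSpace ℂ F]
      [CompleteSpace F] (M : Mod V F) (lam mu : ℝ) (φ : EE V → F), Tst φ →
      M.q P lam mu φ = M.sos P lam mu φ + mu ^ 2 * wt P.U φ +
        mu * opf (fun _ => I • M.C.spin (mat M')) φ := by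
  refine ⟨P.M1 - (1 / 16 : ℝ) • ∑ β, (P.Nm β - (P.Nm β).transpose), ?_, ?_⟩
  · simp only [Matrix.transpose_sub, Matrix.transpose_smul, Matrix.transpose_sum,
      Matrix.transpose_transpose, P.M1_transpose, Finset.sum_sub_distrib]
    module
  intro V F _ _ _ _ _ _ _ _ M lam mu φ h
  obtain ⟨c1, c2⟩ := M.q_cont P lam mu
  rw [M.sos_sch P lam mu h, Mod.q, sch_add M.C h c1 P.cont_U c2]
  ring

theorem Mod.n2_Q_le (M : Mod V F) (P : Par) (β : Fin 16) (lam mu : ℝ) {φ : EE V → F}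
    (h : Tst φ) : n2 (M.Q P.toGam (Pi.single β 1) lam φ) ≤
      2 * n2 (M.D' P β lam mu φ) + 49 * mu ^ 2 * wt (fun x => ‖x‖ ^ 2) φ := by
  have e : M.Q P.toGam (Pi.single β 1) lam φ =
      M.D' P β lam mu φ + fun x => M.C.th ((-mu) • P.s1' β x) (φ x) := by
    ext x
    rw [Pi.add_apply, Mod.D', dirac_add_pot, neg_smul, map_neg, neg_apply, add_neg_cancel_right,
      Mod.Q]
  have c1 : ContDiff ℝ ∞ fun x : EE V => (-mu) • P.s1' β x :=
    (ContinuousLinearMap.contDiff _).const_smul _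
  have h1 := n2_add_le ((M.Tst_D P lam mu h).2.1 β).memLp
    (h.clm ((ContinuousLinearMap.contDiff M.C.th).comp c1)).memLp one_pos
  have h2 : n2 (fun x => M.C.th ((-mu) • P.s1' β x) (φ x)) =
      wt (fun x => ‖(-mu) • P.s1' β x‖ ^ 2 / 2) φ := by
    simp only [n2, wt, M.C.norm_th_apply]
  have h3 := wt_mono h (w := fun x => ‖(-mu) • P.s1' β x‖ ^ 2 / 2)
    (w' := fun x => 49 / 2 * mu ^ 2 * ‖x‖ ^ 2)
    ((c1.continuous.norm.pow 2).div_const 2).continuousOn
    (continuous_const.mul (continuous_norm.pow 2)).continuousOn fun x _ => by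
      have := pow_le_pow_left₀ (norm_nonneg _) (P.norm_s1' β x) 2
      rw [norm_smul, mul_pow, Real.norm_eq_abs, sq_abs]
      nlinarith [mul_le_mul_of_nonneg_left this (sq_nonneg mu)]
  rw [wt_smul, ← h2] at h3
  rw [e]
  refine h1.trans ?_
  simp only [Function.comp_apply]
  linarith

theorem Mod.q0_le (M : Mod V F) (P : Par) : ∃ K : ℝ, 0 < K ∧ ∀ (lam mu : ℝ) (φ : EE V → F),
    0 ≤ mu → Tst φ → M.q0 P.toGam lam φ ≤ 2 * M.q P lam mu φ +
      K * (mu * n2 φ + mu ^ 2 * wt (fun x => ‖x‖ ^ 2) φ) := by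
  obtain ⟨M', -, hM⟩ := P.sos_eq
  obtain ⟨b, hb⟩ : ∃ b, b = ‖I • M.C.spin (mat M')‖ := ⟨_, rfl⟩
  have b0 : 0 ≤ b := hb ▸ norm_nonneg _
  refine ⟨149 + 2 * b, by positivity, fun lam mu φ hmu h => ?_⟩
  have h1 := Finset.sum_le_sum fun β (_ : β ∈ Finset.univ) => M.n2_Q_le P β lam mu h
  have h2 := (abs_le.1 (abs_opf_le h (w := fun _ => b) (B := fun _ => I • M.C.spin (mat M'))
    continuousOn_const continuousOn_const fun _ _ => hb.ge)).1
  have h3 := wt_mono h (w := fun x => -50 * ‖x‖ ^ 2)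
    (continuous_const.mul (continuous_norm.pow 2)).continuousOn P.cont_U.continuousOn
    fun x _ => by linarith [(abs_le.1 (P.abs_U x)).1]
  have h4 : 0 ≤ wt (fun x => ‖x‖ ^ 2) φ := integral_nonneg fun x => by positivity
  rw [wt_const] at h2
  rw [wt_smul] at h3
  rw [Finset.sum_add_distrib, ← Finset.mul_sum, Finset.sum_const, Finset.card_univ,
    Fintype.card_fin, nsmul_eq_mul] at h1
  rw [← M.sum_Q P.toGam lam h, hM V F M lam mu φ h, Mod.sos]
  push_cast at h1
  nlinarith [mul_le_mul_of_nonneg_left h2 hmu, mul_le_mul_of_nonneg_left h3 (sq_nonneg mu),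
    mul_nonneg hmu (n2_nonneg φ), mul_nonneg b0 (mul_nonneg (sq_nonneg mu) h4)]

end Vale.Agent.P353
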