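import Vale.Agent.P353.AExp
import Vale.Agent.P353.AGam2
import Vale.Agent.P353.AForm0

open MeasureTheory NormedSpace
open Complex (I)
open scoped InnerProductSpace ContDiff

noncomputable section
namespace Vale.Agent.P353
variable {V F : Type} [NormedAddCommGroup V] [InnerProductSpace ℝ V] [FiniteDimensional ℝ V]
  [MeasurableSpace V] [BorelSpace V]
  [NormedAddCommGroup F] [InnerProductSpace ℂ F] [CompleteSpace F]

/-! Pointwise algebra of the model. -/

section aux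
omit [FiniteDimensional ℝ V] [MeasurableSpace V] [BorelSpace V]

theorem amod0_tens {n : ℕ} (e e' : Fin n → ℝ) (a b : V) :
    ⟪tens e a, tens e' b⟫_ℝ = (e ⬝ᵥ e') * ⟪a, b⟫_ℝ := by
  simp only [PiLp.inner_apply, tens_apply, real_inner_smul_left, real_inner_smul_right, dotProduct,
    Finset.sum_mul, mul_assoc]
  exact Finset.sum_congr rfl fun i _ => mul_left_comm _ _ _

theorem amod0_psi (G : Gam) (e : R16) (y : EE V) :
    G.psi e y = ∑ i, tens ((G.g i).mulVec e) (y i) := by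
  ext s
  simp [Gam.psi]

theorem amod0_self (L : CL V) (a : V) : L.br a a = 0 := by
  have h : (2 : ℝ) • L.br a a = 0 := by rw [two_smul, add_eq_zero_iff_eq_neg, ← L.skew]
  exact (smul_eq_zero.1 h).resolve_left two_ne_zero

theorem amod0_neg {n : ℕ} (e : Fin n → ℝ) (a : V) : tens (-e) (-a) = tens e a := by
  ext s
  simp

theorem amod0_proj (i : Fin 9) : ContDiff ℝ ∞ fun x : EE V => x i :=
  (PiLp.proj (𝕜 := ℝ) 2 (fun _ : Fin 9 => V) i).contDiff

theorem amod0_br (L : CL V) (i j : Fin 9) : ContDiff ℝ ∞ fun x : EE V => L.br (x i) (x j) :=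
  (L.br.contDiff.comp (amod0_proj i)).clm_apply (amod0_proj j)

theorem amod0_sym (G : Gam) (i : Fin 9) (u v : R16) :
    (G.g i).mulVec u ⬝ᵥ v = u ⬝ᵥ (G.g i).mulVec v := by
  rw [Matrix.dotProduct_mulVec, ← Matrix.mulVec_transpose, (G.symm i).eq]

theorem amod0_cl (G : Gam) (a b : Fin 9) (u : R16) : (G.g a).mulVec ((G.g b).mulVec u) =
    (if a = b then (2 : ℝ) else 0) • u - (G.g b).mulVec ((G.g a).mulVec u) := by
  rw [eq_sub_iff_add_eq, Matrix.mulVec_mulVec, Matrix.mulVec_mulVec, ← Matrix.add_mulVec, G.cl]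
  split_ifs
  · rw [Matrix.smul_mulVec, Matrix.one_mulVec]
  · rw [Matrix.zero_mulVec, zero_smul]

theorem amod0_s0 (G : Gam) (L : CL V) (e : R16) (x : EE V) : s0 G L e x =
    (-1 / 2 : ℝ) • ∑ i, ∑ j, tens ((G.g i).mulVec ((G.g j).mulVec e)) (L.br (x i) (x j)) := by
  rw [s0]
  refine congrArg (HSMul.hSMul (-1 / 2 : ℝ))
    (Finset.sum_congr rfl fun i _ => Finset.sum_congr rfl fun j _ => ?_)
  by_cases h : i = j
  · rw [h, amod0_self, map_zero, map_zero]
  · rw [G.g2_ne h, Matrix.mulVec_mulVec]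

theorem amod0_rot {ι : Type} [Fintype ι] (f : ι → ι → ι → ℝ) :
    ∑ j, ∑ k, ∑ l, f j k l = ∑ l, ∑ j, ∑ k, f j k l :=
  (Finset.sum_congr rfl fun _ _ => Finset.sum_comm).trans Finset.sum_comm

theorem amod0_cyc {ι : Type} [Fintype ι] (f S : ι → ι → ι → ℝ)
    (h : ∀ j k l, S j k l + S k l j + S l j k = 0) :
    ∑ j, ∑ k, ∑ l, (f j k l + f l j k + f k l j) * S j k l = 0 := by
  simp only [add_mul, Finset.sum_add_distrib]
  rw [amod0_rot fun j k l => f l j k * S j k l, ← amod0_rot fun k l j => f k l j * S j k l]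
  simp only [← Finset.sum_add_distrib, ← mul_add, h, mul_zero, Finset.sum_const_zero]

theorem amod0_jac (L : CL V) (a b c : V) :
    L.br a (L.br b c) + L.br b (L.br c a) + L.br c (L.br a b) = 0 := by
  rw [L.jac a b c, L.skew c a, L.skew c, map_neg]
  abel

theorem amod0_three (G : Gam) (e : R16) (k i j : Fin 9) :
    (G.g k).mulVec e ⬝ᵥ (G.g i).mulVec ((G.g j).mulVec e) =
      (if i = k then e ⬝ᵥ (G.g j).mulVec e else 0) - (if j = k then e ⬝ᵥ (G.g i).mulVec e else 0) +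
        if i = j then e ⬝ᵥ (G.g k).mulVec e else 0 := by
  have h1 : (G.g k).mulVec e ⬝ᵥ (G.g i).mulVec ((G.g j).mulVec e) =
      e ⬝ᵥ (G.g j).mulVec ((G.g i).mulVec ((G.g k).mulVec e)) := by
    rw [dotProduct_comm, amod0_sym, amod0_sym]
  rw [amod0_cl G i k, Matrix.mulVec_sub, amod0_cl G j k, amod0_cl G j i, Matrix.mulVec_sub,
    Matrix.mulVec_smul, Matrix.mulVec_smul] at h1
  simp only [dotProduct_sub, dotProduct_smul, smul_eq_mul, ← amod0_sym G k e, eq_comm (a := j) (b := i)]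
    at h1
  simp only [← amod0_sym G k e]
  split_ifs at h1 ⊢ <;> linarith

theorem amod0_psi_s0 (G : Gam) (L : CL V) (e : R16) (x y : EE V) : ⟪G.psi e y, s0 G L e x⟫_ℝ =
    ⟪y, lift (L.br (contr (fun j => e ⬝ᵥ (G.g j).mulVec e) x)) x⟫_ℝ := by
  rw [amod0_s0, amod0_psi, real_inner_smul_right, sum_inner, PiLp.inner_apply, Finset.mul_sum]
  refine Finset.sum_congr rfl fun k _ => ?_
  simp only [inner_sum, amod0_tens, amod0_three, add_mul, sub_mul, ite_mul, zero_mul,
    Finset.sum_add_distrib, Finset.sum_sub_distrib, Finset.sum_ite_eq, Finset.sum_ite_eq',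
    Finset.sum_ite_irrel, Finset.mem_univ, if_true, Finset.sum_const_zero, amod0_self,
    inner_zero_right, mul_zero, ite_self, lift_apply, contr_apply, map_sum, map_smul, sum_apply,
    smul_apply, real_inner_smul_right, L.skew (x k), inner_neg_right, mul_neg,
    Finset.sum_neg_distrib]
  ring

theorem amod0_perp (P : Par) (y : EE V) (a : V) : ⟪P.psi P.e y, tens P.χ a⟫_ℝ = 0 := by
  rw [amod0_psi, sum_inner]
  exact Finset.sum_eq_zero fun i _ => by rw [amod0_tens, dotProduct_comm, P.χ_dot, zero_mul]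

theorem amod0_s1 (P : Par) (x : EE V) :
    P.s1 x = P.psi P.e (mat Amat x) + P.δ • tens P.χ (x 8) := rfl

theorem amod0_A (x : EE V) (i : Fin 9) : mat Amat x i =
    ∑ a, eps a • ((if p2 a = i then x (p1 a) else 0) - if p1 a = i then x (p2 a) else 0) := by
  simp only [mat_apply, Amat, plane, Matrix.sum_apply, Matrix.smul_apply, Matrix.sub_apply,
    Finset.sum_smul, smul_assoc, Matrix.single_apply]
  rw [Finset.sum_comm]
  refine Finset.sum_congr rfl fun a _ => ?_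
  simp only [← Finset.smul_sum, sub_smul, Finset.sum_sub_distrib, ite_and, ite_smul, one_smul,
    zero_smul, Finset.sum_ite_irrel, Finset.sum_ite_eq, Finset.mem_univ, if_true,
    Finset.sum_const_zero]

theorem amod0_lift {W : Type} [NormedAddCommGroup W] [InnerProductSpace ℝ W] {n : ℕ}
    (g : V →L[ℝ] W) (e : Fin n → ℝ) (a : V) : lift g (tens e a) = tens e (g a) := by
  ext s
  simp

end aux

theorem Gam.psi_inner (G : Gam) {e : R16} (he : e ⬝ᵥ e = 1) (u v : EE V) :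
    ⟪G.psi e u, G.psi e v⟫_ℝ = ⟪u, v⟫_ℝ := by
  simp only [amod0_psi, sum_inner, inner_sum, amod0_tens, G.dot he, ite_mul, one_mul, zero_mul,
    Finset.sum_ite_eq', Finset.mem_univ, if_true, PiLp.inner_apply (f := fun _ : Fin 9 => V)]

theorem Gam.psi_eq (G : Gam) (e : R16) (y : EE V) :
    G.psi e y = ∑ i, tens ((G.g i).mulVec e) (y i) := amod0_psi G e y

theorem inner_tens {n : ℕ} (e e' : Fin n → ℝ) (a b : V) :
    ⟪tens e a, tens e' b⟫_ℝ = (e ⬝ᵥ e') * ⟪a, b⟫_ℝ := amod0_tens e e' a b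

theorem contDiff_s0 (G : Gam) (L : CL V) (e : R16) : ContDiff ℝ ∞ (s0 G L e) :=
  (ContDiff.sum fun i _ => ContDiff.sum fun j _ =>
    (tens _).contDiff.comp (amod0_br L i j)).const_smul (-1 / 2 : ℝ)

theorem fderiv_s0 (G : Gam) (L : CL V) (e : R16) (x y : EE V) :
    fderiv ℝ (s0 G L e) x y = -∑ i, ∑ j, tens ((G.g2 i j).mulVec e) (L.br (x i) (y j)) := by
  have hp := fun i => (PiLp.proj (𝕜 := ℝ) 2 (fun _ : Fin 9 => V) i).hasFDerivAt (x := x)
  have h : HasFDerivAt (s0 G L e) _ x := (HasFDerivAt.fun_sum fun i _ => HasFDerivAt.fun_sum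
    fun j _ => (tens ((G.g2 i j).mulVec e)).hasFDerivAt.comp x
      ((L.br.hasFDerivAt.comp x (hp i)).clm_apply (hp j))).const_smul (-1 / 2 : ℝ)
  have h2 : ∑ i, ∑ j, tens ((G.g2 i j).mulVec e) (L.br (y i) (x j)) =
      ∑ i, ∑ j, tens ((G.g2 i j).mulVec e) (L.br (x i) (y j)) :=
    Finset.sum_comm.trans (Finset.sum_congr rfl fun i _ => Finset.sum_congr rfl fun j _ => by
      rw [G.g2_swap, Matrix.neg_mulVec, L.skew, amod0_neg])
  rw [h.fderiv]
  simp only [smul_apply, sum_apply, ContinuousLinearMap.comp_apply, add_apply, map_add,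
    ContinuousLinearMap.flip_apply, PiLp.proj_apply, Function.comp_apply, Finset.sum_add_distrib, h2]
  module

theorem s0_smul (G : Gam) (L : CL V) (e : R16) (c : ℝ) (x : EE V) :
    s0 G L e (c • x) = c ^ 2 • s0 G L e x := by
  simp only [s0, PiLp.smul_apply, map_smul, smul_apply, ← Finset.smul_sum]
  module

theorem contDiff_pot (L : CL V) : ContDiff ℝ ∞ L.pot :=
  contDiff_const.mul (ContDiff.sum fun i _ => ContDiff.sum fun j _ => (amod0_br L i j).norm_sq ℝ)

theorem pot_nonneg (L : CL V) (x : EE V) : 0 ≤ L.pot x := by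
  unfold CL.pot
  positivity

theorem pot_eq_zero (L : CL V) (x : EE V) : L.pot x = 0 ↔ L.Comm x := by
  refine ⟨fun h i j => ?_, fun h => by simp [CL.pot, h _ _]⟩
  have h1 := (mul_eq_zero.1 h).resolve_left (by norm_num)
  have h2 := (Finset.sum_eq_zero_iff_of_nonneg fun _ _ => by positivity).1 h1 i (Finset.mem_univ i)
  have h3 := (Finset.sum_eq_zero_iff_of_nonneg fun _ _ => by positivity).1 h2 j (Finset.mem_univ j)
  exact norm_eq_zero.1 (pow_eq_zero_iff two_ne_zero |>.1 h3)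

theorem pot_smul (L : CL V) (c : ℝ) (x : EE V) : L.pot (c • x) = c ^ 4 * L.pot x := by
  simp only [CL.pot, PiLp.smul_apply, map_smul, smul_apply, norm_smul, mul_pow, Real.norm_eq_abs,
    sq_abs, ← Finset.mul_sum]
  ring

theorem Gm_clm (G : Gam) (L : CL V) :
    ∃ Γ : EE V →L[ℝ] SS V →L[ℝ] SS V, ∀ x, Γ x = Gm G L x :=
  ⟨LinearMap.toContinuousLinearMap
    { toFun := Gm G L
      map_add' := fun x y => by ext u s; simp [Gm, Finset.sum_add_distrib]
      map_smul' := fun c x => by ext u s; simp [Gm, Finset.smul_sum, smul_comm c] },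
    fun _ => rfl⟩

theorem skew_Gm (G : Gam) (L : CL V) (x : EE V) : Skew (Gm G L x) := fun u v => by
  simp only [Gm, sum_apply, sum_inner, inner_sum, ← Finset.sum_neg_distrib]
  refine Finset.sum_congr rfl fun j _ => ?_
  rw [ContinuousLinearMap.comp_apply, symm_mat (G.symm j), skew_lift (L.skew_br _), mat_lift,
    ContinuousLinearMap.comp_apply]

/-- Jacobi identity kills the four-form part -/
theorem norm_s0 (G : Gam) (L : CL V) {e : R16} (he : e ⬝ᵥ e = 1) (x : EE V) :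
    (1 / 2) * ‖s0 G L e x‖ ^ 2 = L.pot x := by
  have h1 := fun i => amod0_cyc
    (fun j k l => (G.g i).mulVec e ⬝ᵥ (G.g j).mulVec ((G.g k).mulVec ((G.g l).mulVec e)))
    (fun j k l => ⟪x i, L.br (x j) (L.br (x k) (x l))⟫_ℝ) fun j k l => by
      rw [← inner_add_right, ← inner_add_right, amod0_jac, inner_zero_right]
  have h2 : ∀ i j k l : Fin 9,
      (G.g i).mulVec e ⬝ᵥ (G.g j).mulVec ((G.g k).mulVec ((G.g l).mulVec e)) +
      (G.g i).mulVec e ⬝ᵥ (G.g l).mulVec ((G.g j).mulVec ((G.g k).mulVec e)) +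
      (G.g i).mulVec e ⬝ᵥ (G.g k).mulVec ((G.g l).mulVec ((G.g j).mulVec e)) =
      3 * ((G.g i).mulVec e ⬝ᵥ (G.g j).mulVec ((G.g k).mulVec ((G.g l).mulVec e))) +
      (if k = i then if l = j then 4 else 0 else 0) - (if l = k then if i = j then 2 else 0 else 0) -
      if k = j then if l = i then 2 else 0 else 0 := fun i j k l => by
    rw [amod0_cl G l j, amod0_cl G l k e, amod0_cl G l j e, Matrix.mulVec_sub, Matrix.mulVec_sub,
      amod0_cl G k j, Matrix.mulVec_smul, Matrix.mulVec_smul]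
    simp only [dotProduct_sub, dotProduct_smul, smul_eq_mul, G.dot he, eq_comm (a := i) (b := k),
      eq_comm (a := i) (b := l)]
    split_ifs <;> ring
  have h3 : ∀ i j, ⟪x i, L.br (x j) (L.br (x j) (x i))⟫_ℝ = -‖L.br (x i) (x j)‖ ^ 2 := fun i j => by
    rw [← neg_eq_iff_eq_neg, ← L.inv, real_inner_self_eq_norm_sq, L.skew, norm_neg]
  have h4 : ∀ i j, ⟪x i, L.br (x j) (L.br (x i) (x j))⟫_ℝ = ‖L.br (x i) (x j)‖ ^ 2 := fun i j => by
    rw [L.skew (x i), map_neg, inner_neg_right, h3, neg_neg, norm_neg, L.skew, norm_neg]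
  simp only [h2, add_mul, sub_mul, ite_mul, zero_mul, Finset.sum_add_distrib,
    Finset.sum_sub_distrib, Finset.sum_ite_irrel, Finset.sum_ite_eq', Finset.mem_univ, if_true,
    Finset.sum_const_zero, amod0_self, map_zero, inner_zero_right, mul_zero, ite_self, h3, h4,
    mul_assoc, ← Finset.mul_sum, Finset.sum_neg_distrib] at h1
  have h5 := Finset.sum_congr (rfl (a := Finset.univ)) fun i _ => h1 i
  simp only [Finset.sum_add_distrib, Finset.sum_sub_distrib, ← Finset.mul_sum,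
    Finset.sum_neg_distrib, Finset.sum_const_zero] at h5
  rw [← real_inner_self_eq_norm_sq, amod0_s0, real_inner_smul_left, real_inner_smul_right,
    sum_inner, Finset.sum_congr rfl fun i _ => sum_inner _ _ _, Finset.sum_comm, CL.pot]
  simp only [inner_sum, amod0_tens, amod0_sym G _ ((G.g _).mulVec e), L.inv, mul_neg,
    Finset.sum_neg_distrib]
  linarith

/-- the first order part of `Q_e ^ 2` is a gauge transformation -/
theorem psi_adj_s0 (G : Gam) (L : CL V) (e : R16) (x : EE V) :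
    (G.psi e).adjoint (s0 G L e x) =
      lift (L.br (contr (fun j => e ⬝ᵥ (G.g j).mulVec e) x)) x :=
  ext_inner_left ℝ fun y => by rw [ContinuousLinearMap.adjoint_inner_right, amod0_psi_s0]

theorem Par.psi_adj_s1 (P : Par) (x : EE V) : (P.psi P.e).adjoint (P.s1 x) = mat Amat x :=
  ext_inner_left ℝ fun y => by
    rw [ContinuousLinearMap.adjoint_inner_right, amod0_s1, inner_add_right, real_inner_smul_right,
      amod0_perp, mul_zero, add_zero, Gam.psi_inner _ P.he]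

theorem Par.norm_s1 (P : Par) (x : EE V) :
    ‖P.s1 x‖ ^ 2 = ‖mat Amat x‖ ^ 2 + P.δ ^ 2 * ‖x 8‖ ^ 2 := by
  rw [amod0_s1, norm_add_sq_real, real_inner_smul_right, amod0_perp, norm_smul, mul_pow,
    Real.norm_eq_abs, sq_abs]
  simp only [← real_inner_self_eq_norm_sq]
  rw [Gam.psi_inner _ P.he, amod0_tens, P.χ_unit.1]
  ring

theorem norm_Amat (x : EE V) : 25 * (‖x‖ ^ 2 - ‖x 8‖ ^ 2) ≤ ‖mat Amat x‖ ^ 2 ∧
    ‖mat Amat x‖ ^ 2 ≤ 36 * (‖x‖ ^ 2 - ‖x 8‖ ^ 2) := by
  have h : ‖mat Amat x‖ ^ 2 = 36 * ‖x 1‖ ^ 2 + 36 * ‖x 0‖ ^ 2 + 25 * ‖x 3‖ ^ 2 + 25 * ‖x 2‖ ^ 2 +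
      36 * ‖x 5‖ ^ 2 + 36 * ‖x 4‖ ^ 2 + 25 * ‖x 7‖ ^ 2 + 25 * ‖x 6‖ ^ 2 := by
    rw [PiLp.norm_sq_eq_of_L2]
    simp only [amod0_A, Fin.sum_univ_succ, Fin.sum_univ_zero]
    simp [p1, p2, eps, norm_smul, mul_pow, Fin.ext_iff]
    ring
  rw [h, PiLp.norm_sq_eq_of_L2 _ x]
  simp only [Fin.sum_univ_succ, Fin.sum_univ_zero]
  simp
  constructor <;> linarith [sq_nonneg ‖x 0‖, sq_nonneg ‖x 1‖, sq_nonneg ‖x 2‖, sq_nonneg ‖x 3‖,
    sq_nonneg ‖x 4‖, sq_nonneg ‖x 5‖, sq_nonneg ‖x 6‖, sq_nonneg ‖x 7‖]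

/-- the cubic term -/
theorem Par.inner_s0_s1 (P : Par) (L : CL V) (x : EE V) :
    ⟪s0 P.toGam L P.e x, P.s1 x⟫_ℝ = P.σ * ⟪lift (L.br (x 8)) x, mat P.A' x⟫_ℝ := by
  have h1 : contr (fun j => P.e ⬝ᵥ (P.g j).mulVec P.e) x = P.σ • x 8 := by
    simp [P.e_dot]
  have h2 : mat P.A' x = mat Amat x + (P.σ * P.δ / 2) • mat Imat x := by
    ext i
    simp [Par.A', add_smul, Finset.sum_add_distrib, Finset.smul_sum, smul_smul]
  have h3 : lift (L.br (P.σ • x 8)) x = P.σ • lift (L.br (x 8)) x := by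
    ext i
    simp
  have h4 : ⟪s0 P.toGam L P.e x, tens P.χ (x 8)⟫_ℝ =
      1 / 2 * ⟪lift (L.br (x 8)) x, mat Imat x⟫_ℝ := by
    rw [s0, real_inner_smul_left, PiLp.inner_apply (f := fun _ : Fin 9 => V)]
    simp only [sum_inner, amod0_tens, P.g2_dot, lift_apply, mat_apply, inner_sum,
      real_inner_smul_right, L.skew (x 8), inner_neg_left, L.inv (x _) (x 8), neg_neg, neg_mul,
      Finset.sum_neg_distrib, real_inner_comm (x 8), map_smul]
    ring
  rw [amod0_s1, inner_add_right, real_inner_comm, amod0_psi_s0, real_inner_smul_right, h1, h2, h3,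
    h4, inner_add_right, real_inner_smul_right, real_inner_smul_right, real_inner_comm]
  linear_combination (-P.δ / 2 * ⟪lift (L.br (x 8)) x, mat Imat x⟫_ℝ) * P.hσ

/-- covariance under automorphisms -/
theorem s0_aut (G : Gam) (L : CL V) (e : R16) {g : V →L[ℝ] V}
    (hg : ∀ a b, g (L.br a b) = L.br (g a) (g b)) (x : EE V) :
    s0 G L e (lift g x) = lift g (s0 G L e x) := by
  simp only [s0, map_smul, map_sum, amod0_lift, lift_apply, hg]

theorem Par.s1_lift {W : Type} [NormedAddCommGroup W] [InnerProductSpace ℝ W] (P : Par)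
    (g : V →L[ℝ] W) (x : EE V) : P.s1 (lift g x) = lift g (P.s1 x) := by
  ext s
  simp [amod0_s1, Gam.psi]

theorem pot_sinv (L : CL V) : L.SInv L.pot := fun ξ x => by
  simp only [CL.pot, lift_apply, ← L.ex_br, ← real_inner_self_eq_norm_sq, L.ex_inner]

theorem norm_sinv (L : CL V) : L.SInv fun x => ‖x‖ := fun ξ x => by
  simp only [norm_eq_sqrt_real_inner, PiLp.inner_apply, lift_apply, L.ex_inner]

theorem Mod.q_cont (M : Mod V F) (P : Par) (lam mu : ℝ) :
    Continuous (fun x => (1 / 2) * ‖lam • s0 P.toGam M.L P.e x + mu • P.s1 x‖ ^ 2) ∧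
    Continuous fun x => I • M.C.spin ((-lam) • Gm P.toGam M.L x + mu • mat P.M1) := by
  obtain ⟨σ, hσ⟩ := M.C.spin_clm
  obtain ⟨Γ, hΓ⟩ := Gm_clm P.toGam M.L
  simp only [← hσ, ← hΓ]
  exact ⟨continuous_const.mul ((((contDiff_s0 _ _ _).continuous.const_smul lam).add
      (P.s1.continuous.const_smul mu)).norm.pow 2),
    (σ.continuous.comp ((Γ.continuous.const_smul (-lam)).add continuous_const)).const_smul I⟩

theorem Mod.q0_cont (M : Mod V F) (G : Gam) (lam : ℝ) :
    Continuous (fun x => lam ^ 2 * M.L.pot x) ∧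
    Continuous fun x => I • M.C.spin ((-lam) • Gm G M.L x) := by
  obtain ⟨σ, hσ⟩ := M.C.spin_clm
  obtain ⟨Γ, hΓ⟩ := Gm_clm G M.L
  simp only [← hσ, ← hΓ]
  exact ⟨continuous_const.mul (contDiff_pot _).continuous,
    (σ.continuous.comp (Γ.continuous.const_smul (-lam))).const_smul I⟩

theorem Mod.q_zero (M : Mod V F) (P : Par) (lam : ℝ) : M.q P lam 0 = M.q0 P.toGam lam := by
  have h : (0 : ℝ) • (mat P.M1 : SS V →L[ℝ] SS V) = 0 := by ext; simp
  simp only [Mod.q, Mod.q0, zero_smul, h, add_zero, norm_smul, mul_pow, Real.norm_eq_abs, sq_abs,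
    ← norm_s0 P.toGam M.L P.he, mul_left_comm (lam ^ 2)]

theorem Mod.Tst_D (M : Mod V F) (P : Par) (lam mu : ℝ) {φ : EE V → F} (h : Tst φ) :
    Tst (M.D P lam mu φ) ∧ (∀ β, Tst (M.D' P β lam mu φ)) ∧
      ∀ e, Tst (M.Q P.toGam e lam φ) :=
  ⟨Tst.dirac _ _ (((contDiff_s0 _ _ _).const_smul lam).add (P.s1.contDiff.const_smul mu)) h,
    fun β => Tst.dirac _ _ (((contDiff_s0 _ _ _).const_smul lam).add
      ((P.s1' β).contDiff.const_smul mu)) h,
    fun _ => Tst.dirac _ _ ((contDiff_s0 _ _ _).const_smul lam) h⟩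

end Vale.Agent.P353
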