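import Vale.Agent.P353.AForm2
import Vale.Agent.P353.APsq

open MeasureTheory NormedSpace
open Complex (I)
open scoped InnerProductSpace ContDiff

noncomputable section
namespace Vale.Agent.P353
variable {S E F : Type} [NormedAddCommGroup S] [InnerProductSpace ℝ S] [FiniteDimensional ℝ S]
  [NormedAddCommGroup E] [InnerProductSpace ℝ E] [FiniteDimensional ℝ E]
  [MeasurableSpace E] [BorelSpace E]
  [NormedAddCommGroup F] [InnerProductSpace ℂ F] [CompleteSpace F]

/-- the Gaussian `exp (-⟨z, W z⟩ / 2)` -/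
def gau (W : E →L[ℝ] E) (z : E) : ℝ := Real.exp (-⟪z, W z⟫_ℝ / 2)

omit [FiniteDimensional ℝ E] [MeasurableSpace E] [BorelSpace E] in
theorem aosc_sq (W : E →L[ℝ] E) (z : E) : gau W z ^ 2 = Real.exp (-⟪z, W z⟫_ℝ) := by
  rw [gau, ← Real.exp_nat_mul]
  congr 1
  push_cast
  ring

omit [FiniteDimensional ℝ E] [MeasurableSpace E] [BorelSpace E] in
theorem aosc_cont (W : E →L[ℝ] E) : Continuous (gau W) := by
  unfold gau
  fun_prop

omit [FiniteDimensional ℝ E] [MeasurableSpace E] [BorelSpace E] in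
theorem aosc_pos (W : E →L[ℝ] E) (z : E) : 0 < gau W z := Real.exp_pos _

theorem aosc_int0 {b : ℝ} (hb : 0 < b) : Integrable fun z : E => Real.exp (-b * ‖z‖ ^ 2) := by
  have := (GaussianFourier.integrable_cexp_neg_mul_sq_norm_add (V := E) (b := (b : ℂ))
    (by simpa using hb) 0 0).norm
  refine this.congr (Filter.Eventually.of_forall fun z => ?_)
  simp only [zero_mul, add_zero, Complex.norm_exp]
  congr 1
  norm_cast

theorem aosc_int {W : E →L[ℝ] E} {c : ℝ} (hc : 0 < c) (hW : Pos c W) :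
    Integrable (fun z => gau W z ^ 2) := by
  refine (aosc_int0 (E := E) hc).mono' ((aosc_cont W).pow 2).aestronglyMeasurable
    (Filter.Eventually.of_forall fun z => ?_)
  rw [Real.norm_eq_abs, abs_of_nonneg (by positivity), aosc_sq]
  exact Real.exp_le_exp.2 (by linarith [hW.2 z])

omit [MeasurableSpace E] [BorelSpace E] in
theorem aosc_root {W : E →L[ℝ] E} {c : ℝ} (hc : 0 < c) (hW : Pos c W) :
    ∃ R : E →L[ℝ] E, LinearMap.det R.toLinearMap ≠ 0 ∧
      LinearMap.det W.toLinearMap = LinearMap.det R.toLinearMap ^ 2 ∧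
      ∀ z, ⟪z, W z⟫_ℝ = ‖R z‖ ^ 2 := by
  have h0 : Pos 0 W := ⟨hW.1, fun u => by nlinarith [hW.2 u, sq_nonneg ‖u‖]⟩
  obtain ⟨hp, hR⟩ := psq_spec h0
  have hz : ∀ z, ⟪z, W z⟫_ℝ = ‖psq W z‖ ^ 2 := fun z => by
    conv_lhs => rw [← hR]
    rw [mul_apply_eq_comp, ← hp.1, real_inner_self_eq_norm_sq]
  refine ⟨psq W, ?_, ?_, hz⟩
  · have hinj : Function.Injective (psq W).toLinearMap := by
      rw [← LinearMap.ker_eq_bot, LinearMap.ker_eq_bot']
      intro u hu
      have h1 := hW.2 u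
      have h2 : psq W u = 0 := hu
      rw [hz, h2, norm_zero] at h1
      have : ‖u‖ ^ 2 ≤ 0 := by nlinarith [sq_nonneg ‖u‖]
      exact norm_eq_zero.1 (pow_eq_zero_iff (two_ne_zero) |>.1 (le_antisymm this (sq_nonneg _)))
    have hu : IsUnit (psq W).toLinearMap :=
      (LinearMap.isUnit_iff_ker_eq_bot _).2 (LinearMap.ker_eq_bot.2 hinj)
    exact (LinearMap.isUnit_det _ hu).ne_zero
  · conv_lhs => rw [← hR]
    rw [sq, ← map_mul]
    rfl



theorem gau_sq_integral {W : E →L[ℝ] E} {c : ℝ} (hc : 0 < c) (hW : Pos c W) :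
    Integrable (fun z => gau W z ^ 2) ∧ ∫ z, gau W z ^ 2 =
      Real.sqrt (Real.pi ^ Module.finrank ℝ E / LinearMap.det W.toLinearMap) := by
  refine ⟨aosc_int hc hW, ?_⟩
  obtain ⟨R, hdet, hd2, hR⟩ := aosc_root hc hW
  have e : (fun z => gau W z ^ 2) = fun z => Real.exp (-1 * ‖R.toLinearMap z‖ ^ 2) := by
    funext z
    rw [aosc_sq, hR]
    simp
  have hm := Measure.map_linearMap_addHaar_eq_smul_addHaar (volume : Measure E) hdet
  have hi : ∫ z, Real.exp (-1 * ‖R.toLinearMap z‖ ^ 2) =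
      ∫ y, Real.exp (-1 * ‖y‖ ^ 2) ∂(Measure.map R.toLinearMap volume) := by
    rw [integral_map]
    · exact R.continuous.measurable.aemeasurable
    · exact (by fun_prop : Continuous fun y : E => Real.exp (-1 * ‖y‖ ^ 2)).aestronglyMeasurable
  rw [e, hi, hm, integral_smul_measure, GaussianFourier.integral_rexp_neg_mul_sq_norm one_pos,
    ENNReal.toReal_ofReal (abs_nonneg _), hd2, smul_eq_mul, div_one]
  symm
  rw [Real.sqrt_eq_iff_mul_self_eq (by positivity) (by positivity), mul_mul_mul_comm,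
    ← Real.rpow_add Real.pi_pos, add_halves, Real.rpow_natCast, abs_mul_abs_self]
  field_simp
theorem det_pos_of_pos {W : E →L[ℝ] E} {c : ℝ} (hc : 0 < c) (hW : Pos c W) :
    0 < LinearMap.det W.toLinearMap := by
  obtain ⟨R, hdet, hd2, -⟩ := aosc_root hc hW
  rw [hd2]
  positivity

omit [FiniteDimensional ℝ E] [MeasurableSpace E] [BorelSpace E] in
theorem aosc_pow_le {W : E →L[ℝ] E} {c : ℝ} (hc : 0 < c) (hW : Pos c W) (k : ℕ) (z : E) :
    ‖z‖ ^ (2 * k) * gau W z ^ 2 ≤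
      (k.factorial * 2 ^ k / c ^ k) * gau W ((Real.sqrt 2)⁻¹ • z) ^ 2 := by
  have h1 := Real.pow_div_factorial_le_exp (c * ‖z‖ ^ 2 / 2) (by positivity) k
  have hf : (0 : ℝ) < k.factorial := by exact_mod_cast k.factorial_pos
  have h2 : ‖z‖ ^ (2 * k) ≤ (k.factorial * 2 ^ k / c ^ k) * Real.exp (c * ‖z‖ ^ 2 / 2) := by
    rw [div_le_iff₀ hf, div_pow, mul_pow, ← pow_mul, div_le_iff₀ (by positivity)] at h1
    rw [div_mul_eq_mul_div, le_div_iff₀ (by positivity)]
    nlinarith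
  have h3 : ⟪(Real.sqrt 2)⁻¹ • z, W ((Real.sqrt 2)⁻¹ • z)⟫_ℝ = ⟪z, W z⟫_ℝ / 2 := by
    rw [map_smul, real_inner_smul_left, real_inner_smul_right, ← mul_assoc, ← mul_inv,
      Real.mul_self_sqrt (by norm_num)]
    ring
  rw [aosc_sq, aosc_sq, h3]
  refine (mul_le_mul_of_nonneg_right h2 (Real.exp_pos _).le).trans ?_
  rw [mul_assoc, ← Real.exp_add]
  refine mul_le_mul_of_nonneg_left (Real.exp_le_exp.2 ?_) (by positivity)
  linarith [hW.2 z]

theorem aosc_int_pow {W : E →L[ℝ] E} {c : ℝ} (hc : 0 < c) (hW : Pos c W) (k : ℕ) :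
    Integrable (fun z => ‖z‖ ^ (2 * k) * gau W z ^ 2) := by
  have hs : (Real.sqrt 2)⁻¹ ≠ 0 := by positivity
  have h1 := ((integrable_comp_smul_iff volume (fun z => gau W z ^ 2) hs).2
    (aosc_int hc hW)).const_mul (k.factorial * 2 ^ k / c ^ k)
  refine h1.mono' ?_ (Filter.Eventually.of_forall fun z => ?_)
  · exact ((continuous_norm.pow _).mul ((aosc_cont W).pow 2)).aestronglyMeasurable
  · rw [Real.norm_eq_abs, abs_of_nonneg (by positivity)]
    exact aosc_pow_le hc hW k z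

omit [FiniteDimensional ℝ E] [MeasurableSpace E] [BorelSpace E] in
theorem aosc_quad_deriv {W : E →L[ℝ] E} (hW : Symm W) (z : E) :
    HasFDerivAt (fun z => ⟪z, W z⟫_ℝ) ((2 : ℝ) • innerSL ℝ (W z)) z := by
  have := (hasFDerivAt_id z).inner ℝ W.hasFDerivAt
  refine this.congr_fderiv ?_
  ext v
  simp only [ContinuousLinearMap.comp_apply, fderivInnerCLM_apply, ContinuousLinearMap.prod_apply,
    id, ContinuousLinearMap.id_apply, smul_apply, innerSL_apply_apply,
    smul_eq_mul]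
  rw [← hW, real_inner_comm (W z) v]
  ring

theorem aosc_ibp {W : E →L[ℝ] E} {c : ℝ} (hc : 0 < c) (hW : Pos c W) (u v : E) :
    Integrable (fun z => ⟪u, z⟫_ℝ * ⟪W z, v⟫_ℝ * gau W z ^ 2) ∧
    ∫ z, ⟪u, z⟫_ℝ * ⟪W z, v⟫_ℝ * gau W z ^ 2 = (1 / 2) * ⟪u, v⟫_ℝ * ∫ z, gau W z ^ 2 := by
  have cg := aosc_cont W
  have i1 : Integrable (fun z => ⟪u, z⟫_ℝ * ⟪W z, v⟫_ℝ * gau W z ^ 2) := by
    refine ((aosc_int_pow hc hW 1).const_mul (‖u‖ * ‖W‖ * ‖v‖)).mono'
      (by fun_prop : Continuous _).aestronglyMeasurable (Filter.Eventually.of_forall fun z => ?_)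
    rw [Real.norm_eq_abs, abs_mul, abs_mul, abs_of_nonneg (sq_nonneg (gau W z)), ← mul_assoc]
    refine mul_le_mul_of_nonneg_right ?_ (sq_nonneg _)
    have h1 := abs_real_inner_le_norm u z
    have h2 := (abs_real_inner_le_norm (W z) v).trans
      (mul_le_mul_of_nonneg_right (W.le_opNorm z) (norm_nonneg v))
    calc _ ≤ (‖u‖ * ‖z‖) * (‖W‖ * ‖z‖ * ‖v‖) :=
          mul_le_mul h1 h2 (abs_nonneg _) (by positivity)
      _ = _ := by ring
  have i2 : Integrable (fun z => ⟪u, z⟫_ℝ * gau W z ^ 2) := by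
    refine (((aosc_int_pow hc hW 1).add (aosc_int hc hW)).const_mul ‖u‖).mono'
      (by fun_prop : Continuous _).aestronglyMeasurable (Filter.Eventually.of_forall fun z => ?_)
    rw [Real.norm_eq_abs, abs_mul, abs_of_nonneg (sq_nonneg (gau W z))]
    have h1 := abs_real_inner_le_norm u z
    have h2 : ‖z‖ ≤ ‖z‖ ^ (2 * 1) + 1 := by
      rw [mul_one]
      nlinarith [sq_nonneg (‖z‖ - 1), norm_nonneg z]
    calc _ ≤ (‖u‖ * (‖z‖ ^ (2 * 1) + 1)) * gau W z ^ 2 :=
          mul_le_mul_of_nonneg_right (h1.trans (mul_le_mul_of_nonneg_left h2 (norm_nonneg _)))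
            (sq_nonneg _)
      _ = _ := by simp only [Pi.add_apply]; ring
  refine ⟨i1, ?_⟩
  have hd : ∀ z, HasFDerivAt (fun z => gau W z ^ 2)
      (gau W z ^ 2 • -((2 : ℝ) • innerSL ℝ (W z))) z := fun z => by
    simp only [aosc_sq]
    exact (aosc_quad_deriv hW.1 z).neg.exp
  have e1 : ∀ z, (ContinuousLinearMap.mul ℝ ℝ) ⟪u, z⟫_ℝ
      ((gau W z ^ 2 • -((2 : ℝ) • innerSL ℝ (W z))) v) =
      -2 * (⟪u, z⟫_ℝ * ⟪W z, v⟫_ℝ * gau W z ^ 2) := fun z => by
    simp only [ContinuousLinearMap.mul_apply', smul_apply,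
      neg_apply, innerSL_apply_apply, smul_eq_mul]
    ring
  have key := integral_bilinear_hasFDerivAt_right_eq_neg_left_of_integrable (μ := volume)
    (f := fun z => ⟪u, z⟫_ℝ) (f' := fun _ => innerSL ℝ u) (g := fun z => gau W z ^ 2)
    (g' := fun z => gau W z ^ 2 • -((2 : ℝ) • innerSL ℝ (W z))) (v := v)
    (B := ContinuousLinearMap.mul ℝ ℝ) ((aosc_int hc hW).const_mul _)
    (by simp only [e1]; exact i1.const_mul _) i2
    (fun x _ => (innerSL ℝ u).hasFDerivAt) (fun x _ => hd x)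
  simp only [e1, ContinuousLinearMap.mul_apply', innerSL_apply_apply, integral_const_mul] at key
  linarith



/-- covariance -/
theorem gau_cov {W : E →L[ℝ] E} {c : ℝ} (hc : 0 < c) (hW : Pos c W) (A : E →L[ℝ] E) :
    Integrable (fun z => ⟪z, A z⟫_ℝ * gau W z ^ 2) ∧
    ∫ z, ⟪z, A z⟫_ℝ * gau W z ^ 2 = (1 / 2) * tr (A * Ring.inverse W) * ∫ z, gau W z ^ 2 := by
  set b := stdOrthonormalBasis ℝ E
  have hu := (hW.isUnit hc).1
  have e : ∀ z, ⟪z, A z⟫_ℝ * gau W z ^ 2 =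
      ∑ k, ⟪(A * Ring.inverse W) (b k), z⟫_ℝ * ⟪W z, b k⟫_ℝ * gau W z ^ 2 := fun z => by
    rw [← Finset.sum_mul]
    congr 1
    have h1 : A z = (A * Ring.inverse W) (W z) := by
      rw [← mul_apply_eq_comp, mul_assoc, Ring.inverse_mul_cancel _ hu, mul_one]
    rw [h1]
    conv_lhs => rw [← b.sum_repr' (W z)]
    rw [map_sum, inner_sum]
    refine Finset.sum_congr rfl fun k _ => ?_
    rw [map_smul, real_inner_smul_right, real_inner_comm z, real_inner_comm (W z), mul_comm]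
  simp only [e]
  refine ⟨integrable_finsetSum _ fun k _ => (aosc_ibp hc hW _ _).1, ?_⟩
  rw [integral_finsetSum _ fun k _ => (aosc_ibp hc hW _ _).1]
  simp only [fun k => (aosc_ibp hc hW ((A * Ring.inverse W) (b k)) (b k)).2]
  rw [tr, LinearMap.trace_eq_sum_inner _ b, ← Finset.sum_mul, Finset.mul_sum]
  congr 1
  refine Finset.sum_congr rfl fun k _ => ?_
  rw [real_inner_comm]
  rfl
/-- moments, with the explicit dependence on the lower bound -/
theorem gau_moment (k : ℕ) : ∃ K : ℝ, 0 < K ∧ ∀ (W : E →L[ℝ] E) (c : ℝ), 0 < c → Pos c W →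
    Integrable (fun z => ‖z‖ ^ (2 * k) * gau W z ^ 2) ∧
    ∫ z, ‖z‖ ^ (2 * k) * gau W z ^ 2 ≤ K / c ^ k * ∫ z, gau W z ^ 2 := by
  have hs : (Real.sqrt 2)⁻¹ ≠ 0 := by positivity
  refine ⟨k.factorial * 2 ^ k * |((Real.sqrt 2)⁻¹ ^ Module.finrank ℝ E)⁻¹|, ?_,
    fun W c hc hW => ⟨aosc_int_pow hc hW k, ?_⟩⟩
  · have hf : (0 : ℝ) < k.factorial := by exact_mod_cast k.factorial_pos
    positivity
  · have h1 := ((integrable_comp_smul_iff volume (fun z => gau W z ^ 2) hs).2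
      (aosc_int hc hW)).const_mul (k.factorial * 2 ^ k / c ^ k)
    refine (integral_mono (aosc_int_pow hc hW k) h1 (aosc_pow_le hc hW k)).trans (le_of_eq ?_)
    rw [integral_const_mul, Measure.integral_comp_smul volume (fun z => gau W z ^ 2), smul_eq_mul]
    ring

end Vale.Agent.P353
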