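import Vale.Agent.P353.AOsc
import Vale.Agent.P347.Poincare

open MeasureTheory NormedSpace
open Complex (I)
open scoped InnerProductSpace ContDiff

noncomputable section
namespace Vale.Agent.P353
variable {S E F : Type} [NormedAddCommGroup S] [InnerProductSpace ℝ S] [FiniteDimensional ℝ S]
  [NormedAddCommGroup E] [InnerProductSpace ℝ E] [FiniteDimensional ℝ E]
  [MeasurableSpace E] [BorelSpace E]
  [NormedAddCommGroup F] [InnerProductSpace ℂ F] [CompleteSpace F]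

theorem aosc2_std {d : ℕ} {V G : P347.E d → ℝ} (hc : Continuous V) (h0 : ∀ x, 0 ≤ V x)
    (hmid : ∀ x y, V ((1 / 2 : ℝ) • (x + y)) ≤ (V x + V y) / 2) (hG : ContDiff ℝ 1 G)
    (hs : HasCompactSupport G) :
    (∫ x, G x ^ 2 * Real.exp (-‖x‖ ^ 2 / 2 - V x)) -
      (∫ x, G x * Real.exp (-‖x‖ ^ 2 / 2 - V x)) ^ 2 / ∫ x, Real.exp (-‖x‖ ^ 2 / 2 - V x) ≤
      ∫ x, ‖fderiv ℝ G x‖ ^ 2 * Real.exp (-‖x‖ ^ 2 / 2 - V x) := by
  have := P347.isProb_tilted hc h0
  have key := P347.Poincare_c1c (κ := 0) hc h0 le_rfl (fun x y => by simpa using hmid x y) hG hs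
  rw [ProbabilityTheory.variance_eq_sub (hG.continuous.memLp_of_hasCompactSupport hs),
    P347.Gauss_tilted_eq, integral_tilted, integral_tilted, integral_tilted] at key
  have hZ : 0 < ∫ x : P347.E d, Real.exp (-‖x‖ ^ 2 / 2 - V x) :=
    integral_exp_pos (P347.Gauss_int_tilt hc h0)
  simp only [smul_eq_mul, div_mul_eq_mul_div, integral_div, Pi.pow_apply, add_zero, div_one,
    one_mul] at key
  simp only [mul_comm _ (Real.exp _)]
  generalize (∫ x : P347.E d, Real.exp (-‖x‖ ^ 2 / 2 - V x)) = Z at key hZ ⊢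
  generalize (∫ x : P347.E d, Real.exp (-‖x‖ ^ 2 / 2 - V x) * G x) = A at key ⊢
  generalize (∫ x : P347.E d, Real.exp (-‖x‖ ^ 2 / 2 - V x) * G x ^ 2) = B at key ⊢
  generalize (∫ x : P347.E d, Real.exp (-‖x‖ ^ 2 / 2 - V x) * ‖fderiv ℝ G x‖ ^ 2) = C at key ⊢
  have e : B - A ^ 2 / Z = Z * (B / Z - (A / Z) ^ 2) := by field_simp
  have e' : C = Z * (C / Z) := by field_simp
  rw [e, e']
  exact mul_le_mul_of_nonneg_left key hZ.le

theorem aosc2_real {W : E →L[ℝ] E} {c : ℝ} (hc : 0 < c) (hW : Pos c W) {f : E → ℝ}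
    (hf : ContDiff ℝ 1 f) (hs : HasCompactSupport f) :
    2 * c * ((∫ z, f z ^ 2 * gau W z ^ 2) - (∫ z, f z * gau W z ^ 2) ^ 2 / ∫ z, gau W z ^ 2) ≤
      ∫ z, ‖fderiv ℝ f z‖ ^ 2 * gau W z ^ 2 := by
  set L := (stdOrthonormalBasis ℝ E).repr.symm with hL
  set s : ℝ := (Real.sqrt (2 * c))⁻¹ with hsd
  have hs0 : 0 < s := by positivity
  have hs2 : s ^ 2 = (2 * c)⁻¹ := by rw [hsd, inv_pow, Real.sq_sqrt (by positivity)]
  set T : P347.E (Module.finrank ℝ E) →L[ℝ] E := s • (L : P347.E (Module.finrank ℝ E) →L[ℝ] E)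
    with hT
  have hTx : ∀ x, T x = s • L x := fun x => rfl
  set a : ℝ := |(s ^ Module.finrank ℝ E)⁻¹| with ha
  have ha0 : 0 < a := by positivity
  have hint : ∀ h : E → ℝ, ∫ x, h (T x) = a * ∫ z, h z := fun h => by
    have := L.measurePreserving.integral_comp L.toHomeomorph.measurableEmbedding
      fun z => h (s • z)
    simp only [hTx]
    rw [this, Measure.integral_comp_smul, smul_eq_mul]
  have hn : ∀ x, c * ‖T x‖ ^ 2 = ‖x‖ ^ 2 / 2 := fun x => by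
    rw [hTx, norm_smul, mul_pow, Real.norm_eq_abs, sq_abs, hs2, L.norm_map]
    field_simp
  have h0 : ∀ x, 0 ≤ ⟪T x, W (T x)⟫_ℝ - ‖x‖ ^ 2 / 2 := fun x => by linarith [hW.2 (T x), hn x]
  have hcs : HasCompactSupport fun x => f (T x) :=
    (hs.comp_smul hs0.ne').comp_homeomorph L.toHomeomorph
  have key := aosc2_std (V := fun x => ⟪T x, W (T x)⟫_ℝ - ‖x‖ ^ 2 / 2) (G := fun x => f (T x))
    (by fun_prop) h0 (fun x y => by
      have h1 := h0 ((1 / 2 : ℝ) • (x - y))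
      simp only [map_smul, map_add, map_sub, real_inner_smul_left, real_inner_smul_right,
        inner_add_left, inner_add_right, inner_sub_left, inner_sub_right, norm_smul, mul_pow,
        norm_add_sq_real, norm_sub_sq_real, Real.norm_eq_abs, sq_abs] at h1 ⊢
      linarith) (hf.comp T.contDiff) hcs
  have e0 : ∀ x, Real.exp (-‖x‖ ^ 2 / 2 - (⟪T x, W (T x)⟫_ℝ - ‖x‖ ^ 2 / 2)) = gau W (T x) ^ 2 :=
    fun x => by
      rw [aosc_sq]
      congr 1
      ring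
  have e1 : ∀ x, ‖fderiv ℝ (fun x => f (T x)) x‖ ^ 2 = (2 * c)⁻¹ * ‖fderiv ℝ f (T x)‖ ^ 2 :=
    fun x => by
      have := ((hf.differentiable one_ne_zero (T x)).hasFDerivAt.comp x T.hasFDerivAt).fderiv
      rw [show (fun x => f (T x)) = f ∘ T from rfl, this]
      conv_lhs => rw [hT]
      rw [ContinuousLinearMap.comp_smul, norm_smul, mul_pow, Real.norm_eq_abs, sq_abs, hs2,
        ContinuousLinearMap.opNorm_comp_linearIsometryEquiv]
  simp only [e0, e1, mul_assoc, integral_const_mul] at key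
  rw [hint fun z => f z ^ 2 * gau W z ^ 2, hint fun z => f z * gau W z ^ 2,
    hint fun z => gau W z ^ 2, hint fun z => ‖fderiv ℝ f z‖ ^ 2 * gau W z ^ 2] at key
  generalize (∫ z, gau W z ^ 2) = Z at key ⊢
  generalize (∫ z, f z * gau W z ^ 2) = A at key ⊢
  generalize (∫ z, f z ^ 2 * gau W z ^ 2) = B at key ⊢
  generalize (∫ z, ‖fderiv ℝ f z‖ ^ 2 * gau W z ^ 2) = C at key ⊢
  have e : a * B - (a * A) ^ 2 / (a * Z) = a * (B - A ^ 2 / Z) := by
    rcases eq_or_ne Z 0 with rfl | hZ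
    · simp
    · field_simp
  rw [e, mul_left_comm] at key
  have k2 := le_of_mul_le_mul_left key ha0
  rwa [le_inv_mul_iff₀ (by positivity)] at k2

theorem aosc2_gs {W : E →L[ℝ] E} {c : ℝ} (hc : 0 < c) (hW : Pos c W) {u : E → ℝ}
    (hu : ContDiff ℝ 1 u) (hs : HasCompactSupport u) :
    2 * c * ((∫ z, u z ^ 2) - (∫ z, gau W z * u z) ^ 2 / ∫ z, gau W z ^ 2) ≤
      ∫ z, ∑ k, (fderiv ℝ u z (stdOrthonormalBasis ℝ E k) +
        ⟪W z, stdOrthonormalBasis ℝ E k⟫_ℝ * u z) ^ 2 := by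
  have hq : ContDiff ℝ 1 fun z => Real.exp (⟪z, W z⟫_ℝ / 2) :=
    ((contDiff_id.inner ℝ W.contDiff).div_const 2).exp
  have key := aosc2_real hc hW (f := fun z => Real.exp (⟪z, W z⟫_ℝ / 2) * u z) (hq.mul hu)
    hs.mul_left
  have e0 : ∀ z, Real.exp (⟪z, W z⟫_ℝ / 2) * gau W z = 1 := fun z => by
    rw [gau, ← Real.exp_add, neg_div, add_neg_cancel, Real.exp_zero]
  have e1 : ∀ z, (Real.exp (⟪z, W z⟫_ℝ / 2) * u z) ^ 2 * gau W z ^ 2 = u z ^ 2 := fun z => by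
    calc _ = (Real.exp (⟪z, W z⟫_ℝ / 2) * gau W z) ^ 2 * u z ^ 2 := by ring
      _ = _ := by rw [e0]; ring
  have e2 : ∀ z, (Real.exp (⟪z, W z⟫_ℝ / 2) * u z) * gau W z ^ 2 = gau W z * u z := fun z => by
    calc _ = (Real.exp (⟪z, W z⟫_ℝ / 2) * gau W z) * (gau W z * u z) := by ring
      _ = _ := by rw [e0]; ring
  have e3 : ∀ z, ‖fderiv ℝ (fun z => Real.exp (⟪z, W z⟫_ℝ / 2) * u z) z‖ ^ 2 * gau W z ^ 2 =
      ∑ k, (fderiv ℝ u z (stdOrthonormalBasis ℝ E k) +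
        ⟪W z, stdOrthonormalBasis ℝ E k⟫_ℝ * u z) ^ 2 := fun z => by
    have h1 := ((aosc_quad_deriv hW.1 z).mul_const (2 : ℝ)⁻¹).exp.mul
      (hu.differentiable one_ne_zero z).hasFDerivAt
    have h2 : (fun z => Real.exp (⟪z, W z⟫_ℝ / 2) * u z) =
        (fun z => Real.exp (⟪z, W z⟫_ℝ * 2⁻¹)) * u := by
      funext z
      simp only [div_eq_mul_inv, Pi.mul_apply]
    rw [h2, h1.fderiv, (stdOrthonormalBasis ℝ E).norm_dual, Finset.sum_mul]
    refine Finset.sum_congr rfl fun k _ => ?_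
    simp only [add_apply, smul_apply, innerSL_apply_apply, smul_eq_mul, ← div_eq_mul_inv]
    calc _ = (Real.exp (⟪z, W z⟫_ℝ / 2) * gau W z) ^ 2 * (fderiv ℝ u z (stdOrthonormalBasis ℝ E k) +
        ⟪W z, stdOrthonormalBasis ℝ E k⟫_ℝ * u z) ^ 2 := by ring
      _ = _ := by rw [e0]; ring
  simpa only [e1, e2, e3] using key

omit [CompleteSpace F] in
theorem aosc2_comp [FiniteDimensional ℂ F] : ∃ (ι : Type) (_ : Fintype ι) (ℓ : ι → F →L[ℝ] ℝ),
    ∀ v, ‖v‖ ^ 2 = ∑ j, ℓ j v ^ 2 := by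
  set b := stdOrthonormalBasis ℂ F
  refine ⟨Fin (Module.finrank ℂ F) ⊕ Fin (Module.finrank ℂ F), inferInstance,
    Sum.elim (fun j => Complex.reCLM ∘L (innerSL ℂ (b j)).restrictScalars ℝ)
      (fun j => Complex.imCLM ∘L (innerSL ℂ (b j)).restrictScalars ℝ), fun v => ?_⟩
  rw [← b.sum_sq_norm_inner_right, Fintype.sum_sum_type, ← Finset.sum_add_distrib]
  refine Finset.sum_congr rfl fun j _ => ?_
  rw [Complex.sq_norm, Complex.normSq_apply]
  simp [sq]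

omit [CompleteSpace F] in
theorem aosc2_int {G : Type} [NormedAddCommGroup G] {φ : E → F} (hs : HasCompactSupport φ)
    {H : E → G} (hH : Continuous H) (h0 : ∀ z, φ z = 0 → fderiv ℝ φ z = 0 → H z = 0) :
    Integrable H := by
  refine hH.integrable_of_hasCompactSupport (HasCompactSupport.intro hs fun z hz => h0 z ?_ ?_)
  · exact image_eq_zero_of_notMem_tsupport hz
  · by_contra hne
    exact hz (support_fderiv_subset ℝ (Function.mem_support.2 hne))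



/-- Gaussian Poincare inequality in ground state form (use Vale.Agent.P347.poincare with the zero
tilt after a linear change of variables, componentwise in a real basis of `F`). -/
theorem gau_poincare [FiniteDimensional ℂ F] {W : E →L[ℝ] E} {c : ℝ} (hc : 0 < c) (hW : Pos c W)
    {φ : E → F} (h : Tst φ) :
    2 * c * (n2 φ - ‖∫ z, gau W z • φ z‖ ^ 2 / ∫ z, gau W z ^ 2) ≤
      ∫ z, ∑ k, ‖fderiv ℝ φ z (stdOrthonormalBasis ℝ E k) +
        ⟪W z, stdOrthonormalBasis ℝ E k⟫_ℝ • φ z‖ ^ 2 := by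
  obtain ⟨ι, _, ℓ, hℓ⟩ := aosc2_comp (F := F)
  set b := stdOrthonormalBasis ℝ E
  have cφ : Continuous φ := h.1.continuous
  have cd : Continuous (fderiv ℝ φ) := h.1.continuous_fderiv (by simp)
  have cg := aosc_cont W
  have dφ : Differentiable ℝ φ := h.1.differentiable (by simp)
  have key : ∀ j, 2 * c * ((∫ z, ℓ j (φ z) ^ 2) - (ℓ j (∫ z, gau W z • φ z)) ^ 2 /
      ∫ z, gau W z ^ 2) ≤ ∫ z, ∑ k, ℓ j (fderiv ℝ φ z (b k) + ⟪W z, b k⟫_ℝ • φ z) ^ 2 := fun j => by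
    have h1 := aosc2_gs hc hW (u := fun z => ℓ j (φ z))
      ((ℓ j).contDiff.comp (h.1.of_le (by simp))) (h.2.comp_left (map_zero (ℓ j)))
    have ig : Integrable fun z => gau W z • φ z :=
      aosc2_int h.2 (by fun_prop) fun z h0 _ => by simp [h0]
    rw [← (ℓ j).integral_comp_comm ig]
    have e : ∀ z, fderiv ℝ (fun z => ℓ j (φ z)) z = (ℓ j).comp (fderiv ℝ φ z) := fun z =>
      ((ℓ j).hasFDerivAt.comp z (dφ z).hasFDerivAt).fderiv
    simpa only [e, map_smul, map_add, smul_eq_mul, ContinuousLinearMap.comp_apply] using h1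
  have e1 : n2 φ = ∑ j, ∫ z, ℓ j (φ z) ^ 2 := by
    rw [n2, ← integral_finsetSum]
    · simp only [hℓ]
    · exact fun j _ => aosc2_int h.2 (by fun_prop) fun z h0 _ => by simp [h0]
  have e2 : ∫ z, ∑ k, ‖fderiv ℝ φ z (b k) + ⟪W z, b k⟫_ℝ • φ z‖ ^ 2 =
      ∑ j, ∫ z, ∑ k, ℓ j (fderiv ℝ φ z (b k) + ⟪W z, b k⟫_ℝ • φ z) ^ 2 := by
    rw [← integral_finsetSum]
    · simp only [hℓ]
      exact integral_congr_ae (Filter.Eventually.of_forall fun z => Finset.sum_comm)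
    · exact fun j _ => aosc2_int h.2 (by fun_prop) fun z h0 h1 => by simp [h0, h1]
  rw [e1, e2, hℓ, Finset.sum_div, ← Finset.sum_sub_distrib, Finset.mul_sum]
  exact Finset.sum_le_sum fun j _ => key j

omit [CompleteSpace F] in
theorem aosc2_dir (W : E →L[ℝ] E) {φ : E → F} (h : Tst φ) (v : E) :
    ∫ z, ‖fderiv ℝ φ z v + ⟪W z, v⟫_ℝ • φ z‖ ^ 2 =
      (∫ z, ‖fderiv ℝ φ z v‖ ^ 2) + (∫ z, ⟪W z, v⟫_ℝ ^ 2 * ‖φ z‖ ^ 2) - ⟪W v, v⟫_ℝ * n2 φ := by
  have cφ : Continuous φ := h.1.continuous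
  have cd : Continuous (fderiv ℝ φ) := h.1.continuous_fderiv (by simp)
  have dφ : Differentiable ℝ φ := h.1.differentiable (by simp)
  have hd : ∀ z, HasLineDerivAt ℝ (fun z => ‖φ z‖ ^ 2) (2 * (⟪fderiv ℝ φ z v, φ z⟫_ℂ).re) z v :=
    fun z => by
      have h1 := (Complex.reCLM.hasFDerivAt.comp z
        ((dφ z).hasFDerivAt.inner ℂ (dφ z).hasFDerivAt)).hasLineDerivAt v
      convert h1 using 1
      · funext y
        simp only [Function.comp, Complex.reCLM_apply]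
        exact (inner_self_eq_norm_sq (𝕜 := ℂ) (φ y)).symm
      · simp only [ContinuousLinearMap.comp_apply, fderivInnerCLM_apply,
          ContinuousLinearMap.prod_apply, Complex.reCLM_apply, Complex.add_re]
        have := inner_re_symm (𝕜 := ℂ) (φ z) (fderiv ℝ φ z v)
        simp only [RCLike.re_to_complex] at this
        rw [this]
        ring
  have hl : ∀ z, HasLineDerivAt ℝ (fun z => ⟪W z, v⟫_ℝ) ⟪W v, v⟫_ℝ z v := fun z => by
    have h1 := ((innerSL ℝ v).comp W).hasFDerivAt.hasLineDerivAt (x := z) v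
    simpa only [ContinuousLinearMap.comp_apply, innerSL_apply_apply, real_inner_comm v,
      ContinuousLinearMap.coe_comp, Function.comp_def] using h1
  have i3 : Integrable fun z => ⟪W z, v⟫_ℝ * (2 * (⟪fderiv ℝ φ z v, φ z⟫_ℂ).re) :=
    aosc2_int h.2 (by fun_prop) fun z h0 _ => by simp [h0]
  have key := integral_bilinear_hasLineDerivAt_right_eq_neg_left_of_integrable (μ := volume)
    (f := fun z => ⟪W z, v⟫_ℝ) (f' := fun _ => ⟪W v, v⟫_ℝ) (g := fun z => ‖φ z‖ ^ 2)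
    (g' := fun z => 2 * (⟪fderiv ℝ φ z v, φ z⟫_ℂ).re) (v := v) (B := ContinuousLinearMap.mul ℝ ℝ)
    (aosc2_int h.2 (by fun_prop) fun z h0 _ => by simp [h0]) i3
    (aosc2_int h.2 (by fun_prop) fun z h0 _ => by simp [h0]) (fun z _ => hl z) (fun z _ => hd z)
  simp only [ContinuousLinearMap.mul_apply', integral_const_mul] at key
  have i1 : Integrable fun z => ‖fderiv ℝ φ z v‖ ^ 2 :=
    aosc2_int h.2 (by fun_prop) fun z _ h1 => by simp [h1]
  have i2 : Integrable fun z => ⟪W z, v⟫_ℝ ^ 2 * ‖φ z‖ ^ 2 :=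
    aosc2_int h.2 (by fun_prop) fun z h0 _ => by simp [h0]
  have i12 : Integrable fun z => ‖fderiv ℝ φ z v‖ ^ 2 + ⟪W z, v⟫_ℝ ^ 2 * ‖φ z‖ ^ 2 := i1.add i2
  rw [n2, sub_eq_add_neg, ← key, ← integral_add i1 i2, ← integral_add i12 i3]
  refine integral_congr_ae (Filter.Eventually.of_forall fun z => ?_)
  have := norm_add_sq (𝕜 := ℂ) (fderiv ℝ φ z v) (⟪W z, v⟫_ℝ • φ z)
  beta_reduce
  rw [this, norm_smul, mul_pow, Real.norm_eq_abs, sq_abs, ← Complex.coe_smul, inner_smul_right]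
  simp only [RCLike.re_to_complex, Complex.re_ofReal_mul]
  ring

omit [CompleteSpace F] in
theorem aosc2_sum (W : E →L[ℝ] E) {φ : E → F} (h : Tst φ) {ι : Type} [Fintype ι] (v : ι → E) :
    ∫ z, ∑ k, ‖fderiv ℝ φ z (v k) + ⟪W z, v k⟫_ℝ • φ z‖ ^ 2 =
      (∫ z, ∑ k, ‖fderiv ℝ φ z (v k)‖ ^ 2) + (∫ z, (∑ k, ⟪W z, v k⟫_ℝ ^ 2) * ‖φ z‖ ^ 2) -
        (∑ k, ⟪W (v k), v k⟫_ℝ) * n2 φ := by
  have cφ : Continuous φ := h.1.continuous
  have cd : Continuous (fderiv ℝ φ) := h.1.continuous_fderiv (by simp)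
  simp only [Finset.sum_mul]
  rw [integral_finsetSum, integral_finsetSum, integral_finsetSum, ← Finset.sum_add_distrib,
    ← Finset.sum_sub_distrib]
  · exact Finset.sum_congr rfl fun k _ => aosc2_dir W h (v k)
  · exact fun j _ => aosc2_int h.2 (by fun_prop) fun z h0 _ => by simp [h0]
  · exact fun j _ => aosc2_int h.2 (by fun_prop) fun z _ h1 => by simp [h1]
  · exact fun j _ => aosc2_int h.2 (by fun_prop) fun z h0 h1 => by simp [h0, h1]



/-- Oscillator with the kinetic metric `1 + ∑ T w ⊗ T w` (`T : D → E`): ground state energy and gap.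
With `K = 1 + T T^*` the potential is `⟨W z, K W z⟩ / 2`. -/
theorem osc_gap [FiniteDimensional ℂ F] {D : Type} [NormedAddCommGroup D] [InnerProductSpace ℝ D]
    [FiniteDimensional ℝ D] (T : D →L[ℝ] E) {W : E →L[ℝ] E} {c : ℝ} (hc : 0 < c) (hW : Pos c W)
    {φ : E → F} (h : Tst φ) :
    (1 / 2) * (tr W + tr (T.adjoint ∘L W ∘L T)) * n2 φ +
        c * (n2 φ - ‖∫ z, gau W z • φ z‖ ^ 2 / ∫ z, gau W z ^ 2) ≤
      kin φ + (1 / 2) * (∫ z, ∑ k, ‖fderiv ℝ φ z (T (stdOrthonormalBasis ℝ D k))‖ ^ 2) +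
        wt (fun z => (1 / 2) * (‖W z‖ ^ 2 + ‖T.adjoint (W z)‖ ^ 2)) φ := by
  set b := stdOrthonormalBasis ℝ E
  set e := stdOrthonormalBasis ℝ D
  have cφ : Continuous φ := h.1.continuous
  have cd : Continuous (fderiv ℝ φ) := h.1.continuous_fderiv (by simp)
  have hP := gau_poincare hc hW h
  have hA := aosc2_sum W h fun k => b k
  have hB := aosc2_sum W h fun k => T (e k)
  have hB0 : 0 ≤ ∫ z, ∑ k, ‖fderiv ℝ φ z (T (e k)) + ⟪W z, T (e k)⟫_ℝ • φ z‖ ^ 2 :=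
    integral_nonneg fun z => Finset.sum_nonneg fun k _ => sq_nonneg _
  have t1 : ∑ k, ⟪W (b k), b k⟫_ℝ = tr W := by
    rw [tr, LinearMap.trace_eq_sum_inner _ b]
    exact Finset.sum_congr rfl fun k _ => real_inner_comm _ _
  have t2 : ∑ k, ⟪W (T (e k)), T (e k)⟫_ℝ = tr (T.adjoint ∘L W ∘L T) := by
    rw [tr, LinearMap.trace_eq_sum_inner _ e]
    refine Finset.sum_congr rfl fun k _ => ?_
    rw [real_inner_comm, ← ContinuousLinearMap.adjoint_inner_right]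
    rfl
  have s1 : ∀ z, ∑ k, ⟪W z, b k⟫_ℝ ^ 2 = ‖W z‖ ^ 2 := fun z => b.sum_sq_inner_left _
  have s2 : ∀ z, ∑ k, ⟪W z, T (e k)⟫_ℝ ^ 2 = ‖T.adjoint (W z)‖ ^ 2 := fun z => by
    rw [← e.sum_sq_inner_left]
    simp only [ContinuousLinearMap.adjoint_inner_left]
  simp only [t1, s1] at hA
  simp only [t2, s2] at hB
  have hw : wt (fun z => (1 / 2) * (‖W z‖ ^ 2 + ‖T.adjoint (W z)‖ ^ 2)) φ =
      (1 / 2) * ((∫ z, ‖W z‖ ^ 2 * ‖φ z‖ ^ 2) + ∫ z, ‖T.adjoint (W z)‖ ^ 2 * ‖φ z‖ ^ 2) := by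
    rw [wt, ← integral_add, ← integral_const_mul]
    · exact integral_congr_ae (Filter.Eventually.of_forall fun z => by ring)
    · exact aosc2_int h.2 (by fun_prop) fun z h0 _ => by simp [h0]
    · exact aosc2_int h.2 (by fun_prop) fun z h0 _ => by simp [h0]
  have hk : kin φ = (1 / 2) * ∫ z, ∑ k, ‖fderiv ℝ φ z (b k)‖ ^ 2 := rfl
  rw [hw, hk]
  linarith

end Vale.Agent.P353
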