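import Vale.Agent.P353.AMod0

open MeasureTheory NormedSpace
open Complex (I)
open scoped InnerProductSpace ContDiff

noncomputable section
namespace Vale.Agent.P353
variable {V F : Type} [NormedAddCommGroup V] [InnerProductSpace ℝ V] [FiniteDimensional ℝ V]
  [MeasurableSpace V] [BorelSpace V]
  [NormedAddCommGroup F] [InnerProductSpace ℂ F] [CompleteSpace F]

/-! Scaling `x ↦ R x`. -/

theorem ascale_int (f : EE V → ℝ) {R : ℝ} (hR : 0 < R) (c : ℝ) {g : EE V → ℝ}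
    (hg : ∀ x, g x = c * f (R • x)) :
    ∫ x, g x = (R ^ Module.finrank ℝ (EE V))⁻¹ * c * ∫ x, f x := by
  simp only [hg]
  rw [integral_const_mul, Measure.integral_comp_smul_of_nonneg volume f R (hR := hR.le),
    smul_eq_mul]
  ring

theorem Tst.scale {φ : EE V → F} (h : Tst φ) {R : ℝ} (hR : 0 < R) : Tst fun x => φ (R • x) :=
  ⟨h.1.comp (contDiff_const_smul R), h.2.comp_smul hR.ne'⟩

theorem tsupport_scale (φ : EE V → F) {R : ℝ} (hR : 0 < R) {x : EE V} :
    x ∈ tsupport (fun x => φ (R • x)) ↔ R • x ∈ tsupport φ := by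
  have h := (Homeomorph.smulOfNeZero R hR.ne' : EE V ≃ₜ EE V).preimage_closure (Function.support φ)
  exact (Set.ext_iff.1 h x).symm

theorem Mod.Inv.scale {M : Mod V F} {φ : EE V → F} (h : M.Inv φ) (R : ℝ) :
    M.Inv fun x => φ (R • x) := fun ξ x => by
  beta_reduce
  rw [← map_smul]
  exact h ξ _

theorem Mod.RInv.scale {M : Mod V F} {G : Gam} {A : M9} {φ : EE V → F} (h : M.RInv G A φ) (R : ℝ) :
    M.RInv G A fun x => φ (R • x) := fun t x => by
  beta_reduce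
  rw [← map_smul]
  exact h t _

theorem wt_scale (w : EE V → ℝ) (φ : EE V → F) {R : ℝ} (hR : 0 < R) :
    wt (fun x => w (R • x)) (fun x => φ (R • x)) =
      (R ^ Module.finrank ℝ (EE V))⁻¹ * wt w φ := by
  have h := ascale_int (fun x => w x * ‖φ x‖ ^ 2) hR 1 fun x => (one_mul _).symm
  rw [mul_one] at h
  exact h

theorem n2_scale (φ : EE V → F) {R : ℝ} (hR : 0 < R) :
    n2 (fun x => φ (R • x)) = (R ^ Module.finrank ℝ (EE V))⁻¹ * n2 φ := by
  have h := ascale_int (fun x => ‖φ x‖ ^ 2) hR 1 fun x => (one_mul _).symm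
  rw [mul_one] at h
  exact h

theorem Mod.q_scale (M : Mod V F) (P : Par) (lam mu : ℝ) {φ : EE V → F} (h : Tst φ) {R : ℝ}
    (hR : 0 < R) : M.q P (lam * R ^ 3) (mu * R ^ 2) (fun x => φ (R • x)) =
      (R ^ Module.finrank ℝ (EE V))⁻¹ * R ^ 2 * M.q P lam mu φ := by
  obtain ⟨Γ, hΓ⟩ := Gm_clm P.toGam M.L
  have h1 := ascale_int (g2 φ) hR (R ^ 2) (g := g2 fun x => φ (R • x)) fun x => by
    have h2 : fderiv ℝ (fun x => φ (R • x)) x = R • fderiv ℝ φ (R • x) := fderiv_comp_smul R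
    rw [g2, g2, h2, Finset.mul_sum]
    refine Finset.sum_congr rfl fun k _ => ?_
    rw [smul_apply, norm_smul, mul_pow, Real.norm_eq_abs, sq_abs]
  have h2 := ascale_int
    (fun x => (1 / 2) * ‖lam • s0 P.toGam M.L P.e x + mu • P.s1 x‖ ^ 2 * ‖φ x‖ ^ 2) hR (R ^ 2)
    (g := fun x => (1 / 2) * ‖(lam * R ^ 3) • s0 P.toGam M.L P.e x + (mu * R ^ 2) • P.s1 x‖ ^ 2 *
      ‖φ (R • x)‖ ^ 2) fun x => by
    have e : (lam * R ^ 3) • s0 P.toGam M.L P.e x + (mu * R ^ 2) • P.s1 x =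
        R • (lam • s0 P.toGam M.L P.e (R • x) + mu • P.s1 (R • x)) := by
      rw [s0_smul, map_smul]
      module
    rw [e, norm_smul, mul_pow, Real.norm_eq_abs, sq_abs]
    ring
  have h3 := ascale_int
    (fun x => (⟪φ x, (I • M.C.spin ((-lam) • Gm P.toGam M.L x + mu • mat P.M1)) (φ x)⟫_ℂ).re) hR
    (R ^ 2) (g := fun x => (⟪φ (R • x), (I • M.C.spin ((-(lam * R ^ 3)) • Gm P.toGam M.L x +
      (mu * R ^ 2) • mat P.M1)) (φ (R • x))⟫_ℂ).re) fun x => by
    have e : (-(lam * R ^ 3)) • Gm P.toGam M.L x + (mu * R ^ 2) • mat P.M1 =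
        (R ^ 2) • ((-lam) • Gm P.toGam M.L (R • x) + mu • mat P.M1) := by
      rw [← hΓ, ← hΓ, map_smul]
      module
    rw [e, Cl.spin_smul, smul_comm I, smul_apply, ← Complex.coe_smul,
      inner_smul_right, Complex.re_ofReal_mul]
  simp only [Mod.q, sch, kin, wt, opf]
  rw [h1, h2, h3]
  ring

end Vale.Agent.P353
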