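import Vale.Agent.P353.Defs

open MeasureTheory NormedSpace
open Complex (I)
open scoped InnerProductSpace ContDiff

noncomputable section
namespace Vale.Agent.P353
variable {S F : Type} [NormedAddCommGroup S] [InnerProductSpace ℝ S] [FiniteDimensional ℝ S]
  [NormedAddCommGroup F] [InnerProductSpace ℂ F] [CompleteSpace F]

theorem aspin_frame {S A : Type} [NormedAddCommGroup S] [InnerProductSpace ℝ S]
    [AddCommGroup A] [Module ℝ A] (B : S →ₗ[ℝ] S →ₗ[ℝ] A) {ι κ : Type} [Fintype ι] [Fintype κ]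
    (b : OrthonormalBasis ι ℝ S) (c c' : κ → S) (T : S → S)
    (hc : ∀ x, ∑ k, ⟪c' k, x⟫_ℝ • c k = T x) :
    ∑ a, B (T (b a)) (b a) = ∑ k, B (c k) (c' k) := by
  have h1 : ∀ a, B (T (b a)) (b a) = ∑ k, ⟪c' k, b a⟫_ℝ • B (c k) (b a) := fun a => by
    rw [← hc, map_sum, LinearMap.sum_apply]
    simp only [map_smul, LinearMap.smul_apply]
  have h2 : ∀ k, B (c k) (c' k) = ∑ a, ⟪c' k, b a⟫_ℝ • B (c k) (b a) := fun k => by
    conv_lhs => rw [← b.sum_repr' (c' k), map_sum]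
    simp only [map_smul, real_inner_comm]
  simp only [h1, h2]
  exact Finset.sum_comm

/-- Basis independence: a bilinear sum over any orthonormal basis. -/
theorem sum_onb {S A : Type} [NormedAddCommGroup S] [InnerProductSpace ℝ S] [FiniteDimensional ℝ S]
    [AddCommGroup A] [Module ℝ A] (B : S →ₗ[ℝ] S →ₗ[ℝ] A) {ι κ : Type} [Fintype ι] [Fintype κ]
    (b : OrthonormalBasis ι ℝ S) (c : OrthonormalBasis κ ℝ S) :
    ∑ a, B (b a) (b a) = ∑ a, B (c a) (c a) := by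
  exact aspin_frame B b c c (fun x => x) c.sum_repr'

/-- Splitting a bilinear basis sum along an orthogonal decomposition given by two isometries. -/
theorem sum_onb_split {S S1 S2 A : Type} [NormedAddCommGroup S] [InnerProductSpace ℝ S]
    [FiniteDimensional ℝ S] [NormedAddCommGroup S1] [InnerProductSpace ℝ S1]
    [FiniteDimensional ℝ S1] [NormedAddCommGroup S2] [InnerProductSpace ℝ S2]
    [FiniteDimensional ℝ S2] [AddCommGroup A] [Module ℝ A] (B : S →ₗ[ℝ] S →ₗ[ℝ] A)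
    (j1 : S1 →L[ℝ] S) (j2 : S2 →L[ℝ] S) (h1 : ∀ u v, ⟪j1 u, j1 v⟫_ℝ = ⟪u, v⟫_ℝ)
    (h2 : ∀ u v, ⟪j2 u, j2 v⟫_ℝ = ⟪u, v⟫_ℝ) (h12 : ∀ u v, ⟪j1 u, j2 v⟫_ℝ = 0)
    (hs : ∀ x, ∃ u v, x = j1 u + j2 v) :
    ∑ a, B (stdOrthonormalBasis ℝ S a) (stdOrthonormalBasis ℝ S a) =
      ∑ a, B (j1 (stdOrthonormalBasis ℝ S1 a)) (j1 (stdOrthonormalBasis ℝ S1 a)) +
      ∑ a, B (j2 (stdOrthonormalBasis ℝ S2 a)) (j2 (stdOrthonormalBasis ℝ S2 a)) := by
  rw [aspin_frame B (stdOrthonormalBasis ℝ S)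
    (Sum.elim (fun a => j1 (stdOrthonormalBasis ℝ S1 a)) fun a => j2 (stdOrthonormalBasis ℝ S2 a))
    (Sum.elim (fun a => j1 (stdOrthonormalBasis ℝ S1 a)) fun a => j2 (stdOrthonormalBasis ℝ S2 a))
    (fun x => x) fun x => ?_, Fintype.sum_sum_type]
  · rfl
  obtain ⟨u, v, rfl⟩ := hs x
  have h21 : ∀ u v, ⟪j2 v, j1 u⟫_ℝ = 0 := fun u v => by rw [real_inner_comm, h12]
  simp only [Fintype.sum_sum_type, Sum.elim_inl, Sum.elim_inr, inner_add_right, h1, h2, h12, h21,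
    add_zero, zero_add, ← map_smul, ← map_sum, OrthonormalBasis.sum_repr']

theorem tr_eq_sum {ι : Type} [Fintype ι] (b : OrthonormalBasis ι ℝ S) (T : S →L[ℝ] S) :
    tr T = ∑ a, ⟪b a, T (b a)⟫_ℝ := by
  exact LinearMap.trace_eq_sum_inner T.toLinearMap b
omit [FiniteDimensional ℝ S] in
theorem aspin_self {T : S →L[ℝ] S} (h : Skew T) (u : S) : ⟪T u, u⟫_ℝ = 0 := by
  have h1 := h u u
  rw [real_inner_comm (T u) u] at h1
  linarith

theorem tr_skew {T : S →L[ℝ] S} (h : Skew T) : tr T = 0 := by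
  rw [tr_eq_sum (stdOrthonormalBasis ℝ S)]
  exact Finset.sum_eq_zero fun a _ => (real_inner_comm _ _).trans (aspin_self h _)
theorem tr_symm_mul_skew {A T : S →L[ℝ] S} (hA : Symm A) (h : Skew T) : tr (A * T) = 0 := by
  have h1 : tr (A * T) = tr (T * A) := LinearMap.trace_mul_comm ℝ A.toLinearMap T.toLinearMap
  have h2 : tr (A * T) = -tr (T * A) := by
    rw [tr_eq_sum (stdOrthonormalBasis ℝ S), tr_eq_sum (stdOrthonormalBasis ℝ S),
      ← Finset.sum_neg_distrib]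
    refine Finset.sum_congr rfl fun a _ => ?_
    rw [ContinuousLinearMap.mul_apply, ContinuousLinearMap.mul_apply, ← hA, real_inner_comm, h]
  linarith
theorem tr_mul_comm (A B : S →L[ℝ] S) : tr (A * B) = tr (B * A) := by
  exact LinearMap.trace_mul_comm ℝ A.toLinearMap B.toLinearMap

/-- the bilinear map behind the spin lift -/
def aspinB (C : Cl S F) (T : S →L[ℝ] S) : S →ₗ[ℝ] S →ₗ[ℝ] (F →L[ℂ] F) :=
  LinearMap.mk₂ ℝ (fun u v => C.th (T u) * C.th v) (fun _ _ _ => by simp only [map_add, add_mul])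
    (fun _ _ _ => by simp only [map_smul, smul_mul_assoc])
    (fun _ _ _ => by simp only [map_add, mul_add])
    (fun _ _ _ => by simp only [map_smul, mul_smul_comm])

omit [FiniteDimensional ℝ S] in
theorem aspin_swap (C : Cl S F) (U : S →L[ℝ] S) {T T' : S →L[ℝ] S}
    (h : ∀ u v, ⟪T' u, v⟫_ℝ = ⟪u, T v⟫_ℝ) {ι : Type} [Fintype ι] (b : OrthonormalBasis ι ℝ S) :
    ∑ a, C.th (U (T (b a))) * C.th (b a) = ∑ a, C.th (U (b a)) * C.th (T' (b a)) :=
  aspin_frame (aspinB C U) b b (fun a => T' (b a)) T fun x => by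
    simp only [h, OrthonormalBasis.sum_repr']

theorem Cl.spin_onb (C : Cl S F) (T : S →L[ℝ] S) {ι : Type} [Fintype ι]
    (b : OrthonormalBasis ι ℝ S) : C.spin T = (1 / 2 : ℝ) • ∑ a, C.th (T (b a)) * C.th (b a) := by
  exact congrArg _ (sum_onb (aspinB C T) _ b)
theorem Cl.spin_add (C : Cl S F) (T U : S →L[ℝ] S) : C.spin (T + U) = C.spin T + C.spin U := by
  simp only [Cl.spin, add_apply, map_add, add_mul, Finset.sum_add_distrib, smul_add]
theorem Cl.spin_smul (C : Cl S F) (c : ℝ) (T : S →L[ℝ] S) : C.spin (c • T) = c • C.spin T := by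
  simp only [Cl.spin, smul_apply, map_smul, smul_mul_assoc, ← Finset.smul_sum]
  exact smul_comm _ _ _
/-- spin as a continuous linear map -/
theorem Cl.spin_clm (C : Cl S F) :
    ∃ σ : (S →L[ℝ] S) →L[ℝ] (F →L[ℂ] F), ∀ T, σ T = C.spin T := by
  exact ⟨LinearMap.toContinuousLinearMap ⟨⟨C.spin, C.spin_add⟩, C.spin_smul⟩, fun _ => rfl⟩
theorem Cl.th_sq (C : Cl S F) (u : S) : C.th u * C.th u = (‖u‖ ^ 2 / 2 : ℝ) • (1 : F →L[ℂ] F) := by
  have h := C.car u u
  rw [← two_smul ℝ, real_inner_self_eq_norm_sq] at h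
  rw [div_eq_inv_mul, mul_smul, ← h, smul_smul]
  simp
theorem Cl.norm_th_apply (C : Cl S F) (u : S) (w : F) : ‖C.th u w‖ ^ 2 = ‖u‖ ^ 2 / 2 * ‖w‖ ^ 2 := by
  have h1 : ⟪C.th u w, C.th u w⟫_ℂ = ⟪w, (C.th u * C.th u) w⟫_ℂ := (C.sa u).isSymmetric w _
  rw [← inner_self_eq_norm_sq (𝕜 := ℂ), h1, C.th_sq, smul_apply, ContinuousLinearMap.one_apply,
    ← Complex.coe_smul, inner_smul_right, ← inner_self_eq_norm_sq (𝕜 := ℂ) w]
  exact Complex.re_ofReal_mul _ _
theorem Cl.norm_th_le (C : Cl S F) (u : S) : ‖C.th u‖ ≤ ‖u‖ := by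
  refine ContinuousLinearMap.opNorm_le_bound _ (norm_nonneg _) fun w => ?_
  refine le_of_sq_le_sq ?_ (by positivity)
  rw [C.norm_th_apply, mul_pow]
  exact mul_le_mul_of_nonneg_right (half_le_self (by positivity)) (by positivity)
theorem Cl.norm_spin_le (C : Cl S F) (T : S →L[ℝ] S) :
    ‖C.spin T‖ ≤ Module.finrank ℝ S * ‖T‖ := by
  have h1 : ‖∑ a, C.th (T (stdOrthonormalBasis ℝ S a)) * C.th (stdOrthonormalBasis ℝ S a)‖ ≤
      Module.finrank ℝ S * ‖T‖ := by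
    refine (norm_sum_le _ _).trans ((Finset.sum_le_card_nsmul _ _ ‖T‖ fun a _ => ?_).trans ?_)
    · have h2 := (stdOrthonormalBasis ℝ S).norm_eq_one a
      have h3 := T.le_opNorm (stdOrthonormalBasis ℝ S a)
      have h4 := C.norm_th_le (stdOrthonormalBasis ℝ S a)
      rw [h2] at h3 h4
      exact (norm_mul_le _ _).trans (mul_le_mul ((C.norm_th_le _).trans (by simpa using h3)) h4
        (norm_nonneg _) (norm_nonneg _) |>.trans_eq (mul_one _))
    · simp
  rw [Cl.spin, norm_smul]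
  refine (mul_le_of_le_one_left (norm_nonneg _) ?_).trans h1
  norm_num
theorem Cl.spin_comm (C : Cl S F) {T : S →L[ℝ] S} (h : Skew T) (u : S) :
    C.spin T * C.th u - C.th u * C.spin T = C.th (T u) := by
  have h1 : ∀ a : S, C.th (T a) * C.th a * C.th u - C.th u * (C.th (T a) * C.th a) =
      ⟪a, u⟫_ℝ • C.th (T a) + ⟪a, T u⟫_ℝ • C.th a := fun a => by
    have h2 : C.th (T a) * C.th a * C.th u - C.th u * (C.th (T a) * C.th a) =
        C.th (T a) * (C.th a * C.th u + C.th u * C.th a) -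
          (C.th (T a) * C.th u + C.th u * C.th (T a)) * C.th a := by noncomm_ring
    rw [h2, C.car, C.car, h, mul_smul_comm, smul_mul_assoc, mul_one, one_mul, neg_smul,
      sub_neg_eq_add]
  rw [Cl.spin, smul_mul_assoc, mul_smul_comm, ← smul_sub, Finset.sum_mul, Finset.mul_sum,
    ← Finset.sum_sub_distrib]
  simp only [h1, Finset.sum_add_distrib, ← map_smul, ← map_sum, OrthonormalBasis.sum_repr']
  rw [← two_smul ℝ, smul_smul]
  simp
theorem Cl.spin_star (C : Cl S F) {T : S →L[ℝ] S} (h : Skew T) : star (C.spin T) = -C.spin T := by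
  rw [Cl.spin, star_smul, star_sum, ← smul_neg, ← Finset.sum_neg_distrib, star_trivial]
  refine congrArg _ (Finset.sum_congr rfl fun a _ => ?_)
  have h1 := C.car (T (stdOrthonormalBasis ℝ S a)) (stdOrthonormalBasis ℝ S a)
  rw [aspin_self h, zero_smul] at h1
  rw [star_mul, (C.sa _).star_eq, (C.sa _).star_eq]
  exact eq_neg_of_add_eq_zero_right h1
theorem Cl.spin_symm (C : Cl S F) {T : S →L[ℝ] S} (h : Symm T) :
    C.spin T = (tr T / 4 : ℝ) • (1 : F →L[ℂ] F) := by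
  have h1 := aspin_swap C 1 h (stdOrthonormalBasis ℝ S)
  simp only [ContinuousLinearMap.one_apply] at h1
  have h2 : (2 : ℝ) • ∑ a, C.th (T (stdOrthonormalBasis ℝ S a)) * C.th (stdOrthonormalBasis ℝ S a) =
      tr T • (1 : F →L[ℂ] F) := by
    rw [two_smul]
    nth_rw 1 [h1]
    rw [← Finset.sum_add_distrib, tr_eq_sum (stdOrthonormalBasis ℝ S), Finset.sum_smul]
    exact Finset.sum_congr rfl fun a _ => C.car _ _
  rw [div_eq_inv_mul, mul_smul, ← h2, smul_smul, Cl.spin]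
  norm_num
theorem Cl.spin_lie (C : Cl S F) {T U : S →L[ℝ] S} (hT : Skew T) (hU : Skew U) :
    C.spin T * C.spin U - C.spin U * C.spin T = C.spin (T * U - U * T) := by
  have h1 : ∀ a : S, C.spin T * (C.th (U a) * C.th a) - C.th (U a) * C.th a * C.spin T =
      C.th (T (U a)) * C.th a + C.th (U a) * C.th (T a) := fun a => by
    rw [← C.spin_comm hT, ← C.spin_comm hT]
    noncomm_ring
  have h2 := aspin_swap C U (T := -T) (T' := T) (fun u v => by rw [hT, neg_apply, inner_neg_right])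
    (stdOrthonormalBasis ℝ S)
  rw [Cl.spin.eq_1 C U, smul_mul_assoc, mul_smul_comm, ← smul_sub, Finset.sum_mul, Finset.mul_sum,
    ← Finset.sum_sub_distrib, Cl.spin.eq_1 C (T * U - U * T)]
  simp only [h1, Finset.sum_add_distrib, ← h2, add_apply, neg_apply, map_neg, neg_mul,
    ContinuousLinearMap.mul_apply, Finset.sum_neg_distrib, sub_eq_add_neg, add_mul, map_add]
/-- an operator that factors through an isometry has the spin of the restricted module -/
theorem Cl.spin_res {S' : Type} [NormedAddCommGroup S'] [InnerProductSpace ℝ S']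
    [FiniteDimensional ℝ S'] (C : Cl S F) (j : S' →L[ℝ] S)
    (hj : ∀ u v, ⟪j u, j v⟫_ℝ = ⟪u, v⟫_ℝ) (T : S →L[ℝ] S) (T' : S' →L[ℝ] S')
    (h1 : ∀ u, T (j u) = j (T' u)) (h2 : ∀ x, (∀ u, ⟪j u, x⟫_ℝ = 0) → T x = 0) :
    C.spin T = (C.res j hj).spin T' := by
  have h3 := sum_onb_split (aspinB C T) j (LinearMap.range j.toLinearMap)ᗮ.subtypeL hj
    (fun _ _ => rfl) (fun u v => v.2 _ ⟨u, rfl⟩) fun x => by
      obtain ⟨_, ⟨u, rfl⟩, z, hz, rfl⟩ :=
        (LinearMap.range j.toLinearMap).exists_add_mem_mem_orthogonal x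
      exact ⟨u, ⟨z, hz⟩, rfl⟩
  have h4 : ∀ v : (LinearMap.range j.toLinearMap)ᗮ,
      T ((LinearMap.range j.toLinearMap)ᗮ.subtypeL v) = 0 :=
    fun v => h2 _ fun u => v.2 _ ⟨u, rfl⟩
  simp only [aspinB, LinearMap.mk₂_apply, h1, h4, map_zero, zero_mul, Finset.sum_const_zero,
    add_zero] at h3
  rw [Cl.spin, h3]
  rfl

end Vale.Agent.P353
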