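import Vale.Agent.P353.AForm0

open MeasureTheory NormedSpace
open Complex (I)
open scoped InnerProductSpace ContDiff

noncomputable section
namespace Vale.Agent.P353

/-! Abstract splitting of Schroedinger forms along an orthogonal decomposition. -/

/-- an orthogonal decomposition given by two isometries -/
structure SplDec {E E1 E2 : Type} [NormedAddCommGroup E] [InnerProductSpace ℝ E]
    [NormedAddCommGroup E1] [InnerProductSpace ℝ E1] [NormedAddCommGroup E2]
    [InnerProductSpace ℝ E2] (j1 : E1 →L[ℝ] E) (j2 : E2 →L[ℝ] E) : Prop where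
  h1 : ∀ u v, ⟪j1 u, j1 v⟫_ℝ = ⟪u, v⟫_ℝ
  h2 : ∀ u v, ⟪j2 u, j2 v⟫_ℝ = ⟪u, v⟫_ℝ
  h12 : ∀ u v, ⟪j1 u, j2 v⟫_ℝ = 0
  hs : ∀ x, ∃ u v, x = j1 u + j2 v

section
variable {E E1 E2 F : Type} [NormedAddCommGroup E] [InnerProductSpace ℝ E]
  [NormedAddCommGroup E1] [InnerProductSpace ℝ E1] [NormedAddCommGroup E2]
  [InnerProductSpace ℝ E2] [NormedAddCommGroup F] [InnerProductSpace ℂ F] [CompleteSpace F]
  {j1 : E1 →L[ℝ] E} {j2 : E2 →L[ℝ] E}

theorem SplDec.symm (h : SplDec j1 j2) : SplDec j2 j1 :=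
  ⟨h.h2, h.h1, fun u v => by rw [real_inner_comm, h.h12], fun x => by
    obtain ⟨u, v, rfl⟩ := h.hs x
    exact ⟨v, u, add_comm _ _⟩⟩

theorem SplDec.norm1 (h : SplDec j1 j2) (u : E1) : ‖j1 u‖ = ‖u‖ := by
  rw [@norm_eq_sqrt_re_inner ℝ, @norm_eq_sqrt_re_inner ℝ _ _ _ _ u, h.h1]

theorem SplDec.norm_sq (h : SplDec j1 j2) (u : E1) (v : E2) :
    ‖j1 u + j2 v‖ ^ 2 = ‖u‖ ^ 2 + ‖v‖ ^ 2 := by
  rw [norm_add_sq_real, h.h12, h.norm1, h.symm.norm1]
  ring

theorem SplDec.isometry (h : SplDec j1 j2) (c : E) : Isometry fun u => j1 u + c :=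
  Isometry.of_dist_eq fun a b => by
    rw [dist_add_right, dist_eq_norm, dist_eq_norm, ← map_sub, h.norm1]

theorem SplDec.exists_equiv (h : SplDec j1 j2) :
    ∃ e : WithLp 2 (E1 × E2) ≃ₗᵢ[ℝ] E, ∀ u v, e (WithLp.toLp 2 (u, v)) = j1 u + j2 v := by
  let f : WithLp 2 (E1 × E2) →ₗ[ℝ] E :=
    (j1.toLinearMap.coprod j2.toLinearMap) ∘ₗ (WithLp.linearEquiv 2 ℝ (E1 × E2)).toLinearMap
  have hf : ∀ p : WithLp 2 (E1 × E2), f p = j1 p.fst + j2 p.snd := fun p => rfl
  have hi : ∀ p q, ⟪f p, f q⟫_ℝ = ⟪p, q⟫_ℝ := by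
    intro p q
    rw [hf, hf, inner_add_left, inner_add_right, inner_add_right, h.h1, h.h2, h.h12,
      h.symm.h12, WithLp.prod_inner_apply]
    simp
  refine ⟨LinearIsometryEquiv.ofSurjective (f.isometryOfInner hi) fun x => ?_, fun u v => rfl⟩
  obtain ⟨u, v, rfl⟩ := h.hs x
  exact ⟨WithLp.toLp 2 (u, v), rfl⟩

variable [FiniteDimensional ℝ E] [FiniteDimensional ℝ E1] [FiniteDimensional ℝ E2]

theorem SplDec.spin (h : SplDec j1 j2) (C : Cl E F) (T : E →L[ℝ] E) (T1 : E1 →L[ℝ] E1)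
    (T2 : E2 →L[ℝ] E2) (h1 : ∀ u, T (j1 u) = j1 (T1 u)) (h2 : ∀ u, T (j2 u) = j2 (T2 u)) :
    C.spin T = (C.res j1 h.h1).spin T1 + (C.res j2 h.h2).spin T2 := by
  let B : E →ₗ[ℝ] E →ₗ[ℝ] (F →L[ℂ] F) := LinearMap.mk₂ ℝ (fun a b => C.th (T a) * C.th b)
    (fun a a' b => by simp only [map_add, add_mul])
    (fun c a b => by simp only [map_smul, smul_mul_assoc])
    (fun a b b' => by simp only [map_add, mul_add])
    (fun c a b => by simp only [map_smul, mul_smul_comm])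
  have key := sum_onb_split B j1 j2 h.h1 h.h2 h.h12 h.hs
  simp only [B, LinearMap.mk₂_apply, h1, h2] at key
  unfold Cl.spin
  rw [key, smul_add]
  rfl

/-- the part of the squared derivative along `j` -/
def splG {E1 : Type} [NormedAddCommGroup E1] [InnerProductSpace ℝ E1] [FiniteDimensional ℝ E1]
    (j : E1 →L[ℝ] E) (f : E → F) (x : E) : ℝ :=
  ∑ k, ‖fderiv ℝ f x (j (stdOrthonormalBasis ℝ E1 k))‖ ^ 2

theorem SplDec.g2_eq (h : SplDec j1 j2) (f : E → F) (x : E) : g2 f x = splG j1 f x + splG j2 f x := by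
  obtain ⟨e, he⟩ := h.exists_equiv
  letI : MeasurableSpace E := borel E
  haveI : BorelSpace E := ⟨rfl⟩
  rw [g2_onb (((stdOrthonormalBasis ℝ E1).prod (stdOrthonormalBasis ℝ E2)).map e),
    Fintype.sum_sum_type]
  unfold splG
  congr 1
  · refine Finset.sum_congr rfl fun k _ => ?_
    have e1 := he (stdOrthonormalBasis ℝ E1 k) 0
    rw [map_zero, add_zero] at e1
    rw [← e1]
    simp
  · refine Finset.sum_congr rfl fun k _ => ?_
    have e1 := he 0 (stdOrthonormalBasis ℝ E2 k)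
    rw [map_zero, zero_add] at e1
    rw [← e1]
    simp

theorem SplDec.tst (h : SplDec j1 j2) {f : E → F} (hf : Tst f) (c : E) : Tst fun u => f (j1 u + c) :=
  ⟨hf.1.comp (j1.contDiff.add contDiff_const),
    hf.2.comp_isClosedEmbedding (h.isometry c).isClosedEmbedding⟩

theorem spl_g2_slice {f : E → F} (hf : Tst f) (c : E) (u : E1) :
    g2 (fun u => f (j1 u + c)) u = splG j1 f (j1 u + c) := by
  have hd : HasFDerivAt f (fderiv ℝ f (j1 u + c)) (j1 u + c) :=
    ((hf.1.differentiable (by simp)) _).hasFDerivAt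
  have h2 : HasFDerivAt (fun u => j1 u + c) j1 u := j1.hasFDerivAt.add_const c
  have h3 : fderiv ℝ (fun u => f (j1 u + c)) u = (fderiv ℝ f (j1 u + c)).comp j1 :=
    (hd.comp u h2).fderiv
  unfold g2 splG
  rw [h3]
  rfl

variable [MeasurableSpace E] [BorelSpace E] [MeasurableSpace E1] [BorelSpace E1]
  [MeasurableSpace E2] [BorelSpace E2]

theorem SplDec.fubini (h : SplDec j1 j2) {D : E → ℝ} (hD : Integrable D) :
    ∫ x, D x = ∫ v, ∫ u, D (j1 u + j2 v) := by
  obtain ⟨e, he⟩ := h.exists_equiv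
  let m : E1 × E2 ≃ᵐ E := (MeasurableEquiv.toLp 2 (E1 × E2)).trans e.toMeasurableEquiv
  have hm : MeasurePreserving m :=
    e.measurePreserving.comp (WithLp.volume_preserving_toLp E1 E2)
  have h1 : ∫ p, D (m p) = ∫ x, D x := hm.integral_comp' D
  have h2 : Integrable (fun p => D (m p)) ((volume : Measure E1).prod (volume : Measure E2)) :=
    (hm.integrable_comp_emb m.measurableEmbedding).2 hD
  rw [← h1, Measure.volume_eq_prod, integral_prod_symm _ h2]
  refine integral_congr_ae (Filter.Eventually.of_forall fun v => ?_)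
  refine integral_congr_ae (Filter.Eventually.of_forall fun u => ?_)
  exact congrArg D (he u v)

theorem spl_int (j : E1 →L[ℝ] E) {f : E → F} (hf : Tst f) : Integrable (splG j f) := by
  unfold splG
  refine integrable_finset_sum _ fun k _ => ?_
  have hc : Continuous fun x => fderiv ℝ f x (j (stdOrthonormalBasis ℝ E1 k)) :=
    (hf.1.continuous_fderiv (by simp)).clm_apply continuous_const
  have hs : HasCompactSupport fun x => fderiv ℝ f x (j (stdOrthonormalBasis ℝ E1 k)) :=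
    hf.2.fderiv_apply ℝ _
  refine Continuous.integrable_of_hasCompactSupport (hc.norm.pow 2) ?_
  exact hs.comp_left (g := fun y : F => ‖y‖ ^ 2) (by simp)

theorem spl_int_four {X : Type} [MeasurableSpace X] {μ : Measure X} {A B C D : X → ℝ}
    (hA : Integrable A μ) (hB : Integrable B μ) (hC : Integrable C μ) (hD : Integrable D μ) :
    Integrable (fun x => 1 / 2 * A x + B x + C x - D x) μ ∧
      ∫ x, (1 / 2 * A x + B x + C x - D x) ∂μ =
        1 / 2 * ∫ x, A x ∂μ + ∫ x, B x ∂μ + ∫ x, C x ∂μ - ∫ x, D x ∂μ := by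
  have i1 : Integrable (fun x => 1 / 2 * A x) μ := hA.const_mul _
  have i2 : Integrable (fun x => 1 / 2 * A x + B x) μ := i1.add hB
  have i3 : Integrable (fun x => 1 / 2 * A x + B x + C x) μ := i2.add hC
  refine ⟨i3.sub hD, ?_⟩
  rw [integral_sub i3 hD, integral_add i2 hC, integral_add i1 hB, integral_const_mul]

theorem SplDec.half (h : SplDec j1 j2) (p : E →L[ℝ] E1) (hp : ∀ u v, p (j1 u + j2 v) = u)
    {w a : E1 → ℝ} {B : E1 → F →L[ℂ] F} (hw : Continuous w) (hB : Continuous B) {U : Set E1}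
    (ha : ContinuousOn a U) {f : E → F} (hf : Tst f) (hs : ∀ x ∈ tsupport f, p x ∈ U)
    (hq : ∀ v, wt a (fun u => f (j1 u + j2 v)) ≤ sch w B fun u => f (j1 u + j2 v)) :
    wt (fun x => a (p x)) f ≤
      (1 / 2) * (∫ x, splG j1 f x) + wt (fun x => w (p x)) f + opf (fun x => B (p x)) f := by
  have i1 := spl_int j1 hf
  have i2 : Integrable fun x => w (p x) * ‖f x‖ ^ 2 :=
    hf.int_wt (hw.comp p.continuous).continuousOn
  have i3 : Integrable fun x => (⟪f x, B (p x) (f x)⟫_ℂ).re :=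
    hf.int_opf (B := fun x => B (p x)) (hB.comp p.continuous).continuousOn
  have i4 : Integrable fun x => a (p x) * ‖f x‖ ^ 2 :=
    hf.int_wt (ha.comp p.continuous.continuousOn hs)
  have key : 0 ≤ ∫ x, (1 / 2 * splG j1 f x + w (p x) * ‖f x‖ ^ 2 +
      (⟪f x, B (p x) (f x)⟫_ℂ).re - a (p x) * ‖f x‖ ^ 2) := by
    rw [h.fubini (spl_int_four i1 i2 i3 i4).1]
    refine integral_nonneg fun v => ?_
    have ht := h.tst hf (j2 v)
    have hsu : tsupport (fun u => f (j1 u + j2 v)) ⊆ U := fun u hu => by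
      have h3 := hs _ (tsupport_comp_subset_preimage f (h.isometry (j2 v)).continuous hu)
      rwa [hp] at h3
    have k1 := ht.int_g2
    have k2 := ht.int_wt (w := w) hw.continuousOn
    have k3 := ht.int_opf (B := B) hB.continuousOn
    have k4 := ht.int_wt (w := a) (ha.mono hsu)
    have h5 := sub_nonneg.2 (hq v)
    unfold sch kin wt opf at h5
    rw [← (spl_int_four k1 k2 k3 k4).2] at h5
    refine h5.trans_eq (integral_congr_ae (Filter.Eventually.of_forall fun u => ?_))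
    simp only [hp, spl_g2_slice hf]
  rw [(spl_int_four i1 i2 i3 i4).2] at key
  unfold wt opf
  linarith

theorem SplDec.split (h : SplDec j1 j2) (p1 : E →L[ℝ] E1) (p2 : E →L[ℝ] E2)
    (hp1 : ∀ u v, p1 (j1 u + j2 v) = u) (hp2 : ∀ u v, p2 (j1 u + j2 v) = v)
    {w : E → ℝ} {B : E → F →L[ℂ] F} {w1 a : E1 → ℝ} {B1 : E1 → F →L[ℂ] F} {w2 b : E2 → ℝ}
    {B2 : E2 → F →L[ℂ] F} (hw1 : Continuous w1) (hB1 : Continuous B1) (hw2 : Continuous w2)
    (hB2 : Continuous B2) (hw : ∀ u v, w (j1 u + j2 v) = w1 u + w2 v)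
    (hB : ∀ u v, B (j1 u + j2 v) = B1 u + B2 v) {U : Set E1} (ha : ContinuousOn a U)
    (hb : Continuous b) {f : E → F} (hf : Tst f) (hs : ∀ x ∈ tsupport f, p1 x ∈ U)
    (q1 : ∀ v, wt a (fun u => f (j1 u + j2 v)) ≤ sch w1 B1 fun u => f (j1 u + j2 v))
    (q2 : ∀ u, wt b (fun v => f (j2 v + j1 u)) ≤ sch w2 B2 fun v => f (j2 v + j1 u)) :
    wt (fun x => a (p1 x) + b (p2 x)) f ≤ sch w B f := by
  have k1 := h.half p1 hp1 hw1 hB1 ha hf hs q1
  have k2 := h.symm.half p2 (fun v u => by rw [add_comm, hp2]) hw2 hB2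
    (U := Set.univ) hb.continuousOn hf (fun _ _ => trivial) q2
  have e1 : w = fun x => w1 (p1 x) + w2 (p2 x) := by
    funext x
    obtain ⟨u, v, rfl⟩ := h.hs x
    rw [hw, hp1, hp2]
  have e2 : B = fun x => B1 (p1 x) + B2 (p2 x) := by
    funext x
    obtain ⟨u, v, rfl⟩ := h.hs x
    rw [hB, hp1, hp2]
  have e3 : ∫ x, g2 f x = (∫ x, splG j1 f x) + ∫ x, splG j2 f x := by
    rw [← integral_add (spl_int j1 hf) (spl_int j2 hf)]
    exact integral_congr_ae (Filter.Eventually.of_forall fun x => h.g2_eq f x)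
  have e4 := wt_add hf (w := fun x => a (p1 x)) (w' := fun x => b (p2 x))
    (ha.comp p1.continuous.continuousOn hs) (hb.comp p2.continuous).continuousOn
  have e5 := wt_add hf (w := fun x => w1 (p1 x)) (w' := fun x => w2 (p2 x))
    (hw1.comp p1.continuous).continuousOn (hw2.comp p2.continuous).continuousOn
  have e6 := opf_add hf (B := fun x => B1 (p1 x)) (B' := fun x => B2 (p2 x))
    (hB1.comp p1.continuous).continuousOn (hB2.comp p2.continuous).continuousOn
  unfold sch kin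
  rw [e1, e2, e3, e4, e5, e6]
  linarith

end

end Vale.Agent.P353
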