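import Vale.Agent.P353.AMod0
import Vale.Agent.P353.AForm2
import Vale.Agent.P353.ASplitx

open MeasureTheory NormedSpace
open Complex (I)
open scoped InnerProductSpace ContDiff

noncomputable section
namespace Vale.Agent.P353
variable {V F : Type} [NormedAddCommGroup V] [InnerProductSpace ℝ V] [FiniteDimensional ℝ V]
  [MeasurableSpace V] [BorelSpace V]
  [NormedAddCommGroup F] [InnerProductSpace ℂ F] [CompleteSpace F]

omit [FiniteDimensional ℝ V] [MeasurableSpace V] [BorelSpace V] in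
theorem CL.spl_cl (L : CL V) {z : Submodule ℝ V} (hz : z ≤ L.center) {a : V} (ha : a ∈ z) (b : V) :
    L.br a b = 0 := by
  have h : L.br a = 0 := hz ha
  rw [h]
  rfl

omit [FiniteDimensional ℝ V] [MeasurableSpace V] [BorelSpace V] in
theorem CL.spl_cr (L : CL V) {z : Submodule ℝ V} (hz : z ≤ L.center) {a : V} (ha : a ∈ z) (b : V) :
    L.br b a = 0 := by
  rw [L.skew, L.spl_cl hz ha, neg_zero]

/-- `z` central: its orthogonal complement is a subalgebra -/
theorem CL.sub_orth (L : CL V) {z : Submodule ℝ V} (hz : z ≤ L.center) : L.Sub zᗮ := by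
  intro a _ b _
  rw [Submodule.mem_orthogonal']
  intro u hu
  rw [L.inv, L.spl_cr hz hu, inner_zero_right, neg_zero]

theorem CL.sub_center (L : CL V) {z : Submodule ℝ V} (hz : z ≤ L.center) : L.Sub z := by
  intro a ha b _
  rw [L.spl_cl hz ha]
  exact z.zero_mem

section aux
omit [MeasurableSpace V] [BorelSpace V]

theorem spl_dec_lift (n : ℕ) (z : Submodule ℝ V) :
    SplDec (lift (n := n) z.subtypeL) (lift (n := n) zᗮ.subtypeL) := by
  refine ⟨inner_lift_subtype z, inner_lift_subtype zᗮ, fun u v => ?_, fun x => ?_⟩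
  · rw [PiLp.inner_apply]
    exact Finset.sum_eq_zero fun i _ => Submodule.inner_right_of_mem_orthogonal (u i).2 (v i).2
  · refine ⟨lift z.orthogonalProjectionOnto x, lift zᗮ.orthogonalProjectionOnto x, ?_⟩
    ext i
    exact (z.starProjection_add_starProjection_orthogonal (x i)).symm

theorem spl_proj1 {n : ℕ} (z : Submodule ℝ V) (u : PiLp 2 (fun _ : Fin n => z))
    (v : PiLp 2 (fun _ : Fin n => zᗮ)) :
    lift z.orthogonalProjectionOnto (lift z.subtypeL u + lift zᗮ.subtypeL v) = u := by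
  ext1 i
  change z.orthogonalProjectionOnto ((u i : V) + (v i : V)) = u i
  rw [map_add, Submodule.orthogonalProjectionOnto_mem_subspace_eq_self,
    Submodule.orthogonalProjectionOnto_apply_of_mem_orthogonal (v i).2, add_zero]

theorem spl_proj2 {n : ℕ} (z : Submodule ℝ V) (u : PiLp 2 (fun _ : Fin n => z))
    (v : PiLp 2 (fun _ : Fin n => zᗮ)) :
    lift zᗮ.orthogonalProjectionOnto (lift z.subtypeL u + lift zᗮ.subtypeL v) = v := by
  ext1 i
  change zᗮ.orthogonalProjectionOnto ((u i : V) + (v i : V)) = v i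
  rw [map_add, Submodule.orthogonalProjectionOnto_mem_subspace_eq_self,
    Submodule.orthogonalProjectionOnto_orthogonal_apply_eq_zero (u i).2, zero_add]

omit [FiniteDimensional ℝ V] in
theorem spl_lift_br {n : ℕ} (L : CL V) {l : Submodule ℝ V} (h : L.Sub l) {a : V} (b : l)
    (hab : ∀ c : l, L.br a c = L.br b c) (s : PiLp 2 (fun _ : Fin n => l)) :
    lift (L.br a) (lift l.subtypeL s) = lift l.subtypeL (lift ((L.res l h).br b) s) := by
  ext i
  exact hab (s i)

theorem spl_mat_lift {n m : ℕ} (l : Submodule ℝ V) (N : Matrix (Fin n) (Fin m) ℝ)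
    (s : PiLp 2 (fun _ : Fin m => l)) :
    mat N (lift l.subtypeL s) = lift l.subtypeL (mat N s) := by
  ext i
  simp

theorem spl_gm (G : Gam) (L : CL V) {l : Submodule ℝ V} (h : L.Sub l) {x : EE V} (y : EE l)
    (hxy : ∀ j (c : l), L.br (x j) c = L.br (y j) c) (N : M16) (c d : ℝ) (s : SS l) :
    (c • Gm G L x + d • mat N : SS V →L[ℝ] SS V) (lift l.subtypeL s) =
      lift l.subtypeL ((c • Gm G (L.res l h) y + d • mat N : SS l →L[ℝ] SS l) s) := by
  simp only [Gm, ContinuousLinearMap.add_apply, ContinuousLinearMap.smul_apply,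
    ContinuousLinearMap.sum_apply, ContinuousLinearMap.comp_apply, map_add, map_smul, map_sum,
    spl_mat_lift]
  congr 2
  refine Finset.sum_congr rfl fun j _ => ?_
  rw [spl_lift_br L h (y j) (hxy j), spl_mat_lift]

omit [FiniteDimensional ℝ V] in
theorem spl_tens {n : ℕ} (l : Submodule ℝ V) (e : Fin n → ℝ) (a : l) :
    tens e (a : V) = lift l.subtypeL (tens e a) := by
  ext i
  simp

omit [FiniteDimensional ℝ V] in
theorem spl_s0 (G : Gam) (L : CL V) {z : Submodule ℝ V} (hz : z ≤ L.center) (h1 : L.Sub z)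
    (h2 : L.Sub zᗮ) (e : R16) (u : EE z) (v : EE zᗮ) :
    s0 G L e (lift z.subtypeL u + lift zᗮ.subtypeL v) =
      lift z.subtypeL (s0 G (L.res z h1) e u) + lift zᗮ.subtypeL (s0 G (L.res zᗮ h2) e v) := by
  unfold s0
  simp only [map_smul, map_sum, ← spl_tens, ← smul_add, ← Finset.sum_add_distrib, ← map_add]
  congr 1
  refine Finset.sum_congr rfl fun i _ => Finset.sum_congr rfl fun j _ => ?_
  congr 1
  change L.br ((u i : V) + (v i : V)) ((u j : V) + (v j : V)) =
    L.br (u i) (u j) + L.br (v i) (v j)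
  rw [map_add, L.spl_cr hz (u j).2, L.spl_cr hz (u j).2, map_add, ContinuousLinearMap.add_apply,
    L.spl_cl hz (u i).2, zero_add]

theorem spl_ex (L : CL V) {z : Submodule ℝ V} (hz : z ≤ L.center) (h2 : L.Sub zᗮ) (ξ : zᗮ)
    (u : EE z) (v : EE zᗮ) :
    lift (L.ex ξ) (lift zᗮ.subtypeL v + lift z.subtypeL u) =
      lift zᗮ.subtypeL (lift ((L.res zᗮ h2).ex ξ) v) + lift z.subtypeL u := by
  ext i
  change expL (L.br ξ) (zᗮ.subtypeL (v i) + z.subtypeL (u i)) =
    zᗮ.subtypeL (expL ((L.res zᗮ h2).br ξ) (v i)) + z.subtypeL (u i)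
  rw [map_add, expL_intertwine zᗮ.subtypeL (T' := (L.res zᗮ h2).br ξ) (fun _ => rfl),
    expL_intertwine z.subtypeL (T' := 0) (fun c => L.spl_cr hz c.2 _)]
  simp [expL]

theorem spl_rho (M : Mod V F) {z : Submodule ℝ V} (hz : z ≤ M.L.center) (h2 : M.L.Sub zᗮ)
    (ξ : zᗮ) : (M.res zᗮ h2).rho ξ = M.rho ξ := by
  have key := (spl_dec_lift 16 z).spin M.C (lift (M.L.br ξ)) 0 (lift ((M.L.res zᗮ h2).br ξ))
    (fun u => by
      ext i
      exact M.L.spl_cr hz (u i).2 _)
    (fun u => spl_lift_br M.L h2 ξ (fun _ => rfl) u)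
  have h0 : (M.C.res (lift z.subtypeL) (spl_dec_lift 16 z).h1).spin 0 = 0 := by simp [Cl.spin]
  rw [h0, zero_add] at key
  unfold Mod.rho
  rw [key]
  rfl

theorem spl_inv (M : Mod V F) {z : Submodule ℝ V} (hz : z ≤ M.L.center) (h2 : M.L.Sub zᗮ)
    {f : EE V → F} (hi : M.Inv f) (u : EE z) :
    (M.res zᗮ h2).Inv fun v => f (lift zᗮ.subtypeL v + lift z.subtypeL u) := by
  intro ξ v
  have e := hi ξ (lift zᗮ.subtypeL v + lift z.subtypeL u)
  rw [spl_ex M.L hz h2, ← spl_rho M hz h2] at e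
  exact e

omit [InnerProductSpace ℂ F] [CompleteSpace F] in
theorem spl_supp (z : Submodule ℝ V) {U : Set (EE z)} {f : EE V → F}
    (hs : ∀ x ∈ tsupport f, lift z.orthogonalProjectionOnto x ∈ U) (v : EE zᗮ) :
    tsupport (fun u => f (lift z.subtypeL u + lift zᗮ.subtypeL v)) ⊆ U := by
  intro u hu
  have h4 : lift z.subtypeL u + lift zᗮ.subtypeL v ∈ tsupport f :=
    tsupport_comp_subset_preimage f
      ((spl_dec_lift 9 z).isometry (lift zᗮ.subtypeL v)).continuous hu
  have h3 := hs _ h4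
  rw [spl_proj1 z u v] at h3
  exact h3

end aux

theorem spl_w (M : Mod V F) (P : Par) {z : Submodule ℝ V} (hz : z ≤ M.L.center) (h1 : M.L.Sub z)
    (h2 : M.L.Sub zᗮ) (lam mu : ℝ) (u : EE z) (v : EE zᗮ) :
    (1 / 2) * ‖lam • s0 P.toGam M.L P.e (lift z.subtypeL u + lift zᗮ.subtypeL v) +
        mu • P.s1 (lift z.subtypeL u + lift zᗮ.subtypeL v)‖ ^ 2 =
      (1 / 2) * ‖lam • s0 P.toGam (M.res z h1).L P.e u + mu • P.s1 u‖ ^ 2 +
      (1 / 2) * ‖lam • s0 P.toGam (M.res zᗮ h2).L P.e v + mu • P.s1 v‖ ^ 2 := by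
  have e : lam • s0 P.toGam M.L P.e (lift z.subtypeL u + lift zᗮ.subtypeL v) +
      mu • P.s1 (lift z.subtypeL u + lift zᗮ.subtypeL v) =
      lift z.subtypeL (lam • s0 P.toGam (M.L.res z h1) P.e u + mu • P.s1 u) +
      lift zᗮ.subtypeL (lam • s0 P.toGam (M.L.res zᗮ h2) P.e v + mu • P.s1 v) := by
    rw [spl_s0 P.toGam M.L hz h1 h2, map_add P.s1, P.s1_lift, P.s1_lift]
    simp only [map_add, map_smul, smul_add]
    abel
  rw [e, (spl_dec_lift 16 z).norm_sq, mul_add]
  rfl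

omit [MeasurableSpace V] [BorelSpace V] in
theorem spl_B (M : Mod V F) (P : Par) {z : Submodule ℝ V} (hz : z ≤ M.L.center) (h1 : M.L.Sub z)
    (h2 : M.L.Sub zᗮ) (lam mu : ℝ) (u : EE z) (v : EE zᗮ) :
    I • M.C.spin ((-lam) • Gm P.toGam M.L (lift z.subtypeL u + lift zᗮ.subtypeL v) +
        mu • mat P.M1) =
      I • (M.res z h1).C.spin ((-lam) • Gm P.toGam (M.res z h1).L u + mu • mat P.M1) +
      I • (M.res zᗮ h2).C.spin ((-lam) • Gm P.toGam (M.res zᗮ h2).L v + mu • mat P.M1) := by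
  have e := (spl_dec_lift 16 z).spin M.C
    ((-lam) • Gm P.toGam M.L (lift z.subtypeL u + lift zᗮ.subtypeL v) + mu • mat P.M1) _ _
    (spl_gm P.toGam M.L h1 u (fun j c => by
      rw [M.L.spl_cr hz c.2, M.L.spl_cr hz c.2]) P.M1 (-lam) mu)
    (spl_gm P.toGam M.L h2 v (fun j c => by
      change M.L.br ((u j : V) + (v j : V)) c = _
      rw [map_add, ContinuousLinearMap.add_apply, M.L.spl_cl hz (u j).2, zero_add])
      P.M1 (-lam) mu)
  rw [e, smul_add]
  rfl

/-- Splitting off a central subspace: the form is the sum of the two reduced forms (Fubini along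
the measure preserving isometry `EE z × EE zᗮ → EE V`). -/
theorem Mod.split (M : Mod V F) (P : Par) {z : Submodule ℝ V} (hz : z ≤ M.L.center) (lam mu : ℝ)
    {a : EE z → ℝ} {b : EE zᗮ → ℝ} {U : Set (EE z)} (ha : ContinuousOn a U) (hb : Continuous b)
    (h1 : ∀ h : EE z → F, Tst h → tsupport h ⊆ U →
      wt a h ≤ (M.res z (M.L.sub_center hz)).q P lam mu h)
    (h2 : ∀ h : EE zᗮ → F, Tst h → (M.res zᗮ (M.L.sub_orth hz)).Inv h →
      wt b h ≤ (M.res zᗮ (M.L.sub_orth hz)).q P lam mu h)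
    {f : EE V → F} (hf : Tst f) (hi : M.Inv f)
    (hs : ∀ x ∈ tsupport f, lift z.orthogonalProjectionOnto x ∈ U) :
    wt (fun x => a (lift z.orthogonalProjectionOnto x) + b (lift zᗮ.orthogonalProjectionOnto x)) f ≤
      M.q P lam mu f := by
  have hd := spl_dec_lift 9 z
  have c1 := (M.res z (M.L.sub_center hz)).q_cont P lam mu
  have c2 := (M.res zᗮ (M.L.sub_orth hz)).q_cont P lam mu
  have q1 := fun v : EE zᗮ => h1 _ (hd.tst hf (lift zᗮ.subtypeL v)) (spl_supp z hs v)
  have q2 := fun u : EE z =>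
    h2 _ (hd.symm.tst hf (lift z.subtypeL u)) (spl_inv M hz (M.L.sub_orth hz) hi u)
  have e1 := spl_w M P hz (M.L.sub_center hz) (M.L.sub_orth hz) lam mu
  have e2 := spl_B M P hz (M.L.sub_center hz) (M.L.sub_orth hz) lam mu
  unfold Mod.q at q1 q2 ⊢
  exact hd.split (lift z.orthogonalProjectionOnto) (lift zᗮ.orthogonalProjectionOnto)
    (spl_proj1 z) (spl_proj2 z) c1.1 c1.2 c2.1 c2.2 e1 e2 ha hb hf hs q1 q2

end Vale.Agent.P353
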