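import Vale.Agent.P353.GGroup

open MeasureTheory NormedSpace
open Complex (I)
open scoped InnerProductSpace ContDiff

noncomputable section
namespace Vale.Agent.P353

section abstract
variable {E : Type} [NormedAddCommGroup E] [InnerProductSpace ℝ E] [FiniteDimensional ℝ E]

/-- a radial kernel of mass one -/
theorem gb_kernel [MeasurableSpace E] [BorelSpace E] {τ : ℝ} (hτ : 0 < τ) :
    ∃ k : E → ℝ, ContDiff ℝ ∞ k ∧ HasCompactSupport k ∧ (∀ y, 0 ≤ k y) ∧
      (∀ y, τ ≤ ‖y‖ → k y = 0) ∧ (∀ y y', ‖y‖ = ‖y'‖ → k y = k y') ∧ ∫ y, k y = 1 := by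
  let k : E → ℝ := fun y => expNegInvGlue (τ ^ 2 - ‖y‖ ^ 2)
  have h1 : ContDiff ℝ ∞ k :=
    expNegInvGlue.contDiff.comp (contDiff_const.sub (contDiff_norm_sq ℝ))
  have h2 : ∀ y, τ ≤ ‖y‖ → k y = 0 := fun y hy =>
    expNegInvGlue.zero_of_nonpos (by nlinarith)
  have h3 : HasCompactSupport k := by
    refine HasCompactSupport.intro (isCompact_closedBall (0 : E) τ) fun y hy => h2 y ?_
    rw [mem_closedBall_zero_iff, not_le] at hy
    exact hy.le
  have h4 : ∀ y, 0 ≤ k y := fun y => expNegInvGlue.nonneg _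
  have h5 : 0 < ∫ y, k y := by
    refine h1.continuous.integral_pos_of_hasCompactSupport_nonneg_nonzero h3 h4 (x := 0) ?_
    exact (expNegInvGlue.pos_of_pos (by simp; positivity)).ne'
  refine ⟨fun y => (∫ y, k y)⁻¹ * k y, contDiff_const.mul h1, h3.mul_left,
    fun y => mul_nonneg (inv_nonneg.2 h5.le) (h4 y), fun y hy => by simp only [h2 y hy, mul_zero],
    fun y y' h => by simp only [k, h], ?_⟩
  rw [integral_const_mul, inv_mul_cancel₀ h5.ne']

theorem gb_mollify {u : E → ℝ} (hc : Continuous u) {τ : ℝ} (hτ : 0 < τ) :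
    ∃ u' : E → ℝ, ContDiff ℝ ∞ u' ∧
      (∀ g : E ≃ₗᵢ[ℝ] E, (∀ x, u (g x) = u x) → ∀ x, u' (g x) = u' x) ∧
      (∀ x a b, (∀ y ∈ Metric.ball x τ, a ≤ u y ∧ u y ≤ b) → a ≤ u' x ∧ u' x ≤ b) ∧
      ∀ x (K : ℝ), 0 ≤ K → (∀ y ∈ Metric.ball x (2 * τ), ∀ y' ∈ Metric.ball x (2 * τ),
        |u y - u y'| ≤ K * ‖y - y'‖) → ‖gradient u' x‖ ≤ K := by
  borelize E
  obtain ⟨k, k1, k2, k3, k4, k5, k6⟩ := gb_kernel (E := E) hτ
  have hs : ContDiff ℝ ∞ fun x => ∫ t, k t * u (x - t) :=
    k2.contDiff_convolution_left (ContinuousLinearMap.mul ℝ ℝ) (μ := volume) k1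
      hc.locallyIntegrable
  have hi : ∀ w : E → ℝ, Continuous w → Integrable fun t => k t * w t := fun w hw =>
    (k1.continuous.mul hw).integrable_of_hasCompactSupport k2.mul_right
  have hb : ∀ (w : E → ℝ) (a b : ℝ), Continuous w → (∀ t, ‖t‖ < τ → a ≤ w t ∧ w t ≤ b) →
      a ≤ ∫ t, k t * w t ∧ ∫ t, k t * w t ≤ b := by
    intro w a b hw h
    have e : ∀ c : ℝ, ∫ t, k t * c = c := fun c => by rw [integral_mul_const, k6, one_mul]
    constructor
    · rw [← e a]
      refine integral_mono (hi _ continuous_const) (hi _ hw) fun t => ?_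
      rcases lt_or_ge ‖t‖ τ with ht | ht
      · exact mul_le_mul_of_nonneg_left (h t ht).1 (k3 t)
      · simp only [k4 t ht, zero_mul, le_refl]
    · rw [← e b]
      refine integral_mono (hi _ hw) (hi _ continuous_const) fun t => ?_
      rcases lt_or_ge ‖t‖ τ with ht | ht
      · exact mul_le_mul_of_nonneg_left (h t ht).2 (k3 t)
      · simp only [k4 t ht, zero_mul, le_refl]
  have hu : ∀ x : E, Continuous fun t => u (x - t) := fun x => by fun_prop
  refine ⟨fun x => ∫ t, k t * u (x - t), hs, fun g hg x => ?_, fun x a b h => ?_,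
    fun x K hK h => ?_⟩
  · simp only
    rw [← g.measurePreserving.integral_comp g.toHomeomorph.measurableEmbedding]
    refine integral_congr_ae (Filter.Eventually.of_forall fun t => ?_)
    simp only
    rw [← map_sub, hg, k5 _ _ (g.norm_map t)]
  · refine hb _ a b (hu x) fun t ht => h _ ?_
    rwa [mem_ball_iff_norm, sub_sub_cancel_left, norm_neg]
  · rw [gradient, LinearIsometryEquiv.norm_map]
    refine norm_fderiv_le_of_lip' ℝ hK ?_
    filter_upwards [Metric.ball_mem_nhds x hτ] with y hy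
    rw [← integral_sub (hi _ (hu y)) (hi _ (hu x)), Real.norm_eq_abs, abs_le]
    simp only [← mul_sub]
    refine hb _ _ _ ((hu y).sub (hu x)) fun t ht => ?_
    rw [mem_ball_iff_norm] at hy
    have h1 := h (y - t) ?_ (x - t) ?_
    · rwa [sub_sub_sub_cancel_right, abs_le] at h1
    · rw [mem_ball_iff_norm, sub_right_comm]
      linarith [norm_sub_le (y - x) t]
    · rw [mem_ball_iff_norm, sub_sub_cancel_left, norm_neg]
      linarith

theorem gb_log {m p q : ℝ} (hm : 0 < m) (hp : m ≤ p) (hq : m ≤ q) :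
    |Real.log p - Real.log q| ≤ |p - q| / m := by
  wlog h : q ≤ p generalizing p q
  · rw [abs_sub_comm, abs_sub_comm p]
    exact this hq hp (not_le.1 h).le
  have q0 : 0 < q := hm.trans_le hq
  have p0 : 0 < p := hm.trans_le hp
  rw [abs_of_nonneg (sub_nonneg.2 (Real.log_le_log q0 h)), abs_of_nonneg (sub_nonneg.2 h),
    ← Real.log_div p0.ne' q0.ne']
  refine (Real.log_le_sub_one_of_pos (div_pos p0 q0)).trans ?_
  rw [div_sub_one q0.ne']
  exact div_le_div_of_nonneg_left (sub_nonneg.2 h) hm hq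

end abstract

variable {V : Type} [NormedAddCommGroup V] [InnerProductSpace ℝ V] [FiniteDimensional ℝ V]
  {L : CL V}

theorem gb_dist {g : V →L[ℝ] V} (hg : g ∈ L.G) (x y : EE V) :
    dist (lift g x) (lift g y) = dist x y := by
  rw [dist_eq_norm, dist_eq_norm, ← map_sub, CL.G_norm hg]

theorem gb_infDist {C : Set (EE V)} (hC : ∀ g ∈ L.G, ∀ y ∈ C, lift g y ∈ C) {g : V →L[ℝ] V}
    (hg : g ∈ L.G) (x : EE V) : Metric.infDist (lift g x) C = Metric.infDist x C := by
  have h1 : ∀ g ∈ L.G, ∀ x, Metric.infDist (lift g x) C ≤ Metric.infDist x C := by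
    intro g hg x
    rcases C.eq_empty_or_nonempty with h | h
    · simp [h]
    · refine (Metric.le_infDist h).2 fun y hy => ?_
      rw [← gb_dist hg x y]
      exact Metric.infDist_le_dist_of_mem (hC g hg y hy)
  refine le_antisymm (h1 g hg x) ?_
  obtain ⟨h, hh, -, h2⟩ := CL.G_inv hg
  have h3 := h1 h hh (lift g x)
  rwa [← lift_mul, h2, lift_one] at h3

/-- Mollification with a radial kernel keeps invariance and local Lipschitz bounds. -/
theorem CL.mollify {u : EE V → ℝ} (hi : L.SInv u) (hc : Continuous u) {τ : ℝ} (hτ : 0 < τ) :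
    ∃ u' : EE V → ℝ, ContDiff ℝ ∞ u' ∧ L.SInv u' ∧
      (∀ x a b, (∀ y ∈ Metric.ball x τ, a ≤ u y ∧ u y ≤ b) → a ≤ u' x ∧ u' x ≤ b) ∧
      ∀ x (K : ℝ), 0 ≤ K → (∀ y ∈ Metric.ball x (2 * τ), ∀ y' ∈ Metric.ball x (2 * τ),
        |u y - u y'| ≤ K * ‖y - y'‖) → ‖gradient u' x‖ ≤ K := by
  obtain ⟨u', h1, h2, h3, h4⟩ := gb_mollify hc hτ
  refine ⟨u', h1, fun ξ x => ?_, h3, h4⟩
  let g : EE V →ₗᵢ[ℝ] EE V := ⟨(lift (L.ex ξ)).toLinearMap, CL.G_norm (L.ex_mem ξ)⟩
  exact h2 (g.toLinearIsometryEquiv rfl) (hi ξ) x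

/-- Slowly varying invariant angle across the shell `s ≤ dist (x, C) ≤ Λ s`. -/
theorem CL.log_angle {C : Set (EE V)} (hC : ∀ g ∈ L.G, ∀ y ∈ C, lift g y ∈ C) {s Λ : ℝ}
    (hs : 0 < s) (hΛ : 4 ≤ Λ) : ∃ ϑ : EE V → ℝ, ContDiff ℝ ∞ ϑ ∧ L.SInv ϑ ∧
      (∀ x, Metric.infDist x C < s → ϑ x = 0) ∧
      (∀ x, Λ * s < Metric.infDist x C → ϑ x = Real.pi / 2) ∧
      ∀ x, ‖gradient ϑ x‖ * Metric.infDist x C ≤ 10 / Real.log Λ := by
  have hl : 0 < Real.log Λ := Real.log_pos (by linarith)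
  have hp := Real.pi_pos
  obtain ⟨c, hc⟩ : ∃ c, c = Real.pi / Real.log Λ := ⟨_, rfl⟩
  have c0 : 0 < c := by rw [hc]; positivity
  obtain ⟨a, ha⟩ : ∃ a, a = 5 * s / 4 := ⟨_, rfl⟩
  have a0 : 0 < a := by rw [ha]; positivity
  let u : EE V → ℝ := fun x =>
    min (Real.pi / 2) (c * (Real.log (max (Metric.infDist x C) a) - Real.log a))
  have hu : Continuous u := by
    refine continuous_const.min (continuous_const.mul (Continuous.sub ?_ continuous_const))
    exact ((Metric.continuous_infDist_pt C).max continuous_const).log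
      fun x => (a0.trans_le (le_max_right _ _)).ne'
  have hd : ∀ x y : EE V, |Metric.infDist x C - Metric.infDist y C| ≤ ‖x - y‖ := by
    intro x y
    have h1 := (Metric.lipschitz_infDist_pt C).dist_le_mul x y
    simpa [Real.dist_eq, dist_eq_norm] using h1
  obtain ⟨ϑ, h1, h2, h3, h4⟩ := CL.mollify (L := L) (u := u)
    (fun ξ x => by simp only [u, gb_infDist hC (L.ex_mem ξ)]) hu (τ := s / 4) (by positivity)
  refine ⟨ϑ, h1, h2, fun x hx => ?_, fun x hx => ?_, fun x => ?_⟩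
  · have h5 := h3 x 0 0 fun y hy => by
      rw [mem_ball_iff_norm] at hy
      have h6 := (abs_le.1 (hd y x)).2
      have h7 : u y = 0 := by
        simp only [u]
        rw [max_eq_right (by linarith), sub_self, mul_zero, min_eq_right (by positivity)]
      simp [h7]
    exact le_antisymm h5.2 h5.1
  · have h5 := h3 x (Real.pi / 2) (Real.pi / 2) fun y hy => by
      rw [mem_ball_iff_norm] at hy
      have h6 := (abs_le.1 (hd y x)).1
      have h7 : 3 / 4 * Λ * a ≤ max (Metric.infDist y C) a := by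
        refine le_trans ?_ (le_max_left _ _)
        rw [ha]
        nlinarith
      have h8 := Real.log_le_log (by positivity) h7
      rw [Real.log_mul (by positivity) a0.ne'] at h8
      have h9 : Real.log Λ ≤ 2 * Real.log (3 / 4 * Λ) := by
        have e := Real.log_pow (3 / 4 * Λ) 2
        rw [Nat.cast_ofNat] at e
        rw [← e]
        exact Real.log_le_log (by positivity) (by nlinarith)
      have h10 : c * Real.log Λ = Real.pi := by rw [hc]; field_simp
      have h11 : u y = Real.pi / 2 := min_eq_left (by nlinarith)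
      simp [h11]
    exact le_antisymm h5.2 h5.1
  · obtain ⟨m, hm⟩ : ∃ m, m = max (Metric.infDist x C - s / 2) a := ⟨_, rfl⟩
    have m1 : a ≤ m := hm ▸ le_max_right _ _
    have m2 : Metric.infDist x C - s / 2 ≤ m := hm ▸ le_max_left _ _
    have m0 : 0 < m := a0.trans_le m1
    have m3 : ∀ y ∈ Metric.ball x (2 * (s / 4)), m ≤ max (Metric.infDist y C) a := by
      intro y hy
      rw [mem_ball_iff_norm] at hy
      have h6 := (abs_le.1 (hd y x)).1
      rw [hm]
      exact max_le_max (by linarith) le_rfl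
    have h5 := h4 x (c / m) (by positivity) fun y hy y' hy' => by
      refine (abs_min_sub_min_le_max _ _ _ _).trans (max_le (by simp; positivity) ?_)
      rw [← mul_sub, sub_sub_sub_cancel_right, abs_mul, abs_of_pos c0, div_mul_eq_mul_div,
        mul_div_assoc]
      refine mul_le_mul_of_nonneg_left ((gb_log m0 (m3 y hy) (m3 y' hy')).trans ?_) c0.le
      exact div_le_div_of_nonneg_right ((abs_max_sub_max_le_abs _ _ _).trans (hd y y')) m0.le
    refine (mul_le_mul_of_nonneg_right h5 Metric.infDist_nonneg).trans ?_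
    have h6 : Metric.infDist x C ≤ 2 * m := by linarith
    have h7 : c / m * Metric.infDist x C ≤ 2 * c := by
      rw [div_mul_eq_mul_div, div_le_iff₀ m0]
      nlinarith
    refine h7.trans ?_
    rw [hc, ← mul_div_assoc]
    exact div_le_div_of_nonneg_right (by linarith [Real.pi_le_four]) hl.le

/-- invariant bump function -/
theorem gb_bump {C : Set (EE V)} (hC : ∀ g ∈ L.G, ∀ y ∈ C, lift g y ∈ C) {s : ℝ} (hs : 0 < s) :
    ∃ β : EE V → ℝ, ContDiff ℝ ∞ β ∧ L.SInv β ∧ (∀ x, 0 ≤ β x) ∧ (∀ x ∈ C, β x = 1) ∧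
      tsupport β ⊆ Metric.cthickening s C := by
  rcases C.eq_empty_or_nonempty with h | h
  · exact ⟨fun _ => 0, contDiff_const, fun _ _ => rfl, fun _ => le_rfl, by simp [h], by simp⟩
  obtain ⟨ϑ, h1, h2, h3, h4, -⟩ := CL.log_angle hC (s := s / 8) (Λ := 4) (by positivity) le_rfl
  refine ⟨fun x => (1 - 2 / Real.pi * ϑ x) ^ 2, (contDiff_const.sub (contDiff_const.mul h1)).pow 2,
    fun ξ x => by simp only [h2 ξ x], fun x => sq_nonneg _, fun x hx => ?_, ?_⟩
  · simp only
    rw [h3 x (by rw [Metric.infDist_zero_of_mem hx]; positivity)]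
    simp
  · refine closure_minimal (fun x hx => ?_) Metric.isClosed_cthickening
    refine Metric.thickening_subset_cthickening _ _ ((Metric.mem_thickening_iff_infDist_lt h).2 ?_)
    by_contra h5
    refine hx ?_
    simp only
    rw [h4 x (by linarith [not_lt.1 h5])]
    have := Real.pi_pos
    field_simp
    simp

/-- smooth invariant quadratic partition of unity subordinate to a finite invariant open cover -/
theorem CL.partition {ι : Type} (T : Finset ι) {W : ι → Set (EE V)} (hW : ∀ p ∈ T, IsOpen (W p))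
    (hi : ∀ p ∈ T, L.sat (W p) = W p) {K : Set (EE V)} (hK : IsCompact K)
    (hc : K ⊆ ⋃ p ∈ T, W p) : ∃ (a : ι → EE V → ℝ) (U : Set (EE V)), IsOpen U ∧ K ⊆ U ∧
      L.sat U = U ∧ (∀ p ∈ T, ContDiff ℝ ∞ (a p) ∧ L.SInv (a p) ∧ HasCompactSupport (a p) ∧
        tsupport (a p) ⊆ W p ∧ ∀ x, 0 ≤ a p x) ∧ ∀ x ∈ U, ∑ p ∈ T, a p x ^ 2 = 1 := by
  have hK' : IsCompact (L.sat K) := CL.isCompact_sat hK
  obtain ⟨δ, δ0, hδ⟩ := lebesgue_number_lemma_of_metric (c := fun p : T => W p) hK'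
    (fun p => hW p p.2) (by
      rintro x ⟨g, hg, hx⟩
      obtain ⟨p, hp, hx'⟩ := Set.mem_iUnion₂.1 (hc hx)
      refine Set.mem_iUnion.2 ⟨⟨p, hp⟩, ?_⟩
      rw [← hi p hp]
      exact ⟨g, hg, hx'⟩)
  let C : ι → Set (EE V) := fun p => {x | x ∈ L.sat K ∧ Metric.ball x δ ⊆ L.sat (W p)}
  have hC : ∀ p, ∀ g ∈ L.G, ∀ y ∈ C p, lift g y ∈ C p := by
    intro p g hg y hy
    refine ⟨(CL.sat_lift hg y).2 hy.1, fun z hz => ?_⟩
    obtain ⟨h, hh, -, h2⟩ := CL.G_inv hg
    refine (CL.sat_lift hh z).1 (hy.2 ?_)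
    rwa [Metric.mem_ball, ← gb_dist hh, ← lift_mul, h2, lift_one] at hz
  choose b b1 b2 b3 b4 b5 using fun p => gb_bump (hC p) (half_pos δ0)
  let S : EE V → ℝ := fun x => ∑ p ∈ T, b p x ^ 2
  have S1 : ContDiff ℝ ∞ S := ContDiff.sum fun p _ => (b1 p).pow 2
  have S2 : L.SInv S := fun ξ x => by simp only [S, b2 _ ξ x]
  have S3 : ∀ x, 0 ≤ S x := fun x => Finset.sum_nonneg fun p _ => sq_nonneg _
  let R : EE V → ℝ := fun x => S x + expNegInvGlue (1 / 2 - S x)
  have R0 : ∀ x, 0 < R x := by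
    intro x
    rcases (S3 x).eq_or_lt with h | h
    · exact add_pos_of_nonneg_of_pos (S3 x) (expNegInvGlue.pos_of_pos (by rw [← h]; norm_num))
    · exact add_pos_of_pos_of_nonneg h (expNegInvGlue.nonneg _)
  have R1 : ContDiff ℝ ∞ fun x => √(R x) :=
    (S1.add (expNegInvGlue.contDiff.comp (contDiff_const.sub S1))).sqrt fun x => (R0 x).ne'
  refine ⟨fun p x => b p x / √(R x), {x | 1 / 2 < S x}, isOpen_lt continuous_const S1.continuous,
    fun x hx => ?_, ?_, fun p hp => ?_, fun x hx => ?_⟩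
  · obtain ⟨p, hp⟩ := hδ x (CL.subset_sat K hx)
    have h1 := b4 p x ⟨CL.subset_sat K hx, hp.trans (CL.subset_sat _)⟩
    have h2 := Finset.single_le_sum (f := fun p => b p x ^ 2) (fun p _ => sq_nonneg _) p.2
    simp only [h1] at h2
    exact lt_of_lt_of_le (by norm_num) h2
  · refine Set.Subset.antisymm ?_ (CL.subset_sat _)
    rintro x ⟨g, hg, hx⟩
    rwa [Set.mem_ofPred_eq, S2.G S1.continuous hg] at hx
  · have h1 : tsupport (fun x => b p x / √(R x)) ⊆ Metric.cthickening (δ / 2) (C p) := by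
      refine Set.Subset.trans (closure_mono ?_) (b5 p)
      intro x hx h0
      refine hx ?_
      simp only [h0, zero_div]
    refine ⟨(b1 p).div R1 fun x => (Real.sqrt_pos.2 (R0 x)).ne',
      fun ξ x => by simp only [R, b2 _ ξ x, S2 ξ x], ?_, h1.trans fun x hx => ?_,
      fun x => div_nonneg (b3 p x) (Real.sqrt_nonneg _)⟩
    · exact (hK'.cthickening (r := δ / 2)).of_isClosed_subset (isClosed_tsupport _)
        (h1.trans (Metric.cthickening_subset_of_subset _ fun x hx => hx.1))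
    · obtain ⟨y, hy, h2⟩ := Metric.mem_thickening_iff.1
        (Metric.cthickening_subset_thickening' δ0 (half_lt_self δ0) _ hx)
      rw [← hi p hp]
      exact hy.2 h2
  · have h1 : R x = S x := by
      simp only [R]
      rw [expNegInvGlue.zero_of_nonpos (sub_nonpos.2 (le_of_lt hx)), add_zero]
    simp only [div_pow, Real.sq_sqrt (R0 x).le, ← Finset.sum_div]
    rw [h1]
    exact div_self (show S x ≠ 0 from h1 ▸ (R0 x).ne')

end Vale.Agent.P353
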