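import Vale.Agent.P353.GPatch2

open MeasureTheory NormedSpace
open Complex (I)
open scoped InnerProductSpace ContDiff

noncomputable section
namespace Vale.Agent.P353
variable {V : Type} [NormedAddCommGroup V] [InnerProductSpace ℝ V] [FiniteDimensional ℝ V]
  [MeasurableSpace V] [BorelSpace V] {L : CL V}

/-- the cubic term of the deformation -/
def Par.cub (P : Par) (L : CL V) (x : EE V) : ℝ := ⟪s0 P.toGam L P.e x, P.s1 x⟫_ℝ

theorem Par.cub_G (P : Par) {g : V →L[ℝ] V} (hg : g ∈ L.G) (x : EE V) :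
    P.cub L (lift g x) = P.cub L x := by
  unfold Par.cub
  rw [s0_aut P.toGam L P.e (CL.G_br hg), Par.s1_lift, PiLp.inner_apply, PiLp.inner_apply]
  refine Finset.sum_congr rfl fun i _ => ?_
  rw [lift_apply, lift_apply]
  exact CL.G_inner hg _ _

omit [FiniteDimensional ℝ V] [MeasurableSpace V] [BorelSpace V] in
theorem my_br_sq (L : CL V) (x : EE V) (i j : Fin 9) : ‖L.br (x i) (x j)‖ ^ 2 ≤ 4 * L.pot x := by
  unfold CL.pot
  have h1 : ‖L.br (x i) (x j)‖ ^ 2 ≤ ∑ j, ‖L.br (x i) (x j)‖ ^ 2 :=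
    Finset.single_le_sum (f := fun j => ‖L.br (x i) (x j)‖ ^ 2) (fun _ _ => sq_nonneg _)
      (Finset.mem_univ j)
  have h2 : ∑ j, ‖L.br (x i) (x j)‖ ^ 2 ≤ ∑ i, ∑ j, ‖L.br (x i) (x j)‖ ^ 2 :=
    Finset.single_le_sum (f := fun i => ∑ j, ‖L.br (x i) (x j)‖ ^ 2)
      (fun _ _ => Finset.sum_nonneg fun _ _ => sq_nonneg _) (Finset.mem_univ i)
  linarith

omit [FiniteDimensional ℝ V] [MeasurableSpace V] [BorelSpace V] in
theorem my_pot_nonneg (L : CL V) (x : EE V) : 0 ≤ L.pot x :=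
  le_trans (by positivity) ((div_le_iff₀' (by norm_num : (0 : ℝ) < 4)).2 (my_br_sq L x 0 0))

omit [FiniteDimensional ℝ V] [MeasurableSpace V] [BorelSpace V] in
theorem my_br_le (L : CL V) (x : EE V) (i j : Fin 9) :
    ‖L.br (x i) (x j)‖ ≤ 2 * Real.sqrt (L.pot x) := by
  have h := my_br_sq L x i j
  have h0 := my_pot_nonneg L x
  have h1 : (2 * Real.sqrt (L.pot x)) ^ 2 = 4 * L.pot x := by
    rw [mul_pow, Real.sq_sqrt h0]; norm_num
  exact (pow_le_pow_iff_left₀ (norm_nonneg _) (by positivity) two_ne_zero).1 (h1 ▸ h)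

omit [FiniteDimensional ℝ V] [MeasurableSpace V] [BorelSpace V] in
theorem my_pot_le (L : CL V) (x : EE V) {b : ℝ} (h : ∀ i j, ‖L.br (x i) (x j)‖ ≤ b) :
    L.pot x ≤ 21 * b ^ 2 := by
  unfold CL.pot
  have h1 : ∀ i j, ‖L.br (x i) (x j)‖ ^ 2 ≤ b ^ 2 := fun i j =>
    pow_le_pow_left₀ (norm_nonneg _) (h i j) 2
  have h2 : ∑ i, ∑ j, ‖L.br (x i) (x j)‖ ^ 2 ≤ ∑ _i : Fin 9, ∑ _j : Fin 9, b ^ 2 :=
    Finset.sum_le_sum fun i _ => Finset.sum_le_sum fun j _ => h1 i j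
  simp only [Finset.sum_const, Finset.card_univ, Fintype.card_fin, nsmul_eq_mul] at h2
  push_cast at h2
  nlinarith [sq_nonneg b]

omit [FiniteDimensional ℝ V] [MeasurableSpace V] [BorelSpace V] in
theorem my_norm_le {W : Type} [NormedAddCommGroup W] (x : EE W) {b : ℝ} (hb : 0 ≤ b)
    (h : ∀ i, ‖x i‖ ≤ b) : ‖x‖ ≤ 3 * b := by
  have h1 : ‖x‖ ^ 2 = ∑ i, ‖x i‖ ^ 2 := PiLp.norm_sq_eq_of_L2 _ x
  have h2 : ∑ i, ‖x i‖ ^ 2 ≤ ∑ _i : Fin 9, b ^ 2 :=
    Finset.sum_le_sum fun i _ => pow_le_pow_left₀ (norm_nonneg _) (h i) 2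
  simp only [Finset.sum_const, Finset.card_univ, Fintype.card_fin, nsmul_eq_mul] at h2
  push_cast at h2
  refine (pow_le_pow_iff_left₀ (norm_nonneg _) (by positivity) two_ne_zero).1 ?_
  rw [h1]; nlinarith

omit [FiniteDimensional ℝ V] [MeasurableSpace V] [BorelSpace V] in
theorem my_norm_lift (l : Submodule ℝ V) (u : EE l) : ‖lift l.subtypeL u‖ = ‖u‖ := by
  have h := inner_lift_subtype l u u
  rw [real_inner_self_eq_norm_sq, real_inner_self_eq_norm_sq] at h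
  exact (pow_left_inj₀ (norm_nonneg _) (norm_nonneg _) two_ne_zero).1 h

omit [MeasurableSpace V] [BorelSpace V] in
theorem Patch.my_io (pt : Patch L) (X : EE pt.l) (z : pt.H) (i : Fin 9) :
    pt.io X z i = (X i : V) + ((z : EE pt.lᗮ) i : V) := rfl

omit [MeasurableSpace V] [BorelSpace V] in
theorem Patch.my_z_le (pt : Patch L) (X : EE pt.l) (z : pt.H) : ‖z‖ ≤ ‖pt.io X z - pt.p‖ := by
  have hp : ∀ i, pt.p i ∈ pt.l := fun i => pt.z_le (pt.p_mem_Z i)
  let Y : EE pt.l := WithLp.toLp 2 fun i => ⟨pt.p i, hp i⟩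
  have hY : lift pt.l.subtypeL Y = pt.p := by ext i; rfl
  have h := pt.norm_io X z Y
  rw [hY] at h
  refine (pow_le_pow_iff_left₀ (norm_nonneg _) (norm_nonneg _) two_ne_zero).1 ?_
  rw [h]; nlinarith [sq_nonneg ‖X - Y‖]

omit [MeasurableSpace V] [BorelSpace V] in
theorem Patch.my_heavy (pt : Patch L) : ∃ r > 0, ∃ C > 0, ∀ X z, ‖pt.io X z - pt.p‖ < r →
    ‖z‖ ≤ C * Real.sqrt (L.pot (pt.io X z)) := by
  obtain ⟨d, hd, r0, hr0, h0⟩ := pt.adm_lower
  set T : EE V →L[ℝ] V := contr pt.v with hT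
  refine ⟨r0 / (‖T‖ + 1), by positivity, 3 * (18 / d), by positivity, fun X z hx => ?_⟩
  set x := pt.io X z with hxdef
  set s := Real.sqrt (L.pot x) with hs
  have hs0 : 0 ≤ s := Real.sqrt_nonneg _
  have hv : ∀ i, |pt.v i| ≤ 1 := by
    intro i
    have h1 : pt.v i * pt.v i ≤ ∑ j, pt.v j * pt.v j :=
      Finset.single_le_sum (f := fun j => pt.v j * pt.v j) (fun _ _ => mul_self_nonneg _)
        (Finset.mem_univ i)
    have h2 : ∑ j, pt.v j * pt.v j = 1 := pt.unit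
    exact abs_le_one_iff_mul_self_le_one.2 (h2 ▸ h1)
  have hz0 : ∑ i, pt.v i • (((z : EE pt.lᗮ) i : pt.lᗮ) : V) = 0 := by
    have h1 : contr pt.v (z : EE pt.lᗮ) = 0 := z.2
    rw [contr_apply] at h1
    have h2 := congrArg (Subtype.val) h1
    simpa using h2
  have ha : T x = ∑ i, pt.v i • (X i : V) := by
    rw [hT, contr_apply]
    simp only [hxdef, Patch.my_io, smul_add, Finset.sum_add_distrib, hz0, add_zero]
  have hal : T x ∈ pt.l := by
    rw [ha]; exact Submodule.sum_mem _ fun i _ => Submodule.smul_mem _ _ (X i).2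
  have hnear : ‖T x - T pt.p‖ < r0 := by
    rw [← map_sub]
    have h1 := T.le_opNorm (x - pt.p)
    have h2 : ‖x - pt.p‖ * (‖T‖ + 1) < r0 := (lt_div_iff₀ (by positivity)).1 hx
    nlinarith [norm_nonneg (x - pt.p), norm_nonneg T]
  have hj : ∀ j, ‖(z : EE pt.lᗮ) j‖ ≤ 18 / d * s := by
    intro j
    have h1 := h0 (T x) hnear ((z : EE pt.lᗮ) j)
    have h2 : ‖pt.adm (T x) ((z : EE pt.lᗮ) j)‖ = ‖L.br (T x) ((z : EE pt.lᗮ) j)‖ := by
      rw [← pt.adm_apply hal]; rfl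
    have h3 : L.br (T x) (x j) = L.br (T x) (X j) + L.br (T x) ((z : EE pt.lᗮ) j) := by
      rw [← map_add]; rfl
    have h4 : ⟪L.br (T x) (X j), L.br (T x) ((z : EE pt.lᗮ) j)⟫_ℝ = 0 :=
      Submodule.inner_right_of_mem_orthogonal (L.sub_cent pt.p _ hal _ (X j).2)
        (L.br_orth (L.sub_cent pt.p) hal ((z : EE pt.lᗮ) j).2)
    have h5 : ‖L.br (T x) ((z : EE pt.lᗮ) j)‖ ≤ ‖L.br (T x) (x j)‖ := by
      refine (pow_le_pow_iff_left₀ (norm_nonneg _) (norm_nonneg _) two_ne_zero).1 ?_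
      rw [h3, norm_add_sq_real, h4]
      nlinarith [sq_nonneg ‖L.br (T x) (X j)‖]
    have h6 : L.br (T x) (x j) = ∑ i, pt.v i • L.br (x i) (x j) := by
      rw [hT, contr_apply]; simp
    have h7 : ‖L.br (T x) (x j)‖ ≤ 18 * s := by
      rw [h6]
      refine (norm_sum_le _ _).trans ?_
      have h8 : ∑ i, ‖pt.v i • L.br (x i) (x j)‖ ≤ ∑ _i : Fin 9, 2 * s := by
        refine Finset.sum_le_sum fun i _ => ?_
        rw [norm_smul, Real.norm_eq_abs]
        have := my_br_le L x i j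
        nlinarith [hv i, abs_nonneg (pt.v i), norm_nonneg (L.br (x i) (x j))]
      simp only [Finset.sum_const, Finset.card_univ, Fintype.card_fin, nsmul_eq_mul] at h8
      push_cast at h8
      linarith
    rw [div_mul_eq_mul_div, le_div_iff₀ hd]
    linarith
  have := my_norm_le (z : EE pt.lᗮ) (by positivity) hj
  calc ‖z‖ = ‖(z : EE pt.lᗮ)‖ := rfl
    _ ≤ _ := by linarith

omit [MeasurableSpace V] [BorelSpace V] in
theorem Patch.my_central (pt : Patch L) (X : EE pt.l) (z : pt.H) (i j : Fin 9) {y : V}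
    (hy : y ∈ pt.z) : |⟪L.br (pt.io X z i) (pt.io X z j), y⟫_ℝ| ≤ ‖L.br‖ * ‖z‖ ^ 2 * ‖y‖ := by
  have h0 : ∀ k, L.br (X k) y = 0 := fun k => (pt.mem_z y).1 hy _ (X k).2
  have h1 : ∀ k w, ⟪L.br (X k) w, y⟫_ℝ = 0 := fun k w => by rw [L.inv, h0]; simp
  have h2 : ∀ k w, ⟪L.br w (X k), y⟫_ℝ = 0 := fun k w => by rw [L.skew, inner_neg_left, h1]; simp
  have h3 : ⟪L.br (pt.io X z i) (pt.io X z j), y⟫_ℝ =
      ⟪L.br ((z : EE pt.lᗮ) i) ((z : EE pt.lᗮ) j), y⟫_ℝ := by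
    rw [Patch.my_io, Patch.my_io, map_add L.br, add_apply, inner_add_left, h1,
      map_add, inner_add_left, h2]
    simp
  rw [h3]
  refine (abs_real_inner_le_norm _ _).trans ?_
  refine mul_le_mul_of_nonneg_right ?_ (norm_nonneg _)
  refine (L.br.le_opNorm₂ _ _).trans ?_
  have h4 : ∀ k, ‖(((z : EE pt.lᗮ) k : pt.lᗮ) : V)‖ ≤ ‖z‖ := fun k =>
    PiLp.norm_apply_le (z : EE pt.lᗮ) k
  have := mul_le_mul (h4 i) (h4 j) (norm_nonneg _) (norm_nonneg _)
  rw [mul_assoc, sq]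
  exact mul_le_mul_of_nonneg_left this (ContinuousLinearMap.opNorm_nonneg _)

/-- Near a commuting tuple the heavy variables and the light commutators are controlled by the
potential, and the cubic term is small (central tuples drop out of the light cubic term). -/
theorem Patch.myers (pt : Patch L) (P : Par) : ∃ r > 0, ∃ C > 0, ∀ X z, pt.io X z ∈ pt.pts r →
    ‖z‖ ^ 2 ≤ C * L.pot (pt.io X z) ∧ L.pot (lift pt.l.subtypeL X) ≤ C * L.pot (pt.io X z) ∧
    ∀ Y ∈ pt.Z, |P.cub L (pt.io X z)| ≤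
      C * ‖pt.io X z - Y‖ * Real.sqrt (L.pot (pt.io X z)) + C * L.pot (pt.io X z) := by
  obtain ⟨r, hr, C1, hC1, h1⟩ := pt.my_heavy
  set b := ‖L.br‖ with hb
  have hb0 : 0 ≤ b := ContinuousLinearMap.opNorm_nonneg _
  set A : EE V →L[ℝ] EE V := mat P.A' with hA
  set a := ‖A‖ with ha
  have ha0 : 0 ≤ a := ContinuousLinearMap.opNorm_nonneg _
  set M := ‖pt.p‖ + 2 with hM
  have hM0 : 0 ≤ M := by positivity
  set C2 := 2 + 2 * b * M * C1 with hC2
  refine ⟨min r 1, lt_min hr one_pos,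
    C1 ^ 2 + 21 * C2 ^ 2 + (6 * a + 9 * b * C1 * a) + 9 * b * C1 ^ 2 * a * M, by positivity,
    fun X z hx => ?_⟩
  set x := pt.io X z with hxdef
  have hxr : ‖x - pt.p‖ < r := hx.2.trans_le (min_le_left _ _)
  have hx1 : ‖x - pt.p‖ < 1 := hx.2.trans_le (min_le_right _ _)
  have hp0 := my_pot_nonneg L x
  set s := Real.sqrt (L.pot x) with hs
  have hs0 : 0 ≤ s := Real.sqrt_nonneg _
  have hss : s ^ 2 = L.pot x := Real.sq_sqrt hp0
  have hz : ‖z‖ ≤ C1 * s := h1 X z hxr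
  have hz1 : ‖z‖ ≤ 1 := (pt.my_z_le X z).trans hx1.le
  have hxM : ‖x‖ ≤ ‖pt.p‖ + 1 := by
    have := norm_add_le pt.p (x - pt.p)
    rw [add_sub_cancel] at this
    linarith
  have hzk : ∀ k, ‖(((z : EE pt.lᗮ) k : pt.lᗮ) : V)‖ ≤ ‖z‖ := fun k =>
    PiLp.norm_apply_le (z : EE pt.lᗮ) k
  have hxk : ∀ k, ‖x k‖ ≤ M := fun k => (PiLp.norm_apply_le x k).trans (by linarith)
  have hXk : ∀ k, ‖(X k : V)‖ ≤ M := by
    intro k
    have e : (X k : V) = x k - ((z : EE pt.lᗮ) k : V) := by rw [hxdef, Patch.my_io]; abel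
    rw [e]
    have := norm_sub_le (x k) ((z : EE pt.lᗮ) k : V)
    have := PiLp.norm_apply_le x k
    have := hzk k
    linarith
  have t1 : 0 ≤ 21 * C2 ^ 2 := by positivity
  have t2 : 0 ≤ 6 * a + 9 * b * C1 * a := by positivity
  have t3 : 0 ≤ 9 * b * C1 ^ 2 * a * M := by positivity
  have t0 : 0 ≤ C1 ^ 2 := by positivity
  refine ⟨?_, ?_, fun Y hY => ?_⟩
  · have h2 : ‖z‖ ^ 2 ≤ (C1 * s) ^ 2 := pow_le_pow_left₀ (norm_nonneg _) hz 2
    rw [mul_pow, hss] at h2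
    exact h2.trans (mul_le_mul_of_nonneg_right (by linarith) hp0)
  · have h2 : ∀ i j, ‖L.br (lift pt.l.subtypeL X i) (lift pt.l.subtypeL X j)‖ ≤ C2 * s := by
      intro i j
      have e : L.br (lift pt.l.subtypeL X i) (lift pt.l.subtypeL X j) =
          L.br (x i) (x j) - L.br (x i) ((z : EE pt.lᗮ) j) - L.br ((z : EE pt.lᗮ) i) (X j) := by
        rw [hxdef, Patch.my_io, Patch.my_io]
        simp only [lift_apply, Submodule.subtypeL_apply, map_add, add_apply]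
        abel
      rw [e]
      have k1 := my_br_le L x i j
      have k2 : ‖L.br (x i) ((z : EE pt.lᗮ) j)‖ ≤ b * M * (C1 * s) :=
        (L.br.le_opNorm₂ _ _).trans (mul_le_mul (mul_le_mul_of_nonneg_left (hxk i) hb0)
          ((hzk j).trans hz) (norm_nonneg _) (by positivity))
      have k3 : ‖L.br ((z : EE pt.lᗮ) i) (X j)‖ ≤ b * (C1 * s) * M :=
        (L.br.le_opNorm₂ _ _).trans (mul_le_mul (mul_le_mul_of_nonneg_left ((hzk i).trans hz) hb0)
          (hXk j) (norm_nonneg _) (by positivity))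
      have k4 := norm_sub_le (L.br (x i) (x j) - L.br (x i) ((z : EE pt.lᗮ) j))
        (L.br ((z : EE pt.lᗮ) i) (X j))
      have k5 := norm_sub_le (L.br (x i) (x j)) (L.br (x i) ((z : EE pt.lᗮ) j))
      have k6 : C2 * s = 2 * s + b * M * (C1 * s) + b * (C1 * s) * M := by rw [hC2]; ring
      linarith
    have h3 := my_pot_le L _ h2
    rw [mul_pow, hss, ← mul_assoc] at h3
    exact h3.trans (mul_le_mul_of_nonneg_right (by linarith) hp0)
  · set D := ‖x - Y‖ with hD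
    have hD0 : 0 ≤ D := norm_nonneg _
    have hσ : |P.σ| = 1 := by
      have := P.hσ
      rcases mul_self_eq_one_iff.1 this with h | h <;> simp [h]
    have e1 : P.cub L x = P.σ * (⟪lift (L.br (x 8)) x, A (x - Y)⟫_ℝ + ⟪lift (L.br (x 8)) x, A Y⟫_ℝ) := by
      unfold Par.cub
      rw [Par.inner_s0_s1, ← inner_add_right, ← map_add, sub_add_cancel]
    have k1 : ‖lift (L.br (x 8)) x‖ ≤ 3 * (2 * s) :=
      my_norm_le _ (by positivity) fun i => my_br_le L x 8 i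
    have k2 : |⟪lift (L.br (x 8)) x, A (x - Y)⟫_ℝ| ≤ 3 * (2 * s) * (a * D) :=
      (abs_real_inner_le_norm _ _).trans (mul_le_mul k1 (A.le_opNorm _) (norm_nonneg _)
        (by positivity))
    have hYn : ‖Y‖ ≤ D + M := by
      have := norm_sub_le x (x - Y)
      rw [sub_sub_cancel] at this
      linarith
    have k3 : ∀ i, |⟪lift (L.br (x 8)) x i, A Y i⟫_ℝ| ≤ b * ‖z‖ ^ 2 * (a * (D + M)) := by
      intro i
      have hy : A Y i ∈ pt.z := by
        rw [hA, mat_apply]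
        exact Submodule.sum_mem _ fun j _ => Submodule.smul_mem _ _ (hY j)
      refine (pt.my_central X z 8 i hy).trans (mul_le_mul_of_nonneg_left ?_ (by positivity))
      exact (PiLp.norm_apply_le _ i).trans ((A.le_opNorm Y).trans
        (mul_le_mul_of_nonneg_left hYn ha0))
    have k4 : |⟪lift (L.br (x 8)) x, A Y⟫_ℝ| ≤ 9 * (b * ‖z‖ ^ 2 * (a * (D + M))) := by
      rw [PiLp.inner_apply]
      refine (Finset.abs_sum_le_sum_abs _ _).trans ?_
      have h8 := Finset.sum_le_sum fun i (_ : i ∈ Finset.univ) => k3 i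
      simp only [Finset.sum_const, Finset.card_univ, Fintype.card_fin, nsmul_eq_mul] at h8
      push_cast at h8
      exact h8
    have k5 : ‖z‖ ^ 2 ≤ C1 * s := by
      have := mul_le_mul hz1 hz (norm_nonneg _) zero_le_one
      rwa [one_mul, ← sq] at this
    have k6 : ‖z‖ ^ 2 ≤ C1 ^ 2 * L.pot x := by
      have h2 : ‖z‖ ^ 2 ≤ (C1 * s) ^ 2 := pow_le_pow_left₀ (norm_nonneg _) hz 2
      rwa [mul_pow, hss] at h2
    have k7 : 9 * (b * ‖z‖ ^ 2 * (a * (D + M))) ≤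
        9 * b * C1 * a * (D * s) + 9 * b * C1 ^ 2 * a * M * L.pot x := by
      have u1 := mul_le_mul_of_nonneg_left k5 (show 0 ≤ 9 * b * a * D by positivity)
      have u2 := mul_le_mul_of_nonneg_left k6 (show 0 ≤ 9 * b * a * M by positivity)
      linarith
    rw [e1, abs_mul, hσ, one_mul]
    refine (abs_add_le _ _).trans ?_
    have u3 : 0 ≤ D * s := by positivity
    have u4 := mul_le_mul_of_nonneg_right
      (show 6 * a + 9 * b * C1 * a ≤
        C1 ^ 2 + 21 * C2 ^ 2 + (6 * a + 9 * b * C1 * a) + 9 * b * C1 ^ 2 * a * M by linarith) u3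
    have u5 := mul_le_mul_of_nonneg_right
      (show 9 * b * C1 ^ 2 * a * M ≤
        C1 ^ 2 + 21 * C2 ^ 2 + (6 * a + 9 * b * C1 * a) + 9 * b * C1 ^ 2 * a * M by linarith) hp0
    rw [mul_assoc _ D s]
    linarith

theorem Par.continuous_cub (P : Par) (L : CL V) : Continuous (P.cub L) :=
  (contDiff_s0 P.toGam L P.e).continuous.inner P.s1.continuous

theorem Par.cub_smul (P : Par) (L : CL V) (c : ℝ) (x : EE V) :
    P.cub L (c • x) = c ^ 3 * P.cub L x := by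
  unfold Par.cub
  rw [s0_smul, map_smul, real_inner_smul_left, real_inner_smul_right]; ring

theorem Par.cub_local (P : Par) (L : CL V) {η : ℝ} (hη : 0 < η) (p : EE V) :
    ∃ U ∈ nhds p, ∃ R : ℝ, ∀ u ∈ U, ∀ t ≥ R, t * |P.cub L u| ≤ η * (t ^ 2 * L.pot u + 1) := by
  rcases (my_pot_nonneg L p).eq_or_lt with h0 | h0
  · obtain ⟨pt, rfl⟩ := L.exists_patch ((pot_eq_zero L p).1 h0.symm)
    obtain ⟨r1, hr1, K, hK, -, hs, -⟩ := pt.slice
    obtain ⟨r, hr, C, hC, hm⟩ := pt.myers P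
    set ρ := min r1 (min r (η / C)) with hρ
    have hρ0 : 0 < ρ := lt_min hr1 (lt_min hr (by positivity))
    refine ⟨Metric.ball pt.p (ρ / K), Metric.ball_mem_nhds _ (by positivity), 2 * C / η,
      fun u hu t ht => ?_⟩
    obtain ⟨g, hg, ⟨X, z, hX⟩, hd⟩ := hs ρ (min_le_left _ _) hu
    have e1 : P.cub L u = P.cub L (pt.io X z) := by rw [← hX, P.cub_G hg]
    have e2 : L.pot u = L.pot (pt.io X z) := by
      rw [← hX, CL.SInv.G (pot_sinv L) (contDiff_pot L).continuous hg]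
    rw [hX] at hd
    have hmem : pt.io X z ∈ pt.pts r :=
      ⟨⟨X, z, rfl⟩, hd.trans_le ((min_le_right _ _).trans (min_le_left _ _))⟩
    have h1 := (hm X z hmem).2.2 pt.p pt.p_mem_Z
    rw [e1, e2]
    have hq := my_pot_nonneg L (pt.io X z)
    set q := L.pot (pt.io X z)
    set s := Real.sqrt q with hsdef
    have hs0 : 0 ≤ s := Real.sqrt_nonneg _
    have hss : s ^ 2 = q := Real.sq_sqrt hq
    have h2 : C * ‖pt.io X z - pt.p‖ ≤ η := by
      have : ‖pt.io X z - pt.p‖ ≤ η / C :=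
        hd.le.trans ((min_le_right _ _).trans (min_le_right _ _))
      rwa [le_div_iff₀' hC] at this
    have ht0 : 0 ≤ t := le_trans (by positivity) ht
    have h3 : 2 * C ≤ t * η := (div_le_iff₀ hη).1 ht
    have h4 : |P.cub L (pt.io X z)| ≤ η * s + C * q :=
      h1.trans (by nlinarith [mul_le_mul_of_nonneg_right h2 hs0])
    have h5 := mul_le_mul_of_nonneg_left h4 ht0
    have h6 : 2 * (t * s) ≤ t ^ 2 * q + 1 := by rw [← hss]; nlinarith [sq_nonneg (t * s - 1)]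
    have h7 := mul_le_mul_of_nonneg_left h6 hη.le
    have h8 := mul_le_mul_of_nonneg_right h3 (mul_nonneg ht0 hq)
    nlinarith
  · have c1 : ∀ᶠ u in nhds p, L.pot p / 2 < L.pot u :=
      (contDiff_pot L).continuous.continuousAt.eventually (lt_mem_nhds (by linarith))
    have c2 : ∀ᶠ u in nhds p, |P.cub L u| < |P.cub L p| + 1 :=
      (P.continuous_cub L).abs.continuousAt.eventually (gt_mem_nhds (by linarith))
    refine ⟨_, c1.and c2, (|P.cub L p| + 1) / (η * (L.pot p / 2)), fun u hu t ht => ?_⟩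
    obtain ⟨h1, h2⟩ := hu
    have ht0 : 0 ≤ t := le_trans (by positivity) ht
    have h3 : |P.cub L p| + 1 ≤ t * (η * (L.pot p / 2)) := (div_le_iff₀ (by positivity)).1 ht
    have h4 : t * (η * (L.pot p / 2)) ≤ t * (η * L.pot u) := by gcongr
    have h5 := mul_le_mul_of_nonneg_left (h2.le.trans (h3.trans h4)) ht0
    nlinarith

theorem Par.cub_small (P : Par) (L : CL V) {η : ℝ} (hη : 0 < η) :
    ∃ R, ∀ x : EE V, R ≤ ‖x‖ → |P.cub L x| ≤ η * (L.pot x + ‖x‖ ^ 2) := by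
  have key : ∃ R : ℝ, ∀ u ∈ Metric.sphere (0 : EE V) 1, ∀ t ≥ R,
      t * |P.cub L u| ≤ η * (t ^ 2 * L.pot u + 1) := by
    refine (isCompact_sphere (0 : EE V) 1).induction_on
      (p := fun S => ∃ R : ℝ, ∀ u ∈ S, ∀ t ≥ R, t * |P.cub L u| ≤ η * (t ^ 2 * L.pot u + 1))
      ⟨0, fun u hu => hu.elim⟩ ?_ ?_ ?_
    · rintro S T hST ⟨R, h⟩
      exact ⟨R, fun u hu => h u (hST hu)⟩
    · rintro S T ⟨R, h⟩ ⟨R', h'⟩
      refine ⟨max R R', fun u hu t ht => ?_⟩
      rcases hu with hu | hu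
      · exact h u hu t ((le_max_left _ _).trans ht)
      · exact h' u hu t ((le_max_right _ _).trans ht)
    · intro p _
      obtain ⟨U, hU, h⟩ := P.cub_local L hη p
      exact ⟨U, mem_nhdsWithin_of_mem_nhds hU, h⟩
  obtain ⟨R, h⟩ := key
  refine ⟨max R 1, fun x hx => ?_⟩
  set t := ‖x‖ with ht
  have ht0 : 0 < t := lt_of_lt_of_le one_pos ((le_max_right _ _).trans hx)
  have hu : t⁻¹ • x ∈ Metric.sphere (0 : EE V) 1 := by
    rw [mem_sphere_zero_iff_norm, norm_smul, norm_inv, Real.norm_eq_abs, abs_of_pos ht0,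
      inv_mul_cancel₀ ht0.ne']
  have h1 := h _ hu t ((le_max_left _ _).trans hx)
  have e : x = t • t⁻¹ • x := by rw [smul_smul, mul_inv_cancel₀ ht0.ne', one_smul]
  have e1 : P.cub L x = t ^ 3 * P.cub L (t⁻¹ • x) := by rw [← P.cub_smul, ← e]
  have e2 : L.pot x = t ^ 4 * L.pot (t⁻¹ • x) := by rw [← pot_smul, ← e]
  rw [e1, e2, abs_mul, abs_of_pos (by positivity : 0 < t ^ 3)]
  have h2 := mul_le_mul_of_nonneg_left h1 (sq_nonneg t)
  nlinarith

/-- quantitative form of the confinement -/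
theorem Par.coercive' (P : Par) (L : CL V) {mu : ℝ} (hmu : 0 < mu) : ∃ C, ∀ x : EE V,
    min 2 (mu ^ 2 * P.δ ^ 2) / 2 * (L.pot x + ‖x‖ ^ 2) - C ≤
      ‖(1 : ℝ) • s0 P.toGam L P.e x + mu • P.s1 x‖ ^ 2 := by
  have hδ := P.δ0
  set m := min 2 (mu ^ 2 * P.δ ^ 2) with hm
  have hm0 : 0 < m := lt_min two_pos (by positivity)
  obtain ⟨R, hR⟩ := P.cub_small L (η := m / (4 * mu)) (by positivity)
  have hc : Continuous fun x : EE V => m / 2 * (L.pot x + ‖x‖ ^ 2) :=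
    continuous_const.mul ((contDiff_pot L).continuous.add (continuous_norm.pow 2))
  obtain ⟨C, hC⟩ := (isCompact_closedBall (0 : EE V) R).bddAbove_image hc.continuousOn
  refine ⟨max C 0, fun x => ?_⟩
  rcases le_total ‖x‖ R with h | h
  · have h1 : m / 2 * (L.pot x + ‖x‖ ^ 2) ≤ C := hC ⟨x, mem_closedBall_zero_iff.2 h, rfl⟩
    have := le_max_left C 0
    nlinarith [sq_nonneg ‖(1 : ℝ) • s0 P.toGam L P.e x + mu • P.s1 x‖]
  · have h1 := hR x h
    have h2 := norm_s0 P.toGam L P.he x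
    have h3 := P.norm_s1 x
    have h4 := (norm_Amat x).1
    have h5 : ‖x 8‖ ^ 2 ≤ ‖x‖ ^ 2 := pow_le_pow_left₀ (norm_nonneg _) (PiLp.norm_apply_le x 8) 2
    have h6 : P.δ ^ 2 ≤ 1 := by nlinarith [P.δ1]
    have h7 : P.δ ^ 2 * ‖x‖ ^ 2 ≤ ‖P.s1 x‖ ^ 2 := by nlinarith
    have e : ‖(1 : ℝ) • s0 P.toGam L P.e x + mu • P.s1 x‖ ^ 2 =
        2 * L.pot x + 2 * (mu * P.cub L x) + mu ^ 2 * ‖P.s1 x‖ ^ 2 := by
      rw [one_smul, norm_add_sq_real, real_inner_smul_right, norm_smul, mul_pow, Real.norm_eq_abs,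
        sq_abs, ← h2]
      unfold Par.cub
      ring
    have hp := my_pot_nonneg L x
    have h8 : -(m / (4 * mu) * (L.pot x + ‖x‖ ^ 2)) ≤ P.cub L x := (abs_le.1 h1).1
    have h9 := mul_le_mul_of_nonneg_left h8 hmu.le
    have e2 : mu * -(m / (4 * mu) * (L.pot x + ‖x‖ ^ 2)) = -(m / 4 * (L.pot x + ‖x‖ ^ 2)) := by
      field_simp
    have h10 : m * L.pot x ≤ 2 * L.pot x := mul_le_mul_of_nonneg_right (min_le_left _ _) hp
    have h11 : m * ‖x‖ ^ 2 ≤ mu ^ 2 * P.δ ^ 2 * ‖x‖ ^ 2 :=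
      mul_le_mul_of_nonneg_right (min_le_right _ _) (sq_nonneg _)
    have h12 := mul_le_mul_of_nonneg_left h7 (sq_nonneg mu)
    have := le_max_right C 0
    rw [e]
    nlinarith

/-- the deformed potential is confining -/
theorem Par.coercive (P : Par) (L : CL V) {mu : ℝ} (hmu : 0 < mu) : ∃ c > 0, ∃ C, ∀ x : EE V,
    c * (L.pot x + ‖x‖ ^ 2) - C ≤ ‖(1 : ℝ) • s0 P.toGam L P.e x + mu • P.s1 x‖ ^ 2 := by
  have hδ := P.δ0
  exact ⟨_, half_pos (lt_min two_pos (by positivity)), P.coercive' L hmu⟩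

end Vale.Agent.P353
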