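import Vale.Agent.P353.BSI
import Vale.Agent.P353.GMyers
import Vale.Agent.P353.GBump
import Vale.Agent.P353.AId2

open MeasureTheory NormedSpace
open Complex (I)
open scoped InnerProductSpace ContDiff

noncomputable section
namespace Vale.Agent.P353
variable {V F : Type} [NormedAddCommGroup V] [InnerProductSpace ℝ V] [FiniteDimensional ℝ V]
  [NormedAddCommGroup F] [InnerProductSpace ℂ F] [CompleteSpace F]
  [MeasurableSpace V] [BorelSpace V] (M : Mod V F) (P : Par) (pt : Patch M.L)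

theorem Mod.q_split (lam mu : ℝ) {φ : EE V → F} (h : Tst φ) :
    M.q P lam mu φ = M.q0 P.toGam lam φ + lam * mu * wt (P.cub M.L) φ +
      mu ^ 2 / 2 * wt (fun x => ‖P.s1 x‖ ^ 2) φ +
      mu * opf (fun _ => I • M.C.spin (mat P.M1)) φ := by
  have c1 := P.continuous_cub M.L
  have c2 : Continuous fun x : EE V => ‖P.s1 x‖ ^ 2 := (P.s1.continuous.norm).pow 2
  have e := sch_add M.C h (w := fun x => lam ^ 2 * M.L.pot x)
    (u := fun x => lam * mu * P.cub M.L x + mu ^ 2 / 2 * ‖P.s1 x‖ ^ 2)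
    (T := fun x => (-lam) • Gm P.toGam M.L x) (M.q0_cont P.toGam lam).1
    ((continuous_const.mul c1).add (continuous_const.mul c2)) (M.q0_cont P.toGam lam).2 1 mu
    (mat P.M1)
  rw [wt_add h (Continuous.continuousOn (by fun_prop)) (Continuous.continuousOn (by fun_prop)),
    wt_smul, wt_smul] at e
  have e' : (fun x => (1 / 2) * ‖lam • s0 P.toGam M.L P.e x + mu • P.s1 x‖ ^ 2) = fun x =>
      lam ^ 2 * M.L.pot x + 1 * (lam * mu * P.cub M.L x + mu ^ 2 / 2 * ‖P.s1 x‖ ^ 2) := by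
    funext x
    rw [norm_add_sq_real, norm_smul, norm_smul, mul_pow, mul_pow, Real.norm_eq_abs,
      Real.norm_eq_abs, sq_abs, sq_abs, real_inner_smul_left, real_inner_smul_right,
      ← norm_s0 P.toGam M.L P.he, Par.cub]
    ring
  rw [Mod.q, e', e, Mod.q0]
  ring

omit [MeasurableSpace V] [BorelSpace V] in
theorem bbig_s1 (x : EE V) : P.δ ^ 2 * ‖x‖ ^ 2 ≤ ‖P.s1 x‖ ^ 2 := by
  borelize V
  have h1 := P.norm_s1 x
  have h2 := (norm_Amat x).1
  have h3 : ‖x 8‖ ^ 2 ≤ ‖x‖ ^ 2 := pow_le_pow_left₀ (norm_nonneg _) (PiLp.norm_apply_le x 8) 2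
  have h4 : P.δ ^ 2 ≤ 1 := pow_le_one₀ P.δ0.le P.δ1
  nlinarith [mul_le_mul_of_nonneg_right h4 (sub_nonneg.2 h3)]

theorem bbig_mu {lam mu ε : ℝ} (hε : 0 < ε) (hl : (ε ^ 3)⁻¹ ≤ lam) (h : mu ^ 3 ≤ lam ^ 2) :
    mu ≤ ε * lam := by
  have h0 : 0 < ε ^ 3 := pow_pos hε 3
  have h1 : 0 < lam := (inv_pos.2 h0).trans_le hl
  have h2 : 1 ≤ ε ^ 3 * lam := by
    have := mul_le_mul_of_nonneg_left hl h0.le
    rwa [mul_inv_cancel₀ h0.ne'] at this
  refine le_of_pow_le_pow_left₀ three_ne_zero (by positivity) (h.trans ?_)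
  have := mul_le_mul_of_nonneg_right h2 (sq_nonneg lam)
  nlinarith

theorem bbig_pt {lam mu C κ η c t u d : ℝ} (hl : 0 ≤ lam) (hm : 0 ≤ mu) (hC : 0 ≤ C) (hη : 0 < η)
    (ht : 0 ≤ t) (hd : d ≤ κ) (hκ : C ^ 2 * κ ^ 2 ≤ 2 * η * c) (hmu : mu * C ≤ η / 2 * lam)
    (hu : |u| ≤ C * d * Real.sqrt t + C * t) : -(c * mu ^ 2) ≤ lam * mu * u + η * lam ^ 2 * t := by
  have hs := Real.sq_sqrt ht
  have hs0 := Real.sqrt_nonneg t
  generalize Real.sqrt t = s at hs hs0 hu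
  subst hs
  have h1 : -u ≤ C * κ * s + C * s ^ 2 :=
    (neg_le_abs u).trans (hu.trans (by gcongr))
  have h2 := mul_le_mul_of_nonneg_left h1 (mul_nonneg hl hm)
  have h3 := mul_le_mul_of_nonneg_right hmu (mul_nonneg hl ht)
  have h4 := mul_le_mul_of_nonneg_right hκ (sq_nonneg mu)
  have h5 : lam * mu * (C * κ * s) ≤ η / 2 * lam ^ 2 * s ^ 2 + c * mu ^ 2 := by
    refine le_of_mul_le_mul_left ?_ (by positivity : 0 < 2 * η)
    nlinarith [sq_nonneg (η * lam * s - C * κ * mu)]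
  nlinarith

/-- The branch `θ lam ≤ mu ^ 2`: the mass term wins.  Take `r0 ≤ ‖p‖ / 2` and below the radius of
`Patch.myers`, `c1 = δ ^ 2 ‖p‖ ^ 2 / 32`; choose `η` of order `θ c1`, then `κ` small compared with
`sqrt η1`; `cub` and `pot` are invariant under the group; `mu ≤ lam ^ (2/3)`. -/
theorem Mod.big (hp : pt.p ≠ 0) : ∃ r0 > 0, ∃ c1 > 0, ∀ r ≤ r0,
    (∀ η > 0, ∃ κ > 0, ∃ η1 > 0, ∃ lam0 > 0, ∀ lam ≥ lam0, ∀ φ, M.Glob pt r κ φ →
      η1 * lam ^ 2 * wt M.L.pot φ - η * lam * n2 φ ≤ M.q0 P.toGam lam φ) →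
    ∀ θ > 0, ∃ κ > 0, ∃ lam0 > 0, ∀ lam ≥ lam0, ∀ mu : ℝ, 0 ≤ mu → mu ^ 3 ≤ lam ^ 2 →
      θ * lam ≤ mu ^ 2 → ∀ φ, M.Glob pt r κ φ → c1 * mu ^ 2 * n2 φ ≤ M.q P lam mu φ := by
  obtain ⟨r1, hr1, C, hC, hmy⟩ := pt.myers P
  have hp0 : 0 < ‖pt.p‖ := norm_pos_iff.2 hp
  have hδ := P.δ0
  obtain ⟨c, hc⟩ : ∃ c, c = P.δ ^ 2 * ‖pt.p‖ ^ 2 / 32 := ⟨_, rfl⟩
  have hc0 : 0 < c := by rw [hc]; positivity
  refine ⟨min r1 (‖pt.p‖ / 2), lt_min hr1 (half_pos hp0), c, hc0, fun r hr H θ hθ => ?_⟩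
  obtain ⟨κ, hκ, η, hη, lam0, hlam0, H⟩ := H (θ * c) (mul_pos hθ hc0)
  obtain ⟨b, hb⟩ : ∃ b, b = ‖I • M.C.spin (mat P.M1)‖ := ⟨_, rfl⟩
  have hb0 : 0 ≤ b := hb ▸ norm_nonneg _
  have hκ' : 0 < Real.sqrt (2 * η * c) / C := by positivity
  refine ⟨min κ (Real.sqrt (2 * η * c) / C), lt_min hκ hκ',
    max lam0 (max ((η / (2 * C)) ^ 3)⁻¹ ((b / c) ^ 2 / θ)), lt_max_of_lt_left hlam0,
    fun lam hl mu hm h3 h2 φ hφ => ?_⟩
  have l1 : lam0 ≤ lam := (le_max_left _ _).trans hl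
  have l2 := ((le_max_left _ _).trans (le_max_right _ _)).trans hl
  have l3 := ((le_max_right _ _).trans (le_max_right _ _)).trans hl
  have l0 : 0 ≤ lam := hlam0.le.trans l1
  have h := hφ.tst
  have hn := n2_nonneg φ
  have H1 := H lam l1 φ (hφ.mono (min_le_left _ _))
  have m1 : mu * C ≤ η / 2 * lam := by
    have := mul_le_mul_of_nonneg_right (bbig_mu (by positivity) l2 h3) hC.le
    refine this.trans_eq ?_
    field_simp
  have m2 : b ≤ c * mu := by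
    rw [div_le_iff₀ hθ] at l3
    have : b / c ≤ mu := le_of_pow_le_pow_left₀ two_ne_zero hm (by linarith)
    rwa [div_le_iff₀' hc0] at this
  have c0 := (contDiff_pot M.L).continuous
  have c1 := P.continuous_cub M.L
  have c2 : Continuous fun x : EE V => ‖P.s1 x‖ ^ 2 := (P.s1.continuous.norm).pow 2
  have H2 := wt_mono h (w := fun _ => 3 * c * mu ^ 2) (w' := fun x =>
      (lam * mu * P.cub M.L x + η * lam ^ 2 * M.L.pot x) + mu ^ 2 / 2 * ‖P.s1 x‖ ^ 2)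
    continuousOn_const (Continuous.continuousOn (by fun_prop)) fun x hx => by
      obtain ⟨g, hg, hs, Y, hY, hd⟩ := hφ.supp hx
      obtain ⟨⟨X, z, hX⟩, hs⟩ := hs
      have a1 := (hmy X z ⟨⟨X, z, rfl⟩, hX ▸ hs.trans_le (hr.trans (min_le_left _ _))⟩).2.2 Y hY
      rw [← hX, P.cub_G hg, (pot_sinv M.L).G c0 hg] at a1
      have a2 := bbig_pt (c := c) l0 hm hC.le hη (pot_nonneg M.L x)
        (hd.le.trans (min_le_right _ _)) (by
          rw [← mul_pow, mul_div_cancel₀ _ hC.ne', Real.sq_sqrt (by positivity)]) m1 a1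
      have a3 : ‖pt.p‖ / 2 ≤ ‖x‖ := by
        have := norm_sub_norm_le pt.p (lift g x)
        rw [norm_sub_rev, CL.G_norm hg] at this
        linarith [hr.trans (min_le_right _ _)]
      have a4 := mul_le_mul_of_nonneg_left (pow_le_pow_left₀ (half_pos hp0).le a3 2)
        (sq_nonneg P.δ)
      have a5 : 8 * c ≤ ‖P.s1 x‖ ^ 2 := by
        have := bbig_s1 P x
        rw [hc]
        linarith
      nlinarith [mul_le_mul_of_nonneg_left a5 (sq_nonneg mu)]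
  rw [wt_const, wt_add h (Continuous.continuousOn (by fun_prop))
    (Continuous.continuousOn (by fun_prop)), wt_add h (Continuous.continuousOn (by fun_prop))
    (Continuous.continuousOn (by fun_prop)), wt_smul, wt_smul, wt_smul] at H2
  have H3 := abs_opf_le h (w := fun _ => b) (B := fun _ => I • M.C.spin (mat P.M1))
    continuousOn_const continuousOn_const fun _ _ => hb.ge
  rw [wt_const] at H3
  have H4 := mul_le_mul_of_nonneg_left ((neg_le_abs _).trans H3) hm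
  have H5 := mul_le_mul_of_nonneg_right (mul_le_mul_of_nonneg_left m2 hm) hn
  have H6 := mul_le_mul_of_nonneg_right (mul_le_mul_of_nonneg_left h2 hc0.le) hn
  rw [M.q_split P lam mu h]
  nlinarith

omit [MeasurableSpace V] [BorelSpace V] in
theorem bbig_zero {S E : Type} [NormedAddCommGroup S] [InnerProductSpace ℝ S]
    [NormedAddCommGroup E] [InnerProductSpace ℝ E] [FiniteDimensional ℝ E] (C : Cl S F)
    (ψ : E →L[ℝ] S) (s : E → S) {φ : E → F} {x : E} (hx : x ∉ tsupport φ) :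
    C.dirac ψ s φ x = 0 := by
  simp [Cl.dirac, fderiv_of_notMem_tsupport ℝ hx, image_eq_zero_of_notMem_tsupport hx]

omit [InnerProductSpace ℂ F] [CompleteSpace F] in
theorem bbig_two (u v : F) : ‖u + v‖ ^ 2 ≤ 2 * ‖u‖ ^ 2 + 2 * ‖v‖ ^ 2 := by
  have := pow_le_pow_left₀ (norm_nonneg _) (norm_add_le u v) 2
  nlinarith [sq_nonneg (‖u‖ - ‖v‖)]

theorem bbig_n2 {φ χ ψ : EE V → F} (h : Tst φ) (h' : Tst χ) (h'' : Tst ψ) {a b : ℝ}
    (hle : ∀ x, ‖φ x‖ ^ 2 ≤ a * ‖χ x‖ ^ 2 + b * ‖ψ x‖ ^ 2) : n2 φ ≤ a * n2 χ + b * n2 ψ := by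
  have i1 := h'.int_wt (w := fun _ => a) continuousOn_const
  have i2 := h''.int_wt (w := fun _ => b) continuousOn_const
  have i0 := h.int_wt (w := fun _ => 1) continuousOn_const
  simp only [one_mul] at i0
  rw [← wt_const, ← wt_const, wt, wt, ← integral_add i1 i2]
  exact integral_mono i0 (i1.add i2) hle

theorem bbig_sum {u v : Fin 16 → ℝ} {a b : ℝ} (h : ∀ β, u β ≤ a * v β + b) :
    (1 / 16) * ∑ β, u β ≤ a * ((1 / 16) * ∑ β, v β) + b := by
  have := Finset.sum_le_sum fun β (_ : β ∈ Finset.univ) => h β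
  rw [Finset.sum_add_distrib, ← Finset.mul_sum, Finset.sum_const, Finset.card_univ,
    Fintype.card_fin, nsmul_eq_mul] at this
  push_cast at this
  linarith

/-- the sum of squares is controlled by the undeformed form (`sum_Q`, `norm_s1'`) -/
theorem Mod.sos_le (lam mu : ℝ) {φ : EE V → F} (h : Tst φ) {R : ℝ}
    (hR : ∀ x ∈ tsupport φ, ‖x‖ ≤ R) :
    M.sos P lam mu φ ≤ 2 * M.q0 P.toGam lam φ + 100 * R ^ 2 * mu ^ 2 * n2 φ := by
  rw [← M.sum_Q P.toGam lam h, Mod.sos]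
  refine bbig_sum fun β => bbig_n2 ((M.Tst_D P lam mu h).2.1 β) ((M.Tst_D P lam mu h).2.2 _) h
    fun x => ?_
  rw [Mod.D', dirac_add_pot]
  refine (bbig_two _ _).trans (add_le_add le_rfl ?_)
  rw [M.C.norm_th_apply]
  by_cases hx : x ∈ tsupport φ
  · have h1 : ‖P.s1' β x‖ ≤ 7 * R := (P.norm_s1' β x).trans (by linarith [hR x hx])
    have h2 := mul_le_mul_of_nonneg_left (pow_le_pow_left₀ (norm_nonneg _) h1 2) (sq_nonneg mu)
    have h3 : ‖mu • P.s1' β x‖ ^ 2 ≤ 100 * R ^ 2 * mu ^ 2 := by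
      rw [norm_smul, mul_pow, Real.norm_eq_abs, sq_abs]
      nlinarith [mul_nonneg (sq_nonneg R) (sq_nonneg mu)]
    nlinarith [mul_le_mul_of_nonneg_right h3 (sq_nonneg ‖φ x‖)]
  · simp [image_eq_zero_of_notMem_tsupport hx]

/-- `sum_Q`, `dirac_smul` -/
theorem Mod.q0_smul_le (G : Gam) (lam : ℝ) {φ : EE V → F} (h : Tst φ) {a : EE V → ℝ}
    (ha : ContDiff ℝ ∞ a) {A K : ℝ} (hA : ∀ x ∈ tsupport φ, a x ^ 2 ≤ A ∧ ‖gradient a x‖ ^ 2 ≤ K) :
    M.q0 G lam (fun x => a x • φ x) ≤ 2 * A * M.q0 G lam φ + K * n2 φ := by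
  have t := fun {χ : EE V → F} (hχ : Tst χ) (β : Fin 16) =>
    hχ.dirac M.C (G.psi (Pi.single β 1))
      ((contDiff_s0 G M.L (Pi.single β 1)).const_smul lam)
  rw [← M.sum_Q G lam h, ← M.sum_Q G lam (h.smul ha)]
  refine bbig_sum fun β => bbig_n2 (t (h.smul ha) β) (t h β) h fun x => ?_
  rw [dirac_smul _ _ _ (h.differentiable x) (ha.differentiable (by simp) x)]
  by_cases hx : x ∈ tsupport φ
  · refine (bbig_two _ _).trans (add_le_add ?_ ?_)
    · rw [norm_smul, mul_pow, Real.norm_eq_abs, sq_abs, mul_assoc]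
      exact mul_le_mul_of_nonneg_left
        (mul_le_mul_of_nonneg_right (hA x hx).1 (sq_nonneg _)) zero_le_two
    · have h1 : ‖G.psi (Pi.single β 1) (gradient a x)‖ ^ 2 = ‖gradient a x‖ ^ 2 := by
        rw [← real_inner_self_eq_norm_sq, G.psi_inner (single_unit β), real_inner_self_eq_norm_sq]
      rw [norm_smul, norm_neg, Complex.norm_I, one_mul, M.C.norm_th_apply, h1]
      nlinarith [mul_le_mul_of_nonneg_right (hA x hx).2 (sq_nonneg ‖φ x‖)]
  · simp [bbig_zero _ _ _ hx, image_eq_zero_of_notMem_tsupport hx]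

omit [CompleteSpace F] in
/-- smooth invariant approximation of the square root of a weight (cut off `sqrt w` with an
invariant continuous function built from `infDist` to the compact invariant set, then `mollify`) -/
theorem CL.exists_hat (L : CL V) {K U : Set (EE V)} (hK : IsCompact K) (hU : IsOpen U)
    (hKU : K ⊆ U) (hK' : L.sat K = K) (hU' : L.sat U = U) {w : EE V → ℝ} (hw : ContinuousOn w U)
    (hi : ∀ g ∈ L.G, ∀ x, w (lift g x) = w x) (h0 : ∀ x ∈ U, 0 ≤ w x) {η : ℝ} (hη : 0 < η) :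
    ∃ a : EE V → ℝ, ContDiff ℝ ∞ a ∧ L.SInv a ∧ ∀ x ∈ K, |a x ^ 2 - w x| ≤ η := by
  obtain ⟨ε, hε, hεU⟩ := hK.exists_cthickening_subset_open hU hKU
  obtain ⟨β, hβ, hβi, hβ0, hβ1, hβs⟩ := gb_bump (L := L) (C := K)
    (fun g hg y hy => by rwa [← hK', CL.sat_lift hg, hK']) hε
  have hs : tsupport (fun x => β x * Real.sqrt (w x)) ⊆ Metric.cthickening ε K :=
    (tsupport_mul_subset_left).trans hβs
  have hc : Continuous fun x => β x * Real.sqrt (w x) :=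
    (hβ.continuous.continuousOn.mul hw.sqrt).continuous_of_tsupport_subset hU (hs.trans hεU)
  have hcs : HasCompactSupport fun x => β x * Real.sqrt (w x) :=
    hK.cthickening.of_isClosed_subset (isClosed_tsupport _) hs
  have hu : UniformContinuous fun x => (β x * Real.sqrt (w x)) ^ 2 := by
    refine (hc.pow 2).uniformContinuous_of_tendsto_cocompact (x := 0) ?_
    have := (hcs.is_zero_at_infty).pow 2
    rwa [zero_pow two_ne_zero] at this
  obtain ⟨τ, hτ, hu⟩ := Metric.uniformContinuous_iff.1 hu η hη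
  obtain ⟨a, ha, hai, hb, -⟩ := CL.mollify (L := L) (u := fun x => β x * Real.sqrt (w x))
    (fun ξ x => by simp only [hβi ξ x, hi _ (L.ex_mem ξ)]) hc hτ
  refine ⟨a, ha, hai, fun x hx => ?_⟩
  obtain ⟨h1, h2⟩ := hb x (Real.sqrt (w x - η)) (Real.sqrt (w x + η)) fun y hy => by
    have h3 := hu (Metric.mem_ball.1 hy)
    rw [hβ1 x hx, one_mul, Real.sq_sqrt (h0 x (hKU hx)), Real.dist_eq, abs_lt] at h3
    have h4 : 0 ≤ β y * Real.sqrt (w y) := mul_nonneg (hβ0 y) (Real.sqrt_nonneg _)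
    exact ⟨(Real.sqrt_le_left h4).2 (by linarith [h3.1]), Real.le_sqrt_of_sq_le (by linarith [h3.2])⟩
  have h3 : 0 ≤ a x := (Real.sqrt_nonneg _).trans h1
  rw [Real.sqrt_le_left h3] at h1
  rw [Real.le_sqrt h3 (add_nonneg (h0 x (hKU hx)) hη.le)] at h2
  exact abs_le.2 ⟨by linarith, by linarith⟩

omit [MeasurableSpace V] [BorelSpace V] in
/-- a compact invariant set between the two saturations -/
theorem Patch.exists_compact {L : CL V} (pt : Patch L) {r : ℝ} (hr : 0 < r) :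
    ∃ K : Set (EE V), IsCompact K ∧ L.sat K = K ∧ K ⊆ L.sat (pt.pts r) ∧
      (∀ κ, L.sat (pt.reg' (r / 2) κ) ⊆ K) ∧ ∀ x ∈ K, ‖x‖ ≤ ‖pt.p‖ + r := by
  let Φ : (EE pt.l × pt.H) →L[ℝ] EE V :=
    (lift pt.l.subtypeL).coprod (lift pt.lᗮ.subtypeL ∘L pt.H.subtypeL)
  have hA : IsCompact {s | (∃ X z, s = pt.io X z) ∧ ‖s - pt.p‖ ≤ r / 2} := by
    have h1 := (isCompact_closedBall pt.p (r / 2)).inter_left
      (LinearMap.range Φ.toLinearMap).closed_of_finiteDimensional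
    refine (congrArg IsCompact (Set.ext fun s => and_congr ?_ mem_closedBall_iff_norm)).mp h1
    exact ⟨fun ⟨y, hy⟩ => ⟨y.1, y.2, hy.symm⟩, fun ⟨X, z, hy⟩ => ⟨(X, z), hy.symm⟩⟩
  refine ⟨_, CL.isCompact_sat hA, CL.sat_sat _,
    CL.sat_mono fun s hs => ⟨hs.1, hs.2.trans_lt (half_lt_self hr)⟩,
    fun κ => CL.sat_mono fun s hs => ⟨hs.1.1, hs.1.2.le⟩, ?_⟩
  rintro x ⟨g, hg, -, hx⟩
  have := norm_sub_norm_le (lift g x) pt.p
  rw [CL.G_norm hg] at this
  linarith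

end Vale.Agent.P353
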