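import Vale.Agent.P353.AFock2

open MeasureTheory NormedSpace
open Complex (I)
open scoped InnerProductSpace ContDiff

noncomputable section
namespace Vale.Agent.P353
variable {S F : Type} [NormedAddCommGroup S] [InnerProductSpace ℝ S] [FiniteDimensional ℝ S]
  [NormedAddCommGroup F] [InnerProductSpace ℂ F] [CompleteSpace F]

omit [CompleteSpace F] in
theorem bk_real_smul (c : ℝ) (A : F →L[ℂ] F) : c • A = (c : ℂ) • A := by
  ext w
  simp

/-- two projections that compress each other to scalars -/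
theorem bk_kap [FiniteDimensional ℂ F] {P Q : F →L[ℂ] F} (hP : P * P = P) (hP' : IsSelfAdjoint P)
    (hQ' : IsSelfAdjoint Q) {c c' : ℂ} (h1 : P * Q * P = c • P) (h2 : Q * P * Q = c' • Q) {k : ℝ}
    (hk : k = (LinearMap.trace ℂ F (P * Q).toLinearMap).re /
      (LinearMap.trace ℂ F P.toLinearMap).re) (hk0 : k ≠ 0) :
    P ≠ 0 ∧ P * Q * P = k • P ∧ Q * P * Q = k • Q := by
  have ht : (LinearMap.trace ℂ F P.toLinearMap).re ≠ 0 := fun h => hk0 (by rw [hk, h, div_zero])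
  have hP0 : P ≠ 0 := by
    rintro rfl
    exact ht (by simp)
  have hc : (starRingEnd ℂ) c = c := by
    have e := congrArg star h1
    rw [star_mul, star_mul, hP'.star_eq, hQ'.star_eq, star_smul, hP'.star_eq, ← mul_assoc, h1] at e
    exact (smul_left_injective ℂ hP0 e).symm
  obtain ⟨a, rfl⟩ : ∃ a : ℝ, c = a := ⟨c.re, (Complex.conj_eq_iff_re.1 hc).symm⟩
  have htr : LinearMap.trace ℂ F (P * Q).toLinearMap =
      (a : ℂ) * LinearMap.trace ℂ F P.toLinearMap := by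
    have e1 : (P * Q).toLinearMap = P.toLinearMap * (P * Q).toLinearMap := by
      rw [← ContinuousLinearMap.toLinearMap_mul, ← mul_assoc, hP]
    rw [e1, LinearMap.trace_mul_comm, ← ContinuousLinearMap.toLinearMap_mul, h1,
      ContinuousLinearMap.toLinearMap_smul, map_smul, smul_eq_mul]
  have hka : k = a := by
    rw [hk, htr, Complex.re_ofReal_mul, mul_div_cancel_right₀ _ ht]
  subst hka
  have e3 : (P * Q * P) * (P * Q * P) = P * (Q * P * Q) * P := by
    calc (P * Q * P) * (P * Q * P) = P * Q * (P * P) * Q * P := by simp only [mul_assoc]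
      _ = P * (Q * P * Q) * P := by rw [hP]; simp only [mul_assoc]
  rw [h2, mul_smul_comm, smul_mul_assoc, h1, smul_mul_assoc, mul_smul_comm, hP, smul_smul,
    smul_smul] at e3
  have e4 := smul_left_injective ℂ hP0 e3
  have e5 : (k : ℂ) = c' := mul_right_cancel₀ (Complex.ofReal_ne_zero.2 hk0) e4
  exact ⟨hP0, by rw [h1, bk_real_smul], by rw [h2, bk_real_smul, e5]⟩

theorem bk_norm_le {P : F →L[ℂ] F} (hP : P * P = P) (hP' : IsSelfAdjoint P) : ‖P‖ ≤ 1 :=
  IsStarProjection.norm_le _ ⟨hP, hP'⟩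

theorem bk_norm_sq {P Q : F →L[ℂ] F} (hP : P * P = P) (hP' : IsSelfAdjoint P) (hQ : Q * Q = Q)
    (hQ' : IsSelfAdjoint Q) {k : ℝ} (h : Q * P * Q = k • Q) (w : F) :
    ‖P (Q w)‖ ^ 2 = k * ‖Q w‖ ^ 2 := by
  have a1 : ∀ {A : F →L[ℂ] F}, IsSelfAdjoint A → ∀ x y, ⟪A x, y⟫_ℂ = ⟪x, A y⟫_ℂ :=
    fun hA x y => hA.isSymmetric x y
  have e1 : ⟪P (Q w), P (Q w)⟫_ℂ = ⟪w, (Q * (P * P) * Q) w⟫_ℂ := by
    rw [a1 hP', a1 hQ']; rfl
  have e2 : ⟪Q w, Q w⟫_ℂ = ⟪w, (Q * Q) w⟫_ℂ := by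
    rw [a1 hQ']; rfl
  rw [hP, h, bk_real_smul, smul_apply, inner_smul_right] at e1
  rw [hQ] at e2
  rw [← e2, inner_self_eq_norm_sq_to_K, inner_self_eq_norm_sq_to_K] at e1
  have e3 : ((‖P (Q w)‖ ^ 2 : ℝ) : ℂ) = ((k * ‖Q w‖ ^ 2 : ℝ) : ℂ) := by
    rw [Complex.ofReal_mul, Complex.ofReal_pow, Complex.ofReal_pow]
    exact e1
  exact Complex.ofReal_injective e3

omit [FiniteDimensional ℝ S] in
theorem bk_skew {J J' : S →L[ℝ] S} (hJ : Skew J) (hJ' : Skew J') (ha : J * J' = -(J' * J)) :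
    Skew ((1 / 2 : ℝ) • (J * J')) := fun u v => by
  have e : J (J' v) = -J' (J v) := by
    have := congrArg (fun T : S →L[ℝ] S => T v) ha
    simpa using this
  simp only [smul_apply, mul_apply_eq_comp, inner_smul_left,
    inner_smul_right, conj_trivial]
  rw [hJ, hJ', e, inner_neg_right]
  ring

/-- the Berry connection is real if the trace condition holds -/
theorem bk_mixed (C : Cl S F) {J J0 J' R : S →L[ℝ] S} (hJ : CS J) (hJ0 : CS J0) (hJ' : Skew J')
    (ha : J * J' = -(J' * J)) (hR : (J + J0) * R = 1) (ht : tr (J * J' * R) = 0) :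
    ∃ c : ℝ, C.vac J0 * C.spin ((1 / 2 : ℝ) • (J * J')) * C.vac J = c • (C.vac J0 * C.vac J) := by
  have hk := bk_skew hJ.1 hJ' ha
  set k : S →L[ℝ] S := (1 / 2 : ℝ) • (J * J') with hkd
  set b := stdOrthonormalBasis ℝ S
  have h0 : ∑ a, ⟪k (b a), R (b a)⟫_ℝ = 0 := by
    have e : tr (k * R) = 0 := by
      rw [hkd, smul_mul_assoc]
      unfold tr at ht ⊢
      rw [ContinuousLinearMap.toLinearMap_smul, map_smul, ht, smul_zero]
    rw [tr_eq_sum b] at e
    simp only [hk _ _, Finset.sum_neg_distrib, neg_eq_zero]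
    exact e
  refine ⟨(1 / 2) * ∑ a, ⟪k (b a), J0 (R (b a))⟫_ℝ, ?_⟩
  rw [Cl.spin, mul_smul_comm, smul_mul_assoc, Finset.mul_sum, Finset.sum_mul]
  simp only [C.vac_two_mixed hJ hJ0 hR]
  rw [← Finset.sum_smul, Finset.sum_sub_distrib, ← Finset.mul_sum, ← Complex.ofReal_sum,
    ← Complex.ofReal_sum, h0, mul_smul, bk_real_smul (∑ _, _)]
  simp [b]

theorem bk_diag (C : Cl S F) {J J' : S →L[ℝ] S} (hJ : CS J) (hJ' : Skew J')
    (ha : J * J' = -(J' * J)) : C.vac J * C.spin ((1 / 2 : ℝ) • (J * J')) * C.vac J = 0 := by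
  rw [C.vac_spin_vac hJ (bk_skew hJ.1 hJ' ha)]
  have e : tr (J * ((1 / 2 : ℝ) • (J * J'))) = 0 := by
    have h1 := tr_skew hJ'
    rw [mul_smul_comm, ← mul_assoc, hJ.2, neg_one_mul]
    unfold tr at h1 ⊢
    rw [ContinuousLinearMap.toLinearMap_smul, map_smul, ContinuousLinearMap.toLinearMap_neg, map_neg, h1]
    simp
  rw [e]
  simp

/-- the algebra behind the vanishing of the Berry connection -/
theorem bk_berry {P Q K D : F →L[ℂ] F} (hP' : IsSelfAdjoint P) (hQ : Q * Q = Q)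
    (hQ' : IsSelfAdjoint Q) (hK : star K = -K) (hD : D = K * Q - Q * K) (h0 : Q * K * Q = 0)
    {c k k' : ℝ} (h1 : P * K * Q = c • (P * Q)) (h2 : P * Q * P = k • P) (hk : k ≠ 0) (hP0 : P ≠ 0)
    (h3 : P * D * P = k' • P) : P * D * Q = ((1 / 2) * k' / k) • (P * Q) := by
  have e1 : Q * K * P = -(c • (Q * P)) := by
    have e := congrArg star h1
    rw [star_mul, star_mul, hP'.star_eq, hQ'.star_eq, hK, star_smul, star_mul, hP'.star_eq,
      hQ'.star_eq, star_trivial, neg_mul, mul_neg, ← mul_assoc] at e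
    rw [← e, neg_neg]
  have e2 : P * D * P = (2 * c * k) • P := by
    calc P * D * P = P * K * Q * P - P * (Q * K * P) := by rw [hD]; noncomm_ring
      _ = c • (P * Q * P) + c • (P * Q * P) := by
        rw [h1, e1, mul_neg, sub_neg_eq_add, smul_mul_assoc, mul_smul_comm, ← mul_assoc]
      _ = (2 * c * k) • P := by
        rw [h2, smul_smul, ← add_smul]
        congr 1
        ring
  rw [h3] at e2
  have e3 : k' = 2 * c * k := smul_left_injective ℝ hP0 e2
  have e4 : (1 / 2) * k' / k = c := by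
    rw [e3]
    field_simp
  calc P * D * Q = P * K * (Q * Q) - P * (Q * K * Q) := by rw [hD]; noncomm_ring
    _ = _ := by rw [hQ, h0, h1, e4, mul_zero, sub_zero]

/-- spin lift from a frame decomposition -/
theorem bk_frame (C : Cl S F) {κ : Type} [Fintype κ] (c c' : κ → S) (T : S →L[ℝ] S)
    (hc : ∀ x, ∑ k, ⟪c' k, x⟫_ℝ • c k = T x) :
    C.spin T = (1 / 2 : ℝ) • ∑ k, C.th (c k) * C.th (c' k) :=
  congrArg _ (aspin_frame (aspinB C (ContinuousLinearMap.id ℝ S)) _ c c' T hc)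

end Vale.Agent.P353
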