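import Vale.Agent.P353.AFock

/-! General calculus lemmas for operator valued functions. -/

open MeasureTheory NormedSpace Filter
open Complex (I)
open scoped InnerProductSpace ContDiff Topology

noncomputable section
namespace Vale.Agent.P353
variable {S E F : Type} [NormedAddCommGroup S] [InnerProductSpace ℝ S] [FiniteDimensional ℝ S]
  [NormedAddCommGroup E] [NormedSpace ℝ E]
  [NormedAddCommGroup F] [InnerProductSpace ℂ F] [CompleteSpace F] [FiniteDimensional ℂ F]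

theorem bs_lin {A : Type} [FiniteDimensional ℝ E] [NormedAddCommGroup A] [NormedSpace ℝ A]
    (f : E → A) (h1 : ∀ x y, f (x + y) = f x + f y) (h2 : ∀ (c : ℝ) x, f (c • x) = c • f x) :
    ContDiff ℝ ∞ f ∧ ∀ x a, fderiv ℝ f x a = f a := by
  have h : ∃ L : E →L[ℝ] A, f = L :=
    ⟨LinearMap.toContinuousLinearMap { toFun := f, map_add' := h1, map_smul' := h2 }, rfl⟩
  obtain ⟨L, rfl⟩ := h
  exact ⟨L.contDiff, fun x a => by rw [L.fderiv]⟩

theorem bs_det_smooth : ContDiff ℝ ∞ fun B : S →L[ℝ] S => LinearMap.det B.toLinearMap := by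
  have b := Module.finBasis ℝ S
  have h : (fun B : S →L[ℝ] S => LinearMap.det B.toLinearMap) = fun B : S →L[ℝ] S =>
      ∑ σ : Equiv.Perm (Fin (Module.finrank ℝ S)), ((Equiv.Perm.sign σ : ℤ) : ℝ) *
        ∏ i, b.repr (B (b i)) (σ i) := by
    funext B
    rw [← LinearMap.det_toMatrix b, Matrix.det_apply']
    simp only [LinearMap.toMatrix_apply, ContinuousLinearMap.coe_coe]
  rw [h]
  exact ContDiff.sum fun σ _ => contDiff_const.mul (contDiff_prod fun i _ =>
    (bs_lin (fun B : S →L[ℝ] S => b.repr (B (b i)) (σ i)) (fun x y => by simp)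
      fun c x => by simp).1)

theorem bs_det_one (B : S →L[ℝ] S) :
    HasDerivAt (fun t : ℝ => LinearMap.det (1 + t • B).toLinearMap) (tr B) 0 := by
  have b := Module.finBasis ℝ S
  obtain ⟨p, hp⟩ : ∃ p : Polynomial ℝ, ∀ t : ℝ, LinearMap.det (1 + t • B).toLinearMap =
      1 + tr B * t + p.eval t * t ^ 2 := ⟨_, fun t => by
    rw [← LinearMap.det_toMatrix b, tr, LinearMap.trace_eq_matrix_trace ℝ b,
      ← Matrix.det_one_add_smul t (LinearMap.toMatrix b b B.toLinearMap),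
      ← LinearMap.toMatrix_one b, ← map_smul, ← map_add]
    rfl⟩
  rw [funext hp]
  refine (((((hasDerivAt_id' (0 : ℝ)).const_mul (tr B)).const_add 1).fun_add
    ((p.hasDerivAt 0).fun_mul (hasDerivAt_pow 2 (0 : ℝ))))).congr_deriv ?_
  simp

omit [FiniteDimensional ℝ S] in
theorem bs_det_mul (A B : S →L[ℝ] S) : LinearMap.det (A * B).toLinearMap =
    LinearMap.det A.toLinearMap * LinearMap.det B.toLinearMap := LinearMap.det_comp _ _

theorem bs_det_deriv {A : S →L[ℝ] S} (hA : IsUnit A) (B : S →L[ℝ] S) :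
    fderiv ℝ (fun B : S →L[ℝ] S => LinearMap.det B.toLinearMap) A B =
      LinearMap.det A.toLinearMap * tr (Ring.inverse A * B) := by
  have h1 := (bs_det_smooth.differentiable (by simp) A).hasFDerivAt.hasLineDerivAt B
  have h2 := (bs_det_one (Ring.inverse A * B)).const_mul (LinearMap.det A.toLinearMap)
  refine h1.unique (h2.congr_of_eventuallyEq (Eventually.of_forall fun t => ?_))
  simp only [← bs_det_mul]
  rw [mul_add, mul_one, mul_smul_comm, ← mul_assoc, Ring.mul_inverse_cancel _ hA, one_mul]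

omit [FiniteDimensional ℝ S] in
theorem bs_det_ne {A : S →L[ℝ] S} (hA : IsUnit A) : LinearMap.det A.toLinearMap ≠ 0 :=
  ((hA.map ContinuousLinearMap.toLinearMapRingHom).map LinearMap.det).ne_zero

theorem bs_inv {T : E → S →L[ℝ] S} {x : E} (hT : ContDiffAt ℝ ∞ T x) (hu : IsUnit (T x)) :
    ContDiffAt ℝ ∞ (fun y => Ring.inverse (T y)) x :=
  ContDiffAt.comp (g := Ring.inverse) x (contDiffAt_ringInverse ℝ hu.unit) hT

omit [FiniteDimensional ℝ S] in
theorem bs_mul {T U : E → S →L[ℝ] S} {x : E} (hT : ContDiffAt ℝ ∞ T x)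
    (hU : ContDiffAt ℝ ∞ U x) : ContDiffAt ℝ ∞ (fun y => T y * U y) x := hT.mul hU

theorem bs_unit {T : E → S →L[ℝ] S} {x : E} (hT : ContDiffAt ℝ ∞ T x)
    (U : S →L[ℝ] S) (h : IsUnit (T x + U)) : ∀ᶠ y in 𝓝 x, IsUnit (T y + U) :=
  (hT.continuousAt.add_const U).eventually (Units.isOpen.mem_nhds h)

omit [FiniteDimensional ℝ S] in
theorem bs_cs {J : S →L[ℝ] S} (hJ : CS J) : IsUnit (J + J) := by
  have h : (J + J) * ((-1 / 2 : ℝ) • J) = 1 ∧ ((-1 / 2 : ℝ) • J) * (J + J) = 1 := by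
    rw [mul_smul_comm, smul_mul_assoc, add_mul, mul_add, hJ.2, and_self]
    module
  exact ⟨⟨_, _, h.1, h.2⟩, rfl⟩

omit [FiniteDimensional ℝ S] in
theorem bs_mono {c c' : ℝ} {T : S →L[ℝ] S} (h : Pos c T) (hc : c' ≤ c) : Pos c' T :=
  ⟨h.1, fun u => (mul_le_mul_of_nonneg_right hc (sq_nonneg _)).trans (h.2 u)⟩

theorem bs_pos {T : E → S →L[ℝ] S} {x : E} (hT : ContDiffAt ℝ ∞ T x)
    (hs : ∀ᶠ y in 𝓝 x, Symm (T y)) {c c' : ℝ} (hc : c' < c) (h : Pos c (T x)) :
    ∀ᶠ y in 𝓝 x, Pos c' (T y) := by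
  filter_upwards [hs, hT.continuousAt.eventually
    (Metric.closedBall_mem_nhds (T x) (sub_pos.2 hc))] with y h1 h2
  exact bs_mono (h.perturb h1 (mem_closedBall_iff_norm.1 h2)) (by linarith)

omit [FiniteDimensional ℝ S] in
theorem bs_dmul {T U : E → S →L[ℝ] S} {x : E} (hT : ContDiffAt ℝ ∞ T x)
    (hU : ContDiffAt ℝ ∞ U x) (a : E) : fderiv ℝ (fun y => T y * U y) x a =
      fderiv ℝ T x a * U x + T x * fderiv ℝ U x a := by
  rw [((hT.differentiableAt (by simp)).hasFDerivAt.fun_mul'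
    (hU.differentiableAt (by simp)).hasFDerivAt).fderiv, add_comm]
  rfl

theorem bs_dskew {T : E → S →L[ℝ] S} {x : E} (hT : ContDiffAt ℝ ∞ T x)
    (hs : ∀ᶠ y in 𝓝 x, Skew (T y)) (a : E) : Skew (fderiv ℝ T x a) := fun u v => by
  obtain ⟨h1, h2⟩ := bs_lin (fun A : S →L[ℝ] S => ⟪A u, v⟫_ℝ + ⟪u, A v⟫_ℝ)
    (fun A B => by simp only [add_apply, inner_add_left, inner_add_right]; ring)
    fun c A => by
      simp only [smul_apply, real_inner_smul_left, real_inner_smul_right,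
        smul_eq_mul]
      ring
  have h3 := ((h1.differentiable (by simp) (T x)).hasFDerivAt.comp x
    (hT.differentiableAt (by simp)).hasFDerivAt).unique
    ((hasFDerivAt_const (0 : ℝ) x).congr_of_eventuallyEq
      (hs.mono fun y hy => add_eq_zero_iff_eq_neg.2 (hy u v)))
  have h4 := congrArg (fun L => L a) h3
  simp only [ContinuousLinearMap.comp_apply, h2, zero_apply] at h4
  exact add_eq_zero_iff_eq_neg.1 h4

/-- the derivative of a family of complex structures commuting with a second family -/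
theorem bs_dJ {J T : E → S →L[ℝ] S} {x : E} (hJ : ContDiffAt ℝ ∞ J x) (hT : ContDiffAt ℝ ∞ T x)
    (h : ∀ᶠ y in 𝓝 x, CS (J y) ∧ J y * T y = T y * J y) (a : E) :
    Skew (fderiv ℝ J x a) ∧ J x * fderiv ℝ J x a = -(fderiv ℝ J x a * J x) ∧
      fderiv ℝ J x a * T x + J x * fderiv ℝ T x a = fderiv ℝ T x a * J x + T x * fderiv ℝ J x a := by
  refine ⟨bs_dskew hJ (h.mono fun y hy => hy.1.1) a, ?_, ?_⟩
  · have h1 : (fun y => J y * J y) =ᶠ[𝓝 x] fun _ => -1 := h.mono fun y hy => hy.1.2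
    rw [eq_neg_iff_add_eq_zero, add_comm, ← bs_dmul hJ hJ, h1.fderiv_eq, fderiv_fun_const]
    rfl
  · have h1 : (fun y => J y * T y) =ᶠ[𝓝 x] fun y => T y * J y := h.mono fun y hy => hy.2
    rw [← bs_dmul hJ hT, ← bs_dmul hT hJ, h1.fderiv_eq]

theorem bs_trace : ContDiff ℝ ∞ fun A : F →L[ℂ] F => (LinearMap.trace ℂ F A.toLinearMap).re := by
  have h : ∃ L : (F →L[ℂ] F) →L[ℂ] ℂ, ∀ A, L A = LinearMap.trace ℂ F A.toLinearMap :=
    ⟨LinearMap.toContinuousLinearMap ((LinearMap.trace ℂ F).comp (ContinuousLinearMap.coeLM ℂ)),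
      fun _ => rfl⟩
  obtain ⟨L, hL⟩ := h
  simp only [← hL]
  exact Complex.reCLM.contDiff.comp (L.contDiff.restrict_scalars ℝ)

omit [CompleteSpace F] in
theorem bs_trace_ne {A : F →L[ℂ] F} (h : A * A = A) (h0 : A ≠ 0) :
    (LinearMap.trace ℂ F A.toLinearMap).re ≠ 0 := by
  have h1 : IsIdempotentElem A.toLinearMap :=
    IsIdempotentElem.map h ContinuousLinearMap.toLinearMapRingHom
  rw [(LinearMap.IsIdempotentElem.isProj_range _ h1).trace, Complex.natCast_re, Nat.cast_ne_zero,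
    Ne, Submodule.finrank_eq_zero, LinearMap.range_eq_bot]
  exact fun h2 => h0 (ContinuousLinearMap.coe_injective h2)

end Vale.Agent.P353
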