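import Vale.Agent.P353.BCen
import Vale.Agent.P353.AMod0
import Vale.Agent.P353.BSmoothx1

open MeasureTheory NormedSpace
open Complex (I)
open scoped InnerProductSpace ContDiff

noncomputable section
namespace Vale.Agent.P353
variable {V F : Type} [NormedAddCommGroup V] [InnerProductSpace ℝ V] [FiniteDimensional ℝ V]
  [NormedAddCommGroup F] [InnerProductSpace ℂ F] [CompleteSpace F] [FiniteDimensional ℂ F]
  (M : Mod V F) (G : Gam) (pt : Patch M.L)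

theorem bs_lift {A B : Type} [NormedAddCommGroup A] [InnerProductSpace ℝ A]
    [FiniteDimensional ℝ A] [NormedAddCommGroup B] [InnerProductSpace ℝ B]
    [FiniteDimensional ℝ B] (n : ℕ) : ContDiff ℝ ∞ (lift (n := n) : (A →L[ℝ] B) → _) :=
  (bs_lin _ (fun x y => by ext; simp) fun c x => by ext; simp).1

theorem bs_gam {A : Type} [NormedAddCommGroup A] [InnerProductSpace ℝ A] (c : ℝ)
    (T U : Fin 9 → A →L[ℝ] A) :
    ∑ j, mat (G.g j) ∘L lift (T j + U j) =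
      ∑ j, mat (G.g j) ∘L lift (T j) + ∑ j, mat (G.g j) ∘L lift (U j) ∧
    ∑ j, mat (G.g j) ∘L lift (c • T j) = c • ∑ j, mat (G.g j) ∘L lift (T j) := by
  constructor
  · ext
    simp [Finset.sum_add_distrib]
  · ext
    simp [Finset.smul_sum, smul_comm c]

namespace Patch
variable {L : CL V} (pt : Patch L) {d : ℝ} {X : EE pt.l}

theorem bs_Mi_add (X Y : EE pt.l) (i : Fin 9) : pt.Mi (X + Y) i = pt.Mi X i + pt.Mi Y i := by
  ext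
  simp [Mi, adm]

theorem bs_Mi_smul (c : ℝ) (X : EE pt.l) (i : Fin 9) : pt.Mi (c • X) i = c • pt.Mi X i := by
  ext
  simp [Mi, adm]

theorem bs_Mi (i : Fin 9) : ContDiff ℝ ∞ fun X => pt.Mi X i :=
  (bs_lin _ (fun x y => pt.bs_Mi_add x y i) fun c x => pt.bs_Mi_smul c x i).1

theorem bs_Mv : ContDiff ℝ ∞ pt.Mv ∧ ∀ X a, fderiv ℝ pt.Mv X a = pt.Mv a :=
  bs_lin _ (fun x y => by simp only [Mv_eq, bs_Mi_add, smul_add, Finset.sum_add_distrib])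
    fun c x => by simp only [Mv_eq, bs_Mi_smul, Finset.smul_sum, smul_comm c]

theorem bs_Ga : ContDiff ℝ ∞ (pt.Ga G) ∧ ∀ X a, fderiv ℝ (pt.Ga G) X a = pt.Ga G a :=
  bs_lin _ (fun x y => by simp only [Ga, bs_Mi_add]; exact (bs_gam G 0 _ _).1)
    fun c x => by simp only [Ga, bs_Mi_smul]; exact (bs_gam G c _ 0).2

theorem bs_Mb_add (X Y : EE pt.l) : pt.Mb (X + Y) = pt.Mb X + pt.Mb Y := by
  ext
  simp [Mb_apply, bs_Mi_add, Finset.sum_add_distrib]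

theorem bs_Mb_smul (c : ℝ) (X : EE pt.l) : pt.Mb (c • X) = c • pt.Mb X := by
  ext
  simp [Mb_apply, bs_Mi_smul, Finset.smul_sum]

theorem bs_Mb : ContDiff ℝ ∞ pt.Mb := (bs_lin _ pt.bs_Mb_add pt.bs_Mb_smul).1

theorem bs_adj : ContDiff ℝ ∞ fun X => (pt.Mb X).adjoint :=
  (bs_lin _ (fun x y => by rw [bs_Mb_add, map_add])
    fun c x => by rw [bs_Mb_smul, map_smulₛₗ, conj_trivial]).1

theorem bs_Om (hd : 0 < d) (h : ∀ w, d * ‖w‖ ≤ ‖pt.Mv X w‖) : ContDiffAt ℝ ∞ pt.Om X :=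
  contDiffAt_psq (ContDiffAt.sum fun i _ =>
    bs_mul (pt.bs_Mi i).contDiffAt (pt.bs_Mi i).contDiffAt).neg
    (Filter.Eventually.of_forall fun _ => (pt.Om_spec le_rfl fun w => by simp).1.1)
    (pow_pos hd 2) (pt.Om_spec hd.le h).1

theorem bs_Omi (hd : 0 < d) (h : ∀ w, d * ‖w‖ ≤ ‖pt.Mv X w‖) :
    ContDiffAt ℝ ∞ (fun X => Ring.inverse (pt.Om X)) X :=
  bs_inv (pt.bs_Om hd h) ((pt.Om_spec hd.le h).2.1.isUnit hd).1

theorem bs_W (hd : 0 < d) (h : ∀ w, d * ‖w‖ ≤ ‖pt.Mv X w‖) : ContDiffAt ℝ ∞ pt.W X :=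
  ((bs_lift 9).contDiffAt.comp X (pt.bs_Om hd h)).sub
    (pt.bs_adj.contDiffAt.clm_comp ((pt.bs_Omi hd h).clm_comp pt.bs_Mb.contDiffAt))

theorem bs_WH (hd : 0 < d) (h : ∀ w, d * ‖w‖ ≤ ‖pt.Mv X w‖) : ContDiffAt ℝ ∞ pt.WH X :=
  contDiffAt_const.clm_comp ((pt.bs_W hd h).clm_comp contDiffAt_const)

theorem bs_Xi (hd : 0 < d) (h : ∀ w, d * ‖w‖ ≤ ‖pt.Mv X w‖) : ContDiffAt ℝ ∞ pt.Xi X :=
  (bs_inv pt.bs_Mv.1.contDiffAt (pt.Mv_unit hd h).1).neg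

theorem bs_T (hd : 0 < d) (h : ∀ w, d * ‖w‖ ≤ ‖pt.Mv X w‖) : ContDiffAt ℝ ∞ pt.T X :=
  contDiffAt_const.clm_comp (pt.bs_adj.contDiffAt.clm_comp (pt.bs_Xi hd h))

theorem bs_jac (hd : 0 < d) (h : ∀ w, d * ‖w‖ ≤ ‖pt.Mv X w‖) : ContDiffAt ℝ ∞ pt.jac X :=
  (bs_det_smooth.comp pt.bs_Mv.1).contDiffAt.abs (bs_det_ne (pt.Mv_unit hd h).1)

theorem bs_GG : ContDiffAt ℝ ∞ (fun X => -(pt.Ga G X * pt.Ga G X)) X ∧
    ∀ᶠ Y in nhds X, Symm (-(pt.Ga G Y * pt.Ga G Y)) :=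
  ⟨(bs_mul (pt.bs_Ga G).1.contDiffAt (pt.bs_Ga G).1.contDiffAt).neg,
    Filter.Eventually.of_forall fun Y => (skew_polar (pt.skew_Ga G Y)).1.1⟩

theorem bs_aGa (hd : 0 < d) (h : Pos (d ^ 2) (-(pt.Ga G X * pt.Ga G X))) :
    ContDiffAt ℝ ∞ (pt.aGa G) X :=
  contDiffAt_psq (pt.bs_GG G).1 (pt.bs_GG G).2 (pow_pos hd 2) h

theorem bs_J (hd : 0 < d) (h : Pos (d ^ 2) (-(pt.Ga G X * pt.Ga G X))) :
    ContDiffAt ℝ ∞ (pt.J G) X :=
  (bs_mul (pt.bs_Ga G).1.contDiffAt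
    (bs_inv (pt.bs_aGa G hd h) ((pt.J_spec G hd h).2.1.isUnit hd).1)).neg

theorem bs_JG (hd : 0 < d) (h : Pos (d ^ 2) (-(pt.Ga G X * pt.Ga G X))) :
    CS (pt.J G X) ∧ pt.J G X * pt.Ga G X = pt.Ga G X * pt.J G X := by
  obtain ⟨h1, -, h2, h3⟩ := pt.J_spec G hd h
  refine ⟨h1, ?_⟩
  rw [← neg_eq_iff_eq_neg.2 h2, mul_neg, neg_mul, mul_assoc, ← h3]

end Patch

namespace Mod
variable {d : ℝ} {X : EE pt.l}

omit [FiniteDimensional ℂ F] in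
theorem bs_Pi (hd : 0 < d) (h : Pos (d ^ 2) (-(pt.Ga G X * pt.Ga G X))) :
    ContDiffAt ℝ ∞ (M.Pi G pt) X :=
  (M.Cm pt).contDiff_vac.contDiffAt.comp X (pt.bs_J G hd h)

theorem bs_kap (hd : 0 < d) (h : Pos (d ^ 2) (-(pt.Ga G X * pt.Ga G X))) :
    ContDiffAt ℝ ∞ (M.kap G pt) X :=
  (bs_trace.contDiffAt.comp X (contDiffAt_const.mul (M.bs_Pi G pt hd h))).div_const _

end Mod

/-- Jacobi formula -/
theorem hasFDerivAt_det {S : Type} [NormedAddCommGroup S] [InnerProductSpace ℝ S]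
    [FiniteDimensional ℝ S] {A : S →L[ℝ] S} (hA : IsUnit A) :
    ContDiff ℝ ∞ (fun B : S →L[ℝ] S => LinearMap.det B.toLinearMap) ∧ ∀ B : S →L[ℝ] S,
      fderiv ℝ (fun B : S →L[ℝ] S => LinearMap.det B.toLinearMap) A B =
        LinearMap.det A.toLinearMap * tr (Ring.inverse A * B) := ⟨bs_det_smooth, bs_det_deriv hA⟩

namespace Mod
/-- a good ball exists (positivity at the central point `p0` and continuity) -/
theorem exists_GB [Nontrivial F] : ∃ r d, M.GB G pt r d := by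
  obtain ⟨d, hd, r, hr, h⟩ := pt.adm_lower
  have h1 : ∀ᶠ X in nhds pt.p0, ∀ w, d * ‖w‖ ≤ ‖pt.Mv X w‖ := by
    have h0 : ContinuousAt (fun X => contr pt.v (pt.il X)) pt.p0 := by fun_prop
    filter_upwards [h0.eventually (Metric.ball_mem_nhds _ hr)] with X hX
    rw [dist_eq_norm, pt.il_p0] at hX
    exact h _ hX
  have hm := h1.self_of_nhds
  obtain ⟨c, hc, hw⟩ := Patch.Cen.wh_pos pt pt.cen_p0 hd hm
  have hga := Patch.Cen.ga_pos pt G pt.cen_p0 hd hm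
  have hJ := (pt.J_spec G hd hga).1
  have h2 := bs_pos (pt.bs_WH hd hm) (h1.mono fun X hX => (pt.symm_W hd hX).2) (half_lt_self hc) hw
  have h3 := bs_pos (pt.bs_GG G).1 (pt.bs_GG G).2 (show (d / 2) ^ 2 < d ^ 2 by nlinarith) hga
  have h4 : M.kap G pt pt.p0 = 1 := by
    have h5 : M.Pi0 G pt * M.Pi G pt pt.p0 = M.Pi0 G pt := ((M.Cm pt).vac_idem hJ).1
    rw [kap, h5, div_self (bs_trace_ne h5 ((M.Cm pt).vac_ne hJ))]
  have h5 := (M.bs_kap G pt hd hga).continuousAt.eventually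
    (le_mem_nhds (show 1 / 2 < M.kap G pt pt.p0 by rw [h4]; norm_num))
  have h6 := bs_unit (pt.bs_J G hd hga) _ (bs_cs hJ)
  obtain ⟨ε, hε, h7⟩ := Metric.eventually_nhds_iff_ball.1 (h1.and (h2.and (h3.and (h5.and h6))))
  have h8 : 0 < min (d / 2) (c / 2) := by positivity
  refine ⟨ε, min (d / 2) (c / 2), hε, h8, fun X hX => ?_⟩
  obtain ⟨a1, a2, a3, a4, a5⟩ := h7 X hX
  exact ⟨fun w => (mul_le_mul_of_nonneg_right ((min_le_left _ _).trans (half_le_self hd.le))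
    (norm_nonneg w)).trans (a1 w), bs_mono a2 (min_le_right _ _),
    bs_mono a3 (pow_le_pow_left₀ h8.le (min_le_left _ _) 2), a4, a5⟩

variable {M G pt} {r d : ℝ} (hg : M.GB G pt r d)
include hg
theorem GB.smooth : ContDiffOn ℝ ∞ pt.Om (Metric.ball pt.p0 r) ∧
    ContDiffOn ℝ ∞ (fun X => Ring.inverse (pt.Om X)) (Metric.ball pt.p0 r) ∧
    ContDiffOn ℝ ∞ (pt.J G) (Metric.ball pt.p0 r) ∧ ContDiffOn ℝ ∞ pt.W (Metric.ball pt.p0 r) ∧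
    ContDiffOn ℝ ∞ pt.WH (Metric.ball pt.p0 r) ∧
    ContDiffOn ℝ ∞ (fun X => Ring.inverse (pt.WH X)) (Metric.ball pt.p0 r) ∧
    ContDiffOn ℝ ∞ pt.Xi (Metric.ball pt.p0 r) ∧ ContDiffOn ℝ ∞ pt.T (Metric.ball pt.p0 r) ∧
    ContDiffOn ℝ ∞ (M.Pi G pt) (Metric.ball pt.p0 r) ∧
    ContDiffOn ℝ ∞ (M.kap G pt) (Metric.ball pt.p0 r) ∧
    ContDiffOn ℝ ∞ pt.jac (Metric.ball pt.p0 r) ∧ ContDiffOn ℝ ∞ (pt.aGa G) (Metric.ball pt.p0 r) := by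
  obtain ⟨-, hd, h⟩ := hg
  exact ⟨fun X hX => (pt.bs_Om hd (h X hX).mv).contDiffWithinAt,
    fun X hX => (pt.bs_Omi hd (h X hX).mv).contDiffWithinAt,
    fun X hX => (pt.bs_J G hd (h X hX).ga).contDiffWithinAt,
    fun X hX => (pt.bs_W hd (h X hX).mv).contDiffWithinAt,
    fun X hX => (pt.bs_WH hd (h X hX).mv).contDiffWithinAt,
    fun X hX => (bs_inv (pt.bs_WH hd (h X hX).mv) ((h X hX).wh.isUnit hd).1).contDiffWithinAt,
    fun X hX => (pt.bs_Xi hd (h X hX).mv).contDiffWithinAt,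
    fun X hX => (pt.bs_T hd (h X hX).mv).contDiffWithinAt,
    fun X hX => (M.bs_Pi G pt hd (h X hX).ga).contDiffWithinAt,
    fun X hX => (M.bs_kap G pt hd (h X hX).ga).contDiffWithinAt,
    fun X hX => (pt.bs_jac hd (h X hX).mv).contDiffWithinAt,
    fun X hX => (pt.bs_aGa G hd (h X hX).ga).contDiffWithinAt⟩
theorem GB.jac_pos {X : EE pt.l} (hX : X ∈ Metric.ball pt.p0 r) : 0 < pt.jac X :=
  abs_pos.2 (bs_det_ne (pt.Mv_unit hg.2.1 (hg.2.2 X hX).mv).1)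
theorem GB.fderiv_jac {X : EE pt.l} (hX : X ∈ Metric.ball pt.p0 r) (a : EE pt.l) :
    fderiv ℝ pt.jac X a = pt.jac X * tr (Ring.inverse (pt.Mv X) * pt.Mv a) := by
  have hu := (pt.Mv_unit hg.2.1 (hg.2.2 X hX).mv).1
  have h1 : HasFDerivAt pt.jac _ X :=
    ((bs_det_smooth.differentiable (by simp) (pt.Mv X)).hasFDerivAt.comp X
      (pt.bs_Mv.1.differentiable (by simp) X).hasFDerivAt).abs (bs_det_ne hu)
  rw [h1.fderiv, smul_apply, ContinuousLinearMap.comp_apply, pt.bs_Mv.2, bs_det_deriv hu,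
    smul_eq_mul, ← mul_assoc, Function.comp_apply, sign_mul_self]
  rfl
theorem GB.fderiv_J {X : EE pt.l} (hX : X ∈ Metric.ball pt.p0 r) (a : EE pt.l) :
    Skew (fderiv ℝ (pt.J G) X a) ∧
    pt.J G X * fderiv ℝ (pt.J G) X a = -(fderiv ℝ (pt.J G) X a * pt.J G X) ∧
    fderiv ℝ (pt.J G) X a * pt.Ga G X + pt.J G X * pt.Ga G a =
      pt.Ga G a * pt.J G X + pt.Ga G X * fderiv ℝ (pt.J G) X a := by
  have h := bs_dJ (pt.bs_J G hg.2.1 (hg.2.2 X hX).ga) (pt.bs_Ga G).1.contDiffAt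
    (Filter.Eventually.mono (Metric.isOpen_ball.mem_nhds hX) fun Y hY =>
      pt.bs_JG G hg.2.1 (hg.2.2 Y hY).ga) a
  rwa [(pt.bs_Ga G).2] at h
end Mod

end Vale.Agent.P353
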