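import Vale.Agent.P353.BCen2
import Vale.Agent.P353.BSmooth
import Vale.Agent.P353.ASplit
import Vale.Agent.P353.BKapx1

open MeasureTheory NormedSpace
open Complex (I)
open scoped InnerProductSpace ContDiff

noncomputable section
namespace Vale.Agent.P353
variable {V F : Type} [NormedAddCommGroup V] [InnerProductSpace ℝ V] [FiniteDimensional ℝ V]
  [NormedAddCommGroup F] [InnerProductSpace ℂ F] [CompleteSpace F] [FiniteDimensional ℂ F]
  (M : Mod V F) (G : Gam) (pt : Patch M.L)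

namespace Mod
theorem th_l_comm (u : SS pt.l) (J : SS pt.lᗮ →L[ℝ] SS pt.lᗮ) :
    M.C.th (lift pt.l.subtypeL u) * (M.Cm pt).vac J =
      (M.Cm pt).vac J * M.C.th (lift pt.l.subtypeL u) := by
  refine (M.Cm pt).vac_comm (s := -1) (by norm_num) (fun v => ?_) J
  have h := M.C.car (lift pt.l.subtypeL u) (lift pt.lᗮ.subtypeL v)
  rw [(spl_dec_lift 16 pt.l).h12, zero_smul] at h
  rw [neg_one_smul]
  exact eq_neg_of_add_eq_zero_left h
theorem cl_eq (e : R16) (a : EE pt.l) : M.cl G pt e a = (M.Ml pt).C.th (G.psi e a) :=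
  congrArg M.C.th (spl_mat_lift pt.l _ a)
theorem th_split (u : SS V) : M.C.th u = M.C.th (lift pt.l.subtypeL (lift pt.l.orthogonalProjectionOnto u)) +
    (M.Cm pt).th (lift pt.lᗮ.orthogonalProjectionOnto u) := by
  have e : u = lift pt.l.subtypeL (lift pt.l.orthogonalProjectionOnto u) +
      lift pt.lᗮ.subtypeL (lift pt.lᗮ.orthogonalProjectionOnto u) := by
    ext i
    exact (pt.l.starProjection_add_starProjection_orthogonal (u i)).symm
  conv_lhs => rw [e, map_add]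
  rfl
theorem spin_l_comm (T : SS pt.l →L[ℝ] SS pt.l) (J : SS pt.lᗮ →L[ℝ] SS pt.lᗮ) :
    (M.Ml pt).C.spin T * (M.Cm pt).vac J = (M.Cm pt).vac J * (M.Ml pt).C.spin T := by
  have h : ∀ u, Commute ((M.Ml pt).C.th u) ((M.Cm pt).vac J) := fun u => M.th_l_comm pt u J
  exact (Commute.sum_left _ _ _ fun a _ => (h _).mul_left (h _)).smul_left _
/-- block diagonal operators -/
theorem spin_split {T : SS V →L[ℝ] SS V} {T1 : SS pt.l →L[ℝ] SS pt.l} {T2 : SS pt.lᗮ →L[ℝ] SS pt.lᗮ}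
    (h1 : ∀ u, T (lift pt.l.subtypeL u) = lift pt.l.subtypeL (T1 u))
    (h2 : ∀ u, T (lift pt.lᗮ.subtypeL u) = lift pt.lᗮ.subtypeL (T2 u)) :
    M.C.spin T = (M.Ml pt).C.spin T1 + (M.Cm pt).spin T2 :=
  (spl_dec_lift 16 pt.l).spin M.C T T1 T2 h1 h2

omit [FiniteDimensional ℝ V] in
theorem bk_inner_tens {n : ℕ} (s : Fin n) (a : V) (x : PiLp 2 (fun _ : Fin n => V)) :
    ⟪tens (_root_.Pi.single s 1) a, x⟫_ℝ = ⟪a, x s⟫_ℝ := by
  rw [PiLp.inner_apply, Finset.sum_eq_single s]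
  · simp
  · intro i _ hi
    simp [hi]
  · simp

omit [FiniteDimensional ℝ V] in
theorem bk_sum_tens {n : ℕ} {κ : Type} [Fintype κ] (a b : κ → V) (x : PiLp 2 (fun _ : Fin n => V))
    (i : Fin n) : (∑ y : Fin n × κ, ⟪tens (_root_.Pi.single y.1 1) (a y.2), x⟫_ℝ •
      tens (_root_.Pi.single y.1 1) (b y.2) : PiLp 2 (fun _ : Fin n => V)) i =
      ∑ k, ⟪a k, x i⟫_ℝ • b k := by
  simp only [bk_inner_tens]
  rw [Fintype.sum_prod_type, WithLp.ofLp_sum, Finset.sum_apply, Finset.sum_eq_single i]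
  · simp
  · intro s _ hs
    simp [hs.symm]
  · simp

theorem bk_proj (l : Submodule ℝ V) (x : V) :
    ∑ k, ⟪(stdOrthonormalBasis ℝ l k : V), x⟫_ℝ • (stdOrthonormalBasis ℝ l k : V) =
      l.orthogonalProjectionOnto x := by
  conv_rhs => rw [← (stdOrthonormalBasis ℝ l).sum_repr' (l.orthogonalProjectionOnto x)]
  simp only [Submodule.inner_orthogonalProjectionOnto_eq_of_mem_left, Submodule.coe_sum,
    Submodule.coe_smul]

theorem bk_br {L : CL V} {l : Submodule ℝ V} (h : L.Sub l) (ξ : lᗮ) (x : V) :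
    L.br ξ x = lᗮ.orthogonalProjectionOnto (L.br ξ (lᗮ.orthogonalProjectionOnto x)) +
      (L.br ξ (l.orthogonalProjectionOnto x) + l.orthogonalProjectionOnto (L.br ξ x)) := by
  have e1 : ∀ y : V, y = l.orthogonalProjectionOnto y + lᗮ.orthogonalProjectionOnto y := fun y =>
    (l.starProjection_add_starProjection_orthogonal y).symm
  have h1 : L.br ξ (l.orthogonalProjectionOnto x) ∈ lᗮ := by
    rw [L.skew]
    exact neg_mem (L.br_orth h (l.orthogonalProjectionOnto x).2 ξ.2)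
  have e2 : L.br ξ x = L.br ξ (l.orthogonalProjectionOnto x) +
      L.br ξ (lᗮ.orthogonalProjectionOnto x) := by
    rw [← map_add, ← e1]
  have e3 : l.orthogonalProjectionOnto (L.br ξ x) =
      l.orthogonalProjectionOnto (L.br ξ (lᗮ.orthogonalProjectionOnto x)) := by
    rw [e2, map_add, Submodule.orthogonalProjectionOnto_apply_of_mem_orthogonal h1, zero_add]
  rw [e3, add_left_comm, add_comm (_ : V) (l.orthogonalProjectionOnto _ : V), ← e1, ← e2]

/-- the gauge generator of a heavy direction -/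
theorem spin_heavy (ξ : pt.lᗮ) : M.C.spin (lift (M.L.br ξ)) = (M.Cm pt).spin (lift (pt.adm ξ)) -
    ∑ s : Fin 16, ∑ k, (M.Cm pt).th (tens (Pi.single s 1) (pt.adm (stdOrthonormalBasis ℝ pt.l k) ξ)) *
      M.C.th (tens (Pi.single s 1) (stdOrthonormalBasis ℝ pt.l k : V)) := by
  set a := stdOrthonormalBasis ℝ pt.l
  set T1 : SS V →L[ℝ] SS V := lift (pt.lᗮ.subtypeL ∘L pt.adm ξ ∘L pt.lᗮ.orthogonalProjectionOnto)
  set T2 : SS V →L[ℝ] SS V := lift (M.L.br ξ ∘L pt.l.subtypeL ∘L pt.l.orthogonalProjectionOnto)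
  set T3 : SS V →L[ℝ] SS V := lift (pt.l.subtypeL ∘L pt.l.orthogonalProjectionOnto ∘L M.L.br ξ)
  have e : (lift (M.L.br ξ) : SS V →L[ℝ] SS V) = T1 + (T2 + T3) := by
    ext x i
    exact bk_br (M.L.sub_cent pt.p) ξ (x i)
  have e1 : M.C.spin T1 = (M.Cm pt).spin (lift (pt.adm ξ)) := by
    refine M.C.spin_res _ _ _ _ (fun u => ?_) fun x hx => ?_
    · ext i
      exact congrArg (fun y => ((pt.adm ξ y : pt.lᗮ) : V))
        (Submodule.orthogonalProjectionOnto_mem_subspace_eq_self (u i))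
    · ext i
      have h0 : pt.lᗮ.orthogonalProjectionOnto (x i) = 0 := by
        refine Submodule.orthogonalProjectionOnto_apply_of_mem_orthogonal fun y hy => ?_
        have := hx (tens (_root_.Pi.single i 1) ⟨y, hy⟩)
        rwa [← spl_tens, bk_inner_tens] at this
      change ((pt.adm ξ (pt.lᗮ.orthogonalProjectionOnto (x i)) : pt.lᗮ) : V) = 0
      rw [h0, map_zero]
      rfl
  have e2 : M.C.spin T2 = (1 / 2 : ℝ) • ∑ y : Fin 16 × Fin (Module.finrank ℝ pt.l),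
      M.C.th (tens (_root_.Pi.single y.1 1) (M.L.br ξ (a y.2))) *
        M.C.th (tens (_root_.Pi.single y.1 1) (a y.2 : V)) := by
    refine bk_frame M.C _ _ _ fun x => ?_
    ext i
    rw [bk_sum_tens (fun k => (a k : V)) (fun k => M.L.br ξ (a k))]
    change _ = M.L.br ξ (pt.l.orthogonalProjectionOnto (x i))
    rw [← bk_proj, map_sum]
    simp only [map_smul]
    rfl
  have e3 : M.C.spin T3 = (1 / 2 : ℝ) • ∑ y : Fin 16 × Fin (Module.finrank ℝ pt.l),
      M.C.th (tens (_root_.Pi.single y.1 1) (a y.2 : V)) *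
        M.C.th (tens (_root_.Pi.single y.1 1) (-M.L.br ξ (a y.2))) := by
    refine bk_frame M.C _ _ _ fun x => ?_
    ext i
    rw [bk_sum_tens (fun k => -M.L.br ξ (a k)) (fun k => (a k : V))]
    change _ = ((pt.l.orthogonalProjectionOnto (M.L.br ξ (x i)) : pt.l) : V)
    rw [← bk_proj]
    simp only [inner_neg_left, M.L.inv, neg_neg]
    rfl
  have e4 : ∀ (s : Fin 16) k, (M.Cm pt).th (tens (_root_.Pi.single s 1) (pt.adm (a k) ξ)) =
      -M.C.th (tens (_root_.Pi.single s 1) (M.L.br ξ (a k))) := fun s k => by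
    change M.C.th (lift pt.lᗮ.subtypeL _) = _
    rw [← spl_tens, pt.adm_apply (a k).2, M.L.skew, map_neg, map_neg]
  have e5 : ∀ (s : Fin 16) k, M.C.th (tens (_root_.Pi.single s 1) (a k : V)) *
      M.C.th (tens (_root_.Pi.single s 1) (-M.L.br ξ (a k))) =
      M.C.th (tens (_root_.Pi.single s 1) (M.L.br ξ (a k))) *
        M.C.th (tens (_root_.Pi.single s 1) (a k : V)) := fun s k => by
    have h := M.C.car (tens (_root_.Pi.single s 1) (M.L.br ξ (a k)))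
      (tens (_root_.Pi.single s 1) (a k : V))
    have h0 : ⟪M.L.br ξ (a k), (a k : V)⟫_ℝ = 0 := by
      have h1 := M.L.inv ξ (a k) (a k)
      rw [real_inner_comm] at h1 ⊢
      linarith
    rw [amod0_tens, h0, mul_zero, zero_smul] at h
    rw [map_neg, map_neg, mul_neg]
    exact (eq_neg_of_add_eq_zero_left h).symm
  rw [e, M.C.spin_add, M.C.spin_add, e1, e2, e3]
  simp only [e4, e5, neg_mul, Finset.sum_neg_distrib, sub_neg_eq_add]
  rw [← add_smul, Fintype.sum_prod_type]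
  norm_num

variable {M G pt} {r d : ℝ} (hg : M.GB G pt r d) {X : EE pt.l} (hX : X ∈ Metric.ball pt.p0 r)
include hg hX
theorem GB.Pi_spec : CS (pt.J G X) ∧ M.Pi G pt X * M.Pi G pt X = M.Pi G pt X ∧
    IsSelfAdjoint (M.Pi G pt X) ∧ ‖M.Pi G pt X‖ ≤ 1 := by
  have hJ := (pt.J_spec G hg.2.1 (hg.2.2 X hX).ga).1
  have h := (M.Cm pt).vac_idem hJ
  exact ⟨hJ, h.1, h.2, bk_norm_le h.1 h.2⟩
theorem GB.kap_spec' : M.Pi0 G pt ≠ 0 ∧
    M.Pi0 G pt * M.Pi G pt X * M.Pi0 G pt = M.kap G pt X • M.Pi0 G pt ∧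
    M.Pi G pt X * M.Pi0 G pt * M.Pi G pt X = M.kap G pt X • M.Pi G pt X := by
  obtain ⟨hJ, -, h2, -⟩ := hg.Pi_spec hX
  obtain ⟨hJ0, h3, h4, -⟩ := hg.Pi_spec (Metric.mem_ball_self hg.1)
  obtain ⟨c, hc⟩ := (M.Cm pt).vac_scalar hJ0 ((M.Cm pt).vac_mem_alg (pt.J G X))
  obtain ⟨c', hc'⟩ := (M.Cm pt).vac_scalar hJ ((M.Cm pt).vac_mem_alg (pt.J G pt.p0))
  have hk := (hg.2.2 X hX).kp
  exact bk_kap h3 h4 h2 hc hc' rfl (by linarith)
theorem GB.kap_spec : M.Pi0 G pt * M.Pi G pt X * M.Pi0 G pt = M.kap G pt X • M.Pi0 G pt ∧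
    M.Pi G pt X * M.Pi0 G pt * M.Pi G pt X = M.kap G pt X • M.Pi G pt X := (hg.kap_spec' hX).2
theorem GB.norm_Pi0_Pi (w : F) :
    ‖M.Pi0 G pt (M.Pi G pt X w)‖ ^ 2 = M.kap G pt X * ‖M.Pi G pt X w‖ ^ 2 := by
  obtain ⟨-, h1, h2, -⟩ := hg.Pi_spec hX
  obtain ⟨-, h3, h4, -⟩ := hg.Pi_spec (Metric.mem_ball_self hg.1)
  exact bk_norm_sq h3 h4 h1 h2 (hg.kap_spec hX).2 w
/-- the Berry connection vanishes at central points -/
theorem GB.berry (hY : pt.Cen X) (a : EE pt.l) :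
    M.Pi0 G pt * fderiv ℝ (M.Pi G pt) X a * M.Pi G pt X =
      ((1 / 2) * fderiv ℝ (M.kap G pt) X a / M.kap G pt X) • (M.Pi0 G pt * M.Pi G pt X) := by
  obtain ⟨hJ, h1, h2, -⟩ := hg.Pi_spec hX
  have h00 := Metric.mem_ball_self (x := pt.p0) hg.1
  obtain ⟨hJ0, -, h4, -⟩ := hg.Pi_spec h00
  obtain ⟨s1, s2, s3⟩ := hg.fderiv_J hX a
  obtain ⟨-, -, dJ, -, -, -, -, -, dP, dk, -, -⟩ := hg.smooth
  have hn := Metric.isOpen_ball.mem_nhds hX
  have dJ' := (dJ.contDiffAt hn).differentiableAt (by simp)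
  have dP' := (dP.contDiffAt hn).differentiableAt (by simp)
  have dk' := (dk.contDiffAt hn).differentiableAt (by simp)
  have dv := ((M.Cm pt).contDiff_vac.differentiable (by simp)) (pt.J G X)
  have hD : fderiv ℝ (M.Pi G pt) X a =
      fderiv ℝ (M.Cm pt).vac (pt.J G X) (fderiv ℝ (pt.J G) X a) := by
    have e := fderiv_comp X dv dJ'
    exact congrArg (fun T => T a) e
  rw [(M.Cm pt).fderiv_vac hJ s1 s2] at hD
  obtain ⟨R, hR⟩ := (hg.2.2 X hX).jj.exists_right_inv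
  have ht := hY.berry pt G hg.2.1 (hg.2.2 X hX).mv (hg.2.2 _ h00).mv a s2 s3 hR
  obtain ⟨c, hc⟩ := bk_mixed (M.Cm pt) hJ hJ0 s1 s2 hR ht
  obtain ⟨k0, k1, -⟩ := hg.kap_spec' hX
  have hk := (hg.2.2 X hX).kp
  have h3 : M.Pi0 G pt * fderiv ℝ (M.Pi G pt) X a * M.Pi0 G pt =
      fderiv ℝ (M.kap G pt) X a • M.Pi0 G pt := by
    have f1 := (dP'.hasFDerivAt.const_mul (M.Pi0 G pt)).mul_const' (M.Pi0 G pt)
    have f2 := dk'.hasFDerivAt.smul_const (M.Pi0 G pt)
    have ev : (fun Y => M.Pi0 G pt * M.Pi G pt Y * M.Pi0 G pt) =ᶠ[nhds X]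
        fun Y => M.kap G pt Y • M.Pi0 G pt := by
      filter_upwards [hn] with Y hY' using (hg.kap_spec hY').1
    have e := (f2.congr_of_eventuallyEq ev).unique f1
    have e' := congrArg (fun T => T a) e
    simpa using e'.symm
  exact bk_berry h4 h1 h2 ((M.Cm pt).spin_star (bk_skew hJ.1 s1 s2)) hD
    (bk_diag (M.Cm pt) hJ s1 s2) hc k1 (by linarith) k0 h3
end Mod

end Vale.Agent.P353
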