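import Vale.Agent.P353.BKx2

import Vale.Agent.P353.BKap

open MeasureTheory NormedSpace
open Complex (I)
open scoped InnerProductSpace ContDiff

noncomputable section
namespace Vale.Agent.P353
variable {V F : Type} [NormedAddCommGroup V] [InnerProductSpace ℝ V] [FiniteDimensional ℝ V]
  [NormedAddCommGroup F] [InnerProductSpace ℂ F] [CompleteSpace F] [FiniteDimensional ℂ F]
  (M : Mod V F) (G : Gam) (pt : Patch M.L)

namespace Mod
variable {M G pt} {r d : ℝ} (hg : M.GB G pt r d)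
include hg
theorem GB.K2_bilin (e : R16) (X : EE pt.l) :
    ∃ B : pt.HT →L[ℝ] pt.HT →L[ℝ] (F →L[ℂ] F), ∀ z z', B z z' = M.K2 G pt e X z z' := by
  obtain ⟨S, hS⟩ := pt.sb_clm G e
  refine bk_mk2 (LinearMap.mk₂ ℝ (M.K2 G pt e X) (fun _ _ _ => ?_) (fun c _ _ => ?_)
    (fun _ _ _ => ?_) fun c _ _ => ?_)
  all_goals simp only [K2, ← hS, map_add, map_smul, inner_add_left, inner_add_right, add_smul,
    Finset.sum_add_distrib, mul_add, smul_add, ContinuousLinearMap.add_apply,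
    ContinuousLinearMap.smul_apply, real_inner_smul_left, real_inner_smul_right, mul_smul,
    ← Finset.smul_sum, mul_smul_comm]
  all_goals module
theorem GB.K0_cont (e : R16) : ContinuousOn (M.K0 G pt e) (Metric.ball pt.p0 r) := by
  obtain ⟨-, -, -, -, h5, h6, h7, -, h9, h10, h11, -⟩ := hg.smooth
  obtain ⟨Bm, hBm⟩ := pt.Bm_clm
  obtain ⟨S, hS⟩ := M.gauge_clm
  have cP := h9.continuousOn
  have c1 : ∀ a, ContinuousOn (fun X => M.nu G pt X a) (Metric.ball pt.p0 r) := fun a => by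
    have k1 : ContinuousOn (fun X => tr (fderiv ℝ pt.WH X a * Ring.inverse (pt.WH X)))
        (Metric.ball pt.p0 r) :=
      bk_cont_tr.comp_continuousOn ((bk_cd h5 a).clm_comp h6.continuousOn)
    exact (((continuousOn_const.mul (bk_cd h11 a)).div h11.continuousOn
      fun X hX => (hg.jac_pos hX).ne').sub ((continuousOn_const.mul (bk_cd h10 a)).div
        h10.continuousOn fun X hX => by have := (hg.2.2 X hX).kp; positivity)).add
      (continuousOn_const.mul k1)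
  have c2 : ∀ w, ContinuousOn (fun X => pt.Xi X w) (Metric.ball pt.p0 r) := fun w =>
    h7.continuousOn.clm_apply continuousOn_const
  have c3 : ∀ w, ContinuousOn (fun X => M.C.spin (lift (M.L.br (pt.Xi X w))))
      (Metric.ball pt.p0 r) := fun w => by
    simp only [← hS]
    exact S.continuous.comp_continuousOn (continuous_subtype_val.comp_continuousOn (c2 _))
  have c4 : ∀ w, ContinuousOn (fun X => tr (pt.Bm (pt.Xi X w))) (Metric.ball pt.p0 r) := fun w => by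
    simp only [← hBm]
    exact bk_cont_tr.comp_continuousOn (Bm.continuous.comp_continuousOn (c2 _))
  have c5 := bk_cd h9
  unfold K0
  refine ContinuousOn.fun_sub (ContinuousOn.fun_const_smul (continuousOn_finset_sum _ fun k _ => ?_) I)
    (ContinuousOn.fun_const_smul (cP.fun_mul (continuousOn_finset_sum _ fun k _ => ?_)) I)
  · exact continuousOn_const.fun_mul (((c1 _).fun_smul cP).fun_add (c5 _))
  · exact continuousOn_const.fun_mul ((c3 _).fun_add ((c4 _).fun_smul continuousOn_const))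

theorem GB.K2_cont (e : R16) {u v : EE pt.l → pt.HT} (hu : ContinuousOn u (Metric.ball pt.p0 r))
    (hv : ContinuousOn v (Metric.ball pt.p0 r)) :
    ContinuousOn (fun X => M.K2 G pt e X (u X) (v X)) (Metric.ball pt.p0 r) := by
  obtain ⟨-, -, -, -, h5, -, h7, -, h9, -⟩ := hg.smooth
  obtain ⟨Bm, hBm⟩ := pt.Bm_clm
  obtain ⟨S, hS⟩ := pt.sb_clm G e
  have cP := h9.continuousOn
  have c1 : ∀ a, ContinuousOn (fun X => ⟪u X, fderiv ℝ pt.WH X a (v X)⟫_ℝ) (Metric.ball pt.p0 r) :=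
    fun a => ContinuousOn.inner (𝕜 := ℝ) hu ((bk_cd h5 a).clm_apply hv)
  have c2 : ContinuousOn (fun X => M.C.th (pt.sb G e (pt.inc (u X)) (pt.inc (v X))))
      (Metric.ball pt.p0 r) := by
    simp only [← hS]
    exact M.C.th.continuous.comp_continuousOn (bk_c2 S
      (pt.inc.continuous.comp_continuousOn hu) (pt.inc.continuous.comp_continuousOn hv))
  have c3 : ∀ w, ContinuousOn (fun X => ⟪pt.WH X (u X), pt.Bm (pt.Xi X w) (v X)⟫_ℝ)
      (Metric.ball pt.p0 r) := fun w => by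
    simp only [← hBm]
    exact ContinuousOn.inner (𝕜 := ℝ) (h5.continuousOn.clm_apply hu)
      (bk_c2 Bm (h7.continuousOn.clm_apply continuousOn_const) hv)
  unfold K2
  refine ((ContinuousOn.fun_const_smul (continuousOn_finset_sum _ fun k _ => ?_) _).fun_add
    (cP.fun_mul c2)).fun_add
    (ContinuousOn.fun_const_smul (cP.fun_mul (continuousOn_finset_sum _ fun k _ => ?_)) I)
  · exact (c1 _).fun_smul (continuousOn_const.fun_mul cP)
  · exact (c3 _).fun_smul continuousOn_const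

theorem GB.K_bound (e : R16) : ∃ C > 0, ∀ X ∈ Metric.ball pt.p0 (r / 2), ‖M.K0 G pt e X‖ ≤ C ∧
    (∀ z z', ‖M.K2 G pt e X z z'‖ ≤ C * ‖z‖ * ‖z'‖) ∧
    ∀ (w : pt.lᗮ) (z : pt.HT), ‖pt.Bl (pt.Xi X w) z‖ ≤ C * ‖w‖ * ‖z‖ ∧
      ‖pt.Bm (pt.Xi X w) z‖ ≤ C * ‖w‖ * ‖z‖ := by
  have hd := hg.2.1
  obtain ⟨Bl, hBl⟩ := pt.Bl_clm
  obtain ⟨Bm, hBm⟩ := pt.Bm_clm
  obtain ⟨C1, p1, c1⟩ := bk_bil Bl
  obtain ⟨C2, p2, c2⟩ := bk_bil Bm
  obtain ⟨C3, p3, c3⟩ := bk_bdd hg.1 (hg.K0_cont e)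
  choose B hB using hg.K2_bilin e
  obtain ⟨C4, p4, c4⟩ := bk_bdd2 hg.1 B fun a b => by
    simp only [hB]; exact hg.K2_cont e continuousOn_const continuousOn_const
  have q1 : 0 < C1 * d⁻¹ := by positivity
  have q2 : 0 < C2 * d⁻¹ := by positivity
  refine ⟨C1 * d⁻¹ + C2 * d⁻¹ + C3 + C4, by positivity, fun X hX =>
    ⟨(c3 X hX).trans (by linarith), fun z z' => ?_, fun w z => ?_⟩⟩
  · rw [← hB]
    exact (c4 X hX z z').trans (by gcongr; linarith)
  · have hv := (hg.2.2 X (Metric.ball_subset_ball (by linarith [hg.1]) hX)).mv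
    have x1 : ‖pt.Xi X w‖ ≤ d⁻¹ * ‖w‖ :=
      ((pt.Xi X).le_opNorm w).trans (by gcongr; exact (pt.Mv_unit hd hv).2.1)
    rw [← hBl, ← hBm]
    refine ⟨(c1 _ _).trans ?_, (c2 _ _).trans ?_⟩
    · refine mul_le_mul_of_nonneg_right ((mul_le_mul_of_nonneg_left x1 p1.le).trans ?_) (norm_nonneg _)
      rw [← mul_assoc]; gcongr; linarith
    · refine mul_le_mul_of_nonneg_right ((mul_le_mul_of_nonneg_left x1 p2.le).trans ?_) (norm_nonneg _)
      rw [← mul_assoc]; gcongr; linarith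
theorem GB.Kb_cont (e : R16) : ContinuousOn (M.Kb G pt e) (Metric.ball pt.p0 r) := by
  unfold Kb
  exact (hg.K0_cont e).add ((continuousOn_finset_sum _ fun k _ => hg.K2_cont e continuousOn_const
    (hg.smooth.2.2.2.2.2.1.continuousOn.clm_apply continuousOn_const)).const_smul (1 / 2 : ℝ))
/-- no correction of order `1 / R` on the central tuples (PROOF.md, B3 (c)) -/
theorem GB.Kb_cen (e : R16) {Y : EE pt.l} (hX : Y ∈ Metric.ball pt.p0 r) (hY : pt.Cen Y) :
    M.Pi0 G pt * M.Kb G pt e Y * M.Pi G pt Y = 0 := by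
  have hA := fun k => hg.bk_A hX hY e (pt.bl k)
  have hB := hg.bk_B hX hY e
  have hC := hg.bk_C hX hY e
  rw [Kb, K0, mul_add, add_mul, mul_sub, sub_mul, mul_smul_comm, smul_mul_assoc, mul_smul_comm,
    smul_mul_assoc, mul_smul_comm, smul_mul_assoc, mul_assoc _ (_ * _), hB,
    mul_assoc _ (∑ k, M.K2 G pt e Y _ _), hC, Finset.mul_sum, Finset.sum_mul]
  simp only [hA, add_smul, Finset.sum_add_distrib, Finset.mul_sum, mul_smul_comm, mul_smul,
    ← Finset.smul_sum]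
  rw [← Complex.coe_smul (1 / 2 : ℝ), ← Complex.coe_smul (1 / 2 : ℝ),
    ← Complex.coe_smul (1 / 4 : ℝ)]
  push_cast
  module
theorem GB.Kb_small (e : R16) {η : ℝ} (hη : 0 < η) : ∃ κ > 0, ∀ X ∈ Metric.ball pt.p0 (r / 2),
    ∀ Y, pt.Cen Y → ‖X - Y‖ < κ → ‖M.Pi0 G pt * M.Kb G pt e X * M.Pi G pt X‖ ≤ η := by
  obtain ⟨κ, hκ, h⟩ := bk_unif hg.1 (f := fun X => M.Pi0 G pt * M.Kb G pt e X * M.Pi G pt X)
    ((continuousOn_const.mul (hg.Kb_cont e)).mul hg.smooth.2.2.2.2.2.2.2.2.1.continuousOn) hη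
  refine ⟨κ, hκ, fun X hX Y hY hXY => ?_⟩
  obtain ⟨a, b⟩ := h X hX Y hXY
  rwa [hg.Kb_cen e a hY, sub_zero] at b
theorem GB.trJ_small {N : M16} (hN : N.transpose = -N) {η : ℝ} (hη : 0 < η) :
    ∃ κ > 0, ∀ X ∈ Metric.ball pt.p0 (r / 2), ∀ Y, pt.Cen Y → ‖X - Y‖ < κ →
      |tr (pt.J G X * mat N)| ≤ η := by
  have k0 : ContinuousOn (fun X => pt.J G X ∘L mat N) (Metric.ball pt.p0 r) :=
    hg.smooth.2.2.1.continuousOn.clm_comp continuousOn_const
  have k1 : ContinuousOn (fun X => tr (pt.J G X * mat N)) (Metric.ball pt.p0 r) :=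
    (bk_cont_tr (S := SS pt.lᗮ)).comp_continuousOn k0
  obtain ⟨κ, hκ, h⟩ := bk_unif hg.1 k1 hη
  refine ⟨κ, hκ, fun X hX Y hY hXY => ?_⟩
  obtain ⟨a, b⟩ := h X hX Y hXY
  rwa [Patch.Cen.tr_J_mat pt G hY hg.2.1 (hg.2.2 Y a).mv hN, sub_zero] at b
end Mod

end Vale.Agent.P353
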