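import Vale.Agent.P353.BTd
import Vale.Agent.P353.BK

open MeasureTheory NormedSpace
open Complex (I)
open scoped InnerProductSpace ContDiff

noncomputable section
namespace Vale.Agent.P353
variable {V F : Type} [NormedAddCommGroup V] [InnerProductSpace ℝ V] [FiniteDimensional ℝ V]
  [NormedAddCommGroup F] [InnerProductSpace ℂ F] [CompleteSpace F] [FiniteDimensional ℂ F]
  [MeasurableSpace V] [BorelSpace V] {M : Mod V F} {G : Gam} {pt : Patch M.L}

omit [FiniteDimensional ℂ F] in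
theorem bb_sa {A : F →L[ℂ] F} (h : IsSelfAdjoint A) (x y : F) : ⟪A x, y⟫_ℂ = ⟪x, A y⟫_ℂ :=
  h.isSymmetric x y

omit [FiniteDimensional ℂ F] in
theorem bb_alg {P P0 S : F →L[ℂ] F} {k : ℝ} (hP : P * P = P) (sP : IsSelfAdjoint P)
    (hP0 : P0 * P0 = P0) (sP0 : IsSelfAdjoint P0) (c0 : S * P0 = P0 * S) (c1 : S * P = P * S)
    (hk : P * P0 * P = k • P) (u : F) :
    (⟪P0 (P u), S (P0 (P u))⟫_ℂ).re = k * (⟪P u, S (P u)⟫_ℂ).re := by
  have e1 : P * P0 * S * P0 * P = k • (S * P) := by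
    calc P * P0 * S * P0 * P = P * (P0 * S) * P0 * P := by simp only [mul_assoc]
      _ = (P * S) * (P0 * P0) * P := by rw [← c0]; simp only [mul_assoc]
      _ = S * (P * P0 * P) := by rw [← c1, hP0]; simp only [mul_assoc]
      _ = k • (S * P) := by rw [hk, mul_smul_comm]
  have e2 : P * S * P = S * P := by rw [← c1, mul_assoc, hP]
  have a1 : P (P0 (S (P0 (P u)))) = k • S (P u) := congrArg (fun A : F →L[ℂ] F => A u) e1
  have a2 : P (S (P u)) = S (P u) := congrArg (fun A : F →L[ℂ] F => A u) e2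
  rw [bb_sa sP0, bb_sa sP, bb_sa sP, a1, a2, ← Complex.coe_smul, inner_smul_right,
    Complex.re_ofReal_mul]

omit [FiniteDimensional ℂ F] in
theorem bb_charge {P S : F →L[ℂ] F} {t : ℝ} (hP : P * P = P) (sP : IsSelfAdjoint P)
    (h : P * S * P = (-(I * (t : ℝ))) • P) (u : F) :
    (⟪P u, (I • S) (P u)⟫_ℂ).re = t * ‖P u‖ ^ 2 := by
  have a1 : P (S (P u)) = (-(I * (t : ℝ))) • P u := congrArg (fun A : F →L[ℂ] F => A u) h
  have a2 : P (P u) = P u := congrArg (fun A : F →L[ℂ] F => A u) hP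
  have a3 : ⟪u, P u⟫_ℂ = ((‖P u‖ ^ 2 : ℝ) : ℂ) := by
    rw [← a2, ← bb_sa sP, a2, inner_self_eq_norm_sq_to_K]
    simp
  rw [smul_apply, inner_smul_right, bb_sa sP, a1, inner_smul_right, a3]
  have : I * (-(I * (t : ℝ)) * ((‖P u‖ ^ 2 : ℝ) : ℂ)) = ((t * ‖P u‖ ^ 2 : ℝ) : ℂ) := by
    push_cast
    linear_combination (-(t : ℂ) * (‖P u‖ : ℂ) ^ 2) * Complex.I_mul_I
  rw [this, Complex.ofReal_re]

theorem bb_pos {S : Type} [NormedAddCommGroup S] [InnerProductSpace ℝ S] {W : S →L[ℝ] S} {c lam : ℝ}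
    (hl : 0 ≤ lam) (h : Pos c W) : Pos (lam * c) (lam • W) := by
  refine ⟨fun u v => ?_, fun u => ?_⟩
  · rw [smul_apply, smul_apply, real_inner_smul_left, real_inner_smul_right, h.1]
  · rw [smul_apply, real_inner_smul_right, mul_assoc]
    exact mul_le_mul_of_nonneg_left (h.2 u) hl

namespace Mod
variable {r d : ℝ} (hg : M.GB G pt r d)
include hg

theorem GB.bil_pt {N : M16} (hN : N.transpose = -N) {lam : ℝ} (hl : 0 < lam) {X : EE pt.l}
    (hX : X ∈ Metric.ball pt.p0 r) (φ : EE V → F) :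
    (⟪M.Td G pt lam φ X, (I • (M.Ml pt).C.spin (mat N)) (M.Td G pt lam φ X)⟫_ℂ).re =
      pt.jac X * ((⟪M.Pi G pt X (M.uu pt lam φ X),
        (I • M.C.spin (mat N)) (M.Pi G pt X (M.uu pt lam φ X))⟫_ℂ).re / M.ZZ pt lam X) -
      tr (pt.J G X * mat N) / 4 *
        (pt.jac X * (‖M.Pi G pt X (M.uu pt lam φ X)‖ ^ 2 / M.ZZ pt lam X)) := by
  obtain ⟨hJ, hP, sP, -⟩ := hg.Pi_spec hX
  obtain ⟨-, hP0, sP0, -⟩ := hg.Pi_spec (Metric.mem_ball_self hg.1)
  have hs : M.C.spin (mat N) = (M.Ml pt).C.spin (mat N) + (M.Cm pt).spin (mat N) :=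
    M.spin_split pt (fun u => DFunLike.congr_fun (mat_lift N pt.l.subtypeL) u)
      fun u => DFunLike.congr_fun (mat_lift N pt.lᗮ.subtypeL) u
  have cm : ∀ J, (I • (M.Ml pt).C.spin (mat N)) * (M.Cm pt).vac J =
      (M.Cm pt).vac J * (I • (M.Ml pt).C.spin (mat N)) := fun J => by
    rw [smul_mul_assoc, mul_smul_comm, M.spin_l_comm pt]
  have a1 := bb_alg hP sP hP0 sP0 (cm _) (cm _) (hg.kap_spec hX).2 (M.uu pt lam φ X)
  have a2 := bb_charge hP sP ((M.Cm pt).vac_spin_vac hJ (skew_mat hN)) (M.uu pt lam φ X)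
  have hk : 0 < M.kap G pt X := lt_of_lt_of_le (by norm_num) (hg.2.2 X hX).kp
  have hZ := hg.ZZ_pos hl hX
  have hn := (hg.nn_sq hl hX).1
  rw [hs, smul_add, add_apply, inner_add_right, Complex.add_re, a2]
  unfold Mod.Td
  rw [ContinuousLinearMap.map_smul_of_tower, ← Complex.coe_smul, ← Complex.coe_smul, inner_smul_left,
    inner_smul_right, Complex.conj_ofReal, Complex.re_ofReal_mul, Complex.re_ofReal_mul,
    ← mul_assoc, ← sq, hn]
  unfold Mod.Pi0
  rw [a1]
  field_simp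
  ring

omit hg [FiniteDimensional ℂ F] in
theorem bb_fi_zero {u : EE V → ℝ} {X : EE pt.l} (h : ∀ z, u (pt.sp X z) = 0) : M.fi pt u X = 0 := by
  unfold Mod.fi
  simp only [h, integral_zero]

end Mod

namespace Mod
variable {r d : ℝ} (hg : M.GB G pt r d)
include hg
/-- Transfer of a constant bilinear: `spin_split`, `spin_l_comm`, `kap_spec`, `vac_spin_vac`,
`trJ_small`, `fib_bil`. -/
theorem GB.trans_bil {N : M16} (hN : N.transpose = -N) {η : ℝ} (hη : 0 < η) :
    ∃ κ > 0, ∃ C > 0, ∀ lam > 0, ∀ r' ≤ r / 2, ∀ φ : EE V → F, pt.Sup r' κ φ →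
      opf (fun _ => I • (M.Ml pt).C.spin (mat N)) (M.Td G pt lam φ) ≤
        M.SI pt (M.bil N φ) + η * M.N2 pt φ + C * M.m2 G pt lam φ := by
  obtain ⟨κ, hκ, hJ⟩ := hg.trJ_small hN (η := 2 * η) (by positivity)
  set S : F →L[ℂ] F := I • M.C.spin (mat N) with hS
  have hS0 := norm_nonneg S
  set t := η / (2 * (‖S‖ + 1)) with ht
  have ht0 : 0 < t := by positivity
  refine ⟨κ, hκ, ‖S‖ * (1 + t⁻¹) + 1, by positivity, fun lam hl r' hr φ h => ?_⟩
  obtain ⟨c1, -, -, -, -, -, c2, -⟩ := h.tst.cc M G pt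
  obtain ⟨hT, hsup⟩ := hg.tst_Td hl hr h
  have i1 := hT.int_opf (B := fun _ => I • (M.Ml pt).C.spin (mat N)) continuousOn_const
  have i2 := (cc_fi (M := M) (pt := pt) (c2 N)).2.1
  have i3 := (cc_fi (M := M) (pt := pt) c1).2.1
  have i4 := (hg.int_ex2 hl hr h).2
  have key := integral_mono i1 ((i2.add (i3.const_mul η)).add (i4.const_mul (‖S‖ * (1 + t⁻¹) + 1)))
    fun X => by
      simp only [Pi.add_apply]
      obtain ⟨n1, n2', n3⟩ := hg.norm_Td hl hr h X
      have j0 := pt.jac_nonneg X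
      have f0 : 0 ≤ M.fi pt (fun s => ‖φ s‖ ^ 2) X := fi_nonneg X fun s => sq_nonneg _
      have p1 := mul_nonneg j0 f0
      have p2 := mul_nonneg j0 n3
      by_cases hX : ∃ z, pt.sp X z ∈ tsupport φ
      · obtain ⟨z, hz⟩ := hX
        obtain ⟨k1, -, -, -, Y, hY, hXY⟩ := pt.reg_cen (h.supp X z hz)
        have hX2 : X ∈ Metric.ball pt.p0 (r / 2) := mem_ball_iff_norm.2 (k1.trans_le hr)
        have hX1 : X ∈ Metric.ball pt.p0 r := Metric.ball_subset_ball (by linarith [hg.1]) hX2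
        obtain ⟨-, hP, sP, -⟩ := hg.Pi_spec hX1
        have b1 := (abs_le.1 (fib_bil (S := S) (mul_pos hl hg.2.1)
          (bb_pos hl.le (hg.2.2 X hX1).wh) hP sP (h.tst.fibre M pt X).1 ht0)).1
        have b2 := (abs_le.1 (hJ X hX2 Y hY hXY)).1
        rw [hg.bil_pt hN hl hX1 φ, ← n1]
        have b3 : -(‖S‖ * (t * M.fi pt (fun s => ‖φ s‖ ^ 2) X + (1 + t⁻¹) * M.ex2 G pt lam φ X)) ≤
            M.fi pt (M.bil N φ) X - (⟪M.Pi G pt X (M.uu pt lam φ X),
              S (M.Pi G pt X (M.uu pt lam φ X))⟫_ℂ).re / M.ZZ pt lam X := b1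
        have b4 := mul_le_mul_of_nonneg_left b3 j0
        have b5 := mul_le_mul_of_nonneg_right b2 (sq_nonneg ‖M.Td G pt lam φ X‖)
        have b6 : η * ‖M.Td G pt lam φ X‖ ^ 2 ≤ η * (pt.jac X * M.fi pt (fun s => ‖φ s‖ ^ 2) X) :=
          mul_le_mul_of_nonneg_left (by linarith) hη.le
        have b7 : ‖S‖ * t ≤ η / 2 := by
          rw [ht, ← mul_div_assoc, div_le_div_iff₀ (by positivity) (by positivity)]
          nlinarith
        have b8 := mul_le_mul_of_nonneg_right b7 p1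
        linarith
      · push Not at hX
        have h0 : M.Td G pt lam φ X = 0 := by
          by_contra h0
          obtain ⟨z, hz⟩ := (hsup X (subset_tsupport _ h0)).2
          exact hX z hz
        have h1 : M.fi pt (M.bil N φ) X = 0 := bb_fi_zero fun z => by
          simp [Mod.bil, image_eq_zero_of_notMem_tsupport (hX z)]
        rw [h0, h1]
        have q1 := mul_nonneg hη.le p1
        have q2 := mul_nonneg (show 0 ≤ ‖S‖ * (1 + t⁻¹) + 1 by positivity) p2
        simp only [inner_zero_left, Complex.zero_re]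
        linarith
  rw [integral_add' (i2.add (i3.const_mul η)) (i4.const_mul _), integral_add' i2 (i3.const_mul η),
    integral_const_mul, integral_const_mul] at key
  exact key

/-- Transfer of a continuous weight (uniform continuity on a closed ball, `norm_Td`). -/
theorem GB.trans_wt {w : EE V → ℝ} (hw : Continuous w) : ∃ C > 0, ∀ η > 0, ∃ κ > 0, ∀ lam > 0,
    ∀ r' ≤ r / 2, ∀ φ : EE V → F, pt.Sup r' κ φ →
      wt (fun X => w (pt.il X)) (M.Td G pt lam φ) ≤
        M.SI pt (fun s => w s * ‖φ s‖ ^ 2) + η * M.N2 pt φ + C * M.m2 G pt lam φ := by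
  have hK := isCompact_closedBall pt.p r
  obtain ⟨C, hC⟩ := hK.exists_bound_of_continuousOn hw.continuousOn
  have hC0 : 0 ≤ C := (norm_nonneg _).trans (hC _ (Metric.mem_closedBall_self hg.1.le))
  have hu := Metric.uniformContinuousOn_iff.1 (hK.uniformContinuousOn_of_continuous hw.continuousOn)
  refine ⟨C + 1, by positivity, fun η hη => ?_⟩
  obtain ⟨κ, hκ, hκ'⟩ := hu η hη
  refine ⟨κ, hκ, fun lam hl r' hr φ h => ?_⟩
  obtain ⟨c1, -, -, -, -, -, -, c2⟩ := h.tst.cc M G pt
  have c3 := c2 w hw.continuousOn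
  obtain ⟨hT, hsup⟩ := hg.tst_Td hl hr h
  have i1 := hT.int_wt (w := fun X => w (pt.il X)) (hw.comp pt.il.continuous).continuousOn
  have i2 := (cc_fi (M := M) (pt := pt) c3).2.1
  have i3 := (cc_fi (M := M) (pt := pt) c1).2.1
  have i4 := (hg.int_ex2 hl hr h).2
  have hb : ∀ s ∈ pt.reg' r' κ, s ∈ Metric.closedBall pt.p r := fun s hs =>
    mem_closedBall_iff_norm.2 (hs.1.2.le.trans (by linarith [hg.1]))
  have key := integral_mono i1 ((i2.add (i3.const_mul η)).add (i4.const_mul (C + 1))) fun X => by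
    simp only [Pi.add_apply]
    obtain ⟨-, n2', n3⟩ := hg.norm_Td hl hr h X
    have j0 := pt.jac_nonneg X
    have f0 : 0 ≤ M.fi pt (fun s => ‖φ s‖ ^ 2) X := fi_nonneg X fun s => sq_nonneg _
    have p1 := mul_nonneg j0 f0
    have p2 := mul_nonneg j0 n3
    by_cases hX : ∃ z, pt.sp X z ∈ tsupport φ
    · obtain ⟨z0, hz0⟩ := hX
      have hX0 := hb _ (pt.reg_cen (h.supp X z0 hz0)).2.2.2.1
      have b1 := (abs_le.1 (hC _ hX0)).1
      have b2 := fi_mono (M := M) (pt := pt) (c1.mul (w := fun _ => w (pt.il X)) continuous_const)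
        (c3.add (c1.mul (w := fun _ => η) continuous_const)) X fun z => by
          by_cases hz : pt.sp X z ∈ tsupport φ
          · have k1 := (pt.reg_cen (h.supp X z hz)).2.1
            have k2 := pt.norm_sp X X z
            rw [sub_self, norm_zero, zero_pow two_ne_zero, zero_add,
              pow_left_inj₀ (norm_nonneg _) (norm_nonneg _) two_ne_zero] at k2
            have k3 := hκ' _ (hb _ (h.supp X z hz)) _ hX0 (by rw [dist_eq_norm, k2]; exact k1)
            rw [Real.dist_eq] at k3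
            have k4 := mul_le_mul_of_nonneg_right (abs_lt.1 k3).1.le (sq_nonneg ‖φ (pt.sp X z)‖)
            linarith
          · simp [image_eq_zero_of_notMem_tsupport hz]
      rw [fi_add c3 (c1.mul (w := fun _ => η) continuous_const), fi_smul, fi_smul] at b2
      have b3 := mul_le_mul_of_nonneg_left b2 j0
      have b4 := mul_le_mul_of_nonneg_right b1 p2
      have b5 : w (pt.il X) * (‖M.Td G pt lam φ X‖ ^ 2 + pt.jac X * M.ex2 G pt lam φ X) =
        w (pt.il X) * (pt.jac X * M.fi pt (fun s => ‖φ s‖ ^ 2) X) := by rw [n2']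
      linarith
    · push Not at hX
      have h0 : M.Td G pt lam φ X = 0 := by
        by_contra h0
        obtain ⟨z, hz⟩ := (hsup X (subset_tsupport _ h0)).2
        exact hX z hz
      have h1 : M.fi pt (fun s => w s * ‖φ s‖ ^ 2) X = 0 := bb_fi_zero fun z => by
        simp [image_eq_zero_of_notMem_tsupport (hX z)]
      rw [h0, h1]
      have q1 := mul_nonneg hη.le p1
      have q2 := mul_nonneg (show 0 ≤ C + 1 by positivity) p2
      simp only [norm_zero]
      linarith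
  rw [integral_add' (i2.add (i3.const_mul η)) (i4.const_mul _), integral_add' i2 (i3.const_mul η),
    integral_const_mul, integral_const_mul] at key
  exact key
end Mod

omit [FiniteDimensional ℝ V] [MeasurableSpace V] [BorelSpace V] in
theorem Par.U_lift (P : Par) (l : Submodule ℝ V) (X : EE l) : P.U (lift l.subtypeL X) = P.U X := by
  have e1 : P.s1 (lift l.subtypeL X) = lift l.subtypeL (P.s1 X) := by
    ext i
    simp [Par.s1, Gam.psi]
  have e2 : mat P.A' (lift l.subtypeL X) = lift l.subtypeL (mat P.A' X) := by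
    ext i
    simp
  unfold Par.U
  rw [e1, e2, ← real_inner_self_eq_norm_sq, ← real_inner_self_eq_norm_sq, inner_lift_subtype,
    inner_lift_subtype, real_inner_self_eq_norm_sq, real_inner_self_eq_norm_sq]

end Vale.Agent.P353
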