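import Vale.Agent.P353.BCenx1

open MeasureTheory NormedSpace
open Complex (I)
open scoped InnerProductSpace ContDiff

noncomputable section
namespace Vale.Agent.P353
variable {V : Type} [NormedAddCommGroup V] [InnerProductSpace ℝ V] [FiniteDimensional ℝ V]
  {L : CL V} (pt : Patch L) (G : Gam)

/-! Identities at central points, where all `M_i` commute with every `adm a`, `a ∈ l`. -/
namespace Patch
variable {d : ℝ} {Y : EE pt.l}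

theorem Cen.bc_br (hY : pt.Cen Y) (i : Fin 9) {a : V} (ha : a ∈ pt.l) : L.br a (Y i) = 0 :=
  (pt.mem_z _).1 (hY i) a ha

theorem Cen.comm_adm (hY : pt.Cen Y) (i : Fin 9) {a : V} (ha : a ∈ pt.l) :
    pt.Mi Y i * pt.adm a = pt.adm a * pt.Mi Y i := by
  have h1 : L.br (Y i) a = 0 := by
    rw [L.skew, hY.bc_br pt i ha, neg_zero]
  refine ContinuousLinearMap.ext fun w => Subtype.ext ?_
  show (pt.adm (Y i) (pt.adm a w) : V) = pt.adm a (pt.adm (Y i) w)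
  rw [pt.adm_apply (Y i).2, pt.adm_apply ha, pt.adm_apply ha, pt.adm_apply (Y i).2]
  exact L.br_comm h1 w

theorem Cen.bc_mm (hY : pt.Cen Y) (i j : Fin 9) (w : pt.lᗮ) :
    pt.Mi Y i (pt.Mi Y j w) = pt.Mi Y j (pt.Mi Y i w) :=
  congrArg (fun B : pt.lᗮ →L[ℝ] pt.lᗮ => B w) (hY.comm_adm pt i (Y j).2)

theorem Cen.bc_om (hY : pt.Cen Y) (i : Fin 9) (w : pt.lᗮ) :
    pt.Om Y (pt.Mi Y i w) = pt.Mi Y i (pt.Om Y w) := by
  have h1 := (pt.Om_spec le_rfl (X := Y) fun w => (zero_mul _).trans_le (norm_nonneg _)).1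
  rw [zero_pow two_ne_zero] at h1
  refine psq_intertwine h1 h1 (pt.Mi Y i) (fun u => ?_) w
  simp only [neg_apply, sum_apply, map_neg, map_sum]
  refine congrArg _ (Finset.sum_congr rfl fun j _ => ?_)
  show pt.Mi Y j (pt.Mi Y j (pt.Mi Y i u)) = pt.Mi Y i (pt.Mi Y j (pt.Mi Y j u))
  rw [hY.bc_mm pt j i, hY.bc_mm pt j i]

theorem Cen.bc_ga_sq (hY : pt.Cen Y) :
    -(pt.Ga G Y * pt.Ga G Y) = lift (-∑ i, pt.Mi Y i * pt.Mi Y i) := by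
  have h1 : ∀ i j, mat (G.g2 i j) ∘L lift (pt.adm (L.br (Y i) (Y j))) = 0 := fun i j => by
    rw [hY.bc_br pt j (Y i).2]
    ext x k
    simp [adm]
  rw [Ga_sq]
  exact bcen_z _ _ (Finset.sum_eq_zero fun i _ => Finset.sum_eq_zero fun j _ => h1 i j)

theorem Cen.pot (hY : pt.Cen Y) : L.pot (pt.il Y) = 0 := by
  have h1 : ∀ i j, L.br (pt.il Y i) (pt.il Y j) = 0 := fun i j => hY.bc_br pt j (Y i).2
  simp only [CL.pot, h1, norm_zero, zero_pow two_ne_zero, Finset.sum_const_zero, mul_zero]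

theorem Cen.aGa (hY : pt.Cen Y) : pt.aGa G Y = lift (pt.Om Y) := by
  obtain ⟨-, h1, h2⟩ := pt.Om_spec le_rfl (X := Y) fun w => (zero_mul _).trans_le (norm_nonneg _)
  rw [Patch.aGa, hY.bc_ga_sq, ← h2]
  exact psq_unique (bcen_pos h1) rfl

theorem Cen.ga_pos (hY : pt.Cen Y) (hd : 0 < d) (h : ∀ w, d * ‖w‖ ≤ ‖pt.Mv Y w‖) :
    Pos (d ^ 2) (-(pt.Ga G Y * pt.Ga G Y)) := by
  rw [hY.bc_ga_sq]
  exact bcen_pos (pt.Om_spec hd.le h).1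

theorem Cen.J_eq (hY : pt.Cen Y) (hd : 0 < d) (h : ∀ w, d * ‖w‖ ≤ ‖pt.Mv Y w‖) :
    pt.J G Y = -∑ j, mat (G.g j) ∘L lift (pt.Mi Y j * Ring.inverse (pt.Om Y)) := by
  rw [J, hY.aGa, bcen_inv ((pt.Om_spec hd.le h).2.1.isUnit hd).1, Ga, Finset.sum_mul]
  rfl

theorem Cen.W_gauge (hY : pt.Cen Y) (hd : 0 < d) (h : ∀ w, d * ‖w‖ ≤ ‖pt.Mv Y w‖) (ξ : pt.lᗮ) :
    pt.W Y ((pt.Mb Y).adjoint ξ) = 0 := by
  refine PiLp.ext fun i => (pt.W_gauge hd h ξ i).trans ?_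
  show -(pt.Om Y (pt.Mi Y i ξ) - pt.Mi Y i (pt.Om Y ξ)) = 0
  rw [hY.bc_om, sub_self, neg_zero]

theorem bcen_contr (ξ : pt.lᗮ) : contr pt.v ((pt.Mb Y).adjoint ξ) = -pt.Mv Y ξ := by
  rw [contr_apply, Mv_eq, sum_apply, ← Finset.sum_neg_distrib]
  exact Finset.sum_congr rfl fun i _ => by rw [Mb_adj, smul_neg, smul_apply]

theorem bcen_T (hd : 0 < d) (h : ∀ w, d * ‖w‖ ≤ ‖pt.Mv Y w‖) (w : pt.lᗮ) :
    pt.inc (pt.T Y w) = (pt.Mb Y).adjoint (pt.Xi Y w) - tens pt.v w := by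
  show pt.inc (pt.prj ((pt.Mb Y).adjoint (pt.Xi Y w))) = _
  rw [inc_prj, bcen_contr, (pt.Mv_unit hd h).2.2, neg_neg]

theorem bcen_WH (z z' : pt.HT) : ⟪pt.WH Y z, z'⟫_ℝ = ⟪pt.W Y (pt.inc z), pt.inc z'⟫_ℝ :=
  pt.inner_prj _ _

theorem Cen.bc_mb_adj (hd : 0 < d) (h : ∀ w, d * ‖w‖ ≤ ‖pt.Mv Y w‖) (ξ : pt.lᗮ) :
    pt.Mb Y ((pt.Mb Y).adjoint ξ) = pt.Om Y (pt.Om Y ξ) := by
  have h1 := congrArg (fun B : pt.lᗮ →L[ℝ] pt.lᗮ => B ξ) (pt.Om_spec hd.le h).2.2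
  simp only [neg_apply, sum_apply] at h1
  simp only [Mb_apply, Mb_adj, map_neg, Finset.sum_neg_distrib]
  exact h1.symm

theorem bcen_om (hd : 0 < d) (h : ∀ w, d * ‖w‖ ≤ ‖pt.Mv Y w‖) (w : pt.lᗮ) :
    pt.Om Y (Ring.inverse (pt.Om Y) w) = w :=
  congrArg (fun B : pt.lᗮ →L[ℝ] pt.lᗮ => B w)
    (Ring.mul_inverse_cancel _ ((pt.Om_spec hd.le h).2.1.isUnit hd).1)

theorem bcen_W (y : EE pt.lᗮ) : pt.W Y y =
    lift (pt.Om Y) y - (pt.Mb Y).adjoint (Ring.inverse (pt.Om Y) (pt.Mb Y y)) := rfl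

theorem Cen.qq_eq (hY : pt.Cen Y) (hd : 0 < d) (h : ∀ w, d * ‖w‖ ≤ ‖pt.Mv Y w‖) (z : pt.HT) :
    pt.qq Y z = pt.W Y (pt.inc z) := by
  have h1 : (pt.T Y).adjoint (pt.WH Y z) = -contr pt.v (pt.W Y (pt.inc z)) := by
    refine ext_inner_right ℝ fun w => ?_
    rw [ContinuousLinearMap.adjoint_inner_left, bcen_WH, pt.bcen_T hd h, inner_sub_right,
      (pt.symm_W hd h).1, hY.W_gauge pt hd h, inner_zero_right, zero_sub, bcen_tens,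
      inner_neg_left]
  have h2 : pt.inc (pt.WH Y z) = _ := pt.inc_prj (pt.W Y (pt.inc z))
  rw [qq, h1, h2, map_neg, sub_neg_eq_add, sub_add_cancel]

/-- `WH` is positive definite: `⟨z, W z⟩ = 0` forces `z` to be a gauge direction -/
theorem Cen.wh_pos (hY : pt.Cen Y) (hd : 0 < d) (h : ∀ w, d * ‖w‖ ≤ ‖pt.Mv Y w‖) :
    ∃ c > 0, Pos c (pt.WH Y) := by
  have h1 : ∀ y : EE pt.lᗮ, ∃ ξ, d * ‖y - (pt.Mb Y).adjoint ξ‖ ^ 2 ≤ ⟪y, pt.W Y y⟫_ℝ := fun y => by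
    obtain ⟨ξ, hξ⟩ : ∃ ξ, ξ = Ring.inverse (pt.Om Y) (Ring.inverse (pt.Om Y) (pt.Mb Y y)) :=
      ⟨_, rfl⟩
    have h2 : pt.Mb Y (y - (pt.Mb Y).adjoint ξ) = 0 := by
      rw [map_sub, Cen.bc_mb_adj pt hd h, hξ, pt.bcen_om hd h, pt.bcen_om hd h, sub_self]
    have h3 : pt.W Y y = lift (pt.Om Y) (y - (pt.Mb Y).adjoint ξ) := by
      rw [← sub_zero (pt.W Y y), ← hY.W_gauge pt hd h ξ, ← map_sub, bcen_W, h2, map_zero, map_zero,
        sub_zero]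
    refine ⟨ξ, ((bcen_pos (pt.Om_spec hd.le h).2.1).2 _).trans_eq ?_⟩
    rw [← h3, inner_sub_left, ← (pt.symm_W hd h).1 ((pt.Mb Y).adjoint ξ), hY.W_gauge pt hd h,
      inner_zero_left, sub_zero]
  have h2 : ∀ z, ⟪z, pt.WH Y z⟫_ℝ = ⟪pt.inc z, pt.W Y (pt.inc z)⟫_ℝ := fun z => by
    rw [real_inner_comm, bcen_WH, real_inner_comm]
  refine Pos.exists_pos ⟨(pt.symm_W hd h).2, fun z => ?_⟩ fun z hz => ?_
  · obtain ⟨ξ, h3⟩ := h1 (pt.inc z)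
    rw [zero_mul, h2]
    exact le_trans (by positivity) h3
  · obtain ⟨ξ, h3⟩ := h1 (pt.inc z)
    rw [← h2, hz, inner_zero_right] at h3
    have h4 : pt.inc z = (pt.Mb Y).adjoint ξ := sub_eq_zero.1 (norm_eq_zero.1
      (pow_eq_zero_iff two_ne_zero |>.1 (le_antisymm (nonpos_of_mul_nonpos_right h3 hd)
        (sq_nonneg _))))
    have h5 := pt.contr_inc z
    rw [h4, bcen_contr, neg_eq_zero] at h5
    have h6 := h ξ
    rw [h5, norm_zero] at h6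
    rw [← pt.prj_inc z, h4, norm_le_zero_iff.1 (nonpos_of_mul_nonpos_right h6 hd), map_zero,
      map_zero]

/-- the oscillator potential is the commutator potential -/
theorem Cen.potH_eq (hY : pt.Cen Y) (hd : 0 < d) (h : ∀ w, d * ‖w‖ ≤ ‖pt.Mv Y w‖) (z : pt.HT) :
    pt.potH Y z = (1 / 4) * ∑ i, ∑ j, ‖pt.Mi Y i (pt.inc z j) - pt.Mi Y j (pt.inc z i)‖ ^ 2 := by
  have hO := (pt.Om_spec hd.le h).2
  have h1 : ‖pt.qq Y z‖ ^ 2 = ‖pt.WH Y z‖ ^ 2 + ‖(pt.T Y).adjoint (pt.WH Y z)‖ ^ 2 := by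
    rw [qq, norm_sub_sq_real, bcen_tens, contr_inc, inner_zero_left, ← real_inner_self_eq_norm_sq,
      ← real_inner_self_eq_norm_sq (tens _ _), inner_inc, inner_tens_v, real_inner_self_eq_norm_sq,
      real_inner_self_eq_norm_sq, mul_zero, sub_zero]
  rw [potH, ← h1, hY.qq_eq pt hd h, bcen_id (pt.skew_Mi Y) (hY.bc_mm pt), ← Mb_apply]
  generalize pt.inc z = y
  have h2 : pt.Mb Y (lift (pt.Om Y) y) = pt.Om Y (pt.Mb Y y) := by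
    simp only [Mb_apply, map_sum, lift_apply, hY.bc_om]
  have h3 : ‖lift (pt.Om Y) y‖ ^ 2 = ∑ j, ∑ i, ‖pt.Mi Y i (y j)‖ ^ 2 := by
    rw [PiLp.norm_sq_eq_of_L2]
    exact Finset.sum_congr rfl fun j _ => bcen_sq (pt.skew_Mi Y) hO.1.1 hO.2 _
  rw [bcen_W, norm_sub_sq_real, ← real_inner_self_eq_norm_sq ((pt.Mb Y).adjoint _),
    ContinuousLinearMap.adjoint_inner_right, ContinuousLinearMap.adjoint_inner_right, h2,
    Cen.bc_mb_adj pt hd h, pt.bcen_om hd h, hO.1.1, pt.bcen_om hd h, real_inner_self_eq_norm_sq, h3]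
  ring

theorem Cen.potH_lower (hY : pt.Cen Y) (hd : 0 < d) (h : ∀ w, d * ‖w‖ ≤ ‖pt.Mv Y w‖) (z : pt.HT) :
    d ^ 2 / 2 * ‖z‖ ^ 2 ≤ pt.potH Y z := by
  have h1 := bcen_anti (fun i j => pt.Mi Y i (pt.inc z j) - pt.Mi Y j (pt.inc z i))
    (fun i j => (neg_sub _ _).symm) pt.unit
  have h2 : ∀ j, ∑ i, pt.v i • (pt.Mi Y i (pt.inc z j) - pt.Mi Y j (pt.inc z i)) =
      pt.Mv Y (pt.inc z j) := fun j => by
    have h3 := congrArg (pt.Mi Y j) (pt.contr_inc z)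
    rw [contr_apply, map_sum, map_zero] at h3
    simp only [map_smul] at h3
    simp only [smul_sub, Finset.sum_sub_distrib, h3, sub_zero, Mv_eq, sum_apply, smul_apply]
  have h3 : d ^ 2 * ‖z‖ ^ 2 ≤ ∑ j, ‖pt.Mv Y (pt.inc z j)‖ ^ 2 := by
    rw [← real_inner_self_eq_norm_sq z, ← inner_inc, real_inner_self_eq_norm_sq,
      PiLp.norm_sq_eq_of_L2, Finset.mul_sum]
    refine Finset.sum_le_sum fun j _ => ?_
    rw [← mul_pow]
    exact pow_le_pow_left₀ (by positivity) (h _) 2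
  simp only [h2] at h1
  rw [hY.potH_eq pt hd h]
  linarith

/-- the zero point energies cancel: both sides are `4 tr Ω` -/
theorem Cen.zero_point (hY : pt.Cen Y) (hd : 0 < d) (h : ∀ w, d * ‖w‖ ≤ ‖pt.Mv Y w‖) :
    (1 / 2) * (tr (pt.WH Y) + tr ((pt.T Y).adjoint ∘L pt.WH Y ∘L pt.T Y)) = tr (pt.aGa G Y) / 4 := by
  have h1 := sum_onb_split ((innerₗ (EE pt.lᗮ)).compl₂ (pt.W Y).toLinearMap) pt.inc (tens pt.v)
    pt.inner_inc pt.inner_tens_v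
    (fun u w => by rw [bcen_tens, contr_inc, inner_zero_left])
    fun x => ⟨pt.prj x, contr pt.v x, by rw [inc_prj, sub_add_cancel]⟩
  simp only [LinearMap.compl₂_apply, innerₗ_apply_apply, ContinuousLinearMap.coe_coe] at h1
  have h2 : tr (pt.WH Y) = ∑ a, ⟪pt.inc (pt.bH a), pt.W Y (pt.inc (pt.bH a))⟫_ℝ := by
    rw [tr_eq_sum pt.bH]
    exact Finset.sum_congr rfl fun a _ => by rw [real_inner_comm, bcen_WH, real_inner_comm]
  have h3 : tr ((pt.T Y).adjoint ∘L pt.WH Y ∘L pt.T Y) =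
      ∑ a, ⟪tens pt.v (pt.bm a), pt.W Y (tens pt.v (pt.bm a))⟫_ℝ := by
    rw [tr_eq_sum pt.bm]
    refine Finset.sum_congr rfl fun a _ => ?_
    show ⟪pt.bm a, (pt.T Y).adjoint (pt.WH Y (pt.T Y (pt.bm a)))⟫_ℝ = _
    rw [ContinuousLinearMap.adjoint_inner_right, real_inner_comm, bcen_WH, pt.bcen_T hd h, map_sub,
      hY.W_gauge pt hd h, zero_sub, inner_neg_left, inner_sub_right, (pt.symm_W hd h).1,
      hY.W_gauge pt hd h, inner_zero_right, zero_sub, neg_neg, real_inner_comm]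
  have h4 : (Ring.inverse (pt.Om Y) ∘L pt.Mb Y) ∘L (pt.Mb Y).adjoint = pt.Om Y := by
    refine ContinuousLinearMap.ext fun w => ?_
    show Ring.inverse (pt.Om Y) (pt.Mb Y ((pt.Mb Y).adjoint w)) = _
    rw [Cen.bc_mb_adj pt hd h]
    exact congrArg (fun B : pt.lᗮ →L[ℝ] pt.lᗮ => B (pt.Om Y w))
      (Ring.inverse_mul_cancel _ ((pt.Om_spec hd.le h).2.1.isUnit hd).1)
  rw [h2, h3, ← h1, ← tr_eq_sum, W, bcen_sub, bcen_cyc, h4, hY.aGa, bcen_tr, bcen_tr]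
  push_cast
  ring

end Patch

end Vale.Agent.P353
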