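import Vale.Agent.P353.AMod0
import Vale.Agent.P353.APsq

open scoped InnerProductSpace

noncomputable section
namespace Vale.Agent.P353
namespace BC2

/-- the abstract computation behind the vanishing of the Berry phase -/
theorem berry_abs {A : Type} [Ring A] (τ : A →+ ℝ) (hc : ∀ a b, τ (a * b) = τ (b * a))
    {J J0 J' Γ Γ' O Oi R : A} (hJ : J * J = -1) (hJ0 : J0 * J0 = -1) (hΓ : J * O = -Γ)
    (hJO : J * O = O * J) (hJ0O : J0 * O = O * J0) (hO1 : O * Oi = 1) (hO2 : Oi * O = 1)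
    (h1 : J * J' = -(J' * J)) (h2 : J' * Γ + J * Γ' = Γ' * J + Γ * J')
    (hR1 : (J + J0) * R = 1) (hR2 : R * (J + J0) = 1) :
    2 * τ (J * J' * R) = τ (Γ' * Oi * ((J - J0) * ((J + J0) * (R * R)))) := by
  have hG : Γ = -(J * O) := by rw [hΓ, neg_neg]
  have a1 : J' * Γ = J * J' * O := by
    rw [hG, h1]; noncomm_ring
  have a2 : Γ * J' = -(O * (J * J')) := by
    rw [hG, hJO]; noncomm_ring
  have e1 : J * J' * O + O * (J * J') = Γ' * J - J * Γ' := by
    rw [a1, a2] at h2
    calc J * J' * O + O * (J * J') = (J * J' * O + J * Γ') + O * (J * J') - J * Γ' := by abel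
      _ = _ := by rw [h2]; abel
  have hSO : (J + J0) * O = O * (J + J0) := by rw [add_mul, mul_add, hJO, hJ0O]
  have hRO : R * O = O * R := by
    calc R * O = R * O * ((J + J0) * R) := by rw [hR1, mul_one]
      _ = R * (O * (J + J0)) * R := by noncomm_ring
      _ = (R * (J + J0)) * O * R := by rw [← hSO]; noncomm_ring
      _ = O * R := by rw [hR2, one_mul]
  have hJi : J * Oi = Oi * J := by
    calc J * Oi = (Oi * O) * J * Oi := by rw [hO2, one_mul]
      _ = Oi * (O * J) * Oi := by noncomm_ring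
      _ = Oi * J * (O * Oi) := by rw [← hJO]; noncomm_ring
      _ = Oi * J := by rw [hO1, mul_one]
  have t1 : τ (J * J' * O * (Oi * R)) = τ (J * J' * R) := by
    congr 1
    calc J * J' * O * (Oi * R) = J * J' * (O * Oi) * R := by noncomm_ring
      _ = _ := by rw [hO1, mul_one]
  have t2 : τ (O * (J * J') * (Oi * R)) = τ (J * J' * R) := by
    rw [mul_assoc O, hc]
    congr 1
    calc J * J' * (Oi * R) * O = J * J' * Oi * (R * O) := by noncomm_ring
      _ = J * J' * (Oi * O) * R := by rw [hRO]; noncomm_ring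
      _ = _ := by rw [hO2, mul_one]
  have t3 : τ (J * Γ' * (Oi * R)) = τ (Γ' * Oi * (R * J)) := by
    rw [mul_assoc J, hc]
    congr 1
    noncomm_ring
  have t4 : Γ' * J * (Oi * R) = Γ' * Oi * (J * R) := by
    calc Γ' * J * (Oi * R) = Γ' * (J * Oi) * R := by noncomm_ring
      _ = _ := by rw [hJi]; noncomm_ring
  have hST : (J + J0) * J - J * (J + J0) = (J + J0) * (J - J0) := by
    calc (J + J0) * J - J * (J + J0) = J0 * J - J * J0 := by noncomm_ring
      _ = J * J - J0 * J0 + (J0 * J - J * J0) := by rw [hJ, hJ0, sub_self, zero_add]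
      _ = _ := by noncomm_ring
  have t5 : J * R - R * J = (J - J0) * ((J + J0) * (R * R)) := by
    calc J * R - R * J = (R * (J + J0)) * J * R - R * J * ((J + J0) * R) := by
          rw [hR1, hR2, one_mul, mul_one]
      _ = R * ((J + J0) * J - J * (J + J0)) * R := by noncomm_ring
      _ = (R * (J + J0)) * (J - J0) * R := by rw [hST]; noncomm_ring
      _ = (J - J0) * (((J + J0) * R) * R) := by rw [hR1, hR2, one_mul, one_mul]
      _ = _ := by noncomm_ring
  have t6 := congrArg (fun x => τ (x * (Oi * R))) e1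
  simp only [add_mul, sub_mul, map_add, map_sub] at t6
  rw [t1, t2, t3, t4] at t6
  rw [← t5, mul_sub, map_sub]
  linarith

variable {S : Type} [NormedAddCommGroup S] [InnerProductSpace ℝ S]

theorem symm_mul {A B : S →L[ℝ] S} (hA : Skew A) (hB : Skew B) (h : A * B = B * A) :
    Symm (A * B) := by
  intro u v
  conv_rhs => rw [h]
  rw [mul_apply_eq_comp, mul_apply_eq_comp, hA, hB, neg_neg]

theorem skew_mul {A B : S →L[ℝ] S} (hA : Skew A) (hB : Symm B) (h : A * B = B * A) :
    Skew (A * B) := by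
  intro u v
  conv_rhs => rw [h]
  rw [mul_apply_eq_comp, mul_apply_eq_comp, hA, hB]

theorem skew_inv {A : S →L[ℝ] S} (hA : Skew A) (h : IsUnit A) : Skew (Ring.inverse A) := by
  intro u v
  have h1 : ∀ w, A (Ring.inverse A w) = w := fun w =>
    congrArg (fun T : S →L[ℝ] S => T w) (Ring.mul_inverse_cancel A h)
  have h2 := hA (Ring.inverse A u) (Ring.inverse A v)
  rw [h1, h1] at h2
  rw [h2, neg_neg]

theorem skew_neg {A : S →L[ℝ] S} (hA : Skew A) : Skew (-A) := by
  intro u v
  simp only [neg_apply, inner_neg_left, inner_neg_right, hA u v]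

theorem comm_inv {A : Type} [MonoidWithZero A] {a b : A} (h : Commute a b) (hb : IsUnit b) :
    Commute a (Ring.inverse b) := by
  obtain ⟨u, rfl⟩ := hb
  rw [Ring.inverse_unit]
  exact h.units_inv_right

theorem comm_smul {A B : S →L[ℝ] S} (h : Commute A B) (c : ℝ) : Commute A (c • B) :=
  h.smul_right c

/-- `N ⊗ B` -/
def ml {n : ℕ} (N : Matrix (Fin n) (Fin n) ℝ) (B : S →L[ℝ] S) :
    PiLp 2 (fun _ : Fin n => S) →L[ℝ] PiLp 2 (fun _ : Fin n => S) := mat N ∘L lift B

theorem ml_apply {n : ℕ} (N : Matrix (Fin n) (Fin n) ℝ) (B : S →L[ℝ] S)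
    (x : PiLp 2 (fun _ : Fin n => S)) (i : Fin n) : ml N B x i = ∑ j, N i j • B (x j) := by
  simp only [ml, ContinuousLinearMap.comp_apply, mat_apply, lift_apply]

theorem ml_mul {n : ℕ} (N N' : Matrix (Fin n) (Fin n) ℝ) (B B' : S →L[ℝ] S) :
    ml N B * ml N' B' = ml (N * N') (B * B') := by
  ext x i
  simp only [mul_apply_eq_comp, ml_apply, Matrix.mul_apply, Finset.sum_smul, map_sum,
    map_smul, Finset.smul_sum, smul_smul]
  exact Finset.sum_comm

theorem ml_one_left {n : ℕ} (B : S →L[ℝ] S) : ml (1 : Matrix (Fin n) (Fin n) ℝ) B = lift B := by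
  ext x i
  simp [ml_apply, Matrix.one_apply]

theorem ml_one_right {n : ℕ} (N : Matrix (Fin n) (Fin n) ℝ) :
    ml N (1 : S →L[ℝ] S) = mat N := by
  ext x i
  simp [ml_apply]

theorem ml_add_left {n : ℕ} (N N' : Matrix (Fin n) (Fin n) ℝ) (B : S →L[ℝ] S) :
    ml (N + N') B = ml N B + ml N' B := by
  ext x i
  simp [ml_apply, add_smul, Finset.sum_add_distrib]

theorem lift_mul' {n : ℕ} (B B' : S →L[ℝ] S) :
    (lift B * lift B' : PiLp 2 (fun _ : Fin n => S) →L[ℝ] _) = lift (B * B') := by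
  ext x i
  rfl

theorem lift_one' {n : ℕ} : (lift (1 : S →L[ℝ] S) : PiLp 2 (fun _ : Fin n => S) →L[ℝ] _) = 1 := by
  ext x i
  rfl

/-- elements of degree one -/
def g1 (G : Gam) (x : Fin 9 → S →L[ℝ] S) : SS S →L[ℝ] SS S := ∑ j, ml (G.g j) (x j)

variable (G : Gam)

theorem g1_apply (x : Fin 9 → S →L[ℝ] S) (u : SS S) (s : Fin 16) :
    g1 G x u s = ∑ j, ∑ t, G.g j s t • x j (u t) := by
  simp [g1, ml_apply]

theorem g1_add (x y : Fin 9 → S →L[ℝ] S) : g1 G x + g1 G y = g1 G fun j => x j + y j := by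
  ext u s
  simp [g1_apply, Finset.sum_add_distrib]

theorem g1_neg (x : Fin 9 → S →L[ℝ] S) : -g1 G x = g1 G fun j => -x j := by
  ext u s
  simp [g1_apply]

theorem g1_sub (x y : Fin 9 → S →L[ℝ] S) : g1 G x - g1 G y = g1 G fun j => x j - y j := by
  rw [sub_eq_add_neg, g1_neg, g1_add]
  simp only [sub_eq_add_neg]

theorem g1_lift (x : Fin 9 → S →L[ℝ] S) (B : S →L[ℝ] S) :
    g1 G x * lift B = g1 G fun j => x j * B := by
  ext u s
  simp [g1_apply]

theorem lift_g1 (x : Fin 9 → S →L[ℝ] S) (B : S →L[ℝ] S) :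
    lift B * g1 G x = g1 G fun j => B * x j := by
  ext u s
  simp [g1_apply]

theorem g1_comm {x : Fin 9 → S →L[ℝ] S} {B : S →L[ℝ] S} (h : ∀ j, Commute B (x j)) :
    g1 G x * lift B = lift B * g1 G x := by
  rw [g1_lift, lift_g1]
  congr 1
  funext j
  exact (h j).symm.eq

theorem g1_tens (x : Fin 9 → S →L[ℝ] S) (e : R16) (w : S) :
    g1 G x (tens e w) = ∑ j, tens ((G.g j).mulVec e) (x j w) := by
  ext s
  simp [g1_apply, Matrix.mulVec, dotProduct, Finset.sum_smul, smul_smul]

theorem g1_sq {x : Fin 9 → S →L[ℝ] S} (h : ∀ i j, Commute (x i) (x j)) :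
    g1 G x * g1 G x = lift (∑ j, x j * x j) := by
  have h1 : g1 G x * g1 G x = ∑ i, ∑ j, ml (G.g i * G.g j) (x i * x j) := by
    simp only [g1, Finset.sum_mul_sum, ml_mul]
  have h2 : g1 G x * g1 G x = ∑ i, ∑ j, ml (G.g j * G.g i) (x i * x j) := by
    rw [h1, Finset.sum_comm]
    exact Finset.sum_congr rfl fun i _ => Finset.sum_congr rfl fun j _ => by rw [(h j i).eq]
  have h3 : g1 G x * g1 G x + g1 G x * g1 G x = lift (∑ j, x j * x j) + lift (∑ j, x j * x j) := by
    nth_rw 1 [h1]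
    rw [h2, ← Finset.sum_add_distrib]
    simp only [← Finset.sum_add_distrib, ← ml_add_left, G.cl]
    have h4 : ∀ i j, ml (if i = j then (2 : ℝ) • (1 : M16) else 0) (x i * x j) =
        if i = j then lift (x i * x j) + lift (x i * x j) else 0 := by
      intro i j
      split_ifs
      · rw [two_smul, ml_add_left, ml_one_left]
      · ext u s
        simp [ml_apply]
    simp only [h4, Finset.sum_ite_eq, Finset.mem_univ, if_true]
    ext u s
    simp [Finset.sum_add_distrib]
  rw [← two_smul ℝ, ← two_smul ℝ] at h3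
  exact smul_right_injective _ (two_ne_zero) h3

variable [FiniteDimensional ℝ S]

/-- the trace as an additive map -/
def trh (S : Type) [NormedAddCommGroup S] [InnerProductSpace ℝ S] [FiniteDimensional ℝ S] :
    (S →L[ℝ] S) →+ ℝ :=
  AddMonoidHom.mk' tr fun A B => by simp [tr]

theorem trh_apply (A : S →L[ℝ] S) : trh S A = tr A := rfl

theorem tr_sum {ι : Type} (s : Finset ι) (A : ι → S →L[ℝ] S) :
    tr (∑ i ∈ s, A i) = ∑ i ∈ s, tr (A i) := map_sum (trh S) A s

theorem tr_ml {n : ℕ} (N : Matrix (Fin n) (Fin n) ℝ) (B : S →L[ℝ] S) :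
    tr (ml N B) = N.trace * tr B := tr_mat_lift N B

theorem tr_g1 (x : Fin 9 → S →L[ℝ] S) : tr (g1 G x) = 0 := by
  simp only [g1, tr_sum, tr_ml, G.tr1, zero_mul, Finset.sum_const_zero]

theorem tr_g1_mat {x : Fin 9 → S →L[ℝ] S} (h : ∀ j, tr (x j) = 0) (N : M16) :
    tr (g1 G x * mat N) = 0 := by
  simp only [g1, Finset.sum_mul, ← ml_one_right, ml_mul, tr_sum, tr_ml, mul_one, h, mul_zero,
    Finset.sum_const_zero]

theorem tr_g3 (x y z : Fin 9 → S →L[ℝ] S) : tr (g1 G x * (g1 G y * g1 G z)) = 0 := by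
  simp only [g1, Finset.sum_mul, Finset.mul_sum, ml_mul, tr_sum, tr_ml, ← mul_assoc, G.tr3, zero_mul,
    Finset.sum_const_zero]

theorem left_inv {A R : S →L[ℝ] S} (h : A * R = 1) : R * A = 1 := by
  have h1 : Function.Surjective A.toLinearMap := fun y =>
    ⟨R y, congrArg (fun T : S →L[ℝ] S => T y) h⟩
  have h2 := LinearMap.injective_iff_surjective.2 h1
  ext x
  refine h2 ?_
  exact congrArg (fun T : S →L[ℝ] S => T (A x)) h

theorem unit_of_lift {D : S →L[ℝ] S} {Q : SS S →L[ℝ] SS S} (h : Q * lift D = 1) : IsUnit D := by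
  have := FiniteDimensional.complete ℝ S
  have h1 : Function.Injective D.toLinearMap := by
    rw [← LinearMap.ker_eq_bot, LinearMap.ker_eq_bot']
    intro w hw
    have hw' : D w = 0 := hw
    have h2 := congrArg (fun T : SS S →L[ℝ] SS S => T (tens (fun _ => 1) w) 0) h
    have h3 : lift D (tens (fun _ : Fin 16 => (1 : ℝ)) w) = 0 := by
      ext s
      simp [hw']
    simpa [h3] using h2.symm
  exact ContinuousLinearMap.isUnit_iff_bijective.2 ⟨h1, LinearMap.injective_iff_surjective.1 h1⟩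

end BC2
end Vale.Agent.P353
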