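import Vale.Agent.P353.BCen
import Vale.Agent.P353.BCen2x

open MeasureTheory NormedSpace
open Complex (I)
open scoped InnerProductSpace ContDiff

noncomputable section
namespace Vale.Agent.P353
variable {V : Type} [NormedAddCommGroup V] [InnerProductSpace ℝ V] [FiniteDimensional ℝ V]
  {L : CL V} (pt : Patch L) (G : Gam)

/-! Vanishing traces at central points. -/
namespace Patch
variable {d : ℝ} {Y : EE pt.l}

open BC2

/-- the bicommutant of the `M_i` -/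
def Bi (Y : EE pt.l) (B : pt.lᗮ →L[ℝ] pt.lᗮ) : Prop :=
  ∀ T : pt.lᗮ →L[ℝ] pt.lᗮ, (∀ i, Commute T (pt.Mi Y i)) → Commute T B

/-- the coefficients of `J` -/
def nJ (Y : EE pt.l) (j : Fin 9) : pt.lᗮ →L[ℝ] pt.lᗮ := -(pt.Mi Y j * Ring.inverse (pt.Om Y))

theorem bi_Mi (i : Fin 9) : pt.Bi Y (pt.Mi Y i) := fun _ h => h i

theorem Bi.mul {A B : pt.lᗮ →L[ℝ] pt.lᗮ} (hA : pt.Bi Y A) (hB : pt.Bi Y B) : pt.Bi Y (A * B) :=
  fun T h => (hA T h).mul_right (hB T h)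

theorem Bi.neg {A : pt.lᗮ →L[ℝ] pt.lᗮ} (hA : pt.Bi Y A) : pt.Bi Y (-A) :=
  fun T h => (hA T h).neg_right

theorem Bi.inv {A : pt.lᗮ →L[ℝ] pt.lᗮ} (hA : pt.Bi Y A) (hu : IsUnit A) :
    pt.Bi Y (Ring.inverse A) := fun T h => comm_inv (hA T h) hu

theorem bi_Mv : pt.Bi Y (pt.Mv Y) := fun T h => by
  rw [pt.Mv_eq]
  exact Commute.sum_right _ _ _ fun i _ => comm_smul (h i) _

theorem bi_Om (hd : 0 < d) (h : ∀ w, d * ‖w‖ ≤ ‖pt.Mv Y w‖) : pt.Bi Y (pt.Om Y) := fun T hT => by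
  have h1 := (pt.Om_spec hd.le h).1
  have h2 : Pos 0 (-∑ i, pt.Mi Y i * pt.Mi Y i) :=
    ⟨h1.1, fun u => le_trans (by rw [zero_mul]; positivity) (h1.2 u)⟩
  have h3 : Commute T (-∑ i, pt.Mi Y i * pt.Mi Y i) :=
    (Commute.sum_right _ _ _ fun i _ => (hT i).mul_right (hT i)).neg_right
  ext1 u
  exact (psq_intertwine h2 h2 T (fun u => congrArg (fun A : pt.lᗮ →L[ℝ] pt.lᗮ => A u) h3.symm.eq)
    u).symm

theorem Om_unit (hd : 0 < d) (h : ∀ w, d * ‖w‖ ≤ ‖pt.Mv Y w‖) :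
    IsUnit (pt.Om Y) ∧ Symm (Ring.inverse (pt.Om Y)) :=
  ⟨((pt.Om_spec hd.le h).2.1.isUnit hd).1, ((pt.Om_spec hd.le h).2.1.isUnit hd).2.2.1⟩

theorem bi_Oi (hd : 0 < d) (h : ∀ w, d * ‖w‖ ≤ ‖pt.Mv Y w‖) :
    pt.Bi Y (Ring.inverse (pt.Om Y)) := (pt.bi_Om hd h).inv pt (pt.Om_unit hd h).1

theorem bi_Xi (hd : 0 < d) (h : ∀ w, d * ‖w‖ ≤ ‖pt.Mv Y w‖) : pt.Bi Y (pt.Xi Y) :=
  (pt.bi_Mv.inv pt (pt.Mv_unit hd h).1).neg pt

theorem bi_nJ (hd : 0 < d) (h : ∀ w, d * ‖w‖ ≤ ‖pt.Mv Y w‖) (j : Fin 9) : pt.Bi Y (pt.nJ Y j) :=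
  ((pt.bi_Mi j).mul pt (pt.bi_Oi hd h)).neg pt

theorem skew_Xi (hd : 0 < d) (h : ∀ w, d * ‖w‖ ≤ ‖pt.Mv Y w‖) : Skew (pt.Xi Y) :=
  skew_neg (skew_inv (pt.skew_adm _) (pt.Mv_unit hd h).1)

theorem Cen.bi_adm (hY : pt.Cen Y) {B : pt.lᗮ →L[ℝ] pt.lᗮ} (hB : pt.Bi Y B) {a : V}
    (ha : a ∈ pt.l) : Commute (pt.adm a) B :=
  hB _ fun i => (Cen.comm_adm pt hY i ha).symm

theorem Cen.bi_comm (hY : pt.Cen Y) {A B : pt.lᗮ →L[ℝ] pt.lᗮ} (hA : pt.Bi Y A) (hB : pt.Bi Y B) :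
    Commute A B :=
  hB _ fun i => (Cen.bi_adm pt hY hA (Y i).2).symm

theorem Cen.bi_comm2 {Y' : EE pt.l} (hY : pt.Cen Y) {A B : pt.lᗮ →L[ℝ] pt.lᗮ} (hA : pt.Bi Y A)
    (hB : pt.Bi Y' B) : Commute A B :=
  hB _ fun i => (Cen.bi_adm pt hY hA (Y' i).2).symm

theorem Cen.skew_nJ (hY : pt.Cen Y) (hd : 0 < d) (h : ∀ w, d * ‖w‖ ≤ ‖pt.Mv Y w‖) (j : Fin 9) :
    Skew (pt.nJ Y j) :=
  skew_neg (skew_mul (pt.skew_Mi Y j) (pt.Om_unit hd h).2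
    (Cen.bi_comm pt hY (pt.bi_Mi j) (pt.bi_Oi hd h)).eq)

theorem Cen.J_g1 (hY : pt.Cen Y) (hd : 0 < d) (h : ∀ w, d * ‖w‖ ≤ ‖pt.Mv Y w‖) :
    pt.J G Y = g1 G (pt.nJ Y) := by
  rw [Cen.J_eq pt G hY hd h]
  exact g1_neg G _

/-- traces over the heavy directions -/
theorem sum_heavy {C : pt.lᗮ →L[ℝ] pt.lᗮ} (hC : tr C = 0) (i l : Fin 9) :
    ∑ k, ⟪pt.inc (pt.bH k) i, C (pt.inc (pt.bH k) l)⟫_ℝ = 0 := by
  have h1 : ∀ z : pt.HT, ⟪pt.inc z i, C (pt.inc z l)⟫_ℝ =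
      ⟪z, (pt.prj ∘L (ml (Matrix.single i l 1) C ∘L pt.inc)) z⟫_ℝ := by
    intro z
    rw [real_inner_comm _ z, ContinuousLinearMap.comp_apply, pt.inner_prj, real_inner_comm,
      PiLp.inner_apply, Finset.sum_eq_single i]
    · simp [ml_apply, Matrix.single_apply]
    · intro b _ hb
      simp [ml_apply, Matrix.single_apply, hb.symm]
    · simp
  have h2 : pt.inc ∘L pt.prj = ml (1 - Matrix.vecMulVec pt.v pt.v) 1 := by
    ext1 y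
    rw [ContinuousLinearMap.comp_apply, pt.inc_prj]
    ext1 s
    simp [ml_apply, Matrix.vecMulVec_apply, sub_smul, Matrix.one_apply, Finset.smul_sum, smul_smul,
      mul_comm]
  simp only [h1]
  rw [← tr_eq_sum]
  have h3 : tr (pt.prj ∘L (ml (Matrix.single i l 1) C ∘L pt.inc)) =
      tr ((ml (Matrix.single i l 1) C ∘L pt.inc) ∘L pt.prj) :=
    LinearMap.trace_comp_comm' (ml (Matrix.single i l 1) C ∘L pt.inc).toLinearMap pt.prj.toLinearMap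
  rw [h3, ContinuousLinearMap.comp_assoc, h2]
  change tr (ml _ C * ml _ 1) = 0
  rw [ml_mul, tr_ml, mul_one, hC, mul_zero]

/-- the explicit inverse of `WH` -/
theorem Cen.WH_inv (hY : pt.Cen Y) (hd : 0 < d) (h : ∀ w, d * ‖w‖ ≤ ‖pt.Mv Y w‖) (z : pt.HT)
    (j : Fin 9) : pt.inc (Ring.inverse (pt.WH Y) z) j = Ring.inverse (pt.Om Y) (pt.inc z j) +
      ∑ l, (Ring.inverse (pt.Om Y) * (pt.Mi Y j * pt.Xi Y + pt.v j • 1) * (pt.Xi Y * pt.Mi Y l))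
        (pt.inc z l) := by
  set Oi := Ring.inverse (pt.Om Y) with hOi
  set u := pt.Mb Y (pt.inc z) with hu
  have hu' : u = ∑ i, pt.Mi Y i (pt.inc z i) := pt.Mb_apply Y _
  have hO1 : ∀ w, pt.Om Y (Oi w) = w := fun w =>
    congrArg (fun T : pt.lᗮ →L[ℝ] pt.lᗮ => T w) (Ring.mul_inverse_cancel _ (pt.Om_unit hd h).1)
  have hO2 : ∀ w, Oi (pt.Om Y w) = w := fun w =>
    congrArg (fun T : pt.lᗮ →L[ℝ] pt.lᗮ => T w) (Ring.inverse_mul_cancel _ (pt.Om_unit hd h).1)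
  have hMO : ∀ i w, pt.Mi Y i (Oi w) = Oi (pt.Mi Y i w) := fun i w =>
    congrArg (fun T : pt.lᗮ →L[ℝ] pt.lᗮ => T w)
      (Cen.bi_comm pt hY (pt.bi_Mi i) (pt.bi_Oi hd h)).eq
  have hv : ∀ w, ∑ i, pt.v i • pt.Mi Y i w = pt.Mv Y w := fun w => by
    rw [pt.Mv_eq]; simp
  have hX : ∀ w, pt.Mv Y (pt.Xi Y w) = -w := (pt.Mv_unit hd h).2.2
  have hOO : ∀ w, ∑ i, pt.Mi Y i (pt.Mi Y i w) = -pt.Om Y (pt.Om Y w) := fun w => by
    have := congrArg (fun T : pt.lᗮ →L[ℝ] pt.lᗮ => T w) (pt.Om_spec hd.le h).2.2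
    simp only [ContinuousLinearMap.mul_def, ContinuousLinearMap.comp_apply, neg_apply,
      ContinuousLinearMap.sum_apply] at this
    rw [this, neg_neg]
  have hz : ∑ i, pt.v i • pt.inc z i = 0 := by
    rw [← contr_apply]; exact pt.contr_inc z
  have hvv : ∑ i, pt.v i * pt.v i = 1 := pt.unit
  let y : EE pt.lᗮ := WithLp.toLp 2 fun i =>
    Oi (pt.inc z i + (pt.Mi Y i (pt.Xi Y (pt.Xi Y u)) + pt.v i • pt.Xi Y u))
  have hy : ∀ i, y i = Oi (pt.inc z i + (pt.Mi Y i (pt.Xi Y (pt.Xi Y u)) + pt.v i • pt.Xi Y u)) :=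
    fun i => rfl
  have h1 : contr pt.v y = 0 := by
    rw [contr_apply]
    simp only [hy, ← map_smul Oi, ← map_sum Oi, smul_add, Finset.sum_add_distrib, hz, hv, hX,
      smul_smul, ← Finset.sum_smul, hvv, one_smul, neg_add_cancel, add_zero, map_zero]
  have h2 : pt.inc (pt.prj y) = y := by
    rw [pt.inc_prj, h1, map_zero, sub_zero]
  have h3 : pt.Mb Y y = -pt.Om Y (pt.Xi Y (pt.Xi Y u)) := by
    rw [pt.Mb_apply]
    simp only [hy, hMO, ← map_sum Oi, map_add (pt.Mi Y _), map_smul (pt.Mi Y _),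
      Finset.sum_add_distrib, ← hu', hv, hX, hOO]
    rw [show u + (-pt.Om Y (pt.Om Y (pt.Xi Y (pt.Xi Y u))) + -u) =
      -pt.Om Y (pt.Om Y (pt.Xi Y (pt.Xi Y u))) by abel, map_neg, hO2]
  have h4 : pt.W Y y = pt.inc z + tens pt.v (pt.Xi Y u) := by
    ext1 i
    have h5 : pt.W Y y i = pt.Om Y (y i) - (pt.Mb Y).adjoint (Oi (pt.Mb Y y)) i := rfl
    rw [h5, pt.Mb_adj, h3, map_neg, hO2, hy, hO1, map_neg, neg_neg]
    simp only [PiLp.add_apply, tens_apply]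
    abel
  have h5 : pt.prj (tens pt.v (pt.Xi Y u)) = 0 := by
    have h6 : pt.inc (pt.prj (tens pt.v (pt.Xi Y u))) = 0 := by
      rw [pt.inc_prj, contr_apply]
      simp only [tens_apply, smul_smul, ← Finset.sum_smul, hvv, one_smul, sub_self]
    rw [← pt.prj_inc (pt.prj _), h6, map_zero]
  have h6 : pt.WH Y (pt.prj y) = z := by
    change pt.prj (pt.W Y (pt.inc (pt.prj y))) = z
    rw [h2, h4, map_add, h5, add_zero, pt.prj_inc]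
  obtain ⟨c, hc, hW⟩ := Cen.wh_pos pt hY hd h
  have h7 : Ring.inverse (pt.WH Y) z = pt.prj y := by
    rw [← h6]
    exact congrArg (fun T : pt.HT →L[ℝ] pt.HT => T (pt.prj y))
      (Ring.inverse_mul_cancel _ (hW.isUnit hc).1)
  rw [h7, h2, hy, map_add, hu']
  simp [map_sum, Finset.sum_add_distrib, Finset.smul_sum]

/-- the covariance of the heavy Gaussian has symmetric blocks:
`(WH⁻¹ z)_i = Ω⁻¹ (z_i + (M_i - v_i M_v) M_v⁻² ∑ M_j z_j)` -/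
theorem Cen.cov_skew (hY : pt.Cen Y) (hd : 0 < d) (h : ∀ w, d * ‖w‖ ≤ ‖pt.Mv Y w‖) {a : V}
    (ha : a ∈ pt.l) (i j : Fin 9) :
    ∑ k, ⟪a, L.br (pt.inc (pt.bH k) i) (pt.inc (Ring.inverse (pt.WH Y) (pt.bH k)) j)⟫_ℝ = 0 := by
  have h1 : ∀ x y : pt.lᗮ, ⟪a, L.br x y⟫_ℝ = -⟪x, pt.adm a y⟫_ℝ := by
    intro x y
    rw [Submodule.coe_inner, pt.adm_apply ha, real_inner_comm, L.skew, inner_neg_left, L.inv,
      L.skew a, inner_neg_right]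
  have h2 : ∀ B, pt.Bi Y B → Symm B → tr (pt.adm a * B) = 0 := fun B hB hs => by
    rw [tr_mul_comm]; exact tr_symm_mul_skew hs (pt.skew_adm a)
  have bO := pt.bi_Oi hd h
  have bX := pt.bi_Xi hd h
  have sO := (pt.Om_unit hd h).2
  have sX := pt.skew_Xi hd h
  have h3 : ∀ l, tr (pt.adm a * (Ring.inverse (pt.Om Y) * (pt.Mi Y j * pt.Xi Y + pt.v j • 1) *
      (pt.Xi Y * pt.Mi Y l))) = 0 := by
    intro l
    have b1 := (pt.bi_Mi j).mul pt bX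
    have b2 := bX.mul pt (pt.bi_Mi l)
    have b3 : pt.Bi Y (pt.Mi Y j * pt.Xi Y + pt.v j • 1) := fun T hT =>
      (b1 T hT).add_right (comm_smul (Commute.one_right T) _)
    have s1 := symm_mul (pt.skew_Mi Y j) sX (Cen.bi_comm pt hY (pt.bi_Mi j) bX).eq
    have s2 := symm_mul sX (pt.skew_Mi Y l) (Cen.bi_comm pt hY bX (pt.bi_Mi l)).eq
    have s3 : Symm (pt.Mi Y j * pt.Xi Y + pt.v j • 1) := fun u w => by
      simp only [add_apply, smul_apply, one_apply_eq_self, inner_add_left, inner_add_right, s1 u w,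
        real_inner_smul_left, real_inner_smul_right]
    have k1 := skew_mul (pt.skew_adm a) sO (Cen.bi_adm pt hY bO ha).eq
    have k2 := skew_mul k1 s3
      ((Cen.bi_adm pt hY b3 ha).mul_left (Cen.bi_comm pt hY bO b3)).eq
    have k3 := tr_symm_mul_skew s2 k2
    rw [tr_mul_comm] at k3
    simpa only [mul_assoc] using k3
  simp only [h1, Cen.WH_inv pt hY hd h, map_add (pt.adm a), map_sum (pt.adm a), inner_add_right,
    inner_sum, Finset.sum_neg_distrib, Finset.sum_add_distrib, neg_eq_zero]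
  rw [Finset.sum_comm]
  exact (congrArg₂ (· + ·) (pt.sum_heavy (h2 _ bO sO) i j)
    (Finset.sum_eq_zero fun l _ => pt.sum_heavy (h3 l) i l)).trans (add_zero 0)
theorem Cen.tr_J_mat (hY : pt.Cen Y) (hd : 0 < d) (h : ∀ w, d * ‖w‖ ≤ ‖pt.Mv Y w‖) {N : M16}
    (hN : N.transpose = -N) : tr (pt.J G Y * mat N) = 0 := by
  have _ := hN
  rw [Cen.J_g1 pt G hY hd h]
  exact tr_g1_mat G (fun j => tr_skew (Cen.skew_nJ pt hY hd h j)) N
theorem Cen.tr_J_lift (hY : pt.Cen Y) (hd : 0 < d) (h : ∀ w, d * ‖w‖ ≤ ‖pt.Mv Y w‖)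
    (A : pt.lᗮ →L[ℝ] pt.lᗮ) : tr (pt.J G Y * lift A) = 0 := by
  rw [Cen.J_g1 pt G hY hd h, g1_lift]
  exact tr_g1 G _
theorem Cen.J_comm (hY : pt.Cen Y) (hd : 0 < d) (h : ∀ w, d * ‖w‖ ≤ ‖pt.Mv Y w‖) {a : V}
    (ha : a ∈ pt.l) : pt.J G Y * lift (pt.adm a) = lift (pt.adm a) * pt.J G Y := by
  rw [Cen.J_g1 pt G hY hd h]
  exact g1_comm G fun j => Cen.bi_adm pt hY (pt.bi_nJ hd h j) ha
/-- the term with `J` in the mixed part of the gauge generator -/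
theorem Cen.mixed (hY : pt.Cen Y) (hd : 0 < d) (h : ∀ w, d * ‖w‖ ≤ ‖pt.Mv Y w‖) (e e' : R16) {a : V}
    (ha : a ∈ pt.l) : ∑ k, ⟪G.psi e (tens pt.v (pt.bm k)),
      pt.J G Y (tens e' (pt.adm a (pt.Xi Y (pt.bm k))))⟫_ℝ = 0 := by
  have h1 : ∀ j, ∑ k, ⟪pt.bm k, pt.nJ Y j (pt.adm a (pt.Xi Y (pt.bm k)))⟫_ℝ = 0 := by
    intro j
    have s1 := symm_mul (pt.skew_Xi hd h) (Cen.skew_nJ pt hY hd h j)
      (Cen.bi_comm pt hY (pt.bi_Xi hd h) (pt.bi_nJ hd h j)).eq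
    have s2 := tr_symm_mul_skew s1 (pt.skew_adm a)
    rw [mul_assoc, tr_mul_comm, tr_eq_sum pt.bm] at s2
    exact s2
  have hp : ∀ y : EE pt.lᗮ, G.psi e y = ∑ i, tens ((G.g i).mulVec e) (y i) := amod0_psi G e
  simp only [Cen.J_g1 pt G hY hd h, g1_tens, hp, sum_inner, inner_sum, amod0_tens, tens_apply,
    real_inner_smul_left]
  rw [Finset.sum_comm]
  refine Finset.sum_eq_zero fun j _ => ?_
  rw [Finset.sum_comm]
  refine Finset.sum_eq_zero fun i _ => ?_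
  rw [← Finset.mul_sum, ← Finset.mul_sum, h1, mul_zero, mul_zero]
/-- no Berry phase.  `J'` is the derivative of `J` in the direction `a`; it is only used through
`J J' = - J' J` and the derivative of `J Γ = Γ J`. -/
theorem Cen.berry (hY : pt.Cen Y) (hd : 0 < d) (h : ∀ w, d * ‖w‖ ≤ ‖pt.Mv Y w‖)
    (h0 : ∀ w, d * ‖w‖ ≤ ‖pt.Mv pt.p0 w‖) (a : EE pt.l) {J' R : SS pt.lᗮ →L[ℝ] SS pt.lᗮ}
    (h1 : pt.J G Y * J' = -(J' * pt.J G Y))
    (h2 : J' * pt.Ga G Y + pt.J G Y * pt.Ga G a = pt.Ga G a * pt.J G Y + pt.Ga G Y * J')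
    (hR : (pt.J G Y + pt.J G pt.p0) * R = 1) : tr (pt.J G Y * J' * R) = 0 := by
  have hp := pt.cen_p0
  obtain ⟨c1, -, c2, c3⟩ := pt.J_spec G hd (Cen.ga_pos pt G hY hd h)
  have c0 := (pt.J_spec G hd (Cen.ga_pos pt G hp hd h0)).1
  rw [Cen.aGa pt G hY] at c2 c3
  have hu := (pt.Om_unit hd h).1
  have hR2 := left_inv hR
  have c4 : pt.J G pt.p0 * lift (pt.Om Y) = lift (pt.Om Y) * pt.J G pt.p0 := by
    rw [Cen.J_g1 pt G hp hd h0]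
    exact g1_comm G fun j => Cen.bi_comm2 pt hY (pt.bi_Om hd h) (pt.bi_nJ hd h0 j)
  have key := berry_abs (trh (SS pt.lᗮ)) tr_mul_comm (Oi := lift (Ring.inverse (pt.Om Y))) c1.2 c0.2
    c2 c3 c4 (by rw [lift_mul', Ring.mul_inverse_cancel _ hu, lift_one'])
    (by rw [lift_mul', Ring.inverse_mul_cancel _ hu, lift_one']) h1 h2 hR hR2
  rw [Cen.J_g1 pt G hY hd h, Cen.J_g1 pt G hp hd h0, g1_add] at hR hR2
  have hc : ∀ i j, Commute (pt.nJ Y i + pt.nJ pt.p0 i) (pt.nJ Y j + pt.nJ pt.p0 j) := fun i j =>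
    ((Cen.bi_comm pt hY (pt.bi_nJ hd h i) (pt.bi_nJ hd h j)).add_right
      (Cen.bi_comm2 pt hY (pt.bi_nJ hd h i) (pt.bi_nJ hd h0 j))).add_left
      ((Cen.bi_comm2 pt hp (pt.bi_nJ hd h0 i) (pt.bi_nJ hd h j)).add_right
        (Cen.bi_comm pt hp (pt.bi_nJ hd h0 i) (pt.bi_nJ hd h0 j)))
  have hs := g1_sq G hc
  set D := ∑ j, (pt.nJ Y j + pt.nJ pt.p0 j) * (pt.nJ Y j + pt.nJ pt.p0 j) with hD
  have hQ : R * R * lift D = 1 := by
    rw [← hs, mul_assoc, ← mul_assoc R (g1 G _), hR2, one_mul, hR2]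
  have hRR : R * R = lift (Ring.inverse D) := by
    rw [← mul_one (R * R), ← lift_one', ← Ring.mul_inverse_cancel D (unit_of_lift hQ), ← lift_mul',
      ← mul_assoc, hQ, one_mul]
  have hG : pt.Ga G a = g1 G (pt.Mi a) := rfl
  rw [trh_apply, trh_apply, hRR, hG] at key
  conv_rhs at key =>
    rw [Cen.J_g1 pt G hY hd h, Cen.J_g1 pt G hp hd h0, g1_add, g1_sub, g1_lift, g1_lift, tr_g3]
  linarith
end Patch

end Vale.Agent.P353
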