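import Vale.Agent.P353.BObj

open scoped InnerProductSpace

noncomputable section
namespace Vale.Agent.P353
variable {S : Type} [NormedAddCommGroup S] [InnerProductSpace ℝ S]

/-! Linear algebra for the identities at central points. -/

theorem bcen_pos {n : ℕ} {c : ℝ} {A : S →L[ℝ] S} (h : Pos c A) : Pos c (lift (n := n) A) := by
  refine ⟨fun u v => ?_, fun u => ?_⟩
  · rw [PiLp.inner_apply, PiLp.inner_apply]
    exact Finset.sum_congr rfl fun i _ => h.1 _ _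
  · rw [PiLp.inner_apply, PiLp.norm_sq_eq_of_L2, Finset.mul_sum]
    exact Finset.sum_le_sum fun i _ => h.2 _

theorem bcen_inv {n : ℕ} {A : S →L[ℝ] S} (h : IsUnit A) :
    Ring.inverse (lift (n := n) A) = lift (Ring.inverse A) := by
  have h1 : lift (n := n) A * lift (Ring.inverse A) = 1 := by
    ext x i
    exact congrArg (fun B : S →L[ℝ] S => B (x i)) (Ring.mul_inverse_cancel A h)
  have h2 : lift (n := n) (Ring.inverse A) * lift A = 1 := by
    ext x i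
    exact congrArg (fun B : S →L[ℝ] S => B (x i)) (Ring.inverse_mul_cancel A h)
  exact Ring.inverse_unit ⟨_, _, h1, h2⟩

theorem bcen_tens {n : ℕ} (v : Fin n → ℝ) (y : PiLp 2 fun _ : Fin n => S) (w : S) :
    ⟪y, tens v w⟫_ℝ = ⟪contr v y, w⟫_ℝ := by
  rw [PiLp.inner_apply, contr_apply, sum_inner]
  exact Finset.sum_congr rfl fun i _ => by
    rw [tens_apply, real_inner_smul_right, real_inner_smul_left]

theorem bcen_id {ι : Type} [Fintype ι] {M : ι → S →L[ℝ] S} (hs : ∀ i, Skew (M i))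
    (hc : ∀ i j w, M i (M j w) = M j (M i w)) (y : ι → S) :
    ∑ i, ∑ j, ‖M i (y j) - M j (y i)‖ ^ 2 =
      2 * ∑ j, ∑ i, ‖M i (y j)‖ ^ 2 - 2 * ‖∑ i, M i (y i)‖ ^ 2 := by
  have h1 : ∀ i j, ⟪M i (y j), M j (y i)⟫_ℝ = ⟪M j (y j), M i (y i)⟫_ℝ := fun i j => by
    rw [hs, hc, hs j]
  have h2 : ‖∑ i, M i (y i)‖ ^ 2 = ∑ i, ∑ j, ⟪M i (y j), M j (y i)⟫_ℝ := by
    rw [← real_inner_self_eq_norm_sq, inner_sum]
    exact Finset.sum_congr rfl fun i _ =>
      (sum_inner _ _ _).trans (Finset.sum_congr rfl fun j _ => (h1 i j).symm)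
  simp only [norm_sub_sq_real, Finset.sum_add_distrib, Finset.sum_sub_distrib,
    ← Finset.mul_sum]
  rw [h2, Finset.sum_comm (f := fun i j => ‖M i (y j)‖ ^ 2)]
  ring

theorem bcen_sq {ι : Type} [Fintype ι] {M : ι → S →L[ℝ] S} (hs : ∀ i, Skew (M i))
    {O : S →L[ℝ] S} (hO : Symm O) (h : O * O = -∑ i, M i * M i) (w : S) :
    ‖O w‖ ^ 2 = ∑ i, ‖M i w‖ ^ 2 := by
  have h1 : O (O w) = -∑ i, M i (M i w) := by
    have h2 := congrArg (fun B : S →L[ℝ] S => B w) h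
    simp only [neg_apply, sum_apply] at h2
    exact h2
  rw [← real_inner_self_eq_norm_sq, hO, h1, inner_neg_right, inner_sum, ← Finset.sum_neg_distrib]
  exact Finset.sum_congr rfl fun i _ => by rw [← hs, real_inner_self_eq_norm_sq]

theorem bcen_anti {ι : Type} [Fintype ι] (A : ι → ι → S) (hA : ∀ i j, A j i = -A i j)
    {v : ι → ℝ} (hv : v ⬝ᵥ v = 1) :
    2 * ∑ j, ‖∑ i, v i • A i j‖ ^ 2 ≤ ∑ i, ∑ j, ‖A i j‖ ^ 2 := by
  obtain ⟨b, hb⟩ : ∃ b : ι → S, ∀ j, b j = ∑ i, v i • A i j := ⟨_, fun _ => rfl⟩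
  have h1 : ∑ i, ∑ j, ⟪A i j, v i • b j⟫_ℝ = ∑ j, ‖b j‖ ^ 2 := by
    rw [Finset.sum_comm]
    refine Finset.sum_congr rfl fun j _ => ?_
    rw [← real_inner_self_eq_norm_sq]
    conv_rhs => rw [hb j, sum_inner, ← hb j]
    exact Finset.sum_congr rfl fun i _ => by rw [real_inner_smul_right, real_inner_smul_left]
  have h2 : ∑ i, ∑ j, ⟪A i j, v j • b i⟫_ℝ = -∑ j, ‖b j‖ ^ 2 := by
    rw [← h1, Finset.sum_comm, ← Finset.sum_neg_distrib]
    refine Finset.sum_congr rfl fun i _ => ?_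
    rw [← Finset.sum_neg_distrib]
    exact Finset.sum_congr rfl fun j _ => by rw [hA, inner_neg_left]
  have h3 : ∑ i, ∑ j, ‖v i • b j‖ ^ 2 = ∑ j, ‖b j‖ ^ 2 := by
    simp only [norm_smul, mul_pow, Real.norm_eq_abs, sq_abs, ← Finset.mul_sum, ← Finset.sum_mul]
    rw [show ∑ i, v i ^ 2 = 1 by simpa only [dotProduct, sq] using hv, one_mul]
  have h4 : ∑ i, ∑ j, ⟪v i • b j, v j • b i⟫_ℝ = ‖∑ i, v i • b i‖ ^ 2 := by
    rw [← real_inner_self_eq_norm_sq, inner_sum]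
    refine Finset.sum_congr rfl fun i _ => ?_
    rw [sum_inner]
    refine Finset.sum_congr rfl fun j _ => ?_
    simp only [real_inner_smul_left, real_inner_smul_right]
    ring
  have h5 : 0 ≤ ∑ i, ∑ j, ‖A i j - (v i • b j - v j • b i)‖ ^ 2 := by positivity
  simp only [norm_sub_sq_real, inner_sub_right, Finset.sum_add_distrib, Finset.sum_sub_distrib,
    ← Finset.mul_sum] at h5
  rw [h1, h2, h3, h4, Finset.sum_comm (f := fun i j => ‖v j • b i‖ ^ 2), h3] at h5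
  simp only [← hb]
  linarith [sq_nonneg ‖∑ i, v i • b i‖]

theorem bcen_z (A : S →L[ℝ] S) (c : ℝ) {B : S →L[ℝ] S} (h : B = 0) : A - c • B = A := by
  rw [h, smul_zero, sub_zero]

theorem bcen_sub (A B : S →L[ℝ] S) : tr (A - B) = tr A - tr B :=
  map_sub (LinearMap.trace ℝ S) A.toLinearMap B.toLinearMap

variable [FiniteDimensional ℝ S]

theorem bcen_tr {n : ℕ} (A : S →L[ℝ] S) : tr (lift (n := n) A) = n * tr A := by
  have h := tr_mat_lift (1 : Matrix (Fin n) (Fin n) ℝ) A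
  have e : mat (1 : Matrix (Fin n) (Fin n) ℝ) ∘L lift A = lift A := by
    ext x i
    simp [Matrix.one_apply]
  rw [e, Matrix.trace_one, Fintype.card_fin] at h
  exact h

theorem bcen_cyc {S' : Type} [NormedAddCommGroup S'] [InnerProductSpace ℝ S']
    [FiniteDimensional ℝ S'] (A : S →L[ℝ] S') (B : S' →L[ℝ] S) : tr (A ∘L B) = tr (B ∘L A) :=
  LinearMap.trace_comp_comm' B.toLinearMap A.toLinearMap

end Vale.Agent.P353
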