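import Vale.Agent.P353.BCen

open MeasureTheory NormedSpace
open Complex (I)
open scoped InnerProductSpace ContDiff

noncomputable section
namespace Vale.Agent.P353
variable {V F : Type} [NormedAddCommGroup V] [InnerProductSpace ℝ V] [FiniteDimensional ℝ V]
  [NormedAddCommGroup F] [InnerProductSpace ℂ F] [CompleteSpace F] [FiniteDimensional ℂ F]
  (M : Mod V F) (G : Gam) (pt : Patch M.L)

section aux
variable {S : Type} [NormedAddCommGroup S] [InnerProductSpace ℝ S]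

theorem bdef_lift_le {n : ℕ} (g : S →L[ℝ] S) :
    ‖(lift g : PiLp 2 (fun _ : Fin n => S) →L[ℝ] PiLp 2 (fun _ : Fin n => S))‖ ≤ ‖g‖ := by
  refine ContinuousLinearMap.opNorm_le_bound _ (norm_nonneg g) fun x => ?_
  refine le_of_sq_le_sq ?_ (by positivity)
  rw [mul_pow, PiLp.norm_sq_eq_of_L2, PiLp.norm_sq_eq_of_L2, Finset.mul_sum]
  refine Finset.sum_le_sum fun i _ => ?_
  rw [← mul_pow]
  exact pow_le_pow_left₀ (norm_nonneg _) (g.le_opNorm _) 2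

theorem bdef_pos_lift {n : ℕ} {c : ℝ} {g : S →L[ℝ] S} [FiniteDimensional ℝ S] (h : Pos c g) :
    Pos c (lift g : PiLp 2 (fun _ : Fin n => S) →L[ℝ] PiLp 2 (fun _ : Fin n => S)) := by
  refine ⟨fun u v => ?_, fun u => ?_⟩
  · simp only [PiLp.inner_apply, lift_apply, h.1 _ _]
  · rw [PiLp.norm_sq_eq_of_L2, PiLp.inner_apply, Finset.mul_sum]
    exact Finset.sum_le_sum fun i _ => h.2 _

theorem bdef_mat_tens {n : ℕ} (N : Matrix (Fin n) (Fin n) ℝ) (e : Fin n → ℝ) (y : S) :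
    mat N (tens e y) = tens (N.mulVec e) y := by
  ext i
  simp [Matrix.mulVec, dotProduct, Finset.sum_smul, smul_smul]

theorem bdef_norm_tens {n : ℕ} {e : Fin n → ℝ} (he : e ⬝ᵥ e = 1) [FiniteDimensional ℝ S] (y : S) :
    ‖tens e y‖ = ‖y‖ := by
  borelize S
  rw [← sq_eq_sq₀ (norm_nonneg _) (norm_nonneg _), ← real_inner_self_eq_norm_sq, inner_tens, he,
    one_mul, real_inner_self_eq_norm_sq]

theorem bdef_norm_psi [FiniteDimensional ℝ S] (G : Gam) {e : R16} (he : e ⬝ᵥ e = 1) (y : EE S) :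
    ‖G.psi e y‖ = ‖y‖ := by
  borelize S
  rw [← sq_eq_sq₀ (norm_nonneg _) (norm_nonneg _), ← real_inner_self_eq_norm_sq, G.psi_inner he,
    real_inner_self_eq_norm_sq]

theorem bdef_psi [FiniteDimensional ℝ S] (G : Gam) (e : R16) (y : EE S) :
    G.psi e y = ∑ i, tens ((G.g i).mulVec e) (y i) := by
  borelize S
  exact G.psi_eq e y

theorem bdef_lift_tens {n : ℕ} (g : S →L[ℝ] S) (e : Fin n → ℝ) (a : S) :
    lift g (tens e a) = tens e (g a) := by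
  ext i
  simp

theorem bdef_sum0 {ι : Type} [Fintype ι] (T : ι → S →L[ℝ] S) (n : ι → ℝ) (h : ∀ i, ‖T i‖ ≤ n i) :
    ‖∑ i, T i‖ ≤ ∑ i, n i := norm_sum_le_of_le _ fun i _ => h i

theorem bdef_half {T : S →L[ℝ] S} {b : ℝ} (h : ‖T‖ ≤ 2 * b) : ‖(1 / 2 : ℝ) • T‖ ≤ b := by
  rw [norm_smul, Real.norm_of_nonneg one_half_pos.le]
  linarith

theorem bdef_sum_le {ι : Type} [Fintype ι] (N : ι → M16) {g : ι → S →L[ℝ] S} {b : ℝ}
    (h : ∀ i, ‖g i‖ ≤ b) : ‖∑ i, (mat (N i) : SS S →L[ℝ] SS S) ∘L lift (g i)‖ ≤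
      (∑ i, ‖(mat (N i) : SS S →L[ℝ] SS S)‖) * b := by
  rw [Finset.sum_mul]
  exact bdef_sum0 (S := SS S) _ _ fun j => (ContinuousLinearMap.opNorm_comp_le _ _).trans
    (mul_le_mul_of_nonneg_left ((bdef_lift_le _).trans (h j)) (ContinuousLinearMap.opNorm_nonneg _))

theorem bdef_sum_le2 (G : Gam) {g : Fin 9 → Fin 9 → S →L[ℝ] S} {b : ℝ} (h : ∀ i j, ‖g i j‖ ≤ 2 * b) :
    ‖(1 / 2 : ℝ) • ∑ i, ∑ j, (mat (G.g2 i j) : SS S →L[ℝ] SS S) ∘L lift (g i j)‖ ≤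
      (∑ i, ∑ j, ‖(mat (G.g2 i j) : SS S →L[ℝ] SS S)‖) * b := by
  have := bdef_sum0 (S := SS S) _ _ fun i => bdef_sum_le (G.g2 i) (h i)
  rw [← Finset.sum_mul, mul_left_comm] at this
  exact bdef_half (S := SS S) this

theorem bdef_lift_mul {n : ℕ} (g : S →L[ℝ] S) :
    (lift (g * g) : PiLp 2 (fun _ : Fin n => S) →L[ℝ] PiLp 2 (fun _ : Fin n => S)) =
      lift g * lift g := rfl

theorem bdef_abs [FiniteDimensional ℝ S] {A O Γ E J : S →L[ℝ] S} {d ε B : ℝ} (hd : 0 < d)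
    (hA : Pos d A) (hO : Pos d O) (hAA : A * A = -(Γ * Γ)) (hE : -(Γ * Γ) = O * O - E)
    (hJ : A * J = -Γ) (hε : ‖E‖ ≤ ε) (hB : ‖Γ‖ ≤ B) {t p s U : S} (h1 : Γ p = O s - t)
    (hU : U = O p + Γ s) :
    d * ‖t - J U‖ ≤ ε * ((2 * d)⁻¹ * ‖t‖ + d⁻¹ * B * ‖p‖ + ‖s‖) := by
  have a1 := sylvester hd hA hO (A - O)
  rw [show A * (A - O) + (A - O) * O = -E by
    rw [mul_sub, sub_mul, sub_add_sub_cancel, hAA, hE]; abel, norm_neg] at a1
  have a2 := sylvester hd hO hO (Γ * O - O * Γ)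
  rw [show O * (Γ * O - O * Γ) + (Γ * O - O * Γ) * O = Γ * E - E * Γ by
    rw [show E = O * O + Γ * Γ by rw [← sub_neg_eq_add, hE, sub_sub_cancel]]
    noncomm_ring] at a2
  have ε0 := (norm_nonneg _).trans hε
  have a3 : ‖Γ * E - E * Γ‖ ≤ 2 * (ε * B) := by
    have := (norm_mul_le Γ E).trans (mul_le_mul hB hε (norm_nonneg _) ((norm_nonneg _).trans hB))
    have := (norm_mul_le E Γ).trans (mul_le_mul hε hB (norm_nonneg _) ε0)
    linarith [norm_sub_le (Γ * E) (E * Γ)]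
  have e : A (t - J U) = (A - O) t + (Γ * O - O * Γ) p + E s := by
    have b1 := congrArg (fun T : S →L[ℝ] S => T U) hJ
    have b2 := congrArg (fun T : S →L[ℝ] S => T s) hE
    simp only [ContinuousLinearMap.mul_apply, ContinuousLinearMap.neg_apply,
      ContinuousLinearMap.sub_apply] at b1 b2 ⊢
    rw [map_sub, b1, hU, map_add, h1, map_sub, ← neg_neg (Γ (Γ s)), b2]
    abel
  have b1 : ‖(A - O) t‖ ≤ ε * ((2 * d)⁻¹ * ‖t‖) := by
    rw [← mul_assoc]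
    refine (A - O).le_of_opNorm_le ?_ t
    rw [← div_eq_mul_inv, le_div_iff₀' (by positivity)]
    linarith
  have b2 : ‖(Γ * O - O * Γ) p‖ ≤ ε * (d⁻¹ * B * ‖p‖) := by
    rw [← mul_assoc]
    refine (Γ * O - O * Γ).le_of_opNorm_le ?_ p
    rw [mul_left_comm, le_inv_mul_iff₀ hd]
    linarith
  have b3 := E.le_of_opNorm_le hε s
  have b4 := APsq.le_norm hA (t - J U)
  rw [e] at b4
  linarith [norm_add₃_le (a := (A - O) t) (b := (Γ * O - O * Γ) p) (c := E s)]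

theorem bdef_comm [FiniteDimensional ℝ S] {O : S →L[ℝ] S} {N : Fin 9 → S →L[ℝ] S} {d ε B : ℝ}
    (hd : 0 < d) (hO : Pos d O) (hOO : O * O = -∑ j, N j * N j)
    (hε : ∀ i j, ‖N i * N j - N j * N i‖ ≤ ε) (hB : ∀ i, ‖N i‖ ≤ B) (i : Fin 9) :
    ‖O * N i - N i * O‖ ≤ d⁻¹ * (9 * (B * ε)) := by
  have a1 := sylvester hd hO hO (O * N i - N i * O)
  rw [show O * (O * N i - N i * O) + (O * N i - N i * O) * O = O * O * N i - N i * (O * O) by
    noncomm_ring, hOO, neg_mul, mul_neg, Finset.sum_mul, Finset.mul_sum, neg_sub_neg,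
    ← Finset.sum_sub_distrib] at a1
  have B0 := (norm_nonneg _).trans (hB i)
  have a2 := (norm_sum_le _ _).trans (Finset.sum_le_card_nsmul Finset.univ
    (fun j => ‖N i * (N j * N j) - N j * N j * N i‖) (2 * (B * ε)) fun j _ => by
      rw [show N i * (N j * N j) - N j * N j * N i =
        (N i * N j - N j * N i) * N j + N j * (N i * N j - N j * N i) by noncomm_ring]
      have := (norm_mul_le _ _).trans (mul_le_mul (hε i j) (hB j) (norm_nonneg _)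
        ((norm_nonneg _).trans (hε i j)))
      have := (norm_mul_le _ _).trans (mul_le_mul (hB j) (hε i j) (norm_nonneg _) B0)
      linarith [norm_add_le ((N i * N j - N j * N i) * N j) (N j * (N i * N j - N j * N i))])
  rw [le_inv_mul_iff₀ hd]
  simp only [Finset.card_univ, Fintype.card_fin, nsmul_eq_mul, Nat.cast_ofNat] at a2
  linarith

theorem bdef_pi_le {y : EE S} {c : ℝ} (h : ∀ i, ‖y i‖ ≤ c) : ‖y‖ ≤ 3 * c := by
  have c0 := (norm_nonneg _).trans (h 0)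
  refine le_of_sq_le_sq ?_ (by positivity)
  rw [PiLp.norm_sq_eq_of_L2]
  refine (Finset.sum_le_card_nsmul _ _ (c ^ 2) fun i _ =>
    pow_le_pow_left₀ (norm_nonneg _) (h i) 2).trans (le_of_eq ?_)
  simp only [Finset.card_univ, Fintype.card_fin, nsmul_eq_mul, Nat.cast_ofNat]
  ring

end aux

namespace Patch
variable {L : CL V} (pt : Patch L)

theorem bdef_Ga_tens (X : EE pt.l) (e : R16) (w : pt.lᗮ) :
    pt.Ga G X (tens e w) = ∑ j, tens ((G.g j).mulVec e) (pt.Mi X j w) := by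
  simp only [Ga, ContinuousLinearMap.sum_apply, ContinuousLinearMap.comp_apply, bdef_lift_tens,
    bdef_mat_tens]

theorem bdef_Ga_psi (X : EE pt.l) (e : R16) (y : EE pt.lᗮ) :
    pt.Ga G X (G.psi e y) = tens e (pt.Mb X y) - pt.tt G e X y := by
  have h : ∀ i j, tens ((G.g i).mulVec ((G.g j).mulVec e)) (pt.Mi X i (y j)) =
      tens ((G.g2 i j).mulVec e) (pt.Mi X i (y j)) +
        if i = j then tens e (pt.Mi X i (y j)) else 0 := fun i j => by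
    rw [Matrix.mulVec_mulVec, G.mul_eq, Matrix.add_mulVec, Matrix.smul_mulVec, Matrix.one_mulVec]
    ext s : 1
    split_ifs <;> simp [add_smul]
  rw [bdef_psi, map_sum]
  simp only [bdef_Ga_tens, h, Finset.sum_add_distrib, Finset.sum_ite_eq', Finset.mem_univ, if_true]
  rw [Mb_apply, map_sum, tt, sub_neg_eq_add, add_comm, Finset.sum_comm]

theorem bdef_psi_W (X : EE pt.l) (e : R16) (y : EE pt.lᗮ) : G.psi e (pt.W X y) =
    lift (pt.Om X) (G.psi e y) + pt.Ga G X (tens e (Ring.inverse (pt.Om X) (pt.Mb X y))) := by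
  rw [bdef_psi, bdef_psi, map_sum, bdef_Ga_tens, ← Finset.sum_add_distrib]
  refine Finset.sum_congr rfl fun i _ => ?_
  rw [bdef_lift_tens, ← map_add, W, ContinuousLinearMap.sub_apply, PiLp.sub_apply, lift_apply,
    ContinuousLinearMap.comp_apply, Mb_adj, sub_neg_eq_add]
  rfl

theorem bdef_qq {d k : ℝ} (hd : 0 < d) {X : EE pt.l} (h : ∀ w, d * ‖w‖ ≤ ‖pt.Mv X w‖)
    (hk : ∀ i, ‖pt.Om X * pt.Mi X i - pt.Mi X i * pt.Om X‖ ≤ k) (z : pt.HT) :
    ‖pt.qq X z - pt.W X (pt.inc z)‖ ≤ 3 * (k * d⁻¹) * ‖z‖ := by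
  have k0 := (ContinuousLinearMap.opNorm_nonneg _).trans (hk 0)
  have e : pt.qq X z - pt.W X (pt.inc z) =
      -tens pt.v (contr pt.v (pt.W X (pt.inc z)) + (pt.T X).adjoint (pt.WH X z)) := by
    rw [qq, map_add, show pt.inc (pt.WH X z) = _ from pt.inc_prj (pt.W X (pt.inc z))]
    abel
  rw [e, norm_neg, bdef_norm_tens (Patch.unit pt)]
  generalize ha : contr pt.v (pt.W X (pt.inc z)) + (pt.T X).adjoint (pt.WH X z) = a
  have hz : ‖pt.inc z‖ = ‖z‖ := by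
    rw [← sq_eq_sq₀ (norm_nonneg _) (norm_nonneg _), ← real_inner_self_eq_norm_sq, inner_inc,
      real_inner_self_eq_norm_sq]
  have h1 : contr pt.v ((pt.Mb X).adjoint (pt.Xi X a)) = a := by
    have := (pt.Mv_unit hd h).2.2 a
    rw [Mv_eq, ContinuousLinearMap.sum_apply] at this
    simp only [contr_apply, Mb_adj, smul_neg, Finset.sum_neg_distrib]
    exact neg_eq_iff_eq_neg.2 this
  have h2 : ∀ y : EE pt.lᗮ, ⟪contr pt.v y, a⟫_ℝ = ⟪y, tens pt.v a⟫_ℝ := fun y => by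
    simp [PiLp.inner_apply, sum_inner, inner_smul_left, inner_smul_right]
  have h3 : ‖a‖ ^ 2 = ⟪pt.inc z, pt.W X ((pt.Mb X).adjoint (pt.Xi X a))⟫_ℝ := by
    rw [← (pt.symm_W hd h).1, ← real_inner_self_eq_norm_sq]
    nth_rw 1 [← ha]
    rw [inner_add_left, ContinuousLinearMap.adjoint_inner_left, h2,
      show ⟪pt.WH X z, pt.T X a⟫_ℝ = _ from pt.inner_prj (pt.W X (pt.inc z)) _,
      show pt.inc (pt.T X a) = _ from pt.inc_prj ((pt.Mb X).adjoint (pt.Xi X a)),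
      ← inner_add_right, h1, add_sub_cancel]
  have h4 : ‖pt.W X ((pt.Mb X).adjoint (pt.Xi X a))‖ ≤ 3 * (k * (d⁻¹ * ‖a‖)) :=
    bdef_pi_le fun i => by
      rw [pt.W_gauge hd h, norm_neg]
      exact (ContinuousLinearMap.le_of_opNorm_le _ (hk i) _).trans (mul_le_mul_of_nonneg_left
        (ContinuousLinearMap.le_of_opNorm_le _ (pt.Mv_unit hd h).2.1 a) k0)
  have h5 := (real_inner_le_norm _ _).trans (mul_le_mul_of_nonneg_left h4 (norm_nonneg (pt.inc z)))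
  rw [← h3, hz] at h5
  rcases (norm_nonneg a).eq_or_lt with h0 | h0
  · rw [← h0]
    positivity
  · exact le_of_mul_le_mul_left (by linarith) h0

end Patch

namespace Mod
variable {M G pt} {r d : ℝ} (hg : M.GB G pt r d)
include hg
/-- The approximate vacuum is exact up to the light commutators (Sylvester estimates). -/
theorem GB.defect : ∃ C > 0, ∀ X ∈ Metric.ball pt.p0 r, ∀ (z : pt.HT) (e : R16), e ⬝ᵥ e = 1 →
    ‖pt.tt G e X (pt.inc z) - pt.J G X (G.psi e (pt.W X (pt.inc z)))‖ ≤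
        C * Real.sqrt (M.L.pot (pt.il X)) * ‖z‖ ∧
      ‖pt.qq X z - pt.W X (pt.inc z)‖ ≤ C * Real.sqrt (M.L.pot (pt.il X)) * ‖z‖ := by
  obtain ⟨hr, hd, hg⟩ := hg
  obtain ⟨B, B0, hB⟩ : ∃ B, 0 ≤ B ∧ ∀ X ∈ Metric.ball pt.p0 r, ∀ i, ‖pt.Mi X i‖ ≤ B := by
    refine ⟨‖M.L.br‖ * (r + ‖pt.p0‖), by positivity, fun X hX i =>
      ContinuousLinearMap.opNorm_le_bound _ (by positivity) fun w => (pt.norm_adm_le _ w).trans ?_⟩
    gcongr
    exact (PiLp.norm_apply_le X i).trans (by linarith [norm_lt_of_mem_ball hX])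
  obtain ⟨c1, hc1⟩ : ∃ c, c = ∑ j, ‖(mat (G.g j) : SS pt.lᗮ →L[ℝ] SS pt.lᗮ)‖ := ⟨_, rfl⟩
  obtain ⟨c2, hc2⟩ : ∃ c, c = ∑ i, ∑ j, ‖(mat (G.g2 i j) : SS pt.lᗮ →L[ℝ] SS pt.lᗮ)‖ := ⟨_, rfl⟩
  have c10 : 0 ≤ c1 := hc1 ▸ Finset.sum_nonneg fun _ _ => ContinuousLinearMap.opNorm_nonneg _
  have c20 : 0 ≤ c2 := hc2 ▸ Finset.sum_nonneg fun _ _ => Finset.sum_nonneg fun _ _ =>
    ContinuousLinearMap.opNorm_nonneg _
  refine ⟨d⁻¹ * (c2 * ‖M.L.br‖ * ((2 * d)⁻¹ * (9 * B + c1 * B) + d⁻¹ * (c1 * B) + d⁻¹ * (9 * B))) +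
    3 * (d⁻¹ * (9 * (B * (2 * ‖M.L.br‖))) * d⁻¹) + 1, by positivity, fun X hX z e he => ?_⟩
  have g := hg X hX
  obtain ⟨-, o2, o3⟩ := pt.Om_spec hd.le g.mv
  obtain ⟨-, j2, j3, j4⟩ := pt.J_spec G hd g.ga
  obtain ⟨u1, u2, -⟩ := o2.isUnit hd
  have hz : ‖pt.inc z‖ = ‖z‖ := by
    rw [← sq_eq_sq₀ (norm_nonneg _) (norm_nonneg _), ← real_inner_self_eq_norm_sq, pt.inner_inc,
      real_inner_self_eq_norm_sq]
  have hΓ : ‖pt.Ga G X‖ ≤ c1 * B := hc1 ▸ bdef_sum_le G.g (hB X hX)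
  have hu : ‖pt.Mb X (pt.inc z)‖ ≤ 9 * B * ‖z‖ := by
    rw [pt.Mb_apply]
    refine (norm_sum_le_of_le _ (n := fun _ => B * ‖z‖) fun i _ =>
      (ContinuousLinearMap.le_of_opNorm_le _ (hB X hX i) _).trans (mul_le_mul_of_nonneg_left
        ((PiLp.norm_apply_le _ i).trans hz.le) B0)).trans (le_of_eq ?_)
    simp [mul_assoc]
  have hE := bdef_sum_le2 G (g := fun i j => pt.adm (M.L.br (X i) (X j)))
    (b := ‖M.L.br‖ * √(M.L.pot (pt.il X))) fun i j => by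
      rw [← pt.Mi_comm, ← mul_assoc]
      exact pt.norm_Mi_comm X i j
  rw [← hc2, ← mul_assoc] at hE
  have hp := bdef_norm_psi G he (pt.inc z)
  have h1 := pt.bdef_Ga_psi G X e (pt.inc z)
  have ht : ‖pt.tt G e X (pt.inc z)‖ ≤ (9 * B + c1 * B) * ‖z‖ := by
    rw [eq_sub_iff_add_eq, ← eq_sub_iff_add_eq'] at h1
    have := ContinuousLinearMap.le_of_opNorm_le _ hΓ (G.psi e (pt.inc z))
    rw [h1]
    refine (norm_sub_le _ _).trans ?_
    rw [bdef_norm_tens he]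
    rw [hp, hz] at this
    linarith
  have hs : ‖tens e (Ring.inverse (pt.Om X) (pt.Mb X (pt.inc z)))‖ ≤ d⁻¹ * (9 * B) * ‖z‖ := by
    rw [bdef_norm_tens he, mul_assoc]
    exact (ContinuousLinearMap.le_of_opNorm_le _ u2 _).trans
      (mul_le_mul_of_nonneg_left hu (by positivity))
  have a := bdef_abs hd j2 (bdef_pos_lift o2) (psq_spec ⟨g.ga.1, fun u =>
      le_trans (by rw [zero_mul]; positivity) (g.ga.2 u)⟩).2 (by
      rw [pt.Ga_sq, ← o3, bdef_lift_mul]) (j4 ▸ j3) hE hΓ (h1.trans (by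
      rw [bdef_lift_tens, ← ContinuousLinearMap.mul_apply, Ring.mul_inverse_cancel _ u1,
        ContinuousLinearMap.one_apply])) (pt.bdef_psi_W G X e (pt.inc z))
  have b := pt.bdef_qq hd g.mv (bdef_comm hd o2 o3 (pt.norm_Mi_comm X) (hB X hX)) z
  rw [hp, hz, ← le_inv_mul_iff₀ hd] at a
  have s0 : 0 ≤ √(M.L.pot (pt.il X)) * ‖z‖ := by positivity
  constructor
  · refine a.trans (le_trans (b := d⁻¹ * (c2 * ‖M.L.br‖ * √(M.L.pot (pt.il X)) *
      ((2 * d)⁻¹ * ((9 * B + c1 * B) * ‖z‖) + d⁻¹ * (c1 * B) * ‖z‖ + d⁻¹ * (9 * B) * ‖z‖)))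
      (by gcongr) ?_)
    have : 0 ≤ 3 * (d⁻¹ * (9 * (B * (2 * ‖M.L.br‖))) * d⁻¹) * (√(M.L.pot (pt.il X)) * ‖z‖) := by
      positivity
    linarith
  · have : 0 ≤ d⁻¹ * (c2 * ‖M.L.br‖ * ((2 * d)⁻¹ * (9 * B + c1 * B) + d⁻¹ * (c1 * B) +
      d⁻¹ * (9 * B))) * (√(M.L.pot (pt.il X)) * ‖z‖) := by positivity
    linarith
theorem GB.norm_Kd : ∃ C > 0, ∀ X ∈ Metric.ball pt.p0 r, ∀ (z : pt.HT) (e : R16), e ⬝ᵥ e = 1 →
    ‖M.Kd G pt e X z‖ ≤ C * Real.sqrt (M.L.pot (pt.il X)) * ‖z‖ := by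
  obtain ⟨C, C0, hC⟩ := hg.defect
  refine ⟨2 * C, by positivity, fun X hX z e he => ?_⟩
  obtain ⟨h1, h2⟩ := hC X hX z e he
  have hJ := (pt.J_spec G hg.2.1 (hg.2.2 X hX).ga).1
  have hP : ‖M.Pi G pt X‖ ≤ 1 := IsStarProjection.norm_le _ ⟨((M.Cm pt).vac_idem hJ).1,
    ((M.Cm pt).vac_idem hJ).2⟩
  have e1 : M.Kd G pt e X z = M.Pi G pt X * ((M.Cm pt).th (pt.tt G e X (pt.inc z) -
      pt.J G X (G.psi e (pt.W X (pt.inc z)))) -
      I • (M.Cm pt).th (G.psi e (pt.qq X z - pt.W X (pt.inc z)))) := by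
    simp only [Kd, Pi, map_sub, mul_sub, (M.Cm pt).vac_cre hJ, smul_sub, mul_smul_comm]
    abel
  rw [e1]
  refine (norm_mul_le _ _).trans ((mul_le_of_le_one_left (norm_nonneg _) hP).trans
    ((norm_sub_le _ _).trans ?_))
  rw [norm_smul, Complex.norm_I, one_mul]
  have a1 := ((M.Cm pt).norm_th_le _).trans h1
  have a2 := ((M.Cm pt).norm_th_le _).trans ((bdef_norm_psi G he _).trans_le h2)
  linarith
end Mod

end Vale.Agent.P353
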