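import Vale.Agent.P353.GPatch
import Vale.Agent.P353.AOsc
import Vale.Agent.P353.AFock2

open MeasureTheory NormedSpace
open Complex (I)
open scoped InnerProductSpace ContDiff

noncomputable section
namespace Vale.Agent.P353
variable {V F : Type} [NormedAddCommGroup V] [InnerProductSpace ℝ V] [FiniteDimensional ℝ V]
  [NormedAddCommGroup F] [InnerProductSpace ℂ F] [CompleteSpace F]

namespace Patch
section
variable {L : CL V} (pt : Patch L)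

/-- the heavy directions as a type with its own normed structure (definitionally `pt.H`) -/
def HT : Type := pt.H
instance : NormedAddCommGroup pt.HT := inferInstanceAs (NormedAddCommGroup pt.H)
instance : InnerProductSpace ℝ pt.HT := inferInstanceAs (InnerProductSpace ℝ pt.H)
instance : FiniteDimensional ℝ pt.HT := inferInstanceAs (FiniteDimensional ℝ pt.H)
instance [MeasurableSpace V] : MeasurableSpace pt.HT := inferInstanceAs (MeasurableSpace pt.H)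
instance [MeasurableSpace V] [BorelSpace V] : BorelSpace pt.HT := inferInstanceAs (BorelSpace pt.H)
def inc : pt.HT →L[ℝ] EE pt.lᗮ := pt.H.subtypeL
def prj : EE pt.lᗮ →L[ℝ] pt.HT := pt.H.orthogonalProjectionOnto
/-- inclusions -/
abbrev il : EE pt.l →L[ℝ] EE V := lift pt.l.subtypeL
abbrev im : EE pt.lᗮ →L[ℝ] EE V := lift pt.lᗮ.subtypeL
/-- the slice point (definitionally `pt.io`) -/
def sp (X : EE pt.l) (z : pt.HT) : EE V := pt.il X + pt.im (pt.inc z)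
lemma sp_eq (X : EE pt.l) (z : pt.HT) : pt.sp X z = pt.io X z := rfl
/-- the base point as a light variable -/
def p0 : EE pt.l := lift pt.l.orthogonalProjectionOnto pt.p
/-- central light variables -/
def Cen (Y : EE pt.l) : Prop := pt.il Y ∈ pt.Z
def Mi (X : EE pt.l) (i : Fin 9) : pt.lᗮ →L[ℝ] pt.lᗮ := pt.adm (X i)
def Mv (X : EE pt.l) : pt.lᗮ →L[ℝ] pt.lᗮ := pt.adm (contr pt.v (pt.il X))
def Om (X : EE pt.l) : pt.lᗮ →L[ℝ] pt.lᗮ := psq (-∑ i, pt.Mi X i * pt.Mi X i)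
def Ga (G : Gam) (X : EE pt.l) : SS pt.lᗮ →L[ℝ] SS pt.lᗮ := ∑ j, mat (G.g j) ∘L lift (pt.Mi X j)
def aGa (G : Gam) (X : EE pt.l) : SS pt.lᗮ →L[ℝ] SS pt.lᗮ := psq (-(pt.Ga G X * pt.Ga G X))
/-- the complex structure of the heavy fermions -/
def J (G : Gam) (X : EE pt.l) : SS pt.lᗮ →L[ℝ] SS pt.lᗮ := -(pt.Ga G X * Ring.inverse (pt.aGa G X))
/-- `z ↦ ∑ M_i z_i`; its adjoint is the gauge direction `ξ ↦ ([ξ, X_i])_i` -/
def Mb (X : EE pt.l) : EE pt.lᗮ →L[ℝ] pt.lᗮ :=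
  ∑ i, pt.Mi X i ∘L PiLp.proj 2 (fun _ : Fin 9 => pt.lᗮ) i
def W (X : EE pt.l) : EE pt.lᗮ →L[ℝ] EE pt.lᗮ :=
  lift (pt.Om X) - (pt.Mb X).adjoint ∘L Ring.inverse (pt.Om X) ∘L pt.Mb X
def WH (X : EE pt.l) : pt.HT →L[ℝ] pt.HT := pt.prj ∘L pt.W X ∘L pt.inc
/-- `w ↦ ξ_w` -/
def Xi (X : EE pt.l) : pt.lᗮ →L[ℝ] pt.lᗮ := -Ring.inverse (pt.Mv X)
def T (X : EE pt.l) : pt.lᗮ →L[ℝ] pt.HT :=
  pt.prj ∘L (pt.Mb X).adjoint ∘L pt.Xi X
/-- light and heavy part of `[ξ, z]` -/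
def Bl (ξ : pt.lᗮ) : pt.HT →L[ℝ] EE pt.l :=
  lift (pt.l.orthogonalProjectionOnto ∘L L.br ξ ∘L pt.lᗮ.subtypeL) ∘L pt.inc
def Bm (ξ : pt.lᗮ) : pt.HT →L[ℝ] pt.HT :=
  pt.prj ∘L lift (pt.adm ξ) ∘L pt.inc
/-- the mixed part of `s0` -/
def tt (G : Gam) (e : R16) (X : EE pt.l) (z : EE pt.lᗮ) : SS pt.lᗮ :=
  -∑ i, ∑ j, tens ((G.g2 i j).mulVec e) (pt.Mi X i (z j))
/-- polarisation of `s0` on heavy variables -/
def sb (G : Gam) (e : R16) (z z' : EE pt.lᗮ) : SS V :=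
  (-1 / 2 : ℝ) • ∑ i, ∑ j, tens ((G.g2 i j).mulVec e) (L.br (z i) (z' j))
/-- the vector `q` produced by the heavy derivatives of the Gaussian -/
def qq (X : EE pt.l) (z : pt.HT) : EE pt.lᗮ :=
  pt.inc (pt.WH X z) - tens pt.v ((pt.T X).adjoint (pt.WH X z))
/-- the heavy potential at a central point -/
def potH (X : EE pt.l) (z : pt.HT) : ℝ :=
  (1 / 2) * (‖pt.WH X z‖ ^ 2 + ‖(pt.T X).adjoint (pt.WH X z)‖ ^ 2)
abbrev bl := stdOrthonormalBasis ℝ (EE pt.l)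
abbrev bm := stdOrthonormalBasis ℝ pt.lᗮ
abbrev bH := stdOrthonormalBasis ℝ pt.HT
/-- light and heavy gradient densities -/
def gl (φ : EE V → F) (s : EE V) : ℝ := ∑ k, ‖fderiv ℝ φ s (pt.il (pt.bl k))‖ ^ 2
def gH (φ : EE V → F) (s : EE V) : ℝ := ∑ k, ‖fderiv ℝ φ s (pt.im (pt.inc (pt.bH k)))‖ ^ 2
def gT (Y : EE pt.l) (φ : EE V → F) (s : EE V) : ℝ :=
  ∑ k, ‖fderiv ℝ φ s (pt.im (pt.inc (pt.T Y (pt.bm k))))‖ ^ 2
end
end Patch

namespace Mod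
variable (M : Mod V F) (G : Gam) (pt : Patch M.L)

/-- light model, heavy Clifford module -/
abbrev Ml : Mod pt.l F := M.res pt.l (M.L.sub_cent pt.p)
def Cm : Cl (SS pt.lᗮ) F := M.C.res (lift pt.lᗮ.subtypeL) (inner_lift_subtype _)
def Pi (X : EE pt.l) : F →L[ℂ] F := (M.Cm pt).vac (pt.J G X)
def Pi0 : F →L[ℂ] F := M.Pi G pt pt.p0
def kap (X : EE pt.l) : ℝ :=
  (LinearMap.trace ℂ F (M.Pi0 G pt * M.Pi G pt X).toLinearMap).re /
    (LinearMap.trace ℂ F (M.Pi0 G pt).toLinearMap).re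

structure Good (d : ℝ) (X : EE pt.l) : Prop where
  mv : ∀ w, d * ‖w‖ ≤ ‖pt.Mv X w‖
  wh : Pos d (pt.WH X)
  ga : Pos (d ^ 2) (-(pt.Ga G X * pt.Ga G X))
  kp : 1 / 2 ≤ M.kap G pt X
  jj : IsUnit (pt.J G X + pt.J G pt.p0)

/-- a ball of good points -/
def GB (r d : ℝ) : Prop := 0 < r ∧ 0 < d ∧ ∀ X ∈ Metric.ball pt.p0 r, M.Good G pt d X

/-- Clifford multiplication by a light direction and by `v ⊗ w` -/
def cl (e : R16) (a : EE pt.l) : F →L[ℂ] F := M.C.th (G.psi e (pt.il a))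
def cv (e : R16) (w : pt.lᗮ) : F →L[ℂ] F := (M.Cm pt).th (G.psi e (tens pt.v w))

/-- logarithmic derivative of the normalisation -/
def nu (X a : EE pt.l) : ℝ :=
  (1 / 2) * fderiv ℝ pt.jac X a / pt.jac X - (1 / 2) * fderiv ℝ (M.kap G pt) X a / M.kap G pt X +
    (1 / 4) * tr (fderiv ℝ pt.WH X a * Ring.inverse (pt.WH X))

def K0 (e : R16) (X : EE pt.l) : F →L[ℂ] F :=
  I • ∑ k, M.cl G pt e (pt.bl k) * (M.nu G pt X (pt.bl k) • M.Pi G pt X +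
      fderiv ℝ (M.Pi G pt) X (pt.bl k)) -
    I • (M.Pi G pt X * ∑ k, M.cv G pt e (pt.bm k) *
      (M.C.spin (lift (M.L.br (pt.Xi X (pt.bm k)))) + tr (pt.Bm (pt.Xi X (pt.bm k))) • 1))

def K2 (e : R16) (X : EE pt.l) (z z' : pt.HT) : F →L[ℂ] F :=
  (-I / 2) • ∑ k, ⟪z, fderiv ℝ pt.WH X (pt.bl k) z'⟫_ℝ • (M.cl G pt e (pt.bl k) * M.Pi G pt X) +
    M.Pi G pt X * M.C.th (pt.sb G e (pt.inc z) (pt.inc z')) +
    I • (M.Pi G pt X * ∑ k, ⟪pt.WH X z, pt.Bm (pt.Xi X (pt.bm k)) z'⟫_ℝ • M.cv G pt e (pt.bm k))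

def Kb (e : R16) (X : EE pt.l) : F →L[ℂ] F :=
  M.K0 G pt e X + (1 / 2 : ℝ) • ∑ k, M.K2 G pt e X (pt.bH k) (Ring.inverse (pt.WH X) (pt.bH k))

/-- the defect of the approximate heavy vacuum -/
def Kd (e : R16) (X : EE pt.l) (z : pt.HT) : F →L[ℂ] F :=
  M.Pi G pt X * ((M.Cm pt).th (pt.tt G e X (pt.inc z)) - I • (M.Cm pt).th (G.psi e (pt.qq X z)))

/-- infinitesimal invariance at a point -/
def InvAt (φ : EE V → F) (s : EE V) : Prop :=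
  ∀ ξ, fderiv ℝ φ s (lift (M.L.br ξ) s) = M.C.spin (lift (M.L.br ξ)) (φ s)

/-- admissible functions on the slice -/
structure Adm (r κ : ℝ) (φ : EE V → F) : Prop where
  tst : Tst φ
  inf : ∀ X z, M.InvAt φ (pt.sp X z)
  linv : ∀ ξ ∈ pt.l, ∀ X z, φ (lift (M.L.ex ξ) (pt.sp X z)) = M.rho ξ (φ (pt.sp X z))
  supp : ∀ X z, pt.sp X z ∈ tsupport φ → pt.sp X z ∈ pt.reg' r κ

/-- the Schroedinger density with the potential multiplied by `a` -/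
def dens (a lam : ℝ) (φ : EE V → F) (s : EE V) : ℝ :=
  (1 / 2) * g2 φ s + a * lam ^ 2 * M.L.pot s * ‖φ s‖ ^ 2 +
    (⟪φ s, (I • M.C.spin ((-lam) • Gm G M.L s)) (φ s)⟫_ℂ).re

variable [MeasurableSpace V] [BorelSpace V]

def ZZ (lam : ℝ) (X : EE pt.l) : ℝ := ∫ z, gau (lam • pt.WH X) z ^ 2
def nn (lam : ℝ) (X : EE pt.l) : ℝ := Real.sqrt (pt.jac X / (M.kap G pt X * M.ZZ pt lam X))
def uu (lam : ℝ) (φ : EE V → F) (X : EE pt.l) : F := ∫ z, gau (lam • pt.WH X) z • φ (pt.sp X z)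
/-- projection onto the heavy vacuum -/
def Td (lam : ℝ) (φ : EE V → F) (X : EE pt.l) : F :=
  M.nn G pt lam X • M.Pi0 G pt (M.Pi G pt X (M.uu pt lam φ X))
/-- fibre integral -/
def fi (u : EE V → ℝ) (X : EE pt.l) : ℝ := ∫ z : pt.HT, u (pt.sp X z)
/-- fibre norm of the excited part -/
def ex2 (lam : ℝ) (φ : EE V → F) (X : EE pt.l) : ℝ :=
  M.fi pt (fun s => ‖φ s‖ ^ 2) X - ‖M.Pi G pt X (M.uu pt lam φ X)‖ ^ 2 / M.ZZ pt lam X
/-- slice integral -/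
def SI (u : EE V → ℝ) : ℝ := ∫ X, pt.jac X * M.fi pt u X
def m2 (lam : ℝ) (φ : EE V → F) : ℝ := ∫ X, pt.jac X * M.ex2 G pt lam φ X
end Mod

end Vale.Agent.P353
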