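import Vale.Agent.P353.BDefs
import Vale.Agent.P353.AId2

open MeasureTheory NormedSpace
open Complex (I)
open scoped InnerProductSpace ContDiff

noncomputable section
namespace Vale.Agent.P353
variable {V F : Type} [NormedAddCommGroup V] [InnerProductSpace ℝ V] [FiniteDimensional ℝ V]
  [NormedAddCommGroup F] [InnerProductSpace ℂ F] [CompleteSpace F]

namespace Patch
variable {L : CL V} (pt : Patch L)
/-- test functions whose support meets the slice only in the small region -/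
structure Sup (r κ : ℝ) (φ : EE V → F) : Prop where
  tst : Tst φ
  supp : ∀ X z, pt.sp X z ∈ tsupport φ → pt.sp X z ∈ pt.reg' r κ
/-- the action of the light group on the light variables, on `lᗮ` and on the heavy variables -/
def ga (ξ : pt.l) : EE pt.l →L[ℝ] EE pt.l := lift ((L.res pt.l (L.sub_cent pt.p)).ex ξ)
def gm (ξ : pt.l) : pt.lᗮ →L[ℝ] pt.lᗮ := expL (pt.adm ξ)
def gh (ξ : pt.l) : pt.HT →L[ℝ] pt.HT := pt.prj ∘L lift (pt.gm ξ) ∘L pt.inc
end Patch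

namespace Mod
variable (M : Mod V F) (G : Gam) (pt : Patch M.L)

theorem Adm.sup {M : Mod V F} {pt : Patch M.L} {r κ : ℝ} {φ : EE V → F} (h : M.Adm pt r κ φ) :
    pt.Sup r κ φ := ⟨h.tst, h.supp⟩

/-- the heavy part of the gauge action -/
def Um (ξ : pt.l) : F →L[ℂ] F := exp ((M.Cm pt).spin (lift (pt.adm ξ)))

/-- the term with light derivatives along `[ξ, z]` -/
def Lt (e : R16) (φ : EE V → F) (X : EE pt.l) (z : pt.HT) : F :=
  I • ∑ k, M.cv G pt e (pt.bm k) (fderiv ℝ φ (pt.sp X z) (pt.il (pt.Bl (pt.Xi X (pt.bm k)) z)))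

/-- density of a constant fermion bilinear -/
def bil (N : M16) (φ : EE V → F) (s : EE V) : ℝ := (⟪φ s, (I • M.C.spin (mat N)) (φ s)⟫_ℂ).re

variable [MeasurableSpace V] [BorelSpace V]

def N2 (φ : EE V → F) : ℝ := M.SI pt fun s => ‖φ s‖ ^ 2
def GR (φ : EE V → F) : ℝ := M.SI pt (pt.gl φ)
def PL (φ : EE V → F) : ℝ :=
  ∫ X, pt.jac X * (M.L.pot (pt.il X) * M.fi pt (fun s => ‖φ s‖ ^ 2) X)

/-- invariant test functions supported in the saturation of the small region -/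
structure Glob (r κ : ℝ) (φ : EE V → F) : Prop where
  tst : Tst φ
  inv : M.Inv φ
  supp : tsupport φ ⊆ M.L.sat (pt.reg' r κ)

/-- passage from invariant functions to functions on the slice -/
structure Link (P : Par) (r1 : ℝ) (χ : EE V → ℝ) : Prop where
  pos : 0 < r1
  opn : ∀ r ≤ r1, IsOpen (M.L.sat (pt.pts r))
  adm : ∀ r ≤ r1 / 2, ∀ κ φ, M.Glob pt r κ φ → M.Adm pt r κ fun s => χ s • φ s
  wt : ∀ r ≤ r1 / 2, ∀ κ φ, M.Glob pt r κ φ → ∀ w : EE V → ℝ, ContinuousOn w (tsupport φ) →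
    M.L.SInv w → wt w φ = M.SI pt fun s => w s * ‖χ s • φ s‖ ^ 2
  n2 : ∀ r ≤ r1 / 2, ∀ κ φ, M.Glob pt r κ φ → n2 φ = M.N2 pt fun s => χ s • φ s
  q0 : ∀ r ≤ r1 / 2, ∀ κ φ, M.Glob pt r κ φ → ∀ lam,
    M.q0 P.toGam lam φ = M.SI pt (M.dens P.toGam 1 lam fun s => χ s • φ s)
  dd : ∀ r ≤ r1 / 2, ∀ κ φ, M.Glob pt r κ φ → ∀ β lam mu,
    Vale.Agent.P353.n2 (M.D' P β lam mu φ) = M.N2 pt (M.D' P β lam mu fun s => χ s • φ s)
  bil : ∀ r ≤ r1 / 2, ∀ κ φ, M.Glob pt r κ φ → ∀ N : M16,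
    opf (fun _ => I • M.C.spin (mat N)) φ = M.SI pt (M.bil N fun s => χ s • φ s)
end Mod

end Vale.Agent.P353
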