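import Vale.Agent.P353.BDefs2
import Vale.Agent.P353.BKap
import Vale.Agent.P353.ACov

open MeasureTheory NormedSpace
open Complex (I)
open scoped InnerProductSpace ContDiff

noncomputable section
namespace Vale.Agent.P353

lemma be_inv {R : Type} [MonoidWithZero R] {A A' g g' : R} (h1 : g * g' = 1) (h2 : g' * g = 1)
    (h : A' * g = g * A) : Ring.inverse A' * g = g * Ring.inverse A := by
  have ug : IsUnit g := ⟨⟨g, g', h1, h2⟩, rfl⟩
  have hiff : IsUnit A' ↔ IsUnit A := by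
    rw [← ug.mul_right_iff (a := A'), h, ug.mul_left_iff]
  by_cases hA : IsUnit A
  · have hA' := hiff.2 hA
    calc Ring.inverse A' * g = Ring.inverse A' * (g * A) * Ring.inverse A := by
          rw [mul_assoc, mul_assoc, Ring.mul_inverse_cancel _ hA, mul_one]
      _ = g * Ring.inverse A := by
          rw [← h, ← mul_assoc, Ring.inverse_mul_cancel _ hA', one_mul]
  · rw [Ring.inverse_non_unit _ hA, Ring.inverse_non_unit _ fun h' => hA (hiff.1 h'), zero_mul,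
      mul_zero]

section gen
variable {S S' F : Type} [NormedAddCommGroup S] [InnerProductSpace ℝ S] [FiniteDimensional ℝ S]
  [NormedAddCommGroup S'] [InnerProductSpace ℝ S'] [FiniteDimensional ℝ S']
  [NormedAddCommGroup F] [InnerProductSpace ℂ F] [CompleteSpace F]

lemma be_fix {T : S →L[ℝ] S} {u : S} (h : T u = 0) : expL T u = u := by
  have := cv_ode (T := T) (c := fun _ => u) (fun t => by rw [h]; exact hasDerivAt_const t u) 1
  rw [one_smul] at this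
  exact this.symm

lemma be_det (T : S →L[ℝ] S) {A A' : S →L[ℝ] S} (h : ∀ u, A' (expL T u) = expL T (A u)) :
    LinearMap.det A'.toLinearMap = LinearMap.det A.toLinearMap := by
  have h1 : A'.toLinearMap * (expL T).toLinearMap = (expL T).toLinearMap * A.toLinearMap :=
    LinearMap.ext h
  have h2 : (expL T).toLinearMap * (expL (-T)).toLinearMap = 1 :=
    congrArg ContinuousLinearMap.toLinearMap (expL_mul_neg T).1
  have h3 := congrArg LinearMap.det h1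
  have h4 := congrArg LinearMap.det h2
  rw [map_mul, map_mul, mul_comm] at h3
  rw [map_mul, map_one] at h4
  exact mul_left_cancel₀ (left_ne_zero_of_mul_eq_one h4) h3

lemma be_inv' (T : S →L[ℝ] S) {A A' : S →L[ℝ] S} (h : ∀ u, A' (expL T u) = expL T (A u)) (u : S) :
    Ring.inverse A' (expL T u) = expL T (Ring.inverse A u) :=
  congrArg (fun B : S →L[ℝ] S => B u)
    (be_inv (expL_mul_neg T).1 (expL_mul_neg T).2 (ContinuousLinearMap.ext h))

lemma be_psq (g : S →L[ℝ] S) {A A' : S →L[ℝ] S} (hA : Skew A) (hA' : Skew A')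
    (h : ∀ u, A' (g u) = g (A u)) (u : S) : psq (-(A' * A')) (g u) = g (psq (-(A * A)) u) :=
  psq_intertwine (skew_polar hA').1 (skew_polar hA).1 g (fun u => by
    simp only [neg_apply, mul_apply_eq_comp, h, map_neg]) u

lemma be_comm (C : Cl S F) (C' : Cl S' F) (h : ∀ u v, C.th u * C'.th v = -(C'.th v * C.th u))
    (T : S →L[ℝ] S) (T' : S' →L[ℝ] S') : Commute (C.spin T) (C'.spin T') := by
  have h1 : ∀ u v v', Commute (C.th u) (C'.th v * C'.th v') := by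
    intro u v v'
    change _ * _ = _ * _
    rw [← mul_assoc, h, neg_mul, mul_assoc, h, mul_neg, neg_neg, mul_assoc]
  have h2 : ∀ u, Commute (C.th u) (C'.spin T') := fun u =>
    (Commute.sum_right _ _ _ fun a _ => h1 u _ _).smul_right _
  exact (Commute.sum_left _ _ _ fun a _ => (h2 _).mul_left (h2 _)).smul_left _

lemma be_vac (C : Cl S F) {T : S →L[ℝ] S} (hT : Skew T) {J J' : S →L[ℝ] S}
    (h : J' * expL T = expL T * J) : exp (C.spin T) * C.vac J = C.vac J' * exp (C.spin T) := by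
  rw [C.vac_conj (expL_inner hT) (expL_mul_neg T).1 (C.exp_spin_th hT) J, ← h, mul_assoc J',
    (expL_mul_neg T).1, mul_one]

lemma be_exp_fix {A P : F →L[ℂ] F} (h : A * P = 0) : exp A * P = P := by
  have h1 : ∀ t : ℝ, HasDerivAt (fun t : ℝ => exp (t • A) * P) 0 t := by
    intro t
    have := (hasDerivAt_exp_smul_const (𝕂 := ℝ) A t).mul_const P
    rwa [mul_assoc, h, mul_zero] at this
  have h2 := is_const_of_deriv_eq_zero (fun t => (h1 t).differentiableAt)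
    (fun t => (h1 t).deriv) 1 0
  simpa using h2

lemma be_exp_add {A B : F →L[ℂ] F} (h : Commute A B) : exp (A + B) = exp A * exp B := by
  let _ : NormedAlgebra ℚ (F →L[ℂ] F) := NormedAlgebra.restrictScalars ℚ ℂ _
  exact exp_add_of_commute h

lemma be_neutral (C : Cl S F) {J T : S →L[ℝ] S} (hJ : CS J) (hT : Skew T) (hc : J * T = T * J)
    (h0 : tr (J * T) = 0) : exp (C.spin T) * C.vac J = C.vac J := by
  refine be_exp_fix ?_
  rw [C.spin_vac hJ hT hc, h0]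
  simp

lemma be_tr [FiniteDimensional ℂ F] {U P Q Q' : F →L[ℂ] F} (hU : U ∈ unitary (F →L[ℂ] F))
    (h1 : U * P = P) (h2 : P * U = P) (h : U * Q = Q' * U) :
    LinearMap.trace ℂ F (P * Q').toLinearMap = LinearMap.trace ℂ F (P * Q).toLinearMap := by
  have e1 : P * Q' = (P * Q) * star U := by
    calc P * Q' = P * (Q' * U) * star U := by
          rw [mul_assoc, mul_assoc, Unitary.mul_star_self_of_mem hU, mul_one]
      _ = (P * Q) * star U := by rw [← h, ← mul_assoc, h2]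
  have e2 : star U * (P * Q) = P * Q := by
    conv_lhs => rw [← h1]
    rw [mul_assoc, ← mul_assoc, Unitary.star_mul_self_of_mem hU, one_mul]
  have e3 := LinearMap.trace_mul_comm ℂ (P * Q).toLinearMap (star U).toLinearMap
  rw [e1]
  conv_rhs => rw [← e2]
  exact e3

omit [CompleteSpace F] in
lemma be_int [MeasurableSpace S] [BorelSpace S] {g : S →L[ℝ] S}
    (hg : ∀ u v, ⟪g u, g v⟫_ℝ = ⟪u, v⟫_ℝ) (f : S → F) : ∫ x, f (g x) = ∫ x, f x := by
  obtain ⟨e, he⟩ := cv_equiv hg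
  have := e.measurePreserving.integral_comp e.toHomeomorph.measurableEmbedding f
  simpa only [he] using this

omit [FiniteDimensional ℝ S] in
lemma be_gau {g W W' : S →L[ℝ] S} (hg : ∀ u v, ⟪g u, g v⟫_ℝ = ⟪u, v⟫_ℝ)
    (h : ∀ z, W' (g z) = g (W z)) (lam : ℝ) (z : S) : gau (lam • W') (g z) = gau (lam • W) z := by
  simp only [gau, smul_apply, h, inner_smul_right, hg]

lemma be_uint [MeasurableSpace S] [BorelSpace S] {U : F →L[ℂ] F} (hU : U ∈ unitary (F →L[ℂ] F))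
    (f : S → F) : ∫ x, U (f x) = U (∫ x, f x) :=
  LinearIsometry.integral_comp_comm (𝕜 := ℂ)
    ⟨U.toLinearMap, ContinuousLinearMap.norm_map_of_mem_unitary hU⟩ f

end gen

variable {V F : Type} [NormedAddCommGroup V] [InnerProductSpace ℝ V] [FiniteDimensional ℝ V]
  [NormedAddCommGroup F] [InnerProductSpace ℂ F] [CompleteSpace F] [FiniteDimensional ℂ F]

/-! Equivariance under the light group. -/
namespace Patch
variable {L : CL V} (pt : Patch L) (G : Gam) (ξ : pt.l)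
theorem be_ga (X : EE pt.l) (i : Fin 9) : (pt.ga ξ X i : V) = L.ex ξ (X i) :=
  (expL_intertwine pt.l.subtypeL (T := L.br ξ) (T' := (L.res pt.l (L.sub_cent pt.p)).br ξ)
    (fun _ => rfl) (X i)).symm
theorem be_gm (w : pt.lᗮ) : (pt.gm ξ w : V) = L.ex ξ w :=
  (expL_intertwine pt.lᗮ.subtypeL (T := L.br ξ) (T' := pt.adm ξ)
    (fun u => (pt.adm_apply ξ.2 u).symm) w).symm
theorem be_lift : (lift (pt.gm ξ) : SS pt.lᗮ →L[ℝ] SS pt.lᗮ) = expL (lift (pt.adm ξ)) :=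
  (expL_lift _).symm
theorem be_prj (y : EE pt.lᗮ) : pt.inc (pt.prj (lift (pt.gm ξ) y)) =
    lift (pt.gm ξ) (pt.inc (pt.prj y)) := by
  rw [pt.inc_prj, pt.inc_prj, map_sub, contr_lift]
  congr 1
  ext i
  simp
theorem be_inc (z : pt.HT) : pt.inc (pt.gh ξ z) = lift (pt.gm ξ) (pt.inc z) := by
  have := pt.be_prj ξ (pt.inc z)
  rwa [pt.prj_inc] at this
theorem be_inj {z z' : pt.HT} (h : pt.inc z = pt.inc z') : z = z' := by
  rw [← pt.prj_inc z, h, pt.prj_inc]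
theorem be_p0 : pt.ga ξ pt.p0 = pt.p0 := by
  ext i
  rw [pt.be_ga]
  have h1 : (pt.p0 i : V) = pt.p i := congrArg (fun y : EE V => y i) pt.il_p0
  rw [h1]
  refine be_fix ?_
  rw [L.skew, (L.mem_cent pt.p ξ).1 ξ.2 i, neg_zero]
theorem be_adm {a a' : V} (ha : a ∈ pt.l) (ha' : a' ∈ pt.l) (h : a' = L.ex ξ a) (w : pt.lᗮ) :
    pt.adm a' (pt.gm ξ w) = pt.gm ξ (pt.adm a w) := by
  refine Subtype.ext ?_
  rw [pt.adm_apply ha', pt.be_gm, pt.be_gm, pt.adm_apply ha, L.ex_br, h]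
theorem be_Mi (X : EE pt.l) (i : Fin 9) (w : pt.lᗮ) :
    pt.Mi (pt.ga ξ X) i (pt.gm ξ w) = pt.gm ξ (pt.Mi X i w) :=
  pt.be_adm ξ (X i).2 (pt.ga ξ X i).2 (pt.be_ga ξ X i) w
theorem be_Om (X : EE pt.l) (w : pt.lᗮ) :
    pt.Om (pt.ga ξ X) (pt.gm ξ w) = pt.gm ξ (pt.Om X w) := by
  have hp : ∀ Y : EE pt.l, Pos 0 (-∑ i, pt.Mi Y i * pt.Mi Y i) := by
    intro Y
    have := (pt.Om_spec (d := 0) le_rfl (X := Y) (fun w => by simp)).1
    simpa using this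
  refine psq_intertwine (hp _) (hp _) (pt.gm ξ) (fun u => ?_) w
  simp only [neg_apply, sum_apply, mul_apply_eq_comp, pt.be_Mi, map_neg,
    map_sum]
theorem be_W (X : EE pt.l) (y : EE pt.lᗮ) :
    pt.W (pt.ga ξ X) (lift (pt.gm ξ) y) = lift (pt.gm ξ) (pt.W X y) := by
  have h1 : pt.Mb (pt.ga ξ X) (lift (pt.gm ξ) y) = pt.gm ξ (pt.Mb X y) := by
    simp only [pt.Mb_apply, lift_apply, pt.be_Mi, map_sum]
  have h2 : ∀ w, Ring.inverse (pt.Om (pt.ga ξ X)) (pt.gm ξ w) =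
      pt.gm ξ (Ring.inverse (pt.Om X) w) := be_inv' (pt.adm ξ) (pt.be_Om ξ X)
  rw [pt.bcen_W, pt.bcen_W, h1, h2]
  refine PiLp.ext fun i => ?_
  simp only [PiLp.sub_apply, lift_apply, pt.Mb_adj, pt.be_Mi, pt.be_Om, map_sub, map_neg]
theorem be_Ga (X : EE pt.l) (u : SS pt.lᗮ) :
    pt.Ga G (pt.ga ξ X) (lift (pt.gm ξ) u) = lift (pt.gm ξ) (pt.Ga G X u) := by
  have hG : ∀ (Y : EE pt.l) (v : SS pt.lᗮ),
      pt.Ga G Y v = ∑ j, mat (G.g j) (lift (pt.Mi Y j) v) := by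
    intro Y v
    simp [Ga]
  rw [hG, hG, map_sum]
  refine Finset.sum_congr rfl fun j _ => ?_
  rw [← cv_mat_lift]
  congr 1
  refine PiLp.ext fun i => ?_
  simp only [lift_apply, pt.be_Mi]

theorem ex_sp (X : EE pt.l) (z : pt.HT) :
    lift (L.ex ξ) (pt.sp X z) = pt.sp (pt.ga ξ X) (pt.gh ξ z) := by
  refine PiLp.ext fun i => ?_
  have h : ∀ (X : EE pt.l) (z : pt.HT), pt.sp X z i = (X i : V) + (pt.inc z i : V) :=
    fun _ _ => rfl
  rw [lift_apply, h, h, map_add, pt.be_ga, pt.be_inc, lift_apply, pt.be_gm]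
theorem gh_inner (z z' : pt.HT) : ⟪pt.gh ξ z, pt.gh ξ z'⟫_ℝ = ⟪z, z'⟫_ℝ := by
  have h : ∀ a b, ⟪pt.gm ξ a, pt.gm ξ b⟫_ℝ = ⟪a, b⟫_ℝ := expL_inner (pt.skew_adm ξ)
  rw [← pt.inner_inc, ← pt.inner_inc z, pt.be_inc, pt.be_inc]
  simp only [PiLp.inner_apply, lift_apply, h]
theorem ga_dist (X : EE pt.l) : ‖pt.ga ξ X - pt.p0‖ = ‖X - pt.p0‖ := by
  conv_lhs => rw [← pt.be_p0 ξ, ← map_sub]
  rw [@norm_eq_sqrt_real_inner _ _ _ (pt.ga ξ _), @norm_eq_sqrt_real_inner _ _ _ (X - pt.p0)]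
  congr 1
  exact cv_lift_inner _ ξ _ _
theorem Mi_ga (X : EE pt.l) (i : Fin 9) :
    pt.Mi (pt.ga ξ X) i * pt.gm ξ = pt.gm ξ * pt.Mi X i :=
  ContinuousLinearMap.ext (pt.be_Mi ξ X i)
theorem jac_ga (X : EE pt.l) : pt.jac (pt.ga ξ X) = pt.jac X := by
  unfold jac
  congr 1
  refine be_det (pt.adm ξ) (pt.be_adm ξ (pt.contr_mem_l _ fun i => (X i).2)
    (pt.contr_mem_l _ fun i => (pt.ga ξ X i).2) ?_)
  rw [← contr_lift]
  congr 1
  exact PiLp.ext fun i => pt.be_ga ξ X i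
theorem WH_ga (X : EE pt.l) (z : pt.HT) :
    pt.WH (pt.ga ξ X) (pt.gh ξ z) = pt.gh ξ (pt.WH X z) := by
  have h : ∀ (X : EE pt.l) (z : pt.HT), pt.WH X z = pt.prj (pt.W X (pt.inc z)) := fun _ _ => rfl
  refine pt.be_inj ?_
  rw [pt.be_inc, h, h, pt.be_inc, pt.be_W, pt.be_prj]
theorem be_aGa (X : EE pt.l) (u : SS pt.lᗮ) :
    pt.aGa G (pt.ga ξ X) (lift (pt.gm ξ) u) = lift (pt.gm ξ) (pt.aGa G X u) :=
  be_psq (lift (pt.gm ξ)) (pt.skew_Ga G X) (pt.skew_Ga G (pt.ga ξ X)) (pt.be_Ga G ξ X) u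
theorem be_h1 : (lift (pt.gm ξ) * lift (expL (-pt.adm ξ)) : SS pt.lᗮ →L[ℝ] SS pt.lᗮ) = 1 :=
  ContinuousLinearMap.ext fun u => PiLp.ext fun i =>
    congrArg (fun B : pt.lᗮ →L[ℝ] pt.lᗮ => B (u i)) (expL_mul_neg (pt.adm ξ)).1
theorem be_h2 : (lift (expL (-pt.adm ξ)) * lift (pt.gm ξ) : SS pt.lᗮ →L[ℝ] SS pt.lᗮ) = 1 :=
  ContinuousLinearMap.ext fun u => PiLp.ext fun i =>
    congrArg (fun B : pt.lᗮ →L[ℝ] pt.lᗮ => B (u i)) (expL_mul_neg (pt.adm ξ)).2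
theorem be_h3 (X : EE pt.l) : Ring.inverse (pt.aGa G (pt.ga ξ X)) * lift (pt.gm ξ) =
    lift (pt.gm ξ) * Ring.inverse (pt.aGa G X) :=
  be_inv (pt.be_h1 ξ) (pt.be_h2 ξ) (ContinuousLinearMap.ext (pt.be_aGa G ξ X))
theorem be_h4 (X : EE pt.l) (u : SS pt.lᗮ) :
    Ring.inverse (pt.aGa G (pt.ga ξ X)) (lift (pt.gm ξ) u) =
      lift (pt.gm ξ) (Ring.inverse (pt.aGa G X) u) :=
  congrArg (fun B : SS pt.lᗮ →L[ℝ] SS pt.lᗮ => B u) (pt.be_h3 G ξ X)
theorem be_h5 (Y : EE pt.l) (v : SS pt.lᗮ) :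
    pt.J G Y v = -pt.Ga G Y (Ring.inverse (pt.aGa G Y) v) := rfl
theorem be_h6 (X : EE pt.l) (u : SS pt.lᗮ) :
    pt.J G (pt.ga ξ X) (lift (pt.gm ξ) u) = lift (pt.gm ξ) (pt.J G X u) := by
  rw [pt.be_h5, pt.be_h5, pt.be_h4, pt.be_Ga]
  exact (ContinuousLinearMap.map_neg _ _).symm
theorem J_ga (X : EE pt.l) :
    pt.J G (pt.ga ξ X) * lift (pt.gm ξ) = lift (pt.gm ξ) * pt.J G X := by
  refine ContinuousLinearMap.ext fun u => ?_
  rw [mul_apply_eq_comp, mul_apply_eq_comp]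
  exact pt.be_h6 G ξ X u
end Patch

namespace Mod
variable (M : Mod V F) (G : Gam) (pt : Patch M.L) (ξ : pt.l)
theorem rho_split : M.rho ξ = (M.Ml pt).rho ξ * M.Um pt ξ := by
  have h1 := M.spin_split pt (T := lift (M.L.br ξ)) (T1 := lift ((M.Ml pt).L.br ξ))
    (T2 := lift (pt.adm ξ)) (fun u => PiLp.ext fun i => rfl)
    (fun u => PiLp.ext fun i => (pt.adm_apply ξ.2 (u i)).symm)
  have h2 := be_comm (M.Ml pt).C (M.Cm pt) (fun u v => by
    have h3 := M.C.car (lift pt.l.subtypeL u) (lift pt.lᗮ.subtypeL v)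
    have h4 : ⟪lift pt.l.subtypeL u, lift pt.lᗮ.subtypeL v⟫_ℝ = 0 := by
      rw [PiLp.inner_apply]
      exact Finset.sum_eq_zero fun i _ => Submodule.inner_right_of_mem_orthogonal (u i).2 (v i).2
    rw [h4, zero_smul] at h3
    exact eq_neg_of_add_eq_zero_left h3) (lift ((M.Ml pt).L.br ξ)) (lift (pt.adm ξ))
  rw [Mod.rho, h1]
  exact be_exp_add h2
theorem rho_l_comm (J : SS pt.lᗮ →L[ℝ] SS pt.lᗮ) :
    (M.Ml pt).rho ξ * (M.Cm pt).vac J = (M.Cm pt).vac J * (M.Ml pt).rho ξ :=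
  Commute.exp_left (M.spin_l_comm pt _ J)
theorem Um_Pi (X : EE pt.l) :
    M.Um pt ξ * M.Pi G pt X = M.Pi G pt (pt.ga ξ X) * M.Um pt ξ := by
  have h := pt.J_ga G ξ X
  rw [pt.be_lift] at h
  exact be_vac (M.Cm pt) (skew_lift (pt.skew_adm ξ)) h
variable {M G pt} {r d : ℝ} (hg : M.GB G pt r d)
include hg
/-- the heavy vacuum at the base point is neutral (`spin_vac`, `Cen.J_comm`, `Cen.tr_J_lift`) -/
theorem GB.Um_Pi0 (ξ : pt.l) : M.Um pt ξ * M.Pi0 G pt = M.Pi0 G pt ∧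
    M.Pi0 G pt * M.Um pt ξ = M.Pi0 G pt := by
  have h0 := hg.2.2 pt.p0 (Metric.mem_ball_self hg.1)
  have h1 : M.Um pt ξ * M.Pi0 G pt = M.Pi0 G pt :=
    be_neutral (M.Cm pt) (pt.J_spec G hg.2.1 h0.ga).1 (skew_lift (pt.skew_adm ξ))
      (Patch.Cen.J_comm pt G pt.cen_p0 hg.2.1 h0.mv ξ.2)
      (Patch.Cen.tr_J_lift pt G pt.cen_p0 hg.2.1 h0.mv _)
  have h2 := M.Um_Pi G pt ξ pt.p0
  rw [pt.be_p0] at h2
  exact ⟨h1, h2.symm.trans h1⟩
theorem GB.kap_ga (ξ : pt.l) (X : EE pt.l) : M.kap G pt (pt.ga ξ X) = M.kap G pt X := by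
  unfold kap
  rw [be_tr ((M.Cm pt).exp_spin_unitary (skew_lift (pt.skew_adm ξ))) (hg.Um_Pi0 ξ).1
    (hg.Um_Pi0 ξ).2 (M.Um_Pi G pt ξ X)]
variable [MeasurableSpace V] [BorelSpace V]
/-- the projected function is invariant under the light group -/
theorem GB.inv_Td {r' κ lam : ℝ} {φ : EE V → F} (h : M.Adm pt r' κ φ) :
    (M.Ml pt).Inv (M.Td G pt lam φ) := by
  intro ξ X
  have hgau := be_gau (pt.gh_inner ξ) (pt.WH_ga ξ X) lam
  have hZ : M.ZZ pt lam (pt.ga ξ X) = M.ZZ pt lam X := by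
    unfold ZZ
    rw [← cv_int (pt.gh_inner ξ)]
    simp only [hgau]
  have hn : M.nn G pt lam (pt.ga ξ X) = M.nn G pt lam X := by
    unfold nn
    rw [hZ, hg.kap_ga, pt.jac_ga]
  have hu : M.uu pt lam φ (pt.ga ξ X) = M.rho ξ (M.uu pt lam φ X) := by
    unfold uu
    rw [← be_int (pt.gh_inner ξ), ← be_uint (M.rho_unitary ξ)]
    simp only [hgau, ← pt.ex_sp, h.linv ξ ξ.2, ContinuousLinearMap.map_smul_of_tower]
  have hop : M.Pi0 G pt * (M.Pi G pt (pt.ga ξ X) * M.rho ξ) =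
      (M.Ml pt).rho ξ * (M.Pi0 G pt * M.Pi G pt X) := by
    have a1 : (M.Ml pt).rho ξ * M.Pi G pt (pt.ga ξ X) = M.Pi G pt (pt.ga ξ X) * (M.Ml pt).rho ξ :=
      M.rho_l_comm pt ξ _
    have a2 : (M.Ml pt).rho ξ * M.Pi0 G pt = M.Pi0 G pt * (M.Ml pt).rho ξ := M.rho_l_comm pt ξ _
    rw [M.rho_split pt ξ, ← mul_assoc (M.Pi G pt (pt.ga ξ X)), ← a1, mul_assoc,
      ← M.Um_Pi G pt ξ X, ← mul_assoc, ← a2, mul_assoc, ← mul_assoc (M.Pi0 G pt),
      (hg.Um_Pi0 ξ).2]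
  have h2 := congrArg (fun B : F →L[ℂ] F => B (M.uu pt lam φ X)) hop
  simp only [mul_apply_eq_comp] at h2
  change M.Td G pt lam φ (pt.ga ξ X) = _
  unfold Td
  rw [hn, hu, h2, ContinuousLinearMap.map_smul_of_tower]
end Mod

end Vale.Agent.P353
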