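import Vale.Agent.P353.AOsc2
import Vale.Agent.P353.AForm1

open MeasureTheory NormedSpace
open Complex (I)
open scoped InnerProductSpace ContDiff

noncomputable section
namespace Vale.Agent.P353
variable {E F : Type} [NormedAddCommGroup E] [InnerProductSpace ℝ E] [FiniteDimensional ℝ E]
  [MeasurableSpace E] [BorelSpace E]
  [NormedAddCommGroup F] [InnerProductSpace ℂ F] [CompleteSpace F]

/-! Abstract lemmas on one fibre. -/

omit [CompleteSpace F] in
theorem bfib_cs {g : E → F} {p q : E → ℝ} (hp : Continuous p) (hq : Continuous q)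
    (ip : Integrable fun z => p z ^ 2) (iq : Integrable fun z => q z ^ 2)
    (h : ∀ z, ‖g z‖ ≤ p z * q z) : ‖∫ z, g z‖ ^ 2 ≤ (∫ z, p z ^ 2) * ∫ z, q z ^ 2 := by
  have i1 : Integrable fun z => p z * q z :=
    (ip.add iq).mono' (hp.mul hq).aestronglyMeasurable (Filter.Eventually.of_forall fun z => by
      rw [Real.norm_eq_abs, abs_le, Pi.add_apply]
      constructor <;> nlinarith [sq_nonneg (p z + q z), sq_nonneg (p z - q z)])
  have h1 := discrim_le_zero (a := ∫ z, p z ^ 2) (b := 2 * ∫ z, p z * q z) (c := ∫ z, q z ^ 2)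
    fun t => by
      rw [← integral_mul_const, ← integral_const_mul, ← integral_mul_const,
        ← integral_add (ip.mul_const _) ((i1.const_mul _).mul_const _), ← integral_add _ iq]
      · exact integral_nonneg fun z => by
          simp only [Pi.zero_apply]
          nlinarith [sq_nonneg (p z * t + q z)]
      · exact (ip.mul_const _).add ((i1.const_mul _).mul_const _)
  refine (pow_le_pow_left₀ (norm_nonneg _)
    (norm_integral_le_of_norm_le i1 (Filter.Eventually.of_forall h)) 2).trans ?_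
  rw [discrim] at h1
  linarith

omit [CompleteSpace F] in
theorem bfib_l (r : ℝ) (x y : F) : (⟪r • x, y⟫_ℂ).re = r * (⟪x, y⟫_ℂ).re := by
  rw [RCLike.real_smul_eq_coe_smul (K := ℂ), inner_smul_real_left, Complex.smul_re, smul_eq_mul]

omit [CompleteSpace F] in
theorem bfib_r (r : ℝ) (x y : F) : (⟪x, r • y⟫_ℂ).re = r * (⟪x, y⟫_ℂ).re := by
  rw [RCLike.real_smul_eq_coe_smul (K := ℂ), inner_smul_real_right, Complex.smul_re, smul_eq_mul]

omit [CompleteSpace F] in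
theorem bfib_pt (S : F →L[ℂ] F) (x y : F) {t : ℝ} (ht : 0 < t) :
    ‖(⟪x, S x⟫_ℂ).re - (⟪y, S y⟫_ℂ).re‖ ≤ ‖S‖ * (t * ‖y‖ ^ 2 + (1 + t⁻¹) * ‖x - y‖ ^ 2) := by
  obtain ⟨x, rfl⟩ : ∃ u, x = u + y := ⟨x - y, (sub_add_cancel _ _).symm⟩
  have h : ∀ a b : F, ‖⟪a, S b⟫_ℂ‖ ≤ ‖S‖ * (‖a‖ * ‖b‖) := fun a b =>
    (norm_inner_le_norm _ _).trans
      ((mul_le_mul_of_nonneg_left (S.le_opNorm b) (norm_nonneg a)).trans_eq (by ring))
  have e : ⟪x + y, S (x + y)⟫_ℂ - ⟪y, S y⟫_ℂ = ⟪x, S x⟫_ℂ + ⟪x, S y⟫_ℂ + ⟪y, S x⟫_ℂ := by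
    rw [map_add, inner_add_left, inner_add_right, inner_add_right]
    ring
  rw [← Complex.sub_re, e, add_sub_cancel_right]
  refine (Complex.abs_re_le_norm _).trans (norm_add₃_le.trans
    ((add_le_add_three (h _ _) (h _ _) (h _ _)).trans ?_))
  rw [← mul_add, ← mul_add]
  refine mul_le_mul_of_nonneg_left ?_ (norm_nonneg _)
  have h1 : t⁻¹ * (t * ‖y‖ - ‖x‖) ^ 2 = t * ‖y‖ ^ 2 - 2 * (‖x‖ * ‖y‖) + t⁻¹ * ‖x‖ ^ 2 := by
    field_simp
    ring
  have h2 : 0 ≤ t⁻¹ * (t * ‖y‖ - ‖x‖) ^ 2 := by positivity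
  nlinarith

theorem bfib_re {Pr : F →L[ℂ] F} (h1 : Pr * Pr = Pr) (h2 : IsSelfAdjoint Pr) (w : F) :
    (⟪Pr w, w⟫_ℂ).re = ‖Pr w‖ ^ 2 := by
  have h3 : ⟪Pr (Pr w), w⟫_ℂ = ⟪Pr w, Pr w⟫_ℂ := h2.isSymmetric (Pr w) w
  rw [← mul_apply_eq_comp, h1] at h3
  rw [h3]
  exact inner_self_eq_norm_sq (𝕜 := ℂ) _

theorem bfib_py {Pr : F →L[ℂ] F} (h1 : Pr * Pr = Pr) (h2 : IsSelfAdjoint Pr) (w : F) :
    ‖(1 - Pr) w‖ ^ 2 = ‖w‖ ^ 2 - ‖Pr w‖ ^ 2 := by
  rw [sub_apply, one_apply_eq_self, norm_sub_rev, norm_sub_sq (𝕜 := ℂ), RCLike.re_to_complex,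
    bfib_re h1 h2]
  ring

omit [CompleteSpace F] in
theorem bfib_int (W : E →L[ℝ] E) {φ : E → F} (h : Tst φ) : Integrable fun z => gau W z • φ z :=
  ((aosc_cont W).smul h.1.continuous).integrable_of_hasCompactSupport h.2.smul_left

/-- Cauchy-Schwarz -/
theorem fib_cs {W : E →L[ℝ] E} {g : E → F} {a b : E → ℝ} (hb : Continuous b)
    (hs : HasCompactSupport b) (ha : Continuous a) (hi : Integrable fun z => a z ^ 2 * gau W z ^ 2)
    (h : ∀ z, ‖g z‖ ≤ a z * b z) :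
    ‖∫ z, gau W z • g z‖ ^ 2 ≤ (∫ z, a z ^ 2 * gau W z ^ 2) * ∫ z, b z ^ 2 := by
  have iq : Integrable fun z => b z ^ 2 :=
    Continuous.integrable_of_hasCompactSupport (by fun_prop)
      (hs.mono fun z hz h0 => hz (by simp [h0]))
  have ip : Integrable fun z => (a z * gau W z) ^ 2 := by simpa only [mul_pow] using hi
  have h1 := bfib_cs (p := fun z => a z * gau W z) (q := b) (g := fun z => gau W z • g z)
    (ha.mul (aosc_cont W)) hb ip iq fun z => by
      rw [norm_smul, Real.norm_of_nonneg (aosc_pos W z).le, mul_right_comm, mul_comm _ (gau W z)]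
      exact mul_le_mul_of_nonneg_left (h z) (aosc_pos W z).le
  simpa only [mul_pow] using h1

/-- with a linear weight -/
theorem fib_lin : ∃ K : ℝ, 0 < K ∧ ∀ (W : E →L[ℝ] E) (c : ℝ), 0 < c → Pos c W →
    ∀ (g : E → F) (b : E → ℝ) (A : ℝ), Continuous b → HasCompactSupport b →
      (∀ z, ‖g z‖ ≤ A * ‖z‖ * b z) →
      ‖∫ z, gau W z • g z‖ ^ 2 ≤ K * A ^ 2 / c * (∫ z, gau W z ^ 2) * ∫ z, b z ^ 2 := by
  obtain ⟨K, hK, H⟩ := gau_moment (E := E) 1
  refine ⟨K, hK, fun W c hc hW g b A hb hs h => ?_⟩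
  obtain ⟨h1, h2⟩ := H W c hc hW
  simp only [mul_one, pow_one] at h1 h2
  have e : (fun z : E => (A * ‖z‖) ^ 2 * gau W z ^ 2) = fun z => A ^ 2 * (‖z‖ ^ 2 * gau W z ^ 2) := by
    funext z
    ring
  refine (fib_cs hb hs (a := fun z => A * ‖z‖) (by fun_prop) (e ▸ h1.const_mul _) h).trans
    (mul_le_mul_of_nonneg_right ?_ (integral_nonneg fun z => sq_nonneg _))
  rw [e, integral_const_mul]
  exact (mul_le_mul_of_nonneg_left h2 (sq_nonneg A)).trans_eq (by ring)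

theorem fib_le {W : E →L[ℝ] E} {c : ℝ} (hc : 0 < c) (hW : Pos c W) {φ : E → F} (h : Tst φ) :
    0 < ∫ z, gau W z ^ 2 ∧ ‖∫ z, gau W z • φ z‖ ^ 2 / (∫ z, gau W z ^ 2) ≤ n2 φ := by
  have h0 : 0 < ∫ z, gau W z ^ 2 := by
    rw [(gau_sq_integral hc hW).2]
    exact Real.sqrt_pos.2 (div_pos (pow_pos Real.pi_pos _) (det_pos_of_pos hc hW))
  refine ⟨h0, (div_le_iff₀' h0).2 ?_⟩
  simpa [n2] using fib_cs (W := W) (g := φ) (a := fun _ => 1) h.1.continuous.norm h.2.norm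
    continuous_const (by simpa using aosc_int hc hW) fun z => (one_mul _).ge

theorem bfib_dec {W : E →L[ℝ] E} {c : ℝ} (hc : 0 < c) (hW : Pos c W) {Pr : F →L[ℂ] F}
    (h1 : Pr * Pr = Pr) (h2 : IsSelfAdjoint Pr) {φ : E → F} (h : Tst φ) :
    Integrable (fun z =>
      ‖φ z - gau W z • (∫ z, gau W z ^ 2)⁻¹ • Pr (∫ z, gau W z • φ z)‖ ^ 2) ∧
    ∫ z, ‖φ z - gau W z • (∫ z, gau W z ^ 2)⁻¹ • Pr (∫ z, gau W z • φ z)‖ ^ 2 =
      n2 φ - ‖Pr (∫ z, gau W z • φ z)‖ ^ 2 / ∫ z, gau W z ^ 2 := by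
  have hZ := (fib_le hc hW h).1
  have i0 := aosc_int hc hW
  have i1 := h.int_wt (w := fun _ => 1) continuousOn_const
  have h3 := bfib_re h1 h2 (∫ z, gau W z • φ z)
  set Z := ∫ z, gau W z ^ 2 with hZd
  set w := Pr (∫ z, gau W z • φ z)
  have i2 := ((bfib_int W h).const_inner (𝕜 := ℂ) w).re
  have e2 := integral_re ((bfib_int W h).const_inner (𝕜 := ℂ) w)
  rw [integral_inner (bfib_int W h), RCLike.re_to_complex, h3] at e2
  simp only [one_mul, RCLike.re_to_complex] at i1 i2 e2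
  have e : ∀ z, ‖φ z - gau W z • Z⁻¹ • w‖ ^ 2 = ‖φ z‖ ^ 2 -
      2 * Z⁻¹ * (⟪w, gau W z • φ z⟫_ℂ).re + gau W z ^ 2 * (Z⁻¹ ^ 2 * ‖w‖ ^ 2) := fun z => by
    rw [norm_sub_rev, norm_sub_sq (𝕜 := ℂ), RCLike.re_to_complex, bfib_l, bfib_l, bfib_r]
    simp only [norm_smul, mul_pow, Real.norm_eq_abs, sq_abs]
    ring
  simp only [e]
  refine ⟨(i1.sub (i2.const_mul _)).add (i0.mul_const _), ?_⟩
  rw [integral_add (by exact i1.sub (i2.const_mul _)) (i0.mul_const _),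
    integral_sub i1 (i2.const_mul _), integral_const_mul, integral_mul_const, e2, n2, ← hZd]
  field_simp
  ring

/-- average of a bilinear map -/
theorem fib_avg {A : Type} [NormedAddCommGroup A] [NormedSpace ℝ A] [CompleteSpace A]
    {W : E →L[ℝ] E} {c : ℝ} (hc : 0 < c) (hW : Pos c W) (B : E →L[ℝ] E →L[ℝ] A) :
    Integrable (fun z => gau W z ^ 2 • B z z) ∧ ∫ z, gau W z ^ 2 • B z z =
      ((∫ z, gau W z ^ 2) / 2) • ∑ k, B (stdOrthonormalBasis ℝ E k)
        (Ring.inverse W (stdOrthonormalBasis ℝ E k)) := by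
  set b := stdOrthonormalBasis ℝ E
  have e : ∀ z, gau W z ^ 2 • B z z = ∑ k, ∑ j,
      (⟪b k, z⟫_ℝ * ⟪W z, b j⟫_ℝ * gau W z ^ 2) • B (b k) (Ring.inverse W (b j)) := fun z => by
    have h1 : z = ∑ j, ⟪W z, b j⟫_ℝ • Ring.inverse W (b j) := by
      simp only [← map_smul, ← map_sum, real_inner_comm _ (W z), b.sum_repr']
      rw [← mul_apply_eq_comp, Ring.inverse_mul_cancel _ (hW.isUnit hc).1]
      rfl
    have h2 : B z z = B (∑ k, ⟪b k, z⟫_ℝ • b k) (∑ j, ⟪W z, b j⟫_ℝ • Ring.inverse W (b j)) := by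
      rw [← h1, b.sum_repr']
    rw [h2, map_sum B, FunLike.coe_sum, Finset.sum_apply, Finset.smul_sum]
    refine Finset.sum_congr rfl fun k _ => ?_
    rw [map_sum, Finset.smul_sum]
    refine Finset.sum_congr rfl fun j _ => ?_
    rw [map_smul, map_smul, smul_apply, smul_smul, smul_smul]
    congr 1
    ring
  have hi : ∀ k j, Integrable fun z =>
      (⟪b k, z⟫_ℝ * ⟪W z, b j⟫_ℝ * gau W z ^ 2) • B (b k) (Ring.inverse W (b j)) :=
    fun k j => (aosc_ibp hc hW _ _).1.smul_const _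
  simp only [e]
  refine ⟨integrable_finsetSum _ fun k _ => integrable_finsetSum _ fun j _ => hi k j, ?_⟩
  rw [integral_finsetSum _ fun k _ => integrable_finsetSum _ fun j _ => hi k j, Finset.smul_sum]
  refine Finset.sum_congr rfl fun k _ => ?_
  rw [integral_finsetSum _ fun j _ => hi k j, Finset.sum_eq_single k]
  · rw [integral_smul_const, (aosc_ibp hc hW _ _).2, b.inner_eq_one]
    congr 1
    ring
  · intro j _ hj
    rw [integral_smul_const, (aosc_ibp hc hW _ _).2, b.inner_eq_zero hj.symm]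
    simp
  · simp

/-- Splitting `φ = G Pr u / Z + φ'`: a kernel `K0 + lam B z z` acts on the vacuum part by its
average, and the rest is controlled by the norm of `φ'`. -/
theorem fib_split : ∃ K : ℝ, 0 < K ∧ ∀ (W : E →L[ℝ] E) (c lam A : ℝ), 0 < c → 0 < lam → Pos c W →
    ∀ (K0 Pr : F →L[ℂ] F) (B : E →L[ℝ] E →L[ℝ] (F →L[ℂ] F)), Pr * Pr = Pr → IsSelfAdjoint Pr →
    ‖K0‖ ≤ A → (∀ z, ‖B z z‖ ≤ A * ‖z‖ ^ 2) → ∀ φ : E → F, Tst φ →
      ‖(∫ z, gau (lam • W) z • (K0 + lam • B z z) (φ z)) -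
        (K0 + (1 / 2 : ℝ) • ∑ k, B (stdOrthonormalBasis ℝ E k)
          (Ring.inverse W (stdOrthonormalBasis ℝ E k))) (Pr (∫ z, gau (lam • W) z • φ z))‖ ^ 2 ≤
      K * A ^ 2 * (1 + 1 / c ^ 2) * (∫ z, gau (lam • W) z ^ 2) *
        (n2 φ - ‖Pr (∫ z, gau (lam • W) z • φ z)‖ ^ 2 / ∫ z, gau (lam • W) z ^ 2) := by
  obtain ⟨K, hK, H⟩ := gau_moment (E := E) 2
  refine ⟨2 * (1 + K), by positivity, fun W c lam A hc hl hW K0 Pr B h1 h2 hA hB φ h => ?_⟩
  have hc' := mul_pos hl hc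
  have hW' : Pos (lam * c) (lam • W) := ⟨fun u v => by
    simp only [smul_apply, real_inner_smul_left, real_inner_smul_right, hW.1 u v], fun u => by
    rw [smul_apply, real_inner_smul_right, mul_assoc]
    exact mul_le_mul_of_nonneg_left (hW.2 u) hl.le⟩
  have hinv : Ring.inverse (lam • W) = lam⁻¹ • Ring.inverse W := by
    rw [← Ring.inverse_mul_cancel_left _ (lam⁻¹ • Ring.inverse W) (hW'.isUnit hc').1,
      smul_mul_smul_comm, mul_inv_cancel₀ hl.ne', Ring.mul_inverse_cancel _ (hW.isUnit hc).1,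
      one_smul, mul_one]
  obtain ⟨m1, m2⟩ := H _ _ hc' hW'
  obtain ⟨a1, a2⟩ := fib_avg hc' hW' B
  obtain ⟨d1, d2⟩ := bfib_dec hc' hW' h1 h2 h
  have hZ := (fib_le hc' hW' h).1
  have i0 := aosc_int hc' hW'
  have cG := aosc_cont (lam • W)
  have cφ := h.1.continuous
  set G := gau (lam • W) with hG
  set Z := ∫ z, G z ^ 2 with hZd
  set w := Pr (∫ z, G z • φ z) with hw
  have hA0 : 0 ≤ A := (norm_nonneg _).trans hA
  have i1 : Integrable fun z => G z ^ 2 • (K0 + lam • B z z) := by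
    refine ((i0.smul_const K0).add (a1.smul lam)).congr (Filter.Eventually.of_forall fun z => ?_)
    simp only [Pi.add_apply, Pi.smul_apply, smul_add, smul_comm lam]
  have e1 : ∫ z, G z ^ 2 • (K0 + lam • B z z) = Z • (K0 + (1 / 2 : ℝ) • ∑ k,
      B (stdOrthonormalBasis ℝ E k) (Ring.inverse W (stdOrthonormalBasis ℝ E k))) := by
    simp only [smul_add, ← smul_comm lam]
    rw [integral_add (i0.smul_const K0) (by exact a1.smul lam), integral_smul_const, integral_smul,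
      a2, hinv]
    simp only [smul_apply, map_smul, ← Finset.smul_sum, smul_smul]
    congr 2
    field_simp
  have i2 : Integrable fun z => G z • (K0 + lam • B z z) (φ z) :=
    Continuous.integrable_of_hasCompactSupport (by fun_prop)
      (h.2.mono fun z hz h0 => hz (by simp [h0]))
  have e2 : (∫ z, G z • (K0 + lam • B z z) (φ z)) - (K0 + (1 / 2 : ℝ) • ∑ k,
      B (stdOrthonormalBasis ℝ E k) (Ring.inverse W (stdOrthonormalBasis ℝ E k))) w =
      ∫ z, G z • (K0 + lam • B z z) (φ z - G z • Z⁻¹ • w) := by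
    have h3 := ContinuousLinearMap.integral_apply i1 (Z⁻¹ • w)
    rw [e1, smul_apply, ContinuousLinearMap.map_smul_of_tower, smul_smul, mul_inv_cancel₀ hZ.ne',
      one_smul] at h3
    rw [h3, ← integral_sub i2 (i1.apply_continuousLinearMap _)]
    refine integral_congr_ae (Filter.Eventually.of_forall fun z => ?_)
    simp only [map_sub, smul_sub, smul_apply, ContinuousLinearMap.map_smul_of_tower, smul_smul, sq,
      mul_assoc]
  have hp : ∀ z : E, (A * (1 + lam * ‖z‖ ^ 2) * G z) ^ 2 ≤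
      2 * A ^ 2 * (G z ^ 2 + lam ^ 2 * (‖z‖ ^ (2 * 2) * G z ^ 2)) := fun z => by
    rw [pow_mul]
    exact sub_nonneg.1 ((sq_nonneg (A * (1 - lam * ‖z‖ ^ 2) * G z)).trans_eq (by ring))
  have i3 := (i0.add (m1.const_mul (lam ^ 2))).const_mul (2 * A ^ 2)
  have i4 : Integrable fun z : E => (A * (1 + lam * ‖z‖ ^ 2) * G z) ^ 2 :=
    i3.mono' (Continuous.aestronglyMeasurable (by fun_prop)) (Filter.Eventually.of_forall fun z =>
      (Real.norm_of_nonneg (sq_nonneg _)).trans_le (hp z))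
  rw [e2, ← d2]
  refine (bfib_cs (by fun_prop) (by fun_prop) i4 d1 fun z => ?_).trans
    (mul_le_mul_of_nonneg_right ?_ (integral_nonneg fun z => sq_nonneg _))
  · rw [norm_smul, Real.norm_of_nonneg (aosc_pos _ z).le, mul_right_comm, mul_comm _ (G z)]
    refine mul_le_mul_of_nonneg_left ((ContinuousLinearMap.le_opNorm _ _).trans
      (mul_le_mul_of_nonneg_right ((norm_add_le _ _).trans ?_) (norm_nonneg _))) (aosc_pos _ z).le
    rw [norm_smul, Real.norm_of_nonneg hl.le]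
    nlinarith [mul_le_mul_of_nonneg_left (hB z) hl.le]
  · refine (integral_mono i4 i3 hp).trans ?_
    simp only [Pi.add_apply]
    rw [integral_const_mul, integral_add i0 (m1.const_mul _), integral_const_mul]
    have h3 : lam ^ 2 * ∫ z, ‖z‖ ^ (2 * 2) * G z ^ 2 ≤ K * (1 / c ^ 2) * Z :=
      (mul_le_mul_of_nonneg_left m2 (sq_nonneg lam)).trans_eq (by field_simp)
    have h4 : 0 ≤ K * Z + 1 / c ^ 2 * Z := by positivity
    nlinarith [sq_nonneg A]

/-- expectation values of a constant operator -/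
theorem fib_bil {W : E →L[ℝ] E} {c : ℝ} (hc : 0 < c) (hW : Pos c W) {Pr S : F →L[ℂ] F}
    (h1 : Pr * Pr = Pr) (h2 : IsSelfAdjoint Pr) {φ : E → F} (h : Tst φ) {t : ℝ} (ht : 0 < t) :
    |(∫ z, (⟪φ z, S (φ z)⟫_ℂ).re) - (⟪Pr (∫ z, gau W z • φ z), S (Pr (∫ z, gau W z • φ z))⟫_ℂ).re /
        ∫ z, gau W z ^ 2| ≤
      ‖S‖ * (t * n2 φ + (1 + t⁻¹) *
        (n2 φ - ‖Pr (∫ z, gau W z • φ z)‖ ^ 2 / ∫ z, gau W z ^ 2)) := by
  obtain ⟨d1, d2⟩ := bfib_dec hc hW h1 h2 h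
  have hZ := (fib_le hc hW h).1
  have i0 := aosc_int hc hW
  have d3 : 0 ≤ n2 φ - ‖Pr (∫ z, gau W z • φ z)‖ ^ 2 / ∫ z, gau W z ^ 2 :=
    d2 ▸ integral_nonneg fun z => sq_nonneg _
  set G := gau W with hG
  set Z := ∫ z, G z ^ 2 with hZd
  set w := Pr (∫ z, G z • φ z) with hw
  have e1 : ∀ z, (⟪G z • Z⁻¹ • w, S (G z • Z⁻¹ • w)⟫_ℂ).re =
      G z ^ 2 * (Z⁻¹ ^ 2 * (⟪w, S w⟫_ℂ).re) := fun z => by
    simp only [ContinuousLinearMap.map_smul_of_tower, bfib_l, bfib_r]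
    ring
  have e2 : (⟪w, S w⟫_ℂ).re / Z = ∫ z, G z ^ 2 * (Z⁻¹ ^ 2 * (⟪w, S w⟫_ℂ).re) := by
    rw [integral_mul_const, ← hZd]
    field_simp
  have e3 : ∀ z, ‖G z • Z⁻¹ • w‖ ^ 2 = G z ^ 2 * (Z⁻¹ ^ 2 * ‖w‖ ^ 2) := fun z => by
    simp only [norm_smul, mul_pow, Real.norm_eq_abs, sq_abs]
  have i1 := ((i0.mul_const (Z⁻¹ ^ 2 * ‖w‖ ^ 2)).const_mul t).add (d1.const_mul (1 + t⁻¹))
  rw [e2, ← integral_sub (h.int_opf continuousOn_const) (i0.mul_const _), ← Real.norm_eq_abs]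
  refine (norm_integral_le_of_norm_le (i1.const_mul ‖S‖)
    (Filter.Eventually.of_forall fun z => ?_)).trans ?_
  · rw [← e1, Pi.add_apply, ← e3]
    exact bfib_pt S _ _ ht
  · simp only [Pi.add_apply]
    rw [integral_const_mul, integral_add ((i0.mul_const _).const_mul t) (d1.const_mul _),
      integral_const_mul, integral_const_mul, integral_mul_const, d2, ← hZd]
    refine mul_le_mul_of_nonneg_left (add_le_add_left (mul_le_mul_of_nonneg_left ?_ ht.le) _)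
      (norm_nonneg _)
    exact le_trans (le_of_eq (by field_simp)) (sub_nonneg.1 d3)

/-- the bosonic and the fermionic gap control the excited part -/
theorem fib_comb {W : E →L[ℝ] E} {c : ℝ} (hc : 0 < c) (hW : Pos c W) {Pr : F →L[ℂ] F}
    (h1 : Pr * Pr = Pr) (h2 : IsSelfAdjoint Pr) {φ : E → F} (h : Tst φ) :
    0 ≤ n2 φ - ∫ z, ‖Pr (φ z)‖ ^ 2 ∧
    0 ≤ n2 φ - ‖Pr (∫ z, gau W z • φ z)‖ ^ 2 / ∫ z, gau W z ^ 2 ∧
    n2 φ - ‖Pr (∫ z, gau W z • φ z)‖ ^ 2 / (∫ z, gau W z ^ 2) ≤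
      (n2 φ - ‖∫ z, gau W z • φ z‖ ^ 2 / ∫ z, gau W z ^ 2) + (n2 φ - ∫ z, ‖Pr (φ z)‖ ^ 2) := by
  have hT : Tst fun z => (1 - Pr) (φ z) := h.clm contDiff_const
  have hP : Tst fun z => Pr (φ z) := h.clm contDiff_const
  have i0 := h.int_wt (w := fun _ => 1) continuousOn_const
  have i1 := hP.int_wt (w := fun _ => 1) continuousOn_const
  simp only [one_mul] at i0 i1
  have e1 : n2 (fun z => (1 - Pr) (φ z)) = n2 φ - ∫ z, ‖Pr (φ z)‖ ^ 2 := by
    simp only [n2, bfib_py h1 h2]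
    exact integral_sub i0 i1
  have e2 : ∫ z, gau W z • (1 - Pr) (φ z) = (1 - Pr) (∫ z, gau W z • φ z) := by
    rw [← (1 - Pr).integral_comp_comm (bfib_int W h)]
    simp only [ContinuousLinearMap.map_smul_of_tower]
  have h3 := (fib_le hc hW hT).2
  rw [e1, e2, bfib_py h1 h2, sub_div] at h3
  refine ⟨e1 ▸ n2_nonneg _, ?_, by linarith⟩
  rw [← (bfib_dec hc hW h1 h2 h).2]
  exact integral_nonneg fun z => sq_nonneg _

/-- integration by parts along an affine vector field -/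
theorem fib_ibp {W : E →L[ℝ] E} (hW : Symm W) (v : E) (A : E →L[ℝ] E) {φ : E → F} (h : Tst φ) :
    ∫ z, gau W z • fderiv ℝ φ z (v + A z) =
      ∫ z, gau W z • ((⟪W z, v + A z⟫_ℝ - tr A) • φ z) := by
  set b := stdOrthonormalBasis ℝ E
  have cG : ContDiff ℝ 1 (gau W) := by
    unfold gau
    exact ((contDiff_id.inner ℝ W.contDiff).neg.div_const 2).exp
  have hu : ∀ k, ContDiff ℝ 1 fun z => (gau W z * ⟪b k, v + A z⟫_ℝ) • φ z := fun k =>
    (cG.mul (contDiff_const.inner ℝ (contDiff_const.add A.contDiff))).smul h.one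
  have hs : ∀ k, HasCompactSupport fun z => (gau W z * ⟪b k, v + A z⟫_ℝ) • φ z := fun k =>
    h.2.smul_left
  have hd : ∀ k z, fderiv ℝ (fun z => (gau W z * ⟪b k, v + A z⟫_ℝ) • φ z) z (b k) =
      gau W z • fderiv ℝ φ z (⟪b k, v + A z⟫_ℝ • b k) -
        gau W z • (⟪W z, b k⟫_ℝ * ⟪b k, v + A z⟫_ℝ - ⟪b k, A (b k)⟫_ℝ) • φ z := fun k z => by
    have d1 := (((aosc_quad_deriv hW z).neg.mul_const (2 : ℝ)⁻¹).exp).mul
      ((innerSL ℝ (b k)).hasFDerivAt.comp z (A.hasFDerivAt.const_add v))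
    have d2 : fderiv ℝ (fun z => (gau W z * ⟪b k, v + A z⟫_ℝ) • φ z) z = _ :=
      (d1.smul (h.one.differentiable one_ne_zero z).hasFDerivAt).fderiv
    rw [d2]
    simp only [add_apply, smul_apply, neg_apply, ContinuousLinearMap.smulRight_apply,
      ContinuousLinearMap.comp_apply, innerSL_apply_apply, Pi.mul_apply, Function.comp_apply,
      smul_eq_mul, map_smul, smul_smul, Pi.neg_apply, gau, div_eq_mul_inv]
    module
  have c1 := h.1.continuous
  have c2 := h.one.continuous_fderiv one_ne_zero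
  have c3 := cG.continuous
  have i1 : Integrable fun z => gau W z • fderiv ℝ φ z (v + A z) :=
    Continuous.integrable_of_hasCompactSupport (by fun_prop)
      ((h.2.fderiv (𝕜 := ℝ)).mono fun z hz h0 => hz (by simp [h0]))
  have i2 : Integrable fun z => gau W z • (⟪W z, v + A z⟫_ℝ - tr A) • φ z :=
    Continuous.integrable_of_hasCompactSupport (by fun_prop)
      (h.2.mono fun z hz h0 => hz (by simp [h0]))
  rw [← sub_eq_zero, ← integral_sub i1 i2, ← Finset.sum_eq_zero fun k (_ : k ∈ Finset.univ) =>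
    af1_div (hu k) (hs k) (b k), ← integral_finsetSum _ fun k _ => af1_int_div (hu k) (hs k) _]
  refine integral_congr_ae (Filter.Eventually.of_forall fun z => ?_)
  simp only [hd, Finset.sum_sub_distrib, ← Finset.smul_sum, ← map_sum, ← Finset.sum_smul,
    b.sum_repr', b.sum_inner_mul_inner, tr_eq_sum b]

/-- differentiation under the integral (`contDiffOn_convolution_right_with_param`,
`hasFDerivAt_integral_of_dominated_of_fderiv_le`) -/
theorem param_integral {P : Type} [NormedAddCommGroup P] [NormedSpace ℝ P] [FiniteDimensional ℝ P]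
    {g : P × E → F} {s : Set P} (hs : IsOpen s) {k : Set E} (hk : IsCompact k)
    (hg : ContDiffOn ℝ ∞ g (s ×ˢ Set.univ)) (h0 : ∀ p ∈ s, ∀ z, z ∉ k → g (p, z) = 0) :
    ContDiffOn ℝ ∞ (fun p => ∫ z, g (p, z)) s ∧ ∀ p ∈ s, ∀ a,
      fderiv ℝ (fun p => ∫ z, g (p, z)) p a = ∫ z, fderiv ℝ g (p, z) (a, 0) := by
  have hf : LocallyIntegrable (fun _ : E => (1 : ℝ)) volume := locallyIntegrable_const _
  have e : ∀ u : E → F,
      convolution (fun _ : E => (1 : ℝ)) u (ContinuousLinearMap.lsmul ℝ ℝ) volume 0 = ∫ z, u z :=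
    fun u => by simp [convolution_def, integral_neg_eq_self u]
  have h1 : ∀ p z, p ∈ s → z ∉ k → Function.curry g p z = 0 := fun p z hp hz => h0 p hp z hz
  refine ⟨?_, fun p hp a => ?_⟩
  · simpa only [e, Function.curry_apply] using contDiffOn_convolution_right_with_param_comp (n := ⊤)
      (ContinuousLinearMap.lsmul ℝ ℝ) (v := fun _ => (0 : E)) contDiffOn_const hs hk h1 hf hg
  · have h3 := hasFDerivAt_convolution_right_with_param (ContinuousLinearMap.lsmul ℝ ℝ) hs hk h1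
      hf (hg.of_le (by simp)) (p, 0) hp
    have h2 := HasFDerivAt.comp (f := fun e : P => (e, (0 : E))) p h3
      (hasFDerivAt_prodMk_left (𝕜 := ℝ) p (0 : E))
    simp only [Function.comp_def, e] at h2
    have c1 : Continuous fun z => fderiv ℝ g (p, z) :=
      (hg.continuousOn_fderiv_of_isOpen (hs.prod isOpen_univ) (by simp)).comp_continuous
        (by fun_prop) fun z => ⟨hp, trivial⟩
    have c2 : HasCompactSupport fun z => fderiv ℝ g (p, z) := .intro hk fun z hz =>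
      (hasFDerivAt_zero_of_eventually_const 0
        (((hs.prod hk.isClosed.isOpen_compl).eventually_mem (⟨hp, hz⟩ : (p, z) ∈ s ×ˢ kᶜ)).mono
          fun q hq => h0 _ hq.1 _ hq.2)).fderiv
    refine (DFunLike.congr_fun h2.fderiv a).trans ?_
    exact (convolution_precompR_apply _ hf c2 c1 0 (a, 0)).trans (e _)

end Vale.Agent.P353
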