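import Vale.Agent.P353.BKap

open MeasureTheory NormedSpace
open Complex (I)
open scoped InnerProductSpace ContDiff

noncomputable section
namespace Vale.Agent.P353

section gen
variable {E A : Type} [NormedAddCommGroup E] [ProperSpace E] [NormedAddCommGroup A] {p : E} {r : ℝ}
  {f : E → A}

theorem bk_unif (hr : 0 < r) (hf : ContinuousOn f (Metric.ball p r)) {η : ℝ} (hη : 0 < η) :
    ∃ κ > 0, ∀ X ∈ Metric.ball p (r / 2), ∀ Y, ‖X - Y‖ < κ →
      Y ∈ Metric.ball p r ∧ ‖f X - f Y‖ ≤ η := by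
  have hs : Metric.closedBall p (3 * r / 4) ⊆ Metric.ball p r :=
    Metric.closedBall_subset_ball (by linarith)
  have hu := (isCompact_closedBall p (3 * r / 4)).uniformContinuousOn_of_continuous (hf.mono hs)
  obtain ⟨δ, hδ, h⟩ := Metric.uniformContinuousOn_iff.1 hu η hη
  refine ⟨min δ (r / 4), lt_min hδ (by linarith), fun X hX Y hY => ?_⟩
  rw [lt_min_iff, ← dist_eq_norm] at hY
  rw [Metric.mem_ball] at hX
  have hY' : Y ∈ Metric.closedBall p (3 * r / 4) := by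
    have := dist_triangle_left Y p X
    rw [Metric.mem_closedBall]
    linarith [hY.2]
  refine ⟨hs hY', ?_⟩
  rw [← dist_eq_norm]
  exact (h X (Metric.mem_closedBall.2 (by linarith)) Y hY' hY.1).le

theorem bk_bdd (hr : 0 < r) (hf : ContinuousOn f (Metric.ball p r)) :
    ∃ C > 0, ∀ X ∈ Metric.ball p (r / 2), ‖f X‖ ≤ C := by
  have hs : Metric.closedBall p (r / 2) ⊆ Metric.ball p r :=
    Metric.closedBall_subset_ball (by linarith)
  obtain ⟨C, h⟩ := (isCompact_closedBall p (r / 2)).exists_bound_of_continuousOn (hf.mono hs)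
  exact ⟨max C 1, by positivity, fun X hX =>
    (h X (Metric.ball_subset_closedBall hX)).trans (le_max_left _ _)⟩
end gen

theorem bk_bil {A B C : Type} [NormedAddCommGroup A] [NormedSpace ℝ A] [NormedAddCommGroup B]
    {k : Type} [NontriviallyNormedField k] [NormedSpace k B] [NormedAddCommGroup C] [NormedSpace k C]
    [NormedSpace ℝ C] [SMulCommClass k ℝ C]
    (f : A →L[ℝ] B →L[k] C) : ∃ c > 0, ∀ a b, ‖f a b‖ ≤ c * ‖a‖ * ‖b‖ :=
  ⟨‖f‖ + 1, by positivity, fun a b => ((f a).le_opNorm b).trans <|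
    mul_le_mul_of_nonneg_right ((f.le_opNorm a).trans (mul_le_mul_of_nonneg_right
      (le_add_of_nonneg_right zero_le_one) (norm_nonneg _))) (norm_nonneg _)⟩

theorem bk_lin {A B : Type} [NormedAddCommGroup A] [NormedSpace ℝ A] [NormedAddCommGroup B]
    [NormedSpace ℝ B] (f : A →L[ℝ] B) : ∃ c > 0, ∀ a, ‖f a‖ ≤ c * ‖a‖ :=
  ⟨‖f‖ + 1, by positivity, fun a => (f.le_opNorm a).trans (by gcongr; exact le_add_of_nonneg_right zero_le_one)⟩

theorem bk_tr (S : Type) [NormedAddCommGroup S] [InnerProductSpace ℝ S] [FiniteDimensional ℝ S] :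
    ∃ t : (S →L[ℝ] S) →L[ℝ] ℝ, ∀ T, t T = tr T :=
  ⟨LinearMap.toContinuousLinearMap
    ((LinearMap.trace ℝ S) ∘ₗ ContinuousLinearMap.coeLM ℝ), fun _ => rfl⟩

theorem bk_cont_tr {S : Type} [NormedAddCommGroup S] [InnerProductSpace ℝ S]
    [FiniteDimensional ℝ S] : Continuous (tr : (S →L[ℝ] S) → ℝ) := by
  obtain ⟨t, ht⟩ := bk_tr S
  exact t.continuous.congr ht

theorem bk_sq {A : Type} [SeminormedAddCommGroup A] (a b : A) {t : ℝ} (ht : 0 < t) :
    (1 - t) * ‖a‖ ^ 2 - t⁻¹ * ‖b‖ ^ 2 ≤ ‖a + b‖ ^ 2 := by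
  have h1 : |‖a‖ - ‖b‖| ≤ ‖a + b‖ := by simpa using abs_norm_sub_norm_le a (-b)
  have h2 : (‖a‖ - ‖b‖) ^ 2 ≤ ‖a + b‖ ^ 2 := by
    rw [← sq_abs]; exact pow_le_pow_left₀ (abs_nonneg _) h1 2
  have h3 : 0 ≤ t⁻¹ * (t * ‖a‖ - ‖b‖) ^ 2 := by positivity
  have h4 : t⁻¹ * (t * ‖a‖ - ‖b‖) ^ 2 = t * ‖a‖ ^ 2 - 2 * ‖a‖ * ‖b‖ + t⁻¹ * ‖b‖ ^ 2 := by
    field_simp; ring
  nlinarith [sq_nonneg ‖b‖]

variable {V F : Type} [NormedAddCommGroup V] [InnerProductSpace ℝ V] [FiniteDimensional ℝ V]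
  [NormedAddCommGroup F] [InnerProductSpace ℂ F] [CompleteSpace F]

theorem Patch.Bl_clm {L : CL V} (pt : Patch L) :
    ∃ B : pt.lᗮ →L[ℝ] pt.HT →L[ℝ] EE pt.l, ∀ ξ, B ξ = pt.Bl ξ :=
  ⟨LinearMap.toContinuousLinearMap
    { toFun := pt.Bl
      map_add' := fun a b => by ext z i; simp [Patch.Bl]
      map_smul' := fun c a => by ext z i; simp [Patch.Bl] }, fun _ => rfl⟩

theorem Patch.Bm_clm {L : CL V} (pt : Patch L) :
    ∃ B : pt.lᗮ →L[ℝ] pt.HT →L[ℝ] pt.HT, ∀ ξ, B ξ = pt.Bm ξ :=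
  ⟨LinearMap.toContinuousLinearMap
    { toFun := pt.Bm
      map_add' := fun a b => by
        ext1 z
        simp only [Patch.Bm, ContinuousLinearMap.comp_apply, ContinuousLinearMap.add_apply,
          ← map_add]
        congr 1; ext i; simp [Patch.adm]
      map_smul' := fun c a => by
        ext1 z
        simp only [Patch.Bm, ContinuousLinearMap.comp_apply, ContinuousLinearMap.smul_apply,
          ← map_smul, RingHom.id_apply]
        congr 1; ext i; simp [Patch.adm] }, fun _ => rfl⟩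

theorem Mod.gauge_clm (M : Mod V F) :
    ∃ B : V →L[ℝ] F →L[ℂ] F, ∀ ξ, B ξ = M.C.spin (lift (M.L.br ξ)) :=
  ⟨LinearMap.toContinuousLinearMap
    { toFun := fun ξ => M.C.spin (lift (M.L.br ξ))
      map_add' := fun a b => by
        rw [← Cl.spin_add]; congr 1; ext z i; simp
      map_smul' := fun c a => by
        rw [RingHom.id_apply, ← Cl.spin_smul]; congr 1; ext z i; simp }, fun _ => rfl⟩

end Vale.Agent.P353
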