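import Vale.Agent.P353.BKap
import Vale.Agent.P353.BKx1

import Vale.Agent.P353.AForm0

open MeasureTheory NormedSpace
open Complex (I)
open scoped InnerProductSpace ContDiff

noncomputable section
namespace Vale.Agent.P353
variable {V F : Type} [NormedAddCommGroup V] [InnerProductSpace ℝ V] [FiniteDimensional ℝ V]
  [NormedAddCommGroup F] [InnerProductSpace ℂ F] [CompleteSpace F] [FiniteDimensional ℂ F]
  (M : Mod V F) (G : Gam) (pt : Patch M.L)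

theorem bpt_onb {E : Type} [NormedAddCommGroup E] [InnerProductSpace ℝ E] [FiniteDimensional ℝ E]
    (D : E →L[ℝ] F) (u : E) : ‖D u‖ ^ 2 ≤ ‖u‖ ^ 2 * ∑ k, ‖D (stdOrthonormalBasis ℝ E k)‖ ^ 2 := by
  let b := stdOrthonormalBasis ℝ E
  have h1 : D u = ∑ k, ⟪b k, u⟫_ℝ • D (b k) := by
    conv_lhs => rw [← b.sum_repr' u]
    simp only [map_sum, map_smul]
  have h2 : ‖D u‖ ≤ ∑ k, |⟪b k, u⟫_ℝ| * ‖D (b k)‖ := by
    rw [h1]
    refine (norm_sum_le _ _).trans (le_of_eq (Finset.sum_congr rfl fun k _ => ?_))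
    rw [norm_smul, Real.norm_eq_abs]
  have h3 := Finset.sum_mul_sq_le_sq_mul_sq Finset.univ (fun k => |⟪b k, u⟫_ℝ|) fun k => ‖D (b k)‖
  have h4 : ∑ k, |⟪b k, u⟫_ℝ| ^ 2 = ‖u‖ ^ 2 := by
    rw [← b.sum_sq_inner_right u]
    exact Finset.sum_congr rfl fun k _ => sq_abs _
  rw [h4] at h3
  exact (pow_le_pow_left₀ (norm_nonneg _) h2 2).trans h3

omit [FiniteDimensional ℝ V] in
theorem bpt_psi {W : Type} [NormedAddCommGroup W] [InnerProductSpace ℝ W] (e : R16)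
    (g : W →L[ℝ] V) (y : EE W) : G.psi e (lift g y) = lift g (G.psi e y) := by
  ext s; simp [Gam.psi]

theorem bpt_re (A : F →L[ℂ] F) (w : F) : -(‖A‖ * ‖w‖ ^ 2) ≤ (⟪w, (I • A) w⟫_ℂ).re := by
  have h1 : |(⟪w, (I • A) w⟫_ℂ).re| ≤ ‖w‖ * ‖(I • A) w‖ :=
    (Complex.abs_re_le_norm _).trans (norm_inner_le_norm _ _)
  have h2 : ‖(I • A) w‖ ≤ ‖A‖ * ‖w‖ := by
    rw [ContinuousLinearMap.smul_apply, norm_smul, Complex.norm_I, one_mul]
    exact A.le_opNorm w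
  have h3 := mul_le_mul_of_nonneg_left h2 (norm_nonneg w)
  have := neg_abs_le (⟪w, (I • A) w⟫_ℂ).re
  nlinarith

theorem bpt_adj {A B : Type} [NormedAddCommGroup A] [InnerProductSpace ℝ A] [CompleteSpace A]
    [NormedAddCommGroup B] [InnerProductSpace ℝ B] [CompleteSpace B] (T : A →L[ℝ] B) (z : A) :
    ⟪z, (T.adjoint ∘L T) z⟫_ℝ = ‖T z‖ ^ 2 := by
  rw [ContinuousLinearMap.comp_apply, ContinuousLinearMap.adjoint_inner_right,
    real_inner_self_eq_norm_sq]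

theorem bpt_three {A : Type} [SeminormedAddCommGroup A] (a b c : A) :
    ‖a - b - c‖ ^ 2 ≤ 3 * (‖a‖ ^ 2 + ‖b‖ ^ 2 + ‖c‖ ^ 2) := by
  refine (pow_le_pow_left₀ (norm_nonneg _) ((norm_sub_le (a - b) c).trans
    (add_le_add_left (norm_sub_le _ _) _)) 2).trans ?_
  nlinarith [sq_nonneg (‖a‖ - ‖b‖), sq_nonneg (‖b‖ - ‖c‖), sq_nonneg (‖a‖ - ‖c‖)]

theorem bpt_ar {η K x : ℝ} (hη : 0 < η) (hK : 0 ≤ K) (h0 : 0 ≤ x) (h1 : x < 1)
    (h2 : x * (K + 1) < η ^ 2) : η⁻¹ * K * x ^ 2 ≤ η := by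
  rw [mul_assoc, inv_mul_le_iff₀ hη]
  have : x ^ 2 ≤ x := by nlinarith
  nlinarith

namespace Mod
variable {M G pt} {r d : ℝ} (hg : M.GB G pt r d)
include hg
/-- the supercharge at a point of the slice (PROOF.md, B1) -/
theorem GB.Q_sp {X : EE pt.l} (hX : X ∈ Metric.ball pt.p0 r) (z : pt.HT) {φ : EE V → F}
    (hi : M.InvAt φ (pt.sp X z)) (e : R16) (lam : ℝ) :
    M.Q G e lam φ (pt.sp X z) =
      (-I) • ∑ k, M.cl G pt e (pt.bl k) (fderiv ℝ φ (pt.sp X z) (pt.il (pt.bl k))) +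
      (-I) • ∑ k, (M.Cm pt).th (G.psi e (pt.inc (pt.bH k)))
        (fderiv ℝ φ (pt.sp X z) (pt.im (pt.inc (pt.bH k)))) +
      (-I) • ∑ k, M.cv G pt e (pt.bm k)
        (M.C.spin (lift (M.L.br (pt.Xi X (pt.bm k)))) (φ (pt.sp X z)) -
          fderiv ℝ φ (pt.sp X z) (pt.il (pt.Bl (pt.Xi X (pt.bm k)) z)) -
          fderiv ℝ φ (pt.sp X z) (pt.im (pt.inc (pt.T X (pt.bm k) + pt.Bm (pt.Xi X (pt.bm k)) z)))) +
      lam • ((M.Ml pt).C.th (s0 G (M.Ml pt).L e X) + (M.Cm pt).th (pt.tt G e X (pt.inc z)) +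
        M.C.th (pt.sb G e (pt.inc z) (pt.inc z))) (φ (pt.sp X z)) := by
  have hd := hg.2.1
  have hv := (hg.2.2 X hX).mv
  set D := fderiv ℝ φ (pt.sp X z) with hD
  let B : EE V →ₗ[ℝ] EE V →ₗ[ℝ] F := LinearMap.mk₂ ℝ (fun x y => M.C.th (G.psi e x) (D y))
    (fun _ _ _ => by simp) (fun _ _ _ => by simp) (fun _ _ _ => by simp)
    (fun c x y => by simp only [map_smul]; exact ContinuousLinearMap.map_smul_of_tower _ _ _)
  have h1 := pt.sum_slice B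
  simp only [B, LinearMap.mk₂_apply] at h1
  have h2 : ∀ w, D (pt.im (tens pt.v w)) =
      M.C.spin (lift (M.L.br (pt.Xi X w))) (φ (pt.sp X z)) - D (pt.il (pt.Bl (pt.Xi X w) z)) -
        D (pt.im (pt.inc (pt.T X w + pt.Bm (pt.Xi X w) z))) := fun w => by
    rw [← hi, pt.gauge_sp hd hv z w, ← hD, map_add, map_add]
    abel
  have h3 : ∀ y : EE pt.lᗮ, M.C.th (G.psi e (pt.im y)) = (M.Cm pt).th (G.psi e y) := fun y => by
    rw [bpt_psi]; rfl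
  unfold Mod.Q Cl.dirac
  beta_reduce
  rw [← hD, h1, smul_add, smul_add, pt.s0_sp G e X z, map_smul, map_add, map_add]
  simp only [h2, h3]
  rfl

/-- lower bound of the kinetic density -/
theorem GB.kin_lower {η : ℝ} (hη : 0 < η) : ∃ κ > 0, ∃ C > 0, ∀ X ∈ Metric.ball pt.p0 (r / 2),
    ∀ z : pt.HT, ‖z‖ < κ → ∀ φ : EE V → F, M.InvAt φ (pt.sp X z) →
      (1 - η) * (pt.gl φ (pt.sp X z) + pt.gH φ (pt.sp X z) + pt.gT X φ (pt.sp X z)) -
        C * ‖φ (pt.sp X z)‖ ^ 2 ≤ g2 φ (pt.sp X z) := by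
  have hd := hg.2.1
  obtain ⟨Bl, hBl⟩ := pt.Bl_clm
  obtain ⟨Bm, hBm⟩ := pt.Bm_clm
  obtain ⟨S, hS⟩ := M.gauge_clm
  obtain ⟨C1, p1, c1⟩ := bk_bil Bl
  obtain ⟨C2, p2, c2⟩ := bk_bil Bm
  obtain ⟨C3, p3, c3⟩ := bk_bil S
  obtain ⟨C, hC, d1, d2, d3⟩ : ∃ C > 0, C1 * d⁻¹ ≤ C ∧ C2 * d⁻¹ ≤ C ∧ C3 * d⁻¹ ≤ C :=
    ⟨(C1 + C2 + C3) * d⁻¹, by positivity, by gcongr; linarith, by gcongr; linarith,
      by gcongr; linarith⟩
  obtain ⟨n, hn⟩ : ∃ n : ℝ, n = Module.finrank ℝ pt.lᗮ := ⟨_, rfl⟩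
  have n0 : 0 ≤ n := hn ▸ Nat.cast_nonneg _
  refine ⟨min 1 (η ^ 2 / (3 * n * C ^ 2 + 1)), by positivity, η⁻¹ * (3 * n * C ^ 2) + 1,
    by positivity, fun X hX z hz φ hi => ?_⟩
  have hv := (hg.2.2 X (Metric.ball_subset_ball (by linarith [hg.1]) hX)).mv
  rw [lt_min_iff, lt_div_iff₀ (by positivity)] at hz
  set D := fderiv ℝ φ (pt.sp X z) with hD
  let B : EE V →ₗ[ℝ] EE V →ₗ[ℝ] ℝ := LinearMap.mk₂ ℝ (fun x y => (⟪D x, D y⟫_ℂ).re)
    (fun _ _ _ => by simp [inner_add_left]) (fun c x y => by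
      rw [map_smul, ← Complex.coe_smul, inner_smul_left]; simp)
    (fun _ _ _ => by simp [inner_add_right]) (fun c x y => by
      rw [map_smul, ← Complex.coe_smul, inner_smul_right]; simp)
  have h1 := pt.sum_slice B
  simp only [B, LinearMap.mk₂_apply, af0_self] at h1
  have gl0 : 0 ≤ pt.gl φ (pt.sp X z) := Finset.sum_nonneg fun _ _ => sq_nonneg _
  have gH0 : 0 ≤ pt.gH φ (pt.sp X z) := Finset.sum_nonneg fun _ _ => sq_nonneg _
  have h2 : ∀ k, (1 - η) * ‖D (pt.im (pt.inc (pt.T X (pt.bm k))))‖ ^ 2 - η⁻¹ * (3 * C ^ 2 *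
      (‖φ (pt.sp X z)‖ ^ 2 + ‖z‖ ^ 2 * (pt.gl φ (pt.sp X z) + pt.gH φ (pt.sp X z)))) ≤
      ‖D (pt.im (tens pt.v (pt.bm k)))‖ ^ 2 := fun k => by
    set ξ := pt.Xi X (pt.bm k) with hξ
    have x1 : ‖ξ‖ ≤ d⁻¹ := by
      have := (pt.Xi X).le_opNorm (pt.bm k)
      rw [pt.bm.orthonormal.1 k, mul_one] at this
      exact this.trans (pt.Mv_unit hd hv).2.1
    have e1 : D (pt.im (tens pt.v (pt.bm k))) = -D (pt.im (pt.inc (pt.T X (pt.bm k)))) +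
        (S ξ (φ (pt.sp X z)) - D (pt.il (Bl ξ z)) - D (pt.im (pt.inc (Bm ξ z)))) := by
      rw [hS, hBl, hBm, ← hi, pt.gauge_sp hd hv z, ← hD]
      simp only [map_add]
      abel
    have e2 := bk_sq (-D (pt.im (pt.inc (pt.T X (pt.bm k)))))
      (S ξ (φ (pt.sp X z)) - D (pt.il (Bl ξ z)) - D (pt.im (pt.inc (Bm ξ z)))) hη
    rw [← e1, norm_neg] at e2
    refine le_trans (sub_le_sub_left (mul_le_mul_of_nonneg_left ?_ (by positivity)) _) e2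
    have b1 : ‖S ξ (φ (pt.sp X z))‖ ≤ C * ‖φ (pt.sp X z)‖ := by
      refine (c3 _ _).trans ?_
      gcongr
      exact le_trans (by gcongr; exact x1) d3
    have b2 : ‖Bl ξ z‖ ≤ C * ‖z‖ := by
      refine (c1 _ _).trans ?_
      gcongr
      exact le_trans (by gcongr) d1
    have b3 : ‖Bm ξ z‖ ≤ C * ‖z‖ := by
      refine (c2 _ _).trans ?_
      gcongr
      exact le_trans (by gcongr) d2
    have a1 := pow_le_pow_left₀ (norm_nonneg _) b1 2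
    have a2 : ‖D (pt.il (Bl ξ z))‖ ^ 2 ≤ (C * ‖z‖) ^ 2 * pt.gl φ (pt.sp X z) :=
      (bpt_onb (D ∘L pt.il) _).trans
        (mul_le_mul_of_nonneg_right (pow_le_pow_left₀ (norm_nonneg _) b2 2) gl0)
    have a3 : ‖D (pt.im (pt.inc (Bm ξ z)))‖ ^ 2 ≤ (C * ‖z‖) ^ 2 * pt.gH φ (pt.sp X z) :=
      (bpt_onb (D ∘L pt.im ∘L pt.inc) _).trans
        (mul_le_mul_of_nonneg_right (pow_le_pow_left₀ (norm_nonneg _) b3 2) gH0)
    refine (bpt_three _ _ _).trans ?_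
    linarith
  have h3 := Finset.sum_le_sum fun k (_ : k ∈ Finset.univ) => h2 k
  rw [Finset.sum_sub_distrib, ← Finset.mul_sum, Finset.sum_const, Finset.card_univ,
    Fintype.card_fin, nsmul_eq_mul, ← hn] at h3
  have h4 := bpt_ar hη (by positivity) (norm_nonneg z) hz.1 hz.2
  have h5 := mul_le_mul_of_nonneg_right h4 (add_nonneg gl0 gH0)
  change (1 - η) * pt.gT X φ (pt.sp X z) - _ ≤ _ at h3
  change g2 φ (pt.sp X z) = pt.gl φ (pt.sp X z) + pt.gH φ (pt.sp X z) + _ at h1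
  linarith [sq_nonneg ‖φ (pt.sp X z)‖]

/-- lower bound of the potential (compare with the central `Y`: `potH_eq`, `potH_lower`, uniform
continuity of `WH`, `T` on the closed ball of radius `3 r / 4`) -/
theorem GB.pot_lower {η : ℝ} (hη : 0 < η) : ∃ κ > 0, ∀ X ∈ Metric.ball pt.p0 (r / 2), ∀ Y,
    pt.Cen Y → ‖X - Y‖ < κ → ∀ z : pt.HT, ‖z‖ < κ → d ^ 2 / 4 * ‖z‖ ^ 2 ≤ pt.potH X z ∧
      (1 / 2) * M.L.pot (pt.il X) + (1 - η) * pt.potH X z ≤ M.L.pot (pt.sp X z) := by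
  have hd := hg.2.1
  obtain ⟨-, -, -, -, h5, -, -, h8, -⟩ := hg.smooth
  have ca := (ContinuousLinearMap.adjoint (𝕜 := ℝ)).continuous.comp_continuousOn h8.continuousOn
  let Q : EE pt.l → pt.HT →L[ℝ] pt.HT := fun X => (pt.WH X).adjoint ∘L pt.WH X +
    ((pt.T X).adjoint ∘L pt.WH X).adjoint ∘L ((pt.T X).adjoint ∘L pt.WH X)
  have hQ : ∀ X z, pt.potH X z = (1 / 2) * ⟪z, Q X z⟫_ℝ := fun X z => by
    simp only [Q, ContinuousLinearMap.add_apply, inner_add_right, bpt_adj]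
    rfl
  have cQ : ContinuousOn Q (Metric.ball pt.p0 r) :=
    (((ContinuousLinearMap.adjoint (𝕜 := ℝ)).continuous.comp_continuousOn h5.continuousOn).clm_comp
      h5.continuousOn).add (((ContinuousLinearMap.adjoint (𝕜 := ℝ)).continuous.comp_continuousOn
        (ca.clm_comp h5.continuousOn)).clm_comp (ca.clm_comp h5.continuousOn))
  obtain ⟨t, t0, t1, t2⟩ : ∃ t > 0, t ≤ 1 / 2 ∧ t ≤ η / 3 :=
    ⟨min (1 / 2) (η / 3), by positivity, min_le_left _ _, min_le_right _ _⟩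
  obtain ⟨κ, hκ, h⟩ := bk_unif hg.1 cQ (η := t * d ^ 2 / 2) (by positivity)
  obtain ⟨c, c0, hc⟩ := bk_bil M.L.br
  refine ⟨min κ (t * d / (30 * c)), by positivity, fun X hX Y hY hXY z hz => ?_⟩
  rw [lt_min_iff] at hXY hz
  obtain ⟨a, b⟩ := h X hX Y hXY.1
  have hv := (hg.2.2 Y a).mv
  have p1 : |pt.potH X z - pt.potH Y z| ≤ t * d ^ 2 / 4 * ‖z‖ ^ 2 := by
    rw [hQ, hQ, ← mul_sub, ← inner_sub_right, ← ContinuousLinearMap.sub_apply, abs_mul]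
    have := (abs_real_inner_le_norm z ((Q X - Q Y) z)).trans (mul_le_mul_of_nonneg_left
      (((Q X - Q Y).le_opNorm z).trans (mul_le_mul_of_nonneg_right b (norm_nonneg _)))
      (norm_nonneg _))
    rw [abs_of_pos (by norm_num : (0 : ℝ) < 1 / 2)]
    linarith
  rw [abs_le] at p1
  have p2 := Patch.Cen.potH_lower pt hY hd hv z
  have q0 : 0 ≤ d ^ 2 * ‖z‖ ^ 2 := by positivity
  have p3 : d ^ 2 / 4 * ‖z‖ ^ 2 ≤ pt.potH X z := by nlinarith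
  refine ⟨p3, ?_⟩
  have p4 : ∀ i j, (1 - t) * (‖M.L.br (pt.il X i) (pt.il X j)‖ ^ 2 +
      ‖pt.Mi Y i (pt.inc z j) - pt.Mi Y j (pt.inc z i)‖ ^ 2) - t * d ^ 2 / 100 * ‖z‖ ^ 2 ≤
      ‖M.L.br (pt.sp X z i) (pt.sp X z j)‖ ^ 2 := fun i j => by
    have zi : ∀ i, ‖(pt.inc z i : V)‖ ≤ ‖z‖ := fun i => PiLp.norm_apply_le (pt.inc z) i
    have xi : ∀ i, ‖((X - Y) i : V)‖ ≤ t * d / (30 * c) := fun i =>
      (PiLp.norm_apply_le (X - Y) i).trans hXY.2.le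
    have e1 : M.L.br (pt.sp X z i) (pt.sp X z j) = (M.L.br (pt.il X i) (pt.il X j) +
        ((pt.Mi Y i (pt.inc z j) - pt.Mi Y j (pt.inc z i) : pt.lᗮ) : V)) +
        (M.L.br ((X - Y) i) (pt.inc z j) + M.L.br (pt.inc z i) ((X - Y) j) +
          M.L.br (pt.inc z i) (pt.inc z j)) := by
      simp [Patch.sp, Patch.Mi, pt.adm_apply (Y _).2, M.L.skew (pt.inc z i) (Y j)]
      abel
    have e2 : ‖M.L.br (pt.il X i) (pt.il X j) +
        ((pt.Mi Y i (pt.inc z j) - pt.Mi Y j (pt.inc z i) : pt.lᗮ) : V)‖ ^ 2 =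
        ‖M.L.br (pt.il X i) (pt.il X j)‖ ^ 2 +
          ‖pt.Mi Y i (pt.inc z j) - pt.Mi Y j (pt.inc z i)‖ ^ 2 := by
      rw [norm_add_sq_real, Submodule.inner_right_of_mem_orthogonal (u := M.L.br (pt.il X i) (pt.il X j))
        (M.L.sub_cent pt.p _ (X i).2 _ (X j).2) (Subtype.prop _)]
      simp
    have e3 : ‖M.L.br ((X - Y) i) (pt.inc z j) + M.L.br (pt.inc z i) ((X - Y) j) +
        M.L.br (pt.inc z i) (pt.inc z j)‖ ≤ t * d / 10 * ‖z‖ := by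
      have k1 : ‖M.L.br ((X - Y) i) (pt.inc z j)‖ ≤ c * (t * d / (30 * c)) * ‖z‖ :=
        (hc _ _).trans (by gcongr; exacts [xi i, zi j])
      have k2 : ‖M.L.br (pt.inc z i) ((X - Y) j)‖ ≤ c * ‖z‖ * (t * d / (30 * c)) :=
        (hc _ _).trans (by gcongr; exacts [zi i, xi j])
      have k3 : ‖M.L.br (pt.inc z i) (pt.inc z j)‖ ≤ c * ‖z‖ * (t * d / (30 * c)) :=
        (hc _ _).trans (by gcongr; exacts [zi i, (zi j).trans hz.2.le])
      have k4 : c * (t * d / (30 * c)) = t * d / 30 := by field_simp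
      rw [mul_right_comm, k4] at k2 k3
      rw [k4] at k1
      linarith [norm_add₃_le (a := M.L.br ((X - Y) i) (pt.inc z j))
        (b := M.L.br (pt.inc z i) ((X - Y) j)) (c := M.L.br (pt.inc z i) (pt.inc z j))]
    rw [e1, ← e2]
    refine le_trans (sub_le_sub_left ?_ _) (bk_sq _ _ t0)
    rw [inv_mul_le_iff₀ t0]
    refine (pow_le_pow_left₀ (norm_nonneg _) e3 2).trans (le_of_eq ?_)
    ring
  have p5 := Finset.sum_le_sum fun i (_ : i ∈ Finset.univ) =>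
    Finset.sum_le_sum fun j (_ : j ∈ Finset.univ) => p4 i j
  simp only [Finset.sum_sub_distrib, ← Finset.mul_sum, Finset.sum_add_distrib, Finset.sum_const,
    Finset.card_univ, Fintype.card_fin, nsmul_eq_mul] at p5
  have p6 := Patch.Cen.potH_eq pt hY hd hv z
  have p7 : 0 ≤ ∑ i, ∑ j, ‖M.L.br (pt.il X i) (pt.il X j)‖ ^ 2 := by positivity
  unfold CL.pot
  push_cast at p5
  generalize ∑ i, ∑ j, ‖M.L.br (pt.il X i) (pt.il X j)‖ ^ 2 = A at p5 p7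
  generalize ∑ i, ∑ j, ‖pt.Mi Y i (pt.inc z j) - pt.Mi Y j (pt.inc z i)‖ ^ 2 = B at p5 p6
  have p8 : 0 ≤ pt.potH X z := le_trans (by positivity) p3
  have p9 := mul_le_mul_of_nonneg_left p3 t0.le
  have p10 := mul_le_mul_of_nonneg_left p1.2 (by linarith : 0 ≤ 1 - t)
  have p11 := mul_le_mul_of_nonneg_right t2 p8
  have p12 := mul_le_mul_of_nonneg_right t1 p7
  have p13 : 0 ≤ t * t * (d ^ 2 * ‖z‖ ^ 2) := by positivity
  rw [p6] at p10
  nlinarith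

/-- lower bound of the Yukawa term (`vac_gap` at `X`; the light part of `Gm` vanishes at `Y`) -/
theorem GB.yuk_lower {η : ℝ} (hη : 0 < η) : ∃ κ > 0, ∀ X ∈ Metric.ball pt.p0 r, ∀ Y, pt.Cen Y →
    ‖X - Y‖ < κ → ∀ z : pt.HT, ‖z‖ < κ → ∀ w : F,
      -(tr (pt.aGa G X) / 4 + η) * ‖w‖ ^ 2 + d * (‖w‖ ^ 2 - ‖M.Pi G pt X w‖ ^ 2) ≤
        (⟪w, (I • M.C.spin (-Gm G M.L (pt.sp X z))) w⟫_ℂ).re := by
  have hd := hg.2.1
  borelize V ↥pt.l
  obtain ⟨Γ, hΓ⟩ := Gm_clm G M.L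
  obtain ⟨Γ', hΓ'⟩ := Gm_clm G (M.Ml pt).L
  obtain ⟨σ, hσ⟩ := M.C.spin_clm
  obtain ⟨σ', hσ'⟩ := (M.Ml pt).C.spin_clm
  let A := σ ∘L Γ ∘L pt.im ∘L pt.inc
  let A' := σ' ∘L Γ'
  obtain ⟨c, c0, hc⟩ := bk_lin A
  obtain ⟨c', c0', hc'⟩ := bk_lin A'
  refine ⟨η / (c + c'), by positivity, fun X hX Y hY hXY z hz w => ?_⟩
  obtain ⟨j1, j2, j3, j4⟩ := pt.J_spec G hd (hg.2.2 X hX).ga
  have h0 : Γ' Y = 0 := by
    rw [hΓ']
    refine Finset.sum_eq_zero fun j _ => ?_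
    have : (M.Ml pt).L.br (Y j) = 0 := by
      ext a
      have := (pt.mem_z _).1 (hY j) a a.2
      rw [M.L.skew, neg_eq_zero] at this
      exact this
    rw [this]
    ext u s; simp
  have h1 : M.C.spin (-Gm G M.L (pt.il X)) =
      (M.Ml pt).C.spin (-Gm G (M.Ml pt).L X) + (M.Cm pt).spin (-pt.Ga G X) := by
    refine M.spin_split pt (fun u => ?_) fun u => ?_
    · ext s
      simp [Gm, Mod.res]
    · ext s
      simp [Gm, Patch.Ga, Patch.Mi, pt.adm_apply (X _).2]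
  have h2 : M.C.spin (-Gm G M.L (pt.sp X z)) =
      (M.Cm pt).spin (pt.J G X * pt.aGa G X) + (A (-z) + A' (-(X - Y))) := by
    rw [j3, ← hΓ, ← hσ, Patch.sp, map_add, neg_add, map_add, hΓ, hσ, h1, ← hΓ', ← hσ']
    simp only [A, A', ContinuousLinearMap.comp_apply, map_neg, map_sub, h0, map_zero, sub_zero]
    abel
  have h3 := (M.Cm pt).vac_gap j1 hd.le j2 j4 w
  have h4 := bpt_re (A (-z) + A' (-(X - Y))) w
  have h5 : ‖A (-z) + A' (-(X - Y))‖ ≤ η := by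
    refine (norm_add_le _ _).trans ((add_le_add (hc _) (hc' _)).trans ?_)
    rw [norm_neg, norm_neg]
    have := mul_le_mul_of_nonneg_left hz.le c0.le
    have := mul_le_mul_of_nonneg_left hXY.le c0'.le
    have e : c * (η / (c + c')) + c' * (η / (c + c')) = η := by field_simp
    linarith
  rw [h2, smul_add, ContinuousLinearMap.add_apply, inner_add_right, Complex.add_re]
  have := mul_le_mul_of_nonneg_right h5 (sq_nonneg ‖w‖)
  unfold Mod.Pi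
  linarith

/-- the zero point energies almost cancel near the central points -/
theorem GB.zero_near {η : ℝ} (hη : 0 < η) : ∃ κ > 0, ∀ X ∈ Metric.ball pt.p0 (r / 2), ∀ Y,
    pt.Cen Y → ‖X - Y‖ < κ → tr (pt.aGa G X) / 4 ≤
      (1 / 2) * (tr (pt.WH X) + tr ((pt.T X).adjoint ∘L pt.WH X ∘L pt.T X)) + η := by
  obtain ⟨-, -, -, -, h5, -, -, h8, -, -, -, h12⟩ := hg.smooth
  have c1 : ContinuousOn (fun X => tr (pt.aGa G X) / 4 -
      (1 / 2) * (tr (pt.WH X) + tr ((pt.T X).adjoint ∘L pt.WH X ∘L pt.T X))) (Metric.ball pt.p0 r) := by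
    refine ((bk_cont_tr.comp_continuousOn h12.continuousOn).div_const _).sub
      (continuousOn_const.mul ((bk_cont_tr.comp_continuousOn h5.continuousOn).add
        (bk_cont_tr.comp_continuousOn ?_)))
    exact ((ContinuousLinearMap.adjoint (𝕜 := ℝ)).continuous.comp_continuousOn
      h8.continuousOn).clm_comp (h5.continuousOn.clm_comp h8.continuousOn)
  obtain ⟨κ, hκ, h⟩ := bk_unif hg.1 c1 hη
  refine ⟨κ, hκ, fun X hX Y hY hXY => ?_⟩
  obtain ⟨a, b⟩ := h X hX Y hXY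
  have := Patch.Cen.zero_point pt G hY hg.2.1 (hg.2.2 Y a).mv
  rw [Real.norm_eq_abs, abs_le] at b
  linarith [b.2]

/-- the ground state energy is bounded -/
theorem GB.zero_bound : ∃ C > 0, ∀ X ∈ Metric.ball pt.p0 (r / 2), tr (pt.aGa G X) ≤ C := by
  obtain ⟨C, hC, h⟩ := bk_bdd hg.1
    (bk_cont_tr.comp_continuousOn hg.smooth.2.2.2.2.2.2.2.2.2.2.2.continuousOn)
  exact ⟨C, hC, fun X hX => (le_abs_self _).trans (h X hX)⟩
end Mod

end Vale.Agent.P353
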