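import Vale.Agent.P353.BTd
import Vale.Agent.P353.BPt

open MeasureTheory NormedSpace
open Complex (I)
open scoped InnerProductSpace ContDiff

noncomputable section
namespace Vale.Agent.P353
variable {V F : Type} [NormedAddCommGroup V] [InnerProductSpace ℝ V] [FiniteDimensional ℝ V]
  [NormedAddCommGroup F] [InnerProductSpace ℂ F] [CompleteSpace F] [FiniteDimensional ℂ F]
  [MeasurableSpace V] [BorelSpace V] {M : Mod V F} {G : Gam} {pt : Patch M.L}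

theorem bgap_pt {ε lam d C Ef gl gH gT g n q P pH pot Y : ℝ} (h0 : 0 < ε) (h1 : ε ≤ 1 / 4)
    (hl : 0 < lam) (a1 : 0 ≤ gl) (a2 : 0 ≤ gH) (a3 : 0 ≤ gT) (a4 : 0 ≤ n) (a5 : 0 ≤ P)
    (k : (1 - ε) * (gl + gH + gT) - C * n ≤ g) (p : (1 / 2) * P + (1 - ε) * pH ≤ pot)
    (y : -(Ef + ε) * n + d * (n - q) ≤ Y) :
    (1 / 4) * gl + ((1 / 4) * lam ^ 2 * P - C / 2 - lam * (Ef + ε) + lam * d) * n +
      (1 - ε) ^ 2 / 2 * gH + (1 - ε) ^ 2 / 2 * gT + (1 - ε) ^ 2 * lam ^ 2 * (pH * n) -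
      lam * d * q ≤ (1 / 2) * g + (1 - ε) * lam ^ 2 * pot * n + lam * Y := by
  have b1 := mul_le_mul_of_nonneg_left y hl.le
  have b2 := mul_le_mul_of_nonneg_left p
    (mul_nonneg (mul_nonneg (by linarith : 0 ≤ 1 - ε) (sq_nonneg lam)) a4)
  have b3 := mul_nonneg (by linarith : 0 ≤ 1 / 2 - ε) a1
  have b4 := mul_nonneg (mul_nonneg h0.le (by linarith : 0 ≤ 1 - ε)) (add_nonneg a2 a3)
  have b5 := mul_nonneg (mul_nonneg (mul_nonneg (by linarith : 0 ≤ 1 / 2 - ε) (sq_nonneg lam)) a4) a5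
  linear_combination b1 + b2 + (1 / 2) * k + (1 / 2) * b3 + (1 / 2) * b4 + (1 / 2) * b5

theorem bgap_num {ε η lam d C C0 Ef Eb gl gH gT n q u P pH D ex : ℝ} (h0 : 0 < ε) (h1 : ε ≤ 1 / 4)
    (h2 : ε * (C0 / 2 + 2) ≤ η / 2) (hl : 0 < lam) (hd : 0 < d) (hC : C ≤ η * lam) (hC0 : 0 < C0)
    (a4 : 0 ≤ n) (e1 : Ef ≤ Eb + ε) (e2 : 4 * Ef ≤ C0)
    (m : (1 / 4) * gl + ((1 / 4) * lam ^ 2 * P - C / 2 - lam * (Ef + ε) + lam * d) * n +
      (1 - ε) ^ 2 / 2 * gH + (1 - ε) ^ 2 / 2 * gT + (1 - ε) ^ 2 * lam ^ 2 * pH - lam * d * q ≤ D)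
    (o : lam * Eb * n + lam * d * (n - u) ≤ (1 / 2) * gH + (1 / 2) * gT + lam ^ 2 * pH)
    (f1 : u ≤ n) (f2 : 0 ≤ n - q) (f3 : ex ≤ (n - u) + (n - q)) :
    (1 / 4) * gl + (1 / 4) * lam ^ 2 * (P * n) + d / 2 * lam * ex - η * lam * n ≤ D := by
  have c1 : 1 / 2 ≤ (1 - ε) ^ 2 := by nlinarith
  have c2 : (1 - ε) ^ 2 ≤ 1 := by nlinarith
  have c3 : Ef + ε - (1 - ε) ^ 2 * Eb ≤ η / 2 := by
    have d1 := mul_le_mul_of_nonneg_left e1 (sq_nonneg (1 - ε))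
    have d2 := mul_le_mul_of_nonneg_left e2 (sub_nonneg.2 c2)
    have d3 := mul_le_mul_of_nonneg_left c2 h0.le
    have d4 := mul_nonneg (sq_nonneg ε) hC0.le
    linear_combination d1 + (1 / 4) * d2 + d3 + (1 / 4) * d4 + h2
  have b1 := mul_le_mul_of_nonneg_left o (sq_nonneg (1 - ε))
  have b2 := mul_le_mul_of_nonneg_left c3 (mul_nonneg hl.le a4)
  have b3 := mul_le_mul_of_nonneg_left f3 (mul_pos hd hl).le
  have b4 := mul_le_mul_of_nonneg_left c1 (mul_nonneg (mul_pos hd hl).le (sub_nonneg.2 f1))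
  have b5 := mul_nonneg (mul_pos hd hl).le f2
  have b6 := mul_le_mul_of_nonneg_left hC a4
  linear_combination m + b1 + b2 + (1 / 2) * b3 + b4 + (1 / 2) * b5 + (1 / 2) * b6

section
variable {S : Type} [NormedAddCommGroup S] [InnerProductSpace ℝ S]

theorem bgap_pos {c lam : ℝ} (hl : 0 < lam) {W : S →L[ℝ] S} (h : Pos c W) :
    Pos (lam * c) (lam • W) :=
  ⟨fun u v => by
    rw [smul_apply, smul_apply, real_inner_smul_left,
      real_inner_smul_right, h.1], fun u => by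
    rw [smul_apply, real_inner_smul_right, mul_assoc]
    exact mul_le_mul_of_nonneg_left (h.2 u) hl.le⟩

theorem bgap_tr (c : ℝ) (W : S →L[ℝ] S) : tr (c • W) = c * tr W := by
  rw [tr, tr, ContinuousLinearMap.toLinearMap_smul, map_smul, smul_eq_mul]
end

omit [FiniteDimensional ℂ F] [MeasurableSpace V] [BorelSpace V] in
theorem bgap_dens (a lam : ℝ) (φ : EE V → F) (s : EE V) : M.dens G a lam φ s =
    (1 / 2) * g2 φ s + a * lam ^ 2 * M.L.pot s * ‖φ s‖ ^ 2 +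
      lam * (⟪φ s, (I • M.C.spin (-Gm G M.L s)) (φ s)⟫_ℂ).re := by
  have e : (-lam) • Gm G M.L s = lam • (-Gm G M.L s) := by
    ext u i
    simp
  rw [Mod.dens, e, Cl.spin_smul, smul_comm, smul_apply,
    ← Complex.coe_smul, inner_smul_right, Complex.re_ofReal_mul]

omit [FiniteDimensional ℝ V] [CompleteSpace F] [FiniteDimensional ℂ F] [MeasurableSpace V]
  [BorelSpace V] in
theorem bgap_out {φ : EE V → F} {s : EE V} (h : s ∉ tsupport φ) : φ s = 0 ∧ fderiv ℝ φ s = 0 :=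
  ⟨image_eq_zero_of_notMem_tsupport h, by
    by_contra h1
    exact h (support_fderiv_subset ℝ (f := φ) h1)⟩

/-- the oscillator on one fibre -/
theorem bgap_osc {d lam : ℝ} (hd : 0 < d) (hl : 0 < lam) {X : EE pt.l} (hW : Pos d (pt.WH X))
    {φ : EE V → F} (h : Tst φ) :
    lam * ((1 / 2) * (tr (pt.WH X) + tr ((pt.T X).adjoint ∘L pt.WH X ∘L pt.T X))) *
        M.fi pt (fun s => ‖φ s‖ ^ 2) X +
      lam * d * (M.fi pt (fun s => ‖φ s‖ ^ 2) X - ‖M.uu pt lam φ X‖ ^ 2 / M.ZZ pt lam X) ≤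
      (1 / 2) * M.fi pt (pt.gH φ) X + (1 / 2) * M.fi pt (pt.gT X φ) X +
        lam ^ 2 * ∫ z, pt.potH X z * ‖φ (pt.sp X z)‖ ^ 2 := by
  obtain ⟨h1, h2, -⟩ := h.fibre M pt X
  have h3 := osc_gap (pt.T X) (mul_pos hl hd) (bgap_pos hl hW) h1
  have e1 : kin (fun z : pt.HT => φ (pt.sp X z)) = (1 / 2) * M.fi pt (pt.gH φ) X := by
    simp only [kin, g2, h2]
    rfl
  have e2 : (∫ z, ∑ k, ‖fderiv ℝ (fun z : pt.HT => φ (pt.sp X z)) z
      (pt.T X (stdOrthonormalBasis ℝ pt.lᗮ k))‖ ^ 2) = M.fi pt (pt.gT X φ) X := by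
    simp only [h2]
    rfl
  have e3 : wt (fun z => (1 / 2) * (‖(lam • pt.WH X) z‖ ^ 2 +
      ‖(pt.T X).adjoint ((lam • pt.WH X) z)‖ ^ 2)) (fun z : pt.HT => φ (pt.sp X z)) =
      lam ^ 2 * ∫ z, pt.potH X z * ‖φ (pt.sp X z)‖ ^ 2 := by
    rw [wt, ← integral_const_mul]
    refine integral_congr_ae (Filter.Eventually.of_forall fun z => ?_)
    simp only [Patch.potH, smul_apply, map_smul, norm_smul, mul_pow,
      Real.norm_eq_abs, sq_abs]
    ring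
  rw [e1, e2, e3, ContinuousLinearMap.smul_comp, ContinuousLinearMap.comp_smul, bgap_tr,
    bgap_tr] at h3
  refine le_of_eq_of_le ?_ h3
  rw [← mul_add lam, ← mul_assoc, mul_comm lam (1 / 2), mul_assoc (1 / 2) lam]
  rfl

omit [FiniteDimensional ℂ F] in
/-- integration of a pointwise bound over a fibre -/
theorem bgap_int {φ : EE V → F} (h : Tst φ) (X : EE pt.l) (Pr : F →L[ℂ] F) {a lam c1 c2 c3 c4 : ℝ}
    (hp : ∀ z, (1 / 4) * pt.gl φ (pt.sp X z) + c1 * ‖φ (pt.sp X z)‖ ^ 2 +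
      c2 * pt.gH φ (pt.sp X z) + c2 * pt.gT X φ (pt.sp X z) +
      c3 * (pt.potH X z * ‖φ (pt.sp X z)‖ ^ 2) - c4 * ‖Pr (φ (pt.sp X z))‖ ^ 2 ≤
      M.dens G a lam φ (pt.sp X z)) :
    (1 / 4) * M.fi pt (pt.gl φ) X + c1 * M.fi pt (fun s => ‖φ s‖ ^ 2) X +
      c2 * M.fi pt (pt.gH φ) X + c2 * M.fi pt (pt.gT X φ) X +
      c3 * (∫ z, pt.potH X z * ‖φ (pt.sp X z)‖ ^ 2) - c4 * (∫ z, ‖Pr (φ (pt.sp X z))‖ ^ 2) ≤
      M.fi pt (M.dens G a lam φ) X := by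
  obtain ⟨c_n, -, c_l, c_H, c_T, c_d, -, -⟩ := h.cc M G pt
  have i1 := ((Mod.cc_fibre c_l X).2).const_mul (1 / 4)
  have i2 := ((Mod.cc_fibre c_n X).2).const_mul c1
  have i3 := ((Mod.cc_fibre c_H X).2).const_mul c2
  have i4 := ((Mod.cc_fibre (c_T X) X).2).const_mul c2
  have j5 := (Mod.cc_fibre c_n X).1.mul (w := pt.potH X) (by unfold Patch.potH; fun_prop)
  have i5 := (j5.1.integrable_of_hasCompactSupport (μ := volume) j5.2).const_mul c3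
  have j6 : Cc fun s => ‖Pr (φ s)‖ ^ 2 :=
    ⟨(Pr.continuous.comp h.1.continuous).norm.pow 2,
      h.2.comp_left (g := fun w => ‖Pr w‖ ^ 2) (by simp)⟩
  have i6 := ((Mod.cc_fibre j6 X).2).const_mul c4
  have m := integral_mono (((((i1.add i2).add i3).add i4).add i5).sub i6)
    (Mod.cc_fibre (c_d a lam) X).2 hp
  rw [integral_sub' ((((i1.add i2).add i3).add i4).add i5) i6,
    integral_add' (((i1.add i2).add i3).add i4) i5, integral_add' ((i1.add i2).add i3) i4,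
    integral_add' (i1.add i2) i3, integral_add' i1 i2] at m
  simp only [integral_const_mul] at m
  exact m

namespace Mod
variable {r d : ℝ} (hg : M.GB G pt r d)
include hg
/-- The gap on one fibre.  `kin_lower`, `pot_lower`, `yuk_lower` pointwise on the support (outside
all densities vanish), `osc_gap` with `W = lam • WH X`, `T = pt.T X`, `c = lam d`, then `zero_near`,
`zero_bound`, `fib_comb`. -/
theorem GB.gap_fibre {η : ℝ} (hη : 0 < η) : ∃ κ > 0, ∃ η1 > 0, ∃ lam0 > 0, ∀ lam ≥ lam0,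
    ∀ r' ≤ r / 2, ∀ φ : EE V → F, M.Adm pt r' κ φ → ∀ X,
      (1 / 4) * M.fi pt (pt.gl φ) X +
        (1 / 4) * lam ^ 2 * (M.L.pot (pt.il X) * M.fi pt (fun s => ‖φ s‖ ^ 2) X) +
        d / 2 * lam * M.ex2 G pt lam φ X - η * lam * M.fi pt (fun s => ‖φ s‖ ^ 2) X ≤
      M.fi pt (M.dens G (1 - η1) lam φ) X := by
  obtain ⟨C0, hC0, zb⟩ := hg.zero_bound
  obtain ⟨ε, h0, h1, h2⟩ : ∃ ε : ℝ, 0 < ε ∧ ε ≤ 1 / 4 ∧ ε * (C0 / 2 + 2) ≤ η / 2 :=
    ⟨min (1 / 4) (η / 2 / (C0 / 2 + 2)), by positivity, min_le_left _ _,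
      (le_div_iff₀ (by positivity)).1 (min_le_right _ _)⟩
  obtain ⟨κ1, k1, C, hC, kl⟩ := hg.kin_lower h0
  obtain ⟨κ2, k2, pl⟩ := hg.pot_lower h0
  obtain ⟨κ3, k3, yl⟩ := hg.yuk_lower h0
  obtain ⟨κ4, k4, zn⟩ := hg.zero_near h0
  refine ⟨min (min κ1 κ2) (min κ3 κ4), by positivity, ε, h0, C / η, by positivity,
    fun lam hlam r' hr φ h X => ?_⟩
  have hl : 0 < lam := lt_of_lt_of_le (by positivity) hlam
  by_cases hz : ∃ z, pt.sp X z ∈ tsupport φ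
  swap
  · have o := fun z => bgap_out (φ := φ) (not_exists.1 hz z)
    simp [fi, ex2, uu, dens, Patch.gl, g2, o]
  obtain ⟨z0, hz0⟩ := hz
  obtain ⟨x1, -, -, -, Y, y1, y2⟩ := pt.reg_cen (h.supp X z0 hz0)
  have x2 : X ∈ Metric.ball pt.p0 (r / 2) := mem_ball_iff_norm.2 (x1.trans_le hr)
  have x3 : X ∈ Metric.ball pt.p0 r := Metric.ball_subset_ball (half_le_self hg.1.le) x2
  simp only [lt_min_iff] at y2
  have hW := (hg.2.2 X x3).wh
  obtain ⟨-, p1, p2, -⟩ := hg.Pi_spec x3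
  have hP := bgap_pos hl hW
  have ht := (h.tst.fibre M pt X).1
  obtain ⟨f2, -, f3⟩ := fib_comb (mul_pos hl hg.2.1) hP p1 p2 ht
  refine bgap_num h0 h1 h2 hl hg.2.1 ((div_le_iff₀' hη).1 hlam) hC0
    (fi_nonneg X fun s => sq_nonneg _) (zn X x2 Y y1 y2.2.2) (by linarith [zb X x2])
    (bgap_int h.tst X (M.Pi G pt X) fun z => ?_) (bgap_osc hg.2.1 hl hW h.tst)
    (fib_le (mul_pos hl hg.2.1) hP ht).2 f2 f3
  by_cases hz : pt.sp X z ∈ tsupport φ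
  swap
  · have o := bgap_out hz
    simp [dens, Patch.gl, Patch.gH, Patch.gT, g2, o]
  obtain ⟨-, z1, -⟩ := pt.reg_cen (h.supp X z hz)
  simp only [lt_min_iff] at z1
  rw [bgap_dens]
  exact bgap_pt h0 h1 hl (Finset.sum_nonneg fun _ _ => sq_nonneg _)
    (Finset.sum_nonneg fun _ _ => sq_nonneg _) (Finset.sum_nonneg fun _ _ => sq_nonneg _)
    (sq_nonneg _) (pot_nonneg _ _) (kl X x2 z z1.1.1 φ (h.inf X z))
    (pl X x2 Y y1 y2.1.2 z z1.1.2).2 (yl X x3 Y y1 y2.2.1 z z1.2.1 _)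

theorem GB.gap {η : ℝ} (hη : 0 < η) : ∃ κ > 0, ∃ η1 > 0, ∃ lam0 > 0, ∀ lam ≥ lam0,
    ∀ r' ≤ r / 2, ∀ φ : EE V → F, M.Adm pt r' κ φ →
      (1 / 4) * M.GR pt φ + (1 / 4) * lam ^ 2 * M.PL pt φ + d / 2 * lam * M.m2 G pt lam φ +
        η1 * lam ^ 2 * M.SI pt (fun s => M.L.pot s * ‖φ s‖ ^ 2) - η * lam * M.N2 pt φ ≤
      M.SI pt (M.dens G 1 lam φ) := by
  obtain ⟨κ, hκ, η1, h1, lam0, h0, H⟩ := hg.gap_fibre hη
  refine ⟨κ, hκ, η1, h1, lam0, h0, fun lam hlam r' hr φ h => ?_⟩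
  have hl : 0 < lam := h0.trans_le hlam
  obtain ⟨c_n, -, c_l, -, -, c_d, -, c_w⟩ := h.tst.cc M G pt
  have c_p := c_w M.L.pot (contDiff_pot M.L).continuous.continuousOn
  have e1 : M.SI pt (M.dens G 1 lam φ) = M.SI pt (M.dens G (1 - η1) lam φ) +
      η1 * lam ^ 2 * M.SI pt (fun s => M.L.pot s * ‖φ s‖ ^ 2) := by
    rw [← SI_smul, ← SI_add (c_d _ _) (c_p.mul continuous_const)]
    refine SI_congr fun X z => ?_
    simp only [dens]
    ring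
  have i1 := (cc_fi (M := M) (pt := pt) c_l).2.1.const_mul (1 / 4)
  have i2 := ((cc_fi (M := M) (pt := pt) c_n).2.2 (fun X => M.L.pot (pt.il X))
    ((contDiff_pot M.L).continuous.comp pt.il.continuous)).const_mul (1 / 4 * lam ^ 2)
  have i3 := (hg.int_ex2 hl hr h.sup).2.const_mul (d / 2 * lam)
  have i4 := (cc_fi (M := M) (pt := pt) c_n).2.1.const_mul (η * lam)
  have m := integral_mono (((i1.add i2).add i3).sub i4)
    (cc_fi (M := M) (pt := pt) (c_d (1 - η1) lam)).2.1 fun X => by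
      have := mul_le_mul_of_nonneg_left (H lam hlam r' hr φ h X) (pt.jac_nonneg X)
      simp only [Pi.add_apply, Pi.sub_apply]
      linarith
  rw [integral_sub' ((i1.add i2).add i3) i4, integral_add' (i1.add i2) i3,
    integral_add' i1 i2] at m
  simp only [integral_const_mul] at m
  have m' : 1 / 4 * M.GR pt φ + 1 / 4 * lam ^ 2 * M.PL pt φ + d / 2 * lam * M.m2 G pt lam φ -
      η * lam * M.N2 pt φ ≤ M.SI pt (M.dens G (1 - η1) lam φ) := m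
  linarith
end Mod

end Vale.Agent.P353
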