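import Vale.Agent.P353.BTrans
import Vale.Agent.P353.BBil

open MeasureTheory NormedSpace
open Complex (I)
open scoped InnerProductSpace ContDiff

noncomputable section
namespace Vale.Agent.P353
variable {V F : Type} [NormedAddCommGroup V] [InnerProductSpace ℝ V] [FiniteDimensional ℝ V]
  [NormedAddCommGroup F] [InnerProductSpace ℂ F] [CompleteSpace F] [FiniteDimensional ℂ F]
  [MeasurableSpace V] [BorelSpace V] {M : Mod V F} {pt : Patch M.L}

section
variable {S E : Type} [NormedAddCommGroup S] [InnerProductSpace ℝ S]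
  [NormedAddCommGroup E] [InnerProductSpace ℝ E] [FiniteDimensional ℝ E]

omit [FiniteDimensional ℂ F] in
theorem bt_dirac_zero (C : Cl S F) (ψ : E →L[ℝ] S) (s : E → S) {φ : E → F} {x : E}
    (h : x ∉ tsupport φ) : C.dirac ψ s φ x = 0 := by
  unfold Cl.dirac
  rw [image_eq_zero_of_notMem_tsupport h, fderiv_of_notMem_tsupport ℝ h]
  simp

omit [FiniteDimensional ℂ F] in
theorem bt_dirac_supp (C : Cl S F) (ψ : E →L[ℝ] S) (s : E → S) (φ : E → F) :
    tsupport (C.dirac ψ s φ) ⊆ tsupport φ :=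
  closure_minimal (fun x hx => by_contra fun h => hx (bt_dirac_zero C ψ s h)) (isClosed_tsupport φ)
end

theorem bt_four {A : Type} [NormedAddCommGroup A] (a b c d : A) :
    ‖a + b + c + d‖ ^ 2 ≤ 4 * (‖a‖ ^ 2 + ‖b‖ ^ 2 + ‖c‖ ^ 2 + ‖d‖ ^ 2) := by
  have h1 : ‖a + b + c + d‖ ≤ ‖a‖ + ‖b‖ + ‖c‖ + ‖d‖ :=
    (norm_add_le _ _).trans (add_le_add (norm_add₃_le) le_rfl)
  have h2 := pow_le_pow_left₀ (norm_nonneg _) h1 2
  nlinarith [sq_nonneg (‖a‖ - ‖b‖), sq_nonneg (‖a‖ - ‖c‖), sq_nonneg (‖a‖ - ‖d‖),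
    sq_nonneg (‖b‖ - ‖c‖), sq_nonneg (‖b‖ - ‖d‖), sq_nonneg (‖c‖ - ‖d‖)]

omit [FiniteDimensional ℂ F] in
theorem bt_gl (φ : EE V → F) (s : EE V) (a : EE pt.l) :
    ‖fderiv ℝ φ s (pt.il a)‖ ≤ ‖a‖ * Real.sqrt (pt.gl φ s) := by
  have h := norm_fderiv_sq_le (fderiv ℝ φ s ∘L pt.il : EE pt.l →L[ℝ] F) 0 a
  unfold g2 at h
  rw [ContinuousLinearMap.fderiv] at h
  have h0 : 0 ≤ pt.gl φ s := Finset.sum_nonneg fun _ _ => sq_nonneg _
  refine (pow_le_pow_iff_left₀ (norm_nonneg _) (by positivity) two_ne_zero).1 ?_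
  rw [mul_pow, Real.sq_sqrt h0]
  exact h

omit [FiniteDimensional ℂ F] in
theorem bt_Lt (G : Gam) (e : R16) (φ : EE V → F) (X : EE pt.l) (z : pt.HT) {C : ℝ}
    (hC : ∀ w : pt.lᗮ, ‖pt.Bl (pt.Xi X w) z‖ ≤ C * ‖w‖ * ‖z‖) :
    ‖M.Lt G pt e φ X z‖ ≤
      (∑ k, ‖M.cv G pt e (pt.bm k)‖) * C * ‖z‖ * Real.sqrt (pt.gl φ (pt.sp X z)) := by
  unfold Mod.Lt
  rw [norm_smul, Complex.norm_I, one_mul, mul_assoc, mul_assoc, Finset.sum_mul]
  refine (norm_sum_le _ _).trans (Finset.sum_le_sum fun k _ => ?_)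
  refine (ContinuousLinearMap.le_opNorm _ _).trans (mul_le_mul_of_nonneg_left ?_ (norm_nonneg _))
  refine (bt_gl φ _ _).trans ?_
  have h := hC (pt.bm k)
  rw [pt.bm.orthonormal.1 k, mul_one] at h
  rw [← mul_assoc]
  exact mul_le_mul_of_nonneg_right h (Real.sqrt_nonneg _)

theorem bt_num {n Z j f x g p A B D η η1 lam a b c e T : ℝ} (hn : n ^ 2 * Z ≤ 2 * j) (hZ : 0 < Z)
    (hj : 0 ≤ j) (hf : 0 ≤ f) (hx : 0 ≤ x) (hg : 0 ≤ g) (hp : 0 ≤ p) (hA : 0 ≤ A) (hB : 0 ≤ B)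
    (hD : 0 ≤ D) (hl : 0 < lam) (h1 : 8 * η1 ≤ η) (h1' : 0 ≤ η1) (ha : a ≤ A * Z * x)
    (hb : b ≤ η1 * (Z * f)) (hc : c ≤ lam * B * p * Z * f) (he : e ≤ D / lam * Z * g)
    (hT : T ≤ n ^ 2 * (4 * (a + b + c + e))) :
    T ≤ η * (j * f) + (8 * (A + B + D) + 1) * (j * x) + (8 * (A + B + D) + 1) * lam * (j * (p * f)) +
      (8 * (A + B + D) + 1) / lam * (j * g) := by
  set u := A * x + η1 * f + lam * B * p * f + D / lam * g with hu
  have hu0 : 0 ≤ u := by positivity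
  have k1 : a + b + c + e ≤ Z * u := by rw [hu]; linarith
  have k2 : T ≤ 8 * j * u := by
    have q1 := mul_le_mul_of_nonneg_left k1 (sq_nonneg n)
    have q2 := mul_le_mul_of_nonneg_right hn hu0
    linarith
  have q1 := mul_le_mul_of_nonneg_right h1 (mul_nonneg hj hf)
  have q2 := mul_le_mul_of_nonneg_right (show 8 * A ≤ 8 * (A + B + D) + 1 by linarith)
    (mul_nonneg hj hx)
  have q3 := mul_le_mul_of_nonneg_right (show 8 * B ≤ 8 * (A + B + D) + 1 by linarith)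
    (show 0 ≤ lam * (j * (p * f)) by positivity)
  have q4 := mul_le_mul_of_nonneg_right (show 8 * D ≤ 8 * (A + B + D) + 1 by linarith)
    (show 0 ≤ lam⁻¹ * (j * g) by positivity)
  rw [hu, div_eq_mul_inv] at k2
  rw [div_eq_mul_inv]
  linarith

omit [FiniteDimensional ℂ F] in
theorem bt_int {φ : EE V → F} (h : Tst φ) (W : pt.HT →L[ℝ] pt.HT) (X : EE pt.l) :
    Integrable fun z => gau W z • φ (pt.sp X z) :=
  ((aosc_cont W).smul (h.fibre M pt X).1.1.continuous).integrable_of_hasCompactSupport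
    (h.fibre M pt X).1.2.smul_left

omit [FiniteDimensional ℂ F] [MeasurableSpace V] [BorelSpace V] in
theorem bt_proj (X : EE pt.l) (z : pt.HT) :
    lift pt.l.orthogonalProjectionOnto (pt.sp X z) = X := by
  ext i
  have h1 : pt.l.orthogonalProjectionOnto ((pt.inc z i : pt.lᗮ) : V) = 0 :=
    Submodule.orthogonalProjectionOnto_eq_zero_iff.2 (pt.inc z i).2
  have h2 : pt.l.orthogonalProjectionOnto ((X i : pt.l) : V) = X i :=
    Submodule.orthogonalProjectionOnto_mem_subspace_eq_self (X i)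
  have h3 : pt.sp X z i = (X i : V) + (pt.inc z i : V) := rfl
  rw [lift_apply, h3, map_add, h1, h2, add_zero]

/-- the heavy part of the mass term -/
def btR (M : Mod V F) (P : Par) (pt : Patch M.L) (β : Fin 16) (mu : ℝ) (φ : EE V → F) (s : EE V) :
    F := M.C.th (mu • P.s1' β (s - pt.il (lift pt.l.orthogonalProjectionOnto s))) (φ s)

omit [FiniteDimensional ℂ F] in
theorem bt_R_tst (P : Par) (β : Fin 16) (mu : ℝ) {φ : EE V → F} (h : Tst φ) :
    Tst (btR M P pt β mu φ) :=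
  h.clm (B := fun s => M.C.th (mu • P.s1' β (s - pt.il (lift pt.l.orthogonalProjectionOnto s))))
    (M.C.th.contDiff.comp (((P.s1' β).contDiff.comp (contDiff_id.sub
      (pt.il.contDiff.comp (lift pt.l.orthogonalProjectionOnto).contDiff))).const_smul mu))

omit [FiniteDimensional ℂ F] in
theorem bt_R_le (P : Par) (β : Fin 16) (mu : ℝ) (φ : EE V → F) (X : EE pt.l) (z : pt.HT) :
    ‖btR M P pt β mu φ (pt.sp X z)‖ ≤ 7 * |mu| * ‖z‖ * ‖φ (pt.sp X z)‖ := by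
  unfold btR
  refine (ContinuousLinearMap.le_opNorm _ _).trans (mul_le_mul_of_nonneg_right ?_ (norm_nonneg _))
  refine (M.C.norm_th_le _).trans ?_
  have k2 := pt.norm_sp X X z
  rw [sub_self, norm_zero, zero_pow two_ne_zero, zero_add,
    pow_left_inj₀ (norm_nonneg _) (norm_nonneg _) two_ne_zero] at k2
  have k3 := P.norm_s1' β (pt.sp X z - pt.il X)
  rw [bt_proj, norm_smul, Real.norm_eq_abs]
  rw [k2] at k3
  have := mul_le_mul_of_nonneg_left k3 (abs_nonneg mu)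
  linarith

theorem bt_split (P : Par) (β : Fin 16) (lam mu : ℝ) {φ : EE V → F} (h : Tst φ) (X : EE pt.l) :
    (M.Ml pt).D' P β lam mu (M.Td P.toGam pt lam φ) X - M.Td P.toGam pt lam (M.D' P β lam mu φ) X =
      -(M.Td P.toGam pt lam (M.Q P.toGam (Pi.single β 1) lam φ) X -
        (M.Ml pt).Q P.toGam (Pi.single β 1) lam (M.Td P.toGam pt lam φ) X) -
      M.Td P.toGam pt lam (btR M P pt β mu φ) X := by
  set A : F →L[ℂ] F := M.C.th (lift pt.l.subtypeL (mu • P.s1' β X)) with hA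
  have e1 : (M.Ml pt).D' P β lam mu (M.Td P.toGam pt lam φ) X =
      (M.Ml pt).Q P.toGam (Pi.single β 1) lam (M.Td P.toGam pt lam φ) X +
        A (M.Td P.toGam pt lam φ X) :=
    dirac_add_pot (M.Ml pt).C _ _ (fun x => mu • P.s1' β x) _ X
  have e0 : P.s1' β (pt.il X) = lift pt.l.subtypeL (P.s1' β X) := by
    ext i
    simp [Par.s1', Gam.psi]
  have e2 : ∀ z, M.D' P β lam mu φ (pt.sp X z) = M.Q P.toGam (Pi.single β 1) lam φ (pt.sp X z) +
      A (φ (pt.sp X z)) + btR M P pt β mu φ (pt.sp X z) := fun z => by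
    have k := dirac_add_pot M.C (P.psi (Pi.single β 1))
      (fun x => lam • s0 P.toGam M.L (Pi.single β 1) x) (fun x => mu • P.s1' β x) φ (pt.sp X z)
    refine k.trans ?_
    unfold btR
    rw [bt_proj, add_assoc, hA, ← add_apply, ← map_add, map_smul (lift pt.l.subtypeL), ← e0,
      ← smul_add, ← map_add, add_sub_cancel]
    rfl
  have i1 := bt_int (M := M) ((M.Tst_D P lam mu h).2.2 (Pi.single β 1)) (lam • pt.WH X) X
  have i2 := bt_int (M := M) h (lam • pt.WH X) X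
  have i3 := bt_int (M := M) (bt_R_tst (M := M) (pt := pt) P β mu h) (lam • pt.WH X) X
  have i4 := A.integrable_comp i2
  have e3 : M.uu pt lam (M.D' P β lam mu φ) X = M.uu pt lam (M.Q P.toGam (Pi.single β 1) lam φ) X +
      A (M.uu pt lam φ X) + M.uu pt lam (btR M P pt β mu φ) X := by
    unfold Mod.uu
    have i5 : Integrable fun z =>
        gau (lam • pt.WH X) z • M.Q P.toGam (Pi.single β 1) lam φ (pt.sp X z) +
          A (gau (lam • pt.WH X) z • φ (pt.sp X z)) := i1.add i4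
    rw [← A.integral_comp_comm i2, ← integral_add i1 i4, ← integral_add i5 i3]
    refine integral_congr_ae (Filter.Eventually.of_forall fun z => ?_)
    simp only [e2, smul_add, ContinuousLinearMap.map_smul_of_tower]
  have cm : ∀ J w, (M.Cm pt).vac J (A w) = A ((M.Cm pt).vac J w) := fun J w =>
    (congrArg (fun B : F →L[ℂ] F => B w) (M.th_l_comm pt (mu • P.s1' β X) J)).symm
  rw [e1]
  unfold Mod.Td
  rw [e3, map_add, map_add, map_add, map_add, smul_add, smul_add,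
    ContinuousLinearMap.map_smul_of_tower]
  unfold Mod.Pi0 Mod.Pi
  rw [cm, cm]
  abel

namespace Mod
/-- fibre estimate: `trans_id`, `fib_split` (with `K2_bilin`, `K_bound`), `Kb_small`, `fib_lin`
(with `norm_Kd`, `K_bound`), `nn_sq`, `norm_Td` -/
theorem GB.trans_fibre {G : Gam} {r d : ℝ} (hg : M.GB G pt r d) {e : R16} (he : e ⬝ᵥ e = 1) :
    ∃ C > 0, ∀ η > 0, ∃ κ > 0, ∀ lam > 0, ∀ r' ≤ r / 2, ∀ φ : EE V → F, M.Adm pt r' κ φ → ∀ X,
      ‖M.Td G pt lam (M.Q G e lam φ) X - (M.Ml pt).Q G e lam (M.Td G pt lam φ) X‖ ^ 2 ≤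
        η * (pt.jac X * M.fi pt (fun s => ‖φ s‖ ^ 2) X) + C * (pt.jac X * M.ex2 G pt lam φ X) +
        C * lam * (pt.jac X * (M.L.pot (pt.il X) * M.fi pt (fun s => ‖φ s‖ ^ 2) X)) +
        C / lam * (pt.jac X * M.fi pt (pt.gl φ) X) := by
  obtain ⟨K1, hK1, hsp⟩ := fib_split (E := pt.HT) (F := F)
  obtain ⟨K2, hK2, hlin⟩ := fib_lin (E := pt.HT) (F := F)
  obtain ⟨C1, hC1, hKb⟩ := hg.K_bound e
  obtain ⟨C2, hC2, hKd⟩ := hg.norm_Kd
  have hd := hg.2.1
  set Sg := (∑ k, ‖M.cv G pt e (pt.bm k)‖) * C1 with hSg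
  refine ⟨8 * (K1 * C1 ^ 2 * (1 + 1 / d ^ 2) + K2 * C2 ^ 2 / d + K2 * Sg ^ 2 / d) + 1,
    by positivity, fun η hη => ?_⟩
  obtain ⟨κ, hκ, hsm⟩ := hg.Kb_small e (η := min 1 (η / 8)) (by positivity)
  refine ⟨κ, hκ, fun lam hl r' hr φ h X => ?_⟩
  obtain ⟨c1, -, c2, -⟩ := h.tst.cc M G pt
  obtain ⟨n1, -, n3⟩ := hg.norm_Td hl hr h.sup X
  have j0 := pt.jac_nonneg X
  have f0 : 0 ≤ M.fi pt (fun s => ‖φ s‖ ^ 2) X := fi_nonneg X fun s => sq_nonneg _
  have gl0 : ∀ s, 0 ≤ pt.gl φ s := fun s => Finset.sum_nonneg fun _ _ => sq_nonneg _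
  have g0 : 0 ≤ M.fi pt (pt.gl φ) X := fi_nonneg X gl0
  have p0 := pot_nonneg M.L (pt.il X)
  by_cases hX : ∃ z, pt.sp X z ∈ tsupport φ
  · obtain ⟨z0, hz0⟩ := hX
    obtain ⟨k1, -, -, -, Y, hY, hXY⟩ := pt.reg_cen (h.supp X z0 hz0)
    have hX2 : X ∈ Metric.ball pt.p0 (r / 2) := mem_ball_iff_norm.2 (k1.trans_le hr)
    have hX1 : X ∈ Metric.ball pt.p0 r := Metric.ball_subset_ball (by linarith [hg.1]) hX2
    obtain ⟨-, hP, sP, nP⟩ := hg.Pi_spec hX1
    obtain ⟨-, -, -, nP0⟩ := hg.Pi_spec (Metric.mem_ball_self hg.1)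
    have hW := (hg.2.2 X hX1).wh
    have hW' := bb_pos hl.le hW
    obtain ⟨B, hB⟩ := hg.K2_bilin e X
    obtain ⟨b1, b2, b3⟩ := hKb X hX2
    have hF := (h.tst.fibre M pt X).1
    have hZ := hg.ZZ_pos hl hX1
    have a1 := hsp (pt.WH X) d lam C1 hd hl hW (M.K0 G pt e X) (M.Pi G pt X) B hP sP b1
      (fun z => by rw [hB, sq, ← mul_assoc]; exact b2 z z) _ hF
    simp only [hB] at a1
    have a3 := hlin _ _ (mul_pos hl hd) hW' (fun z => M.Kd G pt e X z (φ (pt.sp X z)))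
      (fun z => ‖φ (pt.sp X z)‖) (C2 * Real.sqrt (M.L.pot (pt.il X))) hF.1.continuous.norm hF.2.norm
      fun z => (ContinuousLinearMap.le_opNorm _ _).trans
        (mul_le_mul_of_nonneg_right (hKd X hX1 z e he) (norm_nonneg _))
    obtain ⟨⟨c3, c4⟩, -⟩ := cc_fibre (M := M) (pt := pt) c2 X
    have a4 := hlin _ _ (mul_pos hl hd) hW' (fun z => M.Lt G pt e φ X z)
      (fun z => Real.sqrt (pt.gl φ (pt.sp X z))) Sg c3.sqrt
      (c4.comp_left (g := Real.sqrt) Real.sqrt_zero)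
      fun z => bt_Lt G e φ X z fun w => (b3 w z).1
    simp only [Real.sq_sqrt (gl0 _)] at a4
    rw [hg.trans_id hl hr h e hX1]
    set u := M.uu pt lam φ X with hu
    set a := ∫ z, gau (lam • pt.WH X) z •
      (M.K0 G pt e X + lam • M.K2 G pt e X z z) (φ (pt.sp X z)) with ha
    set b := ∫ z, gau (lam • pt.WH X) z • M.Kd G pt e X z (φ (pt.sp X z)) with hb
    set c := ∫ z, gau (lam • pt.WH X) z • M.Lt G pt e φ X z with hc
    have le1 : ∀ {A : F →L[ℂ] F}, ‖A‖ ≤ 1 → ∀ w, ‖A w‖ ^ 2 ≤ ‖w‖ ^ 2 := fun hA w =>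
      pow_le_pow_left₀ (norm_nonneg _) ((ContinuousLinearMap.le_opNorm _ _).trans
        (mul_le_of_le_one_left (norm_nonneg _) hA)) 2
    have e1 : M.Pi0 G pt (a + lam • b + M.Pi G pt X c) =
        M.Pi0 G pt (a - M.Kb G pt e X (M.Pi G pt X u)) +
          (M.Pi0 G pt * M.Kb G pt e X * M.Pi G pt X) (M.Pi G pt X u) + M.Pi0 G pt (lam • b) +
          M.Pi0 G pt (M.Pi G pt X c) := by
      have a2 : M.Pi G pt X (M.Pi G pt X u) = M.Pi G pt X u :=
        congrArg (fun A : F →L[ℂ] F => A u) hP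
      have a5 : (M.Pi0 G pt * M.Kb G pt e X * M.Pi G pt X) (M.Pi G pt X u) =
        M.Pi0 G pt (M.Kb G pt e X (M.Pi G pt X (M.Pi G pt X u))) := rfl
      rw [a5, a2, map_add, map_add, map_sub, sub_add_cancel]
    refine bt_num (a := ‖M.Pi0 G pt (a - M.Kb G pt e X (M.Pi G pt X u))‖ ^ 2)
      (b := ‖(M.Pi0 G pt * M.Kb G pt e X * M.Pi G pt X) (M.Pi G pt X u)‖ ^ 2)
      (c := ‖M.Pi0 G pt (lam • b)‖ ^ 2) (e := ‖M.Pi0 G pt (M.Pi G pt X c)‖ ^ 2)
      (η1 := η / 8) (hg.nn_sq hl hX1).2 hZ j0 f0 n3 g0 p0 (by positivity) (by positivity)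
      (by positivity) hl (by linarith) (by positivity) ((le1 nP0 _).trans a1) ?_ ?_ ?_ ?_
    · have q1 := hsm X hX2 Y hY hXY
      have q2 := pow_le_pow_left₀ (norm_nonneg _) ((ContinuousLinearMap.le_opNorm _ _).trans
        (mul_le_mul_of_nonneg_right q1 (norm_nonneg (M.Pi G pt X u)))) 2
      have q3 : min 1 (η / 8) ^ 2 ≤ η / 8 := by
        have := mul_le_mul (min_le_left 1 (η / 8)) (min_le_right 1 (η / 8)) (by positivity)
          zero_le_one
        rwa [one_mul, ← sq] at this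
      have q4 : ‖M.Pi G pt X u‖ ^ 2 ≤ M.ZZ pt lam X * M.fi pt (fun s => ‖φ s‖ ^ 2) X := by
        rw [← div_le_iff₀' hZ]
        exact sub_nonneg.1 n3
      rw [mul_pow] at q2
      exact q2.trans (mul_le_mul q3 q4 (sq_nonneg _) (by positivity))
    · refine (le1 nP0 _).trans ?_
      rw [norm_smul, mul_pow, Real.norm_eq_abs, sq_abs]
      refine (mul_le_mul_of_nonneg_left a3 (sq_nonneg lam)).trans (le_of_eq ?_)
      rw [mul_pow, Real.sq_sqrt p0]
      unfold Mod.ZZ Mod.fi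
      field_simp
    · refine (le1 nP0 _).trans ((le1 nP _).trans (a4.trans (le_of_eq ?_)))
      unfold Mod.ZZ Mod.fi
      field_simp
    · rw [norm_smul, mul_pow, Real.norm_eq_abs, sq_abs, e1]
      exact mul_le_mul_of_nonneg_left (bt_four _ _ _ _) (sq_nonneg _)
  · push Not at hX
    have h0 : X ∉ tsupport (M.Td G pt lam φ) := fun h0 => by
      obtain ⟨z, hz⟩ := ((hg.tst_Td hl hr h.sup).2 X h0).2
      exact hX z hz
    have h1 : (M.Ml pt).Q G e lam (M.Td G pt lam φ) X = 0 := bt_dirac_zero _ _ _ h0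
    have h2 : M.Td G pt lam (M.Q G e lam φ) X = 0 := by
      have : ∀ z, M.Q G e lam φ (pt.sp X z) = 0 := fun z => bt_dirac_zero _ _ _ (hX z)
      unfold Mod.Td Mod.uu
      simp only [this, smul_zero, integral_zero, map_zero]
    rw [h1, h2, sub_zero, norm_zero, zero_pow two_ne_zero]
    positivity

/-- The supercharges of the sum of squares.  `D' = Q + mu θ(s1')` (`dirac_add_pot`),
`s1' (sp X z) = lift (s1' X) + s1' (im (inc z))`, `Td_lin`, `n2_add_le`, `n2_Td`. -/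
theorem GB.trans_D' {P : Par} {r d : ℝ} (hg : M.GB P.toGam pt r d) (β : Fin 16) :
    ∃ C > 0, ∀ η > 0, ∃ κ > 0, ∀ lam > 0, ∀ mu : ℝ, ∀ r' ≤ r / 2, ∀ φ : EE V → F,
      M.Adm pt r' κ φ → ∀ t > 0,
      n2 ((M.Ml pt).D' P β lam mu (M.Td P.toGam pt lam φ)) ≤
        (1 + t) * M.N2 pt (M.D' P β lam mu φ) + (1 + t⁻¹) * (η * M.N2 pt φ +
          C * (M.m2 P.toGam pt lam φ + lam * M.PL pt φ + M.GR pt φ / lam +
            mu ^ 2 / lam * M.N2 pt φ)) := by
  obtain ⟨C1, hC1, h1⟩ := hg.trans_fibre (e := Pi.single β 1) (by simp)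
  obtain ⟨C2, hC2, h2⟩ := hg.Td_lin
  refine ⟨2 * C1 + 98 * C2, by positivity, fun η hη => ?_⟩
  obtain ⟨κ, hκ, h3⟩ := h1 (η / 2) (by positivity)
  refine ⟨κ, hκ, fun lam hl mu r' hr φ h t ht => ?_⟩
  have sD : pt.Sup r' κ (M.D' P β lam mu φ) :=
    ⟨(M.Tst_D P lam mu h.tst).2.1 β, fun X z hz => h.supp X z (bt_dirac_supp _ _ _ _ hz)⟩
  have t1 := (hg.tst_Td hl hr h.sup).1
  have t2 := (hg.tst_Td hl hr sD).1
  have t3 := ((M.Ml pt).Tst_D P lam mu t1).2.1 β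
  have k1 := n2_add_le t2.memLp (t3.memLp.sub t2.memLp) ht
  rw [add_sub_cancel] at k1
  obtain ⟨k2, k3⟩ := hg.n2_Td hl hr sD
  obtain ⟨c1, -, c2, -⟩ := h.tst.cc M P.toGam pt
  have i1 := (cc_fi (M := M) (pt := pt) c1).2.1
  have i2 := (hg.int_ex2 hl hr h.sup).2
  have i3 := (cc_fi (M := M) (pt := pt) c1).2.2 (fun X => M.L.pot (pt.il X))
    ((contDiff_pot M.L).continuous.comp pt.il.continuous)
  have i4 := (cc_fi (M := M) (pt := pt) c2).2.1
  have j1 := (i1.const_mul (η + 98 * C2 * (mu ^ 2 / lam))).add (i2.const_mul (2 * C1))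
  have j2 := (i3.const_mul (2 * C1 * lam)).add (i4.const_mul (2 * C1 / lam))
  have key := integral_mono_of_nonneg (f := fun X => ‖((M.Ml pt).D' P β lam mu (M.Td P.toGam pt lam φ) -
      M.Td P.toGam pt lam (M.D' P β lam mu φ)) X‖ ^ 2)
    (Filter.Eventually.of_forall fun X => sq_nonneg _) (j1.add j2)
    (Filter.Eventually.of_forall fun X => by
      simp only [Pi.add_apply, Pi.sub_apply]
      rw [bt_split P β lam mu h.tst X]
      have q1 := h3 lam hl r' hr φ h X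
      have q2 := h2 lam hl r' hr κ _ φ _ h.sup (bt_R_le P β mu φ) X
      rw [mul_pow, sq_abs] at q2
      set a := M.Td P.toGam pt lam (M.Q P.toGam (Pi.single β 1) lam φ) X -
        (M.Ml pt).Q P.toGam (Pi.single β 1) lam (M.Td P.toGam pt lam φ) X
      set b := M.Td P.toGam pt lam (btR M P pt β mu φ) X
      have q3 := pow_le_pow_left₀ (norm_nonneg _) (norm_sub_le (-a) b) 2
      rw [norm_neg] at q3
      have q4 := sq_nonneg (‖a‖ - ‖b‖)
      simp only [div_eq_mul_inv] at q1 q2 ⊢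
      linarith)
  rw [integral_add' j1 j2, integral_add' (i1.const_mul _) (i2.const_mul _),
    integral_add' (i3.const_mul _) (i4.const_mul _), integral_const_mul, integral_const_mul,
    integral_const_mul, integral_const_mul] at key
  have key' : n2 ((M.Ml pt).D' P β lam mu (M.Td P.toGam pt lam φ) -
      M.Td P.toGam pt lam (M.D' P β lam mu φ)) ≤ (η + 98 * C2 * (mu ^ 2 / lam)) * M.N2 pt φ +
      2 * C1 * M.m2 P.toGam pt lam φ + (2 * C1 * lam * M.PL pt φ + 2 * C1 / lam * M.GR pt φ) := key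
  obtain ⟨z1, z2, z3⟩ := nonneg3 (M := M) (pt := pt) φ
  have z4 := (hg.n2_Td hl hr h.sup).2
  refine k1.trans (add_le_add (mul_le_mul_of_nonneg_left (by linarith) (by positivity))
    (mul_le_mul_of_nonneg_left (key'.trans ?_) (by positivity)))
  have w1 : 0 ≤ C2 * M.m2 P.toGam pt lam φ := by positivity
  have w2 : 0 ≤ C2 * (lam * M.PL pt φ) := by positivity
  have w3 : 0 ≤ C2 * (M.GR pt φ * lam⁻¹) := by positivity
  have w4 : 0 ≤ C1 * (mu ^ 2 * lam⁻¹ * M.N2 pt φ) := by positivity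
  simp only [div_eq_mul_inv]
  linarith
end Mod

end Vale.Agent.P353
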