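import Vale.Agent.P353.BGap
import Vale.Agent.P353.BTrans2
import Vale.Agent.P353.BBil
import Vale.Agent.P353.BBig

open MeasureTheory NormedSpace
open Complex (I)
open scoped InnerProductSpace ContDiff

noncomputable section
namespace Vale.Agent.P353
variable {V F : Type} [NormedAddCommGroup V] [InnerProductSpace ℝ V] [FiniteDimensional ℝ V]
  [NormedAddCommGroup F] [InnerProductSpace ℂ F] [CompleteSpace F] [FiniteDimensional ℂ F]
  [MeasurableSpace V] [BorelSpace V] {M : Mod V F} {P : Par} {pt : Patch M.L}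

theorem bglob_small {a b c e : ℝ} (ha : 0 ≤ a) (hb : 0 ≤ b) (hc : 0 ≤ c) (he : 0 < e) :
    ∃ x > 0, a * x ≤ e ∧ b * x ≤ e ∧ c * x ≤ e := by
  have hp : 0 < a + b + c + 1 := by positivity
  have hx : 0 < e / (a + b + c + 1) := by positivity
  have h1 : (a + b + c + 1) * (e / (a + b + c + 1)) = e := by field_simp
  have a1 := mul_nonneg ha hx.le
  have a2 := mul_nonneg hb hx.le
  have a3 := mul_nonneg hc hx.le
  exact ⟨_, hx, by linarith, by linarith, by linarith⟩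

theorem bglob_num {ε t τ C Cw Cb k R θ0 e1 e4 lam mu n q0 S m2 PL GR Sl wl ol w o : ℝ}
    (hε : 0 < ε) (ht : 0 < t) (hτ : 0 < τ) (hC : 0 ≤ C) (hCw : 0 ≤ Cw) (hCb : 0 ≤ Cb) (hk : 0 ≤ k)
    (he4 : 0 ≤ e4) (hl : 0 < lam) (hmu : 0 ≤ mu) (hn : 0 ≤ n) (hq : 0 ≤ q0)
    (hmu2 : mu ^ 2 ≤ θ0 * lam)
    (hSl : Sl ≤ (1 + t) * S + τ * (e1 * n + C * (m2 + lam * PL + GR / lam + mu ^ 2 / lam * n)))
    (hwl : wl ≤ w + ε * n + Cw * m2) (hol : ol ≤ o + ε * n + Cb * m2)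
    (hS : S ≤ 2 * q0 + 100 * R ^ 2 * mu ^ 2 * n)
    (g1 : GR ≤ 4 * (q0 + e4 * lam * n)) (g2 : lam ^ 2 * PL ≤ 4 * (q0 + e4 * lam * n))
    (g3 : lam * m2 ≤ k * (q0 + e4 * lam * n))
    (c1 : 2 * t ≤ ε) (c2 : 100 * R ^ 2 * t ≤ ε) (c3 : τ * e1 ≤ ε) (c4 : τ * C * (k + 8) * e4 ≤ ε)
    (c5 : τ * C * (k + 8) ≤ ε * lam) (c6 : Cw * k * θ0 ≤ ε) (c7 : Cw * k * e4 ≤ ε)
    (c8 : Cb * k * e4 ≤ ε) (c9 : (Cb * k) ^ 2 * θ0 ≤ ε ^ 2 * lam) :
    Sl + mu ^ 2 * wl + mu * ol ≤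
      S + mu ^ 2 * w + mu * o + 4 * ε * q0 + 4 * ε * (1 + mu + mu ^ 2) * n := by
  obtain ⟨u, hu⟩ : ∃ u, u = q0 / lam := ⟨_, rfl⟩
  have hu0 : 0 ≤ u := by rw [hu]; positivity
  have hul : q0 = lam * u := by rw [hu]; field_simp
  have f1 : GR / lam ≤ 4 * (u + e4 * n) := by
    rw [div_le_iff₀ hl]
    calc GR ≤ 4 * (q0 + e4 * lam * n) := g1
      _ = 4 * (u + e4 * n) * lam := by rw [hul]; ring
  have f2 : lam * PL ≤ 4 * (u + e4 * n) := by
    refine le_of_mul_le_mul_left ?_ hl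
    calc lam * (lam * PL) = lam ^ 2 * PL := by ring
      _ ≤ 4 * (q0 + e4 * lam * n) := g2
      _ = lam * (4 * (u + e4 * n)) := by rw [hul]; ring
  have f3 : m2 ≤ k * (u + e4 * n) := by
    refine le_of_mul_le_mul_left ?_ hl
    calc lam * m2 ≤ k * (q0 + e4 * lam * n) := g3
      _ = lam * (k * (u + e4 * n)) := by rw [hul]; ring
  have hτC : 0 ≤ τ * C := by positivity
  have hm2n : 0 ≤ mu ^ 2 * n := by positivity
  have hmn : 0 ≤ mu * n := by positivity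
  have t1 : t * S ≤ ε * q0 + ε * (mu ^ 2 * n) := by
    have a1 := mul_le_mul_of_nonneg_left hS ht.le
    have a2 := mul_le_mul_of_nonneg_right c1 hq
    have a3 := mul_le_mul_of_nonneg_right c2 hm2n
    linarith
  have t2 : τ * (e1 * n) ≤ ε * n := by
    have := mul_le_mul_of_nonneg_right c3 hn
    linarith
  have t3 : τ * C * (m2 + lam * PL + GR / lam) ≤ ε * q0 + ε * n := by
    have a1 : m2 + lam * PL + GR / lam ≤ (k + 8) * (u + e4 * n) := by linarith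
    have a2 := mul_le_mul_of_nonneg_left a1 hτC
    have a3 := mul_le_mul_of_nonneg_right c5 hu0
    have a4 := mul_le_mul_of_nonneg_right c4 hn
    rw [hul]
    linarith
  have t4 : τ * C * (mu ^ 2 / lam * n) ≤ ε * (mu ^ 2 * n) := by
    have a1 : τ * C ≤ ε * lam := by
      have := mul_nonneg hτC hk
      linarith
    have a2 : 0 ≤ mu ^ 2 / lam * n := by positivity
    have a3 := mul_le_mul_of_nonneg_right a1 a2
    have a4 : ε * lam * (mu ^ 2 / lam * n) = ε * (mu ^ 2 * n) := by field_simp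
    linarith
  have t5 : mu ^ 2 * (Cw * m2) ≤ ε * q0 + ε * (mu ^ 2 * n) := by
    have a0 : 0 ≤ mu ^ 2 * Cw := by positivity
    have a1 := mul_le_mul_of_nonneg_left f3 a0
    have a2 : 0 ≤ Cw * k * u := by positivity
    have a3 := mul_le_mul_of_nonneg_left hmu2 a2
    have a4 := mul_le_mul_of_nonneg_right c6 hq
    have a5 := mul_le_mul_of_nonneg_right c7 hm2n
    rw [hul] at a4 ⊢
    linarith
  have t6 : mu * (Cb * m2) ≤ ε * q0 + ε * (mu * n) := by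
    have a0 : 0 ≤ mu * Cb := by positivity
    have a1 := mul_le_mul_of_nonneg_left f3 a0
    have a2 : Cb * k * mu ≤ ε * lam := by
      refine (abs_le_of_sq_le_sq' ?_ (by positivity)).2
      have b1 := mul_le_mul_of_nonneg_left hmu2 (sq_nonneg (Cb * k))
      have b2 := mul_le_mul_of_nonneg_right c9 hl.le
      calc (Cb * k * mu) ^ 2 = (Cb * k) ^ 2 * mu ^ 2 := by ring
        _ ≤ (Cb * k) ^ 2 * (θ0 * lam) := b1
        _ = (Cb * k) ^ 2 * θ0 * lam := by ring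
        _ ≤ ε ^ 2 * lam * lam := b2
        _ = (ε * lam) ^ 2 := by ring
    have a3 := mul_le_mul_of_nonneg_right a2 hu0
    have a4 := mul_le_mul_of_nonneg_right c8 hmn
    rw [hul]
    linarith
  have t7 := mul_le_mul_of_nonneg_left hwl (sq_nonneg mu)
  have t8 := mul_le_mul_of_nonneg_left hol hmu
  have p1 := mul_nonneg hε.le hn
  have p2 := mul_nonneg hε.le hmn
  linarith

theorem bglob_U (P : Par) (L : CL V) : L.SInv P.U := fun ξ x => by
  have h1 : mat P.A' (lift (L.ex ξ) x) = lift (L.ex ξ) (mat P.A' x) :=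
    congrArg (fun T : EE V →L[ℝ] EE V => T x) (mat_lift P.A' (L.ex ξ))
  unfold Par.U
  rw [P.s1_lift, h1, CL.G_norm (L.ex_mem ξ), CL.G_norm (L.ex_mem ξ)]

omit [FiniteDimensional ℂ F] [MeasurableSpace V] [BorelSpace V] in
theorem bglob_supp {r κ : ℝ} {φ : EE V → F} (h : M.Glob pt r κ φ) :
    ∀ x ∈ tsupport φ, ‖x‖ ≤ ‖pt.p‖ + r := by
  intro x hx
  obtain ⟨g, hg, h1, -⟩ := h.supp hx
  have h2 := h1.2
  have h3 := norm_add_le pt.p (lift g x - pt.p)
  rw [add_sub_cancel, CL.G_norm hg] at h3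
  linarith

namespace Mod
variable {r d r1 : ℝ} {χ : EE V → ℝ} (hg : M.GB P.toGam pt r d) (hk : M.Link pt P r1 χ)
include hg hk

/-- `GB.gap` in terms of the global form; all terms on the left of `gap` are nonnegative -/
theorem GB.gap_glob {η : ℝ} (hη : 0 < η) : ∃ κ > 0, ∃ η1 > 0, ∃ lam0 > 0, ∀ lam ≥ lam0,
    ∀ r' ≤ min r r1 / 2, ∀ φ, M.Glob pt r' κ φ →
      η1 * lam ^ 2 * wt M.L.pot φ - η * lam * n2 φ ≤ M.q0 P.toGam lam φ ∧
      M.GR pt (fun s => χ s • φ s) ≤ 4 * (M.q0 P.toGam lam φ + η * lam * n2 φ) ∧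
      lam ^ 2 * M.PL pt (fun s => χ s • φ s) ≤ 4 * (M.q0 P.toGam lam φ + η * lam * n2 φ) ∧
      d * lam * M.m2 P.toGam pt lam (fun s => χ s • φ s) ≤
        2 * (M.q0 P.toGam lam φ + η * lam * n2 φ) := by
  obtain ⟨κ, hκ, η1, hη1, lam0, hl0, H⟩ := hg.gap hη
  refine ⟨κ, hκ, η1, hη1, lam0, hl0, fun lam hl r' hr φ hφ => ?_⟩
  have hr1 : r' ≤ r / 2 := hr.trans (by linarith [min_le_left r r1])
  have hr2 : r' ≤ r1 / 2 := hr.trans (by linarith [min_le_right r r1])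
  have hlp : 0 < lam := lt_of_lt_of_le hl0 hl
  have ha := hk.adm r' hr2 κ φ hφ
  have h1 := H lam hl r' hr1 _ ha
  rw [← hk.wt r' hr2 κ φ hφ M.L.pot (contDiff_pot M.L).continuous.continuousOn (pot_sinv M.L),
    ← hk.n2 r' hr2 κ φ hφ, ← hk.q0 r' hr2 κ φ hφ] at h1
  obtain ⟨-, a1, a2⟩ := nonneg3 (M := M) (pt := pt) fun s => χ s • φ s
  have a3 := (hg.n2_Td hlp hr1 ha.sup).2
  have a4 : 0 ≤ wt M.L.pot φ :=
    integral_nonneg fun x => mul_nonneg (my_pot_nonneg M.L x) (sq_nonneg _)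
  have b2 := mul_nonneg (sq_nonneg lam) a2
  have b3 := mul_nonneg (mul_pos hg.2.1 hlp).le a3
  have b4 := mul_nonneg (mul_pos hη1 (pow_pos hlp 2)).le a4
  exact ⟨by linarith, by linarith, by linarith, by linarith⟩

/-- The deformed form of the projected function.  `sos_eq` for both models, `trans_D'` (constants
`C β`, take the sum), `trans_wt` with `P.U` and `U_lift`, `trans_bil`, `sos_le` with
`R = ‖p‖ + r`, `gap_glob`, `q0_nonneg`.  Order of choices: `t`, `θ0`, the errors of the transfer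
lemmas, the error of the gap, `κ` as the minimum, `lam0`; `mu ≤ sqrt (θ0 lam)`. -/
theorem GB.small_q {η : ℝ} (hη : 0 < η) : ∃ θ0 > 0, ∃ κ > 0, ∃ lam0 > 0, ∀ lam ≥ lam0,
    ∀ mu : ℝ, 0 ≤ mu → mu ^ 2 ≤ θ0 * lam → ∀ r' ≤ min r r1 / 2, ∀ φ, M.Glob pt r' κ φ →
      (M.Ml pt).q P lam mu (M.Td P.toGam pt lam fun s => χ s • φ s) ≤
        M.q P lam mu φ + η * M.q0 P.toGam lam φ + η * (1 + mu + mu ^ 2) * n2 φ := by
  obtain ⟨M', hM', hsos⟩ := P.sos_eq
  choose C hC HD using fun β => hg.trans_D' β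
  obtain ⟨Cw, hCw, HW⟩ := hg.trans_wt (P.continuous_U (V := V))
  have hε : 0 < η / 4 := by positivity
  have hd := hg.2.1
  have hk0 : 0 < 2 / d := by positivity
  have hCs : 0 ≤ ∑ β, C β := Finset.sum_nonneg fun β _ => (hC β).le
  obtain ⟨t, ht, c1, c2, -⟩ := bglob_small (a := 2) (b := 100 * (‖pt.p‖ + r) ^ 2) (c := 0)
    (by norm_num) (by positivity) le_rfl hε
  have hτ : 0 < 1 + t⁻¹ := by positivity
  obtain ⟨θ0, hθ0, c6, -, -⟩ := bglob_small (a := Cw * (2 / d)) (b := 0) (c := 0)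
    (by positivity) le_rfl le_rfl hε
  obtain ⟨e1, he1, c3, -, -⟩ := bglob_small (a := 1 + t⁻¹) (b := 0) (c := 0) hτ.le le_rfl le_rfl hε
  choose κD hκD HD' using fun β => HD β e1 he1
  obtain ⟨β0, -, hβ0⟩ := Finset.exists_min_image Finset.univ κD ⟨0, Finset.mem_univ _⟩
  obtain ⟨κw, hκw, HW'⟩ := HW (η / 4) hε
  obtain ⟨κb, hκb, Cb, hCb, HB⟩ := hg.trans_bil hM' hε
  obtain ⟨e4, he4, c4, c7, c8⟩ := bglob_small (a := (1 + t⁻¹) * (∑ β, C β) * (2 / d + 8))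
    (b := Cw * (2 / d)) (c := Cb * (2 / d)) (by positivity) (by positivity) (by positivity) hε
  obtain ⟨κg, hκg, η1, -, lamg, hlg, HG⟩ := hg.gap_glob hk he4
  refine ⟨θ0, hθ0, min (min (κD β0) κw) (min κb κg), by have := hκD β0; positivity,
    max lamg (max ((1 + t⁻¹) * (∑ β, C β) * (2 / d + 8) / (η / 4))
      ((Cb * (2 / d)) ^ 2 * θ0 / (η / 4) ^ 2)), lt_max_of_lt_left hlg,
    fun lam hl mu hmu hmu2 r' hr φ hφ => ?_⟩
  have hr1 : r' ≤ r / 2 := hr.trans (by linarith [min_le_left r r1])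
  have hr2 : r' ≤ r1 / 2 := hr.trans (by linarith [min_le_right r r1])
  have hl1 : lamg ≤ lam := (le_max_left _ _).trans hl
  have hlp : 0 < lam := lt_of_lt_of_le hlg hl1
  have c5 : (1 + t⁻¹) * (∑ β, C β) * (2 / d + 8) ≤ η / 4 * lam := by
    rw [← div_le_iff₀' hε]
    exact ((le_max_left _ _).trans (le_max_right _ _)).trans hl
  have c9 : (Cb * (2 / d)) ^ 2 * θ0 ≤ (η / 4) ^ 2 * lam := by
    rw [← div_le_iff₀' (pow_pos hε 2)]
    exact ((le_max_right _ _).trans (le_max_right _ _)).trans hl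
  have ha := hk.adm r' hr2 _ φ hφ
  obtain ⟨-, g1, g2, g3⟩ := HG lam hl1 r' hr φ (hφ.mono ((min_le_right _ _).trans (min_le_right _ _)))
  have hT := (hg.tst_Td hlp hr1 ha.sup).1
  have hwl := HW' lam hlp r' hr1 _ (ha.mono ((min_le_left _ _).trans (min_le_right _ _))).sup
  have hol := HB lam hlp r' hr1 _ (ha.mono ((min_le_right _ _).trans (min_le_left _ _))).sup
  have hn := hk.n2 r' hr2 _ φ hφ
  rw [← hk.wt r' hr2 _ φ hφ P.U P.continuous_U.continuousOn (bglob_U P M.L), ← hn] at hwl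
  simp only [Par.U_lift] at hwl
  rw [← hk.bil r' hr2 _ φ hφ M', ← hn] at hol
  obtain ⟨-, a1, a2⟩ := nonneg3 (M := M) (pt := pt) fun s => χ s • φ s
  have a3 := (hg.n2_Td hlp hr1 ha.sup).2
  have hn0 := n2_nonneg φ
  have hS := M.sos_le P lam mu hφ.tst (R := ‖pt.p‖ + r) fun x hx =>
    (bglob_supp hφ x hx).trans (by linarith [hg.1])
  have hE : 0 ≤ M.m2 P.toGam pt lam (fun s => χ s • φ s) + lam * M.PL pt (fun s => χ s • φ s) +
      M.GR pt (fun s => χ s • φ s) / lam + mu ^ 2 / lam * n2 φ := by positivity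
  have hSl : (M.Ml pt).sos P lam mu (M.Td P.toGam pt lam fun s => χ s • φ s) ≤
      (1 + t) * M.sos P lam mu φ + (1 + t⁻¹) * (e1 * n2 φ + (∑ β, C β) *
        (M.m2 P.toGam pt lam (fun s => χ s • φ s) + lam * M.PL pt (fun s => χ s • φ s) +
          M.GR pt (fun s => χ s • φ s) / lam + mu ^ 2 / lam * n2 φ)) := by
    have h1 := fun β => HD' β lam hlp mu r' hr1 _
      (ha.mono (((min_le_left _ _).trans (min_le_left _ _)).trans (hβ0 β (Finset.mem_univ _)))) t ht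
    simp only [← hk.dd r' hr2 _ φ hφ, ← hn] at h1
    generalize M.m2 P.toGam pt lam (fun s => χ s • φ s) + lam * M.PL pt (fun s => χ s • φ s) +
      M.GR pt (fun s => χ s • φ s) / lam + mu ^ 2 / lam * n2 φ = E at h1 hE
    have h2 : ∀ β, (1 + t⁻¹) * (e1 * n2 φ + C β * E) ≤
        (1 + t⁻¹) * (e1 * n2 φ + (∑ β, C β) * E) := fun β =>
      mul_le_mul_of_nonneg_left (add_le_add le_rfl (mul_le_mul_of_nonneg_right
        (Finset.single_le_sum (fun β _ => (hC β).le) (Finset.mem_univ β)) hE)) hτ.le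
    have h3 := Finset.sum_le_sum (s := Finset.univ) fun β _ =>
      (h1 β).trans (add_le_add le_rfl (h2 β))
    rw [Finset.sum_add_distrib, ← Finset.mul_sum, Finset.sum_const, Finset.card_univ,
      Fintype.card_fin, nsmul_eq_mul] at h3
    unfold Mod.sos
    push_cast at h3
    linarith
  have g3' : lam * M.m2 P.toGam pt lam (fun s => χ s • φ s) ≤
      2 / d * (M.q0 P.toGam lam φ + e4 * lam * n2 φ) := by
    rw [div_mul_eq_mul_div, le_div_iff₀ hd]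
    linarith
  have key := bglob_num hε ht hτ hCs hCw.le hCb.le hk0.le he4.le hlp hmu hn0
    (M.q0_nonneg P.toGam lam hφ.tst) hmu2 hSl hwl hol hS g1 g2 g3' c1 c2 c3 c4 c5 c6 c7 c8 c9
  rw [hsos _ _ (M.Ml pt) lam mu _ hT, hsos _ _ M lam mu φ hφ.tst]
  linarith
end Mod

end Vale.Agent.P353
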