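import Vale.Agent.P353.BGlob

open MeasureTheory NormedSpace
open Complex (I)
open scoped InnerProductSpace ContDiff

noncomputable section
namespace Vale.Agent.P353
variable {V F : Type} [NormedAddCommGroup V] [InnerProductSpace ℝ V] [FiniteDimensional ℝ V]
  [NormedAddCommGroup F] [InnerProductSpace ℂ F] [CompleteSpace F] [FiniteDimensional ℂ F]
  [MeasurableSpace V] [BorelSpace V] {M : Mod V F} {P : Par} {pt : Patch M.L}

omit [FiniteDimensional ℂ F] in
theorem bg2_wt {φ : EE V → F} (h : Tst φ) {w w' : EE V → ℝ} (hw : ContinuousOn w (tsupport φ))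
    (hw' : ContinuousOn w' (tsupport φ)) {c : ℝ} (hle : ∀ x ∈ tsupport φ, w x ≤ w' x + c) :
    wt w φ ≤ wt w' φ + c * n2 φ := by
  have h1 := wt_mono (w' := fun x => w' x + c) h hw (hw'.add continuousOn_const) hle
  rwa [wt_add h hw' continuousOn_const, wt_const] at h1

theorem bg2_arith {e η W W' Wa N Nf Na T m Q Qa ε t b u v d lam K η' : ℝ} (hd : 0 < d)
    (hl : 0 < lam) (he0 : 0 < e) (he1 : e ≤ 1) (he : e ≤ η) (hW : 0 ≤ W) (hN : 0 ≤ N)
    (hε : 0 < ε) (ht : 0 < t) (hNf : Nf ≤ N) (h1 : W ≤ Na + ε * N) (h2 : T + m = Na)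
    (h3 : d * lam * m ≤ 2 * (Qa + d * e / 2 * lam * Na)) (h4 : Qa ≤ 2 * b * Q + K * N)
    (h5 : T ≤ (1 + t) * Wa + u * N) (h6 : Wa ≤ W' + ε * Nf) (h7 : Wa ≤ |b| * Nf)
    (hv : 2 * K / (d * lam) ≤ v) (hs : 2 * ε + t * |b| + u + v ≤ η') :
    (1 - η) * W ≤ W' + η' * N + 4 / d * b / lam * Q := by
  have hdl : 0 < d * lam := mul_pos hd hl
  have a1 : m ≤ 4 / d * b / lam * Q + 2 * K / (d * lam) * N + e * Na := by
    rw [← mul_le_mul_iff_right₀ hdl]
    have e1 : d * lam * (4 / d * b / lam * Q + 2 * K / (d * lam) * N + e * Na) =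
        2 * (2 * b * Q + K * N + d * e / 2 * lam * Na) := by
      field_simp
      ring
    rw [e1]
    linarith
  have a2 : (1 - η) * W ≤ (1 - e) * W := mul_le_mul_of_nonneg_right (by linarith) hW
  have a3 : (1 - e) * W ≤ (1 - e) * (Na + ε * N) := mul_le_mul_of_nonneg_left h1 (by linarith)
  have a4 : 0 ≤ e * (ε * N) := by positivity
  have a5 : t * Wa ≤ t * (|b| * N) :=
    mul_le_mul_of_nonneg_left (h7.trans (mul_le_mul_of_nonneg_left hNf (abs_nonneg b))) ht.le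
  have a6 : ε * Nf ≤ ε * N := mul_le_mul_of_nonneg_left hNf hε.le
  have a7 : 2 * K / (d * lam) * N ≤ v * N := mul_le_mul_of_nonneg_right hv hN
  have a8 : (2 * ε + t * |b| + u + v) * N ≤ η' * N := mul_le_mul_of_nonneg_right hs hN
  nlinarith

namespace Mod
variable {r d r1 : ℝ} {χ : EE V → ℝ} (hg : M.GB P.toGam pt r d) (hk : M.Link pt P r1 χ)
include hg hk

/-- Transfer of invariant weights.  Take `K` from `exists_compact`, `a` from `exists_hat`, apply
`gap_glob` to `a • φ` (`Glob.smul`), then `n2_Td`, `Td_smul` with `t (B + 1)` small, `q0_smul_le`;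
`C0 = 4 / d`. -/
theorem GB.small_w : ∃ C0 > 0, ∀ η > 0, ∃ κ > 0, ∀ r' ∈ Set.Ioc 0 (min r r1),
    ∀ (w : EE V → ℝ) (B : ℝ), ContinuousOn w (M.L.sat (pt.pts r')) →
      (∀ g ∈ M.L.G, ∀ x, w (lift g x) = w x) →
      (∀ x ∈ M.L.sat (pt.pts r'), 0 ≤ w x ∧ w x ≤ B) →
    ∀ η' > 0, ∃ lam0 > 0, ∀ lam ≥ lam0, ∀ φ, M.Glob pt (r' / 2) κ φ →
      (1 - η) * wt w φ ≤ wt (fun X => w (pt.il X)) (M.Td P.toGam pt lam fun s => χ s • φ s) +
        η' * n2 φ + C0 * (B + 1) / lam * M.q0 P.toGam lam φ := by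
  have hd : 0 < d := hg.2.1
  refine ⟨4 / d, by positivity, fun η hη => ?_⟩
  have he0 : 0 < min η 1 := lt_min hη one_pos
  obtain ⟨κ, hκ, η1, -, l1, hl1, hgap⟩ := hg.gap_glob hk (η := d * min η 1 / 2) (by positivity)
  refine ⟨κ, hκ, fun r' hr' w B hw hi hb η' hη' => ?_⟩
  have hr1 : r' ≤ r := hr'.2.trans (min_le_left _ _)
  have hr2 : r' ≤ r1 := hr'.2.trans (min_le_right _ _)
  have hr3 : r' / 2 ≤ r / 2 := by linarith
  have hr4 : r' / 2 ≤ r1 / 2 := by linarith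
  have hr5 : r' / 2 ≤ min r r1 / 2 := by linarith [hr'.2]
  obtain ⟨K, hK, hK1, hK2, hK3, -⟩ := pt.exists_compact hr'.1
  have hε : 0 < min (η' / 8) 1 := lt_min (by positivity) one_pos
  obtain ⟨a, ha, hai, haw⟩ := M.L.exists_hat hK (hk.opn r' hr2) hK2 hK1 (CL.sat_sat _) hw hi
    (fun x hx => (hb x hx).1) hε
  have ha2 : Continuous fun x => a x ^ 2 := ha.continuous.pow 2
  obtain ⟨K', hK'⟩ : ∃ K', ∀ x ∈ K, ‖gradient a x‖ ^ 2 ≤ K' := by
    have hc : Continuous fun x => ‖gradient a x‖ ^ 2 :=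
      (((InnerProductSpace.toDual ℝ (EE V)).symm.continuous.comp
        (ha.continuous_fderiv (by simp))).norm).pow 2
    obtain ⟨K', hK'⟩ := hK.bddAbove_image hc.continuousOn
    exact ⟨K', fun x hx => hK' ⟨x, hx, rfl⟩⟩
  have haB : ∀ x ∈ K, a x ^ 2 ≤ B + 1 := fun x hx => by
    have h1 := (abs_le.1 (haw x hx)).2
    have h2 := (hb x (hK2 hx)).2
    have h3 := min_le_right (η' / 8) 1
    linarith
  obtain ⟨C, hC, hT⟩ := hg.Td_smul ha
  set t := η' / (4 * (|B + 1| + 1)) with ht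
  have ht0 : 0 < t := by positivity
  have ht1 : t * |B + 1| ≤ η' / 4 := by
    rw [ht, div_mul_eq_mul_div, div_le_div_iff₀ (by positivity) (by positivity)]
    nlinarith [abs_nonneg (B + 1)]
  refine ⟨max l1 (max (4 * ((1 + t⁻¹) * C) / η') (8 * K' / (d * η'))), lt_max_of_lt_left hl1,
    fun lam hlam φ hφ => ?_⟩
  have hla : l1 ≤ lam := (le_max_left _ _).trans hlam
  have hlb : 4 * ((1 + t⁻¹) * C) / η' ≤ lam := ((le_max_left _ _).trans (le_max_right _ _)).trans hlam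
  have hlc : 8 * K' / (d * η') ≤ lam := ((le_max_right _ _).trans (le_max_right _ _)).trans hlam
  have hl : 0 < lam := hl1.trans_le hla
  have hs : tsupport φ ⊆ K := hφ.supp.trans (hK3 κ)
  have hψ := hφ.smul ha hai
  have hS := (hk.adm _ hr4 κ φ hφ).sup
  have hS' := (hk.adm _ hr4 κ _ hψ).sup
  have hf := hg.tst_Td hl hr3 hS
  have hfK : ∀ X ∈ tsupport (M.Td P.toGam pt lam fun s => χ s • φ s), pt.il X ∈ K := fun X hX =>
    hK3 κ (CL.subset_sat _ (hf.2 X hX).1)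
  have hwf : ContinuousOn (fun X => w (pt.il X))
      (tsupport (M.Td P.toGam pt lam fun s => χ s • φ s)) :=
    hw.comp pt.il.continuous.continuousOn fun X hX => hK2 (hfK X hX)
  have haf : Continuous fun X => a (pt.il X) ^ 2 := ha2.comp pt.il.continuous
  have hwφ : ContinuousOn w (tsupport φ) := hw.mono (hs.trans hK2)
  have e1 : (fun s => χ s • a s • φ s) = fun s => a s • χ s • φ s :=
    funext fun s => smul_comm _ _ _
  have n1 := hg.n2_Td hl hr3 hS
  have n1' := hg.n2_Td hl hr3 hS'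
  rw [← hk.n2 _ hr4 κ φ hφ] at n1
  rw [← hk.n2 _ hr4 κ _ hψ] at n1'
  have h5 := hT lam hl _ hr3 κ _ hS t ht0
  rw [← e1, ← hk.n2 _ hr4 κ φ hφ] at h5
  have e2 : n2 (fun s => a s • φ s) = wt (fun x => a x ^ 2) φ := by
    rw [← wt_one, wt_mul]
    simp only [one_mul]
  refine bg2_arith (ε := min (η' / 8) 1) (v := η' / 4) hd hl he0 (min_le_right _ _)
    (min_le_left _ _) ?_ (n2_nonneg φ) hε ht0 ((le_add_of_nonneg_right n1.2).trans_eq n1.1) ?_ n1'.1
    (hgap lam hla _ hr5 _ hψ).2.2.2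
    (M.q0_smul_le P.toGam lam hφ.tst ha fun x hx => ⟨haB x (hs hx), hK' x (hs hx)⟩) h5 ?_ ?_ ?_ ?_
  · have h0 := wt_mono hφ.tst continuousOn_const hwφ fun x hx => (hb x (hK2 (hs hx))).1
    rwa [wt_const, zero_mul] at h0
  · rw [e2]
    exact bg2_wt hφ.tst hwφ ha2.continuousOn fun x hx => by
      linarith [(abs_le.1 (haw x (hs hx))).1]
  · exact bg2_wt hf.1 haf.continuousOn hwf fun X hX => by
      linarith [(abs_le.1 (haw _ (hfK X hX))).2]
  · have h0 := wt_mono hf.1 haf.continuousOn continuousOn_const fun X hX =>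
      (haB _ (hfK X hX)).trans (le_abs_self _)
    rwa [wt_const] at h0
  · rw [div_le_iff₀ (by positivity)] at hlc ⊢
    nlinarith
  · have h1 := min_le_left (η' / 8) 1
    have h2 : (1 + t⁻¹) * (C / lam) ≤ η' / 4 := by
      rw [div_le_iff₀ hη'] at hlb
      rw [← mul_div_assoc, div_le_iff₀ hl]
      linarith
    linarith
end Mod

end Vale.Agent.P353
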