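import Vale.Agent.P353.BKx1

open MeasureTheory NormedSpace
open Complex (I)
open scoped InnerProductSpace ContDiff

noncomputable section
namespace Vale.Agent.P353

section gen
variable {E A B C : Type} [NormedAddCommGroup A] [NormedSpace ℝ A] [NormedAddCommGroup B]
  [NormedSpace ℝ B] [NormedAddCommGroup C] [NormedSpace ℝ C] [NormedAddCommGroup E]

theorem bk_mk2 [FiniteDimensional ℝ A] [FiniteDimensional ℝ B] (f : A →ₗ[ℝ] B →ₗ[ℝ] C) :
    ∃ g : A →L[ℝ] B →L[ℝ] C, ∀ a b, g a b = f a b :=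
  ⟨LinearMap.toContinuousLinearMap
    ((LinearMap.toContinuousLinearMap : (B →ₗ[ℝ] C) ≃ₗ[ℝ] B →L[ℝ] C).toLinearMap ∘ₗ f),
    fun _ _ => rfl⟩

theorem bk_c2 (g : A →L[ℝ] B →L[ℝ] C) {u : E → A} {v : E → B} {s : Set E} (hu : ContinuousOn u s)
    (hv : ContinuousOn v s) : ContinuousOn (fun X => g (u X) (v X)) s :=
  (g.continuous.comp_continuousOn hu).clm_apply hv

theorem bk_bdd2 [FiniteDimensional ℝ A] [FiniteDimensional ℝ B] [ProperSpace E] {p : E} {r : ℝ}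
    (hr : 0 < r) (g : E → A →L[ℝ] B →L[ℝ] C)
    (h : ∀ a b, ContinuousOn (fun X => g X a b) (Metric.ball p r)) :
    ∃ c > 0, ∀ X ∈ Metric.ball p (r / 2), ∀ a b, ‖g X a b‖ ≤ c * ‖a‖ * ‖b‖ := by
  obtain ⟨c, c0, hc⟩ := bk_bdd hr
    (continuousOn_clm_apply.2 fun a => continuousOn_clm_apply.2 fun b => h a b)
  exact ⟨c, c0, fun X hX a b => ((g X).le_opNorm₂ a b).trans (by gcongr; exact hc X hX)⟩

theorem bk_cd [NormedSpace ℝ E] {f : E → C} {p : E} {r : ℝ}
    (h : ContDiffOn ℝ ∞ f (Metric.ball p r)) (a : E) :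
    ContinuousOn (fun X => fderiv ℝ f X a) (Metric.ball p r) :=
  (h.continuousOn_fderiv_of_isOpen Metric.isOpen_ball (by simp)).clm_apply continuousOn_const
end gen

variable {V F : Type} [NormedAddCommGroup V] [InnerProductSpace ℝ V] [FiniteDimensional ℝ V]
  [NormedAddCommGroup F] [InnerProductSpace ℂ F] [CompleteSpace F] [FiniteDimensional ℂ F]

theorem Patch.sb_clm {L : CL V} (pt : Patch L) (G : Gam) (e : R16) :
    ∃ S : EE pt.lᗮ →L[ℝ] EE pt.lᗮ →L[ℝ] SS V, ∀ z z', S z z' = pt.sb G e z z' :=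
  bk_mk2 (LinearMap.mk₂ ℝ (pt.sb G e)
    (fun _ _ _ => by simp [Patch.sb, Finset.sum_add_distrib])
    (fun c _ _ => by
      rw [Patch.sb, Patch.sb, smul_comm c]; simp [Finset.smul_sum])
    (fun _ _ _ => by simp [Patch.sb, Finset.sum_add_distrib])
    (fun c _ _ => by
      rw [Patch.sb, Patch.sb, smul_comm c]; simp [Finset.smul_sum]))

omit [FiniteDimensional ℝ V] in
theorem bk_psi_tens (G : Gam) (e : R16) (v : Fin 9 → ℝ) (w : V) :
    G.psi e (tens v w) = tens (fun s => ∑ i, (G.g i).mulVec e s * v i) w := by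
  ext s
  simp [Gam.psi, Finset.sum_smul, smul_smul]

/-- the vector dual to `x ↦ h (contr v x)` -/
theorem bk_dual (h : V →ₗ[ℝ] ℝ) (v : Fin 9 → ℝ) :
    ∑ k, h (contr v (stdOrthonormalBasis ℝ (EE V) k)) • stdOrthonormalBasis ℝ (EE V) k =
      tens v (∑ a, h (stdOrthonormalBasis ℝ V a) • stdOrthonormalBasis ℝ V a) := by
  conv_rhs => rw [← (stdOrthonormalBasis ℝ (EE V)).sum_repr' (tens v _)]
  refine Finset.sum_congr rfl fun k _ => ?_
  congr 1
  generalize stdOrthonormalBasis ℝ (EE V) k = x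
  have h1 : ∀ y : V, ⟪x, tens v y⟫_ℝ = ⟪contr v x, y⟫_ℝ := fun y => by
    simp [PiLp.inner_apply, sum_inner, inner_smul_left, inner_smul_right]
  rw [h1]
  conv_lhs => rw [← (stdOrthonormalBasis ℝ V).sum_repr' (contr v x)]
  simp only [map_sum, map_smul, inner_sum, inner_smul_right, smul_eq_mul]
  exact Finset.sum_congr rfl fun a _ => by rw [mul_comm, real_inner_comm]

namespace Mod
variable (M : Mod V F) (G : Gam) (pt : Patch M.L)

theorem cl_comm (e : R16) (a : EE pt.l) (X : EE pt.l) :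
    M.cl G pt e a * M.Pi G pt X = M.Pi G pt X * M.cl G pt e a := by
  rw [cl_eq]; exact M.th_l_comm pt _ _

/-- the light vector produced by the gauge term -/
theorem bk_vec (e : R16) (Y : EE pt.l) :
    ∑ k, tr (Ring.inverse (pt.Mv Y) * pt.Mv (pt.bl k)) • M.cl G pt e (pt.bl k) =
      ∑ s : Fin 16, ∑ a, ((∑ i, (G.g i).mulVec e s * pt.v i) *
        tr (Ring.inverse (pt.Mv Y) * pt.adm (stdOrthonormalBasis ℝ pt.l a))) •
        M.C.th (tens (Pi.single s 1) (stdOrthonormalBasis ℝ pt.l a : V)) := by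
  obtain ⟨t, ht⟩ := bk_tr pt.lᗮ
  let h : pt.l →ₗ[ℝ] ℝ :=
    { toFun := fun a => t (Ring.inverse (pt.Mv Y) * pt.adm a)
      map_add' := fun a b => by
        rw [← map_add, ← mul_add]; congr 2; ext w; simp [Patch.adm]
      map_smul' := fun c a => by
        rw [RingHom.id_apply, ← map_smul, ← mul_smul_comm]; congr 2; ext w; simp [Patch.adm] }
  have h1 : ∀ x, tr (Ring.inverse (pt.Mv Y) * pt.Mv x) = h (contr pt.v x) := fun x => by
    rw [← ht, Patch.Mv, contr_lift]; rfl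
  have h2 : ∀ a : pt.l, tr (Ring.inverse (pt.Mv Y) * pt.adm a) = h a := fun a => (ht _).symm
  simp only [h1, h2, cl, ← map_smul, ← map_sum]
  rw [bk_dual, amod0_lift, bk_psi_tens]
  congr 1
  ext s
  simp [Pi.single_apply, Finset.smul_sum, smul_smul, ite_smul, smul_ite, mul_comm]

variable {M G pt} {r d : ℝ} (hg : M.GB G pt r d) {Y : EE pt.l} (hX : Y ∈ Metric.ball pt.p0 r)
include hg hX

theorem GB.bk_one (u : SS pt.lᗮ) : M.Pi G pt Y * (M.Cm pt).th u * M.Pi G pt Y = 0 :=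
  (M.Cm pt).vac_one (hg.Pi_spec hX).1 u

/-- the normalisation and Berry terms -/
theorem GB.bk_A (hY : pt.Cen Y) (e : R16) (a : EE pt.l) :
    M.Pi0 G pt * (M.cl G pt e a * (M.nu G pt Y a • M.Pi G pt Y + fderiv ℝ (M.Pi G pt) Y a)) *
      M.Pi G pt Y = ((1 / 2) * tr (Ring.inverse (pt.Mv Y) * pt.Mv a) +
        (1 / 4) * tr (fderiv ℝ pt.WH Y a * Ring.inverse (pt.WH Y))) •
          (M.Pi0 G pt * (M.cl G pt e a * M.Pi G pt Y)) := by
  have c0 : M.Pi0 G pt * M.cl G pt e a = M.cl G pt e a * M.Pi0 G pt := (cl_comm M G pt e a _).symm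
  have h1 := hg.berry hX hY a
  have h2 := (hg.Pi_spec hX).2.1
  have h3 := (hg.jac_pos hX).ne'
  rw [← mul_assoc, ← mul_assoc, c0, mul_assoc (M.cl G pt e a), mul_assoc (M.cl G pt e a),
    mul_assoc (M.cl G pt e a), mul_add, add_mul, h1, mul_smul_comm, smul_mul_assoc, mul_assoc, h2,
    ← add_smul, mul_smul_comm, nu, hg.fderiv_jac hX]
  congr 1
  field_simp
  ring

/-- the gauge term -/
theorem GB.bk_B (hY : pt.Cen Y) (e : R16) :
    M.Pi G pt Y * (∑ k, M.cv G pt e (pt.bm k) * (M.C.spin (lift (M.L.br (pt.Xi Y (pt.bm k)))) +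
      tr (pt.Bm (pt.Xi Y (pt.bm k))) • 1)) * M.Pi G pt Y =
    ∑ k, ((1 / 2) * tr (Ring.inverse (pt.Mv Y) * pt.Mv (pt.bl k))) •
      (M.cl G pt e (pt.bl k) * M.Pi G pt Y) := by
  have hJ := (hg.Pi_spec hX).1
  have hv := (hg.2.2 Y hX).mv
  let b := stdOrthonormalBasis ℝ pt.l
  let u : pt.lᗮ → SS pt.lᗮ := fun w => G.psi e (tens pt.v w)
  let y : Fin 16 → pt.l → pt.lᗮ → SS pt.lᗮ := fun s a w =>
    tens (Pi.single s 1) (pt.adm a (pt.Xi Y w))
  have h1 : ∀ w, M.Pi G pt Y * (M.cv G pt e w * (M.C.spin (lift (M.L.br (pt.Xi Y w))) +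
      tr (pt.Bm (pt.Xi Y w)) • 1)) * M.Pi G pt Y = -∑ s : Fin 16, ∑ a, ((1 / 2 : ℂ) *
        ((⟪u w, y s (b a) w⟫_ℝ : ℝ) + I * (⟪u w, pt.J G Y (y s (b a) w)⟫_ℝ : ℝ))) •
          (M.C.th (tens (Pi.single s 1) (b a : V)) * M.Pi G pt Y) := fun w => by
    have a1 := hg.bk_one hX (u w)
    have a3 : M.Pi G pt Y * ((M.Cm pt).th (u w) * (M.Cm pt).spin (lift (pt.adm (pt.Xi Y w)))) *
      M.Pi G pt Y = 0 := (M.Cm pt).vac_three hJ _ _
    change M.Pi G pt Y * ((M.Cm pt).th (u w) * _) * _ = _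
    rw [M.spin_heavy pt, mul_add, mul_sub, mul_add, mul_sub, add_mul, sub_mul, a3, mul_smul_comm,
      mul_one, mul_smul_comm, smul_mul_assoc, a1, smul_zero, add_zero, zero_sub]
    simp only [Finset.mul_sum, Finset.sum_mul]
    congr 1
    refine Finset.sum_congr rfl fun s _ => Finset.sum_congr rfl fun a _ => ?_
    have c : M.C.th (tens (Pi.single s 1) (b a : V)) * M.Pi G pt Y =
        M.Pi G pt Y * M.C.th (tens (Pi.single s 1) (b a : V)) := by
      have := M.th_l_comm pt (tens (Pi.single s 1) (b a)) (pt.J G Y)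
      rwa [amod0_lift] at this
    have a2 : M.Pi G pt Y * ((M.Cm pt).th (u w) * (M.Cm pt).th (y s (b a) w)) * M.Pi G pt Y =
      _ • M.Pi G pt Y := (M.Cm pt).vac_two hJ _ _
    rw [c, ← smul_mul_assoc, ← a2]
    simp only [mul_assoc]
    rw [← c]
  have h2 : ∀ s (a : pt.l), ∑ k, ⟪u (pt.bm k), y s a (pt.bm k)⟫_ℝ =
      -((∑ i, (G.g i).mulVec e s * pt.v i) * tr (Ring.inverse (pt.Mv Y) * pt.adm a)) := fun s a => by
    simp only [u, y, bk_psi_tens, amod0_tens, dotProduct_single, mul_one, ← Finset.mul_sum]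
    rw [← mul_neg, tr_mul_comm, tr_eq_sum pt.bm, ← Finset.sum_neg_distrib]
    simp [Patch.Xi]
  have h3 : ∀ s (a : pt.l), ∑ k, ⟪u (pt.bm k), pt.J G Y (y s a (pt.bm k))⟫_ℝ = 0 := fun s a =>
    Patch.Cen.mixed pt G hY hg.2.1 hv e _ a.2
  rw [Finset.mul_sum, Finset.sum_mul]
  simp only [h1]
  rw [Finset.sum_neg_distrib, Finset.sum_comm]
  simp only [Finset.sum_comm (s := (Finset.univ : Finset (Fin (Module.finrank ℝ pt.lᗮ)))),
    ← Finset.sum_smul, ← Finset.mul_sum, Finset.sum_add_distrib, ← Complex.ofReal_sum, h2, h3,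
    mul_smul, ← smul_mul_assoc, ← Finset.smul_sum, ← Finset.sum_mul]
  rw [bk_vec, ← neg_mul, ← smul_neg, ← Complex.coe_smul (1 / 2 : ℝ)]
  simp only [Complex.ofReal_zero, mul_zero, add_zero, Complex.coe_smul, neg_smul,
    Finset.sum_neg_distrib, neg_neg]
  rw [← Complex.coe_smul (1 / 2 : ℝ)]
  push_cast
  rfl

/-- the Gaussian average of the quadratic terms -/
theorem GB.bk_C (hY : pt.Cen Y) (e : R16) :
    (∑ j, M.K2 G pt e Y (pt.bH j) (Ring.inverse (pt.WH Y) (pt.bH j))) * M.Pi G pt Y =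
      (-I / 2) • ∑ k, tr (fderiv ℝ pt.WH Y (pt.bl k) * Ring.inverse (pt.WH Y)) •
        (M.cl G pt e (pt.bl k) * M.Pi G pt Y) := by
  have hv := (hg.2.2 Y hX).mv
  have h2 := (hg.Pi_spec hX).2.1
  have a1 : lift pt.l.orthogonalProjectionOnto (∑ j, pt.sb G e (pt.inc (pt.bH j))
      (pt.inc (Ring.inverse (pt.WH Y) (pt.bH j)))) = 0 := by
    ext1 s
    refine ext_inner_left ℝ fun a => ?_
    rw [lift_apply, Submodule.inner_orthogonalProjectionOnto_eq_of_mem_left]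
    have := fun i j => Patch.Cen.cov_skew pt hY hg.2.1 hv a.2 i j
    simp only [Patch.sb, ← Finset.smul_sum]
    rw [Finset.sum_comm]
    simp only [Finset.sum_comm (s := (Finset.univ : Finset (Fin (Module.finrank ℝ pt.HT))))]
    simp [inner_sum, inner_smul_right, ← Finset.mul_sum, this]
  have a2 : M.Pi G pt Y * M.C.th (∑ j, pt.sb G e (pt.inc (pt.bH j))
      (pt.inc (Ring.inverse (pt.WH Y) (pt.bH j)))) * M.Pi G pt Y = 0 := by
    rw [M.th_split pt, a1, map_zero, map_zero, zero_add, hg.bk_one hX]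
  have a3 : ∀ c : Fin (Module.finrank ℝ pt.lᗮ) → ℝ,
      M.Pi G pt Y * (∑ k, c k • M.cv G pt e (pt.bm k)) * M.Pi G pt Y = 0 := fun c => by
    simp only [cv, ← map_smul, ← map_sum]
    exact hg.bk_one hX _
  simp only [K2, Finset.sum_add_distrib, add_mul]
  rw [← Finset.mul_sum, ← map_sum, a2, add_zero, Finset.sum_mul _ (fun _ => I • _)]
  simp only [smul_mul_assoc, a3, smul_zero, Finset.sum_const_zero, add_zero]
  rw [← Finset.smul_sum, Finset.sum_comm, smul_mul_assoc, Finset.sum_mul]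
  congr 1
  refine Finset.sum_congr rfl fun k _ => ?_
  rw [← Finset.sum_smul, smul_mul_assoc, mul_assoc, h2, tr_eq_sum pt.bH]
  rfl
end Mod

end Vale.Agent.P353
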