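import Vale.Agent.P353.GPatch

open MeasureTheory NormedSpace
open Complex (I)
open scoped InnerProductSpace ContDiff

noncomputable section
namespace Vale.Agent.P353

/-- determinant of a block triangular map -/
theorem gp_det_tri {A T : Type} [AddCommGroup A] [Module ℝ A] [FiniteDimensional ℝ A]
    [AddCommGroup T] [Module ℝ T] [FiniteDimensional ℝ T] (f : A × T →ₗ[ℝ] A × T)
    (N : A →ₗ[ℝ] A) (h1 : ∀ y, (f y).1 = N y.1) (h2 : ∀ t, f (0, t) = (0, t)) :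
    LinearMap.det f = LinearMap.det N := by
  let a := Module.finBasis ℝ A
  let b := Module.finBasis ℝ T
  rw [← LinearMap.det_toMatrix (a.prod b), ← LinearMap.det_toMatrix a]
  have : LinearMap.toMatrix (a.prod b) (a.prod b) f = Matrix.fromBlocks (LinearMap.toMatrix a a N) 0
      (Matrix.of fun i j => b.repr (f (a j, 0)).2 i) 1 := by
    ext (i | i) (j | j) <;> simp [LinearMap.toMatrix_apply, h1, h2, Matrix.one_apply,
      Finsupp.single_apply, eq_comm]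
  rw [this, Matrix.det_fromBlocks_zero₁₂]
  simp

theorem gp_borel (U W : Type) [NormedAddCommGroup U] [InnerProductSpace ℝ U]
    [FiniteDimensional ℝ U] [MeasurableSpace U] [BorelSpace U] [NormedAddCommGroup W]
    [InnerProductSpace ℝ W] [FiniteDimensional ℝ W] [MeasurableSpace W] [BorelSpace W] :
    @BorelSpace (WithLp 2 (U × W))
      (inferInstance : PseudoMetricSpace (WithLp 2 (U × W))).toUniformSpace.toTopologicalSpace _ :=
  inferInstance

theorem gp_fubini {U W : Type} [NormedAddCommGroup U] [InnerProductSpace ℝ U]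
    [FiniteDimensional ℝ U] [MeasurableSpace U] [BorelSpace U] [NormedAddCommGroup W]
    [InnerProductSpace ℝ W] [FiniteDimensional ℝ W] [MeasurableSpace W] [BorelSpace W] (r : ℝ)
    {f : WithLp 2 (U × W) → ℝ} (hf : Continuous f) : ∫ t in Metric.ball 0 r, f t =
      ∫ X : U, ∫ z : W, (Metric.ball 0 r).indicator f (WithLp.toLp 2 (X, z)) := by
  have hint : Integrable ((Metric.ball (0 : WithLp 2 (U × W)) r).indicator f) :=
    (integrable_indicator_iff measurableSet_ball).2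
      ((hf.continuousOn.integrableOn_compact (isCompact_closedBall 0 r)).mono_set
        Metric.ball_subset_closedBall)
  have hmp := WithLp.volume_preserving_toLp U W
  have hme : MeasurableEmbedding (@WithLp.toLp 2 (U × W)) :=
    (MeasurableEquiv.toLp 2 (U × W)).measurableEmbedding
  rw [← integral_indicator measurableSet_ball, ← hmp.integral_comp hme]
  exact integral_prod _ ((hmp.integrable_comp_emb hme).2 hint)

section
variable {V : Type} [NormedAddCommGroup V] [InnerProductSpace ℝ V] [FiniteDimensional ℝ V]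
  {L : CL V}

namespace Patch
variable (pt : Patch L)

/-- the parameter space of the slice -/
abbrev TT : Type := WithLp 2 (EE pt.l × pt.H)

/-- the base point as a light tuple -/
def P0 : EE pt.l := WithLp.toLp 2 fun i => ⟨pt.p i, pt.p_mem_l i⟩

theorem lift_P0 : lift pt.l.subtypeL pt.P0 = pt.p := rfl

/-- the slice directions -/
def jj : pt.TT →L[ℝ] EE V :=
  (lift pt.l.subtypeL ∘L ContinuousLinearMap.fst ℝ _ _ +
    lift pt.lᗮ.subtypeL ∘L pt.H.subtypeL ∘L ContinuousLinearMap.snd ℝ _ _) ∘L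
    (WithLp.prodContinuousLinearEquiv 2 ℝ (EE pt.l) pt.H).toContinuousLinearMap

theorem jj_apply (t : pt.TT) : pt.jj t = pt.io t.fst t.snd := rfl

theorem jj_toLp (X : EE pt.l) (z : pt.H) : pt.jj (WithLp.toLp 2 (X, z)) = pt.io X z := rfl

theorem p_add_io (X : EE pt.l) (z : pt.H) : pt.p + pt.io X z = pt.io (pt.P0 + X) z := by
  rw [Patch.io, Patch.io, map_add, lift_P0, add_assoc]

theorem io_sub_p (X : EE pt.l) (z : pt.H) : pt.io X z - pt.p = pt.io (X - pt.P0) z := by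
  rw [sub_eq_iff_eq_add', p_add_io, add_sub_cancel]

theorem io_zero (X : EE pt.l) : pt.io X 0 = lift pt.l.subtypeL X := by
  simp [Patch.io]

theorem norm_jj (t : pt.TT) : ‖pt.jj t‖ = ‖t‖ := by
  have h := pt.norm_io t.fst t.snd 0
  rw [map_zero, sub_zero, sub_zero, ← WithLp.prod_norm_sq_eq_of_L2] at h
  exact (sq_eq_sq₀ (norm_nonneg _) (norm_nonneg _)).1 h

theorem mem_pts_iff (r : ℝ) (s : EE V) : s ∈ pt.pts r ↔ ∃ t, ‖pt.jj t‖ < r ∧ s = pt.p + pt.jj t := by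
  constructor
  · rintro ⟨⟨X, z, rfl⟩, h⟩
    refine ⟨WithLp.toLp 2 (X - pt.P0, z), ?_, ?_⟩
    · rwa [jj_toLp, ← io_sub_p]
    · rw [jj_toLp, p_add_io, add_sub_cancel]
  · rintro ⟨t, h, rfl⟩
    exact ⟨⟨_, _, pt.p_add_io t.fst t.snd⟩, by rwa [add_sub_cancel_left]⟩

theorem orth_unique {a a' w w' : V} (ha : a ∈ pt.l) (ha' : a' ∈ pt.l) (hw : w ∈ pt.lᗮ)
    (hw' : w' ∈ pt.lᗮ) (h : a + w = a' + w') : a = a' ∧ w = w' := by
  have h1 : a - a' = w' - w := by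
    rw [sub_eq_sub_iff_add_eq_add, h, add_comm]
  have h2 : a - a' = 0 :=
    pt.eq_zero_of_mem (pt.l.sub_mem ha ha') (h1 ▸ pt.lᗮ.sub_mem hw' hw)
  rw [h2] at h1
  exact ⟨sub_eq_zero.1 h2, (sub_eq_zero.1 h1.symm).symm⟩

theorem br_p_mem (ξ : pt.lᗮ) (i : Fin 9) : L.br ξ (pt.p i) ∈ pt.lᗮ := by
  rw [L.skew]
  exact pt.lᗮ.neg_mem (L.br_orth (L.sub_cent pt.p) (pt.p_mem_l i) ξ.2)

/-- the projection of the contraction of a tangent vector -/
theorem proj_tang (ξ : pt.lᗮ) (X X' : EE pt.l) (z z' : pt.H) :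
    pt.lᗮ.orthogonalProjectionOnto (contr pt.v (lift (L.br ξ) (pt.io X z) + pt.io X' z')) =
      -pt.adm (contr pt.v (lift pt.l.subtypeL X)) ξ := by
  have h1 : pt.lᗮ.orthogonalProjectionOnto (contr pt.v (pt.io X' z')) = 0 :=
    Submodule.orthogonalProjectionOnto_apply_of_mem_orthogonal
      (pt.l.le_orthogonal_orthogonal (pt.contr_io_mem X' z'))
  rw [map_add, map_add, h1, add_zero, contr_lift, contr_io, L.skew, map_neg]
  rfl

theorem adm_bij : Function.Bijective (pt.adm (contr pt.v pt.p)) := by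
  have h : Function.Injective (pt.adm (contr pt.v pt.p)).toLinearMap := by
    rw [← LinearMap.ker_eq_bot, LinearMap.ker_eq_bot']
    exact pt.adm_inj
  exact ⟨h, LinearMap.injective_iff_surjective.1 h⟩

theorem sl_bij : Function.Bijective fun y : pt.lᗮ × pt.TT => lift (L.br y.1) pt.p + pt.jj y.2 := by
  constructor
  · rintro ⟨ξ, t⟩ ⟨ξ', t'⟩ h
    simp only at h
    have h1 := pt.proj_tang ξ pt.P0 t.fst 0 t.snd
    have h2 := pt.proj_tang ξ' pt.P0 t'.fst 0 t'.snd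
    rw [io_zero, lift_P0, ← jj_apply] at h1 h2
    rw [h, h2, neg_inj] at h1
    have h3 : ξ' = ξ := pt.adm_bij.1 h1
    subst h3
    have h4 : pt.jj (t - t') = 0 := by rw [map_sub, add_left_cancel h, sub_self]
    have h5 := pt.norm_jj (t - t')
    rw [h4, norm_zero] at h5
    rw [sub_eq_zero.1 (norm_eq_zero.1 h5.symm)]
  · intro y
    obtain ⟨ξ, hξ⟩ := pt.adm_bij.2 (-pt.lᗮ.orthogonalProjectionOnto (contr pt.v y))
    let z : EE pt.lᗮ := lift pt.lᗮ.orthogonalProjectionOnto (y - lift (L.br ξ) pt.p)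
    have hz : z ∈ pt.H := by
      show contr pt.v z = 0
      have h1 := pt.proj_tang ξ pt.P0 0 0 0
      rw [io_zero, io_zero, map_zero, add_zero, lift_P0, hξ, neg_neg] at h1
      rw [contr_lift, map_sub, map_sub, h1, sub_self]
    refine ⟨(ξ, WithLp.toLp 2 (lift pt.l.orthogonalProjectionOnto (y - lift (L.br ξ) pt.p),
      ⟨z, hz⟩)), ?_⟩
    ext i
    have h1 := pt.l.starProjection_add_starProjection_orthogonal ((y - lift (L.br ξ) pt.p) i)
    show lift (L.br ξ) pt.p i + (pt.l.starProjection ((y - lift (L.br ξ) pt.p) i) +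
      pt.lᗮ.starProjection ((y - lift (L.br ξ) pt.p) i)) = y i
    rw [h1]
    simp

/-- a map preserving `l` and its complement and commuting with the contraction preserves the
slice directions -/
theorem lift_jj {g : V →L[ℝ] V} (h1 : ∀ a ∈ pt.l, g a ∈ pt.l) (h2 : ∀ a ∈ pt.lᗮ, g a ∈ pt.lᗮ)
    (t : pt.TT) : ∃ t', lift g (pt.jj t) = pt.jj t' := by
  let z : EE pt.lᗮ := WithLp.toLp 2 fun i => ⟨g ((t.snd : EE pt.lᗮ) i), h2 _ (Subtype.prop _)⟩
  have hz : z ∈ pt.H := by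
    show contr pt.v z = 0
    have h3 : contr pt.v (t.snd : EE pt.lᗮ) = 0 := t.snd.2
    have h4 : lift pt.lᗮ.subtypeL z = lift (g ∘L pt.lᗮ.subtypeL) (t.snd : EE pt.lᗮ) := rfl
    have h5 := contr_lift pt.v pt.lᗮ.subtypeL z
    rw [h4, contr_lift, h3, map_zero] at h5
    exact Subtype.ext h5.symm
  refine ⟨WithLp.toLp 2 (WithLp.toLp 2 fun i => ⟨g (t.fst i), h1 _ (Subtype.prop _)⟩, ⟨z, hz⟩), ?_⟩
  ext i
  exact map_add g _ _

/-- the slice of a patch -/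
def sl : Slice L pt.TT where
  p := pt.p
  c := pt.lᗮ
  j := pt.jj
  r0 := pt.stab.choose
  r0_pos := pt.stab.choose_spec.1
  bij := pt.sl_bij
  tang η hη t := by
    rw [Submodule.orthogonal_orthogonal] at hη
    obtain ⟨t', ht'⟩ := pt.lift_jj (g := L.br η) (fun a ha => L.sub_cent pt.p η hη a ha)
      (fun a ha => L.br_orth (L.sub_cent pt.p) hη ha) t
    refine ⟨t', ?_⟩
    have h : lift (L.br η) pt.p = 0 := by
      ext i
      rw [lift_apply, L.skew, (L.mem_cent _ _).1 hη i, neg_zero]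
      rfl
    rw [map_add, h, zero_add, ht']
  stab g hg t t' ht ht' h := by
    obtain ⟨h1, h2, h3, -⟩ := pt.stab.choose_spec.2 g hg _ ((pt.mem_pts_iff _ _).2 ⟨t, ht, rfl⟩)
      ((pt.mem_pts_iff _ _).2 ⟨t', ht', h⟩)
    exact ⟨h1, pt.lift_jj h2 h3⟩

theorem sl_pts (r : ℝ) : pt.sl.pts r = pt.pts r := by
  ext s
  exact (pt.mem_pts_iff r s).symm

theorem jac_P0_pos : 0 < pt.jac pt.P0 := by
  refine abs_pos.2 ?_
  rw [lift_P0]
  exact (LinearEquiv.ofBijective (pt.adm (contr pt.v pt.p)).toLinearMap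
    pt.adm_bij).isUnit_det'.ne_zero

theorem sl_jac (t : pt.TT) : pt.sl.jac t = (pt.jac pt.P0)⁻¹ * pt.jac (pt.P0 + t.fst) := by
  let e := LinearEquiv.ofBijective (pt.adm (contr pt.v pt.p)).toLinearMap pt.adm_bij
  let M := (pt.adm (contr pt.v (lift pt.l.subtypeL (pt.P0 + t.fst)))).toLinearMap
  have hA : ∀ (t : pt.TT) (y : pt.lᗮ × pt.TT),
      pt.lᗮ.orthogonalProjectionOnto (contr pt.v (pt.sl.A t y)) =
        -pt.adm (contr pt.v (lift pt.l.subtypeL (pt.P0 + t.fst))) y.1 := fun t y => by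
    rw [← pt.proj_tang y.1 (pt.P0 + t.fst) y.2.fst t.snd y.2.snd, ← p_add_io]
    rfl
  have hdet := gp_det_tri (A := pt.sl.c) (T := pt.TT) (pt.sl.A0.symm.toLinearMap ∘ₗ pt.sl.A t)
    (e.symm.toLinearMap ∘ₗ M) (fun y => by
      have h1 : pt.sl.A 0 (pt.sl.A0.symm (pt.sl.A t y)) = pt.sl.A t y :=
        pt.sl.A0.apply_symm_apply _
      have h2 := hA 0 (pt.sl.A0.symm (pt.sl.A t y))
      rw [h1, hA t y, neg_inj] at h2
      have h3 : pt.P0 + (0 : pt.TT).fst = pt.P0 := add_zero _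
      rw [h3, lift_P0] at h2
      exact (e.eq_symm_apply).2 h2.symm)
    (fun t' => by
      have h1 : pt.sl.A0 (0, t') = pt.sl.A t (0, t') := by
        show pt.sl.A 0 (0, t') = _
        ext i
        simp [Slice.A]
      exact (pt.sl.A0.symm_apply_eq).2 h1.symm)
  have h1 : pt.sl.jac t = |LinearMap.det (e.symm.toLinearMap ∘ₗ M)| := congrArg abs hdet
  rw [h1, LinearMap.det_comp, abs_mul, LinearEquiv.det_coe_symm, abs_inv]
  rfl

theorem continuous_jac : Continuous pt.jac := by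
  have h : Continuous fun X : EE pt.l => pt.adm (contr pt.v (lift pt.l.subtypeL X)) := by
    unfold Patch.adm
    fun_prop
  exact (ContinuousLinearMap.continuous_det.comp h).abs

end Patch
end

variable {V : Type} [NormedAddCommGroup V] [InnerProductSpace ℝ V] [FiniteDimensional ℝ V]
  [MeasurableSpace V] [BorelSpace V] {L : CL V}

namespace Patch
variable (pt : Patch L)

theorem sl_integral (r : ℝ) {u : EE V → ℝ} (hu : Continuous u) :
    haveI := gp_borel (EE pt.l) pt.H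
    ∫ t in {t | ‖pt.sl.j t‖ < r}, pt.sl.jac t * u (pt.sl.p + pt.sl.j t) =
      (pt.jac pt.P0)⁻¹ * ∫ X : EE pt.l, ∫ z : pt.H,
        (pt.pts r).indicator (fun s => pt.jac X * u s) (pt.io X z) := by
  have hs : {t : pt.TT | ‖pt.sl.j t‖ < r} = Metric.ball 0 r := by
    ext t
    rw [mem_ball_zero_iff, ← pt.norm_jj]
    rfl
  let f : pt.TT → ℝ := fun t => pt.jac (pt.P0 + t.fst) * u (pt.p + pt.jj t)
  have hf : Continuous f := by
    have h1 : Continuous fun t : pt.TT => t.fst := WithLp.continuous_fst _ _ _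
    exact (pt.continuous_jac.comp (continuous_const.add h1)).mul
      (hu.comp (continuous_const.add pt.jj.continuous))
  have h1 : ∀ t, pt.sl.jac t * u (pt.sl.p + pt.sl.j t) = (pt.jac pt.P0)⁻¹ * f t := fun t => by
    rw [pt.sl_jac, mul_assoc]
    rfl
  simp only [h1]
  rw [integral_const_mul, hs, gp_fubini r hf,
    ← integral_add_left_eq_self (fun X : EE pt.l => ∫ z : pt.H,
      (pt.pts r).indicator (fun s => pt.jac X * u s) (pt.io X z)) pt.P0]
  congr 1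
  congr 1
  ext X
  congr 1
  ext z
  have h2 : WithLp.toLp 2 (X, z) ∈ Metric.ball (0 : pt.TT) r ↔ pt.io (pt.P0 + X) z ∈ pt.pts r := by
    rw [mem_ball_zero_iff, ← pt.norm_jj, jj_toLp]
    constructor
    · exact fun h => ⟨⟨_, _, rfl⟩, by rwa [← p_add_io, add_sub_cancel_left]⟩
    · exact fun h => by simpa only [← p_add_io, add_sub_cancel_left] using h.2
  by_cases h : pt.io (pt.P0 + X) z ∈ pt.pts r
  · rw [Set.indicator_of_mem h, Set.indicator_of_mem (h2.2 h), ← p_add_io]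
    rfl
  · rw [Set.indicator_of_notMem h, Set.indicator_of_notMem (fun h' => h (h2.1 h'))]

omit [MeasurableSpace V] [BorelSpace V] in
theorem pts_mono {r r' : ℝ} (h : r ≤ r') : pt.pts r ⊆ pt.pts r' := fun _ hs =>
  ⟨hs.1, hs.2.trans_le h⟩

omit [MeasurableSpace V] [BorelSpace V] in
theorem ex_neg_lift (ξ : V) (x : EE V) : lift (L.ex (-ξ)) (lift (L.ex ξ) x) = x := by
  rw [← lift_mul, (L.ex_neg ξ).2, lift_one]

omit [MeasurableSpace V] [BorelSpace V] in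
theorem slice_ext : ∃ r > 0, ∀ r1 ∈ Set.Ioc 0 r, ∀ w : EE pt.l → ℝ,
    ContinuousOn w {X | lift pt.l.subtypeL X ∈ pt.pts r1} →
      (∀ g ∈ L.G, lift g pt.p = pt.p → ∀ X X', lift g (lift pt.l.subtypeL X) =
        lift pt.l.subtypeL X' → w X = w X') →
      ∃ u : EE V → ℝ, ContinuousOn u (L.sat (pt.pts r1)) ∧ (∀ g ∈ L.G, ∀ x, u (lift g x) = u x) ∧
        ∀ X z, pt.io X z ∈ pt.pts r1 → u (pt.io X z) = w X := by
  obtain ⟨rb, hrb, hext⟩ := pt.sl.extend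
  obtain ⟨rd, hrd, hstab⟩ := pt.stab
  refine ⟨min rb rd, by positivity, fun r1 hr w hw hinv => ?_⟩
  have hd : r1 ≤ rd := hr.2.trans (min_le_right _ _)
  have hm : ∀ t : pt.TT, ‖pt.jj t‖ < r1 → lift pt.l.subtypeL (pt.P0 + t.fst) ∈ pt.pts r1 := by
    intro t ht
    refine (pt.mem_pts_iff _ _).2 ⟨WithLp.toLp 2 (t.fst, 0), ?_, ?_⟩
    · rw [pt.norm_jj] at ht ⊢
      refine lt_of_le_of_lt ?_ ht
      simpa using WithLp.norm_fst_le _ t
    · rw [jj_toLp, p_add_io, io_zero]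
  obtain ⟨u, h1, h2, h3⟩ := hext r1 ⟨hr.1, hr.2.trans (min_le_left _ _)⟩ (fun t => w (pt.P0 + t.fst))
    (hw.comp (continuous_const.add (WithLp.continuous_fst _ _ _)).continuousOn hm)
    (fun g hg t t' ht ht' h => by
      obtain ⟨e1, e2, e3, -⟩ := hstab g hg _
        ((pt.mem_pts_iff _ _).2 ⟨t, lt_of_lt_of_le ht hd, rfl⟩)
        ((pt.mem_pts_iff _ _).2 ⟨t', lt_of_lt_of_le ht' hd, h⟩)
      refine hinv g hg e1 _ _ ?_
      have h' : lift g (pt.io (pt.P0 + t.fst) t.snd) = pt.io (pt.P0 + t'.fst) t'.snd := by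
        rw [← p_add_io, ← p_add_io]
        exact h
      ext i
      have h4 := congrArg (fun x : EE V => x i) h'
      simp only [lift_apply, io_apply, map_add] at h4
      exact (pt.orth_unique (e2 _ (Subtype.prop _)) (Subtype.prop _) (e3 _ (Subtype.prop _))
        (Subtype.prop _) h4).1)
  refine ⟨u, pt.sl_pts r1 ▸ h1, h2, fun X z h => ?_⟩
  have h4 := h3 (WithLp.toLp 2 (X - pt.P0, z)) (by
    show ‖pt.io (X - pt.P0) z‖ < r1
    rw [← io_sub_p]
    exact h.2)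
  have h5 : pt.sl.p + pt.sl.j (WithLp.toLp 2 (X - pt.P0, z)) = pt.io X z := by
    show pt.p + pt.io (X - pt.P0) z = _
    rw [p_add_io, add_sub_cancel]
  rw [h5] at h4
  rw [h4]
  show w (pt.P0 + (X - pt.P0)) = w X
  rw [add_sub_cancel]

omit [MeasurableSpace V] [BorelSpace V] in
theorem slice_chart : ∃ r1 > 0, ∃ K ≥ 1,
    (∀ r ≤ r1, Metric.ball pt.p (r / K) ⊆ L.sat (pt.pts r)) ∧
    (∀ r ≤ r1, ∀ s ∈ pt.pts (r / K), ∀ Y ∈ L.Str (Module.finrank ℝ pt.l), ‖s - Y‖ < r / K →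
      ∃ Y' ∈ pt.Z, Y' ∈ pt.pts r ∧ (∃ g ∈ L.G, lift g Y = Y') ∧ ‖s - Y'‖ ≤ K * ‖s - Y‖) := by
  obtain ⟨ρ, hρ, K0, hK0, Ψ, -, hΨ0, hΨ1, hΨ2, hΨ3⟩ := pt.sl.chart
  obtain ⟨rc, hrc, hstr⟩ := pt.Str_pts
  obtain ⟨r1, h0, hc, he⟩ : ∃ r1 > 0, r1 ≤ rc ∧ r1 ≤ ρ :=
    ⟨min rc ρ, by positivity, min_le_left _ _, min_le_right _ _⟩
  have hp : pt.sl.p = pt.p := rfl
  have hpb : pt.sl.p ∈ Metric.ball pt.sl.p ρ := Metric.mem_ball_self hρ
  -- every point near `p` is conjugate to a point of the slice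
  have key : ∀ x : EE V, ‖x - pt.p‖ < ρ → lift (L.ex (-((Ψ x).1 : V))) x = pt.p + pt.jj (Ψ x).2 ∧
      ‖pt.jj (Ψ x).2‖ ≤ K0 * ‖x - pt.p‖ := fun x hx => by
    have hx' : x ∈ Metric.ball pt.sl.p ρ := mem_ball_iff_norm.2 hx
    have h1 : lift (L.ex ((Ψ x).1 : V)) (pt.p + pt.jj (Ψ x).2) = x := hΨ1 x hx'
    have h2 := hΨ3 x hx' _ hpb
    rw [hΨ0, sub_zero] at h2
    refine ⟨?_, ?_⟩
    · rw [← ex_neg_lift ((Ψ x).1 : V) (pt.p + pt.jj (Ψ x).2), h1]
    · rw [pt.norm_jj]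
      exact (norm_snd_le _).trans h2
  refine ⟨r1, h0, 2 * K0 + 2, by linarith, fun r hr x hx => ?_,
    fun r hr s hs Y hY hsY => ?_⟩
  · rw [mem_ball_iff_norm, lt_div_iff₀ (by positivity)] at hx
    have h1 := norm_nonneg (x - pt.p)
    obtain ⟨h2, h3⟩ := key x (by nlinarith)
    exact ⟨_, L.ex_mem _, (pt.mem_pts_iff _ _).2 ⟨_, by nlinarith, h2⟩⟩
  · obtain ⟨t, ht, rfl⟩ := (pt.mem_pts_iff _ _).1 hs
    rw [lt_div_iff₀ (by positivity)] at ht hsY
    have n1 := norm_nonneg (pt.jj t)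
    have n2 := norm_nonneg (pt.p + pt.jj t - Y)
    have h1 : ‖Y - pt.p‖ ≤ ‖pt.jj t‖ + ‖pt.p + pt.jj t - Y‖ := by
      have : Y - pt.p = pt.jj t - (pt.p + pt.jj t - Y) := by abel
      rw [this]
      exact norm_sub_le _ _
    have h2 : ‖Y - pt.p‖ * (K0 + 1) < r := by nlinarith
    have n3 := norm_nonneg (Y - pt.p)
    have h3 : ‖Y - pt.p‖ < ρ := by nlinarith
    obtain ⟨h4, h5⟩ := key Y h3
    have h6 : pt.p + pt.jj (Ψ Y).2 ∈ pt.pts r :=
      (pt.mem_pts_iff _ _).2 ⟨_, by nlinarith, rfl⟩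
    have h7 := hstr _ (pt.pts_mono (hr.trans hc) h6) (h4 ▸ CL.Str_lift (L.ex_mem _) hY)
    refine ⟨_, h7.1, h6, ⟨_, L.ex_mem _, h4⟩, ?_⟩
    have h8 : pt.sl.Phi (0, t) = pt.p + pt.jj t := by
      have h9 : L.ex 0 = 1 := by
        have := (L.ex_neg 0).1
        have h10 : L.ex 0 * L.ex 0 = L.ex 0 := by
          unfold CL.ex
          rw [← expL_add rfl, map_zero, add_zero]
        rw [neg_zero, h10] at this
        exact this
      show lift (L.ex 0) _ = _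
      rw [h9, lift_one]
      rfl
    obtain ⟨h9, h10⟩ := hΨ2 (0, t) (by
      rw [Prod.norm_def, norm_zero, ← pt.norm_jj, max_eq_right n1, lt_div_iff₀ hK0]
      nlinarith)
    have h11 := hΨ3 _ h9 Y (mem_ball_iff_norm.2 h3)
    rw [h10, h8] at h11
    have h12 : ‖pt.p + pt.jj t - (pt.p + pt.jj (Ψ Y).2)‖ = ‖t - (Ψ Y).2‖ := by
      rw [add_sub_add_left_eq_sub, ← map_sub, pt.norm_jj]
    have h13 : ‖t - (Ψ Y).2‖ ≤ ‖((0, t) : pt.sl.c × pt.TT) - Ψ Y‖ := norm_snd_le ((0, t) - Ψ Y)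
    rw [h12]
    nlinarith

omit [MeasurableSpace V] [BorelSpace V] in
theorem slice_reg : ∃ rd > 0, ∀ r1 ≤ rd,
    ∀ r ≤ r1, ∀ κ, ∀ s ∈ pt.pts r1, s ∈ L.sat (pt.reg' r κ) → s ∈ pt.reg' r κ := by
  obtain ⟨rd, hrd, hstab⟩ := pt.stab
  refine ⟨rd, hrd, fun r1 hd r hr κ s hs hs' => ?_⟩
  obtain ⟨g, hg, hgs, Y, hY, hsY⟩ := hs'
  obtain ⟨h, hh, -, hhg⟩ := CL.G_inv hg
  have h1 : lift h (lift g s) = s := by rw [← lift_mul, hhg, lift_one]
  obtain ⟨h2, -, -, h3⟩ := hstab h hh _ (pt.pts_mono (hr.trans hd) hgs)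
    (h1.symm ▸ pt.pts_mono hd hs)
  refine ⟨⟨hs.1, ?_⟩, lift h Y, fun i => h3 _ (hY i), ?_⟩
  · have h4 := CL.G_norm hh (lift g s - pt.p)
    rw [map_sub, h1, h2] at h4
    exact h4 ▸ hgs.2
  · have h4 := CL.G_norm hh (lift g s - Y)
    rw [map_sub, h1] at h4
    exact h4 ▸ hsY

/-- Everything about the slice of a patch (apply the general slice lemmas with
`T = WithLp 2 (EE l × H)`, `c = lᗮ`). -/
theorem slice : ∃ r1 > 0, ∃ K ≥ 1,
    (∀ r ≤ r1, IsOpen (L.sat (pt.pts r))) ∧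
    (∀ r ≤ r1, Metric.ball pt.p (r / K) ⊆ L.sat (pt.pts r)) ∧
    (∀ r ≤ r1, ∀ κ, ∀ s ∈ pt.pts r1, s ∈ L.sat (pt.reg' r κ) → s ∈ pt.reg' r κ) ∧
    (∀ r ≤ r1, ∀ s ∈ pt.pts (r / K), ∀ Y ∈ L.Str (Module.finrank ℝ pt.l), ‖s - Y‖ < r / K →
      ∃ Y' ∈ pt.Z, Y' ∈ pt.pts r ∧ (∃ g ∈ L.G, lift g Y = Y') ∧ ‖s - Y'‖ ≤ K * ‖s - Y‖) ∧
    (∃ c > 0, ∀ u : EE V → ℝ, Continuous u → HasCompactSupport u → L.SInv u →
      tsupport u ⊆ L.sat (pt.pts r1) →
      ∫ x, u x = c * ∫ X : EE pt.l, ∫ z : pt.H,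
        (pt.pts r1).indicator (fun s => pt.jac X * u s) (pt.io X z)) ∧
    ∀ w : EE pt.l → ℝ, ContinuousOn w {X | lift pt.l.subtypeL X ∈ pt.pts r1} →
      (∀ g ∈ L.G, lift g pt.p = pt.p → ∀ X X', lift g (lift pt.l.subtypeL X) = lift pt.l.subtypeL X' →
        w X = w X') →
      ∃ u : EE V → ℝ, ContinuousOn u (L.sat (pt.pts r1)) ∧ (∀ g ∈ L.G, ∀ x, u (lift g x) = u x) ∧
        ∀ X z, pt.io X z ∈ pt.pts r1 → u (pt.io X z) = w X := by
  have := gp_borel (EE pt.l) pt.H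
  obtain ⟨ra, hra, hint⟩ := pt.sl.integral
  obtain ⟨rb, hrb, hext⟩ := pt.slice_ext
  obtain ⟨rc, hrc, K, hK, hc1, hc2⟩ := pt.slice_chart
  obtain ⟨rd, hrd, hreg⟩ := pt.slice_reg
  obtain ⟨r1, h0, ha, hb, hc, hd⟩ : ∃ r1 > 0, r1 ≤ ra ∧ r1 ≤ rb ∧ r1 ≤ rc ∧ r1 ≤ rd :=
    ⟨min (min ra rb) (min rc rd), by positivity, (min_le_left _ _).trans (min_le_left _ _),
      (min_le_left _ _).trans (min_le_right _ _), (min_le_right _ _).trans (min_le_left _ _),
      (min_le_right _ _).trans (min_le_right _ _)⟩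
  refine ⟨r1, h0, K, hK, fun r hr => ?_, fun r hr => hc1 r (hr.trans hc), hreg r1 hd,
    fun r hr => hc2 r (hr.trans hc), ?_, fun w hw hinv => ?_⟩
  · rcases le_or_gt r 0 with h | h
    · have : L.sat (pt.pts r) = ∅ := by
        ext x
        simp only [Set.mem_empty_iff_false, iff_false]
        rintro ⟨g, -, hg⟩
        exact absurd (hg.2.trans_le h) (not_lt.2 (norm_nonneg _))
      rw [this]
      exact isOpen_empty
    · rw [← pt.sl_pts]
      exact (hint r ⟨h, hr.trans ha⟩).1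
  · obtain ⟨-, c, hc0, hI⟩ := hint r1 ⟨h0, ha⟩
    refine ⟨c * (pt.jac pt.P0)⁻¹, mul_pos hc0 (inv_pos.2 pt.jac_P0_pos), fun u h1 h2 h3 h4 => ?_⟩
    rw [hI u h1 h2 h3 (pt.sl_pts r1 ▸ h4), pt.sl_integral r1 h1, mul_assoc]
  · exact hext r1 ⟨h0, hb⟩ w hw hinv
end Patch

end Vale.Agent.P353
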