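import Vale.Agent.P353.BSI
import Vale.Agent.P353.GPatch2
import Vale.Agent.P353.ACov

open MeasureTheory NormedSpace
open Complex (I)
open scoped InnerProductSpace ContDiff

noncomputable section
namespace Vale.Agent.P353
variable {V F : Type} [NormedAddCommGroup V] [InnerProductSpace ℝ V] [FiniteDimensional ℝ V]
  [NormedAddCommGroup F] [InnerProductSpace ℂ F] [CompleteSpace F]
  [MeasurableSpace V] [BorelSpace V]

omit [FiniteDimensional ℝ V] [MeasurableSpace V] [BorelSpace V] in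
theorem blink_bump (p : EE V) {r : ℝ} (hr : 0 < r) (a : ℝ) : ∃ χ : EE V → ℝ, ContDiff ℝ ∞ χ ∧
    (∀ s s', ‖s - p‖ = ‖s' - p‖ → χ s = χ s') ∧ (∀ s, ‖s - p‖ < 3 * r / 4 → χ s = a) ∧
    tsupport χ ⊆ Metric.ball p r := by
  have h0 : 0 < (7 * r / 8) ^ 2 - (3 * r / 4) ^ 2 := by nlinarith
  refine ⟨fun s => a * Real.smoothTransition (((7 * r / 8) ^ 2 - ‖s - p‖ ^ 2) /
    ((7 * r / 8) ^ 2 - (3 * r / 4) ^ 2)), ?_, fun s s' h => by simp only [h], fun s hs => ?_, ?_⟩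
  · exact contDiff_const.mul (Real.smoothTransition.contDiff.comp ((contDiff_const.sub
      ((contDiff_norm_sq ℝ).comp (contDiff_id.sub contDiff_const))).div_const _))
  · simp only
    rw [Real.smoothTransition.one_of_one_le, mul_one]
    rw [le_div_iff₀ h0]
    nlinarith [norm_nonneg (s - p)]
  · refine (closure_minimal (fun s hs => ?_) Metric.isClosed_closedBall).trans
      (Metric.closedBall_subset_ball (show 7 * r / 8 < r by linarith))
    rw [mem_closedBall_iff_norm]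
    by_contra h
    refine hs ?_
    simp only
    rw [Real.smoothTransition.zero_of_nonpos, mul_zero]
    exact div_nonpos_of_nonpos_of_nonneg (by nlinarith [not_le.1 h]) h0.le

omit [MeasurableSpace V] [BorelSpace V] in
theorem blink_fix {L : CL V} (pt : Patch L) {ξ : V} (h : ξ ∈ pt.l) : lift (L.ex ξ) pt.p = pt.p := by
  ext i
  have h1 : L.br ξ (pt.p i) = 0 := by rw [L.skew, (L.mem_cent _ _).1 h i, neg_zero]
  have h2 := cv_ode (T := L.br ξ) (c := fun _ => pt.p i)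
    (fun t => by rw [h1]; exact hasDerivAt_const _ _) 1
  rw [one_smul] at h2
  exact h2.symm

omit [MeasurableSpace V] [BorelSpace V] in
theorem blink_Gm (G : Gam) (L : CL V) (ξ : V) (x : EE V) (u : SS V) :
    Gm G L (lift (L.ex ξ) x) (lift (L.ex ξ) u) = lift (L.ex ξ) (Gm G L x u) := by
  simp only [Gm, sum_apply, ContinuousLinearMap.comp_apply, map_sum]
  refine Finset.sum_congr rfl fun j _ => ?_
  rw [← cv_mat_lift]
  congr 1
  ext i
  simp only [lift_apply, L.ex_br]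

omit [CompleteSpace F] in
theorem blink_re (B : F →L[ℂ] F) (a : ℝ) (v : F) :
    (⟪a • v, B (a • v)⟫_ℂ).re = a ^ 2 * (⟪v, B v⟫_ℂ).re := by
  rw [B.map_smul_of_tower, ← Complex.coe_smul, ← Complex.coe_smul, inner_smul_left,
    inner_smul_right, Complex.conj_ofReal, Complex.re_ofReal_mul, Complex.re_ofReal_mul]
  ring

/-- the data of the construction -/
structure BlinkD {M : Mod V F} (pt : Patch M.L) (r1 c : ℝ) (χ : EE V → ℝ) : Prop where
  pos : 0 < r1
  c0 : 0 < c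
  sm : ContDiff ℝ ∞ χ
  one : ∀ s, ‖s - pt.p‖ < 3 * r1 / 4 → χ s = √c
  supp : tsupport χ ⊆ Metric.ball pt.p r1
  reg : ∀ r ≤ r1, ∀ κ, ∀ s ∈ pt.pts r1, s ∈ M.L.sat (pt.reg' r κ) → s ∈ pt.reg' r κ
  int : ∀ u : EE V → ℝ, Continuous u → HasCompactSupport u → M.L.SInv u →
    tsupport u ⊆ M.L.sat (pt.pts r1) → ∫ x, u x = c * ∫ X : EE pt.l, ∫ z : pt.H,
      (pt.pts r1).indicator (fun s => pt.jac X * u s) (pt.io X z)

section
variable {M : Mod V F} {pt : Patch M.L} {r1 c r κ : ℝ} {χ : EE V → ℝ} {φ : EE V → F}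

theorem BlinkD.cases (h : BlinkD pt r1 c χ) (hr : r ≤ r1 / 2) (hφ : M.Glob pt r κ φ)
    (X : EE pt.l) (z : pt.HT) :
    (pt.sp X z ∈ pt.reg' r κ ∧ pt.sp X z ∈ pt.pts r1 ∧
      (fun s => χ s • φ s) =ᶠ[nhds (pt.sp X z)] fun s => √c • φ s) ∨
    ((fun s => χ s • φ s) =ᶠ[nhds (pt.sp X z)] 0 ∧
      (pt.sp X z ∈ pt.pts r1 → pt.sp X z ∉ tsupport φ)) := by
  have h0 := h.pos
  by_cases h1 : pt.sp X z ∈ tsupport φ
  · by_cases h2 : pt.sp X z ∈ pt.pts r1
    · have h3 := h.reg r (by linarith) κ _ h2 (hφ.supp h1)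
      refine Or.inl ⟨h3, h2, ?_⟩
      have h4 : pt.sp X z ∈ Metric.ball pt.p (3 * r1 / 4) :=
        mem_ball_iff_norm.2 (by linarith [h3.1.2])
      filter_upwards [Metric.isOpen_ball.mem_nhds h4] with s hs
      rw [h.one s (mem_ball_iff_norm.1 hs)]
    · refine Or.inr ⟨?_, fun h3 => (h2 h3).elim⟩
      filter_upwards [notMem_tsupport_iff_eventuallyEq.1 fun h3 =>
        h2 ⟨⟨X, z, rfl⟩, mem_ball_iff_norm.1 (h.supp h3)⟩] with s hs
      simp [hs]
  · refine Or.inr ⟨?_, fun _ => h1⟩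
    filter_upwards [notMem_tsupport_iff_eventuallyEq.1 h1] with s hs
    simp [hs]

theorem BlinkD.loc (h : BlinkD pt r1 c χ) (hr : r ≤ r1 / 2) (hφ : M.Glob pt r κ φ)
    (X : EE pt.l) (z : pt.HT) : ∃ a : ℝ, χ (pt.sp X z) • φ (pt.sp X z) = a • φ (pt.sp X z) ∧
      fderiv ℝ (fun s => χ s • φ s) (pt.sp X z) = a • fderiv ℝ φ (pt.sp X z) ∧
      ((pt.sp X z ∈ pt.pts r1 ∧ a ^ 2 = c) ∨
        (a = 0 ∧ (pt.sp X z ∈ pt.pts r1 → pt.sp X z ∉ tsupport φ))) := by
  rcases h.cases hr hφ X z with ⟨-, h1, h2⟩ | ⟨h1, h2⟩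
  · refine ⟨√c, h2.eq_of_nhds, ?_, Or.inl ⟨h1, Real.sq_sqrt h.c0.le⟩⟩
    rw [h2.fderiv_eq, fderiv_fun_const_smul (hφ.tst.differentiable _)]
  · refine ⟨0, by simpa using h1.eq_of_nhds, ?_, Or.inr ⟨rfl, h2⟩⟩
    rw [h1.fderiv_eq]
    simp

theorem BlinkD.main (h : BlinkD pt r1 c χ) (hr : r ≤ r1 / 2) (hφ : M.Glob pt r κ φ)
    (Q : EE V → F → (EE V →L[ℝ] F) → ℝ)
    (hQ : ∀ s (a : ℝ) v T, Q s (a • v) (a • T) = a ^ 2 * Q s v T)
    (hc : Cc fun s => Q s (φ s) (fderiv ℝ φ s)) (hi : M.L.SInv fun s => Q s (φ s) (fderiv ℝ φ s)) :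
    ∫ s, Q s (φ s) (fderiv ℝ φ s) =
      M.SI pt fun s => Q s (χ s • φ s) (fderiv ℝ (fun s => χ s • φ s) s) := by
  have h0 : ∀ s, s ∉ tsupport φ → Q s (φ s) (fderiv ℝ φ s) = 0 := by
    intro s hs
    have h1 := hQ s 0 0 0
    rw [image_eq_zero_of_notMem_tsupport hs, fderiv_of_notMem_tsupport ℝ hs]
    simpa using h1
  have h1 : tsupport (fun s => Q s (φ s) (fderiv ℝ φ s)) ⊆ tsupport φ :=
    closure_minimal (fun s hs => by_contra fun h2 => hs (h0 s h2)) (isClosed_tsupport _)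
  have h2 : M.L.sat (pt.reg' r κ) ⊆ M.L.sat (pt.pts r1) :=
    CL.sat_mono fun s hs => pt.pts_mono (by linarith [h.pos]) hs.1
  rw [h.int _ hc.1 hc.2 hi (h1.trans (hφ.supp.trans h2)), ← integral_const_mul]
  refine integral_congr_ae (Filter.Eventually.of_forall fun X => ?_)
  simp only [Mod.fi]
  rw [← integral_const_mul, ← integral_const_mul]
  refine integral_congr_ae (Filter.Eventually.of_forall fun z => ?_)
  obtain ⟨a, a1, a2, a3⟩ := h.loc hr hφ X z
  change c * (pt.pts r1).indicator _ (pt.sp X z) = pt.jac X * Q _ _ _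
  rw [a1, a2, hQ]
  rcases a3 with ⟨a3, a4⟩ | ⟨a3, a4⟩
  · rw [Set.indicator_of_mem a3, a4]
    ring
  · by_cases a5 : pt.sp X z ∈ pt.pts r1
    · rw [Set.indicator_of_mem a5, h0 _ (a4 a5)]
      ring
    · rw [Set.indicator_of_notMem a5, a3]
      ring

end

/-- Take `r1`, `c` from `Patch.slice` and a radial bump `χ` (a function of `‖s - p‖`, so that it is
invariant under the light group) equal to `sqrt c` on the ball of radius `3 r1 / 4` with support
inside the ball of radius `r1`.  At every point `s` of the slice, `χ • φ` and its derivative are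
`χ s` times those of `φ`, and `χ s ^ 2 * u s = c * indicator (pts r1) u s` for a density `u` of
`φ` (item 3 of `slice`).  The support condition of `Adm` uses that `tsupport χ` lies in the ball. -/
theorem Mod.exists_link (M : Mod V F) (P : Par) (pt : Patch M.L) :
    ∃ r1 χ, M.Link pt P r1 χ := by
  obtain ⟨r1, h0, K, -, h1, -, h2, -, ⟨c, c0, h3⟩, -⟩ := pt.slice
  obtain ⟨χ, x1, x2, x3, x4⟩ := blink_bump pt.p h0 √c
  have h : BlinkD pt r1 c χ := ⟨h0, c0, x1, x3, x4, h2, h3⟩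
  have n : ∀ (a : ℝ) (v : F), ‖a • v‖ ^ 2 = a ^ 2 * ‖v‖ ^ 2 := fun a v => by
    rw [norm_smul, mul_pow, Real.norm_eq_abs, sq_abs]
  have m : ∀ (a : ℝ) (T : EE V →L[ℝ] F) y, (a • T) y = a • T y := fun _ _ _ => rfl
  refine ⟨r1, χ, h0, h1, fun r hr κ φ hφ => ⟨hφ.tst.smul x1, fun X z ξ => ?_,
    fun ξ hξ X z => ?_, fun X z hs => ?_⟩, fun r hr κ φ hφ w hw hi => ?_, fun r hr κ φ hφ => ?_,
    fun r hr κ φ hφ lam => ?_, fun r hr κ φ hφ β lam mu => ?_, fun r hr κ φ hφ N => ?_⟩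
  · obtain ⟨a, a1, a2, -⟩ := h.loc hr hφ X z
    rw [a1, a2, smul_apply, hφ.inv.deriv hφ.tst.differentiable,
      ContinuousLinearMap.map_smul_of_tower]
  · rw [hφ.inv ξ, ContinuousLinearMap.map_smul_of_tower, x2 _ (pt.sp X z)]
    conv_lhs => rw [← blink_fix pt hξ, ← map_sub, CL.G_norm (M.L.ex_mem ξ)]
  · rcases h.cases hr hφ X z with h4 | h4
    · exact h4.1
    · exact (notMem_tsupport_iff_eventuallyEq.2 h4.1 hs).elim
  · refine h.main hr hφ (fun s v _ => w s * ‖v‖ ^ 2) (fun s a v T => ?_)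
      ((hφ.tst.cc M P.toGam pt).2.2.2.2.2.2.2 w hw) fun ξ x => ?_
    · rw [n]
      ring
    · simp only [hi ξ x, hφ.inv.norm ξ x]
  · exact h.main hr hφ (fun s v _ => ‖v‖ ^ 2) (fun s a v T => n a v) (hφ.tst.cc M P.toGam pt).1
      fun ξ x => by simp only [hφ.inv.norm ξ x]
  · have e : M.q0 P.toGam lam φ = ∫ s, M.dens P.toGam 1 lam φ s := by
      obtain ⟨q1, q2⟩ := M.q0_cont P.toGam lam
      have i1 := hφ.tst.int_g2.const_mul (1 / 2)
      have i2 := hφ.tst.int_wt q1.continuousOn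
      have i3 := hφ.tst.int_opf q2.continuousOn
      simp only [Mod.q0, sch, kin, wt, opf, Mod.dens, one_mul]
      rw [integral_add (f := fun x => 1 / 2 * g2 φ x + lam ^ 2 * M.L.pot x * ‖φ x‖ ^ 2)
        (i1.add i2) i3, integral_add i1 i2, integral_const_mul]
    rw [e]
    refine h.main hr hφ (fun s v T => (1 / 2) * ∑ k, ‖T (stdOrthonormalBasis ℝ (EE V) k)‖ ^ 2 +
      1 * lam ^ 2 * M.L.pot s * ‖v‖ ^ 2 +
      (⟪v, (I • M.C.spin ((-lam) • Gm P.toGam M.L s)) v⟫_ℂ).re) (fun s a v T => ?_)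
      ((hφ.tst.cc M P.toGam pt).2.2.2.2.2.1 1 lam) fun ξ x => ?_
    · simp only [m, n, blink_re, ← Finset.mul_sum]
      ring
    · have e1 := hφ.inv.g2 hφ.tst.differentiable ξ x
      have e2 := hφ.inv.opf_density (T := fun x => (-lam) • Gm P.toGam M.L x) (fun ξ x u => by
        simp only [smul_apply, blink_Gm, map_smul]) ξ x
      simp only [g2] at e1 e2
      simp only [e1, e2, hφ.inv.norm ξ x, pot_sinv M.L ξ x]
  · refine h.main hr hφ (fun s v T => ‖(-I) • ∑ k, M.C.th (P.psi (Pi.single β 1)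
      (stdOrthonormalBasis ℝ (EE V) k)) (T (stdOrthonormalBasis ℝ (EE V) k)) +
      M.C.th (lam • s0 P.toGam M.L (Pi.single β 1) s + mu • P.s1' β s) v‖ ^ 2) (fun s a v T => ?_)
      (((M.Tst_D P lam mu hφ.tst).2.1 β).cc M P.toGam pt).1 fun ξ x => ?_
    · simp only [m, ContinuousLinearMap.map_smul_of_tower _ a,
        ← Finset.smul_sum]
      rw [smul_comm (-I) a, ← smul_add, n]
    · have e1 : M.Inv (M.D' P β lam mu φ) := Mod.Inv.dirac _ (fun ξ x => by
        rw [s0_aut _ _ _ (M.L.ex_br ξ), map_add, map_smul, map_smul]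
        simp only [Par.s1', Gam.psi, ContinuousLinearMap.comp_apply, cv_mat_lift])
        hφ.tst.differentiable hφ.inv
      exact congrArg (· ^ 2) (e1.norm ξ x)
  · exact h.main hr hφ (fun s v _ => (⟪v, (I • M.C.spin (mat N)) v⟫_ℂ).re)
      (fun s a v T => blink_re _ a v) ((hφ.tst.cc M P.toGam pt).2.2.2.2.2.2.1 N)
      (hφ.inv.opf_density (T := fun _ => mat N) fun ξ _ u => cv_mat_lift N _ u)

end Vale.Agent.P353
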