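import Vale.Agent.P353.GMyers
import Vale.Agent.P353.GBump
import Vale.Agent.P353.AId2
import Vale.Agent.P353.ACov
import Vale.Agent.P353.AOsc2
import Vale.Agent.P353.AFock2
import Vale.Agent.P353.BGlob2
import Vale.Agent.P353.BLink
import Vale.Agent.P353.BEqui

open MeasureTheory NormedSpace
open Complex (I)
open scoped InnerProductSpace ContDiff

noncomputable section
namespace Vale.Agent.P353
variable {V F : Type} [NormedAddCommGroup V] [InnerProductSpace ℝ V] [FiniteDimensional ℝ V]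
  [MeasurableSpace V] [BorelSpace V]
  [NormedAddCommGroup F] [InnerProductSpace ℂ F] [CompleteSpace F]

/-- Born-Oppenheimer reduction on a patch (module B, see PROOF.md). -/
theorem Mod.bo [FiniteDimensional ℂ F] (M : Mod V F) (P : Par) (pt : Patch M.L) (hp : pt.p ≠ 0) :
    ∃ r0 > 0, ∃ c1 > 0, ∃ C0 > 0, ∀ r ∈ Set.Ioc 0 r0, ∀ η > 0, ∃ θ0 > 0, ∀ θ ∈ Set.Ioc 0 θ0,
    ∃ κ > 0, ∀ (n : ℕ) (w : Fin n → EE V → ℝ) (B : Fin n → ℝ),
      (∀ i, ContinuousOn (w i) (M.L.sat (pt.pts r)) ∧ (∀ g ∈ M.L.G, ∀ x, w i (lift g x) = w i x) ∧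
        ∀ x ∈ M.L.sat (pt.pts r), 0 ≤ w i x ∧ w i x ≤ B i) →
    ∀ η' > 0, ∃ lam0 > 0, ∀ lam ≥ lam0, ∀ mu : ℝ, 0 ≤ mu → mu ^ 3 ≤ lam ^ 2 →
    ∀ φ : EE V → F, Tst φ → M.Inv φ → tsupport φ ⊆ M.L.sat (pt.reg' (r / 2) κ) →
      (θ * lam ≤ mu ^ 2 → c1 * mu ^ 2 * n2 φ ≤ M.q P lam mu φ) ∧
      (mu ^ 2 ≤ θ * lam → ∃ f : EE pt.l → F, Tst f ∧ (M.res pt.l (M.L.sub_cent pt.p)).Inv f ∧
        (∀ X ∈ tsupport f, lift pt.l.subtypeL X ∈ pt.reg' (r / 2) κ) ∧ n2 f ≤ n2 φ ∧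
        (M.res pt.l (M.L.sub_cent pt.p)).q P lam mu f ≤
          M.q P lam mu φ + η * M.q0 P.toGam lam φ + η * (1 + mu + mu ^ 2) * n2 φ ∧
        ∀ i, (1 - η) * wt (w i) φ ≤ wt (fun X => w i (lift pt.l.subtypeL X)) f + η' * n2 φ +
          C0 * (B i + 1) / lam * M.q0 P.toGam lam φ) := by
  rcases subsingleton_or_nontrivial F with hF | hF
  · refine ⟨1, one_pos, 1, one_pos, 1, one_pos, fun r _ η _ => ⟨1, one_pos, fun θ _ => ⟨1, one_pos,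
      fun n w B _ η' _ => ⟨1, one_pos, fun lam _ mu _ _ φ _ _ _ => ?_⟩⟩⟩⟩
    have h0 : ∀ {E : Type} (f : E → F), f = 0 := fun f => funext fun _ => Subsingleton.elim _ _
    have hn : ∀ v : F, ‖v‖ = 0 := fun v => by rw [Subsingleton.elim v 0, norm_zero]
    have hi : ∀ v v' : F, ⟪v, v'⟫_ℂ = 0 := fun v v' => by
      rw [Subsingleton.elim v 0, inner_zero_left]
    refine ⟨fun _ => ?_, fun _ => ⟨0, ⟨contDiff_const, HasCompactSupport.zero⟩,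
      fun _ _ => Subsingleton.elim _ _, fun X hX => ?_, ?_, ?_, fun i => ?_⟩⟩
    · simp [Mod.q, sch, kin, wt, opf, n2, g2, hn, hi]
    · simp at hX
    · simp [n2, hn]
    · simp [Mod.q, Mod.q0, sch, kin, wt, opf, n2, g2, hn, hi]
    · simp [Mod.q0, sch, kin, wt, opf, n2, g2, hn, hi]
  obtain ⟨rB, d, hg⟩ := M.exists_GB P.toGam pt
  obtain ⟨r1, χ, hk⟩ := M.exists_link P pt
  obtain ⟨r2, hr2, c1, hc1, hbig⟩ := M.big P pt hp
  obtain ⟨C0, hC0, hw⟩ := hg.small_w hk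
  have hm : 0 < min rB r1 := lt_min hg.1 hk.pos
  refine ⟨min (min rB r1) r2, lt_min hm hr2, c1, hc1, C0, hC0, fun r hr η hη => ?_⟩
  have hr1 : r ≤ min rB r1 := hr.2.trans (min_le_left _ _)
  have hr1' : r / 2 ≤ min rB r1 / 2 := by linarith
  have hr3 : r / 2 ≤ r2 := by linarith [hr.1, hr.2.trans (min_le_right _ _)]
  obtain ⟨θ0, hθ0, κ1, hκ1, l1, hl1, hq⟩ := hg.small_q hk hη
  obtain ⟨κ2, hκ2, hw⟩ := hw η hη
  refine ⟨θ0, hθ0, fun θ hθ => ?_⟩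
  obtain ⟨κ3, hκ3, l3, hl3, hb⟩ := hbig (r / 2) hr3 (fun η hη => by
    obtain ⟨κ, hκ, η1, hη1, l0, hl0, h⟩ := hg.gap_glob hk hη
    exact ⟨κ, hκ, η1, hη1, l0, hl0, fun lam hl φ hφ => (h lam hl _ hr1' φ hφ).1⟩) θ hθ.1
  refine ⟨min κ1 (min κ2 κ3), lt_min hκ1 (lt_min hκ2 hκ3), fun n w B hwB η' hη' => ?_⟩
  choose l2 hl2 hw using fun i =>
    hw r ⟨hr.1, hr1⟩ (w i) (B i) (hwB i).1 (hwB i).2.1 (hwB i).2.2 η' hη'
  have hs : 0 ≤ ∑ i, l2 i := Finset.sum_nonneg fun i _ => (hl2 i).le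
  refine ⟨l1 + l3 + ∑ i, l2 i, by positivity, fun lam hl mu h0 h3 φ ht hi hsup => ?_⟩
  have hφ : M.Glob pt (r / 2) (min κ1 (min κ2 κ3)) φ := ⟨ht, hi, hsup⟩
  have hl0 : 0 < lam := by linarith
  have ha := hk.adm (r / 2) (hr1'.trans (by linarith [min_le_right rB r1])) _ φ hφ
  have hrB : r / 2 ≤ rB / 2 := hr1'.trans (by linarith [min_le_left rB r1])
  refine ⟨fun h => hb lam (by linarith) mu h0 h3 h φ
    (hφ.mono ((min_le_right _ _).trans (min_le_right _ _))), fun h => ?_⟩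
  refine ⟨M.Td P.toGam pt lam fun s => χ s • φ s, (hg.tst_Td hl0 hrB ha.sup).1, hg.inv_Td ha,
    fun X hX => ((hg.tst_Td hl0 hrB ha.sup).2 X hX).1, ?_,
    hq lam (by linarith) mu h0 (h.trans (mul_le_mul_of_nonneg_right hθ.2 hl0.le)) _ hr1' φ
      (hφ.mono (min_le_left _ _)), fun i => hw i lam ?_ φ
      (hφ.mono ((min_le_right _ _).trans (min_le_left _ _)))⟩
  · have := hg.n2_Td hl0 hrB ha.sup
    rw [hk.n2 (r / 2) (hr1'.trans (by linarith [min_le_right rB r1])) _ φ hφ]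
    linarith [this.1, this.2]
  · linarith [Finset.single_le_sum (fun i _ => (hl2 i).le) (Finset.mem_univ i)]

end Vale.Agent.P353
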