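import Vale.Agent.P353.BDefs

open MeasureTheory NormedSpace
open Complex (I)
open scoped InnerProductSpace ContDiff

noncomputable section
namespace Vale.Agent.P353
variable {V : Type} [NormedAddCommGroup V] [InnerProductSpace ℝ V] [FiniteDimensional ℝ V]
  {L : CL V} (pt : Patch L) (G : Gam)

omit [FiniteDimensional ℝ V] in
theorem bobj_contr_tens {n : ℕ} (v e : Fin n → ℝ) (a : V) :
    contr v (tens e a) = (v ⬝ᵥ e) • a := by
  simp [dotProduct, Finset.sum_smul, smul_smul]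

omit [FiniteDimensional ℝ V] in
theorem bobj_inner_tens {n : ℕ} (v : Fin n → ℝ) (a : V) (x : PiLp 2 fun _ : Fin n => V) :
    ⟪tens v a, x⟫_ℝ = ⟪a, contr v x⟫_ℝ := by
  simp [PiLp.inner_apply, inner_sum, real_inner_smul_left, real_inner_smul_right]

theorem bobj_sq (G : Gam) (M : Fin 9 → V →L[ℝ] V) (C : Fin 9 → Fin 9 → V →L[ℝ] V)
    (hC : ∀ i j, M i * M j - M j * M i = C i j) :
    -((∑ j, mat (G.g j) ∘L lift (M j)) * ∑ j, mat (G.g j) ∘L lift (M j) : SS V →L[ℝ] SS V) =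
      lift (-∑ i, M i * M i) -
        (1 / 2 : ℝ) • ∑ i, ∑ j, mat (G.g2 i j) ∘L lift (C i j) := by
  have h1 : ∀ i j, (mat (G.g i) ∘L lift (M i) : SS V →L[ℝ] SS V) * (mat (G.g j) ∘L lift (M j)) =
      mat (G.g2 i j) ∘L lift (M i * M j) + (if i = j then lift (M i * M j) else 0) := by
    intro i j
    have a : (mat (G.g i) ∘L lift (M i) : SS V →L[ℝ] SS V) * (mat (G.g j) ∘L lift (M j)) =
        mat (G.g i * G.g j) ∘L lift (M i * M j) := by
      refine ContinuousLinearMap.ext fun u => ?_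
      have b := DFunLike.congr_fun (mat_lift (G.g j) (M i)) (lift (M j) u)
      rw [mat_mul]
      exact congrArg (mat (G.g i)) b.symm
    rw [a, G.mul_eq]
    refine ContinuousLinearMap.ext fun u => PiLp.ext fun s => ?_
    by_cases hij : i = j
    · simp [hij, add_smul, Finset.sum_add_distrib, Matrix.one_apply]
    · simp [hij]
  have h2 : ∀ i j, (mat (G.g2 i j) ∘L lift (C i j) : SS V →L[ℝ] SS V) =
      mat (G.g2 i j) ∘L lift (M i * M j) + mat (G.g2 j i) ∘L lift (M j * M i) := by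
    intro i j
    rw [G.g2_swap i j, ← hC]
    refine ContinuousLinearMap.ext fun u => PiLp.ext fun s => ?_
    simp [sub_eq_add_neg, Finset.sum_add_distrib]
  have h3 : (lift (-∑ i, M i * M i) : SS V →L[ℝ] SS V) = -∑ i, lift (M i * M i) := by
    refine ContinuousLinearMap.ext fun u => PiLp.ext fun s => ?_
    simp
  rw [Finset.sum_mul_sum, h3]
  simp only [h1, h2, Finset.sum_add_distrib, Finset.sum_ite_eq, Finset.mem_univ, if_true]
  rw [Finset.sum_comm (f := fun i j => (mat (G.g2 j i) ∘L lift (M j * M i) : SS V →L[ℝ] SS V))]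
  module

theorem bobj_sq' (G : Gam) (M : Fin 9 → V →L[ℝ] V) (C : Fin 9 → Fin 9 → V →L[ℝ] V)
    (hC : ∀ i j, M i * M j - M j * M i = C i j) (u : SS V) (s : Fin 16) :
    -(∑ i, ∑ a, G.g i s a • M i (∑ j, ∑ b, G.g j a b • M j (u b))) =
      -(∑ i, M i (M i (u s))) - (1 / 2 : ℝ) • ∑ i, ∑ j, ∑ a, G.g2 i j s a • C i j (u a) := by
  have h := congrArg (fun A : SS V →L[ℝ] SS V => A u s) (bobj_sq G M C hC)
  simp only [ContinuousLinearMap.neg_apply, ContinuousLinearMap.mul_apply,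
    ContinuousLinearMap.sub_apply, ContinuousLinearMap.smul_apply, ContinuousLinearMap.sum_apply,
    ContinuousLinearMap.comp_apply, WithLp.ofLp_neg, WithLp.ofLp_sub, WithLp.ofLp_smul,
    WithLp.ofLp_sum, Pi.neg_apply, Pi.sub_apply, Pi.smul_apply, Finset.sum_apply, mat_apply,
    lift_apply] at h
  exact h

theorem bobj_skew (G : Gam) {M : Fin 9 → V →L[ℝ] V} (h : ∀ i, Skew (M i)) :
    Skew (∑ j, mat (G.g j) ∘L lift (M j) : SS V →L[ℝ] SS V) := by
  intro u w
  rw [ContinuousLinearMap.sum_apply, ContinuousLinearMap.sum_apply, sum_inner, inner_sum,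
    ← Finset.sum_neg_distrib]
  refine Finset.sum_congr rfl fun i _ => ?_
  rw [ContinuousLinearMap.comp_apply, symm_mat (G.symm i), skew_lift (h i), mat_lift,
    ContinuousLinearMap.comp_apply]

/-! Elementary algebra of the heavy sector. -/
namespace Patch

theorem split (x : V) : (pt.l.orthogonalProjectionOnto x : V) +
    (pt.lᗮ.orthogonalProjectionOnto x : V) = x :=
  pt.l.starProjection_add_starProjection_orthogonal x

theorem il_p0 : pt.il pt.p0 = pt.p := by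
  refine PiLp.ext fun i => ?_
  exact congrArg Subtype.val
    (Submodule.orthogonalProjectionOnto_mem_subspace_eq_self (K := pt.l) ⟨_, pt.p_mem_l i⟩)
theorem cen_p0 : pt.Cen pt.p0 := by
  unfold Cen
  rw [il_p0]
  exact pt.p_mem_Z
theorem inner_inc (z z' : pt.HT) : ⟪pt.inc z, pt.inc z'⟫_ℝ = ⟪z, z'⟫_ℝ := rfl
theorem contr_inc (z : pt.HT) : contr pt.v (pt.inc z) = 0 := Subtype.property (p := fun y => y ∈ pt.H) z
theorem inner_prj (y : EE pt.lᗮ) (z : pt.HT) : ⟪pt.prj y, z⟫_ℝ = ⟪y, pt.inc z⟫_ℝ :=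
  Submodule.inner_orthogonalProjectionOnto_eq_of_mem_right (K := pt.H) z y
theorem prj_inc (z : pt.HT) : pt.prj (pt.inc z) = z :=
  Submodule.orthogonalProjectionOnto_mem_subspace_eq_self (K := pt.H) z
theorem inc_prj (y : EE pt.lᗮ) : pt.inc (pt.prj y) = y - tens pt.v (contr pt.v y) := by
  have h : y - tens pt.v (contr pt.v y) ∈ pt.H := by
    change contr pt.v (y - tens pt.v (contr pt.v y)) = 0
    rw [map_sub, bobj_contr_tens, pt.unit, one_smul, sub_self]
  obtain ⟨u, hu⟩ : ∃ u : pt.HT, pt.inc u = y - tens pt.v (contr pt.v y) := ⟨⟨_, h⟩, rfl⟩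
  rw [← hu]
  refine congrArg pt.inc (ext_inner_right ℝ fun z => ?_)
  rw [inner_prj, ← inner_inc, hu, inner_sub_left, bobj_inner_tens, contr_inc, inner_zero_right,
    sub_zero]
theorem inner_tens_v (w w' : pt.lᗮ) : ⟪tens pt.v w, tens pt.v w'⟫_ℝ = ⟪w, w'⟫_ℝ := by
  rw [amod0_tens, pt.unit, one_mul]
theorem norm_sp (X Y : EE pt.l) (z : pt.HT) :
    ‖pt.sp X z - pt.il Y‖ ^ 2 = ‖X - Y‖ ^ 2 + ‖z‖ ^ 2 := pt.norm_io X z Y
theorem continuous_sp : Continuous fun y : EE pt.l × pt.HT => pt.sp y.1 y.2 :=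
  (pt.il.continuous.comp continuous_fst).add
    (pt.im.continuous.comp (pt.inc.continuous.comp continuous_snd))
/-- the orthonormal basis of `EE V` adapted to the slice -/
theorem sum_slice {A : Type} [AddCommGroup A] [Module ℝ A] (B : EE V →ₗ[ℝ] EE V →ₗ[ℝ] A) :
    ∑ k, B (stdOrthonormalBasis ℝ (EE V) k) (stdOrthonormalBasis ℝ (EE V) k) =
      ∑ k, B (pt.il (pt.bl k)) (pt.il (pt.bl k)) +
      ∑ k, B (pt.im (pt.inc (pt.bH k))) (pt.im (pt.inc (pt.bH k))) +
      ∑ k, B (pt.im (tens pt.v (pt.bm k))) (pt.im (tens pt.v (pt.bm k))) := by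
  have h1 := sum_onb_split B pt.il pt.im (inner_lift_subtype _) (inner_lift_subtype _)
    (fun u w => by
      rw [PiLp.inner_apply]
      exact Finset.sum_eq_zero fun i _ =>
        Submodule.inner_right_of_mem_orthogonal (u i).2 (w i).2)
    (fun x => ⟨lift pt.l.orthogonalProjectionOnto x, lift pt.lᗮ.orthogonalProjectionOnto x,
      PiLp.ext fun i => (pt.split (x i)).symm⟩)
  have h2 := sum_onb_split (B.compl₁₂ pt.im.toLinearMap pt.im.toLinearMap) pt.inc (tens pt.v)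
    pt.inner_inc pt.inner_tens_v
    (fun u w => by rw [real_inner_comm, bobj_inner_tens, contr_inc, inner_zero_right])
    (fun x => ⟨pt.prj x, contr pt.v x, by rw [inc_prj, sub_add_cancel]⟩)
  rw [h1, add_assoc]
  exact congrArg (_ + ·) h2
/-- points of the support region -/
theorem reg_cen {r κ : ℝ} {X : EE pt.l} {z : pt.HT} (h : pt.sp X z ∈ pt.reg' r κ) :
    ‖X - pt.p0‖ < r ∧ ‖z‖ < κ ∧ ‖z‖ < r ∧ pt.il X ∈ pt.reg' r κ ∧
      ∃ Y, pt.Cen Y ∧ ‖X - Y‖ < κ := by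
  obtain ⟨⟨-, h1⟩, Y, hY, h2⟩ := h
  obtain ⟨Y', rfl⟩ : ∃ Y' : EE pt.l, pt.il Y' = Y :=
    ⟨WithLp.toLp 2 fun i => ⟨Y i, pt.z_le (hY i)⟩, PiLp.ext fun i => rfl⟩
  rw [← il_p0] at h1
  have key : ∀ W : EE pt.l, ‖X - W‖ ≤ ‖pt.sp X z - pt.il W‖ ∧ ‖z‖ ≤ ‖pt.sp X z - pt.il W‖ ∧
      ‖pt.il X - pt.il W‖ = ‖X - W‖ := fun W => by
    have a := pt.norm_sp X W z
    refine ⟨(pow_le_pow_iff_left₀ (norm_nonneg _) (norm_nonneg _) two_ne_zero).1 ?_,
      (pow_le_pow_iff_left₀ (norm_nonneg _) (norm_nonneg _) two_ne_zero).1 ?_, ?_⟩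
    · rw [a]
      exact le_add_of_nonneg_right (sq_nonneg _)
    · rw [a]
      exact le_add_of_nonneg_left (sq_nonneg _)
    · rw [← map_sub, norm_eq_sqrt_real_inner, norm_eq_sqrt_real_inner, inner_lift_subtype]
  refine ⟨(key _).1.trans_lt h1, (key _).2.1.trans_lt h2, (key _).2.1.trans_lt h1,
    ⟨⟨⟨X, 0, ?_⟩, ?_⟩, _, hY, ?_⟩, Y', hY, (key _).1.trans_lt h2⟩
  · simp [Patch.io]
  · rw [← il_p0, (key _).2.2]
    exact (key _).1.trans_lt h1
  · rw [(key _).2.2]
    exact (key _).1.trans_lt h2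
theorem Mv_eq (X : EE pt.l) : pt.Mv X = ∑ i, pt.v i • pt.Mi X i := by
  refine ContinuousLinearMap.ext fun w => ?_
  simp [Mv, Mi, adm]
theorem skew_Mi (X : EE pt.l) (i : Fin 9) : Skew (pt.Mi X i) := pt.skew_adm _
theorem Mi_comm (X : EE pt.l) (i j : Fin 9) :
    pt.Mi X i * pt.Mi X j - pt.Mi X j * pt.Mi X i = pt.adm (L.br (X i) (X j)) := by
  refine ContinuousLinearMap.ext fun w => Subtype.ext ?_
  have h := L.jac (X i) (X j) w
  rw [ContinuousLinearMap.sub_apply, ContinuousLinearMap.mul_apply, ContinuousLinearMap.mul_apply,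
    Submodule.coe_sub, Mi, Mi, pt.adm_apply (X i).2, pt.adm_apply (X j).2, pt.adm_apply (X j).2,
    pt.adm_apply (X i).2, pt.adm_apply (L.sub_cent pt.p _ (X i).2 _ (X j).2), h,
    add_sub_cancel_right]
theorem norm_Mi_comm (X : EE pt.l) (i j : Fin 9) :
    ‖pt.Mi X i * pt.Mi X j - pt.Mi X j * pt.Mi X i‖ ≤ 2 * ‖L.br‖ * Real.sqrt (L.pot (pt.il X)) := by
  have hn : 0 ≤ ‖L.br‖ := L.br.opNorm_nonneg
  have h1 : ‖L.br (X i) (X j)‖ ≤ 2 * Real.sqrt (L.pot (pt.il X)) := by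
    have a : ‖L.br (X i) (X j)‖ ^ 2 ≤ ∑ k, ∑ l, ‖L.br (pt.il X k) (pt.il X l)‖ ^ 2 :=
      le_trans (Finset.single_le_sum (f := fun l => ‖L.br (pt.il X i) (pt.il X l)‖ ^ 2)
        (fun _ _ => sq_nonneg _) (Finset.mem_univ j))
        (Finset.single_le_sum (f := fun k => ∑ l, ‖L.br (pt.il X k) (pt.il X l)‖ ^ 2)
          (fun _ _ => Finset.sum_nonneg fun _ _ => sq_nonneg _) (Finset.mem_univ i))
    refine (pow_le_pow_iff_left₀ (norm_nonneg _) (by positivity) two_ne_zero).1 ?_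
    rw [mul_pow, CL.pot, Real.sq_sqrt (by positivity)]
    linarith
  rw [Mi_comm]
  refine ContinuousLinearMap.opNorm_le_bound _ (by positivity) fun w => ?_
  refine (pt.norm_adm_le _ w).trans (mul_le_mul_of_nonneg_right ?_ (norm_nonneg w))
  have := mul_le_mul_of_nonneg_left h1 hn
  linarith
theorem Om_spec {d : ℝ} (hd : 0 ≤ d) {X : EE pt.l} (h : ∀ w, d * ‖w‖ ≤ ‖pt.Mv X w‖) :
    Pos (d ^ 2) (-∑ i, pt.Mi X i * pt.Mi X i) ∧ Pos d (pt.Om X) ∧
      pt.Om X * pt.Om X = -∑ i, pt.Mi X i * pt.Mi X i := by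
  have h0 : ∀ u w, ⟪u, (-∑ i, pt.Mi X i * pt.Mi X i) w⟫_ℝ = ∑ i, ⟪pt.Mi X i u, pt.Mi X i w⟫_ℝ :=
    fun u w => by
      rw [ContinuousLinearMap.neg_apply, ContinuousLinearMap.sum_apply, inner_neg_right, inner_sum,
        ← Finset.sum_neg_distrib]
      exact Finset.sum_congr rfl fun i _ => by
        rw [pt.skew_Mi X i, ContinuousLinearMap.mul_apply]
  have h1 : Pos (d ^ 2) (-∑ i, pt.Mi X i * pt.Mi X i) := by
    refine ⟨fun u w => ?_, fun u => ?_⟩
    · rw [real_inner_comm, h0, h0]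
      exact Finset.sum_congr rfl fun i _ => real_inner_comm _ _
    · rw [h0, ← mul_pow]
      refine (pow_le_pow_left₀ (by positivity) (h u) 2).trans ?_
      have a : ‖pt.Mv X u‖ ≤ ∑ i, |pt.v i| * ‖pt.Mi X i u‖ := by
        rw [Mv_eq, ContinuousLinearMap.sum_apply]
        refine (norm_sum_le _ _).trans (le_of_eq (Finset.sum_congr rfl fun i _ => ?_))
        rw [ContinuousLinearMap.smul_apply, norm_smul, Real.norm_eq_abs]
      refine (pow_le_pow_left₀ (norm_nonneg _) a 2).trans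
        ((Finset.sum_mul_sq_le_sq_mul_sq _ _ _).trans (le_of_eq ?_))
      have b : ∑ i, |pt.v i| ^ 2 = 1 := by
        rw [← pt.unit]
        exact Finset.sum_congr rfl fun i _ => by rw [sq_abs, sq]
      rw [b, one_mul]
      exact Finset.sum_congr rfl fun i _ => (real_inner_self_eq_norm_sq _).symm
  have h2 : Pos 0 (-∑ i, pt.Mi X i * pt.Mi X i) := ⟨h1.1, fun u =>
    le_trans (mul_le_mul_of_nonneg_right (sq_nonneg d) (sq_nonneg _)) (h1.2 u)⟩
  exact ⟨h1, psq_pos hd h1, (psq_spec h2).2⟩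
theorem Mv_unit {d : ℝ} (hd : 0 < d) {X : EE pt.l} (h : ∀ w, d * ‖w‖ ≤ ‖pt.Mv X w‖) :
    IsUnit (pt.Mv X) ∧ ‖pt.Xi X‖ ≤ d⁻¹ ∧ ∀ w, pt.Mv X (pt.Xi X w) = -w := by
  have h1 : Function.Injective (pt.Mv X) := (injective_iff_map_eq_zero (pt.Mv X)).2 fun u hu => by
    have h2 := h u
    rw [hu, norm_zero] at h2
    exact norm_le_zero_iff.1 (nonpos_of_mul_nonpos_right h2 hd)
  have h2 : IsUnit (pt.Mv X) := ContinuousLinearMap.isUnit_iff_bijective.2
    ⟨h1, LinearMap.injective_iff_surjective (f := (pt.Mv X).toLinearMap).1 h1⟩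
  have h3 : ∀ u, pt.Mv X (pt.Xi X u) = -u := fun u => by
    rw [Xi, ContinuousLinearMap.neg_apply, map_neg, ← ContinuousLinearMap.mul_apply,
      Ring.mul_inverse_cancel _ h2, ContinuousLinearMap.one_apply]
  refine ⟨h2, ContinuousLinearMap.opNorm_le_bound _ (by positivity) fun u => ?_, h3⟩
  have h4 := h (pt.Xi X u)
  rwa [h3, norm_neg, ← le_inv_mul_iff₀ hd] at h4
theorem skew_Ga (X : EE pt.l) : Skew (pt.Ga G X) := bobj_skew G (pt.skew_Mi X)
theorem Ga_sq (X : EE pt.l) : -(pt.Ga G X * pt.Ga G X) =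
    lift (-∑ i, pt.Mi X i * pt.Mi X i) -
      (1 / 2 : ℝ) • ∑ i, ∑ j, mat (G.g2 i j) ∘L lift (pt.adm (L.br (X i) (X j))) := by
  refine ContinuousLinearMap.ext fun u => PiLp.ext fun s => ?_
  have h := bobj_sq' G (pt.Mi X) (fun i j => pt.adm (L.br (X i) (X j))) (pt.Mi_comm X) u s
  simp only [Ga, ContinuousLinearMap.neg_apply, ContinuousLinearMap.mul_apply,
    ContinuousLinearMap.sub_apply, ContinuousLinearMap.smul_apply, ContinuousLinearMap.sum_apply,
    ContinuousLinearMap.comp_apply, WithLp.ofLp_neg, WithLp.ofLp_sub, WithLp.ofLp_smul,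
    WithLp.ofLp_sum, Pi.neg_apply, Pi.sub_apply, Pi.smul_apply, Finset.sum_apply, mat_apply,
    lift_apply]
  exact h
theorem J_spec {d : ℝ} (hd : 0 < d) {X : EE pt.l} (h : Pos (d ^ 2) (-(pt.Ga G X * pt.Ga G X))) :
    CS (pt.J G X) ∧ Pos d (pt.aGa G X) ∧ pt.J G X * pt.aGa G X = -pt.Ga G X ∧
      pt.J G X * pt.aGa G X = pt.aGa G X * pt.J G X := by
  obtain ⟨-, J0, h1, -, h2, h3, -, h4⟩ := skew_polar (pt.skew_Ga G X)
  have hp : Pos d (pt.aGa G X) := psq_pos hd.le h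
  have hu := (Pos.isUnit hd hp).1
  have h2' : J0 * pt.aGa G X = pt.Ga G X := h2
  have h3' : pt.aGa G X * J0 = pt.Ga G X := h3
  have hJ : pt.J G X = -J0 := by
    rw [J, ← h2', mul_assoc, Ring.mul_inverse_cancel _ hu, mul_one]
  have h5 := h4 fun u hu => by
    have a := h.2 u
    rw [ContinuousLinearMap.neg_apply, ContinuousLinearMap.mul_apply, hu, map_zero, neg_zero,
      inner_zero_right] at a
    have b := nonpos_of_mul_nonpos_right a (pow_pos hd 2)
    exact norm_eq_zero.1 (pow_eq_zero_iff two_ne_zero |>.1 (le_antisymm b (sq_nonneg _)))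
  have h6 : ∀ u, J0 (pt.aGa G X u) = pt.Ga G X u := fun u => DFunLike.congr_fun h2' u
  have h7 : ∀ u, pt.aGa G X (J0 u) = pt.Ga G X u := fun u => DFunLike.congr_fun h3' u
  rw [hJ]
  refine ⟨⟨fun u w => ?_, ?_⟩, hp, ContinuousLinearMap.ext fun u => ?_,
    ContinuousLinearMap.ext fun u => ?_⟩
  · rw [ContinuousLinearMap.neg_apply, ContinuousLinearMap.neg_apply, inner_neg_left,
      inner_neg_right, h1]
  · rw [neg_mul_neg, h5.2]
  · rw [ContinuousLinearMap.mul_apply, ContinuousLinearMap.neg_apply, h6,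
      ContinuousLinearMap.neg_apply]
  · rw [ContinuousLinearMap.mul_apply, ContinuousLinearMap.neg_apply, h6,
      ContinuousLinearMap.mul_apply, ContinuousLinearMap.neg_apply, map_neg, h7]
theorem Mb_apply (X : EE pt.l) (z : EE pt.lᗮ) : pt.Mb X z = ∑ i, pt.Mi X i (z i) := by
  rw [Mb, ContinuousLinearMap.sum_apply]
  rfl
theorem Mb_adj (X : EE pt.l) (ξ : pt.lᗮ) (i : Fin 9) : (pt.Mb X).adjoint ξ i = -pt.Mi X i ξ := by
  have h : (pt.Mb X).adjoint ξ = WithLp.toLp 2 fun i => -pt.Mi X i ξ := by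
    refine ext_inner_right ℝ fun z => ?_
    rw [ContinuousLinearMap.adjoint_inner_left, Mb_apply, inner_sum, PiLp.inner_apply]
    refine Finset.sum_congr rfl fun j _ => ?_
    rw [inner_neg_left, pt.skew_Mi X j, neg_neg]
  rw [h]
theorem symm_W {d : ℝ} (hd : 0 < d) {X : EE pt.l} (h : ∀ w, d * ‖w‖ ≤ ‖pt.Mv X w‖) :
    Symm (pt.W X) ∧ Symm (pt.WH X) := by
  have hp := (pt.Om_spec hd.le h).2.1
  have hi := (Pos.isUnit hd hp).2.2.1
  have h1 : Symm (pt.W X) := fun u w => by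
    rw [W, ContinuousLinearMap.sub_apply, ContinuousLinearMap.sub_apply, inner_sub_left,
      inner_sub_right, ContinuousLinearMap.comp_apply, ContinuousLinearMap.comp_apply,
      ContinuousLinearMap.comp_apply, ContinuousLinearMap.comp_apply,
      ContinuousLinearMap.adjoint_inner_left, ContinuousLinearMap.adjoint_inner_right, hi,
      PiLp.inner_apply, PiLp.inner_apply]
    exact congrArg (· - _) (Finset.sum_congr rfl fun i _ => hp.1 _ _)
  refine ⟨h1, fun u w => ?_⟩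
  rw [WH, ContinuousLinearMap.comp_apply, ContinuousLinearMap.comp_apply,
    ContinuousLinearMap.comp_apply, ContinuousLinearMap.comp_apply, inner_prj, h1,
    real_inner_comm _ u, inner_prj, real_inner_comm]
theorem W_gauge {d : ℝ} (hd : 0 < d) {X : EE pt.l} (h : ∀ w, d * ‖w‖ ≤ ‖pt.Mv X w‖) (ξ : pt.lᗮ)
    (i : Fin 9) : pt.W X ((pt.Mb X).adjoint ξ) i =
      -(pt.Om X * pt.Mi X i - pt.Mi X i * pt.Om X) ξ := by
  obtain ⟨-, hp, hsq⟩ := pt.Om_spec hd.le h
  have hu := (Pos.isUnit hd hp).1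
  have h1 : pt.Mb X ((pt.Mb X).adjoint ξ) = pt.Om X (pt.Om X ξ) := by
    rw [← ContinuousLinearMap.mul_apply, hsq, Mb_apply, ContinuousLinearMap.neg_apply,
      ContinuousLinearMap.sum_apply, ← Finset.sum_neg_distrib]
    exact Finset.sum_congr rfl fun j _ => by
      rw [Mb_adj, map_neg, ContinuousLinearMap.mul_apply]
  have h2 : Ring.inverse (pt.Om X) (pt.Om X (pt.Om X ξ)) = pt.Om X ξ := by
    rw [← ContinuousLinearMap.mul_apply, Ring.inverse_mul_cancel _ hu,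
      ContinuousLinearMap.one_apply]
  rw [W, ContinuousLinearMap.sub_apply, PiLp.sub_apply, lift_apply, ContinuousLinearMap.comp_apply,
    ContinuousLinearMap.comp_apply, h1, h2, Mb_adj, Mb_adj, map_neg,
    ContinuousLinearMap.sub_apply, ContinuousLinearMap.mul_apply, ContinuousLinearMap.mul_apply]
  abel
/-- the gauge vector field through a slice point -/
theorem gauge_sp {d : ℝ} (hd : 0 < d) {X : EE pt.l} (h : ∀ w, d * ‖w‖ ≤ ‖pt.Mv X w‖) (z : pt.HT)
    (w : pt.lᗮ) : lift (L.br (pt.Xi X w)) (pt.sp X z) = pt.im (tens pt.v w) +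
      pt.il (pt.Bl (pt.Xi X w) z) + pt.im (pt.inc (pt.T X w + pt.Bm (pt.Xi X w) z)) := by
  have h0 := (pt.Mv_unit hd h).2.2 w
  have h1 : contr pt.v ((pt.Mb X).adjoint (pt.Xi X w)) = w := by
    rw [Mv_eq, ContinuousLinearMap.sum_apply] at h0
    rw [contr_apply]
    refine Eq.trans ?_ (neg_neg w)
    rw [← h0, ← Finset.sum_neg_distrib]
    exact Finset.sum_congr rfl fun i _ => by
      rw [Mb_adj, smul_neg, ContinuousLinearMap.smul_apply]
  have h2 : pt.inc (pt.T X w) = (pt.Mb X).adjoint (pt.Xi X w) - tens pt.v w := by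
    rw [T, ContinuousLinearMap.comp_apply, ContinuousLinearMap.comp_apply, inc_prj, h1]
  have h3 : pt.inc (pt.Bm (pt.Xi X w) z) = lift (pt.adm (pt.Xi X w)) (pt.inc z) := by
    rw [Bm, ContinuousLinearMap.comp_apply, ContinuousLinearMap.comp_apply, inc_prj, contr_lift,
      contr_inc, map_zero, map_zero, sub_zero]
  rw [map_add pt.inc, h2, h3]
  refine PiLp.ext fun i => ?_
  have h4 : (((pt.Mb X).adjoint (pt.Xi X w) i : pt.lᗮ) : V) = L.br (pt.Xi X w) (X i) := by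
    rw [Mb_adj, Submodule.coe_neg, Mi, pt.adm_apply (X i).2, ← L.skew]
  have h5 := pt.split (L.br (pt.Xi X w) (pt.inc z i))
  have h6 : lift (L.br (pt.Xi X w)) (pt.sp X z) i =
      L.br (pt.Xi X w) (X i) + L.br (pt.Xi X w) (pt.inc z i) := map_add (L.br (pt.Xi X w)) _ _
  rw [h6, ← h4, ← h5, map_add, map_sub]
  change _ = pt.im (tens pt.v w) i + (pt.l.orthogonalProjectionOnto
    (L.br (pt.Xi X w) (pt.inc z i)) : V) + ((((pt.Mb X).adjoint (pt.Xi X w) i : pt.lᗮ) : V) -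
      pt.im (tens pt.v w) i + (pt.lᗮ.orthogonalProjectionOnto (L.br (pt.Xi X w) (pt.inc z i)) : V))
  abel
theorem s0_sp (e : R16) (X : EE pt.l) (z : pt.HT) : s0 G L e (pt.sp X z) =
    lift pt.l.subtypeL (s0 G (L.res pt.l (L.sub_cent pt.p)) e X) +
      lift pt.lᗮ.subtypeL (pt.tt G e X (pt.inc z)) + pt.sb G e (pt.inc z) (pt.inc z) := by
  have h1 : lift pt.l.subtypeL (s0 G (L.res pt.l (L.sub_cent pt.p)) e X) =
      (-1 / 2 : ℝ) • ∑ i, ∑ j, tens ((G.g2 i j).mulVec e) (L.br (X i) (X j)) := by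
    rw [s0, map_smul, map_sum]
    refine congrArg _ (Finset.sum_congr rfl fun i _ => ?_)
    rw [map_sum]
    exact Finset.sum_congr rfl fun j _ => amod0_lift _ _ _
  have h2 : lift pt.lᗮ.subtypeL (pt.tt G e X (pt.inc z)) =
      -∑ i, ∑ j, tens ((G.g2 i j).mulVec e) (L.br (X i) (pt.inc z j)) := by
    rw [tt, map_neg, map_sum]
    refine congrArg _ (Finset.sum_congr rfl fun i _ => ?_)
    rw [map_sum]
    refine Finset.sum_congr rfl fun j _ => ?_
    rw [amod0_lift]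
    exact congrArg _ (pt.adm_apply (X i).2 _)
  have h3 : ∑ i, ∑ j, tens ((G.g2 i j).mulVec e) (L.br (pt.inc z i) (X j)) =
      ∑ i, ∑ j, (tens ((G.g2 i j).mulVec e) (L.br (X i) (pt.inc z j)) : SS V) := by
    rw [Finset.sum_comm]
    refine Finset.sum_congr rfl fun i _ => Finset.sum_congr rfl fun j _ => ?_
    rw [G.g2_swap i j, L.skew, Matrix.neg_mulVec, amod0_neg]
  have h4 : ∀ i j, L.br (pt.sp X z i) (pt.sp X z j) = L.br (X i) (X j) + L.br (X i) (pt.inc z j) +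
      L.br (pt.inc z i) (X j) + L.br (pt.inc z i) (pt.inc z j) := fun i j => by
    change L.br ((X i : V) + (pt.inc z i : V)) ((X j : V) + (pt.inc z j : V)) = _
    simp only [map_add, ContinuousLinearMap.add_apply]
    abel
  rw [h1, h2, sb, s0]
  simp only [h4, map_add, Finset.sum_add_distrib, h3]
  module
theorem jac_nonneg (X : EE pt.l) : 0 ≤ pt.jac X := abs_nonneg _
theorem continuous_jac : Continuous pt.jac := by
  have h : Continuous fun X : EE pt.l => pt.adm (contr pt.v (lift pt.l.subtypeL X)) :=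
    continuous_const.clm_comp ((L.br.continuous.comp ((contr pt.v).continuous.comp
      (lift pt.l.subtypeL).continuous)).clm_comp continuous_const)
  exact (ContinuousLinearMap.continuous_det.comp h).abs
end Patch

end Vale.Agent.P353
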