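import Vale.Agent.P353.BDefs2
import Vale.Agent.P353.BObj
import Vale.Agent.P353.AForm1

open MeasureTheory NormedSpace
open Complex (I)
open scoped InnerProductSpace ContDiff

noncomputable section
namespace Vale.Agent.P353
variable {V F : Type} [NormedAddCommGroup V] [InnerProductSpace ℝ V] [FiniteDimensional ℝ V]
  [NormedAddCommGroup F] [InnerProductSpace ℂ F] [CompleteSpace F]
  [MeasurableSpace V] [BorelSpace V] (M : Mod V F) (G : Gam) (pt : Patch M.L)

/-! Fibre and slice integrals of continuous compactly supported functions. -/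

/-- continuous with compact support -/
def Cc {E : Type} [TopologicalSpace E] (u : E → ℝ) : Prop := Continuous u ∧ HasCompactSupport u

section
variable {E : Type} [TopologicalSpace E] {u u' : E → ℝ}
theorem Cc.add (h : Cc u) (h' : Cc u') : Cc fun s => u s + u' s := ⟨h.1.add h'.1, h.2.add h'.2⟩
theorem Cc.sub (h : Cc u) (h' : Cc u') : Cc fun s => u s - u' s := ⟨h.1.sub h'.1, h.2.sub h'.2⟩
theorem Cc.mul (h : Cc u) {w : E → ℝ} (hw : Continuous w) : Cc fun s => w s * u s :=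
  ⟨hw.mul h.1, h.2.mul_left⟩
end

omit [FiniteDimensional ℝ V] [CompleteSpace F] [MeasurableSpace V] [BorelSpace V] in
theorem bsi_cc {φ : EE V → F} (h : Tst φ) {u : EE V → ℝ} (hu : Continuous u)
    (h0 : ∀ x, x ∉ tsupport φ → u x = 0) : Cc u :=
  ⟨hu, HasCompactSupport.intro h.2 h0⟩

omit [FiniteDimensional ℝ V] [CompleteSpace F] [MeasurableSpace V] [BorelSpace V] in
theorem bsi_sum {φ : EE V → F} (h : Tst φ) {ι : Type} [Fintype ι] (v : ι → EE V) :
    Cc fun s => ∑ k, ‖fderiv ℝ φ s (v k)‖ ^ 2 :=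
  bsi_cc h (continuous_finset_sum _ fun k _ => (h.fderiv_apply _).continuous.norm.pow 2)
    fun x hx => by simp [fderiv_of_notMem_tsupport ℝ hx]

omit [FiniteDimensional ℝ V] [MeasurableSpace V] [BorelSpace V] in
theorem bsi_op {φ : EE V → F} (h : Tst φ) {B : EE V → F →L[ℂ] F} (hB : Continuous B) :
    Cc fun s => (⟪φ s, B s (φ s)⟫_ℂ).re :=
  bsi_cc h (Complex.continuous_re.comp (h.continuous.inner (hB.clm_apply h.continuous)))
    fun x hx => by rw [image_eq_zero_of_notMem_tsupport hx, inner_zero_left, Complex.zero_re]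

omit [FiniteDimensional ℝ V] [CompleteSpace F] [MeasurableSpace V] [BorelSpace V] in
theorem bsi_wt {φ : EE V → F} (h : Tst φ) {w : EE V → ℝ} (hw : ContinuousOn w (tsupport φ)) :
    Cc fun s => w s * ‖φ s‖ ^ 2 := by
  have h0 : ∀ x, x ∉ tsupport φ → w x * ‖φ x‖ ^ 2 = 0 := fun x hx => by
    rw [image_eq_zero_of_notMem_tsupport hx, norm_zero, zero_pow two_ne_zero, mul_zero]
  refine bsi_cc h ?_ h0
  have hc : ContinuousOn (fun s => w s * ‖φ s‖ ^ 2) (tsupport φ) :=
    hw.mul (h.continuous.norm.pow 2).continuousOn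
  have h1 : ContinuousOn (fun s => w s * ‖φ s‖ ^ 2) (closure (Function.support φ)ᶜ) := by
    refine (continuousOn_const (c := (0 : ℝ))).congr fun x hx => ?_
    have : (Function.support φ)ᶜ ⊆ {x | φ x = 0} := fun y hy => by simpa using hy
    have h2 : φ x = 0 :=
      closure_minimal this (isClosed_eq h.continuous continuous_const) hx
    simp [h2]
  rw [← continuousOn_univ]
  refine (hc.union_of_isClosed h1 (isClosed_tsupport φ) isClosed_closure).mono fun x _ => ?_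
  by_cases hx : x ∈ Function.support φ
  · exact Or.inl (subset_closure hx)
  · exact Or.inr (subset_closure hx)

omit [MeasurableSpace V] [BorelSpace V] in
theorem Tst.cc {φ : EE V → F} (h : Tst φ) : (Cc fun s => ‖φ s‖ ^ 2) ∧ Cc (g2 φ) ∧ Cc (pt.gl φ) ∧
    Cc (pt.gH φ) ∧ (∀ Y, Cc (pt.gT Y φ)) ∧ (∀ a lam, Cc (M.dens G a lam φ)) ∧
    (∀ N, Cc (M.bil N φ)) ∧ ∀ w : EE V → ℝ, ContinuousOn w (tsupport φ) →
      Cc fun s => w s * ‖φ s‖ ^ 2 := by
  have hn : Cc fun s => ‖φ s‖ ^ 2 := bsi_cc h (h.continuous.norm.pow 2) fun x hx => by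
    rw [image_eq_zero_of_notMem_tsupport hx, norm_zero, zero_pow two_ne_zero]
  have hg : Cc (g2 φ) := bsi_sum h _
  letI : MeasurableSpace V := borel V
  haveI : BorelSpace V := ⟨rfl⟩
  refine ⟨hn, hg, bsi_sum h _, bsi_sum h _, fun Y => bsi_sum h _, fun a lam => ?_,
    fun N => bsi_op h continuous_const, fun w hw => bsi_wt h hw⟩
  exact ((hg.mul (w := fun _ => 1 / 2) continuous_const).add
    (hn.mul (w := fun s => a * lam ^ 2 * M.L.pot s)
      (continuous_const.mul (contDiff_pot _).continuous))).add (bsi_op h (M.q0_cont G lam).2)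

omit [MeasurableSpace V] [BorelSpace V] in
theorem bsi_norm (X : EE pt.l) (z : pt.HT) : ‖X‖ ≤ ‖pt.sp X z‖ ∧ ‖z‖ ≤ ‖pt.sp X z‖ := by
  have h := pt.norm_sp X 0 z
  rw [map_zero, sub_zero, sub_zero] at h
  constructor
  · exact (sq_le_sq₀ (norm_nonneg _) (norm_nonneg _)).1 (by nlinarith [sq_nonneg ‖z‖])
  · exact (sq_le_sq₀ (norm_nonneg _) (norm_nonneg _)).1 (by nlinarith [sq_nonneg ‖X‖])

omit [MeasurableSpace V] [BorelSpace V] in
theorem bsi_pre {K : Set (EE V)} (hK : IsCompact K) :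
    IsCompact {y : EE pt.l × pt.HT | pt.sp y.1 y.2 ∈ K} := by
  obtain ⟨R, hR⟩ := hK.isBounded.exists_norm_le
  refine ((isCompact_closedBall (0 : EE pt.l) R).prod
    (isCompact_closedBall (0 : pt.HT) R)).of_isClosed_subset
    (hK.isClosed.preimage pt.continuous_sp) fun y hy => ?_
  have h1 := bsi_norm M pt y.1 y.2
  have h2 := hR _ hy
  exact ⟨mem_closedBall_zero_iff.2 (h1.1.trans h2), mem_closedBall_zero_iff.2 (h1.2.trans h2)⟩

omit [MeasurableSpace V] [BorelSpace V] in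
theorem bsi_cont (X : EE pt.l) : Continuous fun z : pt.HT => pt.sp X z :=
  continuous_const.add (pt.im.continuous.comp pt.inc.continuous)

omit [MeasurableSpace V] [BorelSpace V] in
theorem bsi_fib {K : Set (EE V)} (hK : IsCompact K) (X : EE pt.l) :
    IsCompact {z : pt.HT | pt.sp X z ∈ K} := by
  obtain ⟨R, hR⟩ := hK.isBounded.exists_norm_le
  refine (isCompact_closedBall (0 : pt.HT) R).of_isClosed_subset
    (hK.isClosed.preimage (bsi_cont M pt X)) fun z hz => ?_
  exact mem_closedBall_zero_iff.2 ((bsi_norm M pt X z).2.trans (hR _ hz))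

omit [MeasurableSpace V] [BorelSpace V] in
/-- restriction to a fibre -/
theorem Tst.fibre {φ : EE V → F} (h : Tst φ) (X : EE pt.l) : (Tst fun z : pt.HT => φ (pt.sp X z)) ∧
    (∀ z b, fderiv ℝ (fun z : pt.HT => φ (pt.sp X z)) z b =
      fderiv ℝ φ (pt.sp X z) (pt.im (pt.inc b))) ∧
    ∀ z ∈ tsupport fun z : pt.HT => φ (pt.sp X z), pt.sp X z ∈ tsupport φ := by
  have hd : ∀ z, HasFDerivAt (fun z : pt.HT => pt.sp X z) (pt.im ∘L pt.inc) z := fun z =>
    (pt.im ∘L pt.inc).hasFDerivAt.const_add (pt.il X)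
  have hs : ContDiff ℝ ∞ fun z : pt.HT => pt.sp X z :=
    contDiff_const.add (pt.im ∘L pt.inc).contDiff
  refine ⟨⟨h.1.comp hs, HasCompactSupport.intro (bsi_fib M pt h.2 X) fun z hz =>
    image_eq_zero_of_notMem_tsupport hz⟩, fun z b => ?_, fun z hz => ?_⟩
  · exact congrArg (fun T : pt.HT →L[ℝ] F => T b)
      ((h.differentiable _).hasFDerivAt.comp z (hd z)).fderiv
  · exact closure_minimal (t := {z : pt.HT | pt.sp X z ∈ tsupport φ})
      (fun y hy => subset_closure hy) ((isClosed_tsupport φ).preimage (bsi_cont M pt X)) hz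

omit [MeasurableSpace V] [BorelSpace V] in
/-- the projections of the support are compact -/
theorem sp_compact {K : Set (EE V)} (hK : IsCompact K) :
    IsCompact {X | ∃ z, pt.sp X z ∈ K} ∧ IsCompact {z | ∃ X, pt.sp X z ∈ K} := by
  have h := bsi_pre M pt hK
  constructor
  · have h1 := h.image continuous_fst
    have e : {X | ∃ z, pt.sp X z ∈ K} = Prod.fst '' {y : EE pt.l × pt.HT | pt.sp y.1 y.2 ∈ K} := by
      ext X
      exact ⟨fun ⟨z, hz⟩ => ⟨(X, z), hz, rfl⟩, fun ⟨y, hy, e⟩ => ⟨y.2, e ▸ hy⟩⟩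
    rwa [e]
  · have h1 := h.image continuous_snd
    have e : {z | ∃ X, pt.sp X z ∈ K} = Prod.snd '' {y : EE pt.l × pt.HT | pt.sp y.1 y.2 ∈ K} := by
      ext z
      exact ⟨fun ⟨X, hz⟩ => ⟨(X, z), hz, rfl⟩, fun ⟨y, hy, e⟩ => ⟨y.1, e ▸ hy⟩⟩
    rwa [e]

omit [MeasurableSpace V] [BorelSpace V] in
theorem Patch.reg'_mono {L : CL V} (pt : Patch L) {r r' κ κ' : ℝ} (h : r ≤ r') (h' : κ ≤ κ') :
    pt.reg' r κ ⊆ pt.reg' r' κ' := fun _ ⟨⟨h1, h2⟩, Y, hY, h3⟩ =>
  ⟨⟨h1, h2.trans_le h⟩, Y, hY, h3.trans_le h'⟩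

namespace Mod
variable {M pt} {u u' : EE V → ℝ}
omit [MeasurableSpace V] [BorelSpace V] in
theorem Adm.mono {r κ κ' : ℝ} {φ : EE V → F} (h : M.Adm pt r κ φ) (h' : κ ≤ κ') :
    M.Adm pt r κ' φ :=
  ⟨h.tst, h.inf, h.linv, fun X z hz => pt.reg'_mono le_rfl h' (h.supp X z hz)⟩
theorem Glob.mono {r κ κ' : ℝ} {φ : EE V → F} (h : M.Glob pt r κ φ) (h' : κ ≤ κ') :
    M.Glob pt r κ' φ :=
  ⟨h.tst, h.inv, h.supp.trans (CL.sat_mono (pt.reg'_mono le_rfl h'))⟩
theorem Glob.smul {r κ : ℝ} {φ : EE V → F} (h : M.Glob pt r κ φ) {a : EE V → ℝ}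
    (ha : ContDiff ℝ ∞ a) (hi : M.L.SInv a) : M.Glob pt r κ fun s => a s • φ s := by
  refine ⟨h.tst.smul ha, fun ξ x => ?_, (tsupport_smul_subset_right a φ).trans h.supp⟩
  simp only [hi ξ x, h.inv ξ x]
  exact ((M.rho ξ).map_smul_of_tower (a x) (φ x)).symm
theorem cc_fibre (h : Cc u) (X : EE pt.l) :
    (Cc fun z : pt.HT => u (pt.sp X z)) ∧ Integrable fun z : pt.HT => u (pt.sp X z) := by
  have h1 : Continuous fun z : pt.HT => u (pt.sp X z) := h.1.comp (bsi_cont M pt X)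
  have h2 : HasCompactSupport fun z : pt.HT => u (pt.sp X z) :=
    HasCompactSupport.intro (bsi_fib M pt h.2 X) fun z hz => image_eq_zero_of_notMem_tsupport hz
  exact ⟨⟨h1, h2⟩, h1.integrable_of_hasCompactSupport h2⟩
theorem cc_fi (h : Cc u) : Cc (M.fi pt u) ∧ (Integrable fun X => pt.jac X * M.fi pt u X) ∧
    ∀ w : EE pt.l → ℝ, Continuous w → Integrable fun X => pt.jac X * (w X * M.fi pt u X) := by
  obtain ⟨k1, k2⟩ := sp_compact M pt h.2
  have hc : Continuous (M.fi pt u) := by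
    rw [← continuousOn_univ]
    refine continuousOn_integral_of_compact_support (f := fun X z => u (pt.sp X z)) k2
      (h.1.comp pt.continuous_sp).continuousOn fun X z _ hz => ?_
    exact image_eq_zero_of_notMem_tsupport fun hm => hz ⟨X, hm⟩
  have hs : HasCompactSupport (M.fi pt u) := HasCompactSupport.intro k1 fun X hX => by
    have : ∀ z, u (pt.sp X z) = 0 := fun z =>
      image_eq_zero_of_notMem_tsupport fun hm => hX ⟨z, hm⟩
    simp only [Mod.fi, this, integral_zero]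
  have hcc : Cc (M.fi pt u) := ⟨hc, hs⟩
  refine ⟨hcc, ?_, fun w hw => ?_⟩
  · have := hcc.mul pt.continuous_jac
    exact this.1.integrable_of_hasCompactSupport this.2
  · have := (hcc.mul hw).mul pt.continuous_jac
    exact this.1.integrable_of_hasCompactSupport this.2
theorem fi_add (h : Cc u) (h' : Cc u') (X : EE pt.l) :
    M.fi pt (fun s => u s + u' s) X = M.fi pt u X + M.fi pt u' X :=
  integral_add (cc_fibre h X).2 (cc_fibre h' X).2
theorem fi_smul (c : ℝ) (X : EE pt.l) : M.fi pt (fun s => c * u s) X = c * M.fi pt u X :=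
  integral_const_mul _ _
theorem fi_mono (h : Cc u) (h' : Cc u') (X : EE pt.l) (hle : ∀ z, u (pt.sp X z) ≤ u' (pt.sp X z)) :
    M.fi pt u X ≤ M.fi pt u' X :=
  integral_mono (cc_fibre h X).2 (cc_fibre h' X).2 hle
theorem fi_nonneg (X : EE pt.l) (h : ∀ s, 0 ≤ u s) : 0 ≤ M.fi pt u X :=
  integral_nonneg fun _ => h _
theorem SI_add (h : Cc u) (h' : Cc u') :
    M.SI pt (fun s => u s + u' s) = M.SI pt u + M.SI pt u' := by
  simp only [Mod.SI, fi_add h h', mul_add]
  exact integral_add (cc_fi h).2.1 (cc_fi h').2.1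
theorem SI_smul (c : ℝ) : M.SI pt (fun s => c * u s) = c * M.SI pt u := by
  simp only [Mod.SI, fi_smul, mul_left_comm _ c]
  exact integral_const_mul _ _
theorem SI_mono (h : Cc u) (h' : Cc u') (hle : ∀ X z, u (pt.sp X z) ≤ u' (pt.sp X z)) :
    M.SI pt u ≤ M.SI pt u' :=
  integral_mono (cc_fi h).2.1 (cc_fi h').2.1 fun X =>
    mul_le_mul_of_nonneg_left (fi_mono h h' X (hle X)) (pt.jac_nonneg X)
theorem SI_congr (h : ∀ X z, u (pt.sp X z) = u' (pt.sp X z)) : M.SI pt u = M.SI pt u' := by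
  simp only [Mod.SI, Mod.fi, h]
theorem nonneg3 (φ : EE V → F) : 0 ≤ M.N2 pt φ ∧ 0 ≤ M.GR pt φ ∧ 0 ≤ M.PL pt φ :=
  ⟨integral_nonneg fun X => mul_nonneg (pt.jac_nonneg X) (fi_nonneg X fun _ => sq_nonneg _),
    integral_nonneg fun X => mul_nonneg (pt.jac_nonneg X)
      (fi_nonneg X fun _ => Finset.sum_nonneg fun _ _ => sq_nonneg _),
    integral_nonneg fun X => mul_nonneg (pt.jac_nonneg X)
      (mul_nonneg (pot_nonneg _ _) (fi_nonneg X fun _ => sq_nonneg _))⟩
end Mod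

end Vale.Agent.P353
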