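import Vale.Agent.P353.BFib
import Vale.Agent.P353.BSmooth

open MeasureTheory NormedSpace
open Complex (I)
open scoped InnerProductSpace ContDiff

noncomputable section
namespace Vale.Agent.P353
variable {P E E' F : Type} [NormedAddCommGroup P] [NormedSpace ℝ P]
  [NormedAddCommGroup E'] [NormedSpace ℝ E']
  [NormedAddCommGroup E] [InnerProductSpace ℝ E]
  [NormedAddCommGroup F] [InnerProductSpace ℂ F]

theorem btd_pos {W : E →L[ℝ] E} {c lam : ℝ} (hl : 0 < lam) (h : Pos c W) :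
    Pos (lam * c) (lam • W) := by
  refine ⟨fun u v => ?_, fun u => ?_⟩
  · rw [smul_apply, smul_apply, real_inner_smul_left, real_inner_smul_right, h.1]
  · rw [smul_apply, real_inner_smul_right, mul_assoc]
    exact mul_le_mul_of_nonneg_left (h.2 u) hl.le

theorem btd_glue {f : P → E'} {U K : Set P} (hU : IsOpen U) (hK : IsClosed K) (hKU : K ⊆ U)
    (hf : ContDiffOn ℝ ∞ f U) (h0 : ∀ x, x ∉ K → f x = 0) : ContDiff ℝ ∞ f := by
  refine contDiff_iff_contDiffAt.2 fun x => ?_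
  by_cases hx : x ∈ K
  · exact hf.contDiffAt (hU.mem_nhds (hKU hx))
  · exact (contDiffAt_const (c := (0 : E'))).congr_of_eventuallyEq
      (Filter.eventually_of_mem (hK.isOpen_compl.mem_nhds hx) h0)

omit [NormedSpace ℝ E'] in
theorem btd_add (x y : E') {t : ℝ} (ht : 0 < t) :
    ‖x + y‖ ^ 2 ≤ (1 + t) * ‖x‖ ^ 2 + (1 + t⁻¹) * ‖y‖ ^ 2 := by
  refine (pow_le_pow_left₀ (norm_nonneg _) (norm_add_le x y) 2).trans ?_
  have h1 : 0 ≤ t⁻¹ * (t * ‖x‖ - ‖y‖) ^ 2 := by positivity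
  have h2 : t⁻¹ * (t * ‖x‖ - ‖y‖) ^ 2 = t * ‖x‖ ^ 2 - 2 * (‖x‖ * ‖y‖) + t⁻¹ * ‖y‖ ^ 2 := by
    field_simp
    ring
  linarith

theorem btd_prod {n : P → ℝ} {A : P → F →L[ℂ] F} {u : P → F} (B : F →L[ℂ] F) {x : P}
    (hn : DifferentiableAt ℝ n x) (hA : DifferentiableAt ℝ A x) (hu : DifferentiableAt ℝ u x)
    (a : P) {c : ℝ} (hc : fderiv ℝ n x a = n x * c) :
    fderiv ℝ (fun y => n y • B (A y (u y))) x a =
      n x • B ((c • A x + fderiv ℝ A x a) (u x) + A x (fderiv ℝ u x a)) := by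
  have h1 := (((ContinuousLinearMap.restrictScalarsL ℂ F F ℝ ℝ).hasFDerivAt.comp x
    hA.hasFDerivAt).clm_apply hu.hasFDerivAt)
  have h2 := hn.hasFDerivAt.fun_smul ((B.restrictScalars ℝ).hasFDerivAt.comp x h1)
  refine (congrArg (fun T : P →L[ℝ] F => T a) h2.fderiv).trans ?_
  change n x • B (A x (fderiv ℝ u x a) + fderiv ℝ A x a (u x)) +
    fderiv ℝ n x a • B (A x (u x)) = _
  rw [hc, add_apply, smul_apply, map_add, map_add, map_add, B.map_smul_of_tower]
  module

theorem btd_smooth {n : P → ℝ} {A : P → F →L[ℂ] F} {u : P → F} (B : F →L[ℂ] F) {s : Set P}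
    (hn : ContDiffOn ℝ ∞ n s) (hA : ContDiffOn ℝ ∞ A s) (hu : ContDiffOn ℝ ∞ u s) :
    ContDiffOn ℝ ∞ (fun y => n y • B (A y (u y))) s :=
  hn.smul ((B.restrictScalars ℝ).contDiff.comp_contDiffOn
    (((ContinuousLinearMap.restrictScalarsL ℂ F F ℝ ℝ).contDiff.comp_contDiffOn hA).clm_apply hu))

variable [FiniteDimensional ℝ E] [MeasurableSpace E] [BorelSpace E]

theorem btd_nn {s : Set P} (hs : IsOpen s) {j k : P → ℝ} {W : P → E →L[ℝ] E} {c lam : ℝ}
    (hc : 0 < c) (hl : 0 < lam) (hj : ContDiffOn ℝ ∞ j s) (hk : ContDiffOn ℝ ∞ k s)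
    (hW : ContDiffOn ℝ ∞ W s) (j0 : ∀ x ∈ s, 0 < j x) (k0 : ∀ x ∈ s, 0 < k x)
    (W0 : ∀ x ∈ s, Pos c (W x)) :
    ContDiffOn ℝ ∞ (fun x => √(j x / (k x * ∫ z, gau (lam • W x) z ^ 2))) s ∧ ∀ x ∈ s, ∀ a,
      fderiv ℝ (fun x => √(j x / (k x * ∫ z, gau (lam • W x) z ^ 2))) x a =
        √(j x / (k x * ∫ z, gau (lam • W x) z ^ 2)) * ((1 / 2) * fderiv ℝ j x a / j x -
          (1 / 2) * fderiv ℝ k x a / k x + (1 / 4) * tr (fderiv ℝ W x a * Ring.inverse (W x))) := by
  obtain ⟨D, hD⟩ : ∃ D : (E →L[ℝ] E) → ℝ, D = fun B => LinearMap.det B.toLinearMap := ⟨_, rfl⟩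
  have D0 : ∀ x ∈ s, 0 < D (W x) := fun x hx => hD ▸ det_pos_of_pos hc (W0 x hx)
  have D1 : ContDiff ℝ ∞ D := hD ▸ (hasFDerivAt_det isUnit_one).1
  obtain ⟨C, hC⟩ : ∃ C, C = Real.log (lam ^ Module.finrank ℝ E) -
    Real.log (Real.pi ^ Module.finrank ℝ E) := ⟨_, rfl⟩
  have e : ∀ x ∈ s, √(j x / (k x * ∫ z, gau (lam • W x) z ^ 2)) =
      Real.exp ((1 / 2) * Real.log (j x) - (1 / 2) * Real.log (k x) +
        (1 / 4) * Real.log (D (W x)) + (1 / 4) * C) := fun x hx => by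
    have h1 := j0 x hx
    have h2 := k0 x hx
    have h3 := D0 x hx
    have h4 := Real.pi_pos
    have h5 : LinearMap.det (lam • W x).toLinearMap = lam ^ Module.finrank ℝ E * D (W x) := by
      rw [hD]
      exact LinearMap.det_smul lam (W x).toLinearMap
    rw [(gau_sq_integral (mul_pos hl hc) (btd_pos hl (W0 x hx))).2, h5,
      ← Real.exp_log (x := √(j x / _)) (by positivity), Real.log_sqrt (by positivity),
      Real.log_div h1.ne' (by positivity), Real.log_mul h2.ne' (by positivity),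
      Real.log_sqrt (by positivity), Real.log_div (by positivity) (by positivity),
      Real.log_mul (by positivity) h3.ne', hC]
    congr 1
    ring
  refine ⟨ContDiffOn.congr (ContDiffOn.exp ?_) e, fun x hx a => ?_⟩
  · exact (((contDiffOn_const.mul (hj.log fun x hx => (j0 x hx).ne')).sub
      (contDiffOn_const.mul (hk.log fun x hx => (k0 x hx).ne'))).add (contDiffOn_const.mul
      ((D1.comp_contDiffOn hW).log fun x hx => (D0 x hx).ne'))).add contDiffOn_const
  have hn := hs.mem_nhds hx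
  have d1 := ((hj.contDiffAt hn).differentiableAt (by simp)).hasFDerivAt.log (j0 x hx).ne'
  have d2 := ((hk.contDiffAt hn).differentiableAt (by simp)).hasFDerivAt.log (k0 x hx).ne'
  have d3 := HasFDerivAt.log (f := fun y => D (W y)) ((D1.differentiable (by simp)
    (W x)).hasFDerivAt.comp x ((hW.contDiffAt hn).differentiableAt (by simp)).hasFDerivAt)
    (D0 x hx).ne'
  have d4 := ((((d1.const_mul (1 / 2)).fun_sub (d2.const_mul (1 / 2))).fun_add
    (d3.const_mul (1 / 4))).add_const ((1 / 4) * C)).exp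
  have d5 : fderiv ℝ D (W x) (fderiv ℝ W x a) =
      D (W x) * tr (fderiv ℝ W x a * Ring.inverse (W x)) := by
    rw [hD, tr_mul_comm]
    exact (hasFDerivAt_det ((W0 x hx).isUnit hc).1).2 _
  rw [(d4.congr_of_eventuallyEq (Filter.eventually_of_mem hn e)).fderiv, e x hx]
  simp only [smul_apply, add_apply, sub_apply, ContinuousLinearMap.comp_apply, smul_eq_mul, d5]
  rw [inv_mul_cancel_left₀ (D0 x hx).ne']
  ring

theorem btd_param [FiniteDimensional ℝ P] [CompleteSpace F] {s : Set P} (hs : IsOpen s) {k : Set E}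
    (hk : IsCompact k) {W : P → E →L[ℝ] E} (hW : ContDiffOn ℝ ∞ W s) (lam : ℝ)
    (A : P →L[ℝ] E') (B : E →L[ℝ] E') {φ : E' → F} (hφ : ContDiff ℝ ∞ φ)
    (h0 : ∀ p z, z ∉ k → A p + B z ∉ tsupport φ) :
    ContDiffOn ℝ ∞ (fun p => ∫ z, gau (lam • W p) z • φ (A p + B z)) s ∧ ∀ p ∈ s, ∀ a,
      fderiv ℝ (fun p => ∫ z, gau (lam • W p) z • φ (A p + B z)) p a =
        (∫ z, gau (lam • W p) z • (-(lam / 2) * ⟪z, fderiv ℝ W p a z⟫_ℝ) • φ (A p + B z)) +
        ∫ z, gau (lam • W p) z • fderiv ℝ φ (A p + B z) (A a) := by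
  have hg : ContDiffOn ℝ ∞ (fun y : P × E => gau (lam • W y.1) y.2 • φ (A y.1 + B y.2))
      (s ×ˢ Set.univ) := by
    have h1 : ContDiffOn ℝ ∞ (fun y : P × E => gau (lam • W y.1) y.2) (s ×ˢ Set.univ) :=
      ContDiffOn.exp (ContDiffOn.div_const (ContDiffOn.neg
        (contDiffOn_snd.inner ℝ (ContDiffOn.clm_apply (ContDiffOn.const_smul _
          (hW.comp contDiffOn_fst fun y hy => hy.1)) contDiffOn_snd))) _)
    exact h1.smul
      (hφ.comp ((A.contDiff.comp contDiff_fst).add (B.contDiff.comp contDiff_snd))).contDiffOn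
  obtain ⟨h1, h2⟩ := param_integral hs hk hg fun p _ z hz => by
    rw [image_eq_zero_of_notMem_tsupport (h0 p z hz), smul_zero]
  refine ⟨h1, fun p hp a => (h2 p hp a).trans ?_⟩
  have c1 := hφ.continuous
  have c2 := hφ.continuous_fderiv (by simp)
  have c3 := aosc_cont (lam • W p)
  rw [← integral_add (Continuous.integrable_of_hasCompactSupport (by fun_prop)
      (HasCompactSupport.intro hk fun z hz => by
        rw [image_eq_zero_of_notMem_tsupport (h0 p z hz), smul_zero, smul_zero]))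
    (Continuous.integrable_of_hasCompactSupport (by fun_prop)
      (HasCompactSupport.intro hk fun z hz => by
        rw [fderiv_of_notMem_tsupport ℝ (h0 p z hz), zero_apply, smul_zero]))]
  refine integral_congr_ae (Filter.Eventually.of_forall fun z => ?_)
  have d0 := HasFDerivAt.comp (f := fun q => (q, z)) p ((hg.contDiffAt
    ((hs.prod isOpen_univ).mem_nhds (show (p, z) ∈ s ×ˢ Set.univ from
      ⟨hp, trivial⟩))).differentiableAt (by simp)).hasFDerivAt (hasFDerivAt_prodMk_left p z)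
  have d1 := ((hW.contDiffAt (hs.mem_nhds hp)).differentiableAt (by simp)).hasFDerivAt
  have d2 := ((((innerSL ℝ z).hasFDerivAt.comp p ((d1.const_smul lam).clm_apply
    (hasFDerivAt_const z p))).fun_neg).mul_const (1 / 2 : ℝ)).exp
  have d3 := (hφ.differentiable (by simp) (A p + B z)).hasFDerivAt.comp p
    (A.hasFDerivAt.add_const (B z))
  have d4 := d2.fun_smul d3
  have e : ∀ q, gau (lam • W q) z = Real.exp (-⟪z, (lam • W q) z⟫_ℝ * (1 / 2)) := fun q => by
    rw [gau, mul_one_div]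
  have d5 := congrArg (fun T : P →L[ℝ] F => T a) (d0.unique (d4.congr_of_eventuallyEq
    (Filter.Eventually.of_forall fun q => congrArg (· • φ (A q + B z)) (e q))))
  refine Eq.trans d5 ?_
  simp only [e]
  simp [real_inner_smul_right, smul_smul]
  rw [add_comm]
  congr 2
  ring_nf

end Vale.Agent.P353
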