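import Vale.Agent.P353.BSI
import Vale.Agent.P353.BFib
import Vale.Agent.P353.BKap
import Vale.Agent.P353.BTdx1

open MeasureTheory NormedSpace
open Complex (I)
open scoped InnerProductSpace ContDiff

noncomputable section
namespace Vale.Agent.P353
variable {V F : Type} [NormedAddCommGroup V] [InnerProductSpace ℝ V] [FiniteDimensional ℝ V]
  [NormedAddCommGroup F] [InnerProductSpace ℂ F] [CompleteSpace F] [FiniteDimensional ℂ F]
  [MeasurableSpace V] [BorelSpace V] {M : Mod V F} {G : Gam} {pt : Patch M.L}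

theorem btd_uu {lam : ℝ} {ψ : EE V → F} {X : EE pt.l} (h : ∀ z, ψ (pt.sp X z) = 0) :
    M.uu pt lam ψ X = 0 := by
  simp only [Mod.uu, h, smul_zero, integral_zero]

theorem Mod.GB.btd_ball {r d r' κ : ℝ} (hg : M.GB G pt r d) (hr : r' ≤ r / 2) {φ : EE V → F}
    (h : pt.Sup r' κ φ) {X : EE pt.l} {z : pt.HT} (hz : pt.sp X z ∈ tsupport φ) :
    X ∈ Metric.ball pt.p0 r :=
  mem_ball_iff_norm.2 ((pt.reg_cen (h.supp X z hz)).1.trans_le (hr.trans (half_le_self hg.1.le)))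

theorem Mod.GB.btd_out {r d r' κ : ℝ} (hg : M.GB G pt r d) (hr : r' ≤ r / 2) {φ : EE V → F}
    (h : pt.Sup r' κ φ) {X : EE pt.l} (hX : X ∉ Metric.ball pt.p0 r) (z : pt.HT) :
    φ (pt.sp X z) = 0 := image_eq_zero_of_notMem_tsupport fun hz => hX (hg.btd_ball hr h hz)

/-! The projection `Td` onto the heavy vacuum. -/
namespace Mod
variable {r d : ℝ} (hg : M.GB G pt r d) {lam : ℝ} (hl : 0 < lam)
include hg hl

theorem GB.ZZ_pos {X : EE pt.l} (hX : X ∈ Metric.ball pt.p0 r) : 0 < M.ZZ pt lam X := by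
  have h1 := btd_pos hl (hg.2.2 X hX).wh
  have h2 := det_pos_of_pos (mul_pos hl hg.2.1) h1
  have h3 := Real.pi_pos
  rw [ZZ, (gau_sq_integral (mul_pos hl hg.2.1) h1).2]
  positivity
theorem GB.nn_sq {X : EE pt.l} (hX : X ∈ Metric.ball pt.p0 r) :
    M.nn G pt lam X ^ 2 = pt.jac X / (M.kap G pt X * M.ZZ pt lam X) ∧
      M.nn G pt lam X ^ 2 * M.ZZ pt lam X ≤ 2 * pt.jac X := by
  have h1 := hg.ZZ_pos hl hX
  have h2 := (hg.2.2 X hX).kp
  have h3 := pt.jac_nonneg X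
  have h4 : 0 < M.kap G pt X := by linarith
  have h5 : M.nn G pt lam X ^ 2 = pt.jac X / (M.kap G pt X * M.ZZ pt lam X) :=
    Real.sq_sqrt (by positivity)
  refine ⟨h5, ?_⟩
  rw [h5, ← div_div, div_mul_cancel₀ _ h1.ne', div_le_iff₀ h4]
  linarith [mul_le_mul_of_nonneg_left h2 h3]
theorem GB.btd_sq {X : EE pt.l} (hX : X ∈ Metric.ball pt.p0 r) (ψ : EE V → F) :
    ‖M.Td G pt lam ψ X‖ ^ 2 =
      pt.jac X * (‖M.Pi G pt X (M.uu pt lam ψ X)‖ ^ 2 / M.ZZ pt lam X) := by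
  have h1 := hg.ZZ_pos hl hX
  have h2 := one_half_pos.trans_le (hg.2.2 X hX).kp
  rw [Td, norm_smul, mul_pow, Real.norm_eq_abs, sq_abs, hg.norm_Pi0_Pi hX, (hg.nn_sq hl hX).1]
  field_simp
/-- `gau_sq_integral` and the Jacobi formula -/
theorem GB.nn_smooth : ContDiffOn ℝ ∞ (M.nn G pt lam) (Metric.ball pt.p0 r) ∧
    ∀ X ∈ Metric.ball pt.p0 r, ∀ a,
      fderiv ℝ (M.nn G pt lam) X a = M.nn G pt lam X * M.nu G pt X a := by
  obtain ⟨-, -, -, -, h1, -, -, -, -, h2, h3, -⟩ := hg.smooth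
  exact btd_nn Metric.isOpen_ball hg.2.1 hl h3 h2 h1 (fun X hX => hg.jac_pos hX)
    (fun X hX => one_half_pos.trans_le (hg.2.2 X hX).kp) fun X hX => (hg.2.2 X hX).wh

variable {r' κ : ℝ} (hr : r' ≤ r / 2) {φ : EE V → F} (h : pt.Sup r' κ φ)
include hr h
theorem GB.uu_smooth : ContDiffOn ℝ ∞ (M.uu pt lam φ) (Metric.ball pt.p0 r) ∧
    ∀ X ∈ Metric.ball pt.p0 r, ∀ a, fderiv ℝ (M.uu pt lam φ) X a =
      (∫ z, gau (lam • pt.WH X) z • (-(lam / 2) * ⟪z, fderiv ℝ pt.WH X a z⟫_ℝ) • φ (pt.sp X z)) +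
      ∫ z, gau (lam • pt.WH X) z • fderiv ℝ φ (pt.sp X z) (pt.il a) :=
  have _ := hl
  have _ := hr
  btd_param Metric.isOpen_ball (sp_compact M pt h.tst.2).2 hg.smooth.2.2.2.2.1 lam pt.il
    (pt.im ∘L pt.inc) h.tst.1 fun X _ hz hx => hz ⟨X, hx⟩
theorem GB.tst_Td : Tst (M.Td G pt lam φ) ∧ ∀ X ∈ tsupport (M.Td G pt lam φ),
    pt.il X ∈ pt.reg' r' κ ∧ ∃ z, pt.sp X z ∈ tsupport φ := by
  have hK := (sp_compact M pt h.tst.2).1
  have h0 : ∀ X, X ∉ {X | ∃ z, pt.sp X z ∈ tsupport φ} → M.Td G pt lam φ X = 0 := fun X hX => by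
    rw [Td, btd_uu fun z => image_eq_zero_of_notMem_tsupport fun hz => hX ⟨z, hz⟩, map_zero,
      map_zero, smul_zero]
  refine ⟨⟨btd_glue Metric.isOpen_ball hK.isClosed (fun X ⟨z, hz⟩ => hg.btd_ball hr h hz)
    (btd_smooth _ (hg.nn_smooth hl).1 hg.smooth.2.2.2.2.2.2.2.2.1 (hg.uu_smooth hl hr h).1) h0,
    HasCompactSupport.intro hK h0⟩, fun X hX => ?_⟩
  obtain ⟨z, hz⟩ := closure_minimal (fun X hX => not_not.1 (mt (h0 X) hX)) hK.isClosed hX
  exact ⟨(pt.reg_cen (h.supp X z hz)).2.2.2.1, z, hz⟩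
theorem GB.fderiv_Td {X : EE pt.l} (hX : X ∈ Metric.ball pt.p0 r) (a : EE pt.l) :
    fderiv ℝ (M.Td G pt lam φ) X a = M.nn G pt lam X • M.Pi0 G pt
      ((M.nu G pt X a • M.Pi G pt X + fderiv ℝ (M.Pi G pt) X a) (M.uu pt lam φ X) +
        M.Pi G pt X (fderiv ℝ (M.uu pt lam φ) X a)) := by
  have hn := Metric.isOpen_ball.mem_nhds hX
  exact btd_prod _ (((hg.nn_smooth hl).1.contDiffAt hn).differentiableAt (by simp))
    ((hg.smooth.2.2.2.2.2.2.2.2.1.contDiffAt hn).differentiableAt (by simp))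
    (((hg.uu_smooth hl hr h).1.contDiffAt hn).differentiableAt (by simp)) a
    ((hg.nn_smooth hl).2 X hX a)
theorem GB.norm_Td (X : EE pt.l) :
    ‖M.Td G pt lam φ X‖ ^ 2 = pt.jac X * (‖M.Pi G pt X (M.uu pt lam φ X)‖ ^ 2 / M.ZZ pt lam X) ∧
    ‖M.Td G pt lam φ X‖ ^ 2 + pt.jac X * M.ex2 G pt lam φ X =
      pt.jac X * M.fi pt (fun s => ‖φ s‖ ^ 2) X ∧ 0 ≤ M.ex2 G pt lam φ X := by
  have key : ‖M.Td G pt lam φ X‖ ^ 2 =
      pt.jac X * (‖M.Pi G pt X (M.uu pt lam φ X)‖ ^ 2 / M.ZZ pt lam X) ∧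
      0 ≤ M.ex2 G pt lam φ X := by
    by_cases hX : X ∈ Metric.ball pt.p0 r
    · exact ⟨hg.btd_sq hl hX φ, (fib_comb (mul_pos hl hg.2.1) (btd_pos hl (hg.2.2 X hX).wh)
        (hg.Pi_spec hX).2.1 (hg.Pi_spec hX).2.2.1 (Tst.fibre M pt h.tst X).1).2.1⟩
    · rw [Td, ex2, btd_uu (hg.btd_out hr h hX)]
      simpa using fi_nonneg X fun s => sq_nonneg ‖φ s‖
  refine ⟨key.1, ?_, key.2⟩
  rw [key.1, ex2]
  ring
theorem GB.int_ex2 : Cc (fun X => pt.jac X * M.ex2 G pt lam φ X) ∧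
    Integrable fun X => pt.jac X * M.ex2 G pt lam φ X := by
  have h1 := (hg.tst_Td hl hr h).1
  have h2 : Cc fun X => ‖M.Td G pt lam φ X‖ ^ 2 := ⟨h1.continuous.norm.pow 2,
    h1.2.comp_left (g := fun v => ‖v‖ ^ 2) (by simp)⟩
  have h3 := ((cc_fi (M := M) (Tst.cc M G pt h.tst).1).1.mul pt.continuous_jac).sub h2
  have e : (fun X => pt.jac X * M.ex2 G pt lam φ X) = fun X =>
      pt.jac X * M.fi pt (fun s => ‖φ s‖ ^ 2) X - ‖M.Td G pt lam φ X‖ ^ 2 :=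
    funext fun X => eq_sub_of_add_eq' (hg.norm_Td hl hr h X).2.1
  rw [e]
  exact ⟨h3, h3.1.integrable_of_hasCompactSupport h3.2⟩
theorem GB.n2_Td : n2 (M.Td G pt lam φ) + M.m2 G pt lam φ = M.N2 pt φ ∧
    0 ≤ M.m2 G pt lam φ := by
  have h1 := (hg.tst_Td hl hr h).1.memLp
  refine ⟨?_, integral_nonneg fun X => mul_nonneg (pt.jac_nonneg X) (hg.norm_Td hl hr h X).2.2⟩
  rw [n2, m2, ← integral_add ((memLp_two_iff_integrable_sq_norm h1.1).1 h1)
    (hg.int_ex2 hl hr h).2]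
  exact integral_congr_ae (Filter.Eventually.of_forall fun X => (hg.norm_Td hl hr h X).2.1)
end Mod

namespace Mod
variable {r d : ℝ} (hg : M.GB G pt r d)
include hg
theorem GB.btd_lin : ∃ C > 0, ∀ lam > 0, ∀ r' ≤ r / 2, ∀ (κ A : ℝ) (φ ψ : EE V → F),
    pt.Sup r' κ φ → ∀ X, (∀ z, ‖ψ (pt.sp X z)‖ ≤ A * ‖z‖ * ‖φ (pt.sp X z)‖) →
      ‖M.Td G pt lam ψ X‖ ^ 2 ≤
        C * A ^ 2 / lam * (pt.jac X * M.fi pt (fun s => ‖φ s‖ ^ 2) X) := by
  obtain ⟨K, hK, hlin⟩ := fib_lin (E := pt.HT) (F := F)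
  have hd := hg.2.1
  refine ⟨K / d, by positivity, fun lam hl r' hr κ A φ ψ h X hψ => ?_⟩
  have h0 := pt.jac_nonneg X
  have h1 := fi_nonneg (M := M) X fun s => sq_nonneg ‖φ s‖
  by_cases hX : X ∈ Metric.ball pt.p0 r
  · have h2 := (Tst.fibre M pt h.tst X).1
    have h3 := hlin _ _ (mul_pos hl hd) (btd_pos hl (hg.2.2 X hX).wh) (fun z => ψ (pt.sp X z))
      (fun z => ‖φ (pt.sp X z)‖) A h2.continuous.norm h2.2.norm hψ
    have h4 := (M.Pi G pt X).le_of_opNorm_le (hg.Pi_spec hX).2.2.2 (M.uu pt lam ψ X)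
    rw [one_mul] at h4
    have h5 : ‖M.Pi G pt X (M.uu pt lam ψ X)‖ ^ 2 / M.ZZ pt lam X ≤
        K * A ^ 2 / (lam * d) * M.fi pt (fun s => ‖φ s‖ ^ 2) X := by
      rw [div_le_iff₀ (hg.ZZ_pos hl hX), mul_right_comm]
      exact (pow_le_pow_left₀ (norm_nonneg _) h4 2).trans h3
    rw [hg.btd_sq hl hX]
    refine (mul_le_mul_of_nonneg_left h5 h0).trans_eq ?_
    ring
  · rw [Td, btd_uu fun z => norm_le_zero_iff.1 ((hψ z).trans_eq (by
      rw [hg.btd_out hr h hX, norm_zero, mul_zero])), map_zero, map_zero, smul_zero, norm_zero,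
      zero_pow two_ne_zero]
    positivity
/-- a remainder that vanishes linearly on the light slice is small -/
theorem GB.Td_lin : ∃ C > 0, ∀ lam > 0, ∀ r' ≤ r / 2, ∀ (κ A : ℝ) (φ ψ : EE V → F),
    pt.Sup r' κ φ → (∀ X z, ‖ψ (pt.sp X z)‖ ≤ A * ‖z‖ * ‖φ (pt.sp X z)‖) → ∀ X,
      ‖M.Td G pt lam ψ X‖ ^ 2 ≤ C * A ^ 2 / lam * (pt.jac X * M.fi pt (fun s => ‖φ s‖ ^ 2) X) := by
  obtain ⟨C, hC, h⟩ := hg.btd_lin
  exact ⟨C, hC, fun lam hl r' hr κ A φ ψ h1 h2 X => h lam hl r' hr κ A φ ψ h1 X (h2 X)⟩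
/-- multiplication by a smooth function almost commutes with `Td` -/
theorem GB.Td_smul {a : EE V → ℝ} (ha : ContDiff ℝ ∞ a) : ∃ C > 0, ∀ lam > 0, ∀ r' ≤ r / 2,
    ∀ (κ : ℝ) (φ : EE V → F), pt.Sup r' κ φ → ∀ t > 0,
      n2 (M.Td G pt lam fun s => a s • φ s) ≤
        (1 + t) * wt (fun X => a (pt.il X) ^ 2) (M.Td G pt lam φ) +
          (1 + t⁻¹) * (C / lam) * M.N2 pt φ := by
  obtain ⟨C, hC, hlin⟩ := hg.btd_lin
  obtain ⟨K, hK⟩ := ha.contDiffOn.exists_lipschitzOnWith (by simp) (convex_closedBall pt.p r)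
    (isCompact_closedBall _ _)
  refine ⟨C * (K + 1) ^ 2, by positivity, fun lam hl r' hr κ φ h t ht => ?_⟩
  have i1 := (hg.tst_Td hl hr h).1.int_wt (w := fun X => a (pt.il X) ^ 2)
    ((ha.continuous.comp pt.il.continuous).pow 2).continuousOn
  have i2 := (cc_fi (M := M) (pt := pt) (Tst.cc M G pt h.tst).1).2.1
  rw [n2, wt, N2, SI, ← integral_const_mul, ← integral_const_mul,
    ← integral_add (i1.const_mul _) (i2.const_mul _)]
  refine integral_mono_of_nonneg (Filter.Eventually.of_forall fun x => sq_nonneg _)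
    ((i1.const_mul _).add (i2.const_mul _)) (Filter.Eventually.of_forall fun X => ?_)
  have h1 := hlin lam hl r' hr κ (K + 1) φ (fun s => (a s - a (pt.il X)) • φ s) h X fun z => by
    by_cases hz : pt.sp X z ∈ tsupport φ
    · have h2 := h.supp X z hz
      have h3 : ∀ s ∈ pt.reg' r' κ, s ∈ Metric.closedBall pt.p r := fun s hs =>
        mem_closedBall_iff_norm.2 (hs.1.2.le.trans (hr.trans (half_le_self hg.1.le)))
      have h4 := hK.norm_sub_le (h3 _ h2) (h3 _ (pt.reg_cen h2).2.2.2.1)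
      have h5 := pt.norm_sp X X z
      rw [sub_self, norm_zero, zero_pow two_ne_zero, zero_add,
        sq_eq_sq₀ (norm_nonneg _) (norm_nonneg _)] at h5
      rw [h5] at h4
      rw [norm_smul]
      refine mul_le_mul_of_nonneg_right ?_ (norm_nonneg _)
      linarith [norm_nonneg z]
    · simp [image_eq_zero_of_notMem_tsupport hz]
  have j : ∀ {ψ : EE V → F}, Tst ψ →
      Integrable fun z => gau (lam • pt.WH X) z • ψ (pt.sp X z) := fun hψ =>
    have h2 := (Tst.fibre M pt hψ X).1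
    ((aosc_cont _).smul h2.continuous).integrable_of_hasCompactSupport h2.2.smul_left
  have e1 : M.uu pt lam (fun s => a s • φ s) X = a (pt.il X) • M.uu pt lam φ X +
      M.uu pt lam (fun s => (a s - a (pt.il X)) • φ s) X := by
    rw [uu, uu, uu, ← integral_smul]
    refine Eq.trans (integral_congr_ae (Filter.Eventually.of_forall fun z => ?_))
      (integral_add ((j h.tst).smul (a (pt.il X))) (j (h.tst.smul (ha.sub contDiff_const))))
    beta_reduce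
    module
  have e2 : M.Td G pt lam (fun s => a s • φ s) X = a (pt.il X) • M.Td G pt lam φ X +
      M.Td G pt lam (fun s => (a s - a (pt.il X)) • φ s) X := by
    rw [Td, Td, Td, e1, map_add, map_add, ContinuousLinearMap.map_smul_of_tower,
      ContinuousLinearMap.map_smul_of_tower, smul_add, smul_comm]
  have h2 := btd_add (a (pt.il X) • M.Td G pt lam φ X)
    (M.Td G pt lam (fun s => (a s - a (pt.il X)) • φ s) X) ht
  rw [← e2, norm_smul, mul_pow, Real.norm_eq_abs, sq_abs] at h2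
  have h3 := mul_le_mul_of_nonneg_left h1 (by positivity : 0 ≤ 1 + t⁻¹)
  linarith
end Mod

end Vale.Agent.P353
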