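import Vale.Agent.P353.Defs

open MeasureTheory
open Complex (I)

noncomputable section
namespace Vale.Agent.P353
variable {F : Type} [NormedAddCommGroup F] [InnerProductSpace ℂ F] [CompleteSpace F]

omit [CompleteSpace F] in
/-- the pointwise identity behind the transfer formula -/
theorem bt_alg {ι κ μ : Type} [Fintype ι] [Fintype κ] [Fintype μ] (P θl θt θb Hq : F →L[ℂ] F)
    (cl N : ι → F →L[ℂ] F) (ch : κ → F →L[ℂ] F) (cv Sp : μ → F →L[ℂ] F) (α : ι → ℝ) (β : κ → ℝ)
    (τ γ t : μ → ℝ) (lam : ℝ) (f : F) (dl : ι → F) (dh : κ → F) (db dt : μ → F)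
    (c1 : ∀ k x, cl k (P x) = P (cl k x)) (c2 : ∀ x, θl (P x) = P (θl x))
    (hq : Hq = ∑ k, β k • ch k - ∑ k, τ k • cv k) :
    P ((-I) • ∑ k, cl k (dl k) + (-I) • ∑ k, ch k (dh k) +
        (-I) • ∑ k, cv k (Sp k f - db k - dt k) + lam • (θl + θt + θb) f) +
      I • ∑ k, cl k (N k f + P ((-(lam / 2) * α k) • f + dl k)) - lam • θl (P f) =
    ((I • ∑ k, cl k * N k - I • (P * ∑ k, cv k * (Sp k + t k • 1))) +
        lam • ((-I / 2) • ∑ k, α k • (cl k * P) + P * θb + I • (P * ∑ k, γ k • cv k))) f +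
      lam • (P * (θt - I • Hq)) f + P (I • ∑ k, cv k (db k)) +
      P ((-I) • ∑ k, ch k (dh k - (lam * β k) • f) +
        I • ∑ k, cv k (dt k - (lam * τ k + lam * γ k - t k) • f)) := by
  subst hq
  simp only [map_add, map_sub, map_sum, map_smul, ContinuousLinearMap.map_smul_of_tower,
    add_apply, sub_apply, smul_apply, sum_apply, mul_apply_eq_comp, one_apply_eq_self, mul_smul,
    sub_smul, add_smul, Finset.sum_add_distrib, Finset.sum_sub_distrib, ← Finset.smul_sum, c1, c2]
  module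

section
variable {E : Type} [MeasurableSpace E] {m : Measure E} {g : E → ℝ} {h h' : E → F} {x x' : F}

/-- `x` is the weighted integral of `h` -/
def BtIs (m : Measure E) (g : E → ℝ) (h : E → F) (x : F) : Prop :=
  Integrable (fun z => g z • h z) m ∧ ∫ z, g z • h z ∂m = x

omit [CompleteSpace F] in
theorem BtIs.add (a : BtIs m g h x) (b : BtIs m g h' x') :
    BtIs m g (fun z => h z + h' z) (x + x') := by
  simp only [BtIs, smul_add]
  exact ⟨a.1.add b.1, by rw [integral_add a.1 b.1, a.2, b.2]⟩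

omit [CompleteSpace F] in
theorem BtIs.sub (a : BtIs m g h x) (b : BtIs m g h' x') :
    BtIs m g (fun z => h z - h' z) (x - x') := by
  simp only [BtIs, smul_sub]
  exact ⟨a.1.sub b.1, by rw [integral_sub a.1 b.1, a.2, b.2]⟩

theorem BtIs.clm (a : BtIs m g h x) (L : F →L[ℂ] F) : BtIs m g (fun z => L (h z)) (L x) := by
  simp only [BtIs, ← L.map_smul_of_tower]
  exact ⟨L.integrable_comp a.1, by rw [L.integral_comp_comm a.1, a.2]⟩

omit [CompleteSpace F] in
theorem BtIs.csmul (a : BtIs m g h x) (c : ℂ) : BtIs m g (fun z => c • h z) (c • x) := by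
  simp only [BtIs, smul_comm _ c]
  exact ⟨a.1.smul c, by rw [integral_smul, a.2]⟩

omit [CompleteSpace F] in
theorem BtIs.rsmul (a : BtIs m g h x) (c : ℝ) : BtIs m g (fun z => c • h z) (c • x) := by
  have e : (fun z => g z • c • h z) = fun z => c • g z • h z := funext fun z => smul_comm _ _ _
  refine ⟨?_, ?_⟩
  · rw [e]
    exact a.1.smul c
  · rw [e, integral_smul, a.2]

omit [CompleteSpace F] in
theorem BtIs.sum {ι : Type} [Fintype ι] {h : ι → E → F} {x : ι → F}
    (a : ∀ k, BtIs m g (h k) (x k)) : BtIs m g (fun z => ∑ k, h k z) (∑ k, x k) := by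
  simp only [BtIs, Finset.smul_sum]
  exact ⟨integrable_finsetSum _ fun k _ => (a k).1, by
    rw [integral_finsetSum _ fun k _ => (a k).1]
    exact Finset.sum_congr rfl fun k _ => (a k).2⟩

omit [CompleteSpace F] in
theorem BtIs.unique (a : BtIs m g h x) (b : BtIs m g h' x') (e : ∀ z, h z = h' z) : x = x' := by
  rw [← a.2, ← b.2]
  simp only [e]

end

end Vale.Agent.P353
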