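import Vale.Agent.P353.BTd
import Vale.Agent.P353.BPt
import Vale.Agent.P353.BK
import Vale.Agent.P353.BDef
import Vale.Agent.P353.BTransx1

open MeasureTheory NormedSpace
open Complex (I)
open scoped InnerProductSpace ContDiff

noncomputable section
namespace Vale.Agent.P353
variable {V F : Type} [NormedAddCommGroup V] [InnerProductSpace ℝ V] [FiniteDimensional ℝ V]
  [NormedAddCommGroup F] [InnerProductSpace ℂ F] [CompleteSpace F] [FiniteDimensional ℂ F]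
  [MeasurableSpace V] [BorelSpace V] {M : Mod V F} {G : Gam} {pt : Patch M.L}

section
variable {E : Type} [NormedAddCommGroup E] [InnerProductSpace ℝ E] [FiniteDimensional ℝ E]
  [MeasurableSpace E] [BorelSpace E]
omit [CompleteSpace F] [FiniteDimensional ℂ F]

theorem bt_ok (W : E →L[ℝ] E) {h : E → F} (hc : Continuous h) (hs : HasCompactSupport h) :
    BtIs volume (gau W) h (∫ z, gau W z • h z) :=
  ⟨((aosc_cont W).smul hc).integrable_of_hasCompactSupport hs.smul_left, rfl⟩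

theorem bt_op (W : E →L[ℝ] E) {f : E → F} (hf : Tst f) {B : E → F →L[ℂ] F} (hB : Continuous B) :
    BtIs volume (gau W) (fun z => B z (f z)) (∫ z, gau W z • B z (f z)) :=
  bt_ok W (hB.clm_apply hf.1.continuous) (HasCompactSupport.intro hf.2 fun z hz => by
    rw [image_eq_zero_of_notMem_tsupport hz, map_zero])

theorem bt_sm (W : E →L[ℝ] E) {f : E → F} (hf : Tst f) {a : E → ℝ} (ha : Continuous a) :
    BtIs volume (gau W) (fun z => a z • f z) (∫ z, gau W z • a z • f z) :=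
  bt_ok W (ha.smul hf.1.continuous) hf.2.smul_left
end

omit [FiniteDimensional ℂ F] [MeasurableSpace V] [BorelSpace V] in
theorem bt_d {φ : EE V → F} (h : Tst φ) (X : EE pt.l) {u : pt.HT → EE V} (hu : Continuous u) :
    (Continuous fun z => fderiv ℝ φ (pt.sp X z) (u z)) ∧
      HasCompactSupport fun z => fderiv ℝ φ (pt.sp X z) (u z) := by
  have h1 : Continuous fun z : pt.HT => pt.sp X z :=
    pt.continuous_sp.comp (Continuous.prodMk_right X)
  refine ⟨((h.1.continuous_fderiv (by simp)).comp h1).clm_apply hu,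
    HasCompactSupport.intro (sp_compact M pt h.2).2 fun z hz => ?_⟩
  rw [fderiv_of_notMem_tsupport ℝ fun hx => hz ⟨X, hx⟩]
  rfl

omit [FiniteDimensional ℂ F] in
theorem bt_ibp {W : pt.HT →L[ℝ] pt.HT} (hW : Symm W) {φ : EE V → F} (h : Tst φ) (X : EE pt.l)
    (v : pt.HT) (A : pt.HT →L[ℝ] pt.HT) :
    BtIs volume (gau W) (fun z => fderiv ℝ φ (pt.sp X z) (pt.im (pt.inc (v + A z))) -
      (⟪W z, v + A z⟫_ℝ - tr A) • φ (pt.sp X z)) 0 := by
  have hf := h.fibre M pt X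
  have d := bt_d h X (u := fun z => pt.im (pt.inc (v + A z))) (by fun_prop)
  have a := (bt_ok W d.1 d.2).sub (bt_sm W hf.1 (a := fun z => ⟪W z, v + A z⟫_ℝ - tr A)
    (by fun_prop))
  have e := fib_ibp hW v A hf.1
  simp only [hf.2.1] at e
  rwa [e, sub_self] at a

omit [FiniteDimensional ℂ F] [MeasurableSpace V] [BorelSpace V] in
theorem bt_qq (e : R16) (X : EE pt.l) (z : pt.HT) : (M.Cm pt).th (G.psi e (pt.qq X z)) =
    ∑ k, ⟪pt.WH X z, pt.bH k⟫_ℝ • (M.Cm pt).th (G.psi e (pt.inc (pt.bH k))) -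
      ∑ k, ⟪pt.WH X z, pt.T X (pt.bm k)⟫_ℝ • M.cv G pt e (pt.bm k) := by
  rw [Patch.qq, map_sub, map_sub]
  congr 1
  · conv_lhs => rw [← pt.bH.sum_repr' (pt.WH X z)]
    simp only [map_sum, map_smul, real_inner_comm]
  · conv_lhs => rw [← pt.bm.sum_repr' ((pt.T X).adjoint (pt.WH X z))]
    simp only [map_sum, map_smul, ContinuousLinearMap.adjoint_inner_right, Mod.cv,
      real_inner_comm]

omit [FiniteDimensional ℂ F] [MeasurableSpace V] [BorelSpace V] in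
theorem bt_Kd (e : R16) (X : EE pt.l) : Continuous (M.Kd G pt e X) := by
  unfold Mod.Kd Patch.tt Patch.qq
  fun_prop

omit [MeasurableSpace V] [BorelSpace V] in
theorem bt_comm (u : SS pt.l) (X : EE pt.l) (x : F) :
    (M.Ml pt).C.th u (M.Pi G pt X x) = M.Pi G pt X ((M.Ml pt).C.th u x) :=
  congrArg (fun T : F →L[ℂ] F => T x) (M.th_l_comm pt u (pt.J G X))

omit [MeasurableSpace V] [BorelSpace V] in
theorem bt_cl (e : R16) (a X : EE pt.l) (x : F) :
    M.cl G pt e a (M.Pi G pt X x) = M.Pi G pt X (M.cl G pt e a x) := by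
  rw [M.cl_eq G pt]
  exact bt_comm _ X x

namespace Mod
variable {r d : ℝ} (hg : M.GB G pt r d)
include hg
omit [MeasurableSpace V] [BorelSpace V] in
theorem GB.bt_point (lam : ℝ) {φ : EE V → F} (e : R16) {X : EE pt.l}
    (hX : X ∈ Metric.ball pt.p0 r) (z : pt.HT) (hi : M.InvAt φ (pt.sp X z)) :
    M.Pi G pt X (M.Q G e lam φ (pt.sp X z)) + I • ∑ k, M.cl G pt e (pt.bl k)
        ((M.nu G pt X (pt.bl k) • M.Pi G pt X + fderiv ℝ (M.Pi G pt) X (pt.bl k)) (φ (pt.sp X z)) +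
          M.Pi G pt X ((-(lam / 2) * ⟪z, fderiv ℝ pt.WH X (pt.bl k) z⟫_ℝ) • φ (pt.sp X z) +
            fderiv ℝ φ (pt.sp X z) (pt.il (pt.bl k)))) -
      lam • (M.Ml pt).C.th (s0 G (M.Ml pt).L e X) (M.Pi G pt X (φ (pt.sp X z))) =
    (M.K0 G pt e X + lam • M.K2 G pt e X z z) (φ (pt.sp X z)) +
      lam • M.Kd G pt e X z (φ (pt.sp X z)) + M.Pi G pt X (M.Lt G pt e φ X z) +
      M.Pi G pt X ((-I) • ∑ k, (M.Cm pt).th (G.psi e (pt.inc (pt.bH k)))
        (fderiv ℝ φ (pt.sp X z) (pt.im (pt.inc (pt.bH k + (0 : pt.HT →L[ℝ] pt.HT) z))) -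
          (⟪(lam • pt.WH X) z, pt.bH k + (0 : pt.HT →L[ℝ] pt.HT) z⟫_ℝ -
            tr (0 : pt.HT →L[ℝ] pt.HT)) • φ (pt.sp X z)) +
        I • ∑ k, M.cv G pt e (pt.bm k) (fderiv ℝ φ (pt.sp X z)
          (pt.im (pt.inc (pt.T X (pt.bm k) + pt.Bm (pt.Xi X (pt.bm k)) z))) -
          (⟪(lam • pt.WH X) z, pt.T X (pt.bm k) + pt.Bm (pt.Xi X (pt.bm k)) z⟫_ℝ -
            tr (pt.Bm (pt.Xi X (pt.bm k)))) • φ (pt.sp X z))) := by
  have t0 : tr (0 : pt.HT →L[ℝ] pt.HT) = 0 := by simp [tr]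
  have e1 : (lam • pt.WH X) z = lam • pt.WH X z := rfl
  have e2 : (0 : pt.HT →L[ℝ] pt.HT) z = 0 := rfl
  rw [hg.Q_sp hX z hi e lam]
  simp only [e1, e2, add_zero, t0, sub_zero, inner_add_right, real_inner_smul_left]
  exact bt_alg (M.Pi G pt X) _ _ _ _ (fun k => M.cl G pt e (pt.bl k))
    (fun k => M.nu G pt X (pt.bl k) • M.Pi G pt X + fderiv ℝ (M.Pi G pt) X (pt.bl k))
    (fun k => (M.Cm pt).th (G.psi e (pt.inc (pt.bH k)))) (fun k => M.cv G pt e (pt.bm k))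
    (fun k => M.C.spin (lift (M.L.br (pt.Xi X (pt.bm k)))))
    (fun k => ⟪z, fderiv ℝ pt.WH X (pt.bl k) z⟫_ℝ) (fun k => ⟪pt.WH X z, pt.bH k⟫_ℝ)
    (fun k => ⟪pt.WH X z, pt.T X (pt.bm k)⟫_ℝ)
    (fun k => ⟪pt.WH X z, pt.Bm (pt.Xi X (pt.bm k)) z⟫_ℝ)
    (fun k => tr (pt.Bm (pt.Xi X (pt.bm k)))) lam (φ (pt.sp X z)) _ _ _ _
    (fun k => bt_cl e (pt.bl k) X) (bt_comm _ X) (bt_qq e X z)

/-- The exact transfer identity (PROOF.md, B3).  `Q_sp` under the integral; `fib_ibp` for the heavy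
derivatives (fields `bH k`, and `T w + Bm z`); `fderiv_Td`, `uu_smooth`, `cl_eq`, `th_l_comm` for the
light ones. -/
theorem GB.trans_id {lam : ℝ} (hl : 0 < lam) {r' κ : ℝ} (hr : r' ≤ r / 2) {φ : EE V → F}
    (h : M.Adm pt r' κ φ) (e : R16) {X : EE pt.l} (hX : X ∈ Metric.ball pt.p0 r) :
    M.Td G pt lam (M.Q G e lam φ) X - (M.Ml pt).Q G e lam (M.Td G pt lam φ) X =
      M.nn G pt lam X • M.Pi0 G pt
        ((∫ z, gau (lam • pt.WH X) z • (M.K0 G pt e X + lam • M.K2 G pt e X z z) (φ (pt.sp X z))) +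
          lam • (∫ z, gau (lam • pt.WH X) z • M.Kd G pt e X z (φ (pt.sp X z))) +
          M.Pi G pt X (∫ z, gau (lam • pt.WH X) z • M.Lt G pt e φ X z)) := by
  have hs := h.sup
  have hf := (h.tst.fibre M pt X).1
  have hW : Symm (lam • pt.WH X) := fun u v => by
    rw [smul_apply, smul_apply, real_inner_smul_left, real_inner_smul_right,
      (hg.2.2 X hX).wh.1 u v]
  have hQ : Tst (M.Q G e lam φ) :=
    h.tst.dirac M.C (G.psi e) ((contDiff_s0 G M.L e).const_smul lam)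
  have hQf := (hQ.fibre M pt X).1
  have iQ := bt_ok (lam • pt.WH X) hQf.continuous hQf.2
  have i0 := bt_ok (lam • pt.WH X) hf.continuous hf.2
  have ia := fun k => bt_sm (lam • pt.WH X) hf
    (a := fun z => -(lam / 2) * ⟪z, fderiv ℝ pt.WH X (pt.bl k) z⟫_ℝ) (by fun_prop)
  have ib := fun k => bt_ok (lam • pt.WH X)
    (bt_d h.tst X (u := fun _ => pt.il (pt.bl k)) continuous_const).1
    (bt_d h.tst X (u := fun _ => pt.il (pt.bl k)) continuous_const).2
  obtain ⟨B, hB⟩ := hg.K2_bilin e X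
  have i1 := bt_op (lam • pt.WH X) hf
    (B := fun z => M.K0 G pt e X + lam • M.K2 G pt e X z z) (by
      simp only [← hB]
      fun_prop)
  have i2 := bt_op (lam • pt.WH X) hf (bt_Kd (M := M) (G := G) e X)
  have i3 : BtIs volume (gau (lam • pt.WH X)) (M.Lt G pt e φ X)
      (∫ z, gau (lam • pt.WH X) z • M.Lt G pt e φ X z) := by
    refine ⟨(BtIs.csmul (BtIs.sum fun k => BtIs.clm (bt_ok (lam • pt.WH X)
      (bt_d h.tst X (u := fun z => pt.il (pt.Bl (pt.Xi X (pt.bm k)) z)) (by fun_prop)).1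
      (bt_d h.tst X (u := fun z => pt.il (pt.Bl (pt.Xi X (pt.bm k)) z)) (by fun_prop)).2)
      (M.cv G pt e (pt.bm k))) I).1, rfl⟩
  have r1 := fun k => bt_ibp hW h.tst X (pt.bH k) 0
  have r2 := fun k => bt_ibp hW h.tst X (pt.T X (pt.bm k)) (pt.Bm (pt.Xi X (pt.bm k)))
  have A := ((iQ.clm (M.Pi G pt X)).add ((BtIs.sum fun k =>
    ((i0.clm (M.nu G pt X (pt.bl k) • M.Pi G pt X + fderiv ℝ (M.Pi G pt) X (pt.bl k))).add
      (((ia k).add (ib k)).clm (M.Pi G pt X))).clm (M.cl G pt e (pt.bl k))).csmul I)).sub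
    (((i0.clm (M.Pi G pt X)).clm ((M.Ml pt).C.th (s0 G (M.Ml pt).L e X))).rsmul lam)
  have A' := ((i1.add (i2.rsmul lam)).add (i3.clm (M.Pi G pt X))).add
    ((((BtIs.sum fun k => (r1 k).clm ((M.Cm pt).th (G.psi e (pt.inc (pt.bH k))))).csmul (-I)).add
      ((BtIs.sum fun k => (r2 k).clm (M.cv G pt e (pt.bm k))).csmul I)).clm (M.Pi G pt X))
  have key := A.unique A' fun z => hg.bt_point lam e hX z (h.inf X z)
  simp only [map_zero, Finset.sum_const_zero, smul_zero, add_zero] at key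
  rw [← key]
  have e1 : (M.Ml pt).Q G e lam (M.Td G pt lam φ) X =
      (-I) • ∑ k, M.cl G pt e (pt.bl k) (fderiv ℝ (M.Td G pt lam φ) X (pt.bl k)) +
        lam • (M.Ml pt).C.th (s0 G (M.Ml pt).L e X) (M.Td G pt lam φ X) := by
    simp only [Mod.Q, Cl.dirac, M.cl_eq G pt, map_smul, smul_apply]
  rw [e1]
  simp only [hg.fderiv_Td hl hr hs hX, (hg.uu_smooth hl hr hs).2 X hX, Mod.Td, Mod.uu, Mod.Pi0,
    ContinuousLinearMap.map_smul_of_tower, bt_cl e _ pt.p0, bt_comm _ pt.p0, ← Finset.smul_sum,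
    ← map_sum]
  rw [map_sub, map_add, map_smul, ContinuousLinearMap.map_smul_of_tower]
  module
end Mod

end Vale.Agent.P353
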