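import Vale.Agent.P353.GGroup

open MeasureTheory NormedSpace
open Complex (I)
open scoped InnerProductSpace ContDiff

noncomputable section
namespace Vale.Agent.P353
variable {V : Type} [NormedAddCommGroup V] [InnerProductSpace ℝ V] [FiniteDimensional ℝ V]
  {L : CL V} {T : Type} [NormedAddCommGroup T] [InnerProductSpace ℝ T] [FiniteDimensional ℝ T]

/-- the chart -/
def Slice.Phi (σ : Slice L T) (y : σ.c × T) : EE V := lift (L.ex y.1) (σ.p + σ.j y.2)

theorem GChart_det {M N : Type} [AddCommGroup M] [Module ℝ M] [FiniteDimensional ℝ M]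
    [AddCommGroup N] [Module ℝ N] [FiniteDimensional ℝ N] (f : M →ₗ[ℝ] M) (g : M →ₗ[ℝ] N) :
    LinearMap.det (LinearMap.prod (f ∘ₗ LinearMap.fst ℝ M N)
      (LinearMap.snd ℝ M N + g ∘ₗ LinearMap.fst ℝ M N)) = LinearMap.det f := by
  classical
  let b := Module.Free.chooseBasis ℝ M
  let b' := Module.Free.chooseBasis ℝ N
  have h : LinearMap.toMatrix (b.prod b') (b.prod b') (LinearMap.prod (f ∘ₗ LinearMap.fst ℝ M N)
      (LinearMap.snd ℝ M N + g ∘ₗ LinearMap.fst ℝ M N)) =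
      Matrix.fromBlocks (LinearMap.toMatrix b b f) 0 (LinearMap.toMatrix b b' g) 1 := by
    ext (i | i) (j | j) <;> simp [LinearMap.toMatrix_apply, Matrix.one_apply, Finsupp.single_apply,
      eq_comm]
  rw [← LinearMap.det_toMatrix (b.prod b'), h, Matrix.det_fromBlocks_zero₁₂, Matrix.det_one,
    mul_one, LinearMap.det_toMatrix]

theorem GChart_slope {E : Type} [NormedAddCommGroup E] [NormedSpace ℝ E] {f G : ℝ → E} {a : E}
    (hG : Continuous G) (h : ∀ t, f t = a + t • G t) : HasDerivAt f (G 0) 0 := by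
  rw [hasDerivAt_iff_tendsto_slope_zero]
  refine ((hG.tendsto 0).mono_left nhdsWithin_le_nhds).congr' ?_
  filter_upwards [self_mem_nhdsWithin] with t ht
  rw [zero_add, h t, h 0, zero_smul, add_zero, add_sub_cancel_left, smul_smul,
    inv_mul_cancel₀ ht, one_smul]

theorem GChart_zero : expL (0 : V →L[ℝ] V) = 1 := exp_zero

theorem GChart_comm (A : V →L[ℝ] V) (s : ℝ) : expL (s • A) * A = A * expL (s • A) :=
  ContinuousLinearMap.ext fun u =>
    expL_intertwine A (T := s • A) (T' := s • A) (fun _ => by simp) u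

theorem GChart_duh (A B : V →L[ℝ] V) :
    expL (A + B) = expL A + expL A * ∫ s in (0 : ℝ)..1, expL (s • -A) * B * expL (s • (A + B)) := by
  have hc : Continuous (expL : (V →L[ℝ] V) → V →L[ℝ] V) := contDiff_expL.continuous
  have h1 : ∀ s ∈ Set.uIcc (0 : ℝ) 1, HasDerivAt (fun s : ℝ => expL (s • -A) * expL (s • (A + B)))
      (expL (s • -A) * B * expL (s • (A + B))) s := fun s _ => by
    refine ((hasDerivAt_expL (-A) s).mul (hasDerivAt_expL (A + B) s)).congr_deriv ?_
    rw [GChart_comm (A + B)]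
    noncomm_ring
  rw [intervalIntegral.integral_eq_sub_of_hasDerivAt h1
    (Continuous.intervalIntegrable (by fun_prop) _ _)]
  simp only [one_smul, zero_smul, GChart_zero, mul_one, mul_sub, ← mul_assoc,
    (expL_mul_neg A).1, one_mul, add_sub_cancel]

theorem GChart_dir (A B : V →L[ℝ] V) :
    fderiv ℝ (expL : (V →L[ℝ] V) → V →L[ℝ] V) A B =
      expL A * ∫ s in (0 : ℝ)..1, expL (s • -A) * B * expL (s • A) := by
  have hc : Continuous (expL : (V →L[ℝ] V) → V →L[ℝ] V) := contDiff_expL.continuous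
  have h1 : HasDerivAt (fun t : ℝ => expL (A + t • B))
      (expL A * ∫ s in (0 : ℝ)..1, expL (s • -A) * B * expL (s • (A + (0 : ℝ) • B))) 0 := by
    refine GChart_slope (a := expL A)
      (G := fun t : ℝ => expL A * ∫ s in (0 : ℝ)..1, expL (s • -A) * B * expL (s • (A + t • B)))
      (continuous_const.mul
        (intervalIntegral.continuous_parametric_intervalIntegral_of_continuous' ?_ _ _)) fun t => ?_
    · unfold Function.uncurry
      fun_prop
    · rw [GChart_duh, ← mul_smul_comm, ← intervalIntegral.integral_smul]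
      simp only [mul_smul_comm, smul_mul_assoc]
  have h2 : HasDerivAt (fun t : ℝ => A + t • B) B 0 := by
    simpa using ((hasDerivAt_id (0 : ℝ)).smul_const B).const_add A
  have h3 : HasFDerivAt (expL : (V →L[ℝ] V) → V →L[ℝ] V) (fderiv ℝ expL A)
      (A + (0 : ℝ) • B) := by
    rw [zero_smul, add_zero]
    exact ((contDiff_expL.differentiable (by simp)) A).hasFDerivAt
  have h4 := (h3.comp_hasDerivAt (0 : ℝ) h2).unique h1
  rwa [zero_smul, add_zero] at h4

/-- the logarithmic derivative of the exponential -/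
def GChart_psi (L : CL V) (ξ : V) : V →L[ℝ] V := ∫ s in (0 : ℝ)..1, expL (s • -L.br ξ)

theorem GChart_psi_cont (L : CL V) : Continuous (GChart_psi L) := by
  have hc : Continuous (expL : (V →L[ℝ] V) → V →L[ℝ] V) := contDiff_expL.continuous
  refine intervalIntegral.continuous_parametric_intervalIntegral_of_continuous' ?_ _ _
  unfold Function.uncurry
  fun_prop

theorem GChart_psi_zero (L : CL V) : GChart_psi L 0 = 1 := by
  simp [GChart_psi, GChart_zero]

theorem GChart_dex (L : CL V) (ξ η : V) :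
    fderiv ℝ (expL : (V →L[ℝ] V) → V →L[ℝ] V) (L.br ξ) (L.br η) =
      L.ex ξ * L.br (GChart_psi L ξ η) := by
  have hc : Continuous (expL : (V →L[ℝ] V) → V →L[ℝ] V) := contDiff_expL.continuous
  have h1 : ∀ s : ℝ, expL (s • -L.br ξ) * L.br η * expL (s • L.br ξ) =
      L.br (expL (s • -L.br ξ) η) := fun s => by
    have h2 : expL (s • -L.br ξ) ∈ L.G := by
      have := L.ex_mem (s • -ξ)
      rwa [CL.ex, map_smul, map_neg] at this
    have h3 : expL (s • -L.br ξ) * expL (s • L.br ξ) = 1 := by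
      rw [smul_neg]
      exact (expL_mul_neg _).2
    ext b
    have h4 : expL (s • -L.br ξ) (expL (s • L.br ξ) b) = b := congrArg (· b) h3
    simp only [mul_apply_eq_comp]
    rw [CL.G_br h2, h4]
  have hi : IntervalIntegrable (fun s : ℝ => expL (s • -L.br ξ)) volume 0 1 :=
    Continuous.intervalIntegrable (by fun_prop) _ _
  rw [GChart_dir, GChart_psi, ContinuousLinearMap.intervalIntegral_apply hi,
    ← L.br.intervalIntegral_comp_comm (Continuous.intervalIntegrable (by fun_prop) _ _)]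
  simp only [h1]
  rfl

theorem Slice.continuous_jac (σ : Slice L T) : Continuous σ.jac ∧ σ.jac 0 = 1 := by
  constructor
  · have h1 : Continuous fun t : T =>
        LinearMap.toContinuousLinearMap (σ.A0.symm.toLinearMap ∘ₗ σ.A t) := by
      refine continuous_clm_apply.2 fun y => ?_
      change Continuous fun t : T => σ.A0.symm.toLinearMap (lift (L.br y.1) (σ.p + σ.j t) + σ.j y.2)
      exact σ.A0.symm.toLinearMap.continuous_of_finiteDimensional.comp (by fun_prop)
    exact (ContinuousLinearMap.continuous_det.comp h1).abs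
  · have h1 : σ.A0.symm.toLinearMap ∘ₗ σ.A 0 = LinearMap.id :=
      LinearMap.ext fun y => σ.A0.symm_apply_apply y
    rw [Slice.jac, h1, LinearMap.det_id, abs_one]

theorem Slice.contDiff_Phi (σ : Slice L T) : ContDiff ℝ ∞ σ.Phi := by
  refine (contDiff_piLp 2).2 fun i => ?_
  have h1 : ContDiff ℝ ∞ fun y : σ.c × T => expL (L.br (y.1 : V)) :=
    contDiff_expL.comp (L.br.contDiff.comp (σ.c.subtypeL.contDiff.comp contDiff_fst))
  have h2 : ContDiff ℝ ∞ fun y : σ.c × T => (σ.p + σ.j y.2) i :=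
    (PiLp.proj (𝕜 := ℝ) 2 (fun _ : Fin 9 => V) i).contDiff.comp
      (contDiff_const.add (σ.j.contDiff.comp contDiff_snd))
  exact h1.clm_apply h2

theorem GChart_jinj (σ : Slice L T) : Function.Injective σ.j := fun t t' h => by
  have h1 : ((0, t) : σ.c × T) = (0, t') := σ.bij.1 (by simp only [h])
  exact congrArg Prod.snd h1

theorem Slice.j_inj (σ : Slice L T) : ∃ K > 0, ∀ t, ‖t‖ ≤ K * ‖σ.j t‖ := by
  obtain ⟨K, hK, h⟩ := σ.j.toLinearMap.exists_antilipschitzWith
    (LinearMap.ker_eq_bot.2 (GChart_jinj σ))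
  exact ⟨K, hK, fun t => by simpa using h.le_mul_dist t 0⟩

theorem GChart_fderiv (σ : Slice L T) (y z : σ.c × T) : fderiv ℝ σ.Phi y z =
    lift (L.ex y.1) (lift (L.br (GChart_psi L y.1 z.1)) (σ.p + σ.j y.2) + σ.j z.2) := by
  ext1 i
  have h0 := (PiLp.proj (𝕜 := ℝ) 2 (fun _ : Fin 9 => V) i).hasFDerivAt.comp y
    ((σ.contDiff_Phi.differentiable (by simp)) y).hasFDerivAt
  have h1 := (((contDiff_expL (S := V)).differentiable (by simp)) (L.br (y.1 : V))).hasFDerivAt.comp
    y (L.br.comp (σ.c.subtypeL.comp (ContinuousLinearMap.fst ℝ σ.c T))).hasFDerivAt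
  have h2 := (PiLp.proj (𝕜 := ℝ) 2 (fun _ : Fin 9 => V) i).hasFDerivAt.comp y
    ((σ.j.comp (ContinuousLinearMap.snd ℝ σ.c T)).hasFDerivAt.const_add σ.p)
  have h3 := congrArg (· z) (h0.unique (h1.clm_apply h2))
  have h4 := GChart_dex L y.1 z.1
  simp at h3
  rw [h3, h4]
  simp [CL.ex, add_comm]

theorem GChart_tang (σ : Slice L T) (t : T) : ∃ N : V →ₗ[ℝ] T, ∀ η : V,
    lift (L.br η) (σ.p + σ.j t) =
      lift (L.br (σ.c.orthogonalProjectionOnto η : V)) (σ.p + σ.j t) + σ.j (N η) := by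
  obtain ⟨g, hg⟩ := σ.j.toLinearMap.exists_leftInverse_of_injective
    (LinearMap.ker_eq_bot.2 (GChart_jinj σ))
  let B : V →ₗ[ℝ] EE V :=
    { toFun := fun η => lift (L.br η) (σ.p + σ.j t)
      map_add' := fun a b => by ext i; simp; abel
      map_smul' := fun a b => by ext i; simp }
  refine ⟨g ∘ₗ B ∘ₗ (LinearMap.id - σ.c.starProjection.toLinearMap), fun η => ?_⟩
  obtain ⟨t', ht'⟩ := σ.tang (η - σ.c.starProjection η) (σ.c.sub_starProjection_mem_orthogonal η) t
  have h1 : g (σ.j t') = t' := congrArg (· t') hg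
  have h2 : B (η - σ.c.starProjection η) = σ.j t' := ht'
  change B η = B (σ.c.starProjection η) + σ.j (g (B (η - σ.c.starProjection η)))
  rw [h2, h1, ← h2, map_sub, add_sub_cancel]

/-- the determinant of the derivative of the chart factorises (differentiate in `ξ`: the
logarithmic derivative of `ex ξ` is `br (ψ ξ η)`, `ψ ξ η = ∫ s in 0..1, ex (-s ξ) η`) -/
theorem Slice.det_Phi (σ : Slice L T) : ∃ h : σ.c → ℝ, Continuous h ∧ h 0 = 1 ∧ ∀ y : σ.c × T,
    |LinearMap.det (σ.A0.symm.toLinearMap ∘ₗ (fderiv ℝ σ.Phi y).toLinearMap)| =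
      |h y.1| * σ.jac y.2 := by
  have hc : Continuous (expL : (V →L[ℝ] V) → V →L[ℝ] V) := contDiff_expL.continuous
  let M : σ.c → σ.c →L[ℝ] σ.c := fun ξ =>
    σ.c.orthogonalProjectionOnto ∘L GChart_psi L ξ ∘L σ.c.subtypeL
  have hM : Continuous M :=
    continuous_const.clm_comp
      (((GChart_psi_cont L).comp continuous_subtype_val).clm_comp continuous_const)
  have hE : Continuous fun ξ : σ.c => (lift (L.ex ξ) : EE V →L[ℝ] EE V) := by
    refine continuous_clm_apply.2 fun x => ?_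
    have h1 : Continuous fun ξ : σ.c => L.ex ξ := hc.comp (L.br.continuous.comp continuous_subtype_val)
    exact continuous_lift.comp (h1.prodMk continuous_const)
  refine ⟨fun ξ => (lift (L.ex ξ) : EE V →L[ℝ] EE V).det * (M ξ).det,
    (ContinuousLinearMap.continuous_det.comp hE).mul (ContinuousLinearMap.continuous_det.comp hM),
    ?_, fun y => ?_⟩
  · have h1 : (lift (L.ex ((0 : σ.c) : V)) : EE V →L[ℝ] EE V).toLinearMap = LinearMap.id := by
      refine LinearMap.ext fun x => ?_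
      simp only [CL.ex, ZeroMemClass.coe_zero, map_zero, GChart_zero]
      exact lift_one x
    have h2 : (M 0).toLinearMap = LinearMap.id := by
      refine LinearMap.ext fun x => ?_
      simp [M, GChart_psi_zero]
    simp only [ContinuousLinearMap.det, h1, h2, LinearMap.det_id, mul_one]
  obtain ⟨N, hN⟩ := GChart_tang σ y.2
  have h1 : σ.A0.symm.toLinearMap ∘ₗ (fderiv ℝ σ.Phi y).toLinearMap =
      (σ.A0.symm.toLinearMap ∘ₗ (lift (L.ex y.1) : EE V →L[ℝ] EE V).toLinearMap ∘ₗ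
        σ.A0.symm.symm.toLinearMap) ∘ₗ (σ.A0.symm.toLinearMap ∘ₗ σ.A y.2) ∘ₗ
      LinearMap.prod ((M y.1).toLinearMap ∘ₗ LinearMap.fst ℝ σ.c T) (LinearMap.snd ℝ σ.c T +
        (N ∘ₗ (GChart_psi L y.1).toLinearMap ∘ₗ σ.c.subtype) ∘ₗ LinearMap.fst ℝ σ.c T) := by
    refine LinearMap.ext fun z => ?_
    have h2 := GChart_fderiv σ y z
    rw [hN] at h2
    simp only [LinearMap.comp_apply, LinearEquiv.coe_coe, ContinuousLinearMap.coe_coe, h2,
      LinearEquiv.symm_symm, LinearEquiv.apply_symm_apply]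
    congr 2
    simp [Slice.A, M]
    abel
  rw [h1, LinearMap.det_comp, LinearMap.det_comp, LinearMap.det_conj, GChart_det, Slice.jac,
    ← abs_mul]
  simp only [ContinuousLinearMap.det]
  congr 1
  ring

/-- Inverse function theorem at the base point: a smooth Lipschitz local inverse. -/
theorem Slice.chart (σ : Slice L T) : ∃ ρ > 0, ∃ K > 0, ∃ Ψ : EE V → σ.c × T,
    ContDiffOn ℝ ∞ Ψ (Metric.ball σ.p ρ) ∧ Ψ σ.p = 0 ∧
    (∀ x ∈ Metric.ball σ.p ρ, σ.Phi (Ψ x) = x) ∧
    (∀ y, ‖y‖ < ρ / K → σ.Phi y ∈ Metric.ball σ.p ρ ∧ Ψ (σ.Phi y) = y) ∧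
    ∀ x ∈ Metric.ball σ.p ρ, ∀ x' ∈ Metric.ball σ.p ρ, ‖Ψ x - Ψ x'‖ ≤ K * ‖x - x'‖ := by
  obtain ⟨h, hh, hh0, hdet⟩ := σ.det_Phi
  have hd : Differentiable ℝ σ.Phi := σ.contDiff_Phi.differentiable (by simp)
  have hinv : ∀ y : σ.c × T, |h y.1| * σ.jac y.2 ≠ 0 → ∃ e : (σ.c × T) ≃L[ℝ] EE V,
      HasFDerivAt σ.Phi (e : (σ.c × T) →L[ℝ] EE V) y := fun y hy => by
    rw [← hdet y, abs_ne_zero] at hy
    refine ⟨((LinearMap.equivOfDetNeZero _ hy).trans σ.A0).toContinuousLinearEquiv, ?_⟩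
    refine (hd y).hasFDerivAt.congr_fderiv (ContinuousLinearMap.ext fun z => ?_)
    exact (σ.A0.apply_symm_apply _).symm
  have hU : IsOpen {y : σ.c × T | |h y.1| * σ.jac y.2 ≠ 0} :=
    isOpen_ne_fun ((hh.comp continuous_fst).abs.mul (σ.continuous_jac.1.comp continuous_snd))
      continuous_const
  have h0 : (0 : σ.c × T) ∈ {y : σ.c × T | |h y.1| * σ.jac y.2 ≠ 0} := by
    simp [hh0, σ.continuous_jac.2]
  have hp : σ.Phi 0 = σ.p := by
    simp only [Slice.Phi, CL.ex, Prod.fst_zero, Prod.snd_zero, ZeroMemClass.coe_zero, map_zero,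
      GChart_zero, add_zero]
    exact lift_one _
  obtain ⟨e0, he0⟩ := hinv 0 h0
  have hc0 : ContDiffAt ℝ ∞ σ.Phi 0 := σ.contDiff_Phi.contDiffAt
  set F := hc0.toOpenPartialHomeomorph σ.Phi he0 (by simp) with hF
  have hs : (0 : σ.c × T) ∈ F.source := hc0.mem_toOpenPartialHomeomorph_source he0 (by simp)
  have hFc : ∀ y, F y = σ.Phi y := fun _ => rfl
  have ht : σ.p ∈ F.target := hp ▸ F.map_source hs
  have hΨ0 : F.symm σ.p = 0 := hp ▸ F.left_inv hs
  have hsm : ∀ x ∈ F.target, F.symm x ∈ {y : σ.c × T | |h y.1| * σ.jac y.2 ≠ 0} →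
      ContDiffAt ℝ ∞ F.symm x := fun x hx hx' => by
    obtain ⟨e, he⟩ := hinv _ hx'
    exact F.contDiffAt_symm hx he σ.contDiff_Phi.contDiffAt
  obtain ⟨K0, W, hW, hL⟩ := ((hsm _ ht (hΨ0 ▸ h0)).of_le (by simp : (1 : WithTop ℕ∞) ≤ ∞)).exists_lipschitzOnWith
  have h1 : F.target ∩ F.symm ⁻¹' {y : σ.c × T | |h y.1| * σ.jac y.2 ≠ 0} ∩ W ∈ nhds σ.p :=
    Filter.inter_mem (Filter.inter_mem (F.open_target.mem_nhds ht)
      (F.continuousAt_symm ht (hU.mem_nhds (hΨ0 ▸ h0)))) hW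
  obtain ⟨ρ, hρ, hb⟩ := Metric.mem_nhds_iff.1 h1
  have h2 : F.source ∩ σ.Phi ⁻¹' Metric.ball σ.p ρ ∈ nhds (0 : σ.c × T) :=
    Filter.inter_mem (F.open_source.mem_nhds hs)
      (hd.continuous.continuousAt (hp ▸ Metric.ball_mem_nhds _ hρ))
  obtain ⟨δ, hδ, hb'⟩ := Metric.mem_nhds_iff.1 h2
  have hK : 0 < max (K0 : ℝ) (ρ / δ) := lt_max_of_lt_right (div_pos hρ hδ)
  refine ⟨ρ, hρ, max K0 (ρ / δ), hK, F.symm,
    fun x hx => (hsm x (hb hx).1.1 (hb hx).1.2).contDiffWithinAt, hΨ0,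
    fun x hx => F.right_inv (hb hx).1.1, fun y hy => ?_, fun x hx x' hx' => ?_⟩
  · have h3 : ρ / max (K0 : ℝ) (ρ / δ) ≤ δ := by
      rw [div_le_iff₀ hK, mul_comm, ← div_le_iff₀ hδ]
      exact le_max_right _ _
    have h4 := hb' (mem_ball_zero_iff.2 (hy.trans_le h3))
    exact ⟨h4.2, F.left_inv h4.1⟩
  · have h3 := hL.dist_le_mul x (hb hx).2 x' (hb hx').2
    rw [dist_eq_norm, dist_eq_norm] at h3
    exact h3.trans (mul_le_mul_of_nonneg_right (le_max_left _ _) (norm_nonneg _))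

end Vale.Agent.P353
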