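import Vale.Agent.P353.AMod0

open MeasureTheory NormedSpace
open Complex (I)
open scoped InnerProductSpace ContDiff

noncomputable section
namespace Vale.Agent.P353
variable {V : Type} [NormedAddCommGroup V] [InnerProductSpace ℝ V] [FiniteDimensional ℝ V]

/-- the compact group of inner automorphisms: closure of the products of exponentials -/
def CL.G (L : CL V) : Set (V →L[ℝ] V) :=
  closure (Submonoid.closure (Set.range L.ex) : Set (V →L[ℝ] V))

/-- saturation of a set under the group -/
def CL.sat (L : CL V) (A : Set (EE V)) : Set (EE V) := {x | ∃ g ∈ L.G, lift g x ∈ A}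

/-- A linear slice through `p`: `c` is a complement of the stabiliser algebra, `j` parametrises
the slice directions. -/
structure Slice (L : CL V) (T : Type) [NormedAddCommGroup T] [InnerProductSpace ℝ T] where
  p : EE V
  c : Submodule ℝ V
  j : T →L[ℝ] EE V
  r0 : ℝ
  r0_pos : 0 < r0
  bij : Function.Bijective fun y : c × T => lift (L.br y.1) p + j y.2
  tang : ∀ η ∈ cᗮ, ∀ t, ∃ t', lift (L.br η) (p + j t) = j t'
  stab : ∀ g ∈ L.G, ∀ t t', ‖j t‖ < r0 → ‖j t'‖ < r0 → lift g (p + j t) = p + j t' →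
    lift g p = p ∧ ∀ t, ∃ t', lift g (j t) = j t'

section
variable {L : CL V} {T : Type} [NormedAddCommGroup T] [InnerProductSpace ℝ T]

/-- derivative of the chart at `(0, t)` -/
def Slice.A (σ : Slice L T) (t : T) : (σ.c × T) →ₗ[ℝ] EE V where
  toFun y := lift (L.br y.1) (σ.p + σ.j t) + σ.j y.2
  map_add' a b := by ext i; simp; abel
  map_smul' a b := by ext i; simp

def Slice.A0 (σ : Slice L T) : (σ.c × T) ≃ₗ[ℝ] EE V :=
  LinearEquiv.ofBijective (σ.A 0) (by simpa [Slice.A] using σ.bij)

/-- the Jacobian of the slice, normalised at the base point -/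
def Slice.jac (σ : Slice L T) (t : T) : ℝ := |LinearMap.det (σ.A0.symm.toLinearMap ∘ₗ σ.A t)|

/-- the part of the slice within distance `r` of the base point -/
def Slice.pts (σ : Slice L T) (r : ℝ) : Set (EE V) := {x | ∃ t, ‖σ.j t‖ < r ∧ x = σ.p + σ.j t}
end

/-- a commuting tuple with a regular direction -/
structure Patch (L : CL V) where
  p : EE V
  v : Fin 9 → ℝ
  comm : L.Comm p
  unit : v ⬝ᵥ v = 1
  reg : ∀ a, L.br (contr v p) a = 0 → a ∈ L.cent p

namespace Patch
variable {L : CL V} (pt : Patch L)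

abbrev l : Submodule ℝ V := L.cent pt.p
/-- the centre of the centraliser, as a subspace of `V` -/
def z : Submodule ℝ V := ⨅ a : pt.l, LinearMap.ker (L.br a).toLinearMap
/-- tuples in the centre of the centraliser -/
def Z : Set (EE V) := {Y | ∀ i, Y i ∈ pt.z}
/-- heavy directions -/
abbrev H : Submodule ℝ (EE pt.lᗮ) := LinearMap.ker (contr pt.v : EE pt.lᗮ →L[ℝ] pt.lᗮ).toLinearMap
/-- the point of the slice with light part `X` and heavy part `z` -/
def io (X : EE pt.l) (z : pt.H) : EE V := lift pt.l.subtypeL X + lift pt.lᗮ.subtypeL (z : EE pt.lᗮ)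
/-- `ad a` on the complement of the centraliser -/
def adm (a : V) : pt.lᗮ →L[ℝ] pt.lᗮ := pt.lᗮ.orthogonalProjectionOnto ∘L L.br a ∘L pt.lᗮ.subtypeL
/-- the Jacobian -/
def jac (X : EE pt.l) : ℝ := |LinearMap.det (pt.adm (contr pt.v (lift pt.l.subtypeL X))).toLinearMap|
/-- points of the slice near `p` -/
def pts (r : ℝ) : Set (EE V) := {s | (∃ X z, s = pt.io X z) ∧ ‖s - pt.p‖ < r}
/-- points of the slice near `p` and very near to the central tuples -/
def reg' (r κ : ℝ) : Set (EE V) := {s | s ∈ pt.pts r ∧ ∃ Y ∈ pt.Z, ‖s - Y‖ < κ}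
end Patch

/-- commuting tuples whose centraliser has dimension at least `k` -/
def CL.Str (L : CL V) (k : ℕ) : Set (EE V) := {Y | L.Comm Y ∧ k ≤ Module.finrank ℝ (L.cent Y)}

end Vale.Agent.P353
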