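import Vale.Agent.P353.GExtx1

open MeasureTheory NormedSpace
open Complex (I)
open scoped InnerProductSpace ContDiff

noncomputable section
namespace Vale.Agent.P353
variable {V : Type} [NormedAddCommGroup V] [InnerProductSpace ℝ V] [FiniteDimensional ℝ V]
  {T : Type} [NormedAddCommGroup T] [InnerProductSpace ℝ T] [FiniteDimensional ℝ T]

/-- extension of a stabiliser invariant continuous function on the slice -/
theorem Slice.extend {L : CL V} (σ : Slice L T) : ∃ r1 > 0, ∀ r ∈ Set.Ioc 0 r1, ∀ w : T → ℝ,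
    ContinuousOn w {t | ‖σ.j t‖ < r} →
    (∀ g ∈ L.G, ∀ t t', ‖σ.j t‖ < r → ‖σ.j t'‖ < r → lift g (σ.p + σ.j t) = σ.p + σ.j t' →
      w t = w t') →
    ∃ u : EE V → ℝ, ContinuousOn u (L.sat (σ.pts r)) ∧ (∀ g ∈ L.G, ∀ x, u (lift g x) = u x) ∧
      ∀ t, ‖σ.j t‖ < r → u (σ.p + σ.j t) = w t := by
  classical
  obtain ⟨ε, hε, r1, hr1, -, Ψ, hΨ⟩ := σ.loc
  refine ⟨r1, hr1, fun r hr w hw hi => ?_⟩
  obtain ⟨hW, hl, hs⟩ := hΨ r hr.2
  let Rep : EE V → T → Prop := fun x t => ‖σ.j t‖ < r ∧ ∃ g ∈ L.G, lift g x = σ.p + σ.j t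
  let u : EE V → ℝ := fun x => if h : ∃ t, Rep x t then w h.choose else 0
  have hu : ∀ x t, Rep x t → u x = w t := by
    intro x t ht
    have h : ∃ t, Rep x t := ⟨t, ht⟩
    obtain ⟨h1, g, hg, h2⟩ := h.choose_spec
    obtain ⟨h3, g', hg', h4⟩ := ht
    obtain ⟨k, hk, -, h5⟩ := CL.G_inv hg
    simp only [u, dif_pos h]
    refine hi (g' * k) (CL.mul_mem hg' hk) _ _ h1 h3 ?_
    rw [← h2, ← lift_mul, mul_assoc, h5, mul_one, h4]
  have hinv : ∀ g ∈ L.G, ∀ x, u (lift g x) = u x := by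
    intro g hg x
    by_cases h : ∃ t, Rep (lift g x) t
    · obtain ⟨t, h1, k, hk, h2⟩ := h
      rw [hu _ t ⟨h1, k, hk, h2⟩, hu x t ⟨h1, k * g, CL.mul_mem hk hg, by rw [lift_mul, h2]⟩]
    · have h' : ¬ ∃ t, Rep x t := by
        rintro ⟨t, h1, k, hk, h2⟩
        obtain ⟨g', hg', -, h5⟩ := CL.G_inv hg
        exact h ⟨t, h1, k * g', CL.mul_mem hk hg', by
          rw [← lift_mul, mul_assoc, h5, mul_one, h2]⟩
      simp only [u, dif_neg h, dif_neg h']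
  refine ⟨u, fun x hx => ?_, hinv, fun t ht => hu _ t ⟨ht, 1, L.one_mem, lift_one _⟩⟩
  obtain ⟨g, hg, hx⟩ := hx
  have hx' := σ.pts_subset hε r hx
  have hc : Continuous (lift g : EE V →L[ℝ] EE V) := (lift g).continuous
  have h1 : u =ᶠ[nhds x] fun y => w (Ψ (lift g y)).2 := by
    filter_upwards [hc.continuousAt.preimage_mem_nhds (hW.mem_nhds hx')] with y hy
    obtain ⟨z, hz, he⟩ := hy
    rw [← hinv g hg y, ← he, hl z hz, Slice.Phi, hinv _ (L.ex_mem _)]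
    exact hu _ _ ⟨hz.2, 1, L.one_mem, lift_one _⟩
  refine (ContinuousAt.congr ?_ h1.symm).continuousWithinAt
  obtain ⟨z, hz, he⟩ := hx'
  have h2 : ContinuousAt w (Ψ (lift g x)).2 := by
    rw [← he, hl z hz]
    exact hw.continuousAt ((σ.isOpen_T r).mem_nhds hz.2)
  exact h2.comp (f := fun y => (Ψ (lift g y)).2)
    (continuousAt_snd.comp ((hs _ ⟨z, hz, he⟩).continuousAt.comp hc.continuousAt))

omit [FiniteDimensional ℝ V] in
/-- an isometry that maps the slice to itself maps it onto itself -/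
lemma Slice.onto {L : CL V} (σ : Slice L T) {S : EE V →L[ℝ] EE V} (hS : ∀ x, ‖S x‖ = ‖x‖)
    (h : ∀ t, ∃ t', ‖σ.j t'‖ = ‖σ.j t‖ ∧ S (σ.p + σ.j t) = σ.p + σ.j t') (t' : T) :
    ∃ t, ‖σ.j t‖ = ‖σ.j t'‖ ∧ S (σ.p + σ.j t) = σ.p + σ.j t' := by
  have hp : S σ.p = σ.p := by
    obtain ⟨s, h1, h2⟩ := h 0
    rw [map_zero, norm_zero, norm_eq_zero] at h1
    simpa [h1] using h2
  let K : Submodule ℝ (EE V) := LinearMap.range σ.j.toLinearMap
  have hK : ∀ x ∈ K, S.toLinearMap x ∈ K := by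
    rintro _ ⟨t, rfl⟩
    obtain ⟨s, -, h2⟩ := h t
    rw [map_add, hp, add_right_inj] at h2
    exact ⟨s, h2.symm⟩
  have hinj : Function.Injective (S.toLinearMap.restrict hK) := by
    rw [injective_iff_map_eq_zero]
    intro a ha
    have h1 : S a.1 = 0 := congrArg Subtype.val ha
    have h2 := hS a.1
    rw [h1, norm_zero] at h2
    exact Subtype.ext (norm_eq_zero.1 h2.symm)
  obtain ⟨⟨_, t, rfl⟩, ht⟩ := LinearMap.injective_iff_surjective.1 hinj ⟨σ.j t', t', rfl⟩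
  have h3 : S (σ.j t) = σ.j t' := congrArg Subtype.val ht
  exact ⟨t, by rw [← h3, hS], by rw [map_add, hp, h3]⟩

/-- extension of a test function on a slice with trivial stabiliser to an invariant test function;
`Mod.exists_fixed` and the Schur lemma show that the action on `F` of a word of exponentials
depends only on its action on `V` -/
theorem Slice.extend_tst {F : Type} [NormedAddCommGroup F] [InnerProductSpace ℂ F]
    [CompleteSpace F] [FiniteDimensional ℂ F] (M : Mod V F) (G : Gam) (hirr : M.C.Irr)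
    (σ : Slice M.L T) (h1 : ∀ g ∈ M.L.G, lift g σ.p = σ.p → g = 1) :
    ∃ r1 > 0, ∀ r ∈ Set.Ioc 0 r1, ∀ f : T → F, Tst f → tsupport f ⊆ {t | ‖σ.j t‖ < r} →
      ∃ φ : EE V → F, Tst φ ∧ M.Inv φ ∧ tsupport φ ⊆ M.L.sat (σ.pts r) ∧
        (∀ t, ‖σ.j t‖ < r → φ (σ.p + σ.j t) = f t) ∧
        ∀ (R : EE V →L[ℝ] EE V) (U : F →L[ℂ] F) (ξ : V),
          (∀ η x, R (lift (M.L.ex η) x) = lift (M.L.ex η) (R x)) →
          (∀ η, U * M.rho η = M.rho η * U) → (∀ x, ‖R x‖ = ‖x‖) →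
          (∀ t, ∃ t', ‖σ.j t'‖ = ‖σ.j t‖ ∧ lift (M.L.ex ξ) (R (σ.p + σ.j t)) = σ.p + σ.j t' ∧
            f t' = M.rho ξ (U (f t))) → ∀ x, φ (R x) = U (φ x) := by
  classical
  obtain ⟨ε, hε, r1, hr1, hr0, Ψ, hΨ⟩ := σ.loc
  refine ⟨r1, hr1, fun r hr f hf hsupp => ?_⟩
  obtain ⟨hW, hl, hs⟩ := hΨ r hr.2
  let Rep : EE V → ((V →L[ℝ] V) × (F →L[ℂ] F)) × T → Prop := fun x y =>
    y.1 ∈ M.W ∧ ‖σ.j y.2‖ < r ∧ x = lift y.1.1 (σ.p + σ.j y.2)
  let φ : EE V → F := fun x => if h : ∃ y, Rep x y then h.choose.1.2 (f h.choose.2) else 0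
  have hφ : ∀ x y, Rep x y → φ x = y.1.2 (f y.2) := by
    intro x y hy
    have h : ∃ y, Rep x y := ⟨y, hy⟩
    obtain ⟨a1, a2, a3⟩ := h.choose_spec
    obtain ⟨b1, b2, b3⟩ := hy
    simp only [φ, dif_pos h]
    generalize h.choose = z at a1 a2 a3
    obtain ⟨k, hk, k1, k2⟩ := Mod.W_inv b1
    have hG : k.1 * z.1.1 ∈ M.L.G := CL.mul_mem (Mod.W_G hk) (Mod.W_G a1)
    have e1 : lift (k.1 * z.1.1) (σ.p + σ.j z.2) = σ.p + σ.j y.2 := by
      rw [lift_mul, ← a3, b3, ← lift_mul, k2, lift_one]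
    have e2 := h1 _ hG (σ.stab _ hG _ _ (a2.trans_le (hr.2.trans hr0))
      (b2.trans_le (hr.2.trans hr0)) e1).1
    rw [e2, lift_one, add_right_inj] at e1
    have e3 : z.1.1 = y.1.1 := by
      calc z.1.1 = y.1.1 * (k.1 * z.1.1) := by rw [← mul_assoc, k1, one_mul]
        _ = y.1.1 := by rw [e2, mul_one]
    rw [Mod.W_uniq G hirr a1 b1 e3, σ.j_injective e1]
  have hrep : ∀ a ∈ M.W, ∀ x y, Rep x y → Rep (lift a.1 x) (a * y.1, y.2) := by
    rintro a ha x y ⟨b1, b2, b3⟩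
    refine ⟨mul_mem ha b1, b2, ?_⟩
    show _ = lift (a.1 * y.1.1) _
    rw [lift_mul, ← b3]
  have hinv : ∀ a ∈ M.W, ∀ x, φ (lift a.1 x) = a.2 (φ x) := by
    intro a ha x
    by_cases h : ∃ y, Rep x y
    · obtain ⟨y, hy⟩ := h
      rw [hφ _ _ (hrep a ha x y hy), hφ _ _ hy]
      rfl
    · have h' : ¬ ∃ y, Rep (lift a.1 x) y := by
        rintro ⟨y, hy⟩
        obtain ⟨k, hk, -, k2⟩ := Mod.W_inv ha
        have := hrep k hk _ y hy
        rw [← lift_mul, k2, lift_one] at this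
        exact h ⟨_, this⟩
      simp only [φ, dif_neg h, dif_neg h', map_zero]
  have hval : ∀ t, ‖σ.j t‖ < r → φ (σ.p + σ.j t) = f t := fun t ht =>
    hφ _ (1, t) ⟨one_mem _, ht, (lift_one _).symm⟩
  let K := M.L.sat ((fun t => σ.p + σ.j t) '' tsupport f)
  have hK : IsCompact K := CL.isCompact_sat (hf.2.isCompact.image (by fun_prop))
  have hKs : K ⊆ M.L.sat (σ.pts r) := CL.sat_mono (by
    rintro _ ⟨t, ht, rfl⟩
    exact ⟨t, hsupp ht, rfl⟩)
  have hsK : Function.support φ ⊆ K := by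
    intro x hx
    by_cases h : ∃ y, Rep x y
    · obtain ⟨y, hy⟩ := h
      obtain ⟨k, hk, -, k2⟩ := Mod.W_inv hy.1
      refine ⟨k.1, Mod.W_G hk, y.2, subset_tsupport f fun h0 => hx ?_, ?_⟩
      · rw [hφ _ _ hy, h0, map_zero]
      · rw [hy.2.2, ← lift_mul, k2, lift_one]
    · exact absurd (by simp only [φ, dif_neg h]) hx
  have hts : tsupport φ ⊆ K := closure_minimal hsK hK.isClosed
  refine ⟨φ, ⟨contDiff_iff_contDiffAt.2 fun x => ?_, hK.of_isClosed_subset (isClosed_tsupport φ) hts⟩,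
    fun ξ x => hinv _ (M.gen_mem ξ) x, hts.trans hKs, hval, fun R U ξ hR hU hn ht x => ?_⟩
  · by_cases hx : x ∈ K
    · obtain ⟨g, hg, hx⟩ := hKs hx
      have hx' := σ.pts_subset hε r hx
      have ho : IsOpen {g : V →L[ℝ] V | lift g x ∈ σ.Phi '' σ.box ε r} :=
        hW.preimage (continuous_lift.comp (continuous_id.prodMk continuous_const))
      obtain ⟨g', hg1, hg2⟩ := mem_closure_iff.1 hg _ ho hx'
      obtain ⟨k, hk, rfl⟩ := Mod.W_of_closure hg2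
      obtain ⟨a, ha, -, k2⟩ := Mod.W_inv hk
      have hc : ContDiff ℝ ∞ (lift k.1 : EE V →L[ℝ] EE V) := (lift k.1).contDiff
      have e1 : φ =ᶠ[nhds x] fun y =>
          a.2 (M.rho ((Ψ (lift k.1 y)).1 : V) (f (Ψ (lift k.1 y)).2)) := by
        filter_upwards [hc.continuous.continuousAt.preimage_mem_nhds (hW.mem_nhds hg1)] with y hy
        obtain ⟨z, hz, he⟩ := hy
        have e2 : y = lift a.1 (lift k.1 y) := by rw [← lift_mul, k2, lift_one]
        rw [← he, hl z hz, ← hval _ hz.2, ← hinv _ (M.gen_mem _), e2, hinv a ha, ← he]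
        rfl
      refine ContDiffAt.congr_of_eventuallyEq ?_ e1
      have e3 : ContDiffAt ℝ ∞ (fun y => Ψ (lift k.1 y)) x := (hs _ hg1).comp x hc.contDiffAt
      have e4 : ContDiffAt ℝ ∞ (fun y => M.rho ((Ψ (lift k.1 y)).1 : V)) x :=
        M.contDiff_rho.contDiffAt.comp x (σ.c.subtypeL.contDiff.contDiffAt.comp x e3.fst)
      have e5 : ContDiffAt ℝ ∞ (fun y => f (Ψ (lift k.1 y)).2) x :=
        hf.1.contDiffAt.comp x e3.snd
      have e6 : ContDiffAt ℝ ∞ (fun y => (M.rho ((Ψ (lift k.1 y)).1 : V)).restrictScalars ℝ) x :=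
        (ContinuousLinearMap.restrictScalarsL ℂ F F ℝ ℝ).contDiff.contDiffAt.comp x e4
      exact (a.2.restrictScalars ℝ).contDiff.contDiffAt.comp x (e6.clm_apply e5)
    · refine (contDiffAt_const (c := (0 : F))).congr_of_eventuallyEq ?_
      filter_upwards [hK.isClosed.isOpen_compl.mem_nhds hx] with y hy
      by_contra h0
      exact hy (hsK h0)
  · have hneg : M.rho (-ξ) * M.rho ξ = 1 :=
      Mod.W_uniq G hirr (mul_mem (M.gen_mem (-ξ)) (M.gen_mem ξ)) (one_mem _) (M.L.ex_neg ξ).2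
    by_cases h : ∃ y, Rep x y
    · obtain ⟨y, b1, b2, b3⟩ := h
      obtain ⟨t', c1, c2, c3⟩ := ht y.2
      obtain ⟨d1, d2⟩ := Mod.W_comm hR hU b1
      have e1 : R (σ.p + σ.j y.2) = lift (M.L.ex (-ξ)) (σ.p + σ.j t') := by
        rw [← c2, ← lift_mul, (M.L.ex_neg ξ).2, lift_one]
      have e2 : φ (lift (M.L.ex (-ξ)) (σ.p + σ.j t')) = M.rho (-ξ) (φ (σ.p + σ.j t')) :=
        hinv _ (M.gen_mem (-ξ)) _
      rw [hφ x y ⟨b1, b2, b3⟩, b3, d1, hinv _ b1, e1, e2, hval t' (c1 ▸ b2), c3]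
      show y.1.2 ((M.rho (-ξ) * M.rho ξ) (U (f y.2))) = (U * y.1.2) (f y.2)
      rw [hneg, d2]
      rfl
    · have h' : ¬ ∃ y, Rep (R x) y := by
        rintro ⟨y, b1, b2, b3⟩
        obtain ⟨t, c1, c2⟩ := σ.onto (S := lift (M.L.ex ξ) ∘L R)
          (fun z => by
            show ‖lift (M.L.ex ξ) (R z)‖ = _
            rw [CL.G_norm (M.L.ex_mem ξ), hn])
          (fun t => (ht t).imp fun _ h => ⟨h.1, h.2.1⟩) y.2
        have hm := mul_mem b1 (M.gen_mem ξ)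
        refine h ⟨(_, t), hm, c1 ▸ b2, ?_⟩
        have e1 : R x = R (lift (y.1 * (M.L.ex ξ, M.rho ξ)).1 (σ.p + σ.j t)) := by
          rw [(Mod.W_comm hR hU hm).1, b3, ← c2]
          exact (lift_mul _ _ _).symm
        have e2 := hn (x - lift (y.1 * (M.L.ex ξ, M.rho ξ)).1 (σ.p + σ.j t))
        rw [map_sub, e1, sub_self, norm_zero] at e2
        exact sub_eq_zero.1 (norm_eq_zero.1 e2.symm)
      simp only [φ, dif_neg h, dif_neg h', map_zero]

end Vale.Agent.P353
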