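import Vale.Agent.P353.GIntx1
import Vale.Agent.P353.AFock2

open MeasureTheory NormedSpace
open scoped InnerProductSpace ContDiff

noncomputable section
namespace Vale.Agent.P353
variable {V : Type} [NormedAddCommGroup V] [InnerProductSpace ℝ V] [FiniteDimensional ℝ V]
  {F : Type} [NormedAddCommGroup F] [InnerProductSpace ℂ F] [CompleteSpace F]

/-- words in the exponentials together with their action on the module -/
def Mod.W (M : Mod V F) : Submonoid ((V →L[ℝ] V) × (F →L[ℂ] F)) :=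
  Submonoid.closure (Set.range fun ξ => (M.L.ex ξ, M.rho ξ))

lemma Mod.gen_mem (M : Mod V F) (ξ : V) : (M.L.ex ξ, M.rho ξ) ∈ M.W :=
  Submonoid.subset_closure ⟨ξ, rfl⟩

lemma Mod.W_G {M : Mod V F} {a : (V →L[ℝ] V) × (F →L[ℂ] F)} (h : a ∈ M.W) : a.1 ∈ M.L.G := by
  induction h using Submonoid.closure_induction with
  | mem x hx => obtain ⟨ξ, rfl⟩ := hx; exact M.L.ex_mem ξ
  | one => exact M.L.one_mem
  | mul x y _ _ hx hy => exact CL.mul_mem hx hy

lemma Mod.W_inv {M : Mod V F} {a : (V →L[ℝ] V) × (F →L[ℂ] F)} (h : a ∈ M.W) :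
    ∃ b ∈ M.W, a.1 * b.1 = 1 ∧ b.1 * a.1 = 1 := by
  induction h using Submonoid.closure_induction with
  | mem x hx => obtain ⟨ξ, rfl⟩ := hx; exact ⟨_, M.gen_mem (-ξ), M.L.ex_neg ξ⟩
  | one => exact ⟨1, one_mem _, by simp, by simp⟩
  | mul x y _ _ hx hy =>
    obtain ⟨b, hb, h1, h2⟩ := hx
    obtain ⟨c, hc, h3, h4⟩ := hy
    refine ⟨c * b, mul_mem hc hb, ?_, ?_⟩
    · show x.1 * y.1 * (c.1 * b.1) = 1
      rw [mul_assoc, ← mul_assoc y.1, h3, one_mul, h1]
    · show c.1 * b.1 * (x.1 * y.1) = 1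
      rw [mul_assoc, ← mul_assoc b.1, h2, one_mul, h4]

lemma Mod.W_of_closure {M : Mod V F} {g : V →L[ℝ] V}
    (h : g ∈ Submonoid.closure (Set.range M.L.ex)) : ∃ a ∈ M.W, a.1 = g := by
  induction h using Submonoid.closure_induction with
  | mem x hx => obtain ⟨ξ, rfl⟩ := hx; exact ⟨_, M.gen_mem ξ, rfl⟩
  | one => exact ⟨1, one_mem _, rfl⟩
  | mul x y _ _ hx hy =>
    obtain ⟨b, hb, rfl⟩ := hx
    obtain ⟨c, hc, rfl⟩ := hy
    exact ⟨b * c, mul_mem hb hc, rfl⟩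

lemma Mod.W_spec {M : Mod V F} {w : F} (hw : ∀ ξ, M.rho ξ w = w)
    {a : (V →L[ℝ] V) × (F →L[ℂ] F)} (h : a ∈ M.W) :
    a.2 ∈ unitary (F →L[ℂ] F) ∧ a.2 w = w ∧ ∀ u, a.2 * M.C.th u = M.C.th (lift a.1 u) * a.2 := by
  induction h using Submonoid.closure_induction with
  | mem x hx => obtain ⟨ξ, rfl⟩ := hx; exact ⟨M.rho_unitary ξ, hw ξ, M.rho_th ξ⟩
  | one => exact ⟨one_mem _, rfl, fun u => by simp [lift_one]⟩
  | mul x y _ _ hx hy =>
    refine ⟨mul_mem hx.1 hy.1, ?_, fun u => ?_⟩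
    · show x.2 (y.2 w) = w
      rw [hy.2.1, hx.2.1]
    · show x.2 * y.2 * _ = M.C.th (lift (x.1 * y.1) u) * (x.2 * y.2)
      rw [mul_assoc, hy.2.2, ← mul_assoc, hx.2.2, lift_mul, mul_assoc]

/-- the action on the module is determined by the action on the Lie algebra -/
lemma Mod.W_uniq [FiniteDimensional ℂ F] {M : Mod V F} (G : Gam) (hirr : M.C.Irr)
    {a b : (V →L[ℝ] V) × (F →L[ℂ] F)} (ha : a ∈ M.W) (hb : b ∈ M.W) (h : a.1 = b.1) :
    a.2 = b.2 := by
  rcases subsingleton_or_nontrivial F with hF | hF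
  · ext v; exact Subsingleton.elim _ _
  obtain ⟨w, hw0, -, -, hw⟩ := M.exists_fixed G
  obtain ⟨-, a2, a3⟩ := Mod.W_spec hw ha
  obtain ⟨b1, b2, b3⟩ := Mod.W_spec hw hb
  have h1 : star b.2 * b.2 = 1 := b1.1
  have h2 : b.2 * star b.2 = 1 := b1.2
  obtain ⟨c, hc⟩ := hirr.scalar (A := star b.2 * a.2) fun u => by
    have h3 : star b.2 * M.C.th (lift b.1 u) = M.C.th u * star b.2 := by
      calc star b.2 * M.C.th (lift b.1 u)
          = star b.2 * (M.C.th (lift b.1 u) * b.2) * star b.2 := by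
            rw [mul_assoc, mul_assoc, h2, mul_one]
        _ = _ := by rw [← b3, ← mul_assoc, h1, one_mul]
    rw [mul_assoc, a3, h, ← mul_assoc, h3, mul_assoc]
  have h4 : (star b.2 * a.2) w = w := by
    show star b.2 (a.2 w) = w
    rw [a2]
    conv_lhs => rw [← b2]
    show (star b.2 * b.2) w = w
    rw [h1]; rfl
  rw [hc] at h4
  have h5 : c = 1 := by
    have : (c - 1) • w = 0 := by
      rw [sub_smul, one_smul, sub_eq_zero]; simpa using h4
    exact sub_eq_zero.1 ((smul_eq_zero.1 this).resolve_right hw0)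
  rw [h5, one_smul] at hc
  calc a.2 = b.2 * (star b.2 * a.2) := by rw [← mul_assoc, h2, one_mul]
    _ = b.2 := by rw [hc, mul_one]

lemma Mod.W_comm {M : Mod V F} {R : EE V →L[ℝ] EE V} {U : F →L[ℂ] F}
    (hR : ∀ η x, R (lift (M.L.ex η) x) = lift (M.L.ex η) (R x))
    (hU : ∀ η, U * M.rho η = M.rho η * U) {a : (V →L[ℝ] V) × (F →L[ℂ] F)} (h : a ∈ M.W) :
    (∀ x, R (lift a.1 x) = lift a.1 (R x)) ∧ U * a.2 = a.2 * U := by
  induction h using Submonoid.closure_induction with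
  | mem x hx => obtain ⟨ξ, rfl⟩ := hx; exact ⟨hR ξ, hU ξ⟩
  | one => exact ⟨fun x => by simp [lift_one], by simp⟩
  | mul x y _ _ hx hy =>
    refine ⟨fun z => ?_, ?_⟩
    · show R (lift (x.1 * y.1) z) = lift (x.1 * y.1) (R z)
      rw [lift_mul, lift_mul, hx.1, hy.1]
    · show U * (x.2 * y.2) = x.2 * y.2 * U
      rw [← mul_assoc, hx.2, mul_assoc, hy.2, mul_assoc]

lemma Mod.contDiff_rho (M : Mod V F) : ContDiff ℝ ∞ M.rho := by
  let l : V →ₗ[ℝ] (F →L[ℂ] F) :=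
    { toFun := fun ξ => M.C.spin (lift (M.L.br ξ))
      map_add' := fun a b => by
        rw [← M.C.spin_add]
        congr 1
        ext x i; simp
      map_smul' := fun a b => by
        rw [RingHom.id_apply, ← M.C.spin_smul]
        congr 1
        ext x i; simp }
  exact contDiff_exp_clm.comp (LinearMap.toContinuousLinearMap l).contDiff

end Vale.Agent.P353
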