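import Vale.Agent.P353.GDefs

open MeasureTheory NormedSpace
open Complex (I)
open scoped InnerProductSpace ContDiff

noncomputable section
namespace Vale.Agent.P353
variable {V : Type} [NormedAddCommGroup V] [InnerProductSpace ℝ V] [FiniteDimensional ℝ V]
  {L : CL V}

omit [FiniteDimensional ℝ V] in
theorem ggroup_ind {P : (V →L[ℝ] V) → Prop} (hc : IsClosed {g | P g}) (h1 : P 1)
    (hs : ∀ ξ g, P g → P (L.ex ξ * g)) {g : V →L[ℝ] V} (hg : g ∈ L.G) : P g := by
  refine closure_minimal (t := {g | P g}) (fun g hg => ?_) hc hg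
  induction hg using Submonoid.closure_induction_left with
  | one => exact h1
  | mul_left x hx y _ ih =>
    obtain ⟨ξ, rfl⟩ := hx
    exact hs ξ y ih

omit [FiniteDimensional ℝ V] in
theorem ggroup_cent {Y : EE V} {a : V} : a ∈ L.cent Y ↔ ∀ i, L.br (Y i) a = 0 := by
  simp [CL.cent]

theorem CL.ex_mem (L : CL V) (ξ : V) : L.ex ξ ∈ L.G :=
  subset_closure (Submonoid.subset_closure ⟨ξ, rfl⟩)
theorem CL.one_mem (L : CL V) : 1 ∈ L.G := subset_closure (Submonoid.one_mem _)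
theorem CL.mul_mem {g h : V →L[ℝ] V} (hg : g ∈ L.G) (hh : h ∈ L.G) : g * h ∈ L.G :=
  (Submonoid.closure (Set.range L.ex)).topologicalClosure.mul_mem hg hh
theorem CL.G_inner {g : V →L[ℝ] V} (hg : g ∈ L.G) (a b : V) : ⟪g a, g b⟫_ℝ = ⟪a, b⟫_ℝ := by
  refine ggroup_ind (P := fun g => ⟪g a, g b⟫_ℝ = ⟪a, b⟫_ℝ) (isClosed_eq (by fun_prop)
    continuous_const) rfl (fun ξ g h => ?_) hg
  exact (L.ex_inner ξ (g a) (g b)).trans h
theorem ggroup_norm {g : V →L[ℝ] V} (hg : g ∈ L.G) (a : V) : ‖g a‖ = ‖a‖ := by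
  rw [norm_eq_sqrt_real_inner, CL.G_inner hg, ← norm_eq_sqrt_real_inner]
theorem CL.G_br {g : V →L[ℝ] V} (hg : g ∈ L.G) (a b : V) :
    g (L.br a b) = L.br (g a) (g b) := by
  refine ggroup_ind (P := fun g => g (L.br a b) = L.br (g a) (g b)) (isClosed_eq (by fun_prop)
    (by fun_prop)) rfl (fun ξ g h => ?_) hg
  exact (congrArg (L.ex ξ) h).trans (L.ex_br ξ _ _)
theorem CL.G_inv {g : V →L[ℝ] V} (hg : g ∈ L.G) : ∃ h ∈ L.G, g * h = 1 ∧ h * g = 1 := by
  have hs : ∀ ξ, star (L.ex ξ) = L.ex (-ξ) := fun ξ => by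
    rw [ContinuousLinearMap.star_eq_adjoint, eq_comm, ContinuousLinearMap.eq_adjoint_iff]
    intro a b
    rw [← L.ex_inner ξ]
    exact congrArg (fun z => ⟪z, L.ex ξ b⟫_ℝ) (DFunLike.congr_fun (L.ex_neg ξ).1 a)
  refine ⟨star g, ggroup_ind (P := fun g => star g ∈ L.G ∧ g * star g = 1 ∧ star g * g = 1)
    ((isClosed_closure.preimage continuous_star).inter ((isClosed_eq (by fun_prop)
      continuous_const).inter (isClosed_eq (by fun_prop) continuous_const)))
    (by simpa using L.one_mem) (fun ξ g h => ?_) hg⟩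
  rw [star_mul, hs]
  refine ⟨CL.mul_mem h.1 (L.ex_mem _), ?_, ?_⟩
  · rw [mul_assoc, ← mul_assoc g, h.2.1, one_mul, (L.ex_neg ξ).1]
  · rw [mul_assoc, ← mul_assoc (L.ex _), (L.ex_neg ξ).2, one_mul, h.2.2]
theorem CL.G_center {g : V →L[ℝ] V} (hg : g ∈ L.G) {a : V} (ha : a ∈ L.center) : g a = a := by
  refine ggroup_ind (P := fun g => g a = a) (isClosed_eq (by fun_prop) continuous_const) rfl
    (fun ξ g h => ?_) hg
  have h0 : L.br a = 0 := ha
  have h1 := expL_intertwine (ContinuousLinearMap.toSpanSingleton ℝ a) (T := L.br ξ) (T' := 0)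
    (fun u => by simp [L.skew ξ a, h0]) 1
  have h2 : L.ex ξ a = a := by simpa [expL, CL.ex] using h1
  exact (congrArg (L.ex ξ) h).trans h2
theorem CL.isCompact_G (L : CL V) : IsCompact L.G := by
  refine Metric.isCompact_of_isClosed_isBounded isClosed_closure
    ((Metric.isBounded_closedBall (x := 0) (r := 1)).subset fun g hg => ?_)
  rw [mem_closedBall_zero_iff]
  exact g.opNorm_le_bound zero_le_one fun a => by rw [ggroup_norm hg, one_mul]
theorem CL.G_norm {n : ℕ} {g : V →L[ℝ] V} (hg : g ∈ L.G) (x : PiLp 2 (fun _ : Fin n => V)) :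
    ‖lift g x‖ = ‖x‖ := by
  simp only [PiLp.norm_eq_of_L2, lift_apply, ggroup_norm hg]
theorem lift_mul {n : ℕ} (g h : V →L[ℝ] V) (x : PiLp 2 (fun _ : Fin n => V)) :
    lift (g * h) x = lift g (lift h x) := rfl
theorem lift_one {n : ℕ} (x : PiLp 2 (fun _ : Fin n => V)) : lift (1 : V →L[ℝ] V) x = x := rfl
theorem continuous_lift {n : ℕ} :
    Continuous fun y : (V →L[ℝ] V) × PiLp 2 (fun _ : Fin n => V) => lift y.1 y.2 :=
  (PiLp.continuous_toLp 2 fun _ : Fin n => V).comp (continuous_pi fun i => by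
    change Continuous fun y : (V →L[ℝ] V) × PiLp 2 (fun _ : Fin n => V) => y.1 (y.2 i)
    fun_prop)
theorem CL.SInv.G {α : Type} [TopologicalSpace α] [T2Space α] {u : EE V → α} (h : L.SInv u)
    (hc : Continuous u) {g : V →L[ℝ] V} (hg : g ∈ L.G) (x : EE V) : u (lift g x) = u x := by
  refine ggroup_ind (P := fun g => u (lift g x) = u x) (isClosed_eq (hc.comp
    (continuous_lift.comp (continuous_id.prodMk continuous_const))) continuous_const) rfl
    (fun ξ g hx => ?_) hg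
  exact (h ξ (lift g x)).trans hx
theorem CL.sinv_of_G {α : Type} {u : EE V → α} (h : ∀ g ∈ L.G, ∀ x, u (lift g x) = u x) :
    L.SInv u := fun ξ x => h _ (L.ex_mem ξ) x
theorem CL.subset_sat (A : Set (EE V)) : A ⊆ L.sat A := fun _ hx => ⟨1, L.one_mem, hx⟩
theorem CL.sat_mono {A B : Set (EE V)} (h : A ⊆ B) : L.sat A ⊆ L.sat B :=
  fun _ ⟨g, hg, hx⟩ => ⟨g, hg, h hx⟩
theorem CL.sat_lift {A : Set (EE V)} {g : V →L[ℝ] V} (hg : g ∈ L.G) (x : EE V) :
    lift g x ∈ L.sat A ↔ x ∈ L.sat A := by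
  refine ⟨fun ⟨h, hh, hx⟩ => ⟨h * g, CL.mul_mem hh hg, hx⟩, fun ⟨h, hh, hx⟩ => ?_⟩
  obtain ⟨g', hg', -, e⟩ := CL.G_inv hg
  refine ⟨h * g', CL.mul_mem hh hg', ?_⟩
  rwa [← lift_mul, mul_assoc, e, mul_one]
theorem CL.sat_sat (A : Set (EE V)) : L.sat (L.sat A) = L.sat A :=
  Set.Subset.antisymm (fun x ⟨_, hg, hx⟩ => (CL.sat_lift hg x).1 hx) (CL.subset_sat _)
theorem CL.isOpen_sat {A : Set (EE V)} (h : IsOpen A) : IsOpen (L.sat A) := by
  have e : L.sat A = ⋃ g ∈ L.G, lift g ⁻¹' A := by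
    ext x
    simp [CL.sat]
  rw [e]
  exact isOpen_biUnion fun g _ => h.preimage (lift g).continuous
theorem CL.isCompact_sat {A : Set (EE V)} (h : IsCompact A) : IsCompact (L.sat A) := by
  have e : L.sat A = (fun y : (V →L[ℝ] V) × EE V => lift y.1 y.2) '' L.G ×ˢ A := by
    ext x
    refine ⟨fun ⟨g, hg, hx⟩ => ?_, ?_⟩
    · obtain ⟨g', hg', -, e⟩ := CL.G_inv hg
      refine ⟨(g', lift g x), ⟨hg', hx⟩, ?_⟩
      change lift g' (lift g x) = x
      rw [← lift_mul, e, lift_one]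
    · rintro ⟨y, hy, rfl⟩
      exact (CL.sat_lift hy.1 _).2 (CL.subset_sat _ hy.2)
  rw [e]
  exact (L.isCompact_G.prod h).image continuous_lift
theorem CL.Str_lift {k : ℕ} {g : V →L[ℝ] V} (hg : g ∈ L.G) {Y : EE V} (h : Y ∈ L.Str k) :
    lift g Y ∈ L.Str k := by
  refine ⟨fun i j => ?_, h.2.trans ?_⟩
  · rw [lift_apply, lift_apply, ← CL.G_br hg, h.1 i j, map_zero]
  obtain ⟨g', -, -, e⟩ := CL.G_inv hg
  refine LinearMap.finrank_le_finrank_of_injective
    (f := g.toLinearMap.restrict (p := L.cent Y) (q := L.cent (lift g Y)) fun a ha =>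
      ggroup_cent.2 fun i => ?_) fun a b hab => Subtype.ext ?_
  · change L.br (g (Y i)) (g a) = 0
    rw [← CL.G_br hg, ggroup_cent.1 ha i, map_zero]
  · have h1 : g a = g b := congrArg Subtype.val hab
    have h2 : (g' * g) a = (g' * g) b := congrArg g' h1
    rwa [e] at h2
theorem CL.isClosed_Str (L : CL V) (k : ℕ) : IsClosed (L.Str k) := by
  let Φ : EE V → V →L[ℝ] (Fin 9 → V) := fun Y => ContinuousLinearMap.pi fun i => L.br (Y i)
  have hΦ : Continuous Φ := by
    refine continuous_clm_apply.2 fun a => continuous_pi fun i => ?_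
    change Continuous fun Y : EE V => L.br (Y i) a
    fun_prop
  have h1 : IsClosed {Y : EE V | L.Comm Y} := by
    simp only [CL.Comm, Set.ofPred_forall]
    exact isClosed_iInter fun i => isClosed_iInter fun j =>
      isClosed_eq (by fun_prop) continuous_const
  have h2 := ((isOpen_setOfPred_nat_le_rank (𝕜 := ℝ) (E := V) (F := Fin 9 → V)
    (Module.finrank ℝ V + 1 - k)).preimage hΦ).isClosed_compl
  have e : {Y : EE V | k ≤ Module.finrank ℝ (L.cent Y)} = (Φ ⁻¹' {f : V →L[ℝ] (Fin 9 → V) |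
      ((Module.finrank ℝ V + 1 - k : ℕ) : Cardinal) ≤ (f : V →ₗ[ℝ] Fin 9 → V).rank})ᶜ := by
    ext Y
    have h3 : LinearMap.ker (Φ Y).toLinearMap = L.cent Y := by
      ext a
      rw [ggroup_cent, LinearMap.mem_ker]
      exact funext_iff
    have h4 := (Φ Y).toLinearMap.finrank_range_add_finrank_ker
    rw [h3] at h4
    simp only [Set.mem_ofPred_eq, Set.mem_compl_iff, Set.mem_preimage, LinearMap.rank]
    rw [← Module.finrank_eq_rank, Nat.cast_le]
    omega
  rw [← e] at h2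
  exact h1.inter h2
theorem CL.Str_smul {k : ℕ} {Y : EE V} (h : Y ∈ L.Str k) (c : ℝ) : c • Y ∈ L.Str k := by
  refine ⟨fun i j => by simp [h.1 i j], h.2.trans (Submodule.finrank_mono fun a ha => ?_)⟩
  exact ggroup_cent.2 fun i => by simp [ggroup_cent.1 ha i]
/-- the support of an invariant function is invariant -/
theorem Mod.Inv.tsupport_lift {F : Type} [NormedAddCommGroup F] [InnerProductSpace ℂ F]
    [CompleteSpace F] {M : Mod V F} {φ : EE V → F} (h : M.Inv φ) (hc : Continuous φ)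
    {g : V →L[ℝ] V} (hg : g ∈ M.L.G) {x : EE V} (hx : x ∈ tsupport φ) : lift g x ∈ tsupport φ :=
  map_mem_closure (lift g).continuous hx fun y hy e => hy (norm_eq_zero.1
    ((h.norm.G hc.norm hg y).symm.trans (norm_eq_zero.2 e)))
/-- the gradient of an invariant function is equivariant -/
theorem CL.SInv.gradient {u : EE V → ℝ} (h : L.SInv u) (hd : Differentiable ℝ u)
    {g : V →L[ℝ] V} (hg : g ∈ L.G) (x : EE V) :
    gradient u (lift g x) = lift g (gradient u x) := by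
  obtain ⟨g', -, e, -⟩ := CL.G_inv hg
  refine ext_inner_right ℝ fun z => ?_
  obtain ⟨y, rfl⟩ : ∃ y, z = lift g y := ⟨lift g' z, by rw [← lift_mul, e, lift_one]⟩
  have h1 : u ∘ lift g = u := funext (h.G hd.continuous hg)
  have h2 := fderiv_comp x (hd (lift g x)) (lift (n := 9) g).differentiableAt
  rw [h1, ContinuousLinearMap.fderiv] at h2
  have h3 : ∀ a b : EE V, ⟪lift g a, lift g b⟫_ℝ = ⟪a, b⟫_ℝ := fun a b => by
    simp only [PiLp.inner_apply, lift_apply, CL.G_inner hg]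
  rw [h3, inner_gradient_left, inner_gradient_left, h2]
  rfl

end Vale.Agent.P353
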