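import Vale.Agent.P353.GIntx2

open MeasureTheory NormedSpace
open Complex (I)
open scoped InnerProductSpace ContDiff

noncomputable section
namespace Vale.Agent.P353
variable {V : Type} [NormedAddCommGroup V] [InnerProductSpace ℝ V] [FiniteDimensional ℝ V]
  [MeasurableSpace V] [BorelSpace V]
  {L : CL V} {T : Type} [NormedAddCommGroup T] [InnerProductSpace ℝ T] [FiniteDimensional ℝ T]
  [MeasurableSpace T] [BorelSpace T]

omit [MeasurableSpace V] [BorelSpace V] in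
/-- a bi-invariant probability measure on the group -/
theorem CL.exists_haar (L : CL V) : ∃ (_ : MeasurableSpace L.G) (_ : BorelSpace L.G)
    (μ : Measure L.G), IsProbabilityMeasure μ ∧ μ.IsOpenPosMeasure ∧
    ∀ (h : V →L[ℝ] V) (hh : h ∈ L.G),
      MeasurePreserving (fun g : L.G => (⟨g * h, CL.mul_mem g.2 hh⟩ : L.G)) μ μ :=
  L.exists_haar'

omit [MeasurableSpace V] [BorelSpace V] [FiniteDimensional ℝ T] [MeasurableSpace T]
  [BorelSpace T] in
/-- the set of group elements that move a point of the slice into the chart image does not depend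
on the point -/
lemma Slice.enter (σ : Slice L T) {ε r : ℝ} (hr : r ≤ σ.r0) {t t' : T} (ht : ‖σ.j t‖ < r)
    (ht' : ‖σ.j t'‖ < r) {g : V →L[ℝ] V} (hg : g ∈ L.G)
    (h : lift g (σ.p + σ.j t) ∈ σ.Phi '' σ.box ε r) :
    lift g (σ.p + σ.j t') ∈ σ.Phi '' σ.box ε r := by
  obtain ⟨y, hy, he⟩ := h
  have hk : L.ex (-(y.1 : V)) * g ∈ L.G := CL.mul_mem (L.ex_mem _) hg
  have h1 : lift (L.ex (-(y.1 : V)) * g) (σ.p + σ.j t) = σ.p + σ.j y.2 := by
    rw [lift_mul, ← he, Slice.Phi, ← lift_mul, (L.ex_neg _).2, lift_one]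
  have h2 := (σ.stab _ hk t y.2 (ht.trans_le hr) (lt_of_lt_of_le hy.2 hr) h1).1
  obtain ⟨s, hs, h3⟩ := σ.fix hk h2 t'
  refine ⟨(y.1, s), ⟨hy.1, ?_⟩, ?_⟩
  · show ‖σ.j s‖ < r
    rw [hs]; exact ht'
  · show lift (L.ex (y.1 : V)) (σ.p + σ.j s) = _
    rw [← h3, ← lift_mul, ← mul_assoc, (L.ex_neg _).1, one_mul]

/-- change of variables in the chart -/
lemma Slice.chart_integral (σ : Slice L T) {ε : ℝ} (hε : 0 < ε) : ∃ c > 0, ∀ r : ℝ,
    Set.InjOn σ.Phi (σ.box ε r) → ∀ u : EE V → ℝ, L.SInv u →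
      ∫ x in σ.Phi '' σ.box ε r, u x =
        c * ∫ t in {t | ‖σ.j t‖ < r}, σ.jac t * u (σ.p + σ.j t) := by
  obtain ⟨h, hc, h0, hd⟩ := σ.det_Phi
  let ν : Measure (σ.c × T) := (volume : Measure σ.c).prod (volume : Measure T)
  let e : (σ.c × T) ≃L[ℝ] EE V := σ.A0.toContinuousLinearEquiv
  have : (ν.map e).IsAddHaarMeasure := e.isAddHaarMeasure_map ν
  have hv := Measure.isAddLeftInvariant_eq_smul (volume : Measure (EE V)) (ν.map e)
  have hκ := Measure.addHaarScalarFactor_pos_of_isAddHaarMeasure (volume : Measure (EE V)) (ν.map e)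
  set κ := Measure.addHaarScalarFactor (volume : Measure (EE V)) (ν.map e)
  have hI : 0 < ∫ a in Metric.ball (0 : σ.c) ε, |h a| := by
    rw [setIntegral_pos_iff_support_of_nonneg_ae (Filter.Eventually.of_forall fun a => abs_nonneg _)]
    · refine IsOpen.measure_pos _ (hc.abs.isOpen_support.inter Metric.isOpen_ball) ⟨0, ?_, ?_⟩
      · simp [h0]
      · exact Metric.mem_ball_self hε
    · exact (hc.abs.continuousOn.integrableOn_compact (isCompact_closedBall 0 ε)).mono_set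
        Metric.ball_subset_closedBall
  refine ⟨κ * ∫ a in Metric.ball (0 : σ.c) ε, |h a|, mul_pos (by exact_mod_cast hκ) hI,
    fun r hinj u hu => ?_⟩
  have hdf : ∀ y, HasFDerivAt (fun y => e.symm (σ.Phi y))
      ((e.symm : EE V →L[ℝ] σ.c × T) ∘L fderiv ℝ σ.Phi y) y := fun y =>
    (e.symm : EE V →L[ℝ] σ.c × T).hasFDerivAt.comp y
      ((σ.contDiff_Phi.differentiable (by simp)) y).hasFDerivAt
  have h1 := integral_image_eq_integral_abs_det_fderiv_smul ν (σ.isOpen_box ε r).measurableSet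
    (fun y _ => (hdf y).hasFDerivWithinAt)
    (fun a ha b hb hab => hinj ha hb (e.symm.injective hab)) (fun y => u (e y))
  have h2 : (fun y => e.symm (σ.Phi y)) '' σ.box ε r = e ⁻¹' (σ.Phi '' σ.box ε r) := by
    ext y
    constructor
    · rintro ⟨z, hz, rfl⟩
      exact ⟨z, hz, by simp⟩
    · rintro ⟨z, hz, he⟩
      exact ⟨z, hz, by simp [he]⟩
  have h3 : ∀ y : σ.c × T, |((e.symm : EE V →L[ℝ] σ.c × T) ∘L fderiv ℝ σ.Phi y).det| •
      u (e (e.symm (σ.Phi y))) = |h y.1| * (σ.jac y.2 * u (σ.p + σ.j y.2)) := by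
    intro y
    have h4 : |((e.symm : EE V →L[ℝ] σ.c × T) ∘L fderiv ℝ σ.Phi y).det| =
        |h y.1| * σ.jac y.2 := hd y
    rw [h4, e.apply_symm_apply, Slice.Phi, hu, smul_eq_mul, mul_assoc]
  simp only [h3] at h1
  rw [h2] at h1
  have h5 : ∫ x in σ.Phi '' σ.box ε r, u x ∂(ν.map e) =
      ∫ y in e ⁻¹' (σ.Phi '' σ.box ε r), u (e y) ∂ν :=
    e.toHomeomorph.measurableEmbedding.setIntegral_map _ _
  have h6 := setIntegral_prod_mul (μ := (volume : Measure σ.c)) (ν := (volume : Measure T))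
    (fun a => |h a|) (fun t => σ.jac t * u (σ.p + σ.j t)) (Metric.ball 0 ε) {t | ‖σ.j t‖ < r}
  calc ∫ x in σ.Phi '' σ.box ε r, u x = ∫ x in σ.Phi '' σ.box ε r, u x ∂(κ • ν.map e) := by
        rw [← hv]
    _ = κ * ∫ x in σ.Phi '' σ.box ε r, u x ∂(ν.map e) := by
        rw [Measure.restrict_smul, integral_smul_nnreal_measure]; rfl
    _ = _ := by rw [h5, h1, mul_assoc, ← h6]; rfl

/-- Integration formula on a slice. -/
theorem Slice.integral (σ : Slice L T) : ∃ r1 > 0, ∀ r ∈ Set.Ioc 0 r1, IsOpen (L.sat (σ.pts r)) ∧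
    ∃ c > 0, ∀ u : EE V → ℝ, Continuous u → HasCompactSupport u → L.SInv u →
      tsupport u ⊆ L.sat (σ.pts r) →
      ∫ x, u x = c * ∫ t in {t | ‖σ.j t‖ < r}, σ.jac t * u (σ.p + σ.j t) := by
  obtain ⟨ε, hε, r1, hr1, hr0, Ψ, hΨ⟩ := σ.loc
  refine ⟨r1, hr1, fun r hr => ?_⟩
  obtain ⟨hW, hl, -⟩ := hΨ r hr.2
  refine ⟨by rw [σ.sat_eq hε]; exact CL.isOpen_sat hW, ?_⟩
  obtain ⟨c, hc, hch⟩ := σ.chart_integral hε
  obtain ⟨_, _, μ, _, _, hμ⟩ := L.exists_haar
  set W := σ.Phi '' σ.box ε r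
  have hop : ∀ x, IsOpen {g : L.G | lift g.1 x ∈ W} := fun x => hW.preimage
    (continuous_lift.comp (continuous_subtype_val.prodMk continuous_const))
  have h0 : ‖σ.j 0‖ < r := by simpa using hr.1
  set a := μ.real {g : L.G | lift g.1 (σ.p + σ.j 0) ∈ W} with ha
  have hapos : 0 < a := by
    refine ENNReal.toReal_pos (ne_of_gt ((hop _).measure_pos μ ⟨⟨1, L.one_mem⟩, ?_⟩))
      (measure_ne_top _ _)
    show lift 1 _ ∈ W
    rw [lift_one]
    exact σ.pts_subset hε r ⟨0, h0, rfl⟩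
  refine ⟨c / a, div_pos hc hapos, fun u hu hs hi hsupp => ?_⟩
  have h1 := L.average μ hW hu hs hi (a := a) fun x hx => by
    obtain ⟨g, hg, t, ht, he⟩ := hsupp (subset_tsupport u hx)
    have h2 := (hμ g hg).measureReal_preimage (hop x).measurableSet.nullMeasurableSet
    rw [← h2, ha]
    congr 1
    ext k
    show lift (k.1 * g) x ∈ W ↔ lift k.1 _ ∈ W
    rw [lift_mul, he]
    exact ⟨σ.enter (hr.2.trans hr0) ht h0 k.2, σ.enter (hr.2.trans hr0) h0 ht k.2⟩
  rw [hch r (fun a ha b hb hab => by rw [← hl a ha, ← hl b hb, hab]) u hi] at h1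
  field_simp
  linarith

end Vale.Agent.P353
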