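import Vale.Agent.P353.GChart

open MeasureTheory NormedSpace
open scoped InnerProductSpace ContDiff

noncomputable section
namespace Vale.Agent.P353
variable {V : Type} [NormedAddCommGroup V] [InnerProductSpace ℝ V] [FiniteDimensional ℝ V]
  {L : CL V} {T : Type} [NormedAddCommGroup T] [InnerProductSpace ℝ T] [FiniteDimensional ℝ T]

/-- the box around the origin of the chart domain -/
def Slice.box (σ : Slice L T) (ε r : ℝ) : Set (σ.c × T) :=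
  Metric.ball (0 : σ.c) ε ×ˢ {t | ‖σ.j t‖ < r}

omit [FiniteDimensional ℝ V] [FiniteDimensional ℝ T] in
lemma Slice.isOpen_T (σ : Slice L T) (r : ℝ) : IsOpen {t | ‖σ.j t‖ < r} :=
  isOpen_lt (by fun_prop) continuous_const

omit [FiniteDimensional ℝ V] [FiniteDimensional ℝ T] in
lemma Slice.isOpen_box (σ : Slice L T) (ε r : ℝ) : IsOpen (σ.box ε r) :=
  Metric.isOpen_ball.prod (σ.isOpen_T r)

omit [FiniteDimensional ℝ V] in
lemma CL.ex_zero (L : CL V) : L.ex 0 = 1 := by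
  simp [CL.ex, expL]

omit [FiniteDimensional ℝ T] in
lemma Slice.Phi_zero (σ : Slice L T) (t : T) : σ.Phi (0, t) = σ.p + σ.j t := by
  simp [Slice.Phi, CL.ex_zero, lift_one]

lemma Slice.j_injective (σ : Slice L T) : Function.Injective σ.j := by
  obtain ⟨K, -, hK⟩ := σ.j_inj
  intro a b h
  have := hK (a - b)
  rw [map_sub, h, sub_self, norm_zero, mul_zero] at this
  exact sub_eq_zero.1 (norm_le_zero_iff.1 this)

/-- The chart on small boxes: open image and smooth inverse. -/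
lemma Slice.loc (σ : Slice L T) : ∃ ε > 0, ∃ r1 > 0, r1 ≤ σ.r0 ∧ ∃ Ψ : EE V → σ.c × T,
    ∀ r ≤ r1, IsOpen (σ.Phi '' σ.box ε r) ∧ (∀ y ∈ σ.box ε r, Ψ (σ.Phi y) = y) ∧
      ∀ x ∈ σ.Phi '' σ.box ε r, ContDiffAt ℝ ∞ Ψ x := by
  obtain ⟨ρ, hρ, K, hK, Ψ, hs, -, hr, hl, -⟩ := σ.chart
  obtain ⟨K', hK', hj⟩ := σ.j_inj
  have hε : 0 < ρ / K := div_pos hρ hK
  refine ⟨ρ / K, hε, min σ.r0 (ρ / K / K'), lt_min σ.r0_pos (div_pos hε hK'), min_le_left _ _, Ψ,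
    fun r hr1 => ?_⟩
  have hb : ∀ y ∈ σ.box (ρ / K) r, ‖y‖ < ρ / K := by
    rintro ⟨a, t⟩ ⟨ha, ht⟩
    rw [Prod.norm_def]
    refine max_lt (by simpa using ha) ?_
    have h1 : ‖σ.j t‖ < ρ / K / K' := lt_of_lt_of_le ht (hr1.trans (min_le_right _ _))
    rw [lt_div_iff₀ hK'] at h1
    calc ‖t‖ ≤ K' * ‖σ.j t‖ := hj t
      _ < ρ / K := by linarith [mul_comm K' ‖σ.j t‖]
  have he : σ.Phi '' σ.box (ρ / K) r = Metric.ball σ.p ρ ∩ Ψ ⁻¹' σ.box (ρ / K) r := by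
    ext x
    constructor
    · rintro ⟨y, hy, rfl⟩
      refine ⟨(hl y (hb y hy)).1, ?_⟩
      rw [Set.mem_preimage, (hl y (hb y hy)).2]; exact hy
    · rintro ⟨hx, hy⟩
      exact ⟨Ψ x, hy, hr x hx⟩
  refine ⟨?_, fun y hy => (hl y (hb y hy)).2, fun x hx => ?_⟩
  · rw [he]
    exact hs.continuousOn.isOpen_inter_preimage Metric.isOpen_ball (σ.isOpen_box _ _)
  · rw [he] at hx
    exact hs.contDiffAt (Metric.isOpen_ball.mem_nhds hx.1)

omit [FiniteDimensional ℝ T] in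
lemma Slice.pts_subset (σ : Slice L T) {ε : ℝ} (hε : 0 < ε) (r : ℝ) :
    σ.pts r ⊆ σ.Phi '' σ.box ε r := by
  rintro x ⟨t, ht, rfl⟩
  exact ⟨(0, t), ⟨Metric.mem_ball_self hε, ht⟩, σ.Phi_zero t⟩

omit [FiniteDimensional ℝ T] in
lemma Slice.image_subset (σ : Slice L T) (ε r : ℝ) : σ.Phi '' σ.box ε r ⊆ L.sat (σ.pts r) := by
  rintro x ⟨y, hy, rfl⟩
  refine ⟨L.ex (-(y.1 : V)), L.ex_mem _, y.2, hy.2, ?_⟩
  rw [Slice.Phi, ← lift_mul, (L.ex_neg _).2, lift_one]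

omit [FiniteDimensional ℝ T] in
lemma Slice.sat_eq (σ : Slice L T) {ε : ℝ} (hε : 0 < ε) (r : ℝ) :
    L.sat (σ.pts r) = L.sat (σ.Phi '' σ.box ε r) := by
  apply Set.Subset.antisymm (CL.sat_mono (σ.pts_subset hε r))
  rw [← CL.sat_sat (σ.pts r)]
  exact CL.sat_mono (σ.image_subset ε r)

omit [FiniteDimensional ℝ T] in
/-- an element fixing the base point preserves the slice -/
lemma Slice.fix (σ : Slice L T) {g : V →L[ℝ] V} (hg : g ∈ L.G) (h : lift g σ.p = σ.p) (t : T) :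
    ∃ t', ‖σ.j t'‖ = ‖σ.j t‖ ∧ lift g (σ.p + σ.j t) = σ.p + σ.j t' := by
  have h0 : ‖σ.j 0‖ < σ.r0 := by simpa using σ.r0_pos
  obtain ⟨t', ht'⟩ := (σ.stab g hg 0 0 h0 h0 (by simpa using h)).2 t
  exact ⟨t', by rw [← ht', CL.G_norm hg], by rw [map_add, h, ht']⟩

end Vale.Agent.P353
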