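import Vale.Agent.P353.GIntx1

open MeasureTheory NormedSpace
open scoped InnerProductSpace ContDiff

noncomputable section
namespace Vale.Agent.P353
variable {V : Type} [NormedAddCommGroup V] [InnerProductSpace ℝ V] [FiniteDimensional ℝ V]
  {L : CL V}

lemma CL.adj_spec {g : V →L[ℝ] V} (hg : g ∈ L.G) :
    have := FiniteDimensional.complete ℝ V
    g.adjoint ∈ L.G ∧ g.adjoint * g = 1 := by
  have := FiniteDimensional.complete ℝ V
  obtain ⟨h, hh, h1, -⟩ := CL.G_inv hg
  have h2 : g.adjoint * g = 1 := by
    ext a
    refine ext_inner_right ℝ fun b => ?_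
    show ⟪g.adjoint (g a), b⟫_ℝ = ⟪a, b⟫_ℝ
    rw [ContinuousLinearMap.adjoint_inner_left, CL.G_inner hg]
  have h3 : g.adjoint = h := by
    calc g.adjoint = g.adjoint * (g * h) := by rw [h1, mul_one]
      _ = h := by rw [← mul_assoc, h2, one_mul]
  exact ⟨h3 ▸ hh, h2⟩

/-- the group structure on the closure -/
@[reducible] def CL.grp (L : CL V) : Group L.G :=
  have := FiniteDimensional.complete ℝ V
  letI : Mul L.G := ⟨fun g h => ⟨g.1 * h.1, CL.mul_mem g.2 h.2⟩⟩
  letI : One L.G := ⟨⟨1, L.one_mem⟩⟩
  letI : Inv L.G := ⟨fun g => ⟨g.1.adjoint, (CL.adj_spec g.2).1⟩⟩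
  Group.ofLeftAxioms (fun a b c => Subtype.ext (mul_assoc a.1 b.1 c.1))
    (fun a => Subtype.ext (one_mul a.1)) (fun a => Subtype.ext (CL.adj_spec a.2).2)

theorem CL.exists_haar' (L : CL V) : ∃ (_ : MeasurableSpace L.G) (_ : BorelSpace L.G)
    (μ : Measure L.G), IsProbabilityMeasure μ ∧ μ.IsOpenPosMeasure ∧
    ∀ (h : V →L[ℝ] V) (hh : h ∈ L.G),
      MeasurePreserving (fun g : L.G => (⟨g * h, CL.mul_mem g.2 hh⟩ : L.G)) μ μ := by
  have := FiniteDimensional.complete ℝ V
  let _ : Group L.G := L.grp
  have : CompactSpace L.G := isCompact_iff_compactSpace.1 L.isCompact_G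
  have : ContinuousMul L.G := ⟨Continuous.subtype_mk
    ((continuous_subtype_val.comp continuous_fst).mul (continuous_subtype_val.comp continuous_snd)) _⟩
  have : ContinuousInv L.G := ⟨Continuous.subtype_mk
    ((ContinuousLinearMap.adjoint (𝕜 := ℝ) (E := V) (F := V)).continuous.comp
      continuous_subtype_val) _⟩
  have : IsTopologicalGroup L.G := {}
  let _ : MeasurableSpace L.G := borel _
  have : BorelSpace L.G := ⟨rfl⟩
  let μ : Measure L.G := Measure.haarMeasure ⊤
  have : IsProbabilityMeasure μ := ⟨by
    have := Measure.haarMeasure_self (K₀ := (⊤ : TopologicalSpace.PositiveCompacts L.G))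
    simpa using this⟩
  refine ⟨inferInstance, inferInstance, μ.inv, ?_, inferInstance, fun h hh => ?_⟩
  · exact Measure.isProbabilityMeasure_map measurable_inv.aemeasurable
  · exact measurePreserving_mul_right μ.inv (⟨h, hh⟩ : L.G)

/-- the action of a group element as a linear isometry equivalence -/
lemma CL.lift_preserving [MeasurableSpace V] [BorelSpace V] {g : V →L[ℝ] V} (hg : g ∈ L.G) :
    ∃ e : EE V ≃ₗᵢ[ℝ] EE V, ∀ x, e x = lift g x := by
  let f : EE V →ₗᵢ[ℝ] EE V := ⟨(lift g : EE V →L[ℝ] EE V).toLinearMap, fun x => CL.G_norm hg x⟩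
  exact ⟨f.toLinearIsometryEquiv rfl, fun x => rfl⟩

/-- Averaging: an invariant function supported in the saturation of an open set `W` in which every
orbit spends the same time `a`. -/
lemma CL.average [MeasurableSpace V] [BorelSpace V] (L : CL V) [MeasurableSpace L.G]
    [BorelSpace L.G] (μ : Measure L.G) [IsProbabilityMeasure μ] {W : Set (EE V)} (hW : IsOpen W)
    {u : EE V → ℝ} (hc : Continuous u) (hs : HasCompactSupport u) (hi : L.SInv u) {a : ℝ}
    (ha : ∀ x, u x ≠ 0 → μ.real {g : L.G | lift g.1 x ∈ W} = a) :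
    a * ∫ x, u x = ∫ x in W, u x := by
  have : SecondCountableTopology L.G := inferInstance
  have hint : Integrable u := hc.integrable_of_hasCompactSupport hs
  let S : Set (EE V × L.G) := {y | lift y.2.1 y.1 ∈ W}
  have hS : IsOpen S := hW.preimage (continuous_lift.comp
    ((continuous_subtype_val.comp continuous_snd).prodMk continuous_fst))
  have h1 : Integrable (Function.uncurry fun (x : EE V) (g : L.G) =>
      W.indicator u (lift g.1 x)) (volume.prod μ) := by
    have h2 : Integrable (fun y : EE V × L.G => u y.1) (volume.prod μ) := hint.comp_fst μ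
    refine (h2.indicator hS.measurableSet).congr (Filter.Eventually.of_forall fun y => ?_)
    by_cases hy : y ∈ S
    · have hy' : lift y.2.1 y.1 ∈ W := hy
      simp only [Set.indicator_of_mem hy, Function.uncurry, Set.indicator_of_mem hy',
        hi.G hc y.2.2]
    · have hy' : lift y.2.1 y.1 ∉ W := hy
      simp only [Set.indicator_of_notMem hy, Function.uncurry, Set.indicator_of_notMem hy']
  have h3 := integral_integral_swap h1
  have h4 : ∀ x, ∫ g : L.G, W.indicator u (lift g.1 x) ∂μ = a * u x := by
    intro x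
    have hx : IsOpen {g : L.G | lift g.1 x ∈ W} := hW.preimage (continuous_lift.comp
      (continuous_subtype_val.prodMk continuous_const))
    have h5 : (fun g : L.G => W.indicator u (lift g.1 x)) =
        {g : L.G | lift g.1 x ∈ W}.indicator fun _ => u x := by
      funext g
      by_cases hg : lift g.1 x ∈ W
      · rw [Set.indicator_of_mem hg, Set.indicator_of_mem (by exact hg), hi.G hc g.2]
      · rw [Set.indicator_of_notMem hg, Set.indicator_of_notMem (by exact hg)]
    rw [h5, integral_indicator_const _ hx.measurableSet, smul_eq_mul]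
    by_cases h0 : u x = 0
    · simp [h0]
    · rw [ha x h0]
  have h6 : ∀ g : L.G, ∫ x, W.indicator u (lift g.1 x) = ∫ x in W, u x := by
    intro g
    obtain ⟨e, he⟩ := CL.lift_preserving g.2
    rw [← integral_indicator hW.measurableSet]
    simp only [← he]
    exact e.measurePreserving.integral_comp e.toHomeomorph.measurableEmbedding _
  simp only [h4, h6] at h3
  rw [integral_const_mul] at h3
  simpa using h3

end Vale.Agent.P353
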