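import Vale.Agent.P353.GInt
import Vale.Agent.P353.GExt
import Vale.Agent.P353.APsq

open MeasureTheory NormedSpace
open Complex (I)
open scoped InnerProductSpace ContDiff

noncomputable section
namespace Vale.Agent.P353
variable {V : Type} [NormedAddCommGroup V] [InnerProductSpace ℝ V] [FiniteDimensional ℝ V]
  {L : CL V}

omit [FiniteDimensional ℝ V] in
theorem CL.mem_cent' (L : CL V) (x : EE V) (a : V) :
    a ∈ L.cent x ↔ ∀ i, L.br (x i) a = 0 := by
  simp [CL.cent, Submodule.mem_iInf]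

theorem CL.mem_cent (L : CL V) (x : EE V) (a : V) : a ∈ L.cent x ↔ ∀ i, L.br (x i) a = 0 :=
  L.mem_cent' x a

theorem CL.sub_cent (L : CL V) (x : EE V) : L.Sub (L.cent x) := by
  intro a ha b hb
  rw [CL.mem_cent] at ha hb ⊢
  intro i
  rw [L.jac, ha, hb]
  simp

theorem CL.br_orth (L : CL V) {l : Submodule ℝ V} (h : L.Sub l) {a w : V} (ha : a ∈ l)
    (hw : w ∈ lᗮ) : L.br a w ∈ lᗮ := by
  rw [Submodule.mem_orthogonal] at hw ⊢
  intro b hb
  have h1 := L.inv a b w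
  rw [hw _ (h a ha b hb)] at h1
  linarith

/-- an injective map is bounded below -/
theorem gp_lower {A B : Type} [NormedAddCommGroup A] [NormedSpace ℝ A] [FiniteDimensional ℝ A]
    [NormedAddCommGroup B] [NormedSpace ℝ B] (f : A →L[ℝ] B) (h : ∀ w, f w = 0 → w = 0) :
    ∃ c > 0, ∀ w, c * ‖w‖ ≤ ‖f w‖ := by
  obtain ⟨K, hK, hf⟩ := LinearMap.exists_antilipschitzWith f.toLinearMap
    (LinearMap.ker_eq_bot'.2 h)
  refine ⟨(K : ℝ)⁻¹, by positivity, fun w => ?_⟩
  have h1 := hf.le_mul_dist w 0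
  simp only [dist_zero_right, map_zero, ContinuousLinearMap.coe_coe] at h1
  have hK' : (0 : ℝ) < K := hK
  rw [inv_mul_le_iff₀ hK']
  exact h1

omit [FiniteDimensional ℝ V] in
theorem CL.br_comm (L : CL V) {a b : V} (h : L.br a b = 0) (c : V) :
    L.br a (L.br b c) = L.br b (L.br a c) := by
  rw [L.jac a b c, h]
  simp

omit [FiniteDimensional ℝ V] in
theorem CL.br_le (L : CL V) (a b : V) : ‖L.br a b‖ ≤ ‖L.br‖ * ‖a‖ * ‖b‖ := L.br.le_opNorm₂ a b

/-- kernel of a small perturbation in a commuting direction -/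
theorem CL.ker_perturb (L : CL V) {a b : V} (h : L.br a b = 0) :
    ∃ t : ℝ, ∀ w, L.br (a + t • b) w = 0 → L.br a w = 0 ∧ L.br b w = 0 := by
  set K : Submodule ℝ V := LinearMap.ker (L.br a).toLinearMap with hK
  obtain ⟨c, hc, hlow⟩ := gp_lower (L.br a ∘L Kᗮ.subtypeL) (fun w hw => by
    have h1 : (w : V) ∈ K := hw
    have h2 := Submodule.inner_left_of_mem_orthogonal h1 w.2
    exact Subtype.ext (inner_self_eq_zero.1 h2))
  set n := ‖L.br b‖ with hn
  have hn0 : 0 ≤ n := norm_nonneg _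
  refine ⟨c / (n + 1), fun w hw => ?_⟩
  obtain ⟨k, hk, k', hk', rfl⟩ := K.exists_add_mem_mem_orthogonal w
  have hk0 : L.br a k = 0 := hk
  have ht : 0 < c / (n + 1) := by positivity
  set t := c / (n + 1) with htdef
  have e1 : L.br a k' + t • L.br b k' + t • L.br b k = 0 := by
    rw [← hw]
    simp [hk0]
    abel
  have e2 : ⟪L.br a k', L.br b k⟫_ℝ = 0 := by
    rw [L.inv, L.br_comm h, hk0]
    simp
  have e3 : ‖L.br a k'‖ ^ 2 + t * ⟪L.br a k', L.br b k'⟫_ℝ = 0 := by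
    have := congrArg (fun y => ⟪L.br a k', y⟫_ℝ) e1
    simp only [inner_add_right, inner_smul_right, e2, inner_zero_right, mul_zero, add_zero,
      real_inner_self_eq_norm_sq] at this
    exact this
  have e4 : c * ‖k'‖ ≤ ‖L.br a k'‖ := hlow ⟨k', hk'⟩
  have e5 : |⟪L.br a k', L.br b k'⟫_ℝ| ≤ ‖L.br a k'‖ * (n * ‖k'‖) :=
    (abs_real_inner_le_norm _ _).trans
      (mul_le_mul_of_nonneg_left ((L.br b).le_opNorm k') (norm_nonneg _))
  have e6 : k' = 0 := by
    by_contra hne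
    have hpos : 0 < ‖k'‖ := norm_pos_iff.2 hne
    have hA : 0 < ‖L.br a k'‖ := lt_of_lt_of_le (by positivity) e4
    have e7 : ‖L.br a k'‖ ^ 2 ≤ t * (‖L.br a k'‖ * (n * ‖k'‖)) := by
      have := neg_abs_le ⟪L.br a k', L.br b k'⟫_ℝ
      nlinarith
    have e8 : ‖L.br a k'‖ ≤ t * n * ‖k'‖ := by
      by_contra hlt
      push Not at hlt
      nlinarith
    have e9 : t * n < c := by
      rw [htdef, div_mul_eq_mul_div, div_lt_iff₀ (by positivity)]
      nlinarith
    nlinarith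
  subst e6
  simp only [map_zero, smul_zero, add_zero, zero_add] at e1 ⊢
  exact ⟨hk0, (smul_eq_zero.1 e1).resolve_left ht.ne'⟩

omit [FiniteDimensional ℝ V] in
theorem contr_add_single (v : Fin 9 → ℝ) (t : ℝ) (i : Fin 9) (x : EE V) :
    contr (v + Pi.single i t) x = contr v x + t • x i := by
  simp [add_smul, Finset.sum_add_distrib, Pi.single_apply]

omit [FiniteDimensional ℝ V] in
theorem contr_smul_left (v : Fin 9 → ℝ) (t : ℝ) (x : EE V) :
    contr (t • v) x = t • contr v x := by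
  simp [Finset.smul_sum, mul_smul]

omit [FiniteDimensional ℝ V] in
theorem CL.br_contr (L : CL V) (v : Fin 9 → ℝ) (x : EE V) (a : V) :
    L.br (contr v x) a = ∑ i, v i • L.br (x i) a := by
  simp

omit [FiniteDimensional ℝ V] in
theorem contr_lift {W : Type} [NormedAddCommGroup W] [InnerProductSpace ℝ W] (v : Fin 9 → ℝ)
    (g : V →L[ℝ] W) (x : EE V) : contr v (lift g x) = g (contr v x) := by
  simp

theorem gp_min {α : Type} [Nonempty α] (f : α → ℕ) : ∃ a, ∀ b, f a ≤ f b :=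
  ⟨Function.argmin f, fun b => Function.argmin_le f b⟩

/-- a regular direction exists (minimise the dimension of the kernel) -/
theorem CL.exists_patch (L : CL V) {p : EE V} (h : L.Comm p) : ∃ pt : Patch L, pt.p = p := by
  obtain ⟨v, hv⟩ : ∃ v : Fin 9 → ℝ, ∀ v' : Fin 9 → ℝ,
      Module.finrank ℝ (LinearMap.ker (L.br (contr v p)).toLinearMap) ≤
        Module.finrank ℝ (LinearMap.ker (L.br (contr v' p)).toLinearMap) :=
    gp_min fun v : Fin 9 → ℝ => Module.finrank ℝ (LinearMap.ker (L.br (contr v p)).toLinearMap)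
  have hreg : ∀ a, L.br (contr v p) a = 0 → a ∈ L.cent p := by
    intro a ha
    rw [CL.mem_cent]
    intro i
    have h0 : L.br (contr v p) (p i) = 0 := by
      rw [L.br_contr]
      exact Finset.sum_eq_zero fun j _ => by rw [h j i, smul_zero]
    obtain ⟨t, ht⟩ := L.ker_perturb h0
    have hle : LinearMap.ker (L.br (contr (v + Pi.single i t) p)).toLinearMap ≤
        LinearMap.ker (L.br (contr v p)).toLinearMap := by
      intro w hw
      have hw' : L.br (contr (v + Pi.single i t) p) w = 0 := hw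
      rw [contr_add_single] at hw'
      exact (ht w hw').1
    have hfr := hv (v + Pi.single i t)
    have heq := Submodule.eq_of_le_of_finrank_le hle hfr
    have ha' : a ∈ LinearMap.ker (L.br (contr (v + Pi.single i t) p)).toLinearMap := by
      rw [heq]
      exact ha
    have ha'' : L.br (contr (v + Pi.single i t) p) a = 0 := ha'
    rw [contr_add_single] at ha''
    exact (ht a ha'').2
  by_cases hv0 : v = 0
  · refine ⟨⟨p, Pi.single 0 1, h, by simp, fun a _ => hreg a ?_⟩, rfl⟩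
    simp [hv0]
  · have hpos : 0 < v ⬝ᵥ v := lt_of_le_of_ne (Finset.sum_nonneg fun i _ => mul_self_nonneg _)
      (fun h0 => hv0 (dotProduct_self_eq_zero.1 h0.symm))
    have hs : 0 < Real.sqrt (v ⬝ᵥ v) := Real.sqrt_pos.2 hpos
    refine ⟨⟨p, (Real.sqrt (v ⬝ᵥ v))⁻¹ • v, h, ?_, fun a ha => hreg a ?_⟩, rfl⟩
    · rw [smul_dotProduct, dotProduct_smul, smul_eq_mul, smul_eq_mul]
      have := Real.mul_self_sqrt hpos.le
      field_simp
      nlinarith
    · rw [contr_smul_left, map_smul, smul_apply] at ha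
      exact (smul_eq_zero.1 ha).resolve_left (inv_ne_zero hs.ne')

namespace Patch
variable (pt : Patch L)
theorem mem_z (a : V) : a ∈ pt.z ↔ ∀ b ∈ pt.l, L.br b a = 0 := by
  simp [Patch.z, Submodule.mem_iInf]

theorem p_mem_l (i : Fin 9) : pt.p i ∈ pt.l := (L.mem_cent _ _).2 fun j => pt.comm j i

theorem z_le : pt.z ≤ pt.l := fun a ha =>
  (L.mem_cent _ _).2 fun i => (pt.mem_z a).1 ha _ (pt.p_mem_l i)

theorem p_mem_Z : pt.p ∈ pt.Z := fun i => (pt.mem_z _).2 fun b hb => by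
  rw [L.skew, (L.mem_cent _ _).1 hb i, neg_zero]

theorem adm_apply {a : V} (ha : a ∈ pt.l) (w : pt.lᗮ) : (pt.adm a w : V) = L.br a w := by
  have h := L.br_orth (L.sub_cent pt.p) ha w.2
  have := Submodule.orthogonalProjectionOnto_mem_subspace_eq_self (K := pt.lᗮ) ⟨_, h⟩
  exact congrArg Subtype.val this

theorem skew_adm (a : V) : Skew (pt.adm a) := by
  intro u w
  simp only [Patch.adm, ContinuousLinearMap.comp_apply,
    Submodule.inner_orthogonalProjectionOnto_eq_of_mem_right,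
    Submodule.inner_orthogonalProjectionOnto_eq_of_mem_left]
  exact L.inv _ _ _

theorem contr_mem_l (v : Fin 9 → ℝ) {x : EE V} (h : ∀ i, x i ∈ pt.l) : contr v x ∈ pt.l := by
  rw [contr_apply]
  exact Submodule.sum_mem _ fun i _ => Submodule.smul_mem _ _ (h i)

theorem contr_mem_z (v : Fin 9 → ℝ) {x : EE V} (h : x ∈ pt.Z) : contr v x ∈ pt.z := by
  rw [contr_apply]
  exact Submodule.sum_mem _ fun i _ => Submodule.smul_mem _ _ (h i)

theorem eq_zero_of_mem {w : V} (h1 : w ∈ pt.l) (h2 : w ∈ pt.lᗮ) : w = 0 :=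
  inner_self_eq_zero.1 (Submodule.inner_left_of_mem_orthogonal h1 h2)

theorem adm_inj (w : pt.lᗮ) (h : pt.adm (contr pt.v pt.p) w = 0) : w = 0 := by
  have h1 := pt.adm_apply (pt.contr_mem_l pt.v pt.p_mem_l) w
  rw [h] at h1
  exact Subtype.ext (pt.eq_zero_of_mem (pt.reg _ h1.symm) w.2)

theorem adm_sub (a b : V) (w : pt.lᗮ) : pt.adm (a - b) w = pt.adm a w - pt.adm b w := by
  simp [Patch.adm]

theorem norm_adm_le (a : V) (w : pt.lᗮ) : ‖pt.adm a w‖ ≤ ‖L.br‖ * ‖a‖ * ‖w‖ := by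
  have h1 : ‖pt.lᗮ.orthogonalProjectionOnto (L.br a w)‖ ≤ ‖L.br a w‖ :=
    pt.lᗮ.norm_orthogonalProjectionOnto_apply_le (L.br a w)
  exact h1.trans (L.br_le a w)

theorem adm_lower_of {u : V} (hr : ∀ w, pt.adm u w = 0 → w = 0) : ∃ d > 0, ∃ r > 0,
    ∀ a, ‖a - u‖ < r → ∀ w, d * ‖w‖ ≤ ‖pt.adm a w‖ := by
  obtain ⟨c, hc, hlow⟩ := gp_lower (pt.adm u) hr
  have hn : 0 ≤ ‖L.br‖ := L.br.opNorm_nonneg
  refine ⟨c / 2, by positivity, c / (2 * (‖L.br‖ + 1)), by positivity, fun a ha w => ?_⟩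
  have h1 := pt.norm_adm_le (a - u) w
  rw [pt.adm_sub] at h1
  have h2 := hlow w
  have h3 : ‖pt.adm u w‖ ≤ ‖pt.adm a w‖ + ‖pt.adm a w - pt.adm u w‖ := by
    have := norm_sub_le (pt.adm a w) (pt.adm a w - pt.adm u w)
    simpa using this
  have h4 : ‖L.br‖ * ‖a - u‖ ≤ c / 2 := by
    rw [lt_div_iff₀ (by positivity)] at ha
    nlinarith [norm_nonneg (a - u)]
  have h5 := mul_le_mul_of_nonneg_right h4 (norm_nonneg w)
  linarith

theorem adm_lower : ∃ d > 0, ∃ r > 0, ∀ a, ‖a - contr pt.v pt.p‖ < r →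
    ∀ w, d * ‖w‖ ≤ ‖pt.adm a w‖ := pt.adm_lower_of pt.adm_inj

theorem io_apply (X : EE pt.l) (z : pt.H) (i : Fin 9) :
    pt.io X z i = (X i : V) + ((z : EE pt.lᗮ) i : V) := rfl

theorem norm_io (X : EE pt.l) (z : pt.H) (Y : EE pt.l) :
    ‖pt.io X z - lift pt.l.subtypeL Y‖ ^ 2 = ‖X - Y‖ ^ 2 + ‖z‖ ^ 2 := by
  have h1 : ‖z‖ = ‖(z : EE pt.lᗮ)‖ := rfl
  rw [h1, PiLp.norm_sq_eq_of_L2, PiLp.norm_sq_eq_of_L2, PiLp.norm_sq_eq_of_L2,
    ← Finset.sum_add_distrib]
  refine Finset.sum_congr rfl fun i _ => ?_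
  have h2 : (pt.io X z - lift pt.l.subtypeL Y) i = ((X - Y) i : V) + ((z : EE pt.lᗮ) i : V) := by
    simp [io_apply]
    abel
  rw [h2, norm_add_sq_real, Submodule.inner_right_of_mem_orthogonal ((X - Y) i).2
    ((z : EE pt.lᗮ) i).2]
  simp

theorem Z_mem_Str {Y : EE V} (h : Y ∈ pt.Z) : Y ∈ L.Str (Module.finrank ℝ pt.l) := by
  refine ⟨fun i j => (pt.mem_z _).1 (h j) _ (pt.z_le (h i)), Submodule.finrank_mono ?_⟩
  intro b hb
  rw [CL.mem_cent]
  intro i
  rw [L.skew, (pt.mem_z _).1 (h i) b hb, neg_zero]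

theorem contr_io (X : EE pt.l) (z : pt.H) :
    contr pt.v (pt.io X z) = contr pt.v (lift pt.l.subtypeL X) := by
  have h : contr pt.v (z : EE pt.lᗮ) = 0 := z.2
  rw [Patch.io, map_add, contr_lift pt.v pt.lᗮ.subtypeL, h, map_zero, add_zero]

theorem contr_io_mem (X : EE pt.l) (z : pt.H) : contr pt.v (pt.io X z) ∈ pt.l := by
  rw [contr_io]
  exact pt.contr_mem_l _ fun i => (X i).2

/-- the bracket with a light element commutes with the projection on the complement -/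
theorem proj_br {a : V} (ha : a ∈ pt.l) (x : V) :
    pt.lᗮ.orthogonalProjectionOnto (L.br a x) = pt.adm a (pt.lᗮ.orthogonalProjectionOnto x) := by
  obtain ⟨b, hb, w, hw, rfl⟩ := pt.l.exists_add_mem_mem_orthogonal x
  have h1 : ∀ y ∈ pt.l, pt.lᗮ.orthogonalProjectionOnto y = 0 := fun y hy =>
    Submodule.orthogonalProjectionOnto_apply_of_mem_orthogonal (pt.l.le_orthogonal_orthogonal hy)
  have h2 := Submodule.orthogonalProjectionOnto_mem_subspace_eq_self (K := pt.lᗮ) ⟨w, hw⟩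
  rw [map_add, map_add, map_add, h1 b hb, h1 _ (L.sub_cent pt.p a ha b hb), zero_add, zero_add]
  simp only at h2
  rw [h2]
  rfl

theorem mem_l_of_proj {x : V} (h : pt.lᗮ.orthogonalProjectionOnto x = 0) : x ∈ pt.l := by
  have := Submodule.orthogonalProjectionOnto_eq_zero_iff.1 h
  rwa [Submodule.orthogonal_orthogonal] at this

theorem contr_close {r ρ : ℝ} (w : Fin 9 → ℝ) {x y : EE V} (h : ‖x - y‖ < r)
    (hr : (‖(contr w : EE V →L[ℝ] V)‖ + 1) * r ≤ ρ) : ‖contr w x - contr w y‖ < ρ := by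
  rw [← map_sub]
  have h1 := (contr w : EE V →L[ℝ] V).le_opNorm (x - y)
  have h2 := norm_nonneg (contr w : EE V →L[ℝ] V)
  have h3 := norm_nonneg (x - y)
  nlinarith

/-- near `p`, the points of the slice in the stratum are the central tuples -/
theorem Str_pts : ∃ r > 0, ∀ s ∈ pt.pts r, s ∈ L.Str (Module.finrank ℝ pt.l) →
    s ∈ pt.Z ∧ L.cent s = pt.l := by
  obtain ⟨d, hd, ρ, hρ, hlow⟩ := pt.adm_lower
  have hn := norm_nonneg (contr pt.v : EE V →L[ℝ] V)
  refine ⟨ρ / (‖(contr pt.v : EE V →L[ℝ] V)‖ + 1), by positivity, ?_⟩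
  rintro s ⟨⟨X, z, rfl⟩, hs⟩ ⟨hc, hk⟩
  have h1 := contr_close pt.v hs (ρ := ρ) (le_of_eq (by field_simp))
  have hle : L.cent (pt.io X z) ≤ pt.l := by
    intro a ha
    rw [CL.mem_cent] at ha
    have h2 : L.br (contr pt.v (pt.io X z)) a = 0 := by
      rw [L.br_contr]
      exact Finset.sum_eq_zero fun j _ => by rw [ha j, smul_zero]
    have h3 := pt.proj_br (pt.contr_io_mem X z) a
    rw [h2, map_zero] at h3
    have h4 := hlow _ h1 (pt.lᗮ.orthogonalProjectionOnto a)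
    rw [← h3, norm_zero] at h4
    have h5 : ‖pt.lᗮ.orthogonalProjectionOnto a‖ = 0 := by
      have := norm_nonneg (pt.lᗮ.orthogonalProjectionOnto a)
      nlinarith
    exact pt.mem_l_of_proj (norm_eq_zero.1 h5)
  have heq := Submodule.eq_of_le_of_finrank_le hle hk
  refine ⟨fun i => (pt.mem_z _).2 fun b hb => ?_, heq⟩
  rw [← heq, CL.mem_cent] at hb
  rw [L.skew, hb i, neg_zero]

/-- a group element that maps `l` into itself maps it onto itself -/
theorem G_surj {g : V →L[ℝ] V} (hg : g ∈ L.G) (h : ∀ a ∈ pt.l, g a ∈ pt.l) {b : V}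
    (hb : b ∈ pt.l) : ∃ a ∈ pt.l, g a = b := by
  have hinj : Function.Injective (g.toLinearMap.restrict h) := by
    rw [← LinearMap.ker_eq_bot, LinearMap.ker_eq_bot']
    intro a ha
    have h1 : g a = 0 := congrArg Subtype.val ha
    have h2 := CL.G_inner hg a a
    rw [h1, inner_zero_left] at h2
    exact Subtype.ext (inner_self_eq_zero.1 h2.symm)
  obtain ⟨a, ha⟩ := (LinearMap.injective_iff_surjective.1 hinj) ⟨b, hb⟩
  exact ⟨a, a.2, congrArg Subtype.val ha⟩

theorem G_z {g : V →L[ℝ] V} (hg : g ∈ L.G) (h : ∀ a ∈ pt.l, g a ∈ pt.l) :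
    ∀ a ∈ pt.z, g a ∈ pt.z := fun a ha => (pt.mem_z _).2 fun b hb => by
  obtain ⟨c, hc, rfl⟩ := pt.G_surj hg h hb
  rw [← CL.G_br hg, (pt.mem_z _).1 ha c hc, map_zero]

theorem G_orth {g : V →L[ℝ] V} (hg : g ∈ L.G) (h : ∀ a ∈ pt.l, g a ∈ pt.l) :
    ∀ a ∈ pt.lᗮ, g a ∈ pt.lᗮ := fun a ha => by
  rw [Submodule.mem_orthogonal] at ha ⊢
  intro b hb
  obtain ⟨c, hc, rfl⟩ := pt.G_surj hg h hb
  rw [CL.G_inner hg, ha c hc]

end Patch

/-- a finite set of reals is uniformly discrete -/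
theorem gp_gap {s : Set ℝ} (hs : s.Finite) :
    ∃ ε > 0, ∀ a ∈ s, ∀ b ∈ s, |a - b| < ε → a = b := by
  have h : ∀ᶠ ε in nhdsWithin (0 : ℝ) (Set.Ioi 0), ∀ a ∈ s, ∀ b ∈ s, |a - b| < ε → a = b := by
    rw [hs.eventually_all]
    intro a _
    rw [hs.eventually_all]
    intro b _
    by_cases hab : a = b
    · exact Filter.Eventually.of_forall fun _ _ => hab
    · have : 0 < |a - b| := abs_pos.2 (sub_ne_zero.2 hab)
      filter_upwards [Ioo_mem_nhdsGT this] with ε hε h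
      exact absurd h (not_lt.2 hε.2.le)
  obtain ⟨ε, h1, h2⟩ := (h.and self_mem_nhdsWithin).exists
  exact ⟨ε, h2, h1⟩

/-- a symmetric operator is isolated among the commuting conjugate symmetric operators -/
theorem gp_isolated {A : V →L[ℝ] V} (hA : Symm A) : ∃ ε > 0, ∀ B g h : V →L[ℝ] V, Symm B →
    A * B = B * A → g * h = 1 → (∀ w, B (g w) = g (A w)) → (∀ w, g w = 0 → w = 0) →
    (∀ w, ‖B w - A w‖ ≤ ε * ‖w‖) → B = A := by
  obtain ⟨ε, hε, hgap⟩ := gp_gap (Module.End.finite_hasEigenvalue A.toLinearMap)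
  refine ⟨ε / 2, by positivity, fun B g h hB hAB hgh hint hinj hcl => ?_⟩
  have htop := LinearMap.IsSymmetric.iSup_iSup_eigenspace_inf_eigenspace_eq_top_of_commute
    (A := A.toLinearMap) (B := B.toLinearMap) hA hB
    (LinearMap.ext fun w => congrArg (fun T : V →L[ℝ] V => T w) hAB)
  have hle : (⨆ α, ⨆ γ, Module.End.eigenspace A.toLinearMap α ⊓
      Module.End.eigenspace B.toLinearMap γ) ≤ LinearMap.eqLocus B.toLinearMap A.toLinearMap := by
    refine iSup_le fun α => iSup_le fun γ w hw => ?_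
    have h1 : A w = α • w := Module.End.mem_eigenspace_iff.1 hw.1
    have h2 : B w = γ • w := Module.End.mem_eigenspace_iff.1 hw.2
    show B w = A w
    by_cases hw0 : w = 0
    · simp [hw0]
    have hpos : 0 < ‖w‖ := norm_pos_iff.2 hw0
    have hghw : g (h w) = w := congrArg (fun T : V →L[ℝ] V => T w) hgh
    have h3 : A (h w) = γ • h w := by
      have := hinj (A (h w) - γ • h w) (by rw [map_sub, map_smul, ← hint, hghw, h2, sub_self])
      exact sub_eq_zero.1 this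
    have h4 : h w ≠ 0 := fun h0 => hw0 (by rw [← hghw, h0, map_zero])
    have e1 : Module.End.HasEigenvalue A.toLinearMap α :=
      Module.End.hasEigenvalue_of_hasEigenvector ⟨hw.1, hw0⟩
    have e2 : Module.End.HasEigenvalue A.toLinearMap γ :=
      Module.End.hasEigenvalue_of_hasEigenvector ⟨Module.End.mem_eigenspace_iff.2 h3, h4⟩
    have h5 := hcl w
    rw [h1, h2, ← sub_smul, norm_smul, Real.norm_eq_abs] at h5
    have h6 : |γ - α| < ε := by
      have := le_of_mul_le_mul_right h5 hpos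
      linarith
    rw [h1, h2, hgap γ e2 α e1 h6]
  rw [htop] at hle
  ext w
  exact hle (Submodule.mem_top (x := w))

namespace Patch
variable (pt : Patch L)

/-- discreteness: a group element that preserves `l` and nearly fixes a regular central element
fixes it -/
theorem discrete {u : V} (hu : u ∈ pt.z) (hr : ∀ w, pt.adm u w = 0 → w = 0) :
    ∃ r > 0, ∀ g ∈ L.G, (∀ a ∈ pt.l, g a ∈ pt.l) → ‖g u - u‖ < r → g u = u := by
  have hsym : ∀ a : V, Symm (L.br a * L.br a) := fun a x y => by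
    simp only [mul_apply_eq_comp]
    rw [L.inv, L.inv, neg_neg]
  obtain ⟨ε, hε, hiso⟩ := gp_isolated (hsym u)
  obtain ⟨d, hd, ρ, hρ, hlow⟩ := pt.adm_lower_of hr
  set n := ‖L.br‖ with hn
  have hn0 : 0 ≤ n := L.br.opNorm_nonneg
  have hu0 := norm_nonneg u
  refine ⟨min ρ (ε / (2 * n ^ 2 * ‖u‖ + 1)), by positivity, fun g hg hl hgu => ?_⟩
  have hgu1 : ‖g u - u‖ < ρ := hgu.trans_le (min_le_left _ _)
  have hgu2 : ‖g u - u‖ < ε / (2 * n ^ 2 * ‖u‖ + 1) := hgu.trans_le (min_le_right _ _)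
  have hu' : g u ∈ pt.z := pt.G_z hg hl u hu
  have hcomm : L.br u (g u) = 0 := (pt.mem_z _).1 hu' u (pt.z_le hu)
  have hc := L.br_comm hcomm
  obtain ⟨h, -, hgh, hhg⟩ := CL.G_inv hg
  have hnorm : ‖g u‖ = ‖u‖ := by
    have := CL.G_inner hg u u
    rw [real_inner_self_eq_norm_sq, real_inner_self_eq_norm_sq] at this
    exact (sq_eq_sq₀ (norm_nonneg _) hu0).1 this
  have hfac : ∀ w, L.br (g u) (L.br (g u) w) - L.br u (L.br u w) =
      L.br (g u + u) (L.br (g u - u) w) := fun w => by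
    simp only [map_add, map_sub, add_apply, sub_apply, hc]
    abel
  have hBA := hiso (L.br (g u) * L.br (g u)) g h (hsym _)
    (by ext w; simp only [mul_apply_eq_comp, hc]) hgh
    (fun w => by simp only [mul_apply_eq_comp, CL.G_br hg])
    (fun w hw => by
      have : h (g w) = w := congrArg (fun T : V →L[ℝ] V => T w) hhg
      rw [← this, hw, map_zero])
    (fun w => by
      simp only [mul_apply_eq_comp]
      rw [hfac]
      have h1 := L.br_le (g u + u) (L.br (g u - u) w)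
      have h2 := L.br_le (g u - u) w
      have h3 : ‖g u + u‖ ≤ 2 * ‖u‖ := (norm_add_le _ _).trans (by rw [hnorm]; linarith)
      rw [lt_div_iff₀ (by positivity)] at hgu2
      have h4 := norm_nonneg (g u - u)
      have h5 := norm_nonneg w
      rw [← hn] at h1 h2
      calc _ ≤ n * ‖g u + u‖ * ‖L.br (g u - u) w‖ := h1
        _ ≤ n * (2 * ‖u‖) * (n * ‖g u - u‖ * ‖w‖) := by gcongr
        _ = (‖g u - u‖ * (2 * n ^ 2 * ‖u‖)) * ‖w‖ := by ring
        _ ≤ ε * ‖w‖ := by gcongr; nlinarith)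
  have hD : ∀ w, L.br (g u - u) w = 0 := fun w => by
    have hz : g u - u ∈ pt.z := pt.z.sub_mem hu' hu
    have h1 : L.br (g u - u) w ∈ pt.lᗮ := by
      rw [Submodule.mem_orthogonal]
      intro b hb
      have h2 := L.inv (g u - u) b w
      rw [L.skew, (pt.mem_z _).1 hz b hb, neg_zero, inner_zero_left] at h2
      linarith
    have h2 : L.br (g u + u) (L.br (g u - u) w) = 0 := by
      rw [← hfac]
      exact sub_eq_zero.2 (congrArg (fun T : V →L[ℝ] V => T w) hBA)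
    have h3 : (1 / 2 : ℝ) • (g u + u) ∈ pt.l :=
      pt.l.smul_mem _ (pt.l.add_mem (pt.z_le hu') (pt.z_le hu))
    have h4 : ‖(1 / 2 : ℝ) • (g u + u) - u‖ < ρ := by
      have : (1 / 2 : ℝ) • (g u + u) - u = (1 / 2 : ℝ) • (g u - u) := by module
      rw [this, norm_smul]
      have := norm_nonneg (g u - u)
      norm_num
      linarith
    have h5 := hlow _ h4 ⟨_, h1⟩
    have h6 : pt.adm ((1 / 2 : ℝ) • (g u + u)) ⟨_, h1⟩ = 0 := by
      apply Subtype.ext
      rw [pt.adm_apply h3, map_smul, smul_apply]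
      simp only [h2, smul_zero, ZeroMemClass.coe_zero]
    rw [h6, norm_zero] at h5
    have h7 : ‖L.br (g u - u) w‖ = 0 := by
      have h8 : 0 ≤ ‖L.br (g u - u) w‖ := norm_nonneg _
      have h9 : d * ‖L.br (g u - u) w‖ ≤ 0 := h5
      nlinarith
    exact norm_eq_zero.1 h7
  have hcen : g u - u ∈ L.center := by
    show L.br (g u - u) = 0
    ext w
    exact hD w
  have h1 := CL.G_inner hg u (g u - u)
  rw [CL.G_center hg hcen] at h1
  have h2 : ⟪g u - u, g u - u⟫_ℝ = 0 := by rw [inner_sub_left, h1, sub_self]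
  exact sub_eq_zero.1 (inner_self_eq_zero.1 h2)

/-- a group element that maps a point of the slice into the slice preserves `l` -/
theorem stab_l : ∃ r > 0, ∀ g ∈ L.G, ∀ s ∈ pt.pts r, lift g s ∈ pt.pts r →
    ∀ a ∈ pt.l, g a ∈ pt.l := by
  obtain ⟨d, hd, ρ, hρ, hlow⟩ := pt.adm_lower
  have hm := norm_nonneg (contr pt.v : EE V →L[ℝ] V)
  set n := ‖L.br‖ with hn
  have hn0 : 0 ≤ n := L.br.opNorm_nonneg
  set ρ' := min ρ (d / (2 * (n + 1))) with hρ'
  have hρ'0 : 0 < ρ' := by positivity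
  refine ⟨ρ' / (‖(contr pt.v : EE V →L[ℝ] V)‖ + 1), by positivity, ?_⟩
  rintro g hg s ⟨⟨X, z, hsX⟩, hs⟩ ⟨⟨X', z', hsX'⟩, hs'⟩ a ha
  have h1 := contr_close pt.v hs (ρ := ρ') (le_of_eq (by field_simp))
  have h2 := contr_close pt.v hs' (ρ := ρ') (le_of_eq (by field_simp))
  have m1 : contr pt.v s ∈ pt.l := hsX ▸ pt.contr_io_mem X z
  have m2 : contr pt.v (lift g s) ∈ pt.l := hsX' ▸ pt.contr_io_mem X' z'
  set T : pt.l →L[ℝ] pt.lᗮ := pt.lᗮ.orthogonalProjectionOnto ∘L g ∘L pt.l.subtypeL with hT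
  have hT0 := norm_nonneg T
  have key : ‖T‖ ≤ ‖T‖ / 2 := by
    refine T.opNorm_le_bound (by positivity) fun b => ?_
    have e1 := hlow _ (h2.trans_le (min_le_left _ _)) (T b)
    have e2 : pt.adm (contr pt.v (lift g s)) (T b) =
        T ⟨L.br (contr pt.v s) b, L.sub_cent pt.p _ m1 _ b.2⟩ := by
      have := pt.proj_br m2 (g b)
      rw [contr_lift, ← CL.G_br hg] at this
      rw [contr_lift]
      exact this.symm
    have e3 : L.br (contr pt.v pt.p) b = 0 := by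
      rw [L.br_contr]
      exact Finset.sum_eq_zero fun j _ => by rw [(L.mem_cent _ _).1 b.2 j, smul_zero]
    have e4 : ‖L.br (contr pt.v s) b‖ ≤ n * ‖contr pt.v s - contr pt.v pt.p‖ * ‖b‖ := by
      have := L.br_le (contr pt.v s - contr pt.v pt.p) b
      rwa [map_sub, sub_apply, e3, sub_zero] at this
    have e5 : n * ‖contr pt.v s - contr pt.v pt.p‖ ≤ d / 2 := by
      have := h1.trans_le (min_le_right _ _)
      rw [lt_div_iff₀ (by positivity)] at this
      nlinarith [norm_nonneg (contr pt.v s - contr pt.v pt.p)]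
    have e6 := T.le_opNorm ⟨L.br (contr pt.v s) b, L.sub_cent pt.p _ m1 _ b.2⟩
    rw [← e2] at e6
    have e7 : ‖L.br (contr pt.v s) b‖ ≤ d / 2 * ‖b‖ :=
      e4.trans (mul_le_mul_of_nonneg_right e5 (norm_nonneg _))
    have e8 : d * ‖T b‖ ≤ d * (‖T‖ / 2 * ‖b‖) := by
      calc _ ≤ _ := e1
        _ ≤ ‖T‖ * ‖L.br (contr pt.v s) b‖ := e6
        _ ≤ ‖T‖ * (d / 2 * ‖b‖) := by gcongr
        _ = _ := by ring
    exact le_of_mul_le_mul_left e8 hd
  have hT2 : ‖T‖ = 0 := by linarith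
  have hT1 : T = 0 := T.opNorm_zero_iff.1 hT2
  exact pt.mem_l_of_proj (congrArg (fun S : pt.l →L[ℝ] pt.lᗮ => S ⟨a, ha⟩) hT1)

theorem fix_contr {w : Fin 9 → ℝ} (hr : ∀ y, pt.adm (contr w pt.p) y = 0 → y = 0) :
    ∀ᶠ r in nhdsWithin (0 : ℝ) (Set.Ioi 0), ∀ g ∈ L.G, (∀ a ∈ pt.l, g a ∈ pt.l) →
      ‖lift g pt.p - pt.p‖ < 2 * r → g (contr w pt.p) = contr w pt.p := by
  obtain ⟨ρ, hρ, h⟩ := pt.discrete (pt.contr_mem_z w pt.p_mem_Z) hr
  have hm := norm_nonneg (contr w : EE V →L[ℝ] V)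
  have : 0 < ρ / (2 * (‖(contr w : EE V →L[ℝ] V)‖ + 1)) := by positivity
  filter_upwards [Ioo_mem_nhdsGT this] with r hr g hg hl hp
  refine h g hg hl ?_
  rw [← contr_lift]
  refine contr_close w hp ?_
  have := hr.2
  rw [lt_div_iff₀ (by positivity)] at this
  linarith

theorem stab : ∃ r > 0, ∀ g ∈ L.G, ∀ s ∈ pt.pts r, lift g s ∈ pt.pts r →
    lift g pt.p = pt.p ∧ (∀ a ∈ pt.l, g a ∈ pt.l) ∧ (∀ a ∈ pt.lᗮ, g a ∈ pt.lᗮ) ∧
      ∀ a ∈ pt.z, g a ∈ pt.z := by
  obtain ⟨r0, hr0, hl⟩ := pt.stab_l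
  obtain ⟨d, hd, ρ, hρ, hlow⟩ := pt.adm_lower
  have hp := norm_nonneg pt.p
  set t := ρ / (‖pt.p‖ + 1) with ht
  have ht0 : 0 < t := by positivity
  have hreg : ∀ i, ∀ y, pt.adm (contr (pt.v + Pi.single i t) pt.p) y = 0 → y = 0 := by
    intro i y hy
    have h1 : ‖contr (pt.v + Pi.single i t) pt.p - contr pt.v pt.p‖ < ρ := by
      rw [contr_add_single, add_sub_cancel_left, norm_smul, Real.norm_of_nonneg ht0.le]
      have h2 : ‖pt.p i‖ ≤ ‖pt.p‖ := PiLp.norm_apply_le pt.p i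
      have h3 : t * (‖pt.p‖ + 1) = ρ := by rw [ht]; field_simp
      nlinarith
    have h2 := hlow _ h1 y
    rw [hy, norm_zero] at h2
    have := norm_nonneg y
    exact norm_eq_zero.1 (by nlinarith)
  have e1 := pt.fix_contr pt.adm_inj
  have e2 := Filter.eventually_all.2 fun i => pt.fix_contr (hreg i)
  obtain ⟨r, ⟨f1, f2⟩, f3⟩ := ((e1.and e2).and (Ioo_mem_nhdsGT hr0)).exists
  refine ⟨r, f3.1, fun g hg s hs hs' => ?_⟩
  have hl' := hl g hg s ⟨hs.1, hs.2.trans f3.2⟩ ⟨hs'.1, hs'.2.trans f3.2⟩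
  refine ⟨?_, hl', pt.G_orth hg hl', pt.G_z hg hl'⟩
  have h1 : ‖lift g pt.p - pt.p‖ < 2 * r := by
    have h2 : ‖lift g s - lift g pt.p‖ < r := by
      rw [← map_sub, CL.G_norm hg]
      exact hs.2
    have h3 : lift g pt.p - pt.p = (lift g s - pt.p) - (lift g s - lift g pt.p) := by abel
    rw [h3]
    linarith [norm_sub_le (lift g s - pt.p) (lift g s - lift g pt.p), hs'.2]
  ext i
  have h2 := f1 g hg hl' h1
  have h3 := f2 i g hg hl' h1
  rw [contr_add_single, map_add, map_smul, h2, add_right_inj] at h3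
  exact smul_right_injective V ht0.ne' h3
end Patch

end Vale.Agent.P353
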