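import Vale.Agent.P353.HSys

open MeasureTheory NormedSpace Filter Topology
open Complex (I)
open scoped InnerProductSpace ContDiff

noncomputable section
namespace Vale.Agent.P353
variable {W H : Type} [AddCommGroup W] [Module ℂ W] [NormedAddCommGroup H] [InnerProductSpace ℂ H]
  [CompleteSpace H]

theorem habs1_sqrt {c a b : ℝ} (hc : 0 ≤ c) (ha : 0 ≤ a) (hb : 0 ≤ b) (h : c * a ^ 2 ≤ b ^ 2) :
    √c * a ≤ b := by
  refine (sq_le_sq₀ (by positivity) hb).1 ?_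
  rwa [mul_pow, Real.sq_sqrt hc]

namespace Sys
variable (S : Sys W H)

theorem symD (μ : ℝ) (u v : W) : ⟪S.j (S.D μ u), S.j v⟫_ℂ = ⟪S.j u, S.j (S.D μ v)⟫_ℂ := by
  simp [D_apply, S.sym0, S.symB]
theorem D_G (μ : ℝ) (u : W) : S.D μ (S.G u) = -S.G (S.D μ u) := by
  simp only [D_apply, S.anti0, S.antiB, map_add, map_smul]
  module
theorem norm_GH (f : H) : ‖S.GH f‖ = ‖f‖ := by
  rw [norm_eq_sqrt_re_inner (𝕜 := ℂ), S.symG, S.GHGH, ← norm_eq_sqrt_re_inner]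
theorem ev_mem (u : W) : S.ev u ∈ S.Wp := by
  rw [mem_Wp, ev, map_smul, map_add, S.GG, add_comm]
theorem ev_add (u : W) : S.ev u + S.neg.ev u = u := by
  change (1 / 2 : ℂ) • (u + S.G u) + (1 / 2 : ℂ) • (u + -S.G u) = u
  module
theorem D_mem (μ : ℝ) {u : W} (h : u ∈ S.Wp) :
    S.D μ u ∈ S.neg.Wp ∧ S.D0 u ∈ S.neg.Wp ∧ S.B u ∈ S.neg.Wp := by
  rw [mem_Wp] at h
  simp only [mem_Wm, ← neg_eq_iff_eq_neg]
  rw [← S.D_G, ← S.anti0, ← S.antiB, h]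
  exact ⟨rfl, rfl, rfl⟩
theorem j_mem {u : W} (h : u ∈ S.Wp) : S.j u ∈ S.Hp :=
  Submodule.le_topologicalClosure _ (Submodule.mem_map_of_mem h)
theorem GH_Hp {f : H} (h : f ∈ S.Hp) : S.GH f = f := by
  refine closure_minimal (t := {f | S.GH f = f}) ?_ (isClosed_eq S.GH.continuous continuous_id) h
  rintro _ ⟨u, hu, rfl⟩
  exact (S.jG u).symm.trans (congrArg S.j ((S.mem_Wp u).1 hu))
theorem orth {f g : H} (hf : f ∈ S.Hp) (hg : g ∈ S.neg.Hp) : ⟪f, g⟫_ℂ = 0 := by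
  have h1 : -S.GH g = g := S.neg.GH_Hp hg
  have h2 := S.symG f g
  rw [S.GH_Hp hf, neg_eq_iff_eq_neg.1 h1, inner_neg_right] at h2
  linear_combination h2 / 2
theorem norm_add_sq {u v : W} (hu : u ∈ S.Wp) (hv : v ∈ S.neg.Wp) :
    ‖S.j (u + v)‖ ^ 2 = ‖S.j u‖ ^ 2 + ‖S.j v‖ ^ 2 ∧
      ∀ μ, ‖S.j (S.D μ (u + v))‖ ^ 2 = ‖S.j (S.D μ u)‖ ^ 2 + ‖S.j (S.D μ v)‖ ^ 2 := by
  refine ⟨?_, fun μ => ?_⟩
  · simpa only [map_add, sq, neg_j] using norm_add_sq_eq_norm_sq_add_norm_sq_of_inner_eq_zero _ _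
      (S.orth (S.j_mem hu) (S.neg.j_mem hv))
  · simpa only [map_add, sq, neg_j, neg_D] using
      norm_add_sq_eq_norm_sq_add_norm_sq_of_inner_eq_zero _ _
        (S.neg.orth (S.neg.j_mem (S.D_mem μ hu).1) (S.neg.neg.j_mem (S.neg.D_mem μ hv).1))
theorem norm_D_ev (μ : ℝ) (u : W) : ‖S.j (S.D μ (S.ev u))‖ ≤ ‖S.j (S.D μ u)‖ := by
  have h := (S.norm_add_sq (S.ev_mem u) (S.neg.ev_mem u)).2 μ
  rw [S.ev_add] at h
  exact (sq_le_sq₀ (norm_nonneg _) (norm_nonneg _)).1 (h ▸ le_add_of_nonneg_right (sq_nonneg _))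
theorem ev_close {f : H} (h : S.GH f = f) (u : W) : ‖S.j (S.ev u) - f‖ ≤ ‖S.j u - f‖ := by
  have e : S.j (S.ev u) - f = (1 / 2 : ℂ) • ((S.j u - f) + S.GH (S.j u - f)) := by
    rw [ev, map_smul, map_add, S.jG, map_sub, h]
    module
  have h1 := norm_add_le (S.j u - f) (S.GH (S.j u - f))
  rw [S.norm_GH] at h1
  rw [e, norm_smul, show ‖(1 / 2 : ℂ)‖ = 1 / 2 by simp]
  linarith
theorem mem_Kp (μ : ℝ) (f : H) :
    f ∈ S.Kp μ ↔ f ∈ S.Hp ∧ ∀ v ∈ S.neg.Wp, ⟪S.j (S.D μ v), f⟫_ℂ = 0 := by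
  rw [Kp, Submodule.mem_inf, Submodule.mem_orthogonal]
  exact and_congr_right' ⟨fun h v hv => h _ ⟨v, hv, rfl⟩, fun h _ ⟨v, hv, e⟩ => e ▸ h v hv⟩
theorem isClosed_Kp (μ : ℝ) : IsClosed (S.Kp μ : Set H) :=
  (Submodule.isClosed_topologicalClosure _).inter (Submodule.isClosed_orthogonal _)
/-- an even weak solution is a weak solution against all test vectors (`ev_add`, `orth`), so
`Good.esa` applies; then take the even part -/
theorem Kp_approx {μ : ℝ} (hg : S.Good μ) {f : H} (hf : f ∈ S.Kp μ) {ε : ℝ} (hε : 0 < ε) :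
    ∃ u ∈ S.Wp, ‖S.j u - f‖ ≤ ε ∧ ‖S.j (S.D μ u)‖ ≤ ε := by
  obtain ⟨h1, h2⟩ := (S.mem_Kp μ f).1 hf
  obtain ⟨u, h3, h4⟩ := hg.esa f (closure_mono (by rintro _ ⟨u, -, e⟩; exact ⟨u, e⟩) h1) (fun u => by
    have h5 := inner_eq_zero_symm.1 (S.orth h1 (S.neg.j_mem (S.D_mem μ (S.ev_mem u)).1))
    rw [← S.ev_add u, map_add, map_add, inner_add_left, h2 _ (S.neg.ev_mem u), add_zero]
    exact h5) ε hε
  exact ⟨S.ev u, S.ev_mem u, (S.ev_close (S.GH_Hp h1) u).trans h3, (S.norm_D_ev μ u).trans h4⟩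
/-- the unit ball of `Kp` is sequentially compact (`Kp_approx`, `Good.cpt`, `isClosed_Kp`), then
`FiniteDimensional.of_isCompact_closedBall₀` -/
theorem Kp_fin {μ : ℝ} (hg : S.Good μ) : FiniteDimensional ℂ (S.Kp μ) := by
  refine FiniteDimensional.of_isCompact_closedBall₀ ℂ one_pos
    (isCompact_iff_isSeqCompact.2 fun x hx => ?_)
  choose u _ h1 h2 using fun n : ℕ =>
    S.Kp_approx hg (x n).2 (Nat.one_div_pos_of_nat (α := ℝ) (n := n))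
  have b1 : ∀ n : ℕ, 1 / ((n : ℝ) + 1) ≤ 1 := fun n =>
    (div_le_one (by positivity)).2 (le_add_of_nonneg_left n.cast_nonneg)
  have b2 : ∀ n, ‖(x n : H)‖ ≤ 1 := fun n => mem_closedBall_zero_iff.1 (hx n)
  obtain ⟨κ, hκ, f, hf⟩ := hg.cpt u 2 (fun n => by
    have := norm_le_norm_add_norm_sub' (S.j (u n)) (x n)
    linarith [h1 n, b1 n, b2 n]) fun n => by linarith [h2 n, b1 n]
  have l1 : Tendsto (fun n => S.j (u n) - x n) atTop (𝓝 0) :=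
    squeeze_zero_norm h1 tendsto_one_div_add_atTop_nhds_zero_nat
  have l2 : Tendsto (fun n => (x (κ n) : H)) atTop (𝓝 f) := by
    simpa using hf.sub (l1.comp hκ.tendsto_atTop)
  refine ⟨⟨f, (S.isClosed_Kp μ).mem_of_tendsto l2 (Eventually.of_forall fun n => (x (κ n)).2)⟩,
    mem_closedBall_zero_iff.2 ?_, κ, hκ, tendsto_subtype_rng.2 l2⟩
  exact le_of_tendsto' l2.norm fun n => b2 _
theorem Kp_bot {μ c : ℝ} (hg : S.Good μ) (hc : 0 < c)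
    (h : ∀ u ∈ S.Wp, c * ‖S.j u‖ ^ 2 ≤ ‖S.j (S.D μ u)‖ ^ 2) : S.Kp μ = ⊥ := by
  refine eq_bot_iff.2 fun f hf => (Submodule.mem_bot ℂ).2 (norm_le_zero_iff.1
    (le_of_forall_pos_le_add fun ε hε => ?_))
  have hs := Real.sqrt_pos.2 hc
  obtain ⟨u, hu, h1, h2⟩ := S.Kp_approx hg hf (ε := min (ε / 2) (√c * (ε / 2))) (by positivity)
  have h3 := le_of_mul_le_mul_left ((habs1_sqrt hc.le (norm_nonneg _) (norm_nonneg _)
    (h u hu)).trans (h2.trans (min_le_right _ _))) hs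
  have h4 := norm_le_norm_add_norm_sub (S.j u) f
  linarith [h1.trans (min_le_left _ _)]
/-- Transfer of a gap from the odd to the even part.  With `R = (S.neg.Wp.map (j ∘ D μ))`, split
`j u = a + b`, `a ∈ closure R ≤ Hp`, `b ∈ Rᗮ`; then `b ∈ Kp`, so `b = 0`.  For `r = j (D v) ∈ R`,
`√c * ‖⟪j u, r⟫‖ = √c * ‖⟪j (D u), j v⟫‖ ≤ ‖j (D u)‖ * ‖r‖`, a closed condition in `r`; take `r = j u`. -/
theorem transfer {μ c : ℝ} (h : ∀ v ∈ S.neg.Wp, c * ‖S.j v‖ ^ 2 ≤ ‖S.j (S.D μ v)‖ ^ 2) {u : W}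
    (hu : u ∈ S.Wp) (ho : ∀ k ∈ S.Kp μ, ⟪k, S.j u⟫_ℂ = 0) :
    c * ‖S.j u‖ ^ 2 ≤ ‖S.j (S.D μ u)‖ ^ 2 := by
  rcases le_total c 0 with hc | hc
  · exact (mul_nonpos_of_nonpos_of_nonneg hc (sq_nonneg _)).trans (sq_nonneg _)
  have h1 : (S.neg.Wp.map (S.j ∘ₗ S.D μ)).topologicalClosure ≤ S.Hp :=
    Submodule.topologicalClosure_mono fun _ ⟨v, hv, e⟩ =>
      ⟨S.D μ v, by simpa using (S.neg.D_mem μ hv).1, e⟩
  obtain ⟨a, ha, b, hb, e⟩ :=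
    (S.neg.Wp.map (S.j ∘ₗ S.D μ)).topologicalClosure.exists_add_mem_mem_orthogonal (S.j u)
  have h2 : b ∈ S.Kp μ := ⟨(S.Hp.add_mem_iff_right (h1 ha)).1 (e ▸ S.j_mem hu),
    Submodule.orthogonal_le (Submodule.le_topologicalClosure _) hb⟩
  have h3 := ho b h2
  rw [e, inner_add_right, Submodule.inner_left_of_mem_orthogonal ha hb, zero_add,
    inner_self_eq_zero] at h3
  rw [h3, add_zero] at e
  have h4 : √c * ‖⟪S.j u, a⟫_ℂ‖ ≤ ‖S.j (S.D μ u)‖ * ‖a‖ := by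
    refine closure_minimal (t := {r | √c * ‖⟪S.j u, r⟫_ℂ‖ ≤ ‖S.j (S.D μ u)‖ * ‖r‖}) ?_
      (isClosed_le (by fun_prop) (by fun_prop)) ha
    rintro _ ⟨v, hv, rfl⟩
    change √c * ‖⟪S.j u, S.j (S.D μ v)⟫_ℂ‖ ≤ ‖S.j (S.D μ u)‖ * ‖S.j (S.D μ v)‖
    rw [← S.symD]
    have h5 := mul_le_mul_of_nonneg_left (norm_inner_le_norm (𝕜 := ℂ) (S.j (S.D μ u)) (S.j v))
      (Real.sqrt_nonneg c)
    have h6 := mul_le_mul_of_nonneg_left (habs1_sqrt hc (norm_nonneg _) (norm_nonneg _) (h v hv))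
      (norm_nonneg (S.j (S.D μ u)))
    linarith
  rw [← e, inner_self_eq_norm_sq_to_K, norm_pow, RCLike.norm_ofReal, abs_norm, sq,
    ← mul_assoc] at h4
  rcases (norm_nonneg (S.j u)).eq_or_lt with h5 | h5
  · rw [← h5, zero_pow two_ne_zero, mul_zero]
    exact sq_nonneg _
  have h6 := pow_le_pow_left₀ (by positivity) (le_of_mul_le_mul_right h4 h5) 2
  rwa [mul_pow, Real.sq_sqrt hc] at h6

end Sys

end Vale.Agent.P353
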