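import Mathlib

open MeasureTheory NormedSpace Filter Topology
open Complex (I)
open scoped InnerProductSpace ContDiff

noncomputable section
namespace Vale.Agent.P353
variable {X Y H : Type} [NormedAddCommGroup X] [NormedSpace ℂ X] [CompleteSpace X]
  [NormedAddCommGroup Y] [NormedSpace ℂ Y] [NormedAddCommGroup H] [NormedSpace ℂ H]

/-- The index of a compression of a linear equivalence. -/
theorem hfred_alg {A B K N : Type} [AddCommGroup A] [Module ℂ A] [AddCommGroup B] [Module ℂ B]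
    [AddCommGroup K] [Module ℂ K] [AddCommGroup N] [Module ℂ N] [FiniteDimensional ℂ K]
    [FiniteDimensional ℂ N] (e : (A × K) ≃ₗ[ℂ] (B × N)) :
    LinearMap.index (LinearMap.fst ℂ B N ∘ₗ (e.toLinearMap ∘ₗ LinearMap.inl ℂ A K)) =
      LinearMap.index (LinearMap.fst ℂ B N) + LinearMap.index (LinearMap.inl ℂ A K) := by
  have i1 : FiniteDimensional ℂ (LinearMap.ker (LinearMap.inl ℂ A K)) := by
    rw [LinearMap.ker_eq_bot.2 LinearMap.inl_injective]; infer_instance
  have i2 : FiniteDimensional ℂ ((A × K) ⧸ LinearMap.range (LinearMap.inl ℂ A K)) := by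
    rw [LinearMap.range_inl]
    exact (LinearMap.snd ℂ A K).quotKerEquivRange.symm.finiteDimensional
  have i3 : FiniteDimensional ℂ (LinearMap.ker e.toLinearMap) := by
    rw [LinearEquiv.ker]; infer_instance
  have i4 : FiniteDimensional ℂ ((B × N) ⧸ LinearMap.range e.toLinearMap) := by
    rw [LinearEquiv.range]; infer_instance
  have i5 : FiniteDimensional ℂ (LinearMap.ker (LinearMap.fst ℂ B N)) := by
    rw [LinearMap.ker_fst]; infer_instance
  have i6 : FiniteDimensional ℂ (B ⧸ LinearMap.range (LinearMap.fst ℂ B N)) := by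
    rw [LinearMap.range_eq_top.2 LinearMap.fst_surjective]; infer_instance
  have i7 : FiniteDimensional ℂ (LinearMap.ker (e.toLinearMap ∘ₗ LinearMap.inl ℂ A K)) := by
    rw [LinearMap.ker_comp]; infer_instance
  have i8 : FiniteDimensional ℂ
      ((B × N) ⧸ LinearMap.range (e.toLinearMap ∘ₗ LinearMap.inl ℂ A K)) := by
    rw [LinearMap.range_comp]; infer_instance
  rw [LinearMap.index_comp, LinearMap.index_comp, LinearEquiv.index_eq_zero, zero_add]

/-- Local constancy of the index.  Hint: let `K` be an algebraic complement of the range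
(`Submodule.exists_isCompl`, finite dimensional by `Submodule.quotientEquivOfIsCompl`), `P` a
continuous projection onto the kernel (`Submodule.ClosedComplemented.of_finiteDimensional`).  For
`S : X →L Y` put `Φ S : X × K →L Y × ker T`, `(x, k) ↦ (S x + k, P x)`.  `Φ T` is bijective, `Φ` is
continuous in `S`, so `Φ S` is bijective near `T` (`ContinuousLinearEquiv.ofBijective`,
`ContinuousLinearEquiv.isOpen` / `ContinuousLinearEquiv.nhds`).  Then
`S = fst ∘ Φ S ∘ inl` and `LinearMap.index_comp`, `LinearEquiv.index_eq_zero` give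
`index S = finrank (ker T) - finrank K` for every `S` with `Φ S` bijective, including `S = T`. -/
theorem index_loc [CompleteSpace Y] (T : X →L[ℂ] Y)
    (hk : FiniteDimensional ℂ (LinearMap.ker T.toLinearMap))
    (hc : FiniteDimensional ℂ (Y ⧸ LinearMap.range T.toLinearMap)) :
    ∀ᶠ S in 𝓝 T, LinearMap.index (S : X →L[ℂ] Y).toLinearMap = LinearMap.index T.toLinearMap := by
  obtain ⟨K, hK⟩ := Submodule.exists_isCompl (LinearMap.range T.toLinearMap)
  have hKf : FiniteDimensional ℂ K :=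
    (Submodule.quotientEquivOfIsCompl _ K hK).finiteDimensional
  have hKc : CompleteSpace K := FiniteDimensional.complete ℂ K
  set N := LinearMap.ker T.toLinearMap with hN
  have hNc : CompleteSpace N := FiniteDimensional.complete ℂ N
  obtain ⟨P, hP⟩ := Submodule.ClosedComplemented.of_finiteDimensional N
  let Φ : (X →L[ℂ] Y) → (X × K →L[ℂ] Y × N) := fun S =>
    ContinuousLinearMap.inl ℂ Y N ∘L (S ∘L ContinuousLinearMap.fst ℂ X K) +
      (K.subtypeL ∘L ContinuousLinearMap.snd ℂ X K).prod (P ∘L ContinuousLinearMap.fst ℂ X K)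
  have hΦ : ∀ S x k, Φ S (x, k) = (S x + (k : Y), P x) := by
    intro S x k
    simp [Φ]
  have hcont : Continuous Φ :=
    (continuous_const.clm_comp (continuous_id.clm_comp continuous_const)).add continuous_const
  have hinj : LinearMap.ker (Φ T).toLinearMap = ⊥ := by
    rw [LinearMap.ker_eq_bot']
    rintro ⟨x, k⟩ h
    have h' : Φ T (x, k) = 0 := h
    rw [hΦ, Prod.mk_eq_zero] at h'
    have h1 : (k : Y) ∈ LinearMap.range T.toLinearMap := by
      refine ⟨-x, ?_⟩
      have : T (-x) = k := by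
        rw [map_neg]
        exact neg_eq_of_add_eq_zero_right h'.1
      exact this
    have h2 : (k : Y) = 0 := (Submodule.disjoint_def.1 hK.disjoint) _ h1 k.2
    have h3 : T x = 0 := by simpa [h2] using h'.1
    have h4 := hP ⟨x, h3⟩
    have h5 : (⟨x, h3⟩ : N) = 0 := h4.symm.trans h'.2
    have h6 : x = 0 := congrArg Subtype.val h5
    exact Prod.ext h6 (Subtype.ext h2)
  have hsurj : LinearMap.range (Φ T).toLinearMap = ⊤ := by
    rw [LinearMap.range_eq_top]
    rintro ⟨y, n⟩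
    have hy : y ∈ LinearMap.range T.toLinearMap ⊔ K := by
      rw [hK.sup_eq_top]; trivial
    obtain ⟨_, ⟨x, rfl⟩, k, hk', rfl⟩ := Submodule.mem_sup.1 hy
    refine ⟨(x + ((n - P x : N) : X), ⟨k, hk'⟩), ?_⟩
    have h0 : T ((n - P x : N) : X) = 0 := (n - P x).2
    change Φ T _ = _
    rw [hΦ, map_add, map_add, h0, hP, add_zero, add_sub_cancel]
    rfl
  have key : ∀ (S : X →L[ℂ] Y) (e : (X × K) ≃L[ℂ] (Y × N)), (e : X × K →L[ℂ] Y × N) = Φ S →
      LinearMap.index S.toLinearMap =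
        LinearMap.index (LinearMap.fst ℂ Y N) + LinearMap.index (LinearMap.inl ℂ X K) := by
    intro S e he
    rw [← hfred_alg e.toLinearEquiv]
    congr 1
    ext x
    have h1 : e (x, 0) = Φ S (x, 0) := by rw [← he]; rfl
    change S x = (e (x, 0)).1
    rw [h1, hΦ]
    simp
  let e0 := ContinuousLinearEquiv.ofBijective (Φ T) hinj hsurj
  have he0 : (e0 : X × K →L[ℂ] Y × N) = Φ T := ContinuousLinearEquiv.coe_ofBijective _ _ _
  have hn := ContinuousLinearEquiv.nhds e0
  rw [he0] at hn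
  filter_upwards [hcont.continuousAt.preimage_mem_nhds hn] with S hS
  obtain ⟨e, he⟩ := hS
  rw [key S e he, key T e0 he0]

theorem hfred_sub (T : X →L[ℂ] Y) (j : X →L[ℂ] H) {C : ℝ}
    (hest : ∀ x, ‖x‖ ≤ C * (‖T x‖ + ‖j x‖))
    (hc : ∀ (x : ℕ → X) (A : ℝ), (∀ n, ‖x n‖ ≤ A) →
      ∃ κ : ℕ → ℕ, StrictMono κ ∧ ∃ f, Tendsto (fun n => j (x (κ n))) atTop (𝓝 f))
    (x : ℕ → X) (A : ℝ) (hA : ∀ n, ‖x n‖ ≤ A) {y : Y}
    (hy : Tendsto (fun n => T (x n)) atTop (𝓝 y)) :
    ∃ κ : ℕ → ℕ, ∃ z, T z = y ∧ Tendsto (fun n => x (κ n)) atTop (𝓝 z) := by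
  obtain ⟨κ, hκ, f, hf⟩ := hc x A hA
  have hy' : Tendsto (fun n => T (x (κ n))) atTop (𝓝 y) := hy.comp hκ.tendsto_atTop
  have c1 := cauchySeq_iff_tendsto_dist_atTop_0.1 hy'.cauchySeq
  have c2 := cauchySeq_iff_tendsto_dist_atTop_0.1 hf.cauchySeq
  have c3 : CauchySeq fun n => x (κ n) := by
    rw [cauchySeq_iff_tendsto_dist_atTop_0]
    have c4 := (c1.add c2).const_mul C
    rw [add_zero, mul_zero] at c4
    refine squeeze_zero (fun _ => dist_nonneg) (fun p => ?_) c4
    have := hest (x (κ p.1) - x (κ p.2))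
    simpa only [dist_eq_norm, map_sub] using this
  obtain ⟨z, hz⟩ := cauchySeq_tendsto_of_complete c3
  exact ⟨κ, z, tendsto_nhds_unique ((T.continuous.tendsto z).comp hz) hy', hz⟩

theorem hfred_dist (T : X →L[ℂ] Y) (j : X →L[ℂ] H) {C : ℝ}
    (hest : ∀ x, ‖x‖ ≤ C * (‖T x‖ + ‖j x‖))
    (hc : ∀ (x : ℕ → X) (A : ℝ), (∀ n, ‖x n‖ ≤ A) →
      ∃ κ : ℕ → ℕ, StrictMono κ ∧ ∃ f, Tendsto (fun n => j (x (κ n))) atTop (𝓝 f)) :
    ∃ m : ℕ, ∀ x, Metric.infDist x {k | T k = 0} ≤ ((m : ℝ) + 1) * ‖T x‖ := by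
  by_contra hcon
  push Not at hcon
  choose x hx using hcon
  set d : ℕ → ℝ := fun n => Metric.infDist (x n) {k | T k = 0} with hd
  have hd0 : ∀ n, 0 < d n := fun n => lt_of_le_of_lt (by positivity) (hx n)
  have hne : ({k | T k = 0} : Set X).Nonempty := ⟨0, map_zero T⟩
  have hk : ∀ n, ∃ k ∈ ({k | T k = 0} : Set X), dist (x n) k < 2 * d n := fun n =>
    (Metric.infDist_lt_iff hne).1 (by have := hd0 n; change d n < _; linarith)
  choose k hk0 hk using hk
  set z : ℕ → X := fun n => ((d n : ℂ))⁻¹ • (x n - k n) with hz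
  have hnorm : ∀ n, ‖((d n : ℂ))⁻¹‖ = (d n)⁻¹ := fun n => by
    rw [norm_inv, Complex.norm_real, Real.norm_of_nonneg (hd0 n).le]
  have hz2 : ∀ n, ‖z n‖ ≤ 2 := by
    intro n
    have h1 := hk n
    rw [dist_eq_norm] at h1
    simp only [hz]
    rw [norm_smul, hnorm, inv_mul_le_iff₀ (hd0 n)]
    linarith
  have hT : Tendsto (fun n => T (z n)) atTop (𝓝 0) := by
    rw [tendsto_zero_iff_norm_tendsto_zero]
    refine squeeze_zero (fun _ => norm_nonneg _) (fun n => ?_)
      tendsto_one_div_add_atTop_nhds_zero_nat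
    have h0 : T (k n) = 0 := hk0 n
    have h1 : ((n : ℝ) + 1) * ‖T (x n)‖ < d n := hx n
    simp only [hz]
    rw [map_smul, map_sub, h0, sub_zero, norm_smul, hnorm, inv_mul_le_iff₀ (hd0 n), mul_one_div,
      le_div_iff₀ (by positivity)]
    linarith
  obtain ⟨κ, w, hw, hlim⟩ := hfred_sub T j hest hc z 2 hz2 hT
  have hfar : ∀ n, 1 ≤ ‖z n - w‖ := by
    intro n
    have h0 : T (k n) = 0 := hk0 n
    have hm : k n + (d n : ℂ) • w ∈ ({k | T k = 0} : Set X) := by
      change T _ = 0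
      rw [map_add, map_smul, h0, hw, smul_zero, add_zero]
    have h1 : d n ≤ dist (x n) (k n + (d n : ℂ) • w) := Metric.infDist_le_dist_of_mem hm
    have hdc : (d n : ℂ) ≠ 0 := by exact_mod_cast (hd0 n).ne'
    have h2 : z n - w = ((d n : ℂ))⁻¹ • (x n - (k n + (d n : ℂ) • w)) := by
      simp only [hz]
      rw [← sub_sub, smul_sub ((d n : ℂ))⁻¹ (x n - k n), smul_smul, inv_mul_cancel₀ hdc, one_smul]
    rw [h2, norm_smul, hnorm, le_inv_mul_iff₀ (hd0 n), mul_one, ← dist_eq_norm]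
    exact h1
  have h3 := tendsto_iff_norm_sub_tendsto_zero.1 hlim
  have h4 := ge_of_tendsto' h3 fun n => hfar (κ n)
  norm_num at h4

/-- Peetre's lemma.  Hint: first, if `x n` is bounded and `T (x n)` converges, a subsequence of
`x n` is Cauchy.  Second, there is `c` with `infDist x (ker T) ≤ c * ‖T x‖` (otherwise take `x n` with
`infDist (x n) (ker T) = 1`, `‖x n‖ ≤ 2`, `T (x n) → 0`; a limit point lies in the kernel).  Third,
if `T (x n) → y`, correct `x n` by kernel elements to a bounded sequence. -/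
theorem peetre (T : X →L[ℂ] Y) (j : X →L[ℂ] H) {C : ℝ} (hest : ∀ x, ‖x‖ ≤ C * (‖T x‖ + ‖j x‖))
    (hc : ∀ (x : ℕ → X) (A : ℝ), (∀ n, ‖x n‖ ≤ A) →
      ∃ κ : ℕ → ℕ, StrictMono κ ∧ ∃ f, Tendsto (fun n => j (x (κ n))) atTop (𝓝 f)) :
    IsClosed (Set.range T) := by
  obtain ⟨m, hm⟩ := hfred_dist T j hest hc
  have hne : ({k | T k = 0} : Set X).Nonempty := ⟨0, map_zero T⟩
  refine IsSeqClosed.isClosed fun u y hu hy => ?_
  choose x hx using hu
  have hk : ∀ n, ∃ k ∈ ({k | T k = 0} : Set X), dist (x n) k < ((m : ℝ) + 1) * ‖T (x n)‖ + 1 :=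
    fun n => (Metric.infDist_lt_iff hne).1 (lt_of_le_of_lt (hm _) (lt_add_one _))
  choose k hk0 hk using hk
  obtain ⟨A, hA⟩ := hy.norm.bddAbove_range
  have hT : ∀ n, T (x n - k n) = u n := fun n => by
    have h0 : T (k n) = 0 := hk0 n
    rw [map_sub, h0, sub_zero, hx]
  obtain ⟨-, z, hz, -⟩ := hfred_sub T j hest hc (fun n => x n - k n) (((m : ℝ) + 1) * A + 1)
    (fun n => by
      have h1 := hk n
      have h2 : ‖u n‖ ≤ A := hA ⟨n, rfl⟩
      rw [dist_eq_norm, hx] at h1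
      have h3 := mul_le_mul_of_nonneg_left h2 (show (0 : ℝ) ≤ (m : ℝ) + 1 by positivity)
      linarith) (y := y) (by simpa only [hT] using hy)
  exact ⟨z, hz⟩

end Vale.Agent.P353
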