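import Vale.Agent.P353.HAbs1
import Vale.Agent.P353.HFred

open MeasureTheory NormedSpace Filter Topology
open Complex (I)
open scoped InnerProductSpace ContDiff

noncomputable section
namespace Vale.Agent.P353
variable {W H : Type} [AddCommGroup W] [Module ℂ W] [NormedAddCommGroup H] [InnerProductSpace ℂ H]
  [CompleteSpace H]

namespace Sys
variable (S : Sys W H)

/-- the joint graph map -/
def tri : W →ₗ[ℂ] H × H × H := S.j.prod ((S.j ∘ₗ S.D0).prod (S.j ∘ₗ S.B))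
/-- the common domain: closure of the joint graph over the even test vectors -/
def X : Submodule ℂ (H × H × H) := (S.Wp.map S.tri).topologicalClosure

instance : CompleteSpace S.X := Submodule.topologicalClosure.completeSpace _
instance : CompleteSpace S.Hp := Submodule.topologicalClosure.completeSpace _

theorem closure_induction {p : H × H × H → Prop} {x : H × H × H} (h : x ∈ S.X)
    (hc : IsClosed {x | p x}) (h0 : ∀ u ∈ S.Wp, p (S.j u, S.j (S.D0 u), S.j (S.B u))) : p x := by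
  refine closure_minimal (s := (S.Wp.map S.tri : Set (H × H × H))) (t := {x | p x}) ?_ hc h
  rintro _ ⟨u, hu, rfl⟩
  exact h0 u hu

theorem tri_mem {u : W} (hu : u ∈ S.Wp) : S.tri u ∈ S.X :=
  Submodule.le_topologicalClosure _ ⟨u, hu, rfl⟩

theorem jD (μ : ℝ) (u : W) : S.j (S.D μ u) = S.j (S.D0 u) + (μ : ℂ) • S.j (S.B u) := by
  rw [D_apply, map_add, map_smul]

theorem X_mem {x : H × H × H} (h : x ∈ S.X) :
    x.1 ∈ S.Hp ∧ x.2.1 ∈ S.neg.Hp ∧ x.2.2 ∈ S.neg.Hp := by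
  have c1 : IsClosed (S.Hp : Set H) := Submodule.isClosed_topologicalClosure _
  have c2 : IsClosed (S.neg.Hp : Set H) := Submodule.isClosed_topologicalClosure _
  refine S.closure_induction (p := fun x : H × H × H =>
    x.1 ∈ S.Hp ∧ x.2.1 ∈ S.neg.Hp ∧ x.2.2 ∈ S.neg.Hp) h ?_ ?_
  · exact (c1.preimage continuous_fst).inter ((c2.preimage continuous_snd.fst).inter
      (c2.preimage continuous_snd.snd))
  · intro u hu
    exact ⟨S.j_mem hu, S.neg.j_mem (S.D_mem 0 hu).2.1, S.neg.j_mem (S.D_mem 0 hu).2.2⟩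

/-- the two coefficients of the closed operator -/
def T0 : S.X →L[ℂ] S.neg.Hp :=
  ((ContinuousLinearMap.fst ℂ H H ∘L ContinuousLinearMap.snd ℂ H (H × H)) ∘L S.X.subtypeL).codRestrict
    _ fun x => (S.X_mem x.2).2.1
def T1 : S.X →L[ℂ] S.neg.Hp :=
  ((ContinuousLinearMap.snd ℂ H H ∘L ContinuousLinearMap.snd ℂ H (H × H)) ∘L S.X.subtypeL).codRestrict
    _ fun x => (S.X_mem x.2).2.2
/-- the closed operator from the even to the odd part -/
def T (μ : ℝ) : S.X →L[ℂ] S.neg.Hp := S.T0 + (μ : ℂ) • S.T1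
/-- the inclusion of the common domain -/
def jX : S.X →L[ℂ] H := ContinuousLinearMap.fst ℂ H (H × H) ∘L S.X.subtypeL

lemma T_coe (μ : ℝ) (x : S.X) : (S.T μ x : H) = x.1.2.1 + (μ : ℂ) • x.1.2.2 := rfl
lemma jX_apply (x : S.X) : S.jX x = x.1.1 := rfl

/-- closed condition, true on the graph by `Good.rel` and `D0 = D μ - μ B` -/
theorem T_est {μ : ℝ} (hg : S.Good μ) : ∃ C : ℝ, ∀ x, ‖x‖ ≤ C * (‖S.T μ x‖ + ‖S.jX x‖) := by
  obtain ⟨C, hC⟩ := hg.rel
  refine ⟨1 + (1 + |μ|) * |C|, fun x => ?_⟩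
  change ‖x.1‖ ≤ (1 + (1 + |μ|) * |C|) * (‖x.1.2.1 + (μ : ℂ) • x.1.2.2‖ + ‖x.1.1‖)
  refine S.closure_induction (p := fun x : H × H × H =>
    ‖x‖ ≤ (1 + (1 + |μ|) * |C|) * (‖x.2.1 + (μ : ℂ) • x.2.2‖ + ‖x.1‖)) x.2
    (isClosed_le (by fun_prop) (by fun_prop)) fun u _ => ?_
  have h1 := hC u
  rw [S.jD] at h1
  set a := S.j u
  set b := S.j (S.D0 u)
  set c := S.j (S.B u)
  set t := ‖b + (μ : ℂ) • c‖ + ‖a‖ with ht
  have n1 := norm_nonneg a
  have n2 := norm_nonneg (b + (μ : ℂ) • c)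
  have t0 : 0 ≤ t := by positivity
  have h2 : ‖c‖ ≤ |C| * t := h1.trans (mul_le_mul_of_nonneg_right (le_abs_self C) t0)
  have h3 : ‖b‖ ≤ ‖b + (μ : ℂ) • c‖ + |μ| * ‖c‖ := by
    have := norm_sub_le (b + (μ : ℂ) • c) ((μ : ℂ) • c)
    rwa [add_sub_cancel_right, norm_smul, Complex.norm_real, Real.norm_eq_abs] at this
  have h4 : |μ| * ‖c‖ ≤ |μ| * (|C| * t) := mul_le_mul_of_nonneg_left h2 (abs_nonneg _)
  have h5 : 0 ≤ |C| * t := by positivity
  have h6 : 0 ≤ |μ| * (|C| * t) := by positivity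
  change max ‖a‖ (max ‖b‖ ‖c‖) ≤ (1 + (1 + |μ|) * |C|) * t
  refine max_le ?_ (max_le ?_ ?_) <;> nlinarith
/-- approximate `x n` within `1 / (n + 1)` by graph points and use `Good.cpt` -/
theorem jX_cpt {μ : ℝ} (hg : S.Good μ) (x : ℕ → S.X) (A : ℝ) (h : ∀ n, ‖x n‖ ≤ A) :
    ∃ κ : ℕ → ℕ, StrictMono κ ∧ ∃ f, Tendsto (fun n => S.jX (x (κ n))) atTop (𝓝 f) := by
  have h1 : ∀ n : ℕ, ∃ u, ‖(x n).1 - S.tri u‖ ≤ 1 / ((n : ℝ) + 1) := fun n => by
    obtain ⟨_, ⟨u, -, rfl⟩, hu⟩ := Metric.mem_closure_iff.1 (x n).2 (1 / ((n : ℝ) + 1))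
      (by positivity)
    exact ⟨u, by rw [← dist_eq_norm]; exact hu.le⟩
  choose u hu using h1
  have h2 : ∀ n, ‖S.tri (u n)‖ ≤ A + 1 := fun n => by
    have a1 := norm_sub_norm_le (S.tri (u n)) (x n).1
    rw [norm_sub_rev] at a1
    have a2 : 1 / ((n : ℝ) + 1) ≤ 1 := by
      rw [div_le_one (by positivity)]
      linarith [Nat.cast_nonneg (α := ℝ) n]
    have a3 : ‖(x n).1‖ ≤ A := h n
    linarith [hu n]
  have h3 : ∀ n, ‖S.j (u n)‖ ≤ (1 + |μ|) * (A + 1) ∧ ‖S.j (S.D μ (u n))‖ ≤ (1 + |μ|) * (A + 1) :=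
    fun n => by
      have a1 : ‖S.j (u n)‖ ≤ A + 1 := (norm_fst_le (S.tri (u n))).trans (h2 n)
      have a2 : ‖S.j (S.D0 (u n))‖ ≤ A + 1 :=
        ((norm_fst_le (S.tri (u n)).2).trans (norm_snd_le _)).trans (h2 n)
      have a3 : ‖S.j (S.B (u n))‖ ≤ A + 1 :=
        ((norm_snd_le (S.tri (u n)).2).trans (norm_snd_le _)).trans (h2 n)
      have a4 := norm_add_le (S.j (S.D0 (u n))) ((μ : ℂ) • S.j (S.B (u n)))
      rw [← S.jD, norm_smul, Complex.norm_real, Real.norm_eq_abs] at a4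
      have a5 := mul_le_mul_of_nonneg_left a3 (abs_nonneg μ)
      have a6 := mul_nonneg (abs_nonneg μ) ((norm_nonneg _).trans a1)
      constructor <;> nlinarith
  obtain ⟨κ, hκ, f, hf⟩ := hg.cpt u _ (fun n => (h3 n).1) fun n => (h3 n).2
  refine ⟨κ, hκ, f, ?_⟩
  have h4 : Tendsto (fun n => S.jX (x (κ n)) - S.j (u (κ n))) atTop (𝓝 0) :=
    squeeze_zero_norm (fun n => (norm_fst_le ((x (κ n)).1 - S.tri (u (κ n)))).trans (hu (κ n)))
      (tendsto_one_div_add_atTop_nhds_zero_nat.comp hκ.tendsto_atTop)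
  simpa using h4.add hf

theorem inner_T (μ : ℝ) (x : S.X) (v : W) :
    ⟪S.j (S.D μ v), x.1.1⟫_ℂ = ⟪S.j v, (S.T μ x : H)⟫_ℂ :=
  S.closure_induction (p := fun x : H × H × H =>
    ⟪S.j (S.D μ v), x.1⟫_ℂ = ⟪S.j v, x.2.1 + (μ : ℂ) • x.2.2⟫_ℂ) x.2
    (isClosed_eq (by fun_prop) (by fun_prop)) fun u _ => by
      rw [S.symD, S.jD]

theorem ker_onto {μ : ℝ} (hg : S.Good μ) {f : H} (hf : f ∈ S.Kp μ) :
    ∃ x : S.X, S.T μ x = 0 ∧ S.jX x = f := by
  obtain ⟨C, hC⟩ := S.T_est hg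
  choose u h1 h2 h3 using fun n : ℕ =>
    S.Kp_approx hg hf (ε := 1 / ((n : ℝ) + 1)) (by positivity)
  set x : ℕ → S.X := fun n => ⟨S.tri (u n), S.tri_mem (h1 n)⟩ with hx
  have t0 : Tendsto (fun n : ℕ => 1 / ((n : ℝ) + 1)) atTop (𝓝 0) :=
    tendsto_one_div_add_atTop_nhds_zero_nat
  have t1 : Tendsto (fun n => S.jX (x n)) atTop (𝓝 f) :=
    tendsto_sub_nhds_zero_iff.1 (squeeze_zero_norm h2 t0)
  have t2 : Tendsto (fun n => S.T μ (x n)) atTop (𝓝 0) := by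
    refine squeeze_zero_norm (fun n => ?_) t0
    change ‖S.j (S.D0 (u n)) + (μ : ℂ) • S.j (S.B (u n))‖ ≤ _
    rw [← S.jD]
    exact h3 n
  have hc : CauchySeq x := by
    have a1 := cauchySeq_iff_tendsto_dist_atTop_0.1 t1.cauchySeq
    have a2 := cauchySeq_iff_tendsto_dist_atTop_0.1 t2.cauchySeq
    have a3 := (a2.add a1).const_mul C
    rw [add_zero, mul_zero] at a3
    refine cauchySeq_iff_tendsto_dist_atTop_0.2 (squeeze_zero (fun _ => dist_nonneg) (fun n => ?_) a3)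
    have a4 := hC (x n.1 - x n.2)
    rwa [map_sub, map_sub, ← dist_eq_norm, ← dist_eq_norm, ← dist_eq_norm] at a4
  obtain ⟨z, hz⟩ := cauchySeq_tendsto_of_complete hc
  exact ⟨z, tendsto_nhds_unique (((S.T μ).continuous.tendsto z).comp hz) t2,
    tendsto_nhds_unique ((S.jX.continuous.tendsto z).comp hz) t1⟩

/-- `jX` maps the kernel of `T μ` bijectively onto `Kp μ`: into by the closed condition
`⟪j (D μ v), x.1⟫ = ⟪j v, T μ x⟫` for odd `v`; injective by `T_est`; onto by `Kp_approx` and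
`T_est` (the graph points form a Cauchy sequence). -/
theorem ker_T {μ : ℝ} (hg : S.Good μ) :
    Nonempty (LinearMap.ker (S.T μ).toLinearMap ≃ₗ[ℂ] S.Kp μ) := by
  obtain ⟨C, hC⟩ := S.T_est hg
  have h1 : ∀ x : LinearMap.ker (S.T μ).toLinearMap,
      (S.jX.toLinearMap ∘ₗ (LinearMap.ker (S.T μ).toLinearMap).subtype) x ∈ S.Kp μ := fun x => by
    refine (S.mem_Kp μ _).2 ⟨(S.X_mem x.1.2).1, fun v _ => ?_⟩
    have h2 : S.T μ x.1 = 0 := x.2
    refine (S.inner_T μ x.1 v).trans ?_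
    rw [h2, Submodule.coe_zero, inner_zero_right]
  refine ⟨LinearEquiv.ofBijective (LinearMap.codRestrict _ _ h1) ⟨?_, fun f => ?_⟩⟩
  · rw [injective_iff_map_eq_zero]
    intro x hx
    have h2 : S.T μ x.1 = 0 := x.2
    have h3 : S.jX x.1 = 0 := congrArg Subtype.val hx
    have h4 := hC x.1
    rw [h2, h3, norm_zero, norm_zero, add_zero, mul_zero] at h4
    exact Subtype.ext (norm_le_zero_iff.1 h4)
  · obtain ⟨x, h2, h3⟩ := S.ker_onto hg f.2
    exact ⟨⟨x, h2⟩, Subtype.ext h3⟩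

theorem orth_range (μ : ℝ) (g : S.neg.Hp) :
    g ∈ (LinearMap.range (S.T μ).toLinearMap)ᗮ ↔ (g : H) ∈ S.neg.Kp μ := by
  rw [S.neg.mem_Kp, neg_neg', Submodule.mem_orthogonal]
  constructor
  · intro h
    refine ⟨g.2, fun v hv => ?_⟩
    have h1 := h _ ⟨⟨S.tri v, S.tri_mem hv⟩, rfl⟩
    rw [neg_j, neg_D, S.jD]
    exact h1
  · rintro ⟨-, h⟩ _ ⟨x, rfl⟩
    exact S.closure_induction (p := fun x : H × H × H => ⟪x.2.1 + (μ : ℂ) • x.2.2, (g : H)⟫_ℂ = 0)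
      x.2 (isClosed_eq (by fun_prop) continuous_const) fun u hu => by
        rw [← S.jD]
        exact h u hu

/-- The range is closed (`peetre`), so the quotient is the orthogonal complement of the range
(`Submodule.quotientEquivOrthogonal`, `IsClosed.completeSpace_coe`), and `g : S.neg.Hp` is orthogonal
to the range iff `(g : H) ∈ S.neg.Kp μ` (`mem_Kp`, `neg_neg'`, density of the graph). -/
theorem coker_T {μ : ℝ} (hg : S.Good μ) :
    Nonempty ((S.neg.Hp ⧸ LinearMap.range (S.T μ).toLinearMap) ≃ₗ[ℂ] S.neg.Kp μ) := by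
  obtain ⟨C, hC⟩ := S.T_est hg
  have hc : IsClosed (LinearMap.range (S.T μ).toLinearMap : Set S.neg.Hp) :=
    peetre (S.T μ) S.jX hC (S.jX_cpt hg)
  haveI := hc.completeSpace_coe
  have h1 : ∀ x : (LinearMap.range (S.T μ).toLinearMap)ᗮ,
      (S.neg.Hp.subtype ∘ₗ (LinearMap.range (S.T μ).toLinearMap)ᗮ.subtype) x ∈ S.neg.Kp μ :=
    fun x => (S.orth_range μ x.1).1 x.2
  refine ⟨(Submodule.quotientEquivOrthogonal _).toLinearEquiv.trans
    (LinearEquiv.ofBijective (LinearMap.codRestrict _ _ h1) ⟨fun a b h => ?_, fun f => ?_⟩)⟩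
  · exact Subtype.ext (Subtype.ext (congrArg (fun y : S.neg.Kp μ => (y : H)) h))
  · exact ⟨⟨⟨f.1, f.2.1⟩, (S.orth_range μ _).2 f.2⟩, rfl⟩

end Sys

end Vale.Agent.P353
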