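import Vale.Agent.P353.HAbs2

open MeasureTheory NormedSpace Filter Topology
open Complex (I)
open scoped InnerProductSpace ContDiff

noncomputable section
namespace Vale.Agent.P353
variable {W H : Type} [AddCommGroup W] [Module ℂ W] [NormedAddCommGroup H] [InnerProductSpace ℂ H]
  [CompleteSpace H]

theorem habs3_cont {X Y : Type} [NormedAddCommGroup X] [NormedSpace ℂ X] [NormedAddCommGroup Y]
    [NormedSpace ℂ Y] (A B : X →L[ℂ] Y) : Continuous fun μ : ℝ => A + (μ : ℂ) • B :=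
  continuous_const.add (Complex.continuous_ofReal.smul continuous_const)

namespace Sys
variable (S : Sys W H)

/-- `ind μ = LinearMap.index (T μ)` by `ker_T`, `coker_T`; `index_loc` and continuity of `T` make it
locally constant on the preconnected set `Set.Ioi 0` (`IsPreconnected.constant` for a continuous
map to the discrete space `ℤ`). -/
theorem ind_const (hg : ∀ μ > 0, S.Good μ) {μ ν : ℝ} (hμ : 0 < μ) (hν : 0 < ν) :
    S.ind μ = S.ind ν := by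
  have h1 : ∀ μ > 0, S.ind μ = LinearMap.index (S.T μ).toLinearMap := fun μ hμ => by
    obtain ⟨e⟩ := S.ker_T (hg μ hμ)
    obtain ⟨e'⟩ := S.coker_T (hg μ hμ)
    rw [LinearMap.index_eq_finrank_sub, e.finrank_eq, e'.finrank_eq, ind]
  have h2 : Continuous S.T := habs3_cont S.T0 S.T1
  rw [h1 μ hμ, h1 ν hν]
  refine isPreconnected_Ioi.constant (f := fun μ => LinearMap.index (S.T μ).toLinearMap)
    (fun t ht => ContinuousAt.continuousWithinAt ?_) hμ hν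
  obtain ⟨e⟩ := S.ker_T (hg t ht)
  obtain ⟨e'⟩ := S.coker_T (hg t ht)
  have := S.Kp_fin (hg t ht)
  have := S.neg.Kp_fin (hg t ht).neg
  exact continuousAt_const.congr (EventuallyEq.symm (h2.continuousAt.eventually
    (index_loc (S.T t) e.symm.finiteDimensional e'.symm.finiteDimensional)))

/-- two vectors have a normalised combination in the kernel of a functional -/
theorem exists_comb (α β : ℂ) : ∃ a b : ℂ, ‖a‖ ^ 2 + ‖b‖ ^ 2 = 1 ∧ a * α + b * β = 0 := by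
  rcases (add_nonneg (sq_nonneg ‖α‖) (sq_nonneg ‖β‖)).eq_or_lt with h | h
  · refine ⟨1, 0, by simp, ?_⟩
    have : ‖α‖ ^ 2 = 0 := by linarith [sq_nonneg ‖α‖, sq_nonneg ‖β‖]
    simpa using this
  · refine ⟨β / √(‖α‖ ^ 2 + ‖β‖ ^ 2), -α / √(‖α‖ ^ 2 + ‖β‖ ^ 2), ?_, by ring⟩
    simp only [norm_div, norm_neg, Complex.norm_real, Real.norm_eq_abs, div_pow, sq_abs,
      Real.sq_sqrt h.le]
    rw [← add_div, add_comm, div_self h.ne']

theorem habs3_le {E : Type} [NormedAddCommGroup E] [NormedSpace ℂ E] {a b : ℂ}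
    (h : ‖a‖ ^ 2 + ‖b‖ ^ 2 = 1) {x y : E} {δ : ℝ} (hx : ‖x‖ ≤ δ) (hy : ‖y‖ ≤ δ) :
    ‖a • x + b • y‖ ≤ 2 * δ := by
  have h1 : ‖a‖ ≤ 1 := by nlinarith [sq_nonneg ‖b‖]
  have h2 : ‖b‖ ≤ 1 := by nlinarith [sq_nonneg ‖a‖]
  have h3 := mul_le_mul h1 hx (norm_nonneg _) zero_le_one
  have h4 := mul_le_mul h2 hy (norm_nonneg _) zero_le_one
  have h5 := norm_add_le (a • x) (b • y)
  rw [norm_smul, norm_smul] at h5
  linarith

/-- If `finrank ≥ 2` take orthonormal `f, g ∈ Kp` (`stdOrthonormalBasis`), approximants `u, v`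
within `δ` (`Kp_approx`) and `a, b` from `exists_comb (ℓ u) (ℓ v)`: `c * (1 - 2 δ) ^ 2 ≤ 4 δ ^ 2`. -/
theorem Kp_le_one {μ c : ℝ} (hg : S.Good μ) (hc : 0 < c) (ℓ : W →ₗ[ℂ] ℂ)
    (hgap : ∀ u, ℓ u = 0 → c * ‖S.j u‖ ^ 2 ≤ ‖S.j (S.D μ u)‖ ^ 2) :
    Module.finrank ℂ (S.Kp μ) ≤ 1 := by
  by_contra h
  have := S.Kp_fin hg
  obtain ⟨δ, d0, d1, d2⟩ : ∃ δ : ℝ, 0 < δ ∧ δ ≤ 1 / 4 ∧ δ ≤ c / 5 :=
    ⟨min (1 / 4) (c / 5), by positivity, min_le_left _ _, min_le_right _ _⟩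
  have o := (stdOrthonormalBasis ℂ (S.Kp μ)).orthonormal
  obtain ⟨f, g, f1, g1, fg⟩ : ∃ f g : S.Kp μ, ‖f‖ = 1 ∧ ‖g‖ = 1 ∧ ⟪f, g⟫_ℂ = 0 :=
    ⟨_, _, o.1 ⟨0, by omega⟩, o.1 ⟨1, by omega⟩, o.2 (by simp)⟩
  obtain ⟨u, -, u1, u2⟩ := S.Kp_approx hg f.2 d0
  obtain ⟨v, -, v1, v2⟩ := S.Kp_approx hg g.2 d0
  obtain ⟨a, b, h1, h2⟩ := exists_comb (ℓ u) (ℓ v)
  have h3 := hgap (a • u + b • v) (by simpa using h2)
  have h4 := habs3_le h1 u1 v1
  have h5 := habs3_le h1 u2 v2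
  have h6 := norm_add_sq_eq_norm_sq_add_norm_sq_of_inner_eq_zero (𝕜 := ℂ) (a • f) (b • g)
    (by rw [inner_smul_left, inner_smul_right, fg, mul_zero, mul_zero])
  rw [norm_smul, norm_smul, f1, g1, mul_one, mul_one, ← sq, ← sq, ← sq, h1,
    pow_eq_one_iff_of_nonneg (norm_nonneg _) two_ne_zero] at h6
  have h7 := norm_sub_norm_le ((a • f + b • g : S.Kp μ) : H) (S.j (a • u + b • v))
  rw [norm_sub_rev, show ‖((a • f + b • g : S.Kp μ) : H)‖ = 1 from h6, show S.j (a • u + b • v) -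
    ((a • f + b • g : S.Kp μ) : H) = a • (S.j u - f) + b • (S.j v - g) by
      simp only [map_add, map_smul, Submodule.coe_add, Submodule.coe_smul, smul_sub]
      abel] at h7
  simp only [map_add, map_smul] at h3 h7
  have h8 := mul_le_mul_of_nonneg_left (pow_le_pow_left₀ (by norm_num)
    (show 1 / 2 ≤ ‖a • S.j u + b • S.j v‖ by linarith) 2) hc.le
  have h9 := pow_le_pow_left₀ (norm_nonneg _) h5 2
  nlinarith [mul_le_mul d1 d2 d0.le (by norm_num)]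

/-- An even low state: every odd `v` has the gap (else a combination of `u` and `v` in the kernel of
`ℓ` violates `hgap`, by `norm_add_sq`), so `S.neg.Kp μ = ⊥`; `Kp μ ≠ ⊥` by `transfer`. -/
theorem ind_one {μ c : ℝ} (hg : S.Good μ) (hc : 0 < c) (ℓ : W →ₗ[ℂ] ℂ)
    (hgap : ∀ u, ℓ u = 0 → c * ‖S.j u‖ ^ 2 ≤ ‖S.j (S.D μ u)‖ ^ 2) {u : W} (hu : u ∈ S.Wp)
    (hlow : ‖S.j (S.D μ u)‖ ^ 2 < c * ‖S.j u‖ ^ 2) : S.ind μ = 1 := by
  have h1 : ∀ v ∈ S.neg.Wp, c * ‖S.j v‖ ^ 2 ≤ ‖S.j (S.D μ v)‖ ^ 2 := fun v hv => by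
    by_contra h
    obtain ⟨a, b, h2, h3⟩ := exists_comb (ℓ u) (ℓ v)
    have h4 := hgap (a • u + b • v) (by simpa using h3)
    obtain ⟨h5, h6⟩ := S.norm_add_sq (S.Wp.smul_mem a hu) (S.neg.Wp.smul_mem b hv)
    rw [h5, h6] at h4
    simp only [map_smul, norm_smul, mul_pow] at h4
    have h7 := mul_nonneg (sq_nonneg ‖a‖) (sub_pos.2 hlow).le
    have h8 := mul_nonneg (sq_nonneg ‖b‖) (sub_pos.2 (not_le.1 h)).le
    have h9 := (mul_eq_zero.1 (le_antisymm (by linarith) h7)).resolve_right (sub_pos.2 hlow).ne'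
    have h10 := (mul_eq_zero.1 (le_antisymm (by linarith) h8)).resolve_right
      (sub_pos.2 (not_le.1 h)).ne'
    linarith
  have h2 := S.Kp_le_one hg hc ℓ hgap
  have := S.Kp_fin hg
  have h3 : Module.finrank ℂ (S.Kp μ) ≠ 0 := fun h => hlow.not_ge (S.transfer h1 hu fun k hk => by
    rw [Submodule.finrank_eq_zero.1 h, Submodule.mem_bot] at hk
    rw [hk, inner_zero_left])
  rw [ind, S.neg.Kp_bot hg.neg hc h1, finrank_bot]
  omega

/-- split the low state into its even and odd part -/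
theorem ind_one_or {μ c : ℝ} (hg : S.Good μ) (hc : 0 < c) (ℓ : W →ₗ[ℂ] ℂ)
    (hgap : ∀ u, ℓ u = 0 → c * ‖S.j u‖ ^ 2 ≤ ‖S.j (S.D μ u)‖ ^ 2) {u : W}
    (hlow : ‖S.j (S.D μ u)‖ ^ 2 < c * ‖S.j u‖ ^ 2) : S.ind μ = 1 ∨ S.neg.ind μ = 1 := by
  obtain ⟨h1, h2⟩ := S.norm_add_sq (S.ev_mem u) (S.neg.ev_mem u)
  have h3 := h2 μ
  rw [S.ev_add] at h1 h3
  rcases lt_or_ge (‖S.j (S.D μ (S.ev u))‖ ^ 2) (c * ‖S.j (S.ev u)‖ ^ 2) with h | h
  · exact Or.inl (S.ind_one hg hc ℓ hgap (S.ev_mem u) h)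
  · refine Or.inr (S.neg.ind_one hg.neg hc ℓ hgap (S.neg.ev_mem u) ?_)
    rw [h1, h3] at hlow
    rw [neg_j, neg_D]
    linarith

/-- index one gives normalised even vectors of arbitrarily small energy -/
theorem exists_low {μ : ℝ} (hg : S.Good μ) (h : S.ind μ = 1) {η : ℝ} (hη : 0 < η) :
    ∃ u ∈ S.Wp, ‖S.j u‖ = 1 ∧ ‖S.j (S.D μ u)‖ ≤ η := by
  have := S.Kp_fin hg
  obtain ⟨f, h1⟩ : ∃ f : S.Kp μ, ‖(f : H)‖ = 1 :=
    ⟨_, (stdOrthonormalBasis ℂ (S.Kp μ)).orthonormal.1 ⟨0, by unfold ind at h; omega⟩⟩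
  obtain ⟨u, hu, h2, h3⟩ := S.Kp_approx hg f.2 (lt_min one_half_pos (half_pos hη))
  have h4 := norm_sub_norm_le _ (S.j u) |>.trans ((norm_sub_rev _ _).trans_le h2)
  rw [h1] at h4
  have h5 : 1 / 2 ≤ ‖S.j u‖ := by linarith [min_le_left (1 / 2) (η / 2)]
  have h6 : 0 < ‖S.j u‖ := one_half_pos.trans_le h5
  refine ⟨(‖S.j u‖ : ℂ)⁻¹ • u, S.Wp.smul_mem _ hu, ?_, ?_⟩ <;>
    simp only [map_smul, norm_smul, norm_inv, Complex.norm_real, norm_norm]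
  · exact inv_mul_cancel₀ h6.ne'
  · rw [inv_mul_le_iff₀ h6]
    nlinarith [min_le_right (1 / 2) (η / 2)]

/-- index one and an odd gap: `S.neg.Kp μ = ⊥`, `Kp μ` is a line (`finrank_eq_one_iff'`), and a
combination of `u, v` orthogonal to it has the gap by `transfer` -/
theorem two_gap {μ c : ℝ} (hg : S.Good μ) (h : S.ind μ = 1) (hc : 0 < c)
    (hgap : ∀ v ∈ S.neg.Wp, c * ‖S.j v‖ ^ 2 ≤ ‖S.j (S.D μ v)‖ ^ 2) {u v : W} (hu : u ∈ S.Wp)
    (hv : v ∈ S.Wp) : ∃ a b : ℂ, ‖a‖ ^ 2 + ‖b‖ ^ 2 = 1 ∧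
      c * ‖S.j (a • u + b • v)‖ ^ 2 ≤ ‖S.j (S.D μ (a • u + b • v))‖ ^ 2 := by
  rw [ind, S.neg.Kp_bot hg.neg hc hgap, finrank_bot] at h
  obtain ⟨k, -, hk⟩ := finrank_eq_one_iff'.1 (show Module.finrank ℂ (S.Kp μ) = 1 by omega)
  obtain ⟨a, b, h1, h2⟩ := exists_comb ⟪(k : H), S.j u⟫_ℂ ⟪(k : H), S.j v⟫_ℂ
  refine ⟨a, b, h1, S.transfer hgap (add_mem (S.Wp.smul_mem a hu) (S.Wp.smul_mem b hv))
    fun l hl => ?_⟩
  obtain ⟨t, ht⟩ := hk ⟨l, hl⟩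
  rw [show l = t • (k : H) from (congrArg Subtype.val ht).symm, inner_smul_left, map_add, map_smul,
    map_smul, inner_add_right, inner_smul_right, inner_smul_right, h2, mul_zero]

end Sys

end Vale.Agent.P353
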