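import Vale.Agent.P353.HAbs3

open MeasureTheory NormedSpace Filter Topology
open Complex (I)
open scoped InnerProductSpace ContDiff

noncomputable section
namespace Vale.Agent.P353
variable {W H : Type} [AddCommGroup W] [Module ℂ W] [NormedAddCommGroup H] [InnerProductSpace ℂ H]
  [CompleteSpace H]

namespace Sys
variable (S : Sys W H)

/-- low lying normalised vectors accumulate at `K` as `μ → 0` -/
def Tight (K : Submodule ℂ H) : Prop :=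
  ∀ (μ : ℕ → ℝ) (u : ℕ → W), (∀ n, 0 < μ n) → Tendsto μ atTop (𝓝 0) → (∀ n, ‖S.j (u n)‖ = 1) →
    Tendsto (fun n => ‖S.j (S.D (μ n) (u n))‖ ^ 2 / μ n) atTop (𝓝 0) →
    ∃ ψ ∈ K, ∃ κ : ℕ → ℕ, StrictMono κ ∧ Tendsto (fun n => S.j (u (κ n))) atTop (𝓝 ψ)

/-- elements of `K` give trial vectors of energy `o(μ)` -/
def Trial (K : Submodule ℂ H) : Prop :=
  ∀ ψ ∈ K, ∀ η > 0, ∃ μ0 > 0, ∀ μ, 0 < μ → μ ≤ μ0 →
    ∃ u, ‖S.j u - ψ‖ ^ 2 ≤ η ∧ ‖S.j (S.D μ u)‖ ^ 2 ≤ η * μ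

theorem habs4_lim {K : Submodule ℂ H} (ht : S.Tight K) (μ : ℕ → ℝ) (u : ℕ → W)
    (h0 : ∀ n, 0 < μ n) (h1 : ∀ n, μ n ≤ 1 / ((n : ℝ) + 1)) (h2 : ∀ n, ‖S.j (u n)‖ = 1)
    (h3 : ∀ n, ‖S.j (S.D (μ n) (u n))‖ ^ 2 ≤ 1 / ((n : ℝ) + 1) * μ n) (h4 : ∀ n, u n ∈ S.Wp) :
    ∃ ψ ∈ K, ‖ψ‖ = 1 ∧ S.GH ψ = ψ := by
  obtain ⟨ψ, hψ, κ, -, hκ⟩ := ht μ u h0
    (squeeze_zero (fun n => (h0 n).le) h1 tendsto_one_div_add_atTop_nhds_zero_nat) h2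
    (squeeze_zero (fun n => div_nonneg (sq_nonneg _) (h0 n).le)
      (fun n => (div_le_iff₀ (h0 n)).2 (h3 n)) tendsto_one_div_add_atTop_nhds_zero_nat)
  refine ⟨ψ, hψ, tendsto_nhds_unique hκ.norm ?_, S.GH_Hp ?_⟩
  · simp only [h2]
    exact tendsto_const_nhds
  · exact (Submodule.isClosed_topologicalClosure _).mem_of_tendsto hκ
      (Eventually.of_forall fun n => S.j_mem (h4 _))

/-- `exists_low` at `μ n = 1 / (n + 1)` with `η = μ n`, then `Tight`; the limit is even -/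
theorem exists_even (hg : ∀ μ > 0, S.Good μ) (h1 : ∀ μ > 0, S.ind μ = 1) {K : Submodule ℂ H}
    (ht : S.Tight K) : ∃ ψ ∈ K, ‖ψ‖ = 1 ∧ S.GH ψ = ψ := by
  have h0 : ∀ n : ℕ, (0 : ℝ) < 1 / ((n : ℝ) + 1) := fun n => by positivity
  choose u hu h2 h3 using fun n : ℕ => S.exists_low (hg _ (h0 n)) (h1 _ (h0 n)) (h0 n)
  exact S.habs4_lim ht _ u h0 (fun _ => le_rfl) h2
    (fun n => (sq _).trans_le (mul_self_le_mul_self (norm_nonneg _) (h3 n))) hu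

/-- If all of `K` is even, odd vectors have a gap of order `μ`: otherwise there are
`μ n ≤ 1 / (n + 1)` and odd `v n` (normalise; `j (v n) ≠ 0` by the strict inequality) with energy
`< μ n / (n + 1)`, and `Tight` gives an odd unit vector in `K`. -/
theorem odd_gap {K : Submodule ℂ H} (ht : S.Tight K) (hK : ∀ ψ ∈ K, S.GH ψ = ψ) :
    ∃ c > 0, ∃ μ1 > 0, ∀ μ, 0 < μ → μ ≤ μ1 →
      ∀ v ∈ S.neg.Wp, c * μ * ‖S.j v‖ ^ 2 ≤ ‖S.j (S.D μ v)‖ ^ 2 := by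
  by_contra hc
  push Not at hc
  have h0 : ∀ n : ℕ, (0 : ℝ) < 1 / ((n : ℝ) + 1) := fun n => by positivity
  choose μ h1 h2 v hv h3 using fun n : ℕ => hc _ (h0 n) _ (h0 n)
  have h4 : ∀ n, 0 < ‖S.j (v n)‖ := fun n => (norm_nonneg _).lt_of_ne fun h => by
    have := h3 n
    rw [← h] at this
    nlinarith [sq_nonneg ‖S.j (S.D (μ n) (v n))‖]
  have h5 : ∀ n (f : H), ‖((‖S.j (v n)‖⁻¹ : ℝ) : ℂ) • f‖ = ‖f‖ / ‖S.j (v n)‖ := fun n f => by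
    rw [norm_smul, Complex.norm_real, norm_inv, norm_norm, div_eq_inv_mul]
  obtain ⟨ψ, hψ, h6, h7⟩ := S.neg.habs4_lim (K := K) ht μ
    (fun n => ((‖S.j (v n)‖⁻¹ : ℝ) : ℂ) • v n) h1 h2
    (fun n => by rw [neg_j, map_smul, h5, div_self (h4 n).ne'])
    (fun n => by
      rw [neg_j, neg_D, map_smul, map_smul, h5, div_pow, div_le_iff₀ (pow_pos (h4 n) 2)]
      exact (h3 n).le)
    fun n => Submodule.smul_mem _ _ (hv n)
  change -S.GH ψ = ψ at h7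
  rw [hK ψ hψ, neg_eq_iff_add_eq_zero, ← two_smul ℂ, smul_eq_zero] at h7
  rcases h7 with h7 | h7
  · exact two_ne_zero h7
  · simp [h7] at h6

omit [CompleteSpace H] in
theorem habs4_comb {a b : ℂ} (h : ‖a‖ ^ 2 + ‖b‖ ^ 2 = 1) (x y : H) :
    ‖a • x + b • y‖ ≤ ‖x‖ + ‖y‖ := by
  have ha : ‖a‖ ≤ 1 := by nlinarith [norm_nonneg a, sq_nonneg ‖b‖]
  have hb : ‖b‖ ≤ 1 := by nlinarith [norm_nonneg b, sq_nonneg ‖a‖]
  refine (norm_add_le _ _).trans ?_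
  rw [norm_smul, norm_smul]
  exact add_le_add (mul_le_of_le_one_left (norm_nonneg _) ha)
    (mul_le_of_le_one_left (norm_nonneg _) hb)

/-- No orthonormal pair in `K`: take trial vectors for both at the same small `μ`, pass to even
parts (`ev_close`, `norm_D_ev`), and use `two_gap`: `c * μ * (1 - 2 √η) ^ 2 ≤ 4 η μ`. -/
theorem no_pair (hg : ∀ μ > 0, S.Good μ) (h1 : ∀ μ > 0, S.ind μ = 1) {K : Submodule ℂ H}
    (ht : S.Tight K) (hr : S.Trial K) (hK : ∀ ψ ∈ K, S.GH ψ = ψ) {f g : H} (hf : f ∈ K)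
    (hg' : g ∈ K) (h1f : ‖f‖ = 1) (h1g : ‖g‖ = 1) (hfg : ⟪f, g⟫_ℂ = 0) : False := by
  obtain ⟨c, hc, μ1, hμ1, hgap⟩ := S.odd_gap ht hK
  have hη : 0 < min (1 / 16) (c / 17) := lt_min (by norm_num) (by positivity)
  have e1 := min_le_left (1 / 16) (c / 17)
  have e2 := min_le_right (1 / 16) (c / 17)
  generalize min (1 / 16) (c / 17) = η at hη e1 e2
  obtain ⟨μ2, hμ2, hu⟩ := hr f hf η hη
  obtain ⟨μ3, hμ3, hv⟩ := hr g hg' η hη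
  have hμ : 0 < min μ1 (min μ2 μ3) := lt_min hμ1 (lt_min hμ2 hμ3)
  obtain ⟨u, u1, u2⟩ := hu _ hμ ((min_le_right _ _).trans (min_le_left _ _))
  obtain ⟨v, v1, v2⟩ := hv _ hμ ((min_le_right _ _).trans (min_le_right _ _))
  have hgap' := hgap _ hμ (min_le_left _ _)
  generalize min μ1 (min μ2 μ3) = μ at hμ u2 v2 hgap'
  obtain ⟨a, b, hab, h2⟩ := S.two_gap (hg μ hμ) (h1 μ hμ) (mul_pos hc hμ) hgap' (S.ev_mem u)
    (S.ev_mem v)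
  have h3 : ‖a • f + b • g‖ = 1 := by
    have := norm_add_sq_eq_norm_sq_add_norm_sq_of_inner_eq_zero (𝕜 := ℂ) (a • f) (b • g)
      (by rw [inner_smul_left, inner_smul_right, hfg, mul_zero, mul_zero])
    rw [norm_smul, norm_smul, h1f, h1g, mul_one, mul_one, ← sq, ← sq, ← sq, hab] at this
    exact (pow_eq_one_iff_of_nonneg (norm_nonneg _) two_ne_zero).1 this
  have u3 : ‖S.j (S.ev u) - f‖ ≤ 1 / 4 := (S.ev_close (hK f hf) u).trans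
    (by nlinarith [norm_nonneg (S.j u - f)])
  have v3 : ‖S.j (S.ev v) - g‖ ≤ 1 / 4 := (S.ev_close (hK g hg') v).trans
    (by nlinarith [norm_nonneg (S.j v - g)])
  have h4 := habs4_comb hab (S.j (S.ev u) - f) (S.j (S.ev v) - g)
  have h5 : a • (S.j (S.ev u) - f) + b • (S.j (S.ev v) - g) =
      S.j (a • S.ev u + b • S.ev v) - (a • f + b • g) := by
    rw [map_add, map_smul, map_smul, smul_sub, smul_sub]
    abel
  have h6 := norm_sub_norm_le (a • f + b • g) (S.j (a • S.ev u + b • S.ev v))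
  rw [norm_sub_rev, ← h5, h3] at h6
  have h7 : 1 / 4 ≤ ‖S.j (a • S.ev u + b • S.ev v)‖ ^ 2 := by nlinarith
  have h8 : ‖S.j (S.D μ (a • S.ev u + b • S.ev v))‖ ≤
      ‖S.j (S.D μ (S.ev u))‖ + ‖S.j (S.D μ (S.ev v))‖ := by
    simpa only [map_add, map_smul] using habs4_comb hab _ _
  have h9 := h8.trans (add_le_add (S.norm_D_ev μ u) (S.norm_D_ev μ v))
  have h10 := pow_le_pow_left₀ (norm_nonneg _) h9 2
  have h11 := mul_le_mul_of_nonneg_left h7 (mul_pos hc hμ).le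
  have h12 := mul_le_mul_of_nonneg_right e2 hμ.le
  nlinarith [sq_nonneg (‖S.j (S.D μ u)‖ - ‖S.j (S.D μ v)‖), mul_pos hc hμ]

/-- `exists_even` forces `c = 1` in `par`; for `φ ∈ K` the vector `φ - ⟪ψ, φ⟫ • ψ` vanishes by
`no_pair`. -/
theorem final (hg : ∀ μ > 0, S.Good μ) (h1 : ∀ μ > 0, S.ind μ = 1) {K : Submodule ℂ H}
    (par : ∃ c : ℂ, ∀ ψ ∈ K, c • S.GH ψ = ψ) (ht : S.Tight K) (hr : S.Trial K) :
    ∃ ψ ≠ 0, ∀ φ, φ ∈ K ↔ ∃ c : ℂ, φ = c • ψ := by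
  obtain ⟨ψ, hψ, h2, h3⟩ := S.exists_even hg h1 ht
  have h0 : ψ ≠ 0 := by
    rintro rfl
    simp at h2
  obtain ⟨c, hc⟩ := par
  have h4 : c = 1 := smul_left_injective ℂ h0 (by simpa [h3] using hc ψ hψ)
  have hK : ∀ φ ∈ K, S.GH φ = φ := fun φ hφ => by simpa [h4] using hc φ hφ
  refine ⟨ψ, h0, fun φ => ⟨fun hφ => ⟨⟪ψ, φ⟫_ℂ, ?_⟩, by rintro ⟨a, rfl⟩; exact K.smul_mem a hψ⟩⟩
  by_contra hne
  have h5 : φ - ⟪ψ, φ⟫_ℂ • ψ ≠ 0 := sub_ne_zero.2 hne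
  refine S.no_pair hg h1 ht hr hK hψ
    (K.smul_mem ((‖φ - ⟪ψ, φ⟫_ℂ • ψ‖ : ℂ)⁻¹) (K.sub_mem hφ (K.smul_mem _ hψ))) h2
    (norm_smul_inv_norm h5) ?_
  rw [inner_smul_right, inner_sub_right, inner_smul_right, inner_self_eq_norm_sq_to_K, h2]
  simp

theorem final' (hg : ∀ μ > 0, S.Good μ) {μ c : ℝ} (hμ : 0 < μ) (hc : 0 < c) (ℓ : W →ₗ[ℂ] ℂ)
    (hgap : ∀ u, ℓ u = 0 → c * ‖S.j u‖ ^ 2 ≤ ‖S.j (S.D μ u)‖ ^ 2) {u : W}
    (hlow : ‖S.j (S.D μ u)‖ ^ 2 < c * ‖S.j u‖ ^ 2) {K : Submodule ℂ H}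
    (par : ∃ c : ℂ, ∀ ψ ∈ K, c • S.GH ψ = ψ) (ht : S.Tight K) (hr : S.Trial K) :
    ∃ ψ ≠ 0, ∀ φ, φ ∈ K ↔ ∃ c : ℂ, φ = c • ψ := by
  rcases S.ind_one_or (hg μ hμ) hc ℓ hgap hlow with h | h
  · exact S.final hg (fun ν hν => (S.ind_const hg hν hμ).trans h) par ht hr
  · have hg' : ∀ ν > 0, S.neg.Good ν := fun ν hν => (hg ν hν).neg
    obtain ⟨a, ha⟩ := par
    exact S.neg.final hg' (fun ν hν => (S.neg.ind_const hg' hν hμ).trans h)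
      ⟨-a, fun ψ hψ => by simpa [neg] using ha ψ hψ⟩ ht hr

end Sys

end Vale.Agent.P353
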