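import Vale.Agent.P353.HL2

open MeasureTheory NormedSpace Filter Topology
open Complex (I)
open scoped InnerProductSpace ContDiff

noncomputable section
namespace Vale.Agent.P353
variable {S E F : Type} [NormedAddCommGroup S] [InnerProductSpace ℝ S] [FiniteDimensional ℝ S]
  [NormedAddCommGroup E] [InnerProductSpace ℝ E] [FiniteDimensional ℝ E]
  [MeasurableSpace E] [BorelSpace E]
  [NormedAddCommGroup F] [InnerProductSpace ℂ F] [CompleteSpace F]

theorem hbump_hcs {E G : Type} [NormedAddCommGroup E] [NormedSpace ℝ E] [FiniteDimensional ℝ E]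
    [Zero G] {φ : E → G} {R : ℝ} (h0 : ∀ x, R ≤ ‖x‖ → φ x = 0) : HasCompactSupport φ :=
  HasCompactSupport.intro (isCompact_closedBall (0 : E) R) fun x hx => h0 x (by
    rw [mem_closedBall_zero_iff] at hx
    exact (not_le.1 hx).le)

theorem hbump_grad {E : Type} [NormedAddCommGroup E] [InnerProductSpace ℝ E] [CompleteSpace E]
    (u : E → ℝ) (x : E) : ‖gradient u x‖ = ‖fderiv ℝ u x‖ :=
  (InnerProductSpace.toDual ℝ E).symm.norm_map _

/-- normalise `x ↦ expNegInvGlue (τ ^ 2 - ‖x‖ ^ 2)`; its integral is positive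
(`Continuous.integral_pos_of_hasCompactSupport_nonneg_nonzero`) -/
theorem exists_bump (E : Type) [NormedAddCommGroup E] [InnerProductSpace ℝ E] [FiniteDimensional ℝ E]
    [MeasurableSpace E] [BorelSpace E] {τ : ℝ} (hτ : 0 < τ) : ∃ ρ : E → ℝ, Bump τ ρ := by
  have hs : ContDiff ℝ ∞ fun x : E => expNegInvGlue (τ ^ 2 - ‖x‖ ^ 2) :=
    expNegInvGlue.contDiff.comp (contDiff_const.sub (contDiff_norm_sq ℝ))
  have h0 : ∀ x : E, τ ≤ ‖x‖ → expNegInvGlue (τ ^ 2 - ‖x‖ ^ 2) = 0 := fun x hx =>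
    expNegInvGlue.zero_of_nonpos (sub_nonpos.2 (pow_le_pow_left₀ hτ.le hx 2))
  have hp : 0 < ∫ x : E, expNegInvGlue (τ ^ 2 - ‖x‖ ^ 2) :=
    hs.continuous.integral_pos_of_hasCompactSupport_nonneg_nonzero (x := 0) (hbump_hcs h0)
      (fun x => expNegInvGlue.nonneg _) (expNegInvGlue.pos_of_pos (by simpa using pow_pos hτ 2)).ne'
  refine ⟨fun x => (∫ x : E, expNegInvGlue (τ ^ 2 - ‖x‖ ^ 2))⁻¹ * expNegInvGlue (τ ^ 2 - ‖x‖ ^ 2),
    hτ, contDiff_const.mul hs, fun x => mul_nonneg (inv_pos.2 hp).le (expNegInvGlue.nonneg _),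
    fun x hx => by rw [h0 x hx, mul_zero], fun x y h => by rw [h], ?_⟩
  rw [integral_const_mul, inv_mul_cancel₀ hp.ne']

/-- `χ1 x = Real.smoothTransition ((4 - ‖x‖ ^ 2) / 3)` has a bounded gradient (compact support);
rescale `χ x = χ1 (R⁻¹ • x)` -/
theorem exists_cut (E : Type) [NormedAddCommGroup E] [InnerProductSpace ℝ E]
    [FiniteDimensional ℝ E] : ∃ K > 0, ∀ R > 0, ∃ χ : E → ℝ, Cut K R χ := by
  have hs : ContDiff ℝ ∞ fun x : E => Real.smoothTransition ((4 - ‖x‖ ^ 2) / 3) :=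
    Real.smoothTransition.contDiff.comp ((contDiff_const.sub (contDiff_norm_sq ℝ)).div_const _)
  have h0 : ∀ x : E, 2 ≤ ‖x‖ → Real.smoothTransition ((4 - ‖x‖ ^ 2) / 3) = 0 := fun x hx =>
    Real.smoothTransition.zero_of_nonpos (by nlinarith)
  have h1 : ∀ x : E, ‖x‖ ≤ 1 → Real.smoothTransition ((4 - ‖x‖ ^ 2) / 3) = 1 := fun x hx =>
    Real.smoothTransition.one_of_one_le (by nlinarith [norm_nonneg x])
  obtain ⟨K, hK⟩ := (hs.continuous_fderiv (by simp)).bounded_above_of_compact_support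
    ((hbump_hcs h0).fderiv ℝ)
  refine ⟨|K| + 1, by positivity, fun R hR => ?_⟩
  have hn : ∀ x : E, ‖R⁻¹ • x‖ = ‖x‖ / R := fun x => by
    rw [norm_smul, Real.norm_of_nonneg (inv_pos.2 hR).le, div_eq_inv_mul]
  have e1 : ∀ x : E, ‖x‖ ≤ R → Real.smoothTransition ((4 - ‖R⁻¹ • x‖ ^ 2) / 3) = 1 :=
    fun x hx => h1 _ (by rw [hn, div_le_one hR]; exact hx)
  refine ⟨fun x => Real.smoothTransition ((4 - ‖R⁻¹ • x‖ ^ 2) / 3), hR,
    hs.comp (contDiff_id.const_smul R⁻¹), fun x => Real.smoothTransition.nonneg _,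
    fun x => Real.smoothTransition.le_one _, e1,
    fun x hx => h0 _ (by rw [hn, le_div_iff₀ hR]; exact hx), fun x y h => by rw [hn, hn, h],
    fun x => ?_, fun x hx => ?_⟩
  · have := ((hs.differentiable (by simp)) (R⁻¹ • x)).hasFDerivAt.comp x
      ((hasFDerivAt_id x).const_smul R⁻¹)
    rw [hbump_grad]
    refine (congrArg norm this.fderiv).le.trans ((ContinuousLinearMap.opNorm_comp_le _ _).trans ?_)
    rw [div_eq_mul_inv]
    refine mul_le_mul ((hK _).trans (by linarith [le_abs_self K])) ?_ (norm_nonneg _)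
      (by positivity)
    rw [norm_smul, Real.norm_of_nonneg (inv_pos.2 hR).le]
    exact mul_le_of_le_one_right (inv_pos.2 hR).le ContinuousLinearMap.norm_id_le
  · have : (fun x : E => Real.smoothTransition ((4 - ‖R⁻¹ • x‖ ^ 2) / 3)) =ᶠ[𝓝 x] fun _ => 1 := by
      filter_upwards [(isOpen_lt continuous_norm continuous_const).mem_nhds hx] with y hy
      exact e1 y (le_of_lt hy)
    rw [this.gradient_eq, gradient_fun_const]

theorem Bump.hcs {τ : ℝ} {ρ : E → ℝ} (h : Bump τ ρ) : HasCompactSupport ρ := hbump_hcs h.supp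
theorem Bump.even {τ : ℝ} {ρ : E → ℝ} (h : Bump τ ρ) (x : E) : ρ (-x) = ρ x := h.rad _ _ (norm_neg x)
theorem Bump.integrable {τ : ℝ} {ρ : E → ℝ} (h : Bump τ ρ) : Integrable ρ := 
  h.smooth.continuous.integrable_of_hasCompactSupport h.hcs
theorem Bump.memLp {τ : ℝ} {ρ : E → ℝ} (h : Bump τ ρ) : MemLp ρ 2 volume := 
  h.smooth.continuous.memLp_of_hasCompactSupport h.hcs
theorem Cut.memLp {K R : ℝ} {χ : E → ℝ} (h : Cut K R χ) {f : E → F} (hf : MemLp f 2 volume) :
    MemLp (fun x => χ x • f x) 2 volume ∧ n2 (fun x => χ x • f x) ≤ n2 f := by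
  have hb : ∀ᵐ x, ‖χ x • f x‖ ≤ 1 * ‖f x‖ := Eventually.of_forall fun x => by
    rw [norm_smul, Real.norm_of_nonneg (h.nonneg x)]
    exact mul_le_mul_of_nonneg_right (h.le_one x) (norm_nonneg _)
  refine ⟨hf.of_le_mul (h.smooth.continuous.aestronglyMeasurable.smul hf.1) hb, ?_⟩
  simpa using n2_le hf hb
theorem Cut.sub {K R : ℝ} {χ : E → ℝ} (h : Cut K R χ) {f : E → F} (hf : MemLp f 2 volume) :
    n2 (fun x => χ x • f x - f x) ≤ tail R f := by
  have := n2_le_tail (h := fun x => χ x • f x - f x) hf (a := 1) (R := R) (fun x => by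
    have e : χ x • f x - f x = (χ x - 1) • f x := by rw [sub_smul, one_smul]
    rw [e, norm_smul, Real.norm_eq_abs]
    refine mul_le_mul_of_nonneg_right (abs_le.2 ⟨?_, ?_⟩) (norm_nonneg _)
    · linarith [h.nonneg x]
    · linarith [h.le_one x]) (fun x hx => by rw [h.one x hx.le, one_smul, sub_self])
  simpa using this
/-- `dirac_smul`, `Cl.norm_th_le`, `n2_add_two`, `n2_le_tail` -/
theorem Cut.dirac {K R : ℝ} {χ : E → ℝ} (h : Cut K R χ) (C : Cl S F) (ψ : E →L[ℝ] S) {s : E → S}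
    (hs : ContDiff ℝ ∞ s) {φ : E → F} (hφ : Tst φ) :
    n2 (C.dirac ψ s fun x => χ x • φ x) ≤
      2 * n2 (C.dirac ψ s φ) + 2 * (‖ψ‖ * (K / R)) ^ 2 * tail R φ := by
  have hd := (hφ.dirac C ψ hs).memLp
  have e : (C.dirac ψ s fun x => χ x • φ x) = fun x =>
      χ x • C.dirac ψ s φ x + (-I) • C.th (ψ (gradient χ x)) (φ x) := funext fun x =>
    dirac_smul C ψ s (hφ.differentiable x) (h.smooth.differentiable (by simp) x)
  have hb : ∀ x, ‖(-I) • C.th (ψ (gradient χ x)) (φ x)‖ ≤ ‖ψ‖ * (K / R) * ‖φ x‖ := fun x => by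
    rw [norm_smul, norm_neg, Complex.norm_I, one_mul]
    refine ((C.th _).le_opNorm _).trans (mul_le_mul_of_nonneg_right ?_ (norm_nonneg _))
    exact (C.norm_th_le _).trans ((ψ.le_opNorm _).trans
      (mul_le_mul_of_nonneg_left (h.grad x) (norm_nonneg _)))
  have hg : Continuous (gradient χ) :=
    (InnerProductSpace.toDual ℝ E).symm.continuous.comp (h.smooth.continuous_fderiv (by simp))
  have hc : Continuous fun x => (-I) • C.th (ψ (gradient χ x)) (φ x) :=
    ((C.th.continuous.comp (ψ.continuous.comp hg)).clm_apply hφ.continuous).const_smul _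
  have hm : MemLp (fun x => (-I) • C.th (ψ (gradient χ x)) (φ x)) 2 volume :=
    hφ.memLp.of_le_mul hc.aestronglyMeasurable (Eventually.of_forall hb)
  have h1 := n2_add_two (h.memLp hd).1 hm
  have h2 := (h.memLp hd).2
  have h3 := n2_le_tail hφ.memLp hb (R := R) fun x hx => by simp [h.grad0 x hx]
  rw [e]
  linarith
/-- a function vanishing outside a ball has compact support -/
theorem tst_of_ball {φ : E → F} (h : ContDiff ℝ ∞ φ) {R : ℝ} (h0 : ∀ x, R ≤ ‖x‖ → φ x = 0) :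
    Tst φ := ⟨h, hbump_hcs h0⟩
theorem Tst.exists_ball {φ : E → F} (h : Tst φ) : ∃ R > 0, ∀ x, R ≤ ‖x‖ → φ x = 0 := by
  obtain ⟨R, hR, h1⟩ := h.2.isCompact.isBounded.subset_ball_lt 0 0
  refine ⟨R, hR, fun x hx => image_eq_zero_of_notMem_tsupport fun h2 => ?_⟩
  have := h1 h2
  rw [mem_ball_zero_iff] at this
  linarith

end Vale.Agent.P353
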