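import Vale.Agent.P353.HL2

open MeasureTheory NormedSpace Filter Topology
open Complex (I)
open scoped InnerProductSpace ContDiff

noncomputable section
namespace Vale.Agent.P353
variable {V F : Type} [NormedAddCommGroup V] [InnerProductSpace ℝ V] [FiniteDimensional ℝ V]
  [MeasurableSpace V] [BorelSpace V]
  [NormedAddCommGroup F] [InnerProductSpace ℂ F] [CompleteSpace F]

theorem hcoe_spin {S E : Type} [NormedAddCommGroup S] [InnerProductSpace ℝ S]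
    [FiniteDimensional ℝ S] [NormedAddCommGroup E] [InnerProductSpace ℝ E] (C : Cl S F)
    (Γ : E →L[ℝ] S →L[ℝ] S) (T : S →L[ℝ] S) :
    ∃ K > 0, ∀ x : E, ‖I • C.spin ((-1 : ℝ) • Γ x + T)‖ ≤ K * (1 + ‖x‖) := by
  refine ⟨Module.finrank ℝ S * (‖Γ‖ + ‖T‖) + 1, by positivity, fun x => ?_⟩
  rw [norm_smul, Complex.norm_I, one_mul]
  have h1 : ‖(-1 : ℝ) • Γ x + T‖ ≤ (‖Γ‖ + ‖T‖) * (1 + ‖x‖) := by
    refine (norm_add_le _ _).trans ?_
    rw [norm_smul, norm_neg, norm_one, one_mul]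
    have h2 := Γ.le_opNorm x
    have h3 := mul_nonneg (norm_nonneg T) (norm_nonneg x)
    nlinarith [norm_nonneg Γ]
  refine (C.norm_spin_le _).trans ((mul_le_mul_of_nonneg_left h1 (Nat.cast_nonneg _)).trans ?_)
  rw [← mul_assoc]
  exact mul_le_mul_of_nonneg_right (le_add_of_nonneg_right zero_le_one) (by positivity)

theorem Mod.D_mu (M : Mod V F) (P : Par) (mu : ℝ) (φ : EE V → F) (x : EE V) :
    M.D P 1 mu φ x = M.D P 1 0 φ x + (mu : ℂ) • M.C.th (P.s1 x) (φ x) := by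
  simp only [Mod.D, Cl.dirac, zero_smul, add_zero, map_add, map_smul,
    add_apply, smul_apply, Complex.coe_smul, add_assoc]
/-- `Cl.norm_th_apply`, `Par.norm_s1`, `norm_Amat` -/
theorem Mod.B_le (M : Mod V F) (P : Par) {φ : EE V → F} (h : Tst φ) :
    n2 (fun x => M.C.th (P.s1 x) (φ x)) ≤ 36 * wt (fun x => ‖x‖ ^ 2) φ := by
  have h1 : n2 (fun x => M.C.th (P.s1 x) (φ x)) = wt (fun x => ‖P.s1 x‖ ^ 2 / 2) φ := by
    simp only [n2, wt, M.C.norm_th_apply]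
  rw [h1, ← wt_smul]
  refine wt_mono h (by fun_prop) (by fun_prop) fun x _ => ?_
  have h2 := P.norm_s1 x
  have h3 := (norm_Amat x).2
  have h4 : P.δ ^ 2 ≤ 1 := pow_le_one₀ P.δ0.le P.δ1
  have h5 := mul_le_mul_of_nonneg_right h4 (sq_nonneg ‖x 8‖)
  nlinarith [sq_nonneg ‖x 8‖, sq_nonneg ‖x‖]
/-- the matrix potentials grow at most linearly (`Gm_clm`, `Cl.norm_spin_le`) -/
theorem Mod.spin_le (M : Mod V F) (G : Gam) (T : SS V →L[ℝ] SS V) : ∃ C > 0, ∀ x : EE V,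
    ‖I • M.C.spin ((-1 : ℝ) • Gm G M.L x + T)‖ ≤ C * (1 + ‖x‖) := by
  obtain ⟨Γ, hΓ⟩ := Gm_clm G M.L
  simp only [← hΓ]
  exact hcoe_spin M.C Γ T
/-- `abs_opf_le`, `pot_nonneg` -/
theorem Mod.kin_le (M : Mod V F) (G : Gam) : ∃ C > 0, ∀ φ : EE V → F, Tst φ →
    kin φ ≤ M.q0 G 1 φ + C * (n2 φ + wt (fun x => ‖x‖ ^ 2) φ) := by
  obtain ⟨C, hC, h1⟩ := M.spin_le G 0
  refine ⟨2 * C, by positivity, fun φ h => ?_⟩
  have h2 := abs_opf_le h (w := fun x => 2 * C * (1 + ‖x‖ ^ 2)) (by fun_prop)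
    (M.q0_cont G 1).2.continuousOn fun x _ => by
      have h3 := h1 x
      rw [add_zero] at h3
      refine h3.trans ?_
      nlinarith [mul_nonneg hC.le (sq_nonneg (‖x‖ - 1)), mul_nonneg hC.le (sq_nonneg ‖x‖)]
  rw [wt_smul, wt_add h (by fun_prop) (by fun_prop), wt_one] at h2
  have h4 : 0 ≤ wt (fun x => (1 : ℝ) ^ 2 * M.L.pot x) φ :=
    integral_nonneg fun x => mul_nonneg (mul_nonneg (sq_nonneg _) (pot_nonneg _ _)) (sq_nonneg _)
  have h5 := (abs_le.1 h2).1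
  unfold Mod.q0 sch
  linarith
/-- `D_sq'`, `Par.coercive`, `abs_opf_le` with `C (1 + ‖x‖) ≤ (c / 4) ‖x‖ ^ 2 + C'` -/
theorem Mod.coer (M : Mod V F) (P : Par) {mu : ℝ} (hmu : 0 < mu) : ∃ C > 0, ∀ φ : EE V → F,
    M.Dom P φ → kin φ + wt (fun x => ‖x‖ ^ 2) φ ≤ C * (n2 (M.D P 1 mu φ) + n2 φ) := by
  obtain ⟨C, hC, h1⟩ := M.spin_le P.toGam (mu • mat P.M1)
  obtain ⟨c, hc, C0, h2⟩ := P.coercive M.L hmu
  refine ⟨(1 + 4 / c) * (1 + (|C0| / 2 + (C + C ^ 2 / c))), by positivity, fun φ hφ => ?_⟩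
  obtain ⟨h, hi, hk⟩ := hφ
  have h3 := abs_opf_le h (w := fun x => c / 4 * ‖x‖ ^ 2 + (C + C ^ 2 / c)) (by fun_prop)
    (M.q_cont P 1 mu).2.continuousOn fun x _ => by
      refine (h1 x).trans ?_
      have e : c / 4 * ‖x‖ ^ 2 + (C + C ^ 2 / c) - C * (1 + ‖x‖) = (c * ‖x‖ / 2 - C) ^ 2 / c := by
        field_simp
        ring
      have e' : 0 ≤ (c * ‖x‖ / 2 - C) ^ 2 / c := by positivity
      linarith
  rw [wt_add h (by fun_prop) (by fun_prop), wt_smul, wt_const] at h3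
  have h4 := wt_mono h (w := fun x => c / 2 * ‖x‖ ^ 2 + -(|C0| / 2)) (by fun_prop)
    (M.q_cont P 1 mu).1.continuousOn fun x _ => by
      have e := h2 x
      have e' := mul_nonneg hc.le (pot_nonneg M.L x)
      have e'' := le_abs_self C0
      linarith
  rw [wt_add h (by fun_prop) (by fun_prop), wt_smul, wt_const] at h4
  have h5 := (abs_le.1 h3).1
  have h6 := M.D_sq' P 1 mu h hi hk
  unfold Mod.q sch at h6
  have h7 : 0 ≤ wt (fun x => ‖x‖ ^ 2) φ :=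
    integral_nonneg fun x => mul_nonneg (sq_nonneg _) (sq_nonneg _)
  have h8 := kin_nonneg φ
  have h9 := n2_nonneg φ
  have h10 := n2_nonneg (M.D P 1 mu φ)
  generalize wt (fun x => ‖x‖ ^ 2) φ = W at *
  have hK : 0 ≤ |C0| / 2 + (C + C ^ 2 / c) := by positivity
  have h11 : kin φ + c / 4 * W ≤
      (1 + (|C0| / 2 + (C + C ^ 2 / c))) * (n2 (M.D P 1 mu φ) + n2 φ) := by
    nlinarith [mul_nonneg hK h10]
  have h12 : kin φ + W ≤ (1 + 4 / c) * (kin φ + c / 4 * W) := by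
    have e : (1 + 4 / c) * (kin φ + c / 4 * W) = kin φ + W + (c / 4 * W + 4 / c * kin φ) := by
      field_simp
      ring
    have e' : 0 ≤ c / 4 * W + 4 / c * kin φ := by positivity
    linarith
  rw [mul_assoc]
  exact h12.trans (mul_le_mul_of_nonneg_left h11 (by positivity))
/-- `D_sq` at `mu = 0` and `q_zero` -/
theorem Mod.D0_n2 (M : Mod V F) (P : Par) {φ : EE V → F} (h : Tst φ) (hi : M.Inv φ) :
    n2 (M.D P 1 0 φ) = M.q0 P.toGam 1 φ := by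
  rw [M.D_sq P 1 0 h hi, zero_mul, add_zero, M.q_zero]
theorem Mod.Q_le (M : Mod V F) (G : Gam) {φ : EE V → F} (h : Tst φ) (β : Fin 16) :
    n2 (M.Q G (Pi.single β 1) 1 φ) ≤ 16 * M.q0 G 1 φ := by
  have h1 := M.sum_Q G 1 h
  have h2 := Finset.single_le_sum (f := fun β => n2 (M.Q G (Pi.single β 1) 1 φ))
    (fun β _ => n2_nonneg _) (Finset.mem_univ β)
  linarith
theorem wt_sq_nonneg (φ : EE V → F) : 0 ≤ wt (fun x => ‖x‖ ^ 2) φ :=
  integral_nonneg fun _ => mul_nonneg (sq_nonneg _) (sq_nonneg _)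
theorem wt_sq_le {φ : EE V → F} (h : Tst φ) {R : ℝ} (h0 : ∀ x, R ≤ ‖x‖ → φ x = 0) :
    wt (fun x => ‖x‖ ^ 2) φ ≤ R ^ 2 * n2 φ := by
  rw [← wt_const]
  refine integral_mono (h.int_wt (by fun_prop)) (h.int_wt (by fun_prop)) fun x => ?_
  by_cases hx : R ≤ ‖x‖
  · simp [h0 x hx]
  · exact mul_le_mul_of_nonneg_right
      (pow_le_pow_left₀ (norm_nonneg _) (not_le.1 hx).le 2) (sq_nonneg _)
theorem Mod.contDiff_s (M : Mod V F) (P : Par) (mu : ℝ) :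
    ContDiff ℝ ∞ fun x => (1 : ℝ) • s0 P.toGam M.L P.e x + mu • P.s1 x := P.contDiff_s M.L 1 mu

end Vale.Agent.P353
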