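import Vale.Agent.P353.GDefs

open MeasureTheory NormedSpace
open Complex (I)
open scoped InnerProductSpace ContDiff

noncomputable section
namespace Vale.Agent.P353
variable {V F : Type} [NormedAddCommGroup V] [InnerProductSpace ℝ V] [FiniteDimensional ℝ V]
  [MeasurableSpace V] [BorelSpace V]
  [NormedAddCommGroup F] [InnerProductSpace ℂ F] [CompleteSpace F]

/-- Hardy bound and gap at infinity -/
def Mod.PO (M : Mod V F) (P : Par) : Prop :=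
  ∃ R0 > 0, ∃ c > 0, ∃ ε0 > 0, ∀ mu : ℝ, 0 ≤ mu → mu ≤ ε0 → ∀ φ : EE V → F, Tst φ → M.Inv φ →
    (∀ x ∈ tsupport φ, R0 ≤ ‖x‖) →
    wt (fun x => (21 / 10) / ‖x‖ ^ 2 + c * mu + c * mu ^ 2 * ‖x‖ ^ 2) φ ≤ M.q P 1 mu φ

/-- almost nonnegativity -/
def Mod.PI (M : Mod V F) (P : Par) : Prop :=
  ∃ c > 0, ∀ η > 0, ∃ ε0 > 0, ∀ mu : ℝ, 0 ≤ mu → mu ≤ ε0 → ∀ φ : EE V → F, Tst φ → M.Inv φ →
    wt (fun x => c * mu ^ 2 * ‖x‖ ^ 2 - η * mu) φ ≤ M.q P 1 mu φ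

/-- regularised Hardy weight -/
def hs (s t : ℝ) : ℝ := t ^ 2 / (s ^ 2 + t ^ 2) ^ 2

/-- threshold Hardy inequality at large coupling -/
def Mod.PH (M : Mod V F) (P : Par) : Prop :=
  ∃ c > 0, ∀ s > 0, ∀ η > 0, ∃ lam0 > 0, ∃ ε0 > 0, ∀ lam ≥ lam0, ∀ mu : ℝ, 0 ≤ mu →
    mu ^ 3 ≤ ε0 * lam ^ 2 → ∀ φ : EE V → F, Tst φ → M.Inv φ →
    wt (fun x => c * mu ^ 2 * ‖x‖ ^ 2 + c * hs s ‖x‖ - η * (1 + mu)) φ ≤ M.q P lam mu φ

/-- the lower bound with weight `W lam mu` on functions supported in `K`, at large coupling -/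
def Mod.LB (M : Mod V F) (P : Par) (K : Set (EE V)) (W : ℝ → EE V → ℝ) : Prop :=
  ∃ lam0 > 0, ∃ ε0 > 0, ∀ lam ≥ lam0, ∀ mu : ℝ, 0 ≤ mu → mu ^ 3 ≤ ε0 * lam ^ 2 →
    ∀ φ : EE V → F, Tst φ → M.Inv φ → tsupport φ ⊆ K → wt (W mu) φ ≤ M.q P lam mu φ

/-- the target weight -/
def tw (c η mu : ℝ) (x : EE V) : ℝ := (22 / 10) / ‖x‖ ^ 2 + c * mu + c * mu ^ 2 * ‖x‖ ^ 2 - η

/-- the bound away from the stratum `k` -/
def Mod.PK (M : Mod V F) (P : Par) (k : ℕ) : Prop :=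
  ∀ K : Set (EE V), IsCompact K → M.L.sat K = K → 0 ∉ K → Disjoint K (M.L.Str k) →
    ∀ η > 0, ∃ c > 0, M.LB P K (tw c η)

/-- the bound near the stratum `k` -/
def Mod.PN (M : Mod V F) (P : Par) (k : ℕ) : Prop :=
  ∀ K : Set (EE V), IsCompact K → M.L.sat K = K → 0 ∉ K → Disjoint K (M.L.Str (k + 1)) →
    ∀ η > 0, ∃ κ > 0, ∃ c > 0, ∀ s > 0,
      M.LB P (K ∩ {x | Metric.infDist x (M.L.Str k) ≤ κ})
        fun mu x => tw c η mu x + c * hs s (Metric.infDist x (M.L.Str k))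

/-- centre of the centraliser -/
def CL.zc (L : CL V) (Y : EE V) : Submodule ℝ V :=
  ⨅ a : L.cent Y, LinearMap.ker (L.br a).toLinearMap

/-- Laplacian in the directions of `EE z` -/
def lapOn (z : Submodule ℝ V) (u : EE V → ℝ) (Y : EE V) : ℝ :=
  ∑ k, fderiv ℝ (fderiv ℝ u) Y (lift z.subtypeL (stdOrthonormalBasis ℝ (EE z) k))
    (lift z.subtypeL (stdOrthonormalBasis ℝ (EE z) k))

end Vale.Agent.P353
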