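import Vale.Agent.P353.IDefs
import Vale.Agent.P353.AHH
import Vale.Agent.P353.AId2
import Vale.Agent.P353.AForm2
import Vale.Agent.P353.GMyers

open MeasureTheory NormedSpace
open Complex (I)
open scoped InnerProductSpace ContDiff

noncomputable section
namespace Vale.Agent.P353
variable {V F : Type} [NormedAddCommGroup V] [InnerProductSpace ℝ V] [FiniteDimensional ℝ V]
  [MeasurableSpace V] [BorelSpace V]
  [NormedAddCommGroup F] [InnerProductSpace ℂ F] [CompleteSpace F]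

theorem ag_norm_grad {E : Type} [NormedAddCommGroup E] [InnerProductSpace ℝ E] [CompleteSpace E]
    {G : ℝ → ℝ} {G' : ℝ} {x : E} (h : HasDerivAt G G' (‖x‖ ^ 2)) :
    ‖gradient (fun y : E => G (‖y‖ ^ 2)) x‖ ^ 2 = 4 * ‖x‖ ^ 2 * G' ^ 2 := by
  have h1 := h.comp_hasFDerivAt x (hasStrictFDerivAt_norm_sq x).hasFDerivAt
  have h2 : fderiv ℝ (fun y : E => G (‖y‖ ^ 2)) x = G' • (2 • innerSL ℝ x) := h1.fderiv
  unfold gradient
  rw [LinearIsometryEquiv.norm_map, h2, norm_smul, two_smul, ← two_smul ℝ, norm_smul,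
    innerSL_apply_norm, Real.norm_eq_abs, Real.norm_eq_abs, mul_pow, mul_pow, sq_abs, sq_abs]
  ring

theorem ag_deriv {ρ r : ℝ} (hρ : 0 < ρ) (hr : 0 ≤ r) :
    HasDerivAt (fun t : ℝ => t / (1 + t / ρ ^ 2)) (1 / (1 + r / ρ ^ 2) ^ 2) r := by
  have h0 : 1 + r / ρ ^ 2 ≠ 0 := by positivity
  have h1 : HasDerivAt (fun t : ℝ => 1 + t / ρ ^ 2) (1 / ρ ^ 2) r :=
    ((hasDerivAt_id r).div_const _).const_add 1
  refine ((hasDerivAt_id r).div h1 h0).congr_deriv ?_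
  simp only [id]
  congr 1
  ring

theorem ag_h_le {ρ r : ℝ} (hρ : 0 < ρ) (hr : 0 ≤ r) :
    0 ≤ r / (1 + r / ρ ^ 2) ∧ r / (1 + r / ρ ^ 2) ≤ ρ ^ 2 ∧ r / (1 + r / ρ ^ 2) ≤ r := by
  have h0 : 0 < 1 + r / ρ ^ 2 := by positivity
  refine ⟨by positivity, ?_, ?_⟩
  · rw [div_le_iff₀ h0, mul_add, mul_div_cancel₀ _ (by positivity)]
    nlinarith [sq_nonneg ρ]
  · exact div_le_self hr (le_add_of_nonneg_right (by positivity))

/-- the bounded weight `g = χ r / (1 + r / ρ ^ 2)`, `r = |x| ^ 2`, cut off near the origin -/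
theorem exists_agmon (V : Type) [NormedAddCommGroup V] [InnerProductSpace ℝ V]
    [FiniteDimensional ℝ V] {R0 : ℝ} (hR : 0 < R0) : ∃ C > 0, ∀ ρ > 0, ∃ g : EE V → ℝ,
    ContDiff ℝ ∞ g ∧ (∀ x y : EE V, ‖x‖ = ‖y‖ → g x = g y) ∧ (∀ x, ‖x‖ < R0 → g x = 0) ∧
    (∀ x, 0 ≤ g x ∧ g x ≤ ρ ^ 2 ∧ g x ≤ ‖x‖ ^ 2) ∧
    (∀ x, 2 * R0 ≤ ‖x‖ → g x = ‖x‖ ^ 2 / (1 + ‖x‖ ^ 2 / ρ ^ 2)) ∧
    ∀ x, ‖gradient g x‖ ^ 2 ≤ (41 / 10) * g x ^ 2 / ‖x‖ ^ 2 + (if ‖x‖ ≤ 2 * R0 then C else 0) := by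
  set χ : ℝ → ℝ := fun t => Real.smoothTransition ((t - R0 ^ 2) / (3 * R0 ^ 2)) with hχ
  have hχs : ContDiff ℝ ∞ χ :=
    Real.smoothTransition.contDiff.comp ((contDiff_id.sub contDiff_const).div_const _)
  have hχ0 : ∀ t, 0 ≤ χ t := fun t => Real.smoothTransition.nonneg _
  have hχ1 : ∀ t, χ t ≤ 1 := fun t => Real.smoothTransition.le_one _
  have hχa : ∀ t, t ≤ R0 ^ 2 → χ t = 0 := fun t ht =>
    Real.smoothTransition.zero_of_nonpos (div_nonpos_of_nonpos_of_nonneg (by linarith) (by positivity))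
  have hχb : ∀ t, 4 * R0 ^ 2 ≤ t → χ t = 1 := fun t ht =>
    Real.smoothTransition.one_of_one_le (by rw [le_div_iff₀ (by positivity)]; linarith)
  have hχd : ∀ t, HasDerivAt χ (deriv χ t) t := fun t =>
    (hχs.differentiable (by simp) t).hasDerivAt
  obtain ⟨M, hM⟩ := (isCompact_Icc (a := (0 : ℝ)) (b := 4 * R0 ^ 2)).exists_bound_of_continuousOn
    (hχs.continuous_deriv (by simp)).continuousOn
  have hM0 : 0 ≤ M := (norm_nonneg _).trans (hM 0 ⟨le_rfl, by positivity⟩)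
  refine ⟨16 * R0 ^ 2 * (4 * M * R0 ^ 2 + 1) ^ 2, by positivity, fun ρ hρ => ?_⟩
  refine ⟨fun x => χ (‖x‖ ^ 2) * (‖x‖ ^ 2 / (1 + ‖x‖ ^ 2 / ρ ^ 2)), ?_, ?_, ?_, ?_, ?_, ?_⟩
  · have hn : ContDiff ℝ ∞ fun x : EE V => ‖x‖ ^ 2 := contDiff_norm_sq ℝ
    exact (hχs.comp hn).mul (hn.div (contDiff_const.add (hn.div_const _)) fun x => by positivity)
  · intro x y h
    simp only [h]
  · intro x hx
    have : ‖x‖ ^ 2 ≤ R0 ^ 2 := pow_le_pow_left₀ (norm_nonneg _) hx.le 2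
    simp only [hχa _ this, zero_mul]
  · intro x
    obtain ⟨h1, h2, h3⟩ := ag_h_le hρ (sq_nonneg ‖x‖)
    have h4 := mul_le_of_le_one_left h1 (hχ1 (‖x‖ ^ 2))
    exact ⟨mul_nonneg (hχ0 _) h1, h4.trans h2, h4.trans h3⟩
  · intro x hx
    have : 4 * R0 ^ 2 ≤ ‖x‖ ^ 2 := by nlinarith
    simp only [hχb _ this, one_mul]
  · intro x
    have hd := (hχd (‖x‖ ^ 2)).mul (ag_deriv hρ (sq_nonneg ‖x‖))
    have e := ag_norm_grad (G := fun t => χ t * (t / (1 + t / ρ ^ 2))) hd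
    rw [e]
    beta_reduce
    obtain ⟨h1, h2, h3⟩ := ag_h_le hρ (sq_nonneg ‖x‖)
    set r := ‖x‖ ^ 2 with hr
    have hr0 : 0 ≤ r := sq_nonneg _
    have hden : 1 ≤ 1 + r / ρ ^ 2 := le_add_of_nonneg_right (by positivity)
    split_ifs with hx
    · have hr4 : r ≤ 4 * R0 ^ 2 := by
        have := pow_le_pow_left₀ (norm_nonneg _) hx 2
        rw [hr]; linarith
      have k1 : |deriv χ r| ≤ M := hM r ⟨hr0, hr4⟩
      have k2 : 1 / (1 + r / ρ ^ 2) ^ 2 ≤ 1 := by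
        rw [div_le_one (by positivity)]; exact one_le_pow₀ hden
      have k3 : |deriv χ r * (r / (1 + r / ρ ^ 2)) + χ r * (1 / (1 + r / ρ ^ 2) ^ 2)| ≤
          4 * M * R0 ^ 2 + 1 := by
        refine (abs_add_le _ _).trans (add_le_add ?_ ?_)
        · rw [abs_mul, abs_of_nonneg h1]
          have := mul_le_mul k1 (h3.trans hr4) h1 hM0
          linarith
        · rw [abs_of_nonneg (mul_nonneg (hχ0 _) (by positivity))]
          exact mul_le_one₀ (hχ1 _) (by positivity) k2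
      have k4 := pow_le_pow_left₀ (abs_nonneg _) k3 2
      rw [sq_abs] at k4
      have k5 := mul_le_mul (show 4 * r ≤ 16 * R0 ^ 2 by linarith) k4 (sq_nonneg _) (by positivity)
      have k6 : 0 ≤ 41 / 10 * (χ r * (r / (1 + r / ρ ^ 2))) ^ 2 / r := by positivity
      linarith
    · push Not at hx
      have hr4 : 4 * R0 ^ 2 < r := by rw [hr]; nlinarith
      have hr1 : 0 < r := lt_of_le_of_lt (by positivity) hr4
      have k1 : deriv χ r = 0 := by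
        have : χ =ᶠ[nhds r] fun _ => 1 :=
          (lt_mem_nhds hr4).mono fun t ht => hχb t ht.le
        rw [this.deriv_eq, deriv_const]
      rw [k1, hχb r hr4.le, zero_mul, zero_add, one_mul, one_mul, add_zero]
      set d := 1 + r / ρ ^ 2
      have hd0 : 0 < d := by linarith
      have k2 : 41 / 10 * (r / d) ^ 2 / r = 41 / 10 * r * (1 / d ^ 2) := by field_simp
      have k3 : 1 / d ^ 2 ≤ 1 := by
        rw [div_le_one (by positivity)]; exact one_le_pow₀ hden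
      have k4 : 0 ≤ 1 / d ^ 2 := by positivity
      rw [k2]
      have k5 : (1 / d ^ 2) ^ 2 ≤ 1 / d ^ 2 := by nlinarith
      nlinarith [mul_nonneg hr0 k4]

theorem ag_point {R0 C ρ r g h W n u s i : ℝ} (hC : 0 ≤ C) (hr : 0 ≤ r) (hu : u = r⁻¹)
    (hW : 0 ≤ W) (hh0 : 0 ≤ h) (hh : h ≤ r) (hs : 199 / 200 * g ^ 2 ≤ 100 * ρ ^ 4 * s ^ 2)
    (hρ : 0 < ρ) (hn : n ≤ 41 / 10 * g ^ 2 / r + i * C)
    (hi : (i = 1 ∧ r ≤ 4 * R0 ^ 2) ∨ (i = 0 ∧ g = h ∧ 0 < r)) :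
    h ^ 2 * (1 / (100 * (1 + r)) + W / 2) + n / 2 ≤
      100 * ρ ^ 4 * ((21 / 10 / r + W) * s ^ 2) + (C / 2 + 16 * R0 ^ 4) * ((1 + W) * i) := by
  have hu0 : 0 ≤ u := by rw [hu]; positivity
  have e1 : 41 / 10 * g ^ 2 / r = 41 / 10 * (g ^ 2 * u) := by rw [hu, div_eq_mul_inv]; ring
  have e2 : 21 / 10 / r = 21 / 10 * u := by rw [hu, div_eq_mul_inv (21 / 10 : ℝ) r]
  rw [e1] at hn
  rw [e2]
  have k1 := mul_le_mul_of_nonneg_left hs (show 0 ≤ 21 / 10 * u + W by positivity)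
  have k2 : 0 ≤ g ^ 2 * u := by positivity
  have k3 : 0 ≤ g ^ 2 * W := by positivity
  rcases hi with ⟨rfl, h4⟩ | ⟨rfl, rfl, h4⟩
  · have k4 : h ^ 2 ≤ 16 * R0 ^ 4 := by
      have := pow_le_pow_left₀ hh0 (hh.trans h4) 2
      linarith
    have k5 : 1 / (100 * (1 + r)) + W / 2 ≤ 1 + W := by
      have : 1 / (100 * (1 + r)) ≤ 1 := by rw [div_le_one (by positivity)]; linarith
      linarith
    have k6 := mul_le_mul k4 k5 (by positivity) (by positivity)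
    have k7 : 0 ≤ C * W := by positivity
    linarith
  · have k4 : 1 / (100 * (1 + r)) ≤ u / 100 := by
      rw [hu, div_le_div_iff₀ (by positivity) (by positivity)]
      have : r⁻¹ * r = 1 := inv_mul_cancel₀ h4.ne'
      have : 0 ≤ r⁻¹ := by positivity
      nlinarith
    have k5 := mul_le_mul_of_nonneg_left k4 (sq_nonneg g)
    linarith

theorem ag_sin {ρ g : ℝ} (hρ : 0 < ρ) (h0 : 0 ≤ g) (h1 : g ≤ ρ ^ 2) :
    199 / 200 * g ^ 2 ≤ 100 * ρ ^ 4 * Real.sin ((10 * ρ ^ 2)⁻¹ * g) ^ 2 := by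
  set t := (10 * ρ ^ 2)⁻¹ * g with ht
  have ht0 : 0 ≤ t := by positivity
  have e : g = 10 * ρ ^ 2 * t := by rw [ht]; field_simp
  have ht1 : t ≤ 1 / 10 := by
    rw [ht, inv_mul_le_iff₀ (by positivity)]; linarith
  have h2 := Real.sin_ge_sub_cube ht0
  have h3 : 599 / 600 * t ≤ Real.sin t := by nlinarith [mul_nonneg ht0 ht0]
  have h4 := pow_le_pow_left₀ (by positivity) h3 2
  have h5 := mul_le_mul_of_nonneg_left h4 (show 0 ≤ 100 * ρ ^ 4 by positivity)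
  have h6 : 0 ≤ ρ ^ 4 * t ^ 2 := by positivity
  rw [e]
  clear_value t
  nlinarith

theorem ag_cont_grad {E : Type} [NormedAddCommGroup E] [InnerProductSpace ℝ E] [CompleteSpace E]
    {g : E → ℝ} (hg : ContDiff ℝ ∞ g) : Continuous (gradient g) :=
  (InnerProductSpace.toDual ℝ E).symm.continuous.comp (hg.continuous_fderiv (by simp))

theorem ag_grad_mul {E : Type} [NormedAddCommGroup E] [InnerProductSpace ℝ E] [CompleteSpace E]
    {g : E → ℝ} (hg : ContDiff ℝ ∞ g) (c : ℝ) (x : E) :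
    ‖gradient (fun y => c * g y) x‖ ^ 2 = c ^ 2 * ‖gradient g x‖ ^ 2 := by
  unfold gradient
  rw [LinearIsometryEquiv.norm_map, LinearIsometryEquiv.norm_map,
    fderiv_const_mul (hg.differentiable (by simp) x), norm_smul, mul_pow, Real.norm_eq_abs, sq_abs]

/-- Agmon type estimate.  If a Schroedinger form `q'` is nonnegative on a class of functions that is
stable under radial multipliers, and dominates `(21/10) / |x|^2 + W` outside the ball of radius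
`R0`, then `sin (ϑ0 g) φ` has energy at most `q' φ + ϑ0^2 |∇ g|^2 / 2`. -/
theorem agmon {R0 : ℝ} (hR : 0 < R0) : ∃ C > 0, ∀ (w : EE V → ℝ) (B : EE V → F →L[ℂ] F)
    (W : EE V → ℝ) (D : Set (EE V → F)), Continuous w → Continuous B → Continuous W →
    (∀ x, 0 ≤ W x) → (∀ φ ∈ D, Tst φ ∧ 0 ≤ sch w B φ) →
    (∀ φ ∈ D, ∀ a : EE V → ℝ, ContDiff ℝ ∞ a → (∀ x y : EE V, ‖x‖ = ‖y‖ → a x = a y) →
      (fun x => a x • φ x) ∈ D) →
    (∀ φ ∈ D, (∀ x ∈ tsupport φ, R0 ≤ ‖x‖) →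
      wt (fun x => (21 / 10) / ‖x‖ ^ 2 + W x) φ ≤ sch w B φ) →
    ∀ ρ ≥ 2 * R0, ∀ φ ∈ D,
      wt (fun x => (‖x‖ ^ 2 / (1 + ‖x‖ ^ 2 / ρ ^ 2)) ^ 2 * (1 / (100 * (1 + ‖x‖ ^ 2)) + W x / 2)) φ ≤
        1000 * ρ ^ 4 * sch w B φ + C * wt (fun x => 1 + W x) (fun x =>
          (Metric.closedBall (0 : EE V) (2 * R0)).indicator φ x) := by
  obtain ⟨C, hC, hg⟩ := exists_agmon V hR
  refine ⟨C / 2 + 16 * R0 ^ 4, by positivity, fun w B W D hw hB hW hW0 hD hmul hout ρ hρ φ hφ => ?_⟩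
  have hρ0 : 0 < ρ := by linarith
  obtain ⟨g, hgs, hrad, hin, hb, hfar, hgrad⟩ := hg ρ hρ0
  set ϑ : EE V → ℝ := fun x => (10 * ρ ^ 2)⁻¹ * g x with hϑ
  have hϑs : ContDiff ℝ ∞ ϑ := contDiff_const.mul hgs
  have hϑr : ∀ x y : EE V, ‖x‖ = ‖y‖ → ϑ x = ϑ y := fun x y h => by simp only [hϑ, hrad x y h]
  have hT := (hD φ hφ).1
  have hcos := hmul φ hφ (fun x => Real.cos (ϑ x)) hϑs.cos fun x y h => by simp only [hϑr x y h]
  have hsin := hmul φ hφ (fun x => Real.sin (ϑ x)) hϑs.sin fun x y h => by simp only [hϑr x y h]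
  have hsupp : ∀ x ∈ tsupport fun x => Real.sin (ϑ x) • φ x, R0 ≤ ‖x‖ := by
    refine fun x hx => closure_minimal (s := Function.support fun x => Real.sin (ϑ x) • φ x)
      (t := {x | R0 ≤ ‖x‖}) (fun y hy => ?_) (isClosed_le continuous_const continuous_norm) hx
    by_contra h
    apply hy
    have : g y = 0 := hin y (not_le.1 h)
    simp [hϑ, this]
  have h1 := hout _ hsin hsupp
  have h2 := (hD _ hcos).2
  have h3 := sch_ims_angle hϑs hw hB hT
  have h0 := (hD φ hφ).2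
  have i1 := hT.int_wt (w := fun x => (‖x‖ ^ 2 / (1 + ‖x‖ ^ 2 / ρ ^ 2)) ^ 2 *
      (1 / (100 * (1 + ‖x‖ ^ 2)) + W x / 2)) (Continuous.continuousOn (by
    refine (Continuous.pow (Continuous.div (by fun_prop) (by fun_prop) fun x => by positivity) 2).mul
      ((Continuous.div (by fun_prop) (by fun_prop) fun x => by positivity).add (by fun_prop))))
  have i2 := (hD _ hsin).1.int_wt (w := fun x => (21 / 10) / ‖x‖ ^ 2 + W x)
    ((continuousOn_const.div (by fun_prop) fun x hx =>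
      (pow_pos (hR.trans_le (hsupp x hx)) 2).ne').add hW.continuousOn)
  have i3 := hT.int_wt (w := fun x => ‖gradient ϑ x‖ ^ 2)
    ((ag_cont_grad hϑs).norm.pow 2).continuousOn
  have i4 : Integrable fun x => (1 + W x) *
      ‖(Metric.closedBall (0 : EE V) (2 * R0)).indicator φ x‖ ^ 2 := by
    have := (hT.int_wt (w := fun x => 1 + W x) (by fun_prop)).indicator
      (Metric.isClosed_closedBall (x := (0 : EE V)) (ε := 2 * R0)).measurableSet
    refine this.congr (Filter.Eventually.of_forall fun x => ?_)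
    by_cases hx : x ∈ Metric.closedBall (0 : EE V) (2 * R0) <;> simp [hx]
  have key := integral_mono (i1.add (i3.const_mul (50 * ρ ^ 4)))
    ((i2.const_mul (100 * ρ ^ 4)).add (i4.const_mul (C / 2 + 16 * R0 ^ 4))) (fun x => by
      have e : 50 * ρ ^ 4 * ‖gradient ϑ x‖ ^ 2 = ‖gradient g x‖ ^ 2 / 2 := by
        rw [hϑ, ag_grad_mul hgs]; field_simp; ring
      obtain ⟨k1, -, k3⟩ := ag_h_le hρ0 (sq_nonneg ‖x‖)
      have k4 := ag_point (R0 := R0) (i := if ‖x‖ ≤ 2 * R0 then 1 else 0)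
        (n := ‖gradient g x‖ ^ 2) hC.le (sq_nonneg ‖x‖) rfl
        (hW0 x) k1 k3 (ag_sin hρ0 (hb x).1 (hb x).2.1) hρ0
        (by have := hgrad x; split_ifs at this ⊢ <;> linarith) (by
          split_ifs with hx
          · left
            have := pow_le_pow_left₀ (norm_nonneg _) hx 2
            exact ⟨rfl, by linarith⟩
          · right
            push Not at hx
            exact ⟨rfl, hfar x hx.le, pow_pos (by linarith) 2⟩)
      have e2 : ‖(Metric.closedBall (0 : EE V) (2 * R0)).indicator φ x‖ ^ 2 =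
          (if ‖x‖ ≤ 2 * R0 then 1 else 0) * ‖φ x‖ ^ 2 := by
        by_cases hx : ‖x‖ ≤ 2 * R0 <;> simp [Set.indicator, hx]
      have k5 := mul_le_mul_of_nonneg_right k4 (sq_nonneg ‖φ x‖)
      simp only [Pi.add_apply]
      rw [e2, norm_smul, mul_pow, Real.norm_eq_abs, sq_abs, ← mul_assoc (50 * ρ ^ 4), e]
      simp only [hϑ]
      linarith)
  simp only [Pi.add_apply] at key
  rw [integral_add i1 (i3.const_mul _), integral_add (i2.const_mul _) (i4.const_mul _),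
    integral_const_mul, integral_const_mul, integral_const_mul] at key
  unfold wt at h1 h3 ⊢
  have h4 : 0 ≤ ρ ^ 4 := by positivity
  have h5 := mul_le_mul_of_nonneg_left h1 h4
  have h6 := mul_nonneg h4 h2
  have h7 := mul_nonneg h4 h0
  have h8 := congrArg (fun t => ρ ^ 4 * t) h3
  simp only at h8
  linarith

theorem ag_wt_nonneg {w : EE V → ℝ} (hw : ∀ x, 0 ≤ w x) (φ : EE V → F) : 0 ≤ wt w φ :=
  integral_nonneg fun x => mul_nonneg (hw x) (sq_nonneg _)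

theorem ag_wt_lin {φ : EE V → F} (h : Tst φ) (a b : ℝ) :
    wt (fun x => a * ‖x‖ ^ 2 + b) φ = a * wt (fun x => ‖x‖ ^ 2) φ + b * n2 φ := by
  rw [wt_add h (w := fun x => a * ‖x‖ ^ 2) (w' := fun _ => b) (by fun_prop) (by fun_prop), wt_smul,
    wt_const]

/-- the form is bounded below, for fixed `mu` -/
theorem Mod.q_bdd (M : Mod V F) (P : Par) {mu : ℝ} (h0 : 0 < mu) (h1 : mu ≤ 1) :
    ∃ K, ∀ φ : EE V → F, Tst φ →
      P.δ ^ 2 / 8 * mu ^ 2 * wt (fun x => ‖x‖ ^ 2) φ - K * n2 φ ≤ M.q P 1 mu φ := by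
  obtain ⟨C, hC⟩ := P.coercive' M.L h0
  obtain ⟨Γ, hΓ⟩ := Gm_clm P.toGam M.L
  obtain ⟨σ, hσ⟩ := M.C.spin_clm
  have hδ := P.δ0
  have hm : min 2 (mu ^ 2 * P.δ ^ 2) = mu ^ 2 * P.δ ^ 2 := by
    refine min_eq_right ?_
    have : mu * P.δ ≤ 1 := mul_le_one₀ h1 hδ.le P.δ1
    have h2 : 0 ≤ mu * P.δ := by positivity
    nlinarith
  rw [hm] at hC
  set m := mu ^ 2 * P.δ ^ 2 / 8 with hmdef
  have hm0 : 0 < m := by positivity
  set T : EE V →L[ℝ] F →L[ℂ] F := σ ∘L Γ with hT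
  set a := ‖T‖ with ha
  have ha0 : 0 ≤ a := ContinuousLinearMap.opNorm_nonneg _
  set b := ‖σ (mu • mat P.M1)‖ with hb
  obtain ⟨c1, c2⟩ := M.q_cont P 1 mu
  refine ⟨C / 2 + (a ^ 2 / (4 * m) + b), fun φ hφ => ?_⟩
  have k1 := wt_mono hφ (w := fun x => 2 * m * ‖x‖ ^ 2 + -(C / 2)) (by fun_prop) c1.continuousOn
    fun x _ => by
      have := hC x
      have h3 := mul_nonneg hm0.le (pot_nonneg M.L x)
      simp only [hmdef] at h3 ⊢
      linarith
  have k2 := abs_opf_le hφ (w := fun x => m * ‖x‖ ^ 2 + (a ^ 2 / (4 * m) + b)) (by fun_prop)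
    c2.continuousOn fun x _ => by
      have e : M.C.spin ((-(1 : ℝ)) • Gm P.toGam M.L x + mu • mat P.M1) =
          -T x + σ (mu • mat P.M1) := by
        rw [← hσ, map_add, ← hΓ, map_smul]
        congr 1
        exact neg_one_smul ℝ (T x)
      rw [norm_smul, Complex.norm_I, one_mul, e]
      have h3 := norm_add_le (-T x) (σ (mu • mat P.M1))
      rw [norm_neg] at h3
      have h4 := T.le_opNorm x
      have h5 : a * ‖x‖ ≤ m * ‖x‖ ^ 2 + a ^ 2 / (4 * m) := by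
        have : m * ‖x‖ ^ 2 + a ^ 2 / (4 * m) - a * ‖x‖ = (2 * m * ‖x‖ - a) ^ 2 / (4 * m) := by
          field_simp; ring
        have h6 : 0 ≤ (2 * m * ‖x‖ - a) ^ 2 / (4 * m) := by positivity
        linarith
      linarith
  rw [ag_wt_lin hφ] at k1 k2
  have k3 := (abs_le.1 k2).1
  have k4 := kin_nonneg φ
  unfold Mod.q sch
  have e : P.δ ^ 2 / 8 * mu ^ 2 = m := by rw [hmdef]; ring
  rw [e]
  linarith

theorem ag_point2 {ρ r k : ℝ} (hρ : 0 < ρ) (hr : 0 ≤ r) (hk : 0 ≤ k) (hρk : 1 ≤ ρ ^ 4 * k) :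
    r ≤ 400 * ((r / (1 + r / ρ ^ 2)) ^ 2 * (1 / (100 * (1 + r)) + k * r / 2)) + 1 := by
  have hd : 0 < 1 + r / ρ ^ 2 := by positivity
  set h := r / (1 + r / ρ ^ 2) with hh
  have hh0 : 0 ≤ h := by positivity
  have k0 : 0 ≤ h ^ 2 * (1 / (100 * (1 + r))) := by positivity
  have k00 : 0 ≤ h ^ 2 * (k * r / 2) := by positivity
  rw [mul_add]
  rcases le_total r (ρ ^ 2) with h1 | h1
  · have k1 : r / 2 ≤ h := by
      refine div_le_div_of_nonneg_left hr hd ?_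
      have : r / ρ ^ 2 ≤ 1 := (div_le_one (by positivity)).2 h1
      linarith
    have k2 := pow_le_pow_left₀ (by positivity) k1 2
    have k3 := mul_le_mul_of_nonneg_right k2 (show 0 ≤ 1 / (100 * (1 + r)) by positivity)
    have k4 : 400 * ((r / 2) ^ 2 * (1 / (100 * (1 + r)))) = r - 1 + 1 / (1 + r) := by
      field_simp; ring
    have k5 : 0 ≤ 1 / (1 + r) := by positivity
    linarith
  · have k1 : ρ ^ 2 / 2 ≤ h := by
      rw [hh, le_div_iff₀ hd]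
      have : ρ ^ 2 / 2 * (1 + r / ρ ^ 2) = ρ ^ 2 / 2 + r / 2 := by field_simp
      linarith
    have k2 := pow_le_pow_left₀ (by positivity) k1 2
    have k3 := mul_le_mul_of_nonneg_right k2 (show 0 ≤ k * r / 2 by positivity)
    have k4 := mul_le_mul_of_nonneg_right hρk hr
    linarith

/-- the bottom of a form that is bounded below -/
theorem ag_inf {α : Type} {D : Set α} {Q N : α → ℝ} (hN : ∀ a, 0 ≤ N a) {K e : ℝ}
    (hK : ∀ a ∈ D, -K * N a ≤ Q a) {a0 : α} (h0 : a0 ∈ D) (he : Q a0 < e * N a0) :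
    ∃ l ≤ e, (∀ a ∈ D, l * N a ≤ Q a) ∧ ∀ ε > 0, ∃ a ∈ D, Q a < (l + ε) * N a := by
  set S : Set ℝ := {l | ∀ a ∈ D, l * N a ≤ Q a} with hS
  have hne : S.Nonempty := ⟨-K, hK⟩
  have hub : ∀ l ∈ S, l ≤ e := fun l hl =>
    (lt_of_mul_lt_mul_right ((hl a0 h0).trans_lt he) (hN a0)).le
  have hbd : BddAbove S := ⟨e, hub⟩
  refine ⟨sSup S, csSup_le hne hub, fun a ha => ?_, fun ε hε => ?_⟩
  · rcases (hN a).eq_or_lt with h | h
    · have := hK a ha
      rw [← h] at this ⊢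
      simpa using this
    · rw [← le_div_iff₀ h]
      exact csSup_le hne fun l hl => (le_div_iff₀ h).2 (hl a ha)
  · by_contra hcon
    push Not at hcon
    have := le_csSup hbd (show sSup S + ε ∈ S from hcon)
    linarith

omit [FiniteDimensional ℝ V] [MeasurableSpace V] [BorelSpace V] in
theorem ag_Amat : Amat.transpose = -Amat := by
  unfold Amat plane
  rw [Matrix.transpose_sum, ← Finset.sum_neg_distrib]
  refine Finset.sum_congr rfl fun a _ => ?_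
  rw [Matrix.transpose_smul, Matrix.transpose_sub, Matrix.transpose_single, Matrix.transpose_single,
    ← smul_neg, neg_sub]

theorem ag_final {C K1 K2 c' η τ mu ρ N m C2 C3 l q q0 J A B d : ℝ} (hC : 0 < C) (hK1 : 0 < K1)
    (hK2 : 0 < K2) (hc' : 0 < c') (hη : 0 < η) (hτ0 : 0 < τ) (hmu : 0 < mu) (m2 : mu ≤ 1)
    (hρ : 0 < ρ) (hN : 0 ≤ N) (hm : 0 ≤ m) (hC2 : C2 = 400 * (1000 + C * C3) + 1)
    (hτ : τ = η / (16 * (K1 * (1 + C2)))) (m3 : mu ≤ η / (4 * (c' * C2)))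
    (m4 : mu ≤ η * τ / (16 * (K2 * C2))) (hl : l ≤ -(η * mu))
    (hlt : q - c' * mu ^ 2 * m < (l + min (ρ ^ 4)⁻¹ (η * mu / 2)) * N)
    (hag : A ≤ 1000 * ρ ^ 4 * (q - c' * mu ^ 2 * m - l * N) + C * B) (b1 : B ≤ C3 * N)
    (b2 : m ≤ 400 * A + N) (d1 : d = q + mu * J) (d2 : 0 ≤ d)
    (d3 : J ≤ τ / mu * q0 + K2 / (τ / mu) * m) (d4 : q0 ≤ 2 * q + K1 * (mu * N + mu ^ 2 * m)) :
    False := by
  have hC20 : 0 < C2 := by
    by_contra h
    have : η / (4 * (c' * C2)) ≤ 0 :=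
      div_nonpos_of_nonneg_of_nonpos hη.le (by nlinarith [not_lt.1 h])
    linarith
  have hρ4 : 0 < ρ ^ 4 := by positivity
  have e1 := mul_le_mul_of_nonneg_right (min_le_left (ρ ^ 4)⁻¹ (η * mu / 2)) hN
  have e2 := mul_le_mul_of_nonneg_right (min_le_right (ρ ^ 4)⁻¹ (η * mu / 2)) hN
  have k1 : ρ ^ 4 * (q - c' * mu ^ 2 * m - l * N) ≤ N := by
    have : q - c' * mu ^ 2 * m - l * N ≤ (ρ ^ 4)⁻¹ * N := by linarith
    have h2 := mul_le_mul_of_nonneg_left this hρ4.le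
    rwa [← mul_assoc (ρ ^ 4) (ρ ^ 4)⁻¹, mul_inv_cancel₀ hρ4.ne', one_mul] at h2
  have k2 : m ≤ C2 * N := by
    have := mul_le_mul_of_nonneg_left b1 hC.le
    rw [hC2]; linarith
  have k3 : mu * (4 * (c' * C2)) ≤ η := (le_div_iff₀ (by positivity)).1 m3
  have k4 : mu * (16 * (K2 * C2)) ≤ η * τ := (le_div_iff₀ (by positivity)).1 m4
  have k5 : τ * (16 * (K1 * (1 + C2))) = η := by rw [hτ]; field_simp
  have k6 : c' * mu ^ 2 * m ≤ η * mu * N / 4 := by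
    have u1 := mul_le_mul_of_nonneg_left k2 (show 0 ≤ c' * mu ^ 2 by positivity)
    have u2 := mul_le_mul_of_nonneg_right k3 (mul_nonneg hmu.le hN)
    linarith
  have k7 : q < -(η * mu * N / 4) := by
    have := mul_le_mul_of_nonneg_right hl hN
    linarith
  have hP : 0 ≤ η * mu * N := by positivity
  have k8 : q0 ≤ K1 * (1 + C2) * (mu * N) := by
    have u1 : mu ^ 2 * m ≤ mu * (C2 * N) := by
      have : mu ^ 2 ≤ mu := by nlinarith
      exact mul_le_mul this k2 hm hmu.le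
    have u2 := mul_le_mul_of_nonneg_left u1 hK1.le
    linarith
  have k9 : mu * (τ / mu * q0) ≤ η * mu * N / 16 := by
    have e : mu * (τ / mu * q0) = τ * q0 := by field_simp
    have u1 := mul_le_mul_of_nonneg_left k8 hτ0.le
    have u2 : τ * (16 * (K1 * (1 + C2))) * (mu * N) = η * (mu * N) := by rw [k5]
    rw [e]; linarith
  have k10 : mu * (K2 / (τ / mu) * m) ≤ η * mu * N / 16 := by
    have e : mu * (K2 / (τ / mu) * m) = mu ^ 2 * K2 * m / τ := by field_simp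
    rw [e, div_le_iff₀ hτ0]
    have u1 := mul_le_mul_of_nonneg_left k2 (show 0 ≤ mu ^ 2 * K2 by positivity)
    have u2 := mul_le_mul_of_nonneg_right k4 (mul_nonneg hmu.le hN)
    linarith
  have k11 := mul_le_mul_of_nonneg_left d3 hmu.le
  rw [mul_add] at k11
  linarith

theorem Mod.PI_of_PO (M : Mod V F) (P : Par) (h : M.PO P) : M.PI P := by
  obtain ⟨R0, hR, c, hc, ε0, hε0, hPO⟩ := h
  obtain ⟨C, hC, hA⟩ := agmon (V := V) (F := F) hR
  obtain ⟨K1, hK1, hq0⟩ := M.q0_le P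
  obtain ⟨K2, hK2, hJ⟩ := Mod.J_bound P.toGam ag_Amat M
  have hδ := P.δ0
  set c' := min (c / 2) (P.δ ^ 2 / 8) with hc'
  have hc'0 : 0 < c' := lt_min (by positivity) (by positivity)
  set C2 := 400 * (1000 + C * (1 + 2 * c * R0 ^ 2)) + 1 with hC2
  have hC20 : 0 < C2 := by positivity
  refine ⟨c', hc'0, fun η hη => ?_⟩
  set τ := η / (16 * (K1 * (1 + C2))) with hτ
  have hτ0 : 0 < τ := by positivity
  refine ⟨min (min ε0 1) (min (η / (4 * (c' * C2))) (η * τ / (16 * (K2 * C2)))), by positivity,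
    fun mu hmu0 hmu φ0 hφ0 hi0 => ?_⟩
  have m1 : mu ≤ ε0 := hmu.trans ((min_le_left _ _).trans (min_le_left _ _))
  have m2 : mu ≤ 1 := hmu.trans ((min_le_left _ _).trans (min_le_right _ _))
  have m3 : mu ≤ η / (4 * (c' * C2)) := hmu.trans ((min_le_right _ _).trans (min_le_left _ _))
  have m4 : mu ≤ η * τ / (16 * (K2 * C2)) :=
    hmu.trans ((min_le_right _ _).trans (min_le_right _ _))
  have e0 : wt (fun x => c' * mu ^ 2 * ‖x‖ ^ 2 - η * mu) φ0 =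
      c' * mu ^ 2 * wt (fun x => ‖x‖ ^ 2) φ0 + -(η * mu) * n2 φ0 := by
    rw [← ag_wt_lin hφ0]; simp only [sub_eq_add_neg]
  rw [e0]
  rcases hmu0.eq_or_lt with rfl | hmu0
  · rw [M.q_zero]
    simpa using M.q0_nonneg P.toGam 1 hφ0
  by_contra hcon
  push Not at hcon
  obtain ⟨K, hK⟩ := M.q_bdd P hmu0 m2
  have hwr : ∀ φ : EE V → F, 0 ≤ wt (fun x => ‖x‖ ^ 2) φ := ag_wt_nonneg fun x => sq_nonneg _
  obtain ⟨l, hl, hl1, hl2⟩ := ag_inf (D := {φ : EE V → F | Tst φ ∧ M.Inv φ})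
    (Q := fun φ => M.q P 1 mu φ - c' * mu ^ 2 * wt (fun x => ‖x‖ ^ 2) φ) (N := n2) n2_nonneg
    (K := K) (e := -(η * mu)) (fun φ hφ => by
      have k1 := hK φ hφ.1
      have k2 := mul_le_mul_of_nonneg_right (min_le_right (c / 2) (P.δ ^ 2 / 8))
        (mul_nonneg (sq_nonneg mu) (hwr φ))
      simp only [← hc'] at k2 ⊢
      linarith) (a0 := φ0) ⟨hφ0, hi0⟩ (by simp only; linarith)
  obtain ⟨c1, c2⟩ := M.q_cont P 1 mu
  have hsch : ∀ φ : EE V → F, Tst φ →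
      sch (fun x => (1 / 2) * ‖(1 : ℝ) • s0 P.toGam M.L P.e x + mu • P.s1 x‖ ^ 2 +
        (-(c' * mu ^ 2) * ‖x‖ ^ 2 + -l))
        (fun x => I • M.C.spin ((-(1 : ℝ)) • Gm P.toGam M.L x + mu • mat P.M1)) φ =
      M.q P 1 mu φ - c' * mu ^ 2 * wt (fun x => ‖x‖ ^ 2) φ - l * n2 φ := by
    intro φ hφ
    unfold Mod.q sch
    rw [wt_add hφ c1.continuousOn (by fun_prop), ag_wt_lin hφ]
    ring
  set k := c / 2 * mu ^ 2 with hk
  have hk0 : 0 < k := by positivity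
  set ρ := max (2 * R0) (max 1 k⁻¹) with hρ
  have hρ1 : 1 ≤ ρ := (le_max_left _ _).trans (le_max_right _ _)
  have hρ0 : 0 < ρ := by linarith
  have hρk : 1 ≤ ρ ^ 4 * k := by
    have k1 : k⁻¹ ≤ ρ := (le_max_right _ _).trans (le_max_right _ _)
    have k2 : ρ ≤ ρ ^ 4 := le_self_pow₀ hρ1 (by norm_num)
    have k3 := mul_le_mul_of_nonneg_right (k1.trans k2) hk0.le
    rwa [inv_mul_cancel₀ hk0.ne'] at k3
  obtain ⟨φ, ⟨hφ, hi⟩, hlt⟩ := hl2 (min (ρ ^ 4)⁻¹ (η * mu / 2)) (by positivity)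
  have hηm : 0 < η * mu := by positivity
  have c3 : Continuous fun x : EE V =>
      (1 / 2) * ‖(1 : ℝ) • s0 P.toGam M.L P.e x + mu • P.s1 x‖ ^ 2 +
        (-(c' * mu ^ 2) * ‖x‖ ^ 2 + -l) := c1.add (by fun_prop)
  have hag := hA _ _ (fun x => k * ‖x‖ ^ 2) {φ : EE V → F | Tst φ ∧ M.Inv φ}
    c3 c2 (by fun_prop)
    (fun x => by positivity)
    (fun φ hφ => ⟨hφ.1, by rw [hsch φ hφ.1]; have := hl1 φ hφ; simp only at this; linarith⟩)
    (fun φ hφ a ha hr => ⟨hφ.1.smul ha, hφ.2.smul fun ξ x => hr _ _ (norm_sinv M.L ξ x)⟩)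
    (fun φ hφ hs => by
      rw [hsch φ hφ.1]
      have k1 := hPO mu hmu0.le m1 φ hφ.1 hφ.2 hs
      have cc : ContinuousOn (fun x : EE V => (21 / 10) / ‖x‖ ^ 2) (tsupport φ) :=
        continuousOn_const.div (by fun_prop) fun x hx => (pow_pos (hR.trans_le (hs x hx)) 2).ne'
      have k2 := wt_mono hφ.1
        (w := fun x => ((21 / 10) / ‖x‖ ^ 2 + k * ‖x‖ ^ 2) + (c' * mu ^ 2 * ‖x‖ ^ 2 + l))
        (w' := fun x => (21 / 10) / ‖x‖ ^ 2 + c * mu + c * mu ^ 2 * ‖x‖ ^ 2)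
        ((cc.add (by fun_prop)).add (by fun_prop)) ((cc.add (by fun_prop)).add (by fun_prop))
        fun x _ => by
          have k3 := mul_le_mul_of_nonneg_right (min_le_left (c / 2) (P.δ ^ 2 / 8))
            (mul_nonneg (sq_nonneg mu) (sq_nonneg ‖x‖))
          have k4 : 0 ≤ c * mu := by positivity
          simp only [← hc', hk] at k3 ⊢
          linarith
      rw [wt_add hφ.1 (w := fun x => (21 / 10) / ‖x‖ ^ 2 + k * ‖x‖ ^ 2) (cc.add (by fun_prop))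
        (by fun_prop), ag_wt_lin hφ.1] at k2
      linarith)
    ρ (le_max_left _ _) φ ⟨hφ, hi⟩
  rw [hsch φ hφ] at hag
  simp only at hlt
  have hN := n2_nonneg φ
  have hm := hwr φ
  have b1 : wt (fun x => 1 + k * ‖x‖ ^ 2) (fun x =>
      (Metric.closedBall (0 : EE V) (2 * R0)).indicator φ x) ≤ (1 + 2 * c * R0 ^ 2) * n2 φ := by
    rw [← wt_const]
    refine integral_mono_of_nonneg (Filter.Eventually.of_forall fun x => by positivity)
      (hφ.int_wt continuousOn_const) (Filter.Eventually.of_forall fun x => ?_)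
    by_cases hx : x ∈ Metric.closedBall (0 : EE V) (2 * R0)
    · simp only [Set.indicator_of_mem hx]
      refine mul_le_mul_of_nonneg_right ?_ (sq_nonneg _)
      have k1 := pow_le_pow_left₀ (norm_nonneg _) (mem_closedBall_zero_iff.1 hx) 2
      have k2 : mu ^ 2 ≤ 1 := pow_le_one₀ hmu0.le m2
      have k3 := mul_le_mul k2 k1 (sq_nonneg _) zero_le_one
      have k4 := mul_le_mul_of_nonneg_left k3 hc.le
      rw [hk]
      linarith
    · simp only [Set.indicator_of_notMem hx, norm_zero]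
      rw [zero_pow two_ne_zero, mul_zero]
      positivity
  have cw : Continuous fun x : EE V => (‖x‖ ^ 2 / (1 + ‖x‖ ^ 2 / ρ ^ 2)) ^ 2 *
      (1 / (100 * (1 + ‖x‖ ^ 2)) + k * ‖x‖ ^ 2 / 2) :=
    (Continuous.pow (Continuous.div (by fun_prop) (by fun_prop) fun x => by positivity) 2).mul
      ((Continuous.div (by fun_prop) (by fun_prop) fun x => by positivity).add (by fun_prop))
  have b2 := wt_mono hφ (w := fun x => ‖x‖ ^ 2)
    (w' := fun x => 400 * ((‖x‖ ^ 2 / (1 + ‖x‖ ^ 2 / ρ ^ 2)) ^ 2 *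
      (1 / (100 * (1 + ‖x‖ ^ 2)) + k * ‖x‖ ^ 2 / 2)) + 1) (by fun_prop)
    ((continuous_const.mul cw).add continuous_const).continuousOn
    fun x _ => ag_point2 hρ0 (sq_nonneg _) hk0.le hρk
  rw [wt_add hφ (w := fun x => 400 * ((‖x‖ ^ 2 / (1 + ‖x‖ ^ 2 / ρ ^ 2)) ^ 2 *
      (1 / (100 * (1 + ‖x‖ ^ 2)) + k * ‖x‖ ^ 2 / 2))) (continuous_const.mul cw).continuousOn
      continuousOn_const, wt_smul, wt_one] at b2
  have d1 := M.D_sq P 1 mu hφ hi
  have d2 := n2_nonneg (M.D P 1 mu φ)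
  have d3 := (abs_le.1 (hJ 1 φ hφ (τ / mu) (by positivity))).2
  have d4 := hq0 1 mu φ hmu0.le hφ
  exact ag_final hC hK1 hK2 hc'0 hη hτ0 hmu0 m2 hρ0 hN hm hC2 hτ m3 m4 hl hlt hag b1 b2 d1 d2 d3 d4

end Vale.Agent.P353
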