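import Vale.Agent.P353.SDefs
import Vale.Agent.P353.IDefs
import Vale.Agent.P353.IOI
import Vale.Agent.P353.GMyers
import Vale.Agent.P353.ACov
import Vale.Agent.P353.AHH

open MeasureTheory NormedSpace Filter Topology
open Complex (I)
open scoped InnerProductSpace ContDiff

noncomputable section
namespace Vale.Agent.P353

section
variable {E F : Type} [NormedAddCommGroup E] [InnerProductSpace ℝ E] [FiniteDimensional ℝ E]
  [MeasurableSpace E] [BorelSpace E] [NormedAddCommGroup F]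

/-- radial mollifier of width `τ` -/
structure Bump (τ : ℝ) (ρ : E → ℝ) : Prop where
  pos : 0 < τ
  smooth : ContDiff ℝ ∞ ρ
  nonneg : ∀ x, 0 ≤ ρ x
  supp : ∀ x, τ ≤ ‖x‖ → ρ x = 0
  rad : ∀ x y, ‖x‖ = ‖y‖ → ρ x = ρ y
  one : ∫ x, ρ x = 1

/-- radial cutoff at radius `R` -/
structure Cut (K R : ℝ) (χ : E → ℝ) : Prop where
  pos : 0 < R
  smooth : ContDiff ℝ ∞ χ
  nonneg : ∀ x, 0 ≤ χ x
  le_one : ∀ x, χ x ≤ 1
  one : ∀ x, ‖x‖ ≤ R → χ x = 1
  supp : ∀ x, 2 * R ≤ ‖x‖ → χ x = 0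
  rad : ∀ x y, ‖x‖ = ‖y‖ → χ x = χ y
  grad : ∀ x, ‖gradient χ x‖ ≤ K / R
  grad0 : ∀ x, ‖x‖ < R → gradient χ x = 0

/-- convolution with `ρ`; this is `ρ ⋆[ContinuousLinearMap.lsmul ℝ ℝ, volume] f` by `rfl` -/
def mol [NormedSpace ℝ F] (ρ : E → ℝ) (f : E → F) (x : E) : F := ∫ y, ρ y • f (x - y)

/-- the mass outside the ball of radius `R` -/
def tail (R : ℝ) (f : E → F) : ℝ := ∫ x in {x | R ≤ ‖x‖}, ‖f x‖ ^ 2

/-- almost everywhere covariance -/
def AEI [NormedSpace ℂ F] (g : E →L[ℝ] E) (U : F →L[ℂ] F) (f : E → F) : Prop :=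
  ∀ᵐ x, f (g x) = U (f x)
end

variable {V F : Type} [NormedAddCommGroup V] [InnerProductSpace ℝ V] [FiniteDimensional ℝ V]
  [MeasurableSpace V] [BorelSpace V]
  [NormedAddCommGroup F] [InnerProductSpace ℂ F] [CompleteSpace F]

/-- almost everywhere gauge invariance -/
def Mod.AInv (M : Mod V F) (f : EE V → F) : Prop := ∀ ξ, AEI (lift (M.L.ex ξ)) (M.rho ξ) f

/-- almost everywhere rotation invariance -/
def Mod.ARInv (M : Mod V F) (G : Gam) (A : M9) (f : EE V → F) : Prop :=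
  ∀ t : ℝ, AEI (expL (t • (mat A : EE V →L[ℝ] EE V))) (exp (t • M.C.spin (mat (G.hat A)))) f

/-- the domain: test functions invariant under the gauge group and the rotation `Amat` -/
def Mod.Dom (M : Mod V F) (P : Par) (φ : EE V → F) : Prop :=
  Tst φ ∧ M.Inv φ ∧ M.RInv P.toGam Amat φ

end Vale.Agent.P353
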