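import Vale.Agent.P353.HEsa
import Vale.Agent.P353.HCoe

open MeasureTheory NormedSpace Filter Topology
open Complex (I)
open scoped InnerProductSpace ContDiff

noncomputable section
namespace Vale.Agent.P353
variable {V F : Type} [NormedAddCommGroup V] [InnerProductSpace ℝ V] [FiniteDimensional ℝ V]
  [MeasurableSpace V] [BorelSpace V]
  [NormedAddCommGroup F] [InnerProductSpace ℂ F] [CompleteSpace F]
variable {M : Mod V F} {P : Par}

lemma hdom_spin {S : Type} [NormedAddCommGroup S] [InnerProductSpace ℝ S] [FiniteDimensional ℝ S]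
    (C : Cl S F) {Γ : F →L[ℂ] F} (hΓ : ∀ u, Γ * C.th u = -(C.th u * Γ)) (T : S →L[ℝ] S) :
    Commute Γ (C.spin T) := by
  refine (Commute.sum_right _ _ _ fun a _ => ?_).smul_right _
  change Γ * (_ * _) = _ * _ * Γ
  rw [← mul_assoc, hΓ, neg_mul, mul_assoc, hΓ, mul_neg, neg_neg, mul_assoc]

theorem Mod.Inv.zero (M : Mod V F) : M.Inv 0 := fun ξ x => by simp
theorem Mod.Inv.add {φ χ : EE V → F} (h : M.Inv φ) (h' : M.Inv χ) : M.Inv (φ + χ) := fun ξ x => by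
  simp [h ξ x, h' ξ x]
theorem Mod.Inv.csmul {φ : EE V → F} (h : M.Inv φ) (c : ℂ) : M.Inv (c • φ) := fun ξ x => by
  simp [h ξ x]
theorem tst_zero : Tst (0 : EE V → F) := ⟨contDiff_const, HasCompactSupport.zero⟩
theorem Mod.Dom.zero (M : Mod V F) (P : Par) : M.Dom P 0 :=
  ⟨tst_zero, Mod.Inv.zero M, fun t x => by simp⟩
theorem Mod.Dom.add {φ χ : EE V → F} (h : M.Dom P φ) (h' : M.Dom P χ) : M.Dom P (φ + χ) :=
  ⟨h.1.add h'.1, h.2.1.add h'.2.1, fun t x => by simp [h.2.2 t x, h'.2.2 t x]⟩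
theorem Mod.Dom.csmul {φ : EE V → F} (h : M.Dom P φ) (c : ℂ) : M.Dom P (c • φ) :=
  ⟨h.1.csmul c, h.2.1.csmul c, fun t x => by simp [h.2.2 t x]⟩
theorem Mod.Dom.D {φ : EE V → F} (h : M.Dom P φ) (mu : ℝ) : M.Dom P (M.D P 1 mu φ) :=
  ⟨(M.Tst_D P 1 mu h.1).1, h.2.1.D P 1 mu (h.1.1.differentiable (by simp)),
    h.2.2.D P 1 mu (h.1.1.differentiable (by simp))⟩
/-- difference of `D` at `mu = 1` and `mu = 0` (`D_mu`) -/
theorem Mod.Dom.B {φ : EE V → F} (h : M.Dom P φ) :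
    M.Dom P fun x => M.C.th (P.s1 x) (φ x) := by
  have e : (fun x => M.C.th (P.s1 x) (φ x)) = M.D P 1 1 φ + (-1 : ℂ) • M.D P 1 0 φ := by
    funext x
    simp [M.D_mu P 1 φ x]
  rw [e]
  exact (h.D 1).add ((h.D 0).csmul _)
theorem lift_ex_inner (L : CL V) (ξ : V) (u v : EE V) :
    ⟪lift (L.ex ξ) u, lift (L.ex ξ) v⟫_ℝ = ⟪u, v⟫_ℝ := by
  simp only [PiLp.inner_apply, lift_apply, L.ex_inner]
theorem expL_mat_inner {A : M9} (hA : A.transpose = -A) (t : ℝ) (u v : EE V) :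
    ⟪expL (t • (mat A : EE V →L[ℝ] EE V)) u, expL (t • (mat A : EE V →L[ℝ] EE V)) v⟫_ℝ =
      ⟪u, v⟫_ℝ :=
  expL_inner (fun a b => by
    simp only [smul_apply, real_inner_smul_left, real_inner_smul_right,
      skew_mat hA a b, mul_neg]) u v
theorem Mod.Inv.rad {φ : EE V → F} (h : M.Inv φ) {a : EE V → ℝ}
    (hr : ∀ x y, ‖x‖ = ‖y‖ → a x = a y) : M.Inv fun x => a x • φ x :=
  h.smul fun ξ x => hr _ _ ((iso_mp (lift_ex_inner M.L ξ)).2.2.1 x)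
theorem Mod.Dom.rad {φ : EE V → F} (h : M.Dom P φ) {a : EE V → ℝ} (ha : ContDiff ℝ ∞ a)
    (hr : ∀ x y, ‖x‖ = ‖y‖ → a x = a y) : M.Dom P fun x => a x • φ x :=
  ⟨h.1.smul ha, h.2.1.rad hr, fun t x => by
    beta_reduce
    rw [hr _ x ((iso_mp (expL_mat_inner Amat_transpose t)).2.2.1 x), h.2.2 t x,
      ContinuousLinearMap.map_smul_of_tower]⟩
/-- an operator anticommuting with all `θ u` commutes with every spin operator and with its
exponentials (`Commute.exp_right`) -/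
theorem Mod.Dom.par {φ : EE V → F} (h : M.Dom P φ) {Γ : F →L[ℂ] F}
    (hΓ : ∀ u, Γ * M.C.th u = -(M.C.th u * Γ)) : M.Dom P fun x => Γ (φ x) := by
  refine ⟨h.1.clm (B := fun _ => Γ) contDiff_const, fun ξ x => ?_, fun t x => ?_⟩
  · have := congrArg (fun A : F →L[ℂ] F => A (φ x)) (hdom_spin M.C hΓ (lift (M.L.br ξ))).exp_right.eq
    beta_reduce
    rw [h.2.1 ξ x]
    exact this
  · have := congrArg (fun A : F →L[ℂ] F => A (φ x))
      ((hdom_spin M.C hΓ (mat (P.hat Amat))).smul_right t).exp_right.eq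
    beta_reduce
    rw [h.2.2 t x]
    exact this
theorem Mod.D_par (M : Mod V F) (P : Par) (mu : ℝ) {φ : EE V → F} (h : Tst φ) {Γ : F →L[ℂ] F}
    (hΓ : ∀ u, Γ * M.C.th u = -(M.C.th u * Γ)) (x : EE V) :
    M.D P 1 mu (fun x => Γ (φ x)) x = -Γ (M.D P 1 mu φ x) := by
  have h1 : ∀ u w, M.C.th u (Γ w) = -Γ (M.C.th u w) := fun u w => by
    have := congrArg (fun A : F →L[ℂ] F => A w) (hΓ u)
    simp only [mul_apply_eq_comp, neg_apply] at this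
    rw [this, neg_neg]
  have h2 : ∀ v, fderiv ℝ (fun x => Γ (φ x)) x v = Γ (fderiv ℝ φ x v) := fun v => by
    have := ((Γ.restrictScalars ℝ).hasFDerivAt.comp x
      (h.1.differentiable (by simp) x).hasFDerivAt).fderiv
    exact congrArg (fun A : EE V →L[ℝ] F => A v) this
  simp only [Mod.D, Cl.dirac, h2, h1]
  rw [Γ.map_add, Γ.map_smul, map_sum Γ, Finset.sum_neg_distrib, smul_neg, neg_add]
/-- `mol_tst`, `mol_cov`, `AEI.smul` -/
theorem Mod.Dom.of_ae {f : EE V → F} (hf : MemLp f 2 volume) (h1 : M.AInv f)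
    (h2 : M.ARInv P.toGam Amat f) {K R τ : ℝ} {χ ρ : EE V → ℝ} (hχ : Cut K R χ) (hρ : Bump τ ρ) :
    M.Dom P (mol ρ fun x => χ x • f x) := by
  have hm := (hχ.memLp hf).1
  refine ⟨mol_tst hρ hm (R := 2 * R) fun x hx => by simp [hχ.supp x hx], fun ξ x => ?_,
    fun t x => ?_⟩
  · exact mol_cov hρ (lift_ex_inner M.L ξ) hm ((h1 ξ).smul (lift_ex_inner M.L ξ) hχ.rad) x
  · exact mol_cov hρ (expL_mat_inner Amat_transpose t) hm
      ((h2 t).smul (expL_mat_inner Amat_transpose t) hχ.rad) x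
theorem Mod.Dom.mol {φ : EE V → F} (h : M.Dom P φ) {τ : ℝ} {ρ : EE V → ℝ} (hρ : Bump τ ρ) :
    M.Dom P (mol ρ φ) := by
  obtain ⟨R, -, hR⟩ := h.1.exists_ball
  exact ⟨mol_tst hρ h.1.memLp hR, fun ξ x => mol_cov hρ (lift_ex_inner M.L ξ) h.1.memLp
    (Eventually.of_forall (h.2.1 ξ)) x, fun t x => mol_cov hρ (expL_mat_inner Amat_transpose t)
      h.1.memLp (Eventually.of_forall (h.2.2 t)) x⟩
/-- `aei_lim` -/
theorem Mod.ainv_lim {f : EE V → F} (hf : MemLp f 2 volume)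
    (h : ∀ ε > 0, ∃ φ, Tst φ ∧ M.Inv φ ∧ n2 (fun x => φ x - f x) ≤ ε) : M.AInv f := fun ξ =>
  aei_lim (lift_ex_inner M.L ξ) hf fun ε hε => by
    obtain ⟨φ, a1, a2, a3⟩ := h ε hε
    exact ⟨φ, a1.memLp, a3, by simpa [a2 ξ, n2] using hε.le⟩
theorem Mod.arinv_lim {f : EE V → F} (hf : MemLp f 2 volume)
    (h : ∀ ε > 0, ∃ φ, M.Dom P φ ∧ n2 (fun x => φ x - f x) ≤ ε) : M.ARInv P.toGam Amat f := fun t =>
  aei_lim (expL_mat_inner Amat_transpose t) hf fun ε hε => by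
    obtain ⟨φ, a1, a3⟩ := h ε hε
    exact ⟨φ, a1.1.memLp, a3, by simpa [a1.2.2 t, n2] using hε.le⟩
/-- `esa_core` for the class `M.Dom P` -/
theorem Mod.esa (M : Mod V F) (P : Par) (mu : ℝ) {f : EE V → F} (hf : MemLp f 2 volume)
    (h1 : M.AInv f) (h2 : M.ARInv P.toGam Amat f)
    (happ : ∀ ε > 0, ∃ φ, Tst φ ∧ n2 (fun x => φ x - f x) ≤ ε)
    (hw : ∀ w, M.Dom P w → ∫ x, ⟪M.D P 1 mu w x, f x⟫_ℂ = 0) {ε : ℝ} (hε : 0 < ε) :
    ∃ u, M.Dom P u ∧ n2 (fun x => u x - f x) ≤ ε ∧ n2 (M.D P 1 mu u) ≤ ε :=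
  esa_core M.C (P.psi P.e) (M.contDiff_s P mu) hf happ (M.Dom P) (fun _ hw => hw.D mu)
    (fun _ hw _ _ _ _ _ hχ hρ => (hw.mol hρ).rad hχ.smooth hχ.rad)
    (fun _ _ _ _ _ hχ hρ => Mod.Dom.of_ae hf h1 h2 hχ hρ) hw hε

end Vale.Agent.P353
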