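import Vale.Agent.P353.HMol2

open MeasureTheory NormedSpace Filter Topology
open Complex (I)
open scoped InnerProductSpace ContDiff

noncomputable section
namespace Vale.Agent.P353
variable {S E F : Type} [NormedAddCommGroup S] [InnerProductSpace ℝ S] [FiniteDimensional ℝ S]
  [NormedAddCommGroup E] [InnerProductSpace ℝ E] [FiniteDimensional ℝ E]
  [MeasurableSpace E] [BorelSpace E]
  [NormedAddCommGroup F] [InnerProductSpace ℂ F] [CompleteSpace F]
variable {τ : ℝ} {ρ : E → ℝ}

theorem hmol4_int (h : Bump τ ρ) {g : E → F} (hg : Continuous g) :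
    Integrable fun y => ρ y • g y :=
  (h.smooth.continuous.smul hg).integrable_of_hasCompactSupport h.hcs.smul_right

theorem hmol4_comm (h : Bump τ ρ) (T : F →L[ℂ] F) {g : E → F} (hg : Continuous g) :
    T (∫ y, ρ y • g y) = ∫ y, ρ y • T (g y) := by
  rw [← T.integral_comp_comm (hmol4_int h hg)]
  simp only [ContinuousLinearMap.map_smul_of_tower]

/-- `HasCompactSupport.hasFDerivAt_convolution_right` -/
theorem mol_fderiv (h : Bump τ ρ) {w : E → F} (hw : Tst w) (x v : E) :
    fderiv ℝ (mol ρ w) x v = mol ρ (fun y => fderiv ℝ w y v) x := by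
  have hl : LocallyIntegrable ρ volume := h.integrable.locallyIntegrable
  have h1 : ContDiff ℝ 1 w := hw.1.of_le (by simp)
  have h2 := hw.2.hasFDerivAt_convolution_right (ContinuousLinearMap.lsmul ℝ ℝ) hl h1 x
  have h3 := convolution_precompR_apply (ContinuousLinearMap.lsmul ℝ ℝ) hl (hw.2.fderiv ℝ)
    (h1.continuous_fderiv one_ne_zero) x v
  have h4 : fderiv ℝ (mol ρ w) x = _ := h2.fderiv
  rw [h4]
  exact h3
theorem mol_dirac (h : Bump τ ρ) (C : Cl S F) (ψ : E →L[ℝ] S) {s : E → S} (hs : Continuous s)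
    {w : E → F} (hw : Tst w) (x : E) :
    C.dirac ψ s (mol ρ w) x =
      mol ρ (C.dirac ψ s w) x + ∫ y, ρ y • C.th (s x - s (x - y)) (w (x - y)) := by
  have h1 : ContDiff ℝ 1 w := hw.1.of_le (by simp)
  have cw : Continuous fun y => w (x - y) := hw.1.continuous.comp (by fun_prop)
  have cd : ∀ v : E, Continuous fun y => fderiv ℝ w (x - y) v := fun v =>
    ((h1.continuous_fderiv one_ne_zero).comp (by fun_prop)).clm_apply continuous_const
  have cs : Continuous fun y => s (x - y) := hs.comp (by fun_prop)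
  have c1 : Continuous fun y => C.th (s (x - y)) (w (x - y)) :=
    (C.th.continuous.comp cs).clm_apply cw
  have c2 : Continuous fun y => C.th (s x - s (x - y)) (w (x - y)) :=
    (C.th.continuous.comp (continuous_const.sub cs)).clm_apply cw
  have c3 : ∀ k, Continuous fun y => ((-I) • C.th (ψ (stdOrthonormalBasis ℝ E k)))
      (fderiv ℝ w (x - y) (stdOrthonormalBasis ℝ E k)) := fun k =>
    (ContinuousLinearMap.continuous _).comp (cd _)
  have e1 : mol ρ (C.dirac ψ s w) x =
      ∑ k, (∫ y, ρ y • ((-I) • C.th (ψ (stdOrthonormalBasis ℝ E k)))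
        (fderiv ℝ w (x - y) (stdOrthonormalBasis ℝ E k))) +
        ∫ y, ρ y • C.th (s (x - y)) (w (x - y)) := by
    rw [← integral_finsetSum _ (fun k _ => hmol4_int h (c3 k)),
      ← integral_add (integrable_finsetSum _ fun k _ => hmol4_int h (c3 k)) (hmol4_int h c1)]
    unfold mol Cl.dirac
    simp only [smul_add, Finset.smul_sum, ContinuousLinearMap.smul_apply]
  have e2 : C.th (s x) (mol ρ w x) = (∫ y, ρ y • C.th (s (x - y)) (w (x - y))) +
      ∫ y, ρ y • C.th (s x - s (x - y)) (w (x - y)) := by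
    rw [← integral_add (hmol4_int h c1) (hmol4_int h c2)]
    unfold mol
    rw [hmol4_comm h _ cw]
    refine integral_congr_ae (Eventually.of_forall fun y => ?_)
    simp only [map_sub, ContinuousLinearMap.sub_apply, smul_sub, add_sub_cancel]
  rw [e1, add_assoc, ← e2]
  unfold Cl.dirac
  congr 1
  rw [Finset.smul_sum]
  refine Finset.sum_congr rfl fun k _ => ?_
  rw [mol_fderiv h hw, ← hmol4_comm h _ (cd _)]
  rfl
theorem mol_err (h : Bump τ ρ) (C : Cl S F) {s : E → S} {w : E → F} (hw : MemLp w 2 volume)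
    {L : ℝ} {x : E} (hL : ∀ y, ‖y‖ ≤ τ → ‖s x - s (x - y)‖ ≤ L) :
    ‖∫ y, ρ y • C.th (s x - s (x - y)) (w (x - y))‖ ≤ L * ‖mol ρ (fun y => ‖w y‖) x‖ := by
  have hL0 : 0 ≤ L := le_trans (norm_nonneg _) (hL 0 (by simpa using h.pos.le))
  have hi : Integrable fun y => L * (ρ y • ‖w (x - y)‖) := (h.int hw.norm x).1.const_mul L
  refine le_trans (norm_integral_le_of_norm_le hi (Eventually.of_forall fun y => ?_)) ?_
  · by_cases hy : ‖y‖ ≤ τ
    · rw [norm_smul, Real.norm_of_nonneg (h.nonneg y), smul_eq_mul, mul_left_comm]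
      refine mul_le_mul_of_nonneg_left ?_ (h.nonneg y)
      exact le_trans (ContinuousLinearMap.le_opNorm _ _)
        (mul_le_mul_of_nonneg_right ((C.norm_th_le _).trans (hL y hy)) (norm_nonneg _))
    · rw [h.supp y (le_of_lt (not_le.1 hy))]
      simp
  · rw [integral_const_mul]
    exact mul_le_mul_of_nonneg_left (le_abs_self _) hL0
/-- uniform continuity on the closed ball of radius `R + 1` -/
theorem exists_tau {s : E → S} (hs : Continuous s) (R : ℝ) {L : ℝ} (hL : 0 < L) :
    ∃ τ0 > 0, ∀ x y : E, ‖x‖ ≤ R → ‖y‖ ≤ τ0 → ‖s x - s (x - y)‖ ≤ L := by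
  have hc : IsCompact (Metric.closedBall (0 : E) (R + 1)) := isCompact_closedBall _ _
  obtain ⟨δ, hδ, hu⟩ := Metric.uniformContinuousOn_iff.1
    (hc.uniformContinuousOn_of_continuous hs.continuousOn) L hL
  refine ⟨min (δ / 2) 1, by positivity, fun x y hx hy => ?_⟩
  have h1 : ‖y‖ ≤ δ / 2 := hy.trans (min_le_left _ _)
  have h2 : ‖y‖ ≤ 1 := hy.trans (min_le_right _ _)
  have h3 := norm_sub_le x y
  rw [← dist_eq_norm]
  refine le_of_lt (hu x (mem_closedBall_zero_iff.2 (by linarith)) (x - y)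
    (mem_closedBall_zero_iff.2 (by linarith)) ?_)
  rw [dist_eq_norm, sub_sub_cancel]
  linarith

end Vale.Agent.P353
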