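import Vale.Agent.P353.HMol3
import Vale.Agent.P353.HMol4

open MeasureTheory NormedSpace Filter Topology
open Complex (I)
open scoped InnerProductSpace ContDiff

noncomputable section
namespace Vale.Agent.P353
variable {S E F : Type} [NormedAddCommGroup S] [InnerProductSpace ℝ S] [FiniteDimensional ℝ S]
  [NormedAddCommGroup E] [InnerProductSpace ℝ E] [FiniteDimensional ℝ E]
  [MeasurableSpace E] [BorelSpace E]
  [NormedAddCommGroup F] [InnerProductSpace ℂ F] [CompleteSpace F]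
variable {τ K R : ℝ} {ρ χ : E → ℝ}

theorem hesa_sq {X N c : ℝ} (hX : 0 ≤ X) (hN : 0 ≤ N) (hc : 0 ≤ c) (h : X ≤ c * √X * √N) :
    X ≤ c ^ 2 * N := by
  have h1 := Real.sq_sqrt hX
  have h2 := Real.sq_sqrt hN
  have h3 := Real.sqrt_nonneg X
  have h4 := Real.sqrt_nonneg N
  nlinarith [sq_nonneg (√X - c * √N)]

theorem hesa_err (hρ : Bump τ ρ) (hχ : Cut K R χ) (C : Cl S F) (ψ : E →L[ℝ] S) {s : E → S}
    (hs : ContDiff ℝ ∞ s) {L : ℝ} (hL0 : 0 ≤ L)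
    (hL : ∀ x y : E, ‖x‖ ≤ 2 * R → ‖y‖ ≤ τ → ‖s x - s (x - y)‖ ≤ L) {w : E → F} (hw : Tst w) :
    √(n2 fun x => χ x • mol ρ (C.dirac ψ s w) x - C.dirac ψ s (fun x => χ x • mol ρ w x) x) ≤
      (L + ‖ψ‖ * (K / R)) * √(n2 w) := by
  have hc : 0 ≤ ‖ψ‖ * (K / R) := mul_nonneg (norm_nonneg _) ((norm_nonneg _).trans (hχ.grad 0))
  obtain ⟨m1, m2⟩ := mol_memLp hρ hw.memLp
  obtain ⟨a1, a2⟩ := mol_memLp hρ hw.memLp.norm
  have a3 : (n2 fun y => ‖w y‖) = n2 w := by simp only [n2, norm_norm]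
  have i1 := a1.norm.const_mul L
  have i2 := m1.norm.const_mul (‖ψ‖ * (K / R))
  have h1 := n2_le (f := fun x => χ x • mol ρ (C.dirac ψ s w) x -
    C.dirac ψ s (fun x => χ x • mol ρ w x) x) (a := 1) (i1.add i2) (Eventually.of_forall fun x => by
      have h2 : ‖χ x • ∫ y, ρ y • C.th (s x - s (x - y)) (w (x - y))‖ ≤
          L * ‖mol ρ (fun y => ‖w y‖) x‖ := by
        rcases le_total ‖x‖ (2 * R) with h3 | h3
        · rw [norm_smul, Real.norm_of_nonneg (hχ.nonneg x)]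
          exact (mul_le_of_le_one_left (norm_nonneg _) (hχ.le_one x)).trans
            (mol_err hρ C hw.memLp fun y hy => hL x y h3 hy)
        · rw [hχ.supp x h3, zero_smul, norm_zero]
          positivity
      have h3 : ‖(-I) • C.th (ψ (gradient χ x)) (mol ρ w x)‖ ≤ ‖ψ‖ * (K / R) * ‖mol ρ w x‖ := by
        rw [norm_smul, norm_neg, Complex.norm_I, one_mul]
        refine (ContinuousLinearMap.le_opNorm _ _).trans
          (mul_le_mul_of_nonneg_right ((C.norm_th_le _).trans ?_) (norm_nonneg _))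
        exact (ψ.le_opNorm _).trans (mul_le_mul_of_nonneg_left (hχ.grad x) (norm_nonneg _))
      rw [dirac_smul C ψ s ((mol_smooth hρ hw.memLp).differentiable (by simp) x)
        (hχ.smooth.differentiable (by simp) x), mol_dirac hρ C ψ hs.continuous hw, smul_add,
        add_assoc, sub_add_cancel_left, norm_neg, one_mul]
      exact ((norm_add_le _ _).trans (add_le_add h2 h3)).trans (le_abs_self _))
  have h2 := n2_le (f := fun x => L * ‖mol ρ (fun y => ‖w y‖) x‖) (a := L) a1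
    (Eventually.of_forall fun x => by rw [norm_mul, norm_norm, Real.norm_of_nonneg hL0])
  have h3 := n2_le (f := fun x => ‖ψ‖ * (K / R) * ‖mol ρ w x‖) (a := ‖ψ‖ * (K / R)) m1
    (Eventually.of_forall fun x => by rw [norm_mul, norm_norm, Real.norm_of_nonneg hc])
  have h4 := Real.sqrt_le_sqrt (h2.trans (mul_le_mul_of_nonneg_left (a2.trans_eq a3) (sq_nonneg _)))
  have h5 := Real.sqrt_le_sqrt (h3.trans (mul_le_mul_of_nonneg_left m2 (sq_nonneg _)))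
  rw [Real.sqrt_mul (sq_nonneg _), Real.sqrt_sq hL0] at h4
  rw [Real.sqrt_mul (sq_nonneg _), Real.sqrt_sq hc] at h5
  rw [one_pow, one_mul] at h1
  refine (Real.sqrt_le_sqrt h1).trans ((sqrt_n2_add i1 i2).trans ?_)
  rw [add_mul]
  exact add_le_add h4 h5

/-- Let `u = mol ρ (χ f)`, `w = D u` (both `Tst`).  Then
`n2 w = ⟪w, D u⟫ = ⟪D w, u⟫ = ⟪mol ρ (D w), χ f⟫ = ⟪χ mol ρ (D w), f⟫` (`dirac_symm`, `mol_adj`), and by
`dirac_smul`, `mol_dirac`: `χ mol ρ (D w) = D (χ mol ρ w) - χ err + i θ (ψ ∇χ) (mol ρ w)`.  The first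
term pairs to zero, the other two have `√n2 ≤ L √(n2 w)` and `≤ ‖ψ‖ (K / R) √(n2 w)` (`mol_err`,
`n2_le`, `mol_memLp`), so `n2 w ≤ (L + ‖ψ‖ K / R) √(n2 w) √(n2 f)` by `cs_inner`. -/
theorem esa_bound (hρ : Bump τ ρ) (hχ : Cut K R χ) (C : Cl S F) (ψ : E →L[ℝ] S) {s : E → S}
    (hs : ContDiff ℝ ∞ s) {f : E → F} (hf : MemLp f 2 volume) {L : ℝ} (hL0 : 0 ≤ L)
    (hL : ∀ x y : E, ‖x‖ ≤ 2 * R → ‖y‖ ≤ τ → ‖s x - s (x - y)‖ ≤ L)
    (hw : ∫ x, ⟪C.dirac ψ s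
      (fun x => χ x • mol ρ (C.dirac ψ s (mol ρ fun x => χ x • f x)) x) x, f x⟫_ℂ = 0) :
    n2 (C.dirac ψ s (mol ρ fun x => χ x • f x)) ≤ (L + ‖ψ‖ * (K / R)) ^ 2 * n2 f := by
  have hg := (hχ.memLp hf).1
  have hu : Tst (mol ρ fun x => χ x • f x) :=
    mol_tst hρ hg (R := 2 * R) fun x hx => by rw [hχ.supp x hx, zero_smul]
  have h1 := hu.dirac C ψ hs
  have h2 := int_inner_self (C.dirac ψ s (mol ρ fun x => χ x • f x))
  rw [← dirac_symm C ψ hs.continuous h1.one hu, mol_adj hρ (h1.dirac C ψ hs).memLp hg] at h2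
  generalize C.dirac ψ s (mol ρ fun x => χ x • f x) = w at hw h1 h2 ⊢
  obtain ⟨R₁, -, hR₁⟩ := h1.exists_ball
  have i1 := (hχ.memLp (mol_memLp hρ (h1.dirac C ψ hs).memLp).1).1
  have i2 := (((mol_tst hρ h1.memLp hR₁).smul hχ.smooth).dirac C ψ hs).memLp
  have h3 : ∫ x, ⟪χ x • mol ρ (C.dirac ψ s w) x - C.dirac ψ s (fun x => χ x • mol ρ w x) x,
      f x⟫_ℂ = (n2 w : ℂ) := by
    simp only [inner_sub_left]
    rw [integral_sub (int_inner i1 hf) (int_inner i2 hf), hw, sub_zero, ← h2]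
    refine integral_congr_ae (Eventually.of_forall fun x => ?_)
    simp only [← Complex.coe_smul, inner_smul_left, inner_smul_right, Complex.conj_ofReal]
  have h4 := cs_inner (i1.sub i2) hf
  simp only [Pi.sub_apply] at h4
  rw [h3, Complex.norm_real, Real.norm_of_nonneg (n2_nonneg w)] at h4
  exact hesa_sq (n2_nonneg w) (n2_nonneg f)
    (add_nonneg hL0 (mul_nonneg (norm_nonneg _) ((norm_nonneg _).trans (hχ.grad 0))))
    (h4.trans (mul_le_mul_of_nonneg_right (hesa_err hρ hχ C ψ hs hL0 hL h1) (Real.sqrt_nonneg _)))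

/-- compare with a test function `φ` close to `f`, supported in the ball of radius `R0`:
`mol (χ f) - f = mol (χ (f - φ)) + (mol φ - φ) + (φ - f)` since `χ φ = φ` -/
theorem mol_cut_approx {f : E → F} (hf : MemLp f 2 volume)
    (happ : ∀ ε > 0, ∃ φ, Tst φ ∧ n2 (fun x => φ x - f x) ≤ ε) {ε : ℝ} (hε : 0 < ε) :
    ∃ R0 > 0, ∃ τ0 > 0, ∀ (K R τ : ℝ) (χ ρ : E → ℝ), R0 ≤ R → τ ≤ τ0 → Cut K R χ → Bump τ ρ →
      n2 (fun x => mol ρ (fun x => χ x • f x) x - f x) ≤ ε := by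
  obtain ⟨φ, hφ, h1⟩ := happ (ε / 10) (by positivity)
  obtain ⟨R0, hR0, h2⟩ := hφ.exists_ball
  have hk := kin_nonneg φ
  refine ⟨R0, hR0, min 1 (ε / 10 / (2 * kin φ + 1)), by positivity,
    fun K R τ χ ρ hR hτ hχ hρ => ?_⟩
  have i1 := hφ.memLp
  have i2 := (hχ.memLp hf).1
  have h3 : (fun x => χ x • f x - φ x) = fun x => χ x • (f x - φ x) := by
    funext x
    rcases le_total ‖x‖ R with h4 | h4
    · rw [hχ.one x h4, one_smul, one_smul]
    · rw [h2 x (hR.trans h4), sub_zero, sub_zero]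
  have h4 : n2 (fun x => mol ρ (fun x => χ x • f x) x - mol ρ φ x) ≤ ε / 10 := by
    simp only [← mol_sub hρ i2 i1, h3]
    obtain ⟨a1, a2⟩ := hχ.memLp (f := fun x => f x - φ x) (hf.sub i1)
    exact (mol_memLp hρ a1).2.trans (a2.trans ((n2_sub_comm _ _).trans_le h1))
  have h5 : τ ^ 2 * (2 * kin φ) ≤ ε / 10 := by
    have a1 := (le_div_iff₀ (by positivity)).1 (hτ.trans (min_le_right _ _))
    have a2 := hτ.trans (min_le_left _ _)
    have a3 := hρ.pos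
    nlinarith [mul_nonneg a3.le hk]
  have h6 := n2_tri (mol_memLp hρ i2).1 (mol_memLp hρ i1).1 hf
  have h7 := n2_tri (mol_memLp hρ i1).1 i1 hf
  linarith [mol_approx hρ hφ]

/-- weak solutions are strong solutions, inside a class `D` of test functions -/
theorem esa_core (C : Cl S F) (ψ : E →L[ℝ] S) {s : E → S} (hs : ContDiff ℝ ∞ s) {f : E → F}
    (hf : MemLp f 2 volume) (happ : ∀ ε > 0, ∃ φ, Tst φ ∧ n2 (fun x => φ x - f x) ≤ ε)
    (D : (E → F) → Prop) (hD : ∀ w, D w → D (C.dirac ψ s w))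
    (hm : ∀ w, D w → ∀ (K R τ : ℝ) (χ ρ : E → ℝ), Cut K R χ → Bump τ ρ →
      D fun x => χ x • mol ρ w x)
    (hfm : ∀ (K R τ : ℝ) (χ ρ : E → ℝ), Cut K R χ → Bump τ ρ → D (mol ρ fun x => χ x • f x))
    (hw : ∀ w, D w → ∫ x, ⟪C.dirac ψ s w x, f x⟫_ℂ = 0) {ε : ℝ} (hε : 0 < ε) :
    ∃ u, D u ∧ n2 (fun x => u x - f x) ≤ ε ∧ n2 (C.dirac ψ s u) ≤ ε := by
  obtain ⟨R0, hR0, τ0, hτ0, h1⟩ := mol_cut_approx hf happ hε
  obtain ⟨K, hK, h2⟩ := exists_cut E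
  have hN := n2_nonneg f
  obtain ⟨η, h3, h4⟩ : ∃ η : ℝ, 0 < η ∧ (η + η) ^ 2 * n2 f ≤ ε := by
    refine ⟨min 1 (ε / (4 * (n2 f + 1))), by positivity, ?_⟩
    have a1 := (le_div_iff₀ (by positivity)).1 (min_le_right 1 (ε / (4 * (n2 f + 1))))
    have a2 := min_le_left 1 (ε / (4 * (n2 f + 1)))
    have a3 : 0 < min 1 (ε / (4 * (n2 f + 1))) := by positivity
    nlinarith [mul_nonneg a3.le hN]
  have hR : 0 < max R0 (‖ψ‖ * K / η) := hR0.trans_le (le_max_left _ _)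
  obtain ⟨χ, hχ⟩ := h2 _ hR
  obtain ⟨τ1, hτ1, h5⟩ := exists_tau hs.continuous (2 * max R0 (‖ψ‖ * K / η)) h3
  obtain ⟨ρ, hρ⟩ := exists_bump E (lt_min hτ0 hτ1)
  have h6 : ‖ψ‖ * (K / max R0 (‖ψ‖ * K / η)) ≤ η := by
    rw [← mul_div_assoc, div_le_iff₀' hR, ← div_le_iff₀ h3]
    exact le_max_right _ _
  refine ⟨_, hfm _ _ _ _ _ hχ hρ, h1 _ _ _ _ _ (le_max_left _ _) (min_le_left _ _) hχ hρ, ?_⟩
  refine (esa_bound hρ hχ C ψ hs hf h3.le (fun x y hx hy => h5 x y hx (hy.trans (min_le_right _ _)))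
    (hw _ (hm _ (hD _ (hfm _ _ _ _ _ hχ hρ)) _ _ _ _ _ hχ hρ))).trans (le_trans ?_ h4)
  exact mul_le_mul_of_nonneg_right (pow_le_pow_left₀ (by positivity) (by linarith) 2) hN

end Vale.Agent.P353
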