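import Vale.Agent.P353.HDom

open MeasureTheory NormedSpace Filter Topology
open Complex (I)
open scoped InnerProductSpace ContDiff

noncomputable section
namespace Vale.Agent.P353
variable {V F : Type} [NormedAddCommGroup V] [InnerProductSpace ℝ V] [FiniteDimensional ℝ V]
  [MeasurableSpace V] [BorelSpace V]
  [NormedAddCommGroup F] [InnerProductSpace ℂ F] [CompleteSpace F]

lemma hker_s (M : Mod V F) (G : Gam) (e : R16) :
    ContDiff ℝ ∞ fun x => (1 : ℝ) • s0 G M.L e x := (contDiff_s0 G M.L e).const_smul _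

lemma hker_Q (M : Mod V F) (G : Gam) (e : R16) {φ : EE V → F} (h : Tst φ) :
    Tst (M.Q G e 1 φ) := Tst.dirac _ _ (hker_s M G e) h

lemma hker_diff {φ : EE V → F} (h : Tst φ) : Differentiable ℝ φ := h.1.differentiable (by simp)

/-- `sum_Q`, `q0_nonneg` -/
theorem Mod.mem_Ker (M : Mod V F) (G : Gam) (ψ : Lp F 2 (volume : Measure (EE V))) :
    ψ ∈ M.Ker G ↔ ∀ ε > 0, ∃ φ, Tst φ ∧ M.Inv φ ∧ n2 (fun x => φ x - ψ x) ≤ ε ∧ M.q0 G 1 φ ≤ ε := by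
  constructor
  · rintro ⟨φ, h1, h2, h3⟩ ε hε
    obtain ⟨n, a, b⟩ := ((h2.eventually (ge_mem_nhds hε)).and (h3.eventually (ge_mem_nhds hε))).exists
    refine ⟨φ n, (h1 n).1, (h1 n).2, a, ?_⟩
    rw [← M.sum_Q G 1 (h1 n).1]
    linarith
  · intro h
    choose φ h1 h2 h3 h4 using fun n : ℕ => h (1 / ((n : ℝ) + 1)) Nat.one_div_pos_of_nat
    refine ⟨φ, fun n => ⟨h1 n, h2 n⟩, squeeze_zero (fun n => n2_nonneg' _) h3
      tendsto_one_div_add_atTop_nhds_zero_nat, ?_⟩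
    refine squeeze_zero (fun n => Finset.sum_nonneg fun β _ => n2_nonneg' _)
      (g := fun n : ℕ => 16 * (1 / ((n : ℝ) + 1))) (fun n => ?_)
      (by simpa using tendsto_one_div_add_atTop_nhds_zero_nat.const_mul (16 : ℝ))
    linarith [M.sum_Q G 1 (h1 n), h4 n]
theorem Mod.q0_add_le (M : Mod V F) (G : Gam) {φ χ : EE V → F} (h : Tst φ) (h' : Tst χ) :
    M.q0 G 1 (φ + χ) ≤ 2 * M.q0 G 1 φ + 2 * M.q0 G 1 χ := by
  rw [← M.sum_Q G 1 (h.add h'), ← M.sum_Q G 1 h, ← M.sum_Q G 1 h']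
  have : ∑ β, n2 (M.Q G (Pi.single β 1) 1 (φ + χ)) ≤
      ∑ β, (2 * n2 (M.Q G (Pi.single β 1) 1 φ) + 2 * n2 (M.Q G (Pi.single β 1) 1 χ)) :=
    Finset.sum_le_sum fun β _ => by
      rw [Mod.Q, dirac_add _ _ _ (hker_diff h) (hker_diff h')]
      exact n2_add_two (hker_Q M G _ h).memLp (hker_Q M G _ h').memLp
  rw [Finset.sum_add_distrib, ← Finset.mul_sum, ← Finset.mul_sum] at this
  linarith
theorem Mod.q0_csmul (M : Mod V F) (G : Gam) {φ : EE V → F} (h : Tst φ) (c : ℂ) :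
    M.q0 G 1 (c • φ) = ‖c‖ ^ 2 * M.q0 G 1 φ := by
  rw [← M.sum_Q G 1 (h.csmul c), ← M.sum_Q G 1 h, mul_left_comm, Finset.mul_sum _ _ (‖c‖ ^ 2)]
  congr 1
  refine Finset.sum_congr rfl fun β _ => ?_
  rw [Mod.Q, dirac_csmul _ _ _ (hker_diff h), n2_csmul]
theorem Mod.Ker_zero (M : Mod V F) (G : Gam) : 0 ∈ M.Ker G := by
  refine (M.mem_Ker G 0).2 fun ε hε => ⟨0, tst_zero, Mod.Inv.zero M, ?_, ?_⟩
  · have : n2 (fun x => (0 : EE V → F) x - (0 : Lp F 2 (volume : Measure (EE V))) x) = ‖(0 :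
        Lp F 2 (volume : Measure (EE V)))‖ ^ 2 := by
      rw [← n2_Lp]; simp [n2]
    rw [this]; simpa using hε.le
  · have := M.q0_csmul G (tst_zero (V := V) (F := F)) 0
    rw [smul_zero] at this
    rw [this]; simpa using hε.le
theorem Mod.Ker_add (M : Mod V F) (G : Gam) {ψ ψ' : Lp F 2 (volume : Measure (EE V))}
    (h : ψ ∈ M.Ker G) (h' : ψ' ∈ M.Ker G) : ψ + ψ' ∈ M.Ker G := by
  refine (M.mem_Ker G _).2 fun ε hε => ?_
  obtain ⟨φ, a1, a2, a3, a4⟩ := (M.mem_Ker G _).1 h (ε / 4) (by positivity)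
  obtain ⟨χ, b1, b2, b3, b4⟩ := (M.mem_Ker G _).1 h' (ε / 4) (by positivity)
  refine ⟨φ + χ, a1.add b1, a2.add b2, ?_, by linarith [M.q0_add_le G a1 b1]⟩
  have e : n2 (fun x => (φ + χ) x - (ψ + ψ' : Lp F 2 (volume : Measure (EE V))) x) =
      n2 fun x => (φ x - ψ x) + (χ x - ψ' x) := n2_congr (by
    filter_upwards [Lp.coeFn_add ψ ψ'] with x hx
    rw [hx, Pi.add_apply, Pi.add_apply]; abel)
  have := n2_add_two (a1.memLp.sub (Lp.memLp ψ)) (b1.memLp.sub (Lp.memLp ψ'))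
  simp only [Pi.sub_apply] at this
  change _ ≤ 2 * n2 (fun x => φ x - ψ x) + 2 * n2 fun x => χ x - ψ' x at this
  rw [e]
  linarith
theorem Mod.Ker_smul (M : Mod V F) (G : Gam) {ψ : Lp F 2 (volume : Measure (EE V))}
    (h : ψ ∈ M.Ker G) (c : ℂ) : c • ψ ∈ M.Ker G := by
  refine (M.mem_Ker G _).2 fun ε hε => ?_
  have hp : 0 < ‖c‖ ^ 2 + 1 := by positivity
  obtain ⟨φ, a1, a2, a3, a4⟩ := (M.mem_Ker G _).1 h (ε / (‖c‖ ^ 2 + 1)) (by positivity)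
  have key : ∀ a : ℝ, a ≤ ε / (‖c‖ ^ 2 + 1) → ‖c‖ ^ 2 * a ≤ ε := fun a ha =>
    (mul_le_mul_of_nonneg_left ha (by positivity)).trans (by
      rw [← mul_div_assoc, div_le_iff₀ hp]; nlinarith)
  refine ⟨c • φ, a1.csmul c, a2.csmul c, ?_, by rw [M.q0_csmul G a1]; exact key _ a4⟩
  have e : n2 (fun x => (c • φ) x - (c • ψ : Lp F 2 (volume : Measure (EE V))) x) =
      n2 (c • fun x => φ x - ψ x) := n2_congr (by
    filter_upwards [Lp.coeFn_smul c ψ] with x hx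
    rw [hx]; simp [smul_sub])
  rw [e, n2_csmul]
  exact key _ a3
/-- `sum_Q` and `Cut.dirac` for each supercharge -/
theorem Mod.q0_cut (M : Mod V F) (G : Gam) : ∃ C > 0, ∀ (K R : ℝ) (χ : EE V → ℝ), Cut K R χ →
    ∀ φ : EE V → F, Tst φ →
      M.q0 G 1 (fun x => χ x • φ x) ≤ 2 * M.q0 G 1 φ + C * (K / R) ^ 2 * tail R φ := by
  refine ⟨∑ β : Fin 16, ‖(G.psi (Pi.single β 1) : EE V →L[ℝ] SS V)‖ ^ 2 + 1, by positivity,
    fun K R χ hχ φ hφ => ?_⟩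
  rw [← M.sum_Q G 1 (hφ.smul hχ.smooth), ← M.sum_Q G 1 hφ]
  have h1 := Finset.sum_le_sum fun (β : Fin 16) (_ : β ∈ Finset.univ) =>
    hχ.dirac M.C (G.psi (Pi.single β 1)) (hker_s M G (Pi.single β 1)) hφ
  simp only [Finset.sum_add_distrib, mul_pow, mul_assoc, ← Finset.mul_sum, ← Finset.sum_mul] at h1
  have h2 : 0 ≤ (K / R) ^ 2 * tail R φ := mul_nonneg (sq_nonneg _) (tail_nonneg _ _)
  have h3 : 0 ≤ ∑ β : Fin 16, ‖(G.psi (Pi.single β 1) : EE V →L[ℝ] SS V)‖ ^ 2 := by positivity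
  simp only [Mod.Q]
  nlinarith [mul_nonneg h3 h2]
/-- choose `R` with `tail R ψ` small, then `φ` with `R ^ 2 * q0 φ` small, and cut off at `R` -/
theorem Mod.Ker_cut (M : Mod V F) (G : Gam) {ψ : Lp F 2 (volume : Measure (EE V))}
    (h : ψ ∈ M.Ker G) {ε : ℝ} (hε : 0 < ε) : ∃ φ, ∃ R > 0, Tst φ ∧ M.Inv φ ∧
      (∀ x, R ≤ ‖x‖ → φ x = 0) ∧ n2 (fun x => φ x - ψ x) ≤ ε ∧ R ^ 2 * M.q0 G 1 φ ≤ ε := by
  obtain ⟨C, hC, hq⟩ := M.q0_cut G
  obtain ⟨K, hK, hcut⟩ := exists_cut (EE V)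
  set a := ε / (16 * C * K ^ 2 + 12) with ha
  have ha0 : 0 < a := by positivity
  have ha1 : (16 * C * K ^ 2 + 12) * a = ε := by rw [ha]; field_simp
  obtain ⟨R, hR, hT⟩ := tail_small (Lp.memLp ψ) ha0
  obtain ⟨χ, hχ⟩ := hcut R hR
  obtain ⟨φ, a1, a2, a3, a4⟩ := (M.mem_Ker G _).1 h (min a (a / R ^ 2)) (by positivity)
  have b1 := a3.trans (min_le_left _ _)
  have b2 := a4.trans (min_le_right _ _)
  rw [le_div_iff₀ (by positivity)] at b2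
  have b3 := tail_tri a1.memLp (Lp.memLp ψ) R
  have b4 := hT R le_rfl
  have hCK : 0 ≤ C * K ^ 2 := by positivity
  refine ⟨fun x => χ x • φ x, 2 * R, by positivity, a1.smul hχ.smooth, a2.rad hχ.rad,
    fun x hx => by simp [hχ.supp x hx], ?_, ?_⟩
  · have c1 := n2_tri (hχ.memLp a1.memLp).1 a1.memLp (Lp.memLp ψ)
    have c2 := hχ.sub a1.memLp
    nlinarith [mul_nonneg hCK ha0.le]
  · have c1 := mul_le_mul_of_nonneg_left (hq K R χ hχ φ a1) (sq_nonneg (2 * R))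
    have c2 : (2 * R) ^ 2 * (C * (K / R) ^ 2 * tail R φ) = 4 * (C * K ^ 2) * tail R φ := by
      field_simp; ring
    have c3 := mul_le_mul_of_nonneg_left (show tail R φ ≤ 4 * a by linarith) hCK
    nlinarith
/-- `⟪D w, ψ⟫ = ⟪D w, ψ - φ⟫ + ⟪w, D φ⟫` (`dirac_symm`, `cs_inner`, `D0_n2`) -/
theorem Mod.Ker_weak (M : Mod V F) (P : Par) {ψ : Lp F 2 (volume : Measure (EE V))}
    (h : ψ ∈ M.Ker P.toGam) {w : EE V → F} (hw : Tst w) : ∫ x, ⟪M.D P 1 0 w x, ψ x⟫_ℂ = 0 := by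
  have hD : ∀ {u : EE V → F}, Tst u → Tst (M.D P 1 0 u) := fun hu => (M.Tst_D P 1 0 hu).1
  refine norm_le_zero_iff.1 (le_of_forall_pos_le_add fun ε hε => ?_)
  set A := √(n2 (M.D P 1 0 w)) + √(n2 w) + 1 with hA
  have hA0 : 0 < A := by positivity
  obtain ⟨φ, a1, a2, a3, a4⟩ := (M.mem_Ker _ _).1 h ((ε / A) ^ 2) (by positivity)
  rw [← M.D0_n2 P a1 a2] at a4
  rw [n2_sub_comm] at a3
  have b3 := Real.sqrt_le_iff.2 ⟨(by positivity : 0 ≤ ε / A), a3⟩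
  have b4 := Real.sqrt_le_iff.2 ⟨(by positivity : 0 ≤ ε / A), a4⟩
  have m1 := (Lp.memLp ψ).sub a1.memLp
  have e : ∫ x, ⟪M.D P 1 0 w x, ψ x⟫_ℂ =
      (∫ x, ⟪M.D P 1 0 w x, (ψ - φ : EE V → F) x⟫_ℂ) + ∫ x, ⟪w x, M.D P 1 0 φ x⟫_ℂ := by
    have s1 : ∫ x, ⟪M.D P 1 0 w x, φ x⟫_ℂ = ∫ x, ⟪w x, M.D P 1 0 φ x⟫_ℂ :=
      dirac_symm _ _ (M.contDiff_s P 0).continuous (hw.1.of_le (by exact_mod_cast le_top)) a1
    rw [← s1, ← integral_add (int_inner (hD hw).memLp m1) (int_inner (hD hw).memLp a1.memLp)]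
    simp [inner_sub_right]
  have c1 := cs_inner (hD hw).memLp m1
  have c2 := cs_inner hw.memLp (hD a1).memLp
  have c3 := mul_le_mul_of_nonneg_left b3 (Real.sqrt_nonneg (n2 (M.D P 1 0 w)))
  have c4 := mul_le_mul_of_nonneg_left b4 (Real.sqrt_nonneg (n2 w))
  have c5 : A * (ε / A) = ε := by field_simp
  have c6 : 0 ≤ ε / A := by positivity
  rw [e, zero_add]
  refine (norm_add_le _ _).trans ?_
  change _ ≤ √(n2 (M.D P 1 0 w)) * √(n2 fun x => ψ x - φ x) at c1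
  nlinarith

end Vale.Agent.P353
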