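import Vale.Agent.P353.HDefs

open MeasureTheory NormedSpace Filter Topology
open Complex (I)
open scoped InnerProductSpace ContDiff

noncomputable section
namespace Vale.Agent.P353
variable {E G : Type} [NormedAddCommGroup E] [InnerProductSpace ℝ E] [FiniteDimensional ℝ E]
  [MeasurableSpace E] [BorelSpace E] [NormedAddCommGroup G]

/-! Elementary facts on `n2`, `tail`, and the link with `Lp`. -/

theorem n2_nonneg' (f : E → G) : 0 ≤ n2 f := by
  exact integral_nonneg fun x => sq_nonneg _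

theorem int_sq {f : E → G} (hf : MemLp f 2 volume) : Integrable fun x => ‖f x‖ ^ 2 := by
  exact (memLp_two_iff_integrable_sq_norm hf.1).1 hf

theorem n2_congr {f g : E → G} (h : f =ᵐ[volume] g) : n2 f = n2 g := by
  exact integral_congr_ae (h.mono fun x hx => by simp only [hx])

theorem n2_Lp (ψ : Lp G 2 (volume : Measure E)) : n2 (ψ : E → G) = ‖ψ‖ ^ 2 := by
  have h := (Lp.memLp ψ).eLpNorm_eq_integral_rpow_norm two_ne_zero ENNReal.ofNat_ne_top
  have h0 : 0 ≤ ∫ x, ‖ψ x‖ ^ 2 := n2_nonneg' _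
  have h2 : (2 : ENNReal).toReal = ((2 : ℕ) : ℝ) := by simp
  rw [Lp.norm_def, h, h2]
  simp only [Real.rpow_natCast]
  rw [ENNReal.toReal_ofReal (Real.rpow_nonneg h0 _)]
  exact (Real.rpow_inv_natCast_pow h0 two_ne_zero).symm

theorem n2_toLp {f : E → G} (hf : MemLp f 2 volume) : ‖hf.toLp f‖ ^ 2 = n2 f := by
  rw [← n2_Lp]
  exact n2_congr hf.coeFn_toLp

theorem n2_toLp_sub {f : E → G} (hf : MemLp f 2 volume) (ψ : Lp G 2 (volume : Measure E)) :
    ‖hf.toLp f - ψ‖ ^ 2 = n2 fun x => f x - ψ x := by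
  rw [← n2_Lp]
  refine n2_congr ?_
  filter_upwards [Lp.coeFn_sub (hf.toLp f) ψ, hf.coeFn_toLp] with x h1 h2
  rw [h1, Pi.sub_apply, h2]

theorem n2_eq_zero {f : E → G} (hf : MemLp f 2 volume) (h : n2 f = 0) : f =ᵐ[volume] 0 := by
  have h1 := (integral_eq_zero_iff_of_nonneg (fun x => sq_nonneg ‖f x‖) (int_sq hf)).1 h
  filter_upwards [h1] with x hx
  simpa using hx

theorem n2_le {G' : Type} [NormedAddCommGroup G'] {f : E → G'} {g : E → G} (hg : MemLp g 2 volume)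
    {a : ℝ} (h : ∀ᵐ x, ‖f x‖ ≤ a * ‖g x‖) : n2 f ≤ a ^ 2 * n2 g := by
  unfold n2
  rw [← integral_const_mul]
  refine integral_mono_of_nonneg (Eventually.of_forall fun x => sq_nonneg _)
    ((int_sq hg).const_mul _) ?_
  filter_upwards [h] with x hx
  rw [← mul_pow]
  exact pow_le_pow_left₀ (norm_nonneg _) hx 2

theorem n2_sub_comm (f g : E → G) : n2 (fun x => f x - g x) = n2 fun x => g x - f x := by
  unfold n2
  simp only [norm_sub_rev (f _)]

theorem sqrt_n2_add {f g : E → G} (hf : MemLp f 2 volume) (hg : MemLp g 2 volume) :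
    √(n2 fun x => f x + g x) ≤ √(n2 f) + √(n2 g) := by
  have h1 : n2 (fun x => f x + g x) = ‖hf.toLp f + hg.toLp g‖ ^ 2 := by
    rw [← MemLp.toLp_add, n2_toLp]
    rfl
  rw [h1, ← n2_toLp hf, ← n2_toLp hg, Real.sqrt_sq (norm_nonneg _), Real.sqrt_sq (norm_nonneg _),
    Real.sqrt_sq (norm_nonneg _)]
  exact norm_add_le _ _

theorem n2_add_two {f g : E → G} (hf : MemLp f 2 volume) (hg : MemLp g 2 volume) :
    n2 (fun x => f x + g x) ≤ 2 * n2 f + 2 * n2 g := by
  have h1 : n2 (fun x => f x + g x) = ‖hf.toLp f + hg.toLp g‖ ^ 2 := by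
    rw [← MemLp.toLp_add, n2_toLp]
    rfl
  rw [h1, ← n2_toLp hf, ← n2_toLp hg]
  have h2 := pow_le_pow_left₀ (norm_nonneg _) (norm_add_le (hf.toLp f) (hg.toLp g)) 2
  nlinarith [sq_nonneg (‖hf.toLp f‖ - ‖hg.toLp g‖)]

theorem n2_tri {f g h : E → G} (hf : MemLp f 2 volume) (hg : MemLp g 2 volume)
    (hh : MemLp h 2 volume) :
    n2 (fun x => f x - h x) ≤ 2 * n2 (fun x => f x - g x) + 2 * n2 fun x => g x - h x := by
  have h1 := n2_add_two (hf.sub hg) (hg.sub hh)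
  simp only [Pi.sub_apply, sub_add_sub_cancel] at h1
  exact h1

theorem iso_mp {g : E →L[ℝ] E} (hg : ∀ u v, ⟪g u, g v⟫_ℝ = ⟪u, v⟫_ℝ) :
    MeasurePreserving g volume volume ∧ MeasurableEmbedding g ∧ (∀ u, ‖g u‖ = ‖u‖) ∧
      Function.Surjective g := by
  let e : E ≃ₗᵢ[ℝ] E := (LinearMap.isometryOfInner g.toLinearMap hg).toLinearIsometryEquiv rfl
  have he : (g : E → E) = e := rfl
  refine ⟨?_, ?_, fun u => e.norm_map u, ?_⟩
  · rw [he]
    exact e.measurePreserving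
  · rw [he]
    exact e.toHomeomorph.measurableEmbedding
  · rw [he]
    exact e.surjective

theorem n2_iso {g : E →L[ℝ] E} (hg : ∀ u v, ⟪g u, g v⟫_ℝ = ⟪u, v⟫_ℝ) (f : E → G) :
    n2 (fun x => f (g x)) = n2 f := by
  exact (iso_mp hg).1.integral_comp (iso_mp hg).2.1 fun x => ‖f x‖ ^ 2

omit [InnerProductSpace ℝ E] [FiniteDimensional ℝ E] in
theorem tail_ms (R : ℝ) : MeasurableSet {x : E | R ≤ ‖x‖} :=
  (isClosed_le continuous_const continuous_norm).measurableSet

theorem tail_nonneg (R : ℝ) (f : E → G) : 0 ≤ tail R f := by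
  exact integral_nonneg fun x => sq_nonneg _

theorem tail_le {f : E → G} (hf : MemLp f 2 volume) (R : ℝ) : tail R f ≤ n2 f := by
  exact setIntegral_le_integral (int_sq hf) (Eventually.of_forall fun x => sq_nonneg _)

theorem tail_anti {f : E → G} (hf : MemLp f 2 volume) {R R' : ℝ} (h : R ≤ R') :
    tail R' f ≤ tail R f := by
  refine setIntegral_mono_set (int_sq hf).integrableOn (Eventually.of_forall fun x => sq_nonneg _)
    (LE.le.eventuallyLE fun x hx => ?_)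
  exact h.trans hx

theorem tail_small {f : E → G} (hf : MemLp f 2 volume) {ε : ℝ} (hε : 0 < ε) :
    ∃ R0 > 0, ∀ R ≥ R0, tail R f ≤ ε := by
  have h1 := tendsto_setIntegral_of_antitone (μ := (volume : Measure E))
    (f := fun x => ‖f x‖ ^ 2) (s := fun R : ℝ => {x : E | R ≤ ‖x‖})
    (fun R => tail_ms R) (fun R R' h x hx => h.trans hx) ⟨0, (int_sq hf).integrableOn⟩
  have h2 : (⋂ R : ℝ, {x : E | R ≤ ‖x‖}) = ∅ := by
    refine Set.eq_empty_of_forall_notMem fun x hx => ?_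
    have h3 : ‖x‖ + 1 ≤ ‖x‖ := Set.mem_iInter.1 hx (‖x‖ + 1)
    linarith
  rw [h2, setIntegral_empty] at h1
  obtain ⟨R0, hR⟩ := eventually_atTop.1 (h1.eventually (ge_mem_nhds hε))
  exact ⟨max R0 1, lt_max_of_lt_right one_pos, fun R h => hR R ((le_max_left _ _).trans h)⟩

theorem tail_tri {f g : E → G} (hf : MemLp f 2 volume) (hg : MemLp g 2 volume) (R : ℝ) :
    tail R f ≤ 2 * tail R g + 2 * n2 fun x => f x - g x := by
  have h1 : tail R f ≤ 2 * tail R g + 2 * tail R fun x => f x - g x := by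
    unfold tail
    have i1 : IntegrableOn (fun x => 2 * ‖g x‖ ^ 2) {x : E | R ≤ ‖x‖} :=
      ((int_sq hg).const_mul 2).integrableOn
    have i2 : IntegrableOn (fun x => 2 * ‖f x - g x‖ ^ 2) {x : E | R ≤ ‖x‖} :=
      ((int_sq (hf.sub hg)).const_mul 2).integrableOn
    rw [← integral_const_mul, ← integral_const_mul, ← integral_add i1 i2]
    refine integral_mono_of_nonneg (Eventually.of_forall fun x => sq_nonneg _) (i1.add i2)
      (Eventually.of_forall fun x => ?_)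
    have h2 : ‖f x‖ ≤ ‖g x‖ + ‖f x - g x‖ := by
      simpa using norm_add_le (g x) (f x - g x)
    have h3 := pow_le_pow_left₀ (norm_nonneg _) h2 2
    show ‖f x‖ ^ 2 ≤ 2 * ‖g x‖ ^ 2 + 2 * ‖f x - g x‖ ^ 2
    nlinarith [sq_nonneg (‖g x‖ - ‖f x - g x‖)]
  have h4 : tail R (fun x => f x - g x) ≤ n2 fun x => f x - g x := tail_le (hf.sub hg) R
  linarith

/-- a function dominated by `f` and vanishing in the ball -/
theorem n2_le_tail {G' : Type} [NormedAddCommGroup G'] {h : E → G'} {f : E → G}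
    (hf : MemLp f 2 volume) {a R : ℝ} (h1 : ∀ x, ‖h x‖ ≤ a * ‖f x‖) (h0 : ∀ x, ‖x‖ < R → h x = 0) :
    n2 h ≤ a ^ 2 * tail R f := by
  unfold n2 tail
  rw [← integral_const_mul, ← integral_indicator (tail_ms R)]
  refine integral_mono_of_nonneg (Eventually.of_forall fun x => sq_nonneg _)
    (((int_sq hf).const_mul _).indicator (tail_ms R)) (Eventually.of_forall fun x => ?_)
  by_cases hx : R ≤ ‖x‖
  · rw [Set.indicator_of_mem (show x ∈ {x : E | R ≤ ‖x‖} from hx), ← mul_pow]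
    exact pow_le_pow_left₀ (norm_nonneg _) (h1 x) 2
  · rw [Set.indicator_of_notMem (show x ∉ {x : E | R ≤ ‖x‖} from hx)]
    simp [h0 x (not_le.1 hx)]

/-- a weight that is at least `m` outside the ball and nonnegative -/
theorem tail_le_wt {f : E → G} (hf : MemLp f 2 volume) {w : E → ℝ}
    (hw : Integrable fun x => w x * ‖f x‖ ^ 2) {m R : ℝ} (h0 : ∀ x, 0 ≤ w x)
    (h1 : ∀ x, R ≤ ‖x‖ → m ≤ w x) : m * tail R f ≤ wt w f := by
  unfold tail wt
  rw [← integral_const_mul]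
  refine le_trans ?_ (setIntegral_le_integral (s := {x : E | R ≤ ‖x‖}) hw
    (Eventually.of_forall fun x => mul_nonneg (h0 x) (sq_nonneg _)))
  refine setIntegral_mono_on ((int_sq hf).const_mul m).integrableOn hw.integrableOn (tail_ms R)
    fun x hx => ?_
  exact mul_le_mul_of_nonneg_right (h1 x hx) (sq_nonneg _)


variable {F : Type} [NormedAddCommGroup F] [InnerProductSpace ℂ F]

theorem int_inner {f g : E → F} (hf : MemLp f 2 volume) (hg : MemLp g 2 volume) :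
    Integrable fun x => ⟪f x, g x⟫_ℂ := by
  refine (L2.integrable_inner (𝕜 := ℂ) (hf.toLp f) (hg.toLp g)).congr ?_
  filter_upwards [hf.coeFn_toLp, hg.coeFn_toLp] with x h1 h2
  rw [h1, h2]

theorem inner_toLp {f : E → F} (hf : MemLp f 2 volume) (ψ : Lp F 2 (volume : Measure E)) :
    ⟪hf.toLp f, ψ⟫_ℂ = ∫ x, ⟪f x, ψ x⟫_ℂ := by
  rw [L2.inner_def]
  refine integral_congr_ae ?_
  filter_upwards [hf.coeFn_toLp] with x h1
  rw [h1]

theorem inner_toLp' {f g : E → F} (hf : MemLp f 2 volume) (hg : MemLp g 2 volume) :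
    ⟪hf.toLp f, hg.toLp g⟫_ℂ = ∫ x, ⟪f x, g x⟫_ℂ := by
  rw [L2.inner_def]
  refine integral_congr_ae ?_
  filter_upwards [hf.coeFn_toLp, hg.coeFn_toLp] with x h1 h2
  rw [h1, h2]

theorem cs_inner {f g : E → F} (hf : MemLp f 2 volume) (hg : MemLp g 2 volume) :
    ‖∫ x, ⟪f x, g x⟫_ℂ‖ ≤ √(n2 f) * √(n2 g) := by
  rw [← inner_toLp' hf hg, ← n2_toLp hf, ← n2_toLp hg, Real.sqrt_sq (norm_nonneg _),
    Real.sqrt_sq (norm_nonneg _)]
  exact norm_inner_le_norm _ _

theorem int_inner_self (f : E → F) : ∫ x, ⟪f x, f x⟫_ℂ = (n2 f : ℂ) := by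
  unfold n2
  rw [← integral_complex_ofReal]
  refine integral_congr_ae (Eventually.of_forall fun x => ?_)
  simp [inner_self_eq_norm_sq_to_K]

theorem n2_sub {f g : E → F} (hf : MemLp f 2 volume) (hg : MemLp g 2 volume) :
    n2 (fun x => f x - g x) = n2 f + n2 g - 2 * (∫ x, ⟪g x, f x⟫_ℂ).re := by
  have h1 : n2 (fun x => f x - g x) = ‖hf.toLp f - hg.toLp g‖ ^ 2 := by
    rw [← MemLp.toLp_sub, n2_toLp]
    rfl
  rw [h1, ← n2_toLp hf, ← n2_toLp hg, ← inner_toLp' hg hf, norm_sub_rev, @norm_sub_sq ℂ]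
  simp only [RCLike.re_to_complex]
  ring

theorem n2_csmul (c : ℂ) (f : E → F) : n2 (c • f) = ‖c‖ ^ 2 * n2 f := by
  unfold n2
  rw [← integral_const_mul]
  simp only [Pi.smul_apply, norm_smul, mul_pow]


end Vale.Agent.P353
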