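import Vale.Agent.P353.HDom

open MeasureTheory NormedSpace Filter Topology
open Complex (I)
open scoped InnerProductSpace ContDiff

noncomputable section
namespace Vale.Agent.P353
variable {V F : Type} [NormedAddCommGroup V] [InnerProductSpace ℝ V] [FiniteDimensional ℝ V]
  [MeasurableSpace V] [BorelSpace V]
  [NormedAddCommGroup F] [InnerProductSpace ℂ F] [CompleteSpace F]

namespace HPar
omit [FiniteDimensional ℝ V] [MeasurableSpace V] [BorelSpace V]

theorem mul {n : ℕ} (M N : Matrix (Fin n) (Fin n) ℝ) :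
    (mat (M * N) : PiLp 2 (fun _ : Fin n => V) →L[ℝ] _) = mat M * mat N := by
  ext x i
  simp only [mul_apply_eq_comp, mat_apply, Matrix.mul_apply, Finset.sum_smul,
    Finset.smul_sum, smul_smul]
  exact Finset.sum_comm

theorem smul {n : ℕ} (c : ℝ) (M : Matrix (Fin n) (Fin n) ℝ) :
    (mat (c • M) : PiLp 2 (fun _ : Fin n => V) →L[ℝ] _) = c • mat M := by
  ext x i
  simp [Finset.smul_sum, smul_smul]

theorem one {n : ℕ} :
    (mat (1 : Matrix (Fin n) (Fin n) ℝ) : PiLp 2 (fun _ : Fin n => V) →L[ℝ] _) = 1 := by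
  ext x i
  simp [Matrix.one_apply, ite_smul]

end HPar

/-- the derivative of `expL (-t • T) * (1 + sin t • T + (1 - cos t) • T * T)` vanishes -/
theorem expL_cube {S : Type} [NormedAddCommGroup S] [InnerProductSpace ℝ S] [FiniteDimensional ℝ S]
    {T : S →L[ℝ] S} (h : T * T * T = -T) (t : ℝ) :
    expL (t • T) = 1 + Real.sin t • T + (1 - Real.cos t) • (T * T) := by
  have h1 : ∀ s : ℝ, HasDerivAt (fun s : ℝ => expL (s • (-T)) *
      (1 + Real.sin s • T + (1 - Real.cos s) • (T * T))) 0 s := by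
    intro s
    have h2 := (((Real.hasDerivAt_sin s).smul_const T).const_add 1).fun_add
      (((Real.hasDerivAt_cos s).const_sub 1).smul_const (T * T))
    have h3 := (hasDerivAt_expL (-T) s).fun_mul h2
    refine h3.congr_deriv ?_
    rw [mul_assoc, ← mul_add, mul_add (-T), mul_add (-T), mul_smul_comm, mul_smul_comm, neg_mul,
      neg_mul, neg_mul, ← mul_assoc, h, mul_one]
    have h4 : -T + Real.sin s • -(T * T) + (1 - Real.cos s) • - -T +
        (Real.cos s • T + - -Real.sin s • (T * T)) = 0 := by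
      module
    rw [h4, mul_zero]
  have h5 := is_const_of_deriv_eq_zero (fun s => (h1 s).differentiableAt)
    (fun s => (h1 s).deriv) t 0
  have h6 : expL (0 : S →L[ℝ] S) = 1 := by
    unfold expL
    exact exp_zero
  simp only [zero_smul, h6, Real.sin_zero, Real.cos_zero, sub_self, add_zero, mul_one] at h5
  have h7 := congrArg (expL (t • T) * ·) h5
  simp only [← mul_assoc, smul_neg, (expL_mul_neg _).1, one_mul, mul_one] at h7
  exact h7.symm

theorem HPar.full {S : Type} [NormedAddCommGroup S] [InnerProductSpace ℝ S] [FiniteDimensional ℝ S]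
    {T : S →L[ℝ] S} (h : T * T * T = (-1 : ℝ) • T) : expL ((2 * Real.pi) • T) = 1 := by
  rw [expL_cube (h.trans (neg_one_smul ℝ T))]
  simp

theorem HPar.half {S : Type} [NormedAddCommGroup S] [InnerProductSpace ℝ S] [FiniteDimensional ℝ S]
    {T : S →L[ℝ] S} (h : T * T = (-1 : ℝ) • (1 : S →L[ℝ] S)) :
    expL ((2 * Real.pi) • (-1 / 2 : ℝ) • T) = -1 := by
  have h3 : T * T * T = -T := by rw [h, neg_one_smul, neg_one_mul]
  have h4 : 2 * Real.pi * (-1 / 2) = -Real.pi := by ring
  rw [smul_smul, h4, expL_cube h3, h]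
  simp only [Real.sin_neg, Real.sin_pi, Real.cos_neg, Real.cos_pi]
  module

theorem expL_plane : expL ((2 * Real.pi) • (mat (plane 0) : EE V →L[ℝ] EE V)) = 1 := by
  have h1 : plane 0 * plane 0 * plane 0 = (-1 : ℝ) • plane 0 := by
    ext i j
    simp only [plane, p1, p2, Matrix.mul_sub, Matrix.sub_mul, Matrix.single_mul_single_same]
    fin_cases i <;> fin_cases j <;> simp [Matrix.single_mul_single_of_ne]
  exact HPar.full (by rw [← HPar.mul, ← HPar.mul, h1, HPar.smul])

/-- `G.hat (plane 0) = (-1 / 2) • (G.g 0 * G.g 1)` and `(G.g 0 * G.g 1) ^ 2 = -1` -/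
theorem Gam.expL_hat_plane (G : Gam) :
    expL ((2 * Real.pi) • (mat (G.hat (plane 0)) : SS V →L[ℝ] SS V)) = -1 := by
  have h0 : p1 0 ≠ p2 0 := by decide
  have h1 : G.g (p1 0) * G.g (p2 0) * (G.g (p1 0) * G.g (p2 0)) = (-1 : ℝ) • (1 : M16) := by
    rw [mul_assoc, ← mul_assoc (G.g (p2 0)), G.anti h0.symm, neg_mul, mul_assoc, G.sq, mul_one,
      mul_neg, G.sq, neg_one_smul]
  rw [G.hat_plane, HPar.smul]
  exact HPar.half (by rw [← HPar.mul, h1, HPar.smul, HPar.one])

/-- the rotation by `2 π` anticommutes with all `θ u` (`Cl.exp_spin_th`, `Cl.spin_smul`), so its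
product with `Γ` is a scalar (`Cl.Irr.scalar`) -/
theorem Mod.exp_parity [FiniteDimensional ℂ F] (M : Mod V F) (G : Gam) (hirr : M.C.Irr)
    {Γ : F →L[ℂ] F} (h2 : Γ * Γ = 1) (hΓ : ∀ u, Γ * M.C.th u = -(M.C.th u * Γ)) :
    ∃ c : ℂ, exp ((2 * Real.pi) • M.C.spin (mat (G.hat (plane 0)))) = c • Γ := by
  have h1 : Skew ((2 * Real.pi) • (mat (G.hat (plane 0)) : SS V →L[ℝ] SS V)) := fun u v => by
    rw [smul_apply, smul_apply, real_inner_smul_left,
      real_inner_smul_right, skew_mat (G.hat_transpose _) u v, mul_neg]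
  rw [← M.C.spin_smul]
  generalize hU : exp (M.C.spin ((2 * Real.pi) • mat (G.hat (plane 0)))) = U
  have h3 : ∀ u, U * M.C.th u = -(M.C.th u * U) := fun u => by
    rw [← hU, M.C.exp_spin_th h1, G.expL_hat_plane, ← neg_mul, ← map_neg]
    rfl
  obtain ⟨c, hc⟩ := hirr.scalar (A := U * Γ) fun u => by
    rw [mul_assoc, hΓ, mul_neg, ← mul_assoc, h3, neg_mul, neg_neg, mul_assoc]
  exact ⟨c, by rw [← mul_one U, ← h2, ← mul_assoc, hc, smul_mul_assoc, one_mul]⟩
theorem even_finrank_SS (V : Type) [NormedAddCommGroup V] [InnerProductSpace ℝ V]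
    [FiniteDimensional ℝ V] : Even (Module.finrank ℝ (SS V)) := by
  rw [(WithLp.linearEquiv 2 ℝ (Fin 16 → V)).finrank_eq, Module.finrank_pi_fintype]
  simp only [Finset.sum_const, Finset.card_univ, Fintype.card_fin, smul_eq_mul]
  exact Even.mul_right (by decide) _

end Vale.Agent.P353
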