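import Vale.Agent.P353.HAbs4
import Vale.Agent.P353.HKer
import Vale.Agent.P353.HRel

open MeasureTheory NormedSpace Filter Topology
open Complex (I)
open scoped InnerProductSpace ContDiff

noncomputable section
namespace Vale.Agent.P353
variable {V F : Type} [NormedAddCommGroup V] [InnerProductSpace ℝ V] [FiniteDimensional ℝ V]
  [MeasurableSpace V] [BorelSpace V]
  [NormedAddCommGroup F] [InnerProductSpace ℂ F] [CompleteSpace F]

/-- the domain as a subspace -/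
def Mod.DomS (M : Mod V F) (P : Par) : Submodule ℂ (EE V → F) where
  carrier := {φ | M.Dom P φ}
  add_mem' h h' := Mod.Dom.add h h'
  zero_mem' := Mod.Dom.zero M P
  smul_mem' c _ h := Mod.Dom.csmul h c

/-- the kernel as a subspace -/
def Mod.KerS (M : Mod V F) (G : Gam) : Submodule ℂ (Lp F 2 (volume : Measure (EE V))) where
  carrier := M.Ker G
  add_mem' h h' := M.Ker_add G h h'
  zero_mem' := M.Ker_zero G
  smul_mem' c _ h := M.Ker_smul G h c

lemma Mod.dom {M : Mod V F} {P : Par} (u : M.DomS P) : M.Dom P u.1 := u.2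

/-- the map to the Hilbert space -/
def Mod.jj (M : Mod V F) (P : Par) : M.DomS P →ₗ[ℂ] Lp F 2 (volume : Measure (EE V)) where
  toFun u := (Mod.dom u).1.memLp.toLp u.1
  map_add' u v := MemLp.toLp_add (Mod.dom u).1.memLp (Mod.dom v).1.memLp
  map_smul' c u := MemLp.toLp_const_smul c (Mod.dom u).1.memLp

lemma Mod.jj_apply (M : Mod V F) (P : Par) (u : M.DomS P) :
    M.jj P u = (Mod.dom u).1.memLp.toLp u.1 := rfl
lemma Mod.jj_norm (M : Mod V F) (P : Par) (u : M.DomS P) : ‖M.jj P u‖ ^ 2 = n2 u.1 :=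
  n2_toLp (Mod.dom u).1.memLp
lemma Mod.jj_inner (M : Mod V F) (P : Par) (u v : M.DomS P) :
    ⟪M.jj P u, M.jj P v⟫_ℂ = ∫ x, ⟪u.1 x, v.1 x⟫_ℂ := inner_toLp' (Mod.dom u).1.memLp (Mod.dom v).1.memLp
lemma Mod.jj_ae (M : Mod V F) (P : Par) (u : M.DomS P) : M.jj P u =ᵐ[volume] u.1 :=
  MemLp.coeFn_toLp (Mod.dom u).1.memLp

lemma Tst.diff {φ : EE V → F} (h : Tst φ) : Differentiable ℝ φ :=
  h.1.differentiable (by simp)

/-- the undeformed operator -/
def Mod.DD (M : Mod V F) (P : Par) : M.DomS P →ₗ[ℂ] M.DomS P where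
  toFun u := ⟨M.D P 1 0 u.1, (Mod.dom u).D 0⟩
  map_add' u v := Subtype.ext (dirac_add _ _ _ (Mod.dom u).1.diff (Mod.dom v).1.diff)
  map_smul' c u := Subtype.ext (dirac_csmul _ _ _ (Mod.dom u).1.diff c)

/-- the deformation -/
def Mod.BB (M : Mod V F) (P : Par) : M.DomS P →ₗ[ℂ] M.DomS P where
  toFun u := ⟨fun x => M.C.th (P.s1 x) (u.1 x), (Mod.dom u).B⟩
  map_add' u v := Subtype.ext (funext fun x => by simp)
  map_smul' c u := Subtype.ext (funext fun x => by simp)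

/-- the grading -/
def Mod.GG (M : Mod V F) (P : Par) (Γ : F →L[ℂ] F) (hΓ : ∀ u, Γ * M.C.th u = -(M.C.th u * Γ)) :
    M.DomS P →ₗ[ℂ] M.DomS P where
  toFun u := ⟨fun x => Γ (u.1 x), (Mod.dom u).par hΓ⟩
  map_add' u v := Subtype.ext (funext fun x => by simp)
  map_smul' c u := Subtype.ext (funext fun x => by simp)

/-- the abstract system of the model -/
def Mod.sys (M : Mod V F) (P : Par) (Γ : F →L[ℂ] F) (h1 : IsSelfAdjoint Γ) (h2 : Γ * Γ = 1)
    (hΓ : ∀ u, Γ * M.C.th u = -(M.C.th u * Γ)) :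
    Sys (M.DomS P) (Lp F 2 (volume : Measure (EE V))) where
  j := M.jj P
  D0 := M.DD P
  B := M.BB P
  G := M.GG P Γ hΓ
  GH := Γ.compLpL 2 volume
  sym0 u v := by
    rw [M.jj_inner, M.jj_inner]
    exact dirac_symm _ _ (M.contDiff_s P 0).continuous
      ((Mod.dom u).1.1.of_le (by exact_mod_cast le_top)) (Mod.dom v).1
  symB u v := by
    rw [M.jj_inner, M.jj_inner]
    refine integral_congr_ae (Eventually.of_forall fun x => ?_)
    exact (M.C.sa (P.s1 x)).isSymmetric (u.1 x) (v.1 x)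
  symG f g := by
    rw [L2.inner_def, L2.inner_def]
    refine integral_congr_ae ?_
    filter_upwards [Γ.coeFn_compLpL f, Γ.coeFn_compLpL g] with x hf hg
    rw [hf, hg]
    exact h1.isSymmetric (f x) (g x)
  GG u := Subtype.ext (funext fun x => by
    have := congrArg (fun A : F →L[ℂ] F => A (u.1 x)) h2
    change Γ (Γ (u.1 x)) = u.1 x
    simpa using this)
  GHGH f := by
    refine Lp.ext ?_
    filter_upwards [Γ.coeFn_compLpL (Γ.compLpL 2 volume f), Γ.coeFn_compLpL f] with x ha hb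
    rw [ha, hb]
    have := congrArg (fun A : F →L[ℂ] F => A (f x)) h2
    simpa using this
  jG u := by
    refine Lp.ext ?_
    filter_upwards [M.jj_ae P (M.GG P Γ hΓ u), Γ.coeFn_compLpL (M.jj P u), M.jj_ae P u]
      with x ha hb hc
    rw [ha, hb, hc]
    rfl
  anti0 u := Subtype.ext (funext fun x => M.D_par P 0 (Mod.dom u).1 hΓ x)
  antiB u := Subtype.ext (funext fun x => by
    have := congrArg (fun A : F →L[ℂ] F => A (u.1 x)) (hΓ (P.s1 x))
    simp only [mul_apply_eq_comp, neg_apply] at this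
    change M.C.th (P.s1 x) (Γ (u.1 x)) = -Γ (M.C.th (P.s1 x) (u.1 x))
    rw [this, neg_neg])

variable (M : Mod V F) (P : Par) (Γ : F →L[ℂ] F) (h1 : IsSelfAdjoint Γ) (h2 : Γ * Γ = 1)
  (hΓ : ∀ u, Γ * M.C.th u = -(M.C.th u * Γ))

lemma Mod.sys_j : (M.sys P Γ h1 h2 hΓ).j = M.jj P := rfl

lemma Mod.sys_D (mu : ℝ) (u : M.DomS P) : ((M.sys P Γ h1 h2 hΓ).D mu u).1 = M.D P 1 mu u.1 :=
  funext fun x => (M.D_mu P mu u.1 x).symm

lemma Mod.sys_norm (mu : ℝ) (u : M.DomS P) :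
    ‖M.jj P ((M.sys P Γ h1 h2 hΓ).D mu u)‖ ^ 2 = n2 (M.D P 1 mu u.1) := by
  rw [M.jj_norm, M.sys_D]

lemma Mod.jj_sub (u : M.DomS P) (f : Lp F 2 (volume : Measure (EE V))) :
    ‖M.jj P u - f‖ ^ 2 = n2 fun x => u.1 x - f x := n2_toLp_sub (Mod.dom u).1.memLp f

theorem Mod.sys_good [FiniteDimensional ℂ F] {mu : ℝ} (hmu : 0 < mu) :
    (M.sys P Γ h1 h2 hΓ).Good mu := by
  obtain ⟨C, hC, hco⟩ := M.coer P hmu
  refine ⟨⟨6 * √C, fun u => ?_⟩, fun u A hA hD => ?_, fun f hf hw ε hε => ?_⟩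
  · rw [M.sys_j]
    have a1 := hco u.1 (Mod.dom u)
    have a2 := M.B_le P (Mod.dom u).1
    have a3 := kin_nonneg u.1
    rw [← M.sys_norm P Γ h1 h2 hΓ, ← M.jj_norm] at a1
    have a4 : ‖M.jj P ((M.sys P Γ h1 h2 hΓ).B u)‖ ^ 2 = _ := M.jj_norm P (M.BB P u)
    set a := ‖M.jj P ((M.sys P Γ h1 h2 hΓ).D mu u)‖
    set b := ‖M.jj P u‖
    have ha : 0 ≤ a := norm_nonneg _
    have hb : 0 ≤ b := norm_nonneg _
    refine abs_le_of_sq_le_sq' ?_ (by positivity) |>.2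
    have a5 : n2 ((M.BB P u).1) ≤ 36 * wt (fun x => ‖x‖ ^ 2) u.1 := a2
    rw [a4, mul_pow, mul_pow, Real.sq_sqrt hC.le]
    have : C * (a ^ 2 + b ^ 2) ≤ C * (a + b) ^ 2 :=
      mul_le_mul_of_nonneg_left (by nlinarith [mul_nonneg ha hb]) hC.le
    nlinarith
  · rw [M.sys_j] at hA hD ⊢
    have b1 : ∀ n, n2 (u n).1 ≤ A ^ 2 := fun n => by
      rw [← M.jj_norm]; exact pow_le_pow_left₀ (norm_nonneg _) (hA n) 2
    have b2 : ∀ n, n2 (M.D P 1 mu (u n).1) ≤ A ^ 2 := fun n => by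
      rw [← M.sys_norm P Γ h1 h2 hΓ]; exact pow_le_pow_left₀ (norm_nonneg _) (hD n) 2
    have b3 : ∀ n, kin (u n).1 + wt (fun x => ‖x‖ ^ 2) (u n).1 ≤ C * (A ^ 2 + A ^ 2) := fun n =>
      (hco _ (Mod.dom (u n))).trans (mul_le_mul_of_nonneg_left (add_le_add (b2 n) (b1 n)) hC.le)
    have b4 : 0 ≤ C * (A ^ 2 + A ^ 2) := by positivity
    exact rellich (fun n => (u n).1) (fun n => (Mod.dom (u n)).1) (A ^ 2 + C * (A ^ 2 + A ^ 2))
      (fun n => by linarith [b1 n])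
      (fun n => by linarith [b3 n, wt_sq_nonneg (u n).1, sq_nonneg A])
      (fun n => by linarith [b3 n, kin_nonneg (u n).1, sq_nonneg A])
  · rw [M.sys_j] at hf hw ⊢
    have app : ∀ ε > 0, ∃ φ, M.Dom P φ ∧ n2 (fun x => φ x - f x) ≤ ε := fun ε hε => by
      obtain ⟨_, ⟨u, rfl⟩, hu⟩ := Metric.mem_closure_iff.1 hf (√ε) (Real.sqrt_pos.2 hε)
      refine ⟨u.1, Mod.dom u, ?_⟩
      rw [← M.jj_sub, ← Real.sq_sqrt hε.le]
      rw [dist_comm, dist_eq_norm] at hu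
      exact pow_le_pow_left₀ (norm_nonneg _) hu.le 2
    obtain ⟨u, hu, e1, e2⟩ := M.esa P mu (Lp.memLp f)
      (Mod.ainv_lim (Lp.memLp f) fun ε hε => by
        obtain ⟨φ, hφ, h⟩ := app ε hε
        exact ⟨φ, hφ.1, hφ.2.1, h⟩)
      (Mod.arinv_lim (Lp.memLp f) app)
      (fun ε hε => by
        obtain ⟨φ, hφ, h⟩ := app ε hε
        exact ⟨φ, hφ.1, h⟩)
      (fun w hw' => by
        have := hw ⟨w, hw'⟩
        rw [M.jj_apply, inner_toLp] at this
        simpa only [M.sys_D] using this) (pow_pos hε 2)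
    refine ⟨⟨u, hu⟩, ?_, ?_⟩
    · refine (abs_le_of_sq_le_sq' ?_ hε.le).2
      rw [M.jj_sub]; exact e1
    · refine (abs_le_of_sq_le_sq' ?_ hε.le).2
      rw [M.sys_norm]; exact e2

end Vale.Agent.P353
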