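import Vale.Agent.P353.HTight1
import Vale.Agent.P353.HKer
import Vale.Agent.P353.HRel
import Vale.Agent.P353.AId2

open MeasureTheory NormedSpace Filter Topology
open Complex (I)
open scoped InnerProductSpace ContDiff

noncomputable section
namespace Vale.Agent.P353
variable {V F : Type} [NormedAddCommGroup V] [InnerProductSpace ℝ V] [FiniteDimensional ℝ V]
  [MeasurableSpace V] [BorelSpace V]
  [NormedAddCommGroup F] [InnerProductSpace ℂ F] [CompleteSpace F]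

/-- Cut off at `R = ρ / 2`, `ρ ^ 4 * mu = 1`.  `moment` bounds the second moment, `Cut.dirac` and
`D_sq'` give `q φ' ≤ 2 q φ + 2 (‖ψ‖ K / R) ^ 2`, `q0_le` gives `q0 φ' ≤ ε`, `kin_le` bounds `kin φ'`,
and `Cut.sub`, `tail_anti`, `tail_unif` give `n2 (φ' - φ) ≤ ε`. -/
theorem Mod.cut_low (M : Mod V F) (P : Par) (hO : M.PO P) : ∃ A : ℝ, ∀ ε > 0, ∃ δ > 0,
    ∀ mu : ℝ, 0 < mu → mu ≤ δ → ∀ φ : EE V → F, M.Dom P φ → n2 φ = 1 →
      n2 (M.D P 1 mu φ) ≤ δ * mu → ∃ φ' : EE V → F, Tst φ' ∧ M.Inv φ' ∧ n2 φ' ≤ A ∧ kin φ' ≤ A ∧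
        wt (fun x => ‖x‖ ^ 2) φ' ≤ A ∧ n2 (fun x => φ' x - φ x) ≤ ε ∧ M.q0 P.toGam 1 φ' ≤ ε := by
  obtain ⟨C, hC, δ1, hδ1, hm⟩ := M.moment P hO
  obtain ⟨K, hK, hcut⟩ := exists_cut (EE V)
  obtain ⟨Kq, hKq, hq⟩ := M.q0_le P
  obtain ⟨Ck, hCk, hk⟩ := M.kin_le P.toGam
  obtain ⟨b, hb⟩ : ∃ b, b = ‖P.psi (V := V) P.e‖ * K := ⟨_, rfl⟩
  refine ⟨1 + C + Ck * (1 + C), fun ε hε => ?_⟩
  obtain ⟨e, he0, he1, he2⟩ : ∃ e, 0 < e ∧ e ≤ 1 ∧ e ≤ ε :=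
    ⟨min 1 ε, lt_min one_pos hε, min_le_left _ _, min_le_right _ _⟩
  obtain ⟨L, hL, δ2, hδ2, ht⟩ := M.tail_unif P hO he0
  obtain ⟨B, hB⟩ : ∃ B, B = 4 + 16 * b ^ 2 + Kq * (1 + C) := ⟨_, rfl⟩
  have hB0 : 0 < B := by rw [hB]; positivity
  obtain ⟨t0, h0, h1, h2, h3⟩ : ∃ t0 : ℝ, 0 < t0 ∧ t0 ≤ 1 ∧ t0 ≤ 1 / (2 * L) ∧ t0 ≤ e / B :=
    ⟨min 1 (min (1 / (2 * L)) (e / B)), by positivity, min_le_left _ _,
      (min_le_right _ _).trans (min_le_left _ _), (min_le_right _ _).trans (min_le_right _ _)⟩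
  obtain ⟨δ, d0, d1, d2, d3⟩ : ∃ δ : ℝ, 0 < δ ∧ δ ≤ δ1 ∧ δ ≤ δ2 ∧ δ ≤ t0 ^ 4 :=
    ⟨min δ1 (min δ2 (t0 ^ 4)), by positivity, min_le_left _ _,
      (min_le_right _ _).trans (min_le_left _ _), (min_le_right _ _).trans (min_le_right _ _)⟩
  have d4 : δ ≤ 1 := d3.trans (pow_le_one₀ h0.le h1)
  refine ⟨δ, d0, fun mu hmu hmu' φ hφ hn hD => ?_⟩
  obtain ⟨t, t1, rfl⟩ : ∃ t : ℝ, 0 < t ∧ t ^ 4 = mu :=
    ⟨mu ^ ((4 : ℕ) : ℝ)⁻¹, by positivity, Real.rpow_inv_natCast_pow hmu.le (by norm_num)⟩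
  have t2 : t ≤ t0 := le_of_pow_le_pow_left₀ (by norm_num) h0.le (hmu'.trans d3)
  have t3 : t ≤ 1 := t2.trans h1
  obtain ⟨χ, hχ⟩ := hcut (t⁻¹ / 2) (by positivity)
  have hd := hφ.rad hχ.smooth hχ.rad
  have hqφ := M.D_sq' P 1 (t ^ 4) hφ.1 hφ.2.1 hφ.2.2
  have e1 := hm _ hmu (hmu'.trans d1) φ hφ hn (by
      rw [← hqφ]
      exact hD.trans (mul_le_of_le_one_left hmu.le d4)) t⁻¹ (by positivity) (by field_simp) χ
    hχ.smooth.continuous (fun x => abs_le.2 ⟨by linarith [hχ.nonneg x], hχ.le_one x⟩)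
    fun x hx => hχ.supp x (by linarith)
  have e2 := (hχ.memLp hφ.1.memLp).2
  have e3 := hχ.dirac M.C (P.psi P.e) (M.contDiff_s P (t ^ 4)) hφ.1
  have e4 := tail_le hφ.1.memLp (t⁻¹ / 2)
  have e5 : ‖P.psi (V := V) P.e‖ * (K / (t⁻¹ / 2)) = 2 * b * t := by
    rw [hb]
    field_simp
  have e6 := M.D_sq' P 1 (t ^ 4) hd.1 hd.2.1 hd.2.2
  have e7 := hq 1 _ _ hmu.le hd.1
  rw [hn] at e2 e4
  rw [e5] at e3
  have t4 : t ^ 4 ≤ t := pow_le_of_le_one t1.le t3 (by norm_num)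
  have t5 : t ^ 2 ≤ t := pow_le_of_le_one t1.le t3 (by norm_num)
  have t6 : (t ^ 4) ^ 2 ≤ t := (pow_le_of_le_one hmu.le (t4.trans t3) (by norm_num)).trans t4
  have e8 : M.q0 P.toGam 1 (fun x => χ x • φ x) ≤ e := by
    have f1 : M.q P 1 (t ^ 4) (fun x => χ x • φ x) ≤ 2 * t + 8 * b ^ 2 * t := by
      rw [← e6]
      refine e3.trans (add_le_add ?_ ?_)
      · exact mul_le_mul_of_nonneg_left
          (hD.trans ((mul_le_of_le_one_left hmu.le d4).trans t4)) zero_le_two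
      · refine (mul_le_of_le_one_right (by positivity) e4).trans ?_
        nlinarith [mul_le_mul_of_nonneg_left t5 (sq_nonneg b)]
    have f2 : t ^ 4 * n2 (fun x => χ x • φ x) ≤ t := (mul_le_of_le_one_right hmu.le e2).trans t4
    have f3 : (t ^ 4) ^ 2 * wt (fun x => ‖x‖ ^ 2) (fun x => χ x • φ x) ≤ t * C :=
      mul_le_mul t6 e1 (wt_sq_nonneg _) t1.le
    have f4 := mul_le_mul_of_nonneg_left (add_le_add f2 f3) hKq.le
    have f5 : t * B ≤ e := (le_div_iff₀ hB0).1 (t2.trans h3)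
    rw [hB] at f5
    linarith
  have e9 := hk _ hd.1
  have e10 := mul_le_mul_of_nonneg_left (add_le_add e2 e1) hCk.le
  have e11 : 0 < Ck * (1 + C) := by positivity
  refine ⟨_, hd.1, hd.2.1, by linarith, by linarith, by linarith, ?_, e8.trans he2⟩
  refine (hχ.sub hφ.1.memLp).trans ((tail_anti hφ.1.memLp (R := L) ?_).trans
    ((ht _ hmu (hmu'.trans d2) φ hφ hn ?_).trans he2))
  · have f1 := (le_div_iff₀ (by positivity)).1 (t2.trans h2)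
    rw [le_div_iff₀ two_pos, le_inv_comm₀ (by positivity) t1, ← one_div, le_div_iff₀ (by positivity)]
    linarith
  · rw [← hqφ]
    exact hD.trans (mul_le_mul_of_nonneg_right d2 hmu.le)

/-- For each `k` take `δ k` from `cut_low` at `ε = 1 / (k + 1)`, extract a subsequence along which
the conditions hold (`Filter.extraction_forall_of_eventually`), apply `rellich` to the cut functions,
and use `mem_Ker`, `n2_toLp_sub`. -/
theorem Mod.tight [FiniteDimensional ℂ F] (M : Mod V F) (P : Par) (hO : M.PO P) (mu : ℕ → ℝ)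
    (φ : ℕ → EE V → F) (hφ : ∀ n, M.Dom P (φ n)) (h0 : ∀ n, 0 < mu n)
    (hmu : Tendsto mu atTop (𝓝 0)) (h1 : ∀ n, n2 (φ n) = 1)
    (hD : Tendsto (fun n => n2 (M.D P 1 (mu n) (φ n)) / mu n) atTop (𝓝 0)) :
    ∃ ψ ∈ M.Ker P.toGam, ∃ κ : ℕ → ℕ, StrictMono κ ∧
      Tendsto (fun n => (hφ (κ n)).1.memLp.toLp (φ (κ n))) atTop (𝓝 ψ) := by
  obtain ⟨A, hA⟩ := M.cut_low P hO
  choose δ hδ H using fun k : ℕ => hA (1 / ((k : ℝ) + 1)) Nat.one_div_pos_of_nat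
  obtain ⟨σ, hσ, h2⟩ := Filter.extraction_forall_of_eventually (P := fun k n =>
    mu n ≤ δ k ∧ n2 (M.D P 1 (mu n) (φ n)) / mu n ≤ δ k) fun k =>
      (hmu.eventually_le_const (hδ k)).and (hD.eventually_le_const (hδ k))
  choose χ c1 c2 c3 c4 c5 c6 c7 using fun k => H k _ (h0 (σ k)) (h2 k).1 _ (hφ _) (h1 _)
    ((div_le_iff₀ (h0 _)).1 (h2 k).2)
  obtain ⟨κ, hκ, ψ, hψ⟩ := rellich χ c1 A c3 c4 c5
  have h3 : Tendsto (fun n => 1 / ((κ n : ℝ) + 1)) atTop (𝓝 0) :=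
    tendsto_one_div_add_atTop_nhds_zero_nat.comp hκ.tendsto_atTop
  have h4 : Tendsto (fun n => n2 fun x => χ (κ n) x - ψ x) atTop (𝓝 0) := by
    have := (tendsto_iff_norm_sub_tendsto_zero.1 hψ).pow 2
    simp only [n2_toLp_sub] at this
    simpa using this
  refine ⟨ψ, (M.mem_Ker _ ψ).2 fun ε hε => ?_, σ ∘ κ, hσ.comp hκ, ?_⟩
  · obtain ⟨n, h5, h6⟩ := ((h3.eventually_le_const hε).and (h4.eventually_le_const hε)).exists
    exact ⟨_, c1 _, c2 _, h6, (c7 _).trans h5⟩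
  · have h5 : Tendsto (fun n => n2 fun x => φ (σ (κ n)) x - ψ x) atTop (𝓝 0) := by
      have h6 := (h3.const_mul 2).add (h4.const_mul 2)
      rw [mul_zero, add_zero] at h6
      refine squeeze_zero (fun n => n2_nonneg' _) (fun n => ?_) h6
      refine (n2_tri (hφ _).1.memLp (c1 (κ n)).memLp (Lp.memLp ψ)).trans (add_le_add ?_ le_rfl)
      rw [n2_sub_comm]
      exact mul_le_mul_of_nonneg_left (c6 _) zero_le_two
    rw [tendsto_iff_norm_sub_tendsto_zero]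
    have h7 := h5.sqrt
    rw [Real.sqrt_zero] at h7
    refine h7.congr fun n => ?_
    rw [← n2_toLp_sub (hφ _).1.memLp, Real.sqrt_sq (norm_nonneg _)]
    rfl

end Vale.Agent.P353
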