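import Vale.Agent.P353.HRot2

open MeasureTheory NormedSpace Filter Topology
open Complex (I)
open scoped InnerProductSpace ContDiff

noncomputable section
namespace Vale.Agent.P353
variable {V F : Type} [NormedAddCommGroup V] [InnerProductSpace ℝ V] [FiniteDimensional ℝ V]
  [MeasurableSpace V] [BorelSpace V]
  [NormedAddCommGroup F] [InnerProductSpace ℂ F] [CompleteSpace F]

/-- `Mod.esa` at `mu = 0` with `ainv_lim`, `Ker_arinv`, `Ker_weak`, `mem_Ker` -/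
theorem Mod.Ker_dom (M : Mod V F) (P : Par) {ψ : Lp F 2 (volume : Measure (EE V))}
    (h : ψ ∈ M.Ker P.toGam) {ε : ℝ} (hε : 0 < ε) :
    ∃ u, M.Dom P u ∧ n2 (fun x => u x - ψ x) ≤ ε ∧ n2 (M.D P 1 0 u) ≤ ε := by
  have h1 := (M.mem_Ker P.toGam ψ).1 h
  refine M.esa P 0 (Lp.memLp ψ) (Mod.ainv_lim (Lp.memLp ψ) fun δ hδ => ?_)
    (M.Ker_arinv P.toGam Amat_transpose h) (fun δ hδ => ?_) (fun w hw => M.Ker_weak P h hw.1) hε
  · obtain ⟨φ, a, b, c, -⟩ := h1 δ hδ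
    exact ⟨φ, a, b, c⟩
  · obtain ⟨φ, a, -, c, -⟩ := h1 δ hδ
    exact ⟨φ, a, c⟩

theorem htrial_cut (M : Mod V F) (P : Par) {u : EE V → F} (hu : M.Dom P u) {K R : ℝ}
    {χ : EE V → ℝ} (hχ : Cut K R χ) (mu : ℝ) :
    n2 (M.D P 1 mu fun x => χ x • u x) ≤ 4 * n2 (M.D P 1 0 u) +
      4 * (‖(P.psi P.e : EE V →L[ℝ] SS V)‖ * (K / R)) ^ 2 * tail R u +
        288 * (mu ^ 2 * R ^ 2) * n2 u := by
  have hv := hu.rad hχ.smooth hχ.rad
  have h1 : (M.D P 1 mu fun x => χ x • u x) = fun x => M.D P 1 0 (fun x => χ x • u x) x +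
      ((mu : ℂ) • fun x => M.C.th (P.s1 x) (χ x • u x)) x := funext fun x => M.D_mu P mu _ x
  have h2 := n2_add_two (hv.D 0).1.memLp (hv.B.csmul (mu : ℂ)).1.memLp
  have h3 : n2 (M.D P 1 0 fun x => χ x • u x) ≤ 2 * n2 (M.D P 1 0 u) +
      2 * (‖(P.psi P.e : EE V →L[ℝ] SS V)‖ * (K / R)) ^ 2 * tail R u :=
    hχ.dirac M.C (P.psi P.e) (M.contDiff_s P 0) hu.1
  have h4 := M.B_le P hv.1
  have h5 := wt_sq_le hv.1 (R := 2 * R) fun x hx => by rw [hχ.supp x hx, zero_smul]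
  have h6 := mul_le_mul_of_nonneg_left (hχ.memLp hu.1.memLp).2 (sq_nonneg (2 * R))
  have h7 := mul_le_mul_of_nonneg_left (h4.trans (mul_le_mul_of_nonneg_left (h5.trans h6)
    (by norm_num))) (sq_nonneg mu)
  rw [n2_csmul, Complex.norm_real, Real.norm_eq_abs, sq_abs, ← h1] at h2
  nlinarith

/-- Cut off at `R = a / √mu` with `a` small: by `D_mu`, `n2_add_two`, `Cut.dirac`, `B_le`, `wt_sq_le`,
`n2 (D mu (χ u)) ≤ 4 n2 (D 0 u) + 4 (‖ψ_e‖ K / a) ^ 2 mu * tail R u + 2 * 36 * 4 a ^ 2 mu * n2 u`.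
Choose `a`, then `mu0` so that `tail R ψ` is small (`tail_small`), then `u` from `Ker_dom`
(`tail_tri`). -/
theorem Mod.trial (M : Mod V F) (P : Par) {ψ : Lp F 2 (volume : Measure (EE V))}
    (h : ψ ∈ M.Ker P.toGam) {η : ℝ} (hη : 0 < η) : ∃ mu0 > 0, ∀ mu : ℝ, 0 < mu → mu ≤ mu0 →
      ∃ u, M.Dom P u ∧ n2 (fun x => u x - ψ x) ≤ η ∧ n2 (M.D P 1 mu u) ≤ η * mu := by
  obtain ⟨K, -, hK⟩ := exists_cut (EE V)
  have hψ := Lp.memLp ψ
  have hN := n2_nonneg' (ψ : EE V → F)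
  obtain ⟨b, hb, hb'⟩ : ∃ b > 0, 576 * b * (1 + n2 (ψ : EE V → F)) = η / 3 :=
    ⟨η / (1728 * (1 + n2 (ψ : EE V → F))), by positivity, by field_simp; norm_num⟩
  set q := (‖(P.psi P.e : EE V →L[ℝ] SS V)‖ * K) ^ 2 with hq
  have hq0 : 0 ≤ q := sq_nonneg _
  obtain ⟨τ, hτ, hτ1, hτ2⟩ : ∃ τ > 0, τ ≤ η / 10 ∧ 16 * (q / b) * τ ≤ η / 3 := by
    refine ⟨min (η / 10) (η / (48 * (q / b + 1))), by positivity, min_le_left _ _, ?_⟩
    have h1 := (le_div_iff₀ (by positivity)).1 (min_le_right (η / 10) (η / (48 * (q / b + 1))))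
    have h2 : 0 ≤ min (η / 10) (η / (48 * (q / b + 1))) := by positivity
    nlinarith
  obtain ⟨R0, hR0, hR⟩ := tail_small hψ hτ
  refine ⟨b / R0 ^ 2, by positivity, fun mu hmu hle => ?_⟩
  have hR2 : √(b / mu) ^ 2 = b / mu := Real.sq_sqrt (by positivity)
  have hR1 : R0 ≤ √(b / mu) := Real.le_sqrt_of_sq_le (by
    rw [le_div_iff₀ hmu, mul_comm]
    exact (le_div_iff₀ (by positivity)).1 hle)
  obtain ⟨χ, hχ⟩ := hK _ (hR0.trans_le hR1)
  have ht := hR _ hR1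
  generalize √(b / mu) = R at hR2 hR1 hχ ht
  obtain ⟨ε, hε, e1, e2, e3⟩ : ∃ ε > 0, ε ≤ 1 ∧ ε ≤ τ ∧ ε ≤ η * mu / 12 :=
    ⟨min 1 (min τ (η * mu / 12)), by positivity, min_le_left _ _,
      (min_le_right _ _).trans (min_le_left _ _), (min_le_right _ _).trans (min_le_right _ _)⟩
  obtain ⟨u, hu, h1, h2⟩ := M.Ker_dom P h hε
  have hu2 := hu.1.memLp
  have h3 : tail R u ≤ 4 * τ := by linarith [tail_tri hu2 hψ R]
  have h4 : n2 u ≤ 2 * (1 + n2 (ψ : EE V → F)) := by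
    have := n2_add_two (hu2.sub hψ) hψ
    simp only [Pi.sub_apply, sub_add_cancel] at this
    change n2 u ≤ 2 * n2 (fun x => u x - ψ x) + _ at this
    linarith
  refine ⟨_, hu.rad hχ.smooth hχ.rad, ?_, (htrial_cut M P hu hχ mu).trans ?_⟩
  · linarith [n2_tri (hχ.memLp hu2).1 hu2 hψ, hχ.sub hu2]
  · have h5 : (‖(P.psi P.e : EE V →L[ℝ] SS V)‖ * (K / R)) ^ 2 = q / b * mu := by
      rw [← mul_div_assoc, div_pow, hR2, ← hq]
      field_simp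
    have h6 : mu ^ 2 * R ^ 2 = b * mu := by
      rw [hR2]
      field_simp
    rw [h5, h6]
    have h7 := mul_le_mul_of_nonneg_left h3 (show 0 ≤ 4 * (q / b * mu) by positivity)
    have h8 := mul_le_mul_of_nonneg_left h4 (show 0 ≤ 288 * (b * mu) by positivity)
    have h9 := mul_le_mul_of_nonneg_right hτ2 hmu.le
    have h10 := congrArg (· * mu) hb'
    nlinarith

end Vale.Agent.P353
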