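import Vale.Agent.P353.SDefs
import Vale.Agent.P353.IDefs
import Vale.Agent.P353.IOI
import Vale.Agent.P353.GMyers
import Vale.Agent.P353.ACov
import Vale.Agent.P353.AHH
import Vale.Agent.P353.HSysM
import Vale.Agent.P353.HPar
import Vale.Agent.P353.HTight2
import Vale.Agent.P353.HTrial

open MeasureTheory NormedSpace
open Complex (I)
open scoped InnerProductSpace ContDiff

noncomputable section
namespace Vale.Agent.P353
variable {V F : Type} [NormedAddCommGroup V] [InnerProductSpace ℝ V] [FiniteDimensional ℝ V]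
  [MeasurableSpace V] [BorelSpace V]
  [NormedAddCommGroup F] [InnerProductSpace ℂ F] [CompleteSpace F]

/-- Index argument and tightness (module H, see PROOF.md). -/
theorem Mod.unique_of [FiniteDimensional ℂ F] (M : Mod V F) (P : Par) (hirr : M.C.Irr)
    (hO : M.PO P) {mu : ℝ} (hmu : 0 < mu) (hS : M.OneLow P mu) :
    ∃ ψ ≠ 0, ∀ φ, φ ∈ M.Ker P.toGam ↔ ∃ c : ℂ, φ = c • ψ := by
  obtain ⟨Γ, h1, h2, hΓ⟩ := M.C.exists_parity (even_finrank_SS V)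
  obtain ⟨c, hc, ℓ, hℓ, ⟨φ0, a1, a2, a3, a4⟩, hgap⟩ := hS
  have hq : ∀ u : M.DomS P, ‖M.jj P ((M.sys P Γ h1 h2 hΓ).D mu u)‖ ^ 2 = M.q P 1 mu u.1 :=
    fun u => by
      rw [M.sys_norm]
      exact M.D_sq' P 1 mu (Mod.dom u).1 (Mod.dom u).2.1 (Mod.dom u).2.2
  let ℓ' : M.DomS P →ₗ[ℂ] ℂ :=
    { toFun := fun u => ℓ u.1
      map_add' := fun u v => by simpa using hℓ u.1 v.1 (Mod.dom u).1 (Mod.dom v).1 1 1
      map_smul' := fun a u => by simpa using hℓ u.1 u.1 (Mod.dom u).1 (Mod.dom u).1 a 0 }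
  refine (M.sys P Γ h1 h2 hΓ).final' (fun ν hν => M.sys_good P Γ h1 h2 hΓ hν) hmu hc ℓ'
    (fun u hu => ?_) (u := ⟨φ0, a1, a2, a3⟩) ?_ (K := M.KerS P.toGam) ?_ ?_ ?_
  · rw [M.sys_j, hq, M.jj_norm]
    exact hgap u.1 (Mod.dom u).1 (Mod.dom u).2.1 (Mod.dom u).2.2 hu
  · rw [M.sys_j, hq, M.jj_norm]
    have := n2_nonneg φ0
    change M.q P 1 mu φ0 < c * n2 φ0
    nlinarith
  · obtain ⟨a, ha⟩ := M.exp_parity P.toGam hirr h2 hΓ
    refine ⟨a, fun ψ hψ => Lp.ext ?_⟩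
    have h3 := M.Ker_arinv P.toGam (plane_transpose 0) hψ (2 * Real.pi)
    rw [AEI, expL_plane, ha] at h3
    filter_upwards [h3, Lp.coeFn_smul a (Γ.compLpL 2 volume ψ), Γ.coeFn_compLpL ψ] with x e1 e2 e3
    change (a • Γ.compLpL 2 volume ψ : Lp F 2 (volume : Measure (EE V))) x = ψ x
    rw [e2, Pi.smul_apply, e3]
    simpa using e1.symm
  · intro ν u h0 hν hn hD
    refine M.tight P hO ν (fun n => (u n).1) (fun n => Mod.dom (u n)) h0 hν (fun n => ?_) ?_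
    · rw [← M.jj_norm, ← M.sys_j P Γ h1 h2 hΓ, hn n, one_pow]
    · simpa only [M.sys_j, M.sys_norm] using hD
  · intro ψ hψ η hη
    obtain ⟨μ0, hμ0, h⟩ := M.trial P hψ hη
    refine ⟨μ0, hμ0, fun ν hν hν' => ?_⟩
    obtain ⟨u, hu, e1, e2⟩ := h ν hν hν'
    refine ⟨⟨u, hu⟩, ?_, ?_⟩
    · rw [M.sys_j, M.jj_sub]; exact e1
    · rw [M.sys_j, M.sys_norm]; exact e2

end Vale.Agent.P353
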