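import Vale.Agent.P353.HBump

open MeasureTheory NormedSpace Filter Topology
open Complex (I)
open scoped InnerProductSpace ContDiff

noncomputable section
namespace Vale.Agent.P353
variable {E G : Type} [NormedAddCommGroup E] [InnerProductSpace ℝ E] [FiniteDimensional ℝ E]
  [MeasurableSpace E] [BorelSpace E] [NormedAddCommGroup G]
variable [NormedSpace ℝ G] [CompleteSpace G] {τ : ℝ} {ρ : E → ℝ}

theorem memLp_sub_left {f : E → G} (hf : MemLp f 2 volume) (x : E) :
    MemLp (fun y => f (x - y)) 2 volume ∧ n2 (fun y => f (x - y)) = n2 f := 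
  ⟨hf.comp_measurePreserving (Measure.measurePreserving_sub_left volume x),
    integral_sub_left_eq_self (fun y => ‖f y‖ ^ 2) volume x⟩
theorem memLp_sub_right {f : E → G} (hf : MemLp f 2 volume) (y : E) :
    MemLp (fun x => f (x - y)) 2 volume ∧ n2 (fun x => f (x - y)) = n2 f := 
  ⟨hf.comp_measurePreserving (measurePreserving_sub_right volume y),
    integral_sub_right_eq_self (fun x => ‖f x‖ ^ 2) y⟩
theorem Bump.int (h : Bump τ ρ) {f : E → G} (hf : MemLp f 2 volume) (x : E) :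
    Integrable (fun y => ρ y • f (x - y)) ∧ Integrable fun y => ρ y * ‖f (x - y)‖ ^ 2 := by
  have h1 := (memLp_sub_left hf x).1
  obtain ⟨C, hC⟩ := h.smooth.continuous.bounded_above_of_compact_support h.hcs
  refine ⟨memLp_one_iff_integrable.1 (h1.smul h.memLp), ?_⟩
  exact (int_sq h1).bdd_mul h.smooth.continuous.aestronglyMeasurable (Eventually.of_forall hC)
theorem mol_sub (h : Bump τ ρ) {f g : E → G} (hf : MemLp f 2 volume) (hg : MemLp g 2 volume)
    (x : E) : mol ρ (fun x => f x - g x) x = mol ρ f x - mol ρ g x := by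
  unfold mol
  rw [← integral_sub (h.int hf x).1 (h.int hg x).1]
  simp only [smul_sub]
/-- Jensen: with `m = ‖mol ρ f x‖`, integrate `2 m a - m ^ 2 ≤ a ^ 2` against `ρ` -/
theorem mol_sq_le (h : Bump τ ρ) {f : E → G} (hf : MemLp f 2 volume) (x : E) :
    ‖mol ρ f x‖ ^ 2 ≤ ∫ y, ρ y * ‖f (x - y)‖ ^ 2 := by
  have h1 := (h.int hf x).1.norm
  have e : ∀ y, ‖ρ y • f (x - y)‖ = ρ y * ‖f (x - y)‖ := fun y => by
    rw [norm_smul, Real.norm_of_nonneg (h.nonneg y)]
  have h2 : ‖mol ρ f x‖ ≤ ∫ y, ρ y * ‖f (x - y)‖ := by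
    simpa only [e, mol] using norm_integral_le_integral_norm fun y => ρ y • f (x - y)
  simp only [e] at h1
  have h3 : ∫ y, (2 * ‖mol ρ f x‖ * (ρ y * ‖f (x - y)‖) - ‖mol ρ f x‖ ^ 2 * ρ y) ≤
      ∫ y, ρ y * ‖f (x - y)‖ ^ 2 :=
    integral_mono ((h1.const_mul _).sub (h.integrable.const_mul _)) (h.int hf x).2 fun y => by
      have := mul_nonneg (h.nonneg y) (sq_nonneg (‖f (x - y)‖ - ‖mol ρ f x‖))
      simp only
      nlinarith
  rw [integral_sub (h1.const_mul _) (h.integrable.const_mul _), integral_const_mul,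
    integral_const_mul, h.one] at h3
  nlinarith [mul_le_mul_of_nonneg_left h2 (norm_nonneg (mol ρ f x))]
/-- `HasCompactSupport.contDiff_convolution_left`, `MemLp.locallyIntegrable` -/
theorem mol_smooth (h : Bump τ ρ) {f : E → G} (hf : MemLp f 2 volume) : ContDiff ℝ ∞ (mol ρ f) :=
  h.hcs.contDiff_convolution_left (ContinuousLinearMap.lsmul ℝ ℝ) h.smooth
    (hf.locallyIntegrable (by norm_num))
/-- `mol_sq_le`, `Integrable.integrable_convolution` and `integral_convolution` for `ρ` and `‖f‖ ^ 2` -/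
theorem mol_memLp (h : Bump τ ρ) {f : E → G} (hf : MemLp f 2 volume) :
    MemLp (mol ρ f) 2 volume ∧ n2 (mol ρ f) ≤ n2 f := by
  have h1 := h.integrable.integrable_convolution (ContinuousLinearMap.mul ℝ ℝ) (int_sq hf)
  have h2 := integral_convolution (ContinuousLinearMap.mul ℝ ℝ) h.integrable (int_sq hf)
  have hm := (mol_smooth h hf).continuous
  have hb : ∀ x, ‖mol ρ f x‖ ^ 2 ≤
      convolution ρ (fun x => ‖f x‖ ^ 2) (ContinuousLinearMap.mul ℝ ℝ) volume x :=
    fun x => mol_sq_le h hf x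
  have h3 : Integrable fun x => ‖mol ρ f x‖ ^ 2 :=
    h1.mono' (hm.norm.pow 2).aestronglyMeasurable (Eventually.of_forall fun x => by
      rw [Real.norm_of_nonneg (sq_nonneg _)]; exact hb x)
  refine ⟨(memLp_two_iff_integrable_sq_norm hm.aestronglyMeasurable).2 h3, ?_⟩
  refine (integral_mono h3 h1 hb).trans (h2.le.trans (le_of_eq ?_))
  rw [h.one]
  simp [n2]
/-- Cauchy-Schwarz -/
theorem mol_sup (h : Bump τ ρ) {f : E → G} (hf : MemLp f 2 volume) (x : E) :
    ‖mol ρ f x‖ ^ 2 ≤ n2 ρ * n2 f := by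
  have h1 := (memLp_sub_left hf x).1
  have h2 : ‖mol ρ f x‖ ≤ ∫ y, ‖ρ y‖ * ‖f (x - y)‖ := by
    simpa only [norm_smul, mol] using norm_integral_le_integral_norm fun y => ρ y • f (x - y)
  have h3 := integral_mul_le_Lp_mul_Lq_of_nonneg Real.HolderConjugate.two_two
    (f := fun y => ‖ρ y‖) (g := fun y => ‖f (x - y)‖) (μ := volume)
    (Eventually.of_forall fun _ => norm_nonneg _) (Eventually.of_forall fun _ => norm_nonneg _)
    (by simpa using h.memLp.norm) (by simpa using h1.norm)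
  have h4 := pow_le_pow_left₀ (norm_nonneg _) (h2.trans h3) 2
  rw [← (memLp_sub_left hf x).2]
  refine h4.trans (le_of_eq ?_)
  simp only [Real.rpow_two, ← Real.sqrt_eq_rpow]
  rw [mul_pow, Real.sq_sqrt (integral_nonneg fun _ => sq_nonneg _),
    Real.sq_sqrt (integral_nonneg fun _ => sq_nonneg _)]
  rfl
theorem mol_supp (h : Bump τ ρ) {f : E → G} {R : ℝ} (h0 : ∀ x, R ≤ ‖x‖ → f x = 0) {x : E}
    (hx : R + τ ≤ ‖x‖) : mol ρ f x = 0 := by
  have : ∀ y, ρ y • f (x - y) = 0 := fun y => by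
    by_cases hy : τ ≤ ‖y‖
    · rw [h.supp y hy, zero_smul]
    · rw [h0 (x - y) (by linarith [norm_sub_norm_le x y, not_le.1 hy]), smul_zero]
  simp [mol, this]

end Vale.Agent.P353
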