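import Vale.Agent.P353.HMol1

open MeasureTheory NormedSpace Filter Topology
open Complex (I)
open scoped InnerProductSpace ContDiff

noncomputable section
namespace Vale.Agent.P353
variable {S E F : Type} [NormedAddCommGroup S] [InnerProductSpace ℝ S] [FiniteDimensional ℝ S]
  [NormedAddCommGroup E] [InnerProductSpace ℝ E] [FiniteDimensional ℝ E]
  [MeasurableSpace E] [BorelSpace E]
  [NormedAddCommGroup F] [InnerProductSpace ℂ F] [CompleteSpace F]
variable {τ : ℝ} {ρ : E → ℝ}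

theorem mol_tst (h : Bump τ ρ) {f : E → F} (hf : MemLp f 2 volume) {R : ℝ}
    (h0 : ∀ x, R ≤ ‖x‖ → f x = 0) : Tst (mol ρ f) :=
  tst_of_ball (mol_smooth h hf) fun _ hx => mol_supp h h0 hx
/-- Fubini (`(x, y) ↦ ρ y • ⟪w x, f (x - y)⟫` is integrable: bound the norm by
`ρ y * (‖w x‖ ^ 2 + ‖f (x - y)‖ ^ 2)`), translate `x ↦ x + y`, then `y ↦ -y` with `Bump.even`. -/
theorem mol_adj (h : Bump τ ρ) {w f : E → F} (hw : MemLp w 2 volume) (hf : MemLp f 2 volume) :
    ∫ x, ⟪w x, mol ρ f x⟫_ℂ = ∫ x, ⟪mol ρ w x, f x⟫_ℂ := by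
  have m1 := measurePreserving_sub_prod (volume : Measure E) (volume : Measure E)
  have hT : MeasurePreserving (fun z : E × E => (z.1 - z.2, -z.2)) (volume.prod volume)
      (volume.prod volume) :=
    ((MeasurePreserving.id volume).prod (Measure.measurePreserving_neg volume)).comp m1
  have hK : Integrable (fun z : E × E => ⟪w z.1, ρ z.2 • f (z.1 - z.2)⟫_ℂ) (volume.prod volume) := by
    have i1 := (int_sq hw).mul_prod h.integrable
    have i2 := m1.integrable_comp_of_integrable ((int_sq hf).mul_prod h.integrable)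
    refine (i1.add i2).mono' (hw.1.comp_fst.inner (h.integrable.1.comp_snd.smul
      (hf.1.comp_fst.comp_measurePreserving m1))) (Eventually.of_forall fun z => ?_)
    refine (norm_inner_le_norm _ _).trans ?_
    rw [norm_smul, Real.norm_of_nonneg (h.nonneg _)]
    change _ ≤ ‖w z.1‖ ^ 2 * ρ z.2 + ‖f (z.1 - z.2)‖ ^ 2 * ρ z.2
    have := mul_nonneg (h.nonneg z.2) (sq_nonneg (‖w z.1‖ - ‖f (z.1 - z.2)‖))
    have := mul_nonneg (h.nonneg z.2) (mul_nonneg (norm_nonneg (w z.1))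
      (norm_nonneg (f (z.1 - z.2))))
    linarith
  have e1 := integral_map hT.measurable.aemeasurable (hT.map_eq.symm ▸ hK.1)
  rw [hT.map_eq, integral_prod _ hK,
    integral_prod (fun z : E × E => ⟪w (z.1 - z.2), ρ (-z.2) • f (z.1 - z.2 - -z.2)⟫_ℂ)
      (hT.integrable_comp_of_integrable hK)] at e1
  have e2 : ∀ x, ⟪w x, mol ρ f x⟫_ℂ = ∫ y, ⟪w x, ρ y • f (x - y)⟫_ℂ := fun x =>
    (integral_inner (h.int hf x).1 _).symm
  have e3 : ∀ x, ⟪mol ρ w x, f x⟫_ℂ = ∫ y, ⟪w (x - y), ρ (-y) • f (x - y - -y)⟫_ℂ := fun x => by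
    rw [← inner_conj_symm, mol, ← integral_inner (h.int hw x).1, ← integral_conj]
    refine integral_congr_ae (Eventually.of_forall fun y => ?_)
    simp only [inner_conj_symm, h.even, sub_neg_eq_add, sub_add_cancel]
    rw [← Complex.coe_smul, ← Complex.coe_smul, inner_smul_left, inner_smul_right,
      Complex.conj_ofReal]
  simp_rw [e2, e3]
  exact e1
/-- substitute `y = g y'` (`iso_mp`), pull the a.e. identity back along `y ↦ x - y` -/
theorem mol_cov (h : Bump τ ρ) {g : E →L[ℝ] E} (hg : ∀ u v, ⟪g u, g v⟫_ℝ = ⟪u, v⟫_ℝ)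
    {U : F →L[ℂ] F} {f : E → F} (hf : MemLp f 2 volume) (hi : AEI g U f) (x : E) :
    mol ρ f (g x) = U (mol ρ f x) := by
  obtain ⟨m1, m2, m3, -⟩ := iso_mp hg
  rw [mol, mol, ← U.integral_comp_comm (h.int hf x).1, ← m1.integral_comp m2]
  refine integral_congr_ae ?_
  filter_upwards [(Measure.measurePreserving_sub_left volume x).quasiMeasurePreserving.ae hi]
    with y hy
  rw [← map_sub, hy, h.rad _ _ (m3 y), U.map_smul_of_tower]
theorem AEI.smul {g : E →L[ℝ] E} (hg : ∀ u v, ⟪g u, g v⟫_ℝ = ⟪u, v⟫_ℝ) {U : F →L[ℂ] F}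
    {f : E → F} (hi : AEI g U f) {a : E → ℝ} (ha : ∀ x y, ‖x‖ = ‖y‖ → a x = a y) :
    AEI g U fun x => a x • f x := by
  filter_upwards [hi] with x hx
  rw [hx, ha _ _ ((iso_mp hg).2.2.1 x), U.map_smul_of_tower]
/-- `n2 (f ∘ g - U f)` is smaller than every `ε` (`n2_tri`, `n2_iso`, `n2_le`), then `n2_eq_zero` -/
theorem aei_lim {g : E →L[ℝ] E} (hg : ∀ u v, ⟪g u, g v⟫_ℝ = ⟪u, v⟫_ℝ) {U : F →L[ℂ] F} {f : E → F}
    (hf : MemLp f 2 volume) (h : ∀ ε > 0, ∃ φ : E → F, MemLp φ 2 volume ∧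
      n2 (fun x => φ x - f x) ≤ ε ∧ n2 (fun x => φ (g x) - U (φ x)) ≤ ε) : AEI g U f := by
  have m1 := (iso_mp hg).1
  have c1 : ∀ {φ : E → F}, MemLp φ 2 volume → MemLp (fun x => φ (g x)) 2 volume := fun h =>
    h.comp_measurePreserving m1
  have c2 : ∀ {φ : E → F}, MemLp φ 2 volume → MemLp (fun x => U (φ x)) 2 volume := fun h =>
    U.comp_memLp' h
  have key : n2 (fun x => f (g x) - U (f x)) ≤ 0 := le_of_forall_pos_le_add fun ε hε => by
    obtain ⟨φ, hφ, h1, h2⟩ := h (ε / (6 + 4 * ‖U‖ ^ 2)) (by positivity)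
    have h3 := n2_tri (c1 hf) (c1 hφ) (c2 hf)
    have h4 := n2_tri (c1 hφ) (c2 hφ) (c2 hf)
    have h5 := n2_iso hg fun x => f x - φ x
    have h6 := n2_le (f := fun x => U (φ x) - U (f x)) (g := fun x => φ x - f x) (hφ.sub hf)
      (a := ‖U‖) (Eventually.of_forall fun x => by
        rw [← map_sub]
        exact U.le_opNorm _)
    have h7 := mul_le_mul_of_nonneg_left h1 (sq_nonneg ‖U‖)
    have h8 : ε / (6 + 4 * ‖U‖ ^ 2) * (6 + 4 * ‖U‖ ^ 2) = ε := div_mul_cancel₀ _ (by positivity)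
    rw [n2_sub_comm f φ] at h5
    linarith
  filter_upwards [n2_eq_zero ((c1 hf).sub (c2 hf)) (key.antisymm (n2_nonneg' _))] with x hx
  exact sub_eq_zero.1 hx

end Vale.Agent.P353
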