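import Vale.Agent.P353.HMol2

open MeasureTheory NormedSpace Filter Topology
open Complex (I)
open scoped InnerProductSpace ContDiff

noncomputable section
namespace Vale.Agent.P353
variable {S E F : Type} [NormedAddCommGroup S] [InnerProductSpace ℝ S] [FiniteDimensional ℝ S]
  [NormedAddCommGroup E] [InnerProductSpace ℝ E] [FiniteDimensional ℝ E]
  [MeasurableSpace E] [BorelSpace E]
  [NormedAddCommGroup F] [InnerProductSpace ℂ F] [CompleteSpace F]
variable {τ : ℝ} {ρ : E → ℝ}

lemma hm3_jensen {Y G : Type} [MeasurableSpace Y] [NormedAddCommGroup G] [NormedSpace ℝ G]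
    {μ : Measure Y} {w : Y → ℝ} {f : Y → G} (hw0 : ∀ y, 0 ≤ w y) (hw1 : ∫ y, w y ∂μ = 1)
    (i0 : Integrable w μ) (i1 : Integrable (fun y => w y * ‖f y‖) μ)
    (i2 : Integrable (fun y => w y * ‖f y‖ ^ 2) μ) :
    ‖∫ y, w y • f y ∂μ‖ ^ 2 ≤ ∫ y, w y * ‖f y‖ ^ 2 ∂μ := by
  set m := ‖∫ y, w y • f y ∂μ‖ with hm
  have hm0 : 0 ≤ m := norm_nonneg _
  have h1 : m ≤ ∫ y, w y * ‖f y‖ ∂μ := by
    refine (norm_integral_le_integral_norm _).trans (le_of_eq ?_)
    refine integral_congr_ae (Eventually.of_forall fun y => ?_)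
    simp only [norm_smul, Real.norm_of_nonneg (hw0 y)]
  have j1 : Integrable (fun y => 2 * m * (w y * ‖f y‖)) μ := i1.const_mul _
  have j0 : Integrable (fun y => m ^ 2 * w y) μ := i0.const_mul _
  have h2 : ∫ y, (2 * m * (w y * ‖f y‖) - m ^ 2 * w y) ∂μ ≤ ∫ y, w y * ‖f y‖ ^ 2 ∂μ := by
    refine integral_mono (j1.sub j0) i2 fun y => ?_
    have := mul_nonneg (hw0 y) (sq_nonneg (‖f y‖ - m))
    simp only
    nlinarith
  rw [integral_sub j1 j0, integral_const_mul, integral_const_mul, hw1] at h2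
  nlinarith [mul_le_mul_of_nonneg_left h1 hm0]

lemma hm3_fubini {Y : Type} [MeasurableSpace Y] {μ : Measure Y} [SFinite μ] {G : E → Y → ℝ}
    (hG : AEStronglyMeasurable (Function.uncurry G) ((volume : Measure E).prod μ))
    (h0 : ∀ x y, 0 ≤ G x y) (hi : ∀ y, Integrable fun x => G x y) {b : Y → ℝ}
    (hb : Integrable b μ) (hle : ∀ y, ∫ x, G x y ≤ b y) {u : E → ℝ} (hu0 : ∀ x, 0 ≤ u x)
    (hu : ∀ x, u x ≤ ∫ y, G x y ∂μ) : ∫ x, u x ≤ ∫ y, b y ∂μ := by
  have hI : Integrable (Function.uncurry G) ((volume : Measure E).prod μ) := by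
    rw [integrable_prod_iff' hG]
    refine ⟨Eventually.of_forall hi, hb.mono' hG.norm.prod_swap.integral_prod_right'
      (Eventually.of_forall fun y => ?_)⟩
    have : ∫ x, ‖Function.uncurry G (x, y)‖ = ∫ x, G x y :=
      integral_congr_ae (Eventually.of_forall fun x => Real.norm_of_nonneg (h0 x y))
    rw [this, Real.norm_of_nonneg (integral_nonneg fun x => h0 x y)]
    exact hle y
  calc ∫ x, u x ≤ ∫ x, ∫ y, G x y ∂μ :=
        integral_mono_of_nonneg (Eventually.of_forall hu0) hI.integral_prod_left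
          (Eventually.of_forall hu)
    _ = ∫ y, (∫ x, G x y) ∂μ := integral_integral_swap hI
    _ ≤ ∫ y, b y ∂μ :=
        integral_mono_of_nonneg (Eventually.of_forall fun y => integral_nonneg fun x => h0 x y) hb
          (Eventually.of_forall hle)

/-- `φ (x - h) - φ x = - ∫ t in 0..1, fderiv φ (x - t • h) h`, Jensen, `norm_fderiv_sq_le`, Fubini
and translation invariance -/
theorem transl {φ : E → F} (hφ : Tst φ) (h : E) :
    n2 (fun x => φ (x - h) - φ x) ≤ ‖h‖ ^ 2 * (2 * kin φ) := by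
  have hd : Differentiable ℝ φ := hφ.1.differentiable (by simp)
  have hc : Continuous (fderiv ℝ φ) := hφ.1.continuous_fderiv (by simp)
  have hg := hφ.continuous_g2
  have hg0 : ∀ x, 0 ≤ g2 φ x := fun x => Finset.sum_nonneg fun _ _ => sq_nonneg _
  have hk : ∫ x, g2 φ x = 2 * kin φ := by
    unfold kin
    ring
  have h1 := hm3_fubini (μ := (volume : Measure ℝ).restrict (Set.Ioc 0 1))
    (G := fun x t => ‖h‖ ^ 2 * g2 φ (x - t • h)) (b := fun _ => ‖h‖ ^ 2 * (2 * kin φ))
    (u := fun x => ‖φ (x - h) - φ x‖ ^ 2)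
    (Continuous.aestronglyMeasurable (continuous_const.mul
      (hg.comp (continuous_fst.sub (continuous_snd.smul continuous_const)))))
    (fun x t => mul_nonneg (sq_nonneg _) (hg0 _))
    (fun t => (hφ.int_g2.comp_sub_right (t • h)).const_mul _) (integrable_const _)
    (fun t => by rw [integral_const_mul, integral_sub_right_eq_self (g2 φ), hk])
    (fun x => sq_nonneg _) (fun x => ?_)
  · simpa [n2] using h1
  have hl : Continuous fun t : ℝ => x - t • h :=
    continuous_const.sub (continuous_id.smul continuous_const)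
  have hD : Continuous fun t : ℝ => fderiv ℝ φ (x - t • h) (-h) :=
    (hc.comp hl).clm_apply continuous_const
  have h2 : ∀ t : ℝ, HasDerivAt (fun t : ℝ => φ (x - t • h)) (fderiv ℝ φ (x - t • h) (-h)) t := by
    intro t
    have h3 : HasDerivAt (fun t : ℝ => x - t • h) (-h) t := by
      simpa using ((hasDerivAt_id t).smul_const h).const_sub x
    exact (hd _).hasFDerivAt.comp_hasDerivAt t h3
  have h4 := intervalIntegral.integral_eq_sub_of_hasDerivAt (a := 0) (b := 1)
    (fun t _ => h2 t) (hD.intervalIntegrable 0 1)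
  rw [intervalIntegral.integral_of_le zero_le_one, one_smul, zero_smul, sub_zero] at h4
  have h5 := hm3_jensen (μ := (volume : Measure ℝ).restrict (Set.Ioc 0 1)) (w := fun _ => 1)
    (f := fun t : ℝ => fderiv ℝ φ (x - t • h) (-h)) (fun _ => zero_le_one) (by simp)
    (integrable_const _) (continuous_const.mul hD.norm).integrableOn_Ioc
    (continuous_const.mul (hD.norm.pow 2)).integrableOn_Ioc
  simp only [one_smul, one_mul, h4] at h5
  refine h5.trans (integral_mono (hD.norm.pow 2).integrableOn_Ioc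
    (continuous_const.mul (hg.comp hl)).integrableOn_Ioc fun t => ?_)
  have := norm_fderiv_sq_le φ (x - t • h) (-h)
  rwa [norm_neg] at this

/-- `mol ρ φ x - φ x = ∫ y, ρ y • (φ (x - y) - φ x)`, Jensen, Fubini, `transl` -/
theorem mol_approx (h : Bump τ ρ) {φ : E → F} (hφ : Tst φ) :
    n2 (fun x => mol ρ φ x - φ x) ≤ τ ^ 2 * (2 * kin φ) := by
  have hc := hφ.1.continuous
  have hρ := h.smooth.continuous
  have hk : 0 ≤ 2 * kin φ := mul_nonneg zero_le_two (kin_nonneg φ)
  have hG : Continuous fun p : E × E => ρ p.2 * ‖φ (p.1 - p.2) - φ p.1‖ ^ 2 := by fun_prop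
  have h1 := hm3_fubini (μ := (volume : Measure E))
    (G := fun x y => ρ y * ‖φ (x - y) - φ x‖ ^ 2) (b := fun y => ρ y * (τ ^ 2 * (2 * kin φ)))
    (u := fun x => ‖mol ρ φ x - φ x‖ ^ 2)
    hG.aestronglyMeasurable
    (fun x y => mul_nonneg (h.nonneg y) (sq_nonneg _))
    (fun y => (int_sq ((memLp_sub_right hφ.memLp y).1.sub hφ.memLp)).const_mul _)
    (h.integrable.mul_const _) (fun y => ?_) (fun x => sq_nonneg _) (fun x => ?_)
  · rw [integral_mul_const, h.one, one_mul] at h1
    exact h1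
  · rw [integral_const_mul]
    rcases le_total τ ‖y‖ with hy | hy
    · simp [h.supp y hy]
    · refine mul_le_mul_of_nonneg_left ((transl hφ y).trans ?_) (h.nonneg y)
      exact mul_le_mul_of_nonneg_right (pow_le_pow_left₀ (norm_nonneg y) hy 2) hk
  · have hD : Continuous fun y => φ (x - y) - φ x :=
      (hc.comp (continuous_const.sub continuous_id)).sub continuous_const
    have h2 : mol ρ φ x - φ x = ∫ y, ρ y • (φ (x - y) - φ x) := by
      simp only [smul_sub]
      rw [integral_sub (h.int hφ.memLp x).1 (h.integrable.smul_const _), integral_smul_const,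
        h.one, one_smul, mol]
    rw [h2]
    exact hm3_jensen h.nonneg h.one h.integrable
      ((hρ.mul hD.norm).integrable_of_hasCompactSupport h.hcs.mul_right)
      ((hρ.mul (hD.norm.pow 2)).integrable_of_hasCompactSupport h.hcs.mul_right)

/-- `mol ρ φ x - mol ρ φ y = mol ρ (fun z => φ z - φ (z - (x - y))) x`, `mol_sup`, `transl` -/
theorem mol_lip (h : Bump τ ρ) {φ : E → F} (hφ : Tst φ) (x y : E) :
    ‖mol ρ φ x - mol ρ φ y‖ ^ 2 ≤ n2 ρ * (‖x - y‖ ^ 2 * (2 * kin φ)) := by
  have hm := (memLp_sub_right hφ.memLp (x - y)).1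
  have h1 : mol ρ φ y = mol ρ (fun z => φ (z - (x - y))) x := by
    unfold mol
    refine integral_congr_ae (Eventually.of_forall fun w => ?_)
    have : x - w - (x - y) = y - w := by abel
    simp only [this]
  rw [h1, ← mol_sub h hφ.memLp hm x]
  refine (mol_sup h (hφ.memLp.sub hm) x).trans (mul_le_mul_of_nonneg_left ?_ (n2_nonneg' ρ))
  exact (n2_sub_comm φ fun z => φ (z - (x - y))).trans_le (transl hφ (x - y))

end Vale.Agent.P353
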