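import Vale.Agent.P353.HDom

open MeasureTheory NormedSpace Filter Topology
open Complex (I)
open scoped InnerProductSpace ContDiff

noncomputable section
namespace Vale.Agent.P353
variable {V F : Type} [NormedAddCommGroup V] [InnerProductSpace ℝ V] [FiniteDimensional ℝ V]
  [MeasurableSpace V] [BorelSpace V]
  [NormedAddCommGroup F] [InnerProductSpace ℂ F] [CompleteSpace F]

theorem Mod.rot_zero (M : Mod V F) (G : Gam) (A : M9) (φ : EE V → F) : M.rot G A 0 φ = φ := by
  funext x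
  unfold Mod.rot
  rw [neg_zero, cv_expL_zero, zero_smul, exp_zero]
  rfl
theorem Mod.rot_supp (M : Mod V F) (G : Gam) {A : M9} (hA : A.transpose = -A) (t : ℝ)
    {φ : EE V → F} {R : ℝ} (h0 : ∀ x, R ≤ ‖x‖ → φ x = 0) (x : EE V) (hx : R ≤ ‖x‖) :
    M.rot G A t φ x = 0 := by
  unfold Mod.rot
  rw [h0 _ (((iso_mp (cv_R_inner hA (-t))).2.2.1 x).symm ▸ hx), map_zero]
/-- a bound for the angular momentum of the rotated function, uniform in `t`: the derivative of
`rot t φ` at `x` in the direction `v` is `U t (fderiv φ (g x) (g v))` with `U t` unitary and `g` an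
isometry, and `φ`, `fderiv φ` are bounded -/
theorem Mod.J_rot_le (M : Mod V F) (G : Gam) {A : M9} (hA : A.transpose = -A) {φ : EE V → F}
    (h : Tst φ) : ∃ C : ℝ, ∀ t x, ‖M.J G A (M.rot G A t φ) x‖ ≤ C * (1 + ‖x‖) := by
  have hd : Differentiable ℝ φ := h.1.differentiable (by simp)
  obtain ⟨a, ha⟩ := h.1.continuous.bounded_above_of_compact_support h.2
  obtain ⟨b, hb⟩ := (h.1.continuous_fderiv (by simp)).bounded_above_of_compact_support
    (h.2.fderiv ℝ)
  have ha0 : 0 ≤ a := (norm_nonneg _).trans (ha 0)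
  have hb0 : 0 ≤ b := (norm_nonneg _).trans (hb 0)
  set T : EE V →L[ℝ] EE V := mat A with hT
  set X := M.C.spin (mat (G.hat A) : SS V →L[ℝ] SS V) with hX
  refine ⟨b * ‖T‖ + ‖X‖ * a, fun t x => ?_⟩
  have hU := fun y => ContinuousLinearMap.norm_map_of_mem_unitary (cv_U_unitary M G A t) y
  have hg := (iso_mp (cv_R_inner (V := V) hA (-t))).2.2.1
  have h1 : ‖fderiv ℝ (M.rot G A t φ) x (T x)‖ ≤ b * ‖T‖ * ‖x‖ := by
    unfold Mod.rot
    rw [cv_fderiv_left _ _ hd, hU, mul_assoc]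
    refine ((fderiv ℝ φ _).le_opNorm _).trans (mul_le_mul (hb _) ?_ (norm_nonneg _) hb0)
    rw [hg]
    exact T.le_opNorm x
  have h2 : ‖X (M.rot G A t φ x)‖ ≤ ‖X‖ * a := by
    refine (X.le_opNorm _).trans (mul_le_mul_of_nonneg_left ?_ (norm_nonneg _))
    unfold Mod.rot
    rw [hU]
    exact ha _
  unfold Mod.J
  refine (norm_add_le _ _).trans ?_
  rw [norm_smul, norm_smul, norm_neg, Complex.norm_I, one_mul, one_mul]
  have h3 : 0 ≤ b * ‖T‖ := mul_nonneg hb0 T.opNorm_nonneg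
  have h4 : 0 ≤ ‖X‖ * a * ‖x‖ := by positivity
  nlinarith
theorem Mod.J_tst (M : Mod V F) (G : Gam) (A : M9) {φ : EE V → F} (h : Tst φ) :
    Tst (M.J G A φ) := by
  have h1 : ContDiff ℝ ∞ (fderiv ℝ φ) := h.1.fderiv_right (m := ∞) le_rfl
  refine ⟨((h1.clm_apply (mat A : EE V →L[ℝ] EE V).contDiff).const_smul (-I)).add
    ((((M.C.spin (mat (G.hat A))).restrictScalars ℝ).contDiff.comp h.1).const_smul I), ?_⟩
  refine HasCompactSupport.intro h.2 fun x hx => ?_
  unfold Mod.J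
  rw [image_eq_zero_of_notMem_tsupport hx,
    image_eq_zero_of_notMem_tsupport fun e => hx (tsupport_fderiv_subset ℝ e)]
  simp
/-- `hasDerivAt_integral_of_dominated_loc_of_deriv_le` with `rot_deriv` and the bound
`‖χ x‖ * (C * (1 + ‖x‖))` -/
theorem Mod.rot_pair_deriv (M : Mod V F) (G : Gam) {A : M9} (hA : A.transpose = -A)
    {φ χ : EE V → F} (h : Tst φ) (h' : Tst χ) (t : ℝ) :
    HasDerivAt (fun t => ∫ x, ⟪χ x, M.rot G A t φ x⟫_ℂ)
      ((-I) * ∫ x, ⟪χ x, M.J G A (M.rot G A t φ) x⟫_ℂ) t := by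
  obtain ⟨C, hC⟩ := M.J_rot_le G hA h
  have hd : Differentiable ℝ φ := h.1.differentiable (by simp)
  have h1 : ∀ {ψ : EE V → F}, Tst ψ → Continuous fun x => ⟪χ x, ψ x⟫_ℂ := fun hψ =>
    h'.1.continuous.inner hψ.1.continuous
  have h2 : ∀ ψ : EE V → F, HasCompactSupport fun x => ⟪χ x, ψ x⟫_ℂ := fun ψ =>
    HasCompactSupport.intro h'.2 fun x hx => by
      rw [image_eq_zero_of_notMem_tsupport hx, inner_zero_left]
  rw [← integral_const_mul]
  refine (hasDerivAt_integral_of_dominated_loc_of_deriv_le (s := Set.univ)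
    (F := fun t x => ⟪χ x, M.rot G A t φ x⟫_ℂ)
    (F' := fun t x => (-I) * ⟪χ x, M.J G A (M.rot G A t φ) x⟫_ℂ)
    (bound := fun x => ‖χ x‖ * (C * (1 + ‖x‖))) univ_mem
    (.of_forall fun t => (h1 (M.rot_tst G hA t h)).aestronglyMeasurable)
    ((h1 (M.rot_tst G hA t h)).integrable_of_hasCompactSupport (h2 _))
    ((continuous_const.mul (h1 (M.J_tst G A (M.rot_tst G hA t h)))).aestronglyMeasurable)
    (.of_forall fun x t _ => ?_) ?_ (.of_forall fun x t _ => ?_)).2
  · rw [norm_mul, norm_neg, Complex.norm_I, one_mul]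
    exact (norm_inner_le_norm _ _).trans (mul_le_mul_of_nonneg_left (hC t x) (norm_nonneg _))
  · exact (h'.1.continuous.norm.mul (by fun_prop)).integrable_of_hasCompactSupport
      h'.2.norm.mul_right
  · have := (hasDerivAt_const t (χ x)).inner ℂ (M.rot_deriv G hA t hd x)
    rwa [inner_zero_left, add_zero, inner_smul_right] at this
/-- change of variables by the isometry `expL (t • mat A)` (`n2_iso`, `expL_mul_neg`) -/
theorem Mod.n2_rot_sub (M : Mod V F) (G : Gam) {A : M9} (hA : A.transpose = -A) (t : ℝ)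
    (φ : EE V → F) :
    n2 (fun x => φ (expL (t • (mat A : EE V →L[ℝ] EE V)) x) -
      exp (t • M.C.spin (mat (G.hat A))) (φ x)) = n2 fun x => M.rot G A t φ x - φ x := by
  rw [← n2_iso (cv_R_inner hA t) fun x => M.rot G A t φ x - φ x, n2_sub_comm]
  unfold Mod.rot
  congr 1
  funext x
  have := cv_cancel (mat A : EE V →L[ℝ] EE V) (-t) x
  rw [neg_neg] at this
  rw [this]

end Vale.Agent.P353
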