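import Vale.Agent.P353.HRot1
import Vale.Agent.P353.HKer

open MeasureTheory NormedSpace Filter Topology
open Complex (I)
open scoped InnerProductSpace ContDiff

noncomputable section
namespace Vale.Agent.P353
variable {V F : Type} [NormedAddCommGroup V] [InnerProductSpace ℝ V] [FiniteDimensional ℝ V]
  [MeasurableSpace V] [BorelSpace V]
  [NormedAddCommGroup F] [InnerProductSpace ℂ F] [CompleteSpace F]

/-- `HH`, `cs_inner`, `Q_le`, and `n2 (θ (t β x) φ) ≤ (‖t β‖ R) ^ 2 n2 φ` -/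
theorem Mod.J_pair (M : Mod V F) (G : Gam) {A : M9} (hA : A.transpose = -A) : ∃ K > 0,
    ∀ φ χ : EE V → F, Tst φ → Tst χ → ∀ R > 0, (∀ x, R ≤ ‖x‖ → φ x = 0) →
      (∀ x, R ≤ ‖x‖ → χ x = 0) → ‖∫ x, ⟪χ x, M.J G A φ x⟫_ℂ‖ ≤
        K * R * (√(M.q0 G 1 χ) * √(n2 φ) + √(n2 χ) * √(M.q0 G 1 φ)) := by
  obtain ⟨T, hT⟩ := M.HH G hA
  have hQ : ∀ φ : EE V → F, Tst φ → ∀ β : Fin 16, Tst (M.Q G (Pi.single β 1) 1 φ) := fun φ h β =>
    h.dirac M.C _ ((contDiff_s0 G M.L _).const_smul (1 : ℝ))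
  have hθ : ∀ φ : EE V → F, Tst φ → ∀ β, Tst fun x => M.C.th (T β x) (φ x) := fun φ h β =>
    h.clm (M.C.th ∘L T β).contDiff
  have hq : ∀ φ : EE V → F, Tst φ → ∀ β : Fin 16,
      √(n2 (M.Q G (Pi.single β 1) 1 φ)) ≤ 4 * √(M.q0 G 1 φ) := by
    intro φ h β
    refine (Real.sqrt_le_sqrt (M.Q_le G h β)).trans (le_of_eq ?_)
    rw [Real.sqrt_mul (by norm_num), show (16 : ℝ) = 4 ^ 2 by norm_num, Real.sqrt_sq (by norm_num)]
  have hn : ∀ φ : EE V → F, Tst φ → ∀ R > 0, (∀ x, R ≤ ‖x‖ → φ x = 0) → ∀ β,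
      √(n2 fun x => M.C.th (T β x) (φ x)) ≤ ‖T β‖ * R * √(n2 φ) := by
    intro φ h R hR h0 β
    have h1 : n2 (fun x => M.C.th (T β x) (φ x)) ≤ (‖T β‖ * R) ^ 2 * n2 φ := by
      refine n2_le h.memLp (Eventually.of_forall fun x => ?_)
      by_cases hx : R ≤ ‖x‖
      · simp [h0 x hx]
      · have h2 : ‖T β x‖ ≤ ‖T β‖ * R :=
          ((T β).le_opNorm x).trans (mul_le_mul_of_nonneg_left (not_le.1 hx).le (norm_nonneg _))
        have h3 : ‖T β x‖ ^ 2 ≤ (‖T β‖ * R) ^ 2 := pow_le_pow_left₀ (norm_nonneg _) h2 2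
        have h4 := mul_le_mul_of_nonneg_right h3 (sq_nonneg ‖φ x‖)
        have h5 : 0 ≤ ‖T β x‖ ^ 2 * ‖φ x‖ ^ 2 := by positivity
        refine (pow_le_pow_iff_left₀ (norm_nonneg _) (by positivity) two_ne_zero).1 ?_
        rw [M.C.norm_th_apply, mul_pow]
        linarith
    refine (Real.sqrt_le_sqrt h1).trans (le_of_eq ?_)
    rw [Real.sqrt_mul (sq_nonneg _), Real.sqrt_sq (by positivity)]
  refine ⟨4 * ∑ β, ‖T β‖ + 1, by positivity, fun φ χ h h' R hR h0 h0' => ?_⟩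
  rw [hT 1 φ χ h h']
  have hb : ∀ β : Fin 16, ‖(∫ x, ⟪M.Q G (Pi.single β 1) 1 χ x, M.C.th (T β x) (φ x)⟫_ℂ) +
      ∫ x, ⟪M.C.th (T β x) (χ x), M.Q G (Pi.single β 1) 1 φ x⟫_ℂ‖ ≤
        ‖T β‖ * (4 * R * (√(M.q0 G 1 χ) * √(n2 φ) + √(n2 χ) * √(M.q0 G 1 φ))) := by
    intro β
    have b1 := (cs_inner (hQ χ h' β).memLp (hθ φ h β).memLp).trans
      (mul_le_mul (hq χ h' β) (hn φ h R hR h0 β) (Real.sqrt_nonneg _) (by positivity))
    have b2 := (cs_inner (hθ χ h' β).memLp (hQ φ h β).memLp).trans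
      (mul_le_mul (hn χ h' R hR h0' β) (hq φ h β) (Real.sqrt_nonneg _) (by positivity))
    refine (norm_add_le _ _).trans ((add_le_add b1 b2).trans (le_of_eq ?_))
    ring
  refine (norm_sum_le _ _).trans ((Finset.sum_le_sum fun β _ => hb β).trans ?_)
  rw [← Finset.sum_mul]
  have h6 : 0 ≤ R * (√(M.q0 G 1 χ) * √(n2 φ) + √(n2 χ) * √(M.q0 G 1 φ)) := by positivity
  nlinarith

/-- `n2_sub`, `rot_n2`, `rot_q0`, `rot_pair_deriv`, `J_pair` and the mean value inequality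
(`Convex.norm_image_sub_le_of_norm_hasDerivWithin_le` on `Set.univ`) -/
theorem Mod.rot_close (M : Mod V F) (G : Gam) {A : M9} (hA : A.transpose = -A) : ∃ K > 0,
    ∀ φ : EE V → F, Tst φ → ∀ R > 0, (∀ x, R ≤ ‖x‖ → φ x = 0) → ∀ t : ℝ,
      n2 (fun x => M.rot G A t φ x - φ x) ≤ K * |t| * (√(n2 φ) * √(R ^ 2 * M.q0 G 1 φ)) := by
  obtain ⟨K, hK, hJ⟩ := M.J_pair G hA
  refine ⟨4 * K, by positivity, fun φ h R hR h0 t => ?_⟩
  have hd := fun s => M.rot_pair_deriv G hA h h s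
  have hb : ∀ s : ℝ, ‖(-I) * ∫ x, ⟪φ x, M.J G A (M.rot G A s φ) x⟫_ℂ‖ ≤
      2 * K * (√(n2 φ) * √(R ^ 2 * M.q0 G 1 φ)) := by
    intro s
    have h1 := hJ _ φ (M.rot_tst G hA s h) h R hR (M.rot_supp G hA s h0) h0
    rw [M.rot_n2 G hA, M.rot_q0 G hA s 1 h] at h1
    rw [norm_mul, norm_neg, Complex.norm_I, one_mul, Real.sqrt_mul (sq_nonneg _),
      Real.sqrt_sq hR.le]
    refine h1.trans (le_of_eq ?_)
    ring
  have hm := Convex.norm_image_sub_le_of_norm_hasDerivWithin_le (s := Set.univ)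
    (fun s _ => (hd s).hasDerivWithinAt) (fun s _ => hb s) convex_univ (Set.mem_univ 0)
    (Set.mem_univ t)
  rw [M.rot_zero, int_inner_self, sub_zero, Real.norm_eq_abs] at hm
  rw [n2_sub (M.rot_tst G hA t h).memLp h.memLp, M.rot_n2 G hA]
  have h2 := (Complex.abs_re_le_norm _).trans hm
  rw [Complex.sub_re, Complex.ofReal_re] at h2
  have h3 := (abs_le.1 h2).1
  linarith

/-- Hasler-Hoppe theorem: `aei_lim` with the functions of `Ker_cut` (their `n2` is bounded by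
`2 ε + 2 n2 ψ`), `n2_rot_sub`, `rot_close` -/
theorem Mod.Ker_arinv (M : Mod V F) (G : Gam) {A : M9} (hA : A.transpose = -A)
    {ψ : Lp F 2 (volume : Measure (EE V))} (h : ψ ∈ M.Ker G) : M.ARInv G A ψ := by
  obtain ⟨K, hK, hc⟩ := M.rot_close G hA
  intro t
  refine aei_lim (cv_R_inner hA t) (Lp.memLp ψ) fun ε hε => ?_
  have h1 : Tendsto (fun δ : ℝ => K * |t| * (√(2 * δ + 2 * n2 (ψ : EE V → F)) * √δ)) (𝓝 0)
      (𝓝 (K * |t| * (√(2 * 0 + 2 * n2 (ψ : EE V → F)) * √0))) :=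
    Continuous.tendsto (by fun_prop) _
  rw [Real.sqrt_zero, mul_zero, mul_zero] at h1
  have h2 : ∀ᶠ δ : ℝ in 𝓝[>] 0, (K * |t| * (√(2 * δ + 2 * n2 (ψ : EE V → F)) * √δ) ≤ ε ∧ δ ≤ ε) ∧
      0 < δ :=
    (((h1.eventually (ge_mem_nhds hε)).and (ge_mem_nhds hε)).filter_mono nhdsWithin_le_nhds).and
      self_mem_nhdsWithin
  obtain ⟨δ, ⟨h3, h4⟩, h5⟩ := h2.exists
  obtain ⟨φ, R, hR, hφ, -, h0, h6, h7⟩ := M.Ker_cut G h h5
  refine ⟨φ, hφ.memLp, h6.trans h4, ?_⟩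
  rw [M.n2_rot_sub G hA]
  refine (hc φ hφ R hR h0 t).trans (le_trans ?_ h3)
  have h8 : n2 φ ≤ 2 * δ + 2 * n2 (ψ : EE V → F) := by
    have h9 := n2_add_two (hφ.memLp.sub (Lp.memLp ψ)) (Lp.memLp ψ)
    simp only [Pi.sub_apply, sub_add_cancel] at h9
    have h10 : n2 (φ - (ψ : EE V → F)) ≤ δ := h6
    have h11 : n2 φ ≤ 2 * n2 (φ - (ψ : EE V → F)) + 2 * n2 (ψ : EE V → F) := h9
    linarith
  exact mul_le_mul_of_nonneg_left (mul_le_mul (Real.sqrt_le_sqrt h8) (Real.sqrt_le_sqrt h7)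
    (Real.sqrt_nonneg _) (Real.sqrt_nonneg _)) (by positivity)


end Vale.Agent.P353
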