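import Mathlib

open MeasureTheory NormedSpace Filter Topology
open Complex (I)
open scoped InnerProductSpace ContDiff

noncomputable section
namespace Vale.Agent.P353
variable {W H : Type} [AddCommGroup W] [Module ℂ W] [NormedAddCommGroup H] [InnerProductSpace ℂ H]
  [CompleteSpace H]

/-! Abstract supersymmetric system (module H of P353): a space `W` of test vectors, mapped into a
Hilbert space `H`, with symmetric odd operators `D0 + μ B` and a grading. -/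

structure Sys (W H : Type) [AddCommGroup W] [Module ℂ W] [NormedAddCommGroup H]
    [InnerProductSpace ℂ H] where
  j : W →ₗ[ℂ] H
  D0 : W →ₗ[ℂ] W
  B : W →ₗ[ℂ] W
  G : W →ₗ[ℂ] W
  GH : H →L[ℂ] H
  sym0 : ∀ u v, ⟪j (D0 u), j v⟫_ℂ = ⟪j u, j (D0 v)⟫_ℂ
  symB : ∀ u v, ⟪j (B u), j v⟫_ℂ = ⟪j u, j (B v)⟫_ℂ
  symG : ∀ f g, ⟪GH f, g⟫_ℂ = ⟪f, GH g⟫_ℂ
  GG : ∀ u, G (G u) = u
  GHGH : ∀ f, GH (GH f) = f
  jG : ∀ u, j (G u) = GH (j u)
  anti0 : ∀ u, D0 (G u) = -G (D0 u)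
  antiB : ∀ u, B (G u) = -G (B u)

namespace Sys
variable (S : Sys W H)

/-- the operator at parameter `μ` -/
def D (μ : ℝ) : W →ₗ[ℂ] W := S.D0 + (μ : ℂ) • S.B

/-- the same system with the opposite grading -/
def neg : Sys W H where
  j := S.j
  D0 := S.D0
  B := S.B
  G := -S.G
  GH := -S.GH
  sym0 := S.sym0
  symB := S.symB
  symG f g := by simp [S.symG]
  GG u := by simp [S.GG]
  GHGH f := by simp [S.GHGH]
  jG u := by simp [S.jG]
  anti0 u := by simp [S.anti0]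
  antiB u := by simp [S.antiB]

/-- even test vectors -/
def Wp : Submodule ℂ W := LinearMap.ker (S.G - LinearMap.id)
/-- the even part of the Hilbert space -/
def Hp : Submodule ℂ H := (S.Wp.map S.j).topologicalClosure
/-- even weak solutions -/
def Kp (μ : ℝ) : Submodule ℂ H := S.Hp ⊓ (S.neg.Wp.map (S.j ∘ₗ S.D μ))ᗮ
/-- the even part of a test vector -/
def ev (u : W) : W := (1 / 2 : ℂ) • (u + S.G u)

/-- relative bound, compactness, and weak solutions are strong solutions -/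
structure Good (μ : ℝ) : Prop where
  rel : ∃ C : ℝ, ∀ u, ‖S.j (S.B u)‖ ≤ C * (‖S.j (S.D μ u)‖ + ‖S.j u‖)
  cpt : ∀ (u : ℕ → W) (C : ℝ), (∀ n, ‖S.j (u n)‖ ≤ C) → (∀ n, ‖S.j (S.D μ (u n))‖ ≤ C) →
    ∃ κ : ℕ → ℕ, StrictMono κ ∧ ∃ f, Tendsto (fun n => S.j (u (κ n))) atTop (𝓝 f)
  esa : ∀ f ∈ closure (Set.range S.j), (∀ u, ⟪S.j (S.D μ u), f⟫_ℂ = 0) →
    ∀ ε > 0, ∃ u, ‖S.j u - f‖ ≤ ε ∧ ‖S.j (S.D μ u)‖ ≤ ε

/-- the index -/
def ind (μ : ℝ) : ℤ := (Module.finrank ℂ (S.Kp μ) : ℤ) - Module.finrank ℂ (S.neg.Kp μ)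

lemma mem_Wp (u : W) : u ∈ S.Wp ↔ S.G u = u := by simp [Wp, sub_eq_zero]
lemma mem_Wm (u : W) : u ∈ S.neg.Wp ↔ S.G u = -u := by
  rw [mem_Wp]; simp [neg, neg_eq_iff_eq_neg]
@[simp] lemma neg_j : S.neg.j = S.j := rfl
@[simp] lemma neg_D (μ : ℝ) : S.neg.D μ = S.D μ := rfl
@[simp] lemma neg_B : S.neg.B = S.B := rfl
@[simp] lemma neg_D0 : S.neg.D0 = S.D0 := rfl
@[simp] lemma neg_neg' : S.neg.neg = S := by cases S; simp [neg]
lemma D_apply (μ : ℝ) (u : W) : S.D μ u = S.D0 u + (μ : ℂ) • S.B u := rfl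
lemma Good.neg {S : Sys W H} {μ : ℝ} (h : S.Good μ) : S.neg.Good μ := ⟨h.rel, h.cpt, h.esa⟩

end Sys

end Vale.Agent.P353
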