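import Vale.Agent.P353.HDom

open MeasureTheory NormedSpace Filter Topology
open Complex (I)
open scoped InnerProductSpace ContDiff

noncomputable section
namespace Vale.Agent.P353
variable {V F : Type} [NormedAddCommGroup V] [InnerProductSpace ℝ V] [FiniteDimensional ℝ V]
  [MeasurableSpace V] [BorelSpace V]
  [NormedAddCommGroup F] [InnerProductSpace ℂ F] [CompleteSpace F]

/-- `agmon` for the form `q 1 mu` on the class `M.Dom P` with the constant weight `W = c * mu`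
(`D_sq'` for nonnegativity, `Dom.rad`, `wt_mono` to drop the last term of `PO`); take `ε0 ≤ 1`. -/
theorem Mod.agmon' (M : Mod V F) (P : Par) (hO : M.PO P) : ∃ R0 > 0, ∃ c > 0, ∃ ε0 > 0, ∃ C > 0,
    ∀ mu : ℝ, 0 < mu → mu ≤ ε0 → ∀ ρ ≥ R0, ∀ φ : EE V → F, M.Dom P φ →
      wt (fun x => (‖x‖ ^ 2 / (1 + ‖x‖ ^ 2 / ρ ^ 2)) ^ 2 * (1 / (100 * (1 + ‖x‖ ^ 2)) + c * mu / 2)) φ ≤
        1000 * ρ ^ 4 * M.q P 1 mu φ + C * n2 φ := by
  obtain ⟨R0, hR, c, hc, ε0, hε0, hPO⟩ := hO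
  obtain ⟨C, hC, hA⟩ := agmon (V := V) (F := F) hR
  refine ⟨2 * R0, by positivity, c, hc, min ε0 1, by positivity, C * (1 + c), by positivity,
    fun mu hmu0 hmu ρ hρ φ hφ => ?_⟩
  have m1 : mu ≤ ε0 := hmu.trans (min_le_left _ _)
  have m2 : mu ≤ 1 := hmu.trans (min_le_right _ _)
  obtain ⟨c1, c2⟩ := M.q_cont P 1 mu
  have hag := hA _ _ (fun _ => c * mu) {φ : EE V → F | M.Dom P φ} c1 c2 continuous_const
    (fun _ => by positivity)
    (fun φ hφ => ⟨hφ.1, (n2_nonneg _).trans_eq (M.D_sq' P 1 mu hφ.1 hφ.2.1 hφ.2.2)⟩)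
    (fun φ hφ a ha hr => Mod.Dom.rad hφ ha hr)
    (fun φ hφ hs => by
      have cc : ContinuousOn (fun x : EE V => (21 / 10) / ‖x‖ ^ 2) (tsupport φ) :=
        continuousOn_const.div (by fun_prop) fun x hx => (pow_pos (hR.trans_le (hs x hx)) 2).ne'
      refine le_trans (wt_mono hφ.1 (cc.add continuousOn_const)
        ((cc.add continuousOn_const).add (by fun_prop)) fun x _ => ?_)
        (hPO mu hmu0.le m1 φ hφ.1 hφ.2.1 hs)
      exact le_add_of_nonneg_right (by positivity))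
    ρ hρ φ hφ
  have b1 : wt (fun _ => 1 + c * mu) (fun x =>
      (Metric.closedBall (0 : EE V) (2 * R0)).indicator φ x) ≤ (1 + c) * n2 φ := by
    rw [← wt_const]
    refine integral_mono_of_nonneg (Filter.Eventually.of_forall fun x => by positivity)
      (hφ.1.int_wt continuousOn_const) (Filter.Eventually.of_forall fun x => ?_)
    by_cases hx : x ∈ Metric.closedBall (0 : EE V) (2 * R0)
    · simp only [Set.indicator_of_mem hx]
      refine mul_le_mul_of_nonneg_right ?_ (sq_nonneg _)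
      linarith [mul_le_mul_of_nonneg_left m2 hc.le]
    · simp only [Set.indicator_of_notMem hx, norm_zero]
      rw [zero_pow two_ne_zero, mul_zero]
      positivity
  have b2 := mul_le_mul_of_nonneg_left b1 hC.le
  refine hag.trans ?_
  rw [mul_assoc C]
  exact add_le_add le_rfl b2

/-- the two elementary lower bounds for the weight, `r = ‖x‖ ^ 2` -/
theorem agmon_wt {r ρ a : ℝ} (hρ : 0 < ρ) (ha : 0 ≤ a) (hr : 1 ≤ r) :
    (r ≤ ρ ^ 2 → r / 800 ≤ (r / (1 + r / ρ ^ 2)) ^ 2 * (1 / (100 * (1 + r)) + a / 2)) ∧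
    (ρ ^ 2 ≤ r → ρ ^ 4 * a / 8 ≤ (r / (1 + r / ρ ^ 2)) ^ 2 * (1 / (100 * (1 + r)) + a / 2)) := by
  have h0 : 0 < r := by linarith
  have h2 : 0 < ρ ^ 2 := by positivity
  constructor
  · intro h
    have k1 : r / 2 ≤ r / (1 + r / ρ ^ 2) :=
      div_le_div_of_nonneg_left h0.le (by positivity) (by linarith [(div_le_one h2).2 h])
    have k2 : 1 / (200 * r) ≤ 1 / (100 * (1 + r)) + a / 2 :=
      (one_div_le_one_div_of_le (by positivity) (by linarith)).trans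
        (le_add_of_nonneg_right (by positivity))
    refine le_trans (le_of_eq ?_) (mul_le_mul (pow_le_pow_left₀ (by positivity) k1 2) k2
      (by positivity) (by positivity))
    field_simp
    norm_num
  · intro h
    have k1 : ρ ^ 2 / 2 ≤ r / (1 + r / ρ ^ 2) := by
      rw [le_div_iff₀ (by positivity)]
      have : ρ ^ 2 / 2 * (1 + r / ρ ^ 2) = (ρ ^ 2 + r) / 2 := by field_simp
      linarith
    have k2 : a / 2 ≤ 1 / (100 * (1 + r)) + a / 2 := le_add_of_nonneg_left (by positivity)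
    refine le_trans (le_of_eq ?_) (mul_le_mul (pow_le_pow_left₀ (by positivity) k1 2) k2
      (by positivity) (by positivity))
    ring

theorem HTight1_cont {ρ : ℝ} (a : ℝ) : Continuous fun x : EE V =>
    (‖x‖ ^ 2 / (1 + ‖x‖ ^ 2 / ρ ^ 2)) ^ 2 * (1 / (100 * (1 + ‖x‖ ^ 2)) + a / 2) :=
  (Continuous.pow (Continuous.div (by fun_prop) (by fun_prop) fun x => by positivity) 2).mul
    ((Continuous.div (by fun_prop) (by fun_prop) fun x => by positivity).add (by fun_prop))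

/-- take `ρ ^ 4 = K / mu` with `K` large, `L ≥ 1` large, `δ ≤ 1 / (1000 K)`; `tail_le_wt` with
`m = min (L ^ 2 / 800) (c K / 8)` -/
theorem Mod.tail_unif (M : Mod V F) (P : Par) (hO : M.PO P) {ε : ℝ} (hε : 0 < ε) :
    ∃ L > 0, ∃ δ > 0, ∀ mu : ℝ, 0 < mu → mu ≤ δ → ∀ φ : EE V → F, M.Dom P φ → n2 φ = 1 →
      M.q P 1 mu φ ≤ δ * mu → tail L φ ≤ ε := by
  obtain ⟨R0, hR, c, hc, ε0, hε0, C, hC, hA⟩ := M.agmon' P hO
  obtain ⟨m, hm⟩ : ∃ m, m = (1 + C) / ε := ⟨_, rfl⟩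
  have hm0 : 0 < m := by rw [hm]; positivity
  obtain ⟨K, hK⟩ : ∃ K, K = 8 * m / c := ⟨_, rfl⟩
  have hK0 : 0 < K := by rw [hK]; positivity
  refine ⟨max 1 (800 * m), by positivity, min (min ε0 (1 / (1000 * K))) (K / R0 ^ 4),
    by positivity, fun mu h0 h1 φ hφ hn hq => ?_⟩
  obtain ⟨ρ, hρ0, hρ⟩ : ∃ ρ : ℝ, 0 < ρ ∧ ρ ^ 4 = K / mu := by
    refine ⟨√(√(K / mu)), by positivity, ?_⟩
    rw [show (4 : ℕ) = 2 * 2 from rfl, pow_mul, Real.sq_sqrt (by positivity),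
      Real.sq_sqrt (by positivity)]
  have hRρ : R0 ≤ ρ := by
    refine le_of_pow_le_pow_left₀ four_ne_zero hρ0.le ?_
    have := (le_div_iff₀ (by positivity)).1 (h1.trans (min_le_right _ _))
    rw [hρ, le_div_iff₀ h0]
    linarith
  have h2 := hA mu h0 (h1.trans ((min_le_left _ _).trans (min_le_left _ _))) ρ hRρ φ hφ
  have h3 := tail_le_wt hφ.1.memLp (hφ.1.int_wt (HTight1_cont (ρ := ρ) (c * mu)).continuousOn)
    (m := m) (R := max 1 (800 * m)) (fun x => by positivity) fun x hx => by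
      have a1 : 1 ≤ ‖x‖ := (le_max_left _ _).trans hx
      have a2 : 800 * m ≤ ‖x‖ := (le_max_right _ _).trans hx
      have a3 : ‖x‖ ≤ ‖x‖ ^ 2 := le_self_pow₀ a1 two_ne_zero
      obtain ⟨k1, k2⟩ := agmon_wt (a := c * mu) hρ0 (by positivity) (a1.trans a3)
      rcases le_total (‖x‖ ^ 2) (ρ ^ 2) with h | h
      · exact le_trans (by linarith) (k1 h)
      · refine le_trans (le_of_eq ?_) (k2 h)
        rw [hρ, hK]
        field_simp
  have h4 : M.q P 1 mu φ ≤ 1 / (1000 * K) * mu :=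
    hq.trans (mul_le_mul_of_nonneg_right ((min_le_left _ _).trans (min_le_right _ _)) h0.le)
  have h5 := mul_le_mul_of_nonneg_left h4 (show 0 ≤ 1000 * ρ ^ 4 by positivity)
  have h6 : 1000 * ρ ^ 4 * (1 / (1000 * K) * mu) = 1 := by
    rw [hρ]
    field_simp
  have h7 : m * ε = 1 + C := by
    rw [hm]
    field_simp
  rw [hn] at h2
  exact le_of_mul_le_mul_left (by linarith) hm0

/-- `wt_mul`, `wt_mono` with `‖x‖ ^ 2 * a x ^ 2 ≤ 1 + 800 * weight` -/
theorem Mod.moment (M : Mod V F) (P : Par) (hO : M.PO P) : ∃ C > 0, ∃ δ > 0, ∀ mu : ℝ, 0 < mu →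
    mu ≤ δ → ∀ φ : EE V → F, M.Dom P φ → n2 φ = 1 → M.q P 1 mu φ ≤ mu → ∀ ρ > 0, ρ ^ 4 * mu = 1 →
      ∀ a : EE V → ℝ, Continuous a → (∀ x, |a x| ≤ 1) → (∀ x, ρ ≤ ‖x‖ → a x = 0) →
        wt (fun x => ‖x‖ ^ 2) (fun x => a x • φ x) ≤ C := by
  obtain ⟨R0, hR, c, hc, ε0, hε0, C, hC, hA⟩ := M.agmon' P hO
  refine ⟨800 * (1000 + C) + 1, by positivity, min ε0 (1 / R0 ^ 4), by positivity,
    fun mu h0 h1 φ hφ hn hq ρ hρ0 hρ a ha ha1 ha0 => ?_⟩
  have hRρ : R0 ≤ ρ := by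
    refine le_of_pow_le_pow_left₀ four_ne_zero hρ0.le (le_of_mul_le_mul_right ?_ h0)
    have := (le_div_iff₀ (by positivity)).1 (h1.trans (min_le_right _ _))
    linarith
  have h2 := hA mu h0 (h1.trans (min_le_left _ _)) ρ hRρ φ hφ
  have cw := HTight1_cont (V := V) (ρ := ρ) (c * mu)
  have h3 := wt_mono hφ.1 (w := fun x => ‖x‖ ^ 2 * a x ^ 2)
    (w' := fun x => 800 * ((‖x‖ ^ 2 / (1 + ‖x‖ ^ 2 / ρ ^ 2)) ^ 2 *
      (1 / (100 * (1 + ‖x‖ ^ 2)) + c * mu / 2)) + 1) (by fun_prop)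
    ((continuous_const.mul cw).add continuous_const).continuousOn fun x _ => by
      have k0 : 0 ≤ (‖x‖ ^ 2 / (1 + ‖x‖ ^ 2 / ρ ^ 2)) ^ 2 *
        (1 / (100 * (1 + ‖x‖ ^ 2)) + c * mu / 2) := by positivity
      rcases le_or_gt ρ ‖x‖ with h | h
      · rw [ha0 x h, zero_pow two_ne_zero, mul_zero]
        linarith
      · have a1 : a x ^ 2 ≤ 1 := (sq_le_one_iff_abs_le_one _).2 (ha1 x)
        have a2 := mul_le_mul_of_nonneg_left a1 (sq_nonneg ‖x‖)
        rcases le_total (‖x‖ ^ 2) 1 with h' | h'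
        · linarith
        · have := (agmon_wt (a := c * mu) hρ0 (by positivity) h').1
            (pow_le_pow_left₀ (norm_nonneg _) h.le 2)
          linarith
  rw [wt_add hφ.1 (w := fun x => 800 * ((‖x‖ ^ 2 / (1 + ‖x‖ ^ 2 / ρ ^ 2)) ^ 2 *
      (1 / (100 * (1 + ‖x‖ ^ 2)) + c * mu / 2))) (continuous_const.mul cw).continuousOn
      continuousOn_const, wt_smul, wt_one, hn] at h3
  have h5 := mul_le_mul_of_nonneg_left hq (show 0 ≤ 1000 * ρ ^ 4 by positivity)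
  rw [hn] at h2
  rw [wt_mul]
  linarith

end Vale.Agent.P353
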