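import Vale.Agent.P353.IDefs
import Vale.Agent.P353.GBump
import Vale.Agent.P353.AForm2
import Vale.Agent.P353.AScale

open MeasureTheory NormedSpace
open Complex (I)
open scoped InnerProductSpace ContDiff

noncomputable section
namespace Vale.Agent.P353
variable {V F : Type} [NormedAddCommGroup V] [InnerProductSpace ℝ V] [FiniteDimensional ℝ V]
  [MeasurableSpace V] [BorelSpace V]
  [NormedAddCommGroup F] [InnerProductSpace ℂ F] [CompleteSpace F]

/-- the weight on one annulus -/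
def iannW (c mu : ℝ) (x : EE V) : ℝ := (43 / 20) / ‖x‖ ^ 2 + c * mu + c * mu ^ 2 * ‖x‖ ^ 2

omit [FiniteDimensional ℝ V] [MeasurableSpace V] [BorelSpace V] in
theorem iann_cont (a b d : ℝ) {T : Set (EE V)} {R : ℝ} (hR : 0 < R) (h : ∀ x ∈ T, R ≤ ‖x‖) :
    ContinuousOn (fun x : EE V => a / ‖x‖ ^ 2 + b + d * ‖x‖ ^ 2) T := by
  refine (ContinuousOn.add (continuousOn_const.div (by fun_prop) fun x hx => ?_)
    continuousOn_const).add (by fun_prop)
  exact pow_ne_zero _ (hR.trans_le (h x hx)).ne'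

omit [MeasurableSpace V] [BorelSpace V] in
theorem iann_inv {M : Mod V F} {φ : EE V → F} (h : M.Inv φ) {a : EE V → ℝ} (ha : M.L.SInv a) :
    M.Inv fun x => a x • φ x := fun ξ x => by
  simp only [ha ξ x, h ξ x, ContinuousLinearMap.map_smul_of_tower]

theorem iann_piece (M : Mod V F) (P : Par) (h : M.PK P (Module.finrank ℝ V + 1)) {L : ℝ}
    (hL : 0 < L) : ∃ R0 > 0, ∃ c > 0, ∃ ε0 > 0, ∀ mu : ℝ, 0 ≤ mu → mu ≤ ε0 → ∀ R ≥ R0,
      ∀ φ : EE V → F, Tst φ → M.Inv φ → (∀ x ∈ tsupport φ, R ≤ ‖x‖ ∧ ‖x‖ ≤ R * L) →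
        wt (iannW c mu) φ ≤ M.q P 1 mu φ := by
  have := FiniteDimensional.proper_real (EE V)
  have hK : IsCompact {x : EE V | 1 ≤ ‖x‖ ∧ ‖x‖ ≤ L} :=
    (isCompact_closedBall (0 : EE V) L).of_isClosed_subset
      ((isClosed_le continuous_const continuous_norm).inter
        (isClosed_le continuous_norm continuous_const))
      fun x hx => mem_closedBall_zero_iff.2 hx.2
  have hsat : M.L.sat {x : EE V | 1 ≤ ‖x‖ ∧ ‖x‖ ≤ L} = {x : EE V | 1 ≤ ‖x‖ ∧ ‖x‖ ≤ L} := by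
    refine Set.Subset.antisymm ?_ (CL.subset_sat _)
    rintro x ⟨g, hg, hx⟩
    simpa only [Set.mem_ofPred_eq, CL.G_norm hg] using hx
  have hdis : Disjoint {x : EE V | 1 ≤ ‖x‖ ∧ ‖x‖ ≤ L} (M.L.Str (Module.finrank ℝ V + 1)) :=
    Set.disjoint_left.2 fun x _ hx => by
      have h1 := hx.2
      have h2 := Submodule.finrank_le (M.L.cent x)
      omega
  obtain ⟨c, hc, lam0, h0, ε0, hε, H⟩ := h _ hK hsat
    (fun h => not_lt.2 (h.1.trans_eq norm_zero) one_pos) hdis (1 / 20 / L ^ 2) (by positivity)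
  refine ⟨max 1 lam0, lt_max_of_lt_left one_pos, c, hc, min 1 ε0, lt_min one_pos hε,
    fun mu hmu hmu' R hR φ hφ hi hs => ?_⟩
  have hR1 : 1 ≤ R := (le_max_left _ _).trans hR
  have hR0 : 0 < R := one_pos.trans_le hR1
  have h1 : lam0 ≤ 1 * R ^ 3 :=
    ((le_max_right _ _).trans hR).trans (by rw [one_mul]; exact le_self_pow₀ hR1 (by norm_num))
  have h2 : (mu * R ^ 2) ^ 3 ≤ ε0 * (1 * R ^ 3) ^ 2 := by
    have h3 : mu ^ 3 ≤ ε0 :=
      (pow_le_of_le_one hmu (hmu'.trans (min_le_left _ _)) (by norm_num)).trans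
        (hmu'.trans (min_le_right _ _))
    calc (mu * R ^ 2) ^ 3 = mu ^ 3 * R ^ 6 := by ring
      _ ≤ ε0 * R ^ 6 := by gcongr
      _ = _ := by ring
  have h3 := H _ h1 _ (by positivity) h2 _ (hφ.scale hR0) (hi.scale R) fun x hx => by
    have h4 := hs _ ((tsupport_scale φ hR0).1 hx)
    rw [norm_smul, Real.norm_of_nonneg hR0.le] at h4
    exact ⟨le_of_mul_le_mul_left (by simpa using h4.1) hR0, le_of_mul_le_mul_left h4.2 hR0⟩
  have e : tw c (1 / 20 / L ^ 2) (mu * R ^ 2) = fun x : EE V =>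
      (fun y : EE V => R ^ 2 * (22 / 10) / ‖y‖ ^ 2 + (R ^ 2 * (c * mu) - 1 / 20 / L ^ 2) +
        R ^ 2 * (c * mu ^ 2) * ‖y‖ ^ 2) (R • x) := by
    funext x
    simp only [tw, norm_smul, Real.norm_of_nonneg hR0.le, mul_pow]
    rw [mul_div_mul_left _ _ (pow_ne_zero 2 hR0.ne')]
    ring
  rw [e, wt_scale (fun y : EE V => R ^ 2 * (22 / 10) / ‖y‖ ^ 2 +
    (R ^ 2 * (c * mu) - 1 / 20 / L ^ 2) + R ^ 2 * (c * mu ^ 2) * ‖y‖ ^ 2) φ hR0,
    M.q_scale P 1 mu hφ hR0, mul_assoc] at h3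
  have h4 := le_of_mul_le_mul_left h3 (by positivity)
  refine le_of_mul_le_mul_left (a := R ^ 2) (le_trans ?_ h4) (by positivity)
  rw [← wt_smul]
  refine wt_mono hφ (continuousOn_const.mul (iann_cont _ _ _ hR0 fun x hx => (hs x hx).1))
    (iann_cont _ _ _ hR0 fun x hx => (hs x hx).1) fun x hx => ?_
  have hx0 : 0 < ‖x‖ := hR0.trans_le (hs x hx).1
  have h5 : 1 / 20 / L ^ 2 ≤ R ^ 2 * (1 / 20) / ‖x‖ ^ 2 := by
    rw [div_le_div_iff₀ (by positivity) (by positivity)]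
    have h6 := pow_le_pow_left₀ hx0.le (hs x hx).2 2
    nlinarith
  have e2 : R ^ 2 * (22 / 10) / ‖x‖ ^ 2 =
      R ^ 2 * (43 / 20 / ‖x‖ ^ 2) + R ^ 2 * (1 / 20) / ‖x‖ ^ 2 := by ring
  rw [e2, iannW]
  linarith

omit [MeasurableSpace V] [BorelSpace V] in
theorem iann_angle (L : CL V) {s : ℝ} (hs : 0 < s) : ∃ ϑ : EE V → ℝ, ContDiff ℝ ∞ ϑ ∧ L.SInv ϑ ∧
    (∀ x, ‖x‖ < s → ϑ x = 0 ∧ gradient ϑ x = 0) ∧
    (∀ x, Real.exp 32 * s < ‖x‖ → ϑ x = Real.pi / 2 ∧ gradient ϑ x = 0) ∧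
    ∀ x, (1 / 2) * ‖gradient ϑ x‖ ^ 2 * ‖x‖ ^ 2 ≤ 1 / 20 := by
  borelize V
  obtain ⟨ϑ, h1, h2, h3, h4, h5⟩ := CL.log_angle (L := L) (C := {0})
    (fun g _ y hy => by rw [Set.mem_singleton_iff.1 hy, map_zero]; rfl) hs
    (Λ := Real.exp 32) (le_trans (by norm_num) (Real.add_one_le_exp 32))
  simp only [Metric.infDist_singleton, dist_zero_right, Real.log_exp] at h3 h4 h5
  refine ⟨ϑ, h1, h2, fun x hx => ⟨h3 x hx, ?_⟩, fun x hx => ⟨h4 x hx, ?_⟩, fun x => ?_⟩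
  · have e : ϑ =ᶠ[nhds x] fun _ => 0 :=
      ((isOpen_lt continuous_norm continuous_const).eventually_mem hx).mono h3
    rw [e.gradient_eq, gradient_fun_const]
  · have e : ϑ =ᶠ[nhds x] fun _ => Real.pi / 2 :=
      ((isOpen_lt continuous_const continuous_norm).eventually_mem hx).mono h4
    rw [e.gradient_eq, gradient_fun_const]
  · have h6 := pow_le_pow_left₀ (by positivity) (h5 x) 2
    rw [mul_pow] at h6
    linarith

theorem iann_ind (M : Mod V F) (P : Par) {c mu R : ℝ} (hR : 0 < R)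
    (H : ∀ R' ≥ R, ∀ φ : EE V → F, Tst φ → M.Inv φ →
      (∀ x ∈ tsupport φ, R' ≤ ‖x‖ ∧ ‖x‖ ≤ R' * (2 * Real.exp 32) ^ 2) →
        wt (iannW c mu) φ ≤ M.q P 1 mu φ) (N : ℕ) :
    ∃ E : EE V → ℝ, Continuous E ∧ (∀ x, E x * ‖x‖ ^ 2 ≤ 1 / 20) ∧
      (∀ x, R * (2 * Real.exp 32) ^ N ≤ ‖x‖ → E x = 0) ∧ ∀ φ : EE V → F, Tst φ → M.Inv φ →
        (∀ x ∈ tsupport φ, R ≤ ‖x‖ ∧ ‖x‖ ≤ R * (2 * Real.exp 32) ^ (N + 1)) →
          wt (fun x => iannW c mu x - E x) φ ≤ M.q P 1 mu φ := by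
  have hΛ : 1 ≤ Real.exp 32 := Real.one_le_exp (by norm_num)
  set Λ := Real.exp 32 with hΛd
  have hL : 1 ≤ 2 * Λ := by linarith
  induction N with
  | zero =>
    refine ⟨fun _ => 0, continuous_const, fun x => by norm_num, fun _ _ => rfl,
      fun φ hφ hi hs => ?_⟩
    simp only [sub_zero]
    exact H R le_rfl φ hφ hi fun x hx => ⟨(hs x hx).1, (hs x hx).2.trans
      (mul_le_mul_of_nonneg_left (pow_le_pow_right₀ hL (by norm_num)) hR.le)⟩
  | succ N ih =>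
    obtain ⟨E, hE, hE1, hE2, hE3⟩ := ih
    set s := R * (2 * Λ) ^ N with hsd
    have hs0 : 0 < s := by positivity
    have hRs : R ≤ s := le_mul_of_one_le_right hR.le (one_le_pow₀ hL)
    have hs1 : R * (2 * Λ) ^ (N + 1) = 2 * (Λ * s) := by rw [hsd]; ring
    have hs2 : s ≤ Λ * s := le_mul_of_one_le_left hs0.le hΛ
    obtain ⟨ϑ, h1, h2, h3, h4, h5⟩ := iann_angle M.L hs0
    have hg : Continuous fun x => ‖gradient ϑ x‖ ^ 2 := by
      have h6 : Continuous (gradient ϑ) :=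
        (InnerProductSpace.toDual ℝ (EE V)).symm.continuous.comp (h1.continuous_fderiv (by simp))
      fun_prop
    have hϑ := h1.continuous
    refine ⟨fun x => E x * Real.cos (ϑ x) ^ 2 + (1 / 2) * ‖gradient ϑ x‖ ^ 2, by fun_prop,
      fun x => ?_, fun x hx => ?_, fun φ hφ hi hs => ?_⟩
    · rcases lt_or_ge ‖x‖ s with hx | hx
      · simpa [h3 x hx] using hE1 x
      · simpa [hE2 x hx] using h5 x
    · rw [hs1] at hx
      simp [h4 x (by nlinarith)]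
    · have hc : ContDiff ℝ ∞ fun x => Real.cos (ϑ x) := h1.cos
      have hn : ContDiff ℝ ∞ fun x => Real.sin (ϑ x) := h1.sin
      have t1 : tsupport (fun x => Real.cos (ϑ x) • φ x) ⊆ {x | ‖x‖ ≤ Λ * s} :=
        closure_minimal (fun x hx => le_of_not_gt fun h : Λ * s < ‖x‖ =>
          hx (by simp [(h4 x h).1]))
          (isClosed_le continuous_norm continuous_const)
      have t2 : tsupport (fun x => Real.sin (ϑ x) • φ x) ⊆ {x | s ≤ ‖x‖} :=
        closure_minimal (fun x hx => le_of_not_gt fun h : ‖x‖ < s => hx (by simp [(h3 x h).1]))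
          (isClosed_le continuous_const continuous_norm)
      have a1 := hE3 _ (hφ.smul hc) (iann_inv hi fun ξ x => congrArg Real.cos (h2 ξ x))
        fun x hx => ⟨(hs x (tsupport_smul_subset_right _ _ hx)).1, by
          have h6 : ‖x‖ ≤ Λ * s := t1 hx
          rw [hs1]
          linarith⟩
      have a2 := H s hRs _ (hφ.smul hn) (iann_inv hi fun ξ x => congrArg Real.sin (h2 ξ x))
        fun x hx => ⟨t2 hx, (hs x (tsupport_smul_subset_right _ _ hx)).2.trans_eq (by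
          rw [hsd]; ring)⟩
      have a3 : M.q P 1 mu (fun x => Real.cos (ϑ x) • φ x) +
          M.q P 1 mu (fun x => Real.sin (ϑ x) • φ x) =
            M.q P 1 mu φ + (1 / 2) * wt (fun x => ‖gradient ϑ x‖ ^ 2) φ :=
        sch_ims_angle h1 (M.q_cont P 1 mu).1 (M.q_cont P 1 mu).2 hφ
      have hW : ContinuousOn (iannW c mu) (tsupport φ) :=
        iann_cont _ _ _ hR fun x hx => (hs x hx).1
      rw [wt_mul] at a1 a2
      have a4 := wt_add hφ ((hW.sub hE.continuousOn).mul (hc.continuous.pow 2).continuousOn)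
        (hW.mul (hn.continuous.pow 2).continuousOn)
      have a5 := wt_add hφ (w := fun x => iannW c mu x -
          (E x * Real.cos (ϑ x) ^ 2 + (1 / 2) * ‖gradient ϑ x‖ ^ 2))
        (w' := fun x => (1 / 2) * ‖gradient ϑ x‖ ^ 2)
        (hW.sub (Continuous.continuousOn (by fun_prop))) (Continuous.continuousOn (by fun_prop))
      have e : (fun x => iannW c mu x - (E x * Real.cos (ϑ x) ^ 2 + (1 / 2) * ‖gradient ϑ x‖ ^ 2) +
          (1 / 2) * ‖gradient ϑ x‖ ^ 2) = fun x => (iannW c mu x - E x) * Real.cos (ϑ x) ^ 2 +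
            iannW c mu x * Real.sin (ϑ x) ^ 2 := by
        funext x
        rw [Real.sin_sq]
        ring
      rw [e, wt_smul] at a5
      have a6 : wt (fun x => (iannW c mu x - E x) * Real.cos (ϑ x) ^ 2 +
          iannW c mu x * Real.sin (ϑ x) ^ 2) φ =
          wt (fun x => (iannW c mu x - E x) * Real.cos (ϑ x) ^ 2) φ +
            wt (fun x => iannW c mu x * Real.sin (ϑ x) ^ 2) φ := a4
      linarith

theorem Mod.PO_of_PK (M : Mod V F) (P : Par) (h : M.PK P (Module.finrank ℝ V + 1)) : M.PO P := by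
  obtain ⟨R, hR, c, hc, ε0, hε, H⟩ := iann_piece M P h (L := (2 * Real.exp 32) ^ 2) (by positivity)
  refine ⟨R, hR, c, hc, ε0, hε, fun mu h0 h1 φ hφ hi hs => ?_⟩
  obtain ⟨B, hB⟩ := hφ.2.isCompact.isBounded.exists_norm_le
  have hL : 1 < 2 * Real.exp 32 := by linarith [Real.one_le_exp (show (0 : ℝ) ≤ 32 by norm_num)]
  obtain ⟨N, hN⟩ := pow_unbounded_of_one_lt (B / R) hL
  obtain ⟨E, hE, hE1, -, hE3⟩ := iann_ind M P hR (H mu h0 h1) N
  refine le_trans ?_ (hE3 φ hφ hi fun x hx => ⟨hs x hx, (hB x hx).trans ?_⟩)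
  · refine wt_mono hφ (iann_cont _ _ _ hR hs) ((iann_cont _ _ _ hR hs).sub hE.continuousOn)
      fun x hx => ?_
    have hx0 : 0 < ‖x‖ := hR.trans_le (hs x hx)
    have h2 : E x ≤ 1 / 20 / ‖x‖ ^ 2 := (le_div_iff₀ (by positivity)).2 (hE1 x)
    have e : 43 / 20 / ‖x‖ ^ 2 = 21 / 10 / ‖x‖ ^ 2 + 1 / 20 / ‖x‖ ^ 2 := by ring
    rw [iannW, e]
    linarith
  · rw [div_lt_iff₀' hR] at hN
    exact hN.le.trans (mul_le_mul_of_nonneg_left (pow_le_pow_right₀ hL.le N.le_succ) hR.le)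

end Vale.Agent.P353
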