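import Vale.Agent.P353.IDefs
import Vale.Agent.P353.GGroup
import Vale.Agent.P353.AForm2

open MeasureTheory NormedSpace
open Complex (I)
open scoped InnerProductSpace ContDiff

noncomputable section
namespace Vale.Agent.P353
variable {V F : Type} [NormedAddCommGroup V] [InnerProductSpace ℝ V] [FiniteDimensional ℝ V]
  [MeasurableSpace V] [BorelSpace V]
  [NormedAddCommGroup F] [InnerProductSpace ℂ F] [CompleteSpace F]

theorem ibase_norm {S : Type} [NormedAddCommGroup S] (a b : S) :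
    (1 / 4) * ‖a‖ ^ 2 - (1 / 2) * ‖b‖ ^ 2 ≤ (1 / 2) * ‖a + b‖ ^ 2 := by
  have h : ‖a‖ ≤ ‖a + b‖ + ‖b‖ := by
    have := norm_sub_le (a + b) b
    rwa [add_sub_cancel_right] at this
  have h2 : ‖a‖ ^ 2 ≤ (‖a + b‖ + ‖b‖) ^ 2 := pow_le_pow_left₀ (norm_nonneg _) h 2
  nlinarith [sq_nonneg (‖a + b‖ - ‖b‖)]

omit [FiniteDimensional ℝ V] [MeasurableSpace V] [BorelSpace V] in
theorem ibase_tw (c η mu : ℝ) {K : Set (EE V)} (h0 : 0 ∉ K) : ContinuousOn (tw c η mu) K := by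
  unfold tw
  refine ((ContinuousOn.add (ContinuousOn.div continuousOn_const (by fun_prop) ?_)
    continuousOn_const).add (by fun_prop)).sub continuousOn_const
  intro x hx
  have : x ≠ 0 := fun h => h0 (h ▸ hx)
  positivity

theorem ibase_arith {m C θ lam mu η a b n s t g : ℝ} (hm : 0 < m) (hC : 1 ≤ C) (hθ0 : 0 < θ)
    (hθ1 : θ ≤ 1) (hθ : 8 * C * θ ≤ m) (hl1 : 1 ≤ lam) (hl : 32 * C ≤ m * lam) (hmu : 0 ≤ mu)
    (hmul : mu ≤ θ * lam) (hη : 0 < η) (ha : a ≤ C) (hn : n ≤ C) (hs : 2 * m ≤ s) (ht : t ≤ C)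
    (hg : g ≤ lam * C + mu * C) (hb : (1 / 4) * (lam ^ 2 * s) - (1 / 2) * (mu ^ 2 * t) ≤ b) :
    a + 1 * mu + 1 * mu ^ 2 * n - η + g ≤ b := by
  have h1 : mu ≤ lam := hmul.trans (by nlinarith)
  have h2 : mu ^ 2 ≤ θ * lam ^ 2 := by
    have : mu * mu ≤ (θ * lam) * lam := mul_le_mul hmul h1 hmu (by positivity)
    nlinarith
  have h3 : mu ^ 2 * n ≤ mu ^ 2 * C := mul_le_mul_of_nonneg_left hn (sq_nonneg _)
  have h4 : mu ^ 2 * t ≤ mu ^ 2 * C := mul_le_mul_of_nonneg_left ht (sq_nonneg _)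
  have h5 : mu ^ 2 * C ≤ θ * lam ^ 2 * C := mul_le_mul_of_nonneg_right h2 (by linarith)
  have h6 : 8 * C * θ * lam ^ 2 ≤ m * lam ^ 2 := mul_le_mul_of_nonneg_right hθ (sq_nonneg _)
  have h7 : lam ^ 2 * (2 * m) ≤ lam ^ 2 * s := mul_le_mul_of_nonneg_left hs (sq_nonneg _)
  have h8 : 32 * C * lam ≤ m * lam * lam := mul_le_mul_of_nonneg_right hl (by linarith)
  have h9 : mu * C ≤ lam * C := mul_le_mul_of_nonneg_right h1 (by linarith)
  have h10 : lam ≤ lam * C := by nlinarith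
  have h11 : C ≤ lam * C := by nlinarith
  nlinarith

/-- away from the commuting variety the potential dominates -/
theorem Mod.PK_zero (M : Mod V F) (P : Par) : M.PK P 0 := by
  intro K hK _ h0 hd η hη
  refine ⟨1, one_pos, ?_⟩
  obtain ⟨m, hm, hmK⟩ : ∃ m > 0, ∀ x ∈ K, m ≤ M.L.pot x := by
    refine hK.exists_forall_le' (contDiff_pot M.L).continuous.continuousOn fun x hx => ?_
    refine lt_of_le_of_ne (pot_nonneg _ _) fun h => ?_
    exact Set.disjoint_left.1 hd hx ⟨(pot_eq_zero _ _).1 h.symm, Nat.zero_le _⟩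
  obtain ⟨Γ, hΓ⟩ := Gm_clm P.toGam M.L
  obtain ⟨σ, hσ⟩ := M.C.spin_clm
  have hne : ∀ x ∈ K, ‖x‖ ^ 2 ≠ 0 := fun x hx => by
    have : x ≠ 0 := fun h => h0 (h ▸ hx)
    positivity
  have hc : ContinuousOn (fun x : EE V => (22 / 10) / ‖x‖ ^ 2 + ‖x‖ ^ 2 + ‖P.s1 x‖ ^ 2 +
      ‖σ (Γ x)‖ + ‖σ (mat P.M1)‖ + 1) K :=
    (((((ContinuousOn.div continuousOn_const (by fun_prop) hne).add (by fun_prop)).add
      (by fun_prop)).add (by fun_prop)).add continuousOn_const).add continuousOn_const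
  obtain ⟨C0, hC0⟩ := hK.exists_bound_of_continuousOn hc
  set C := max C0 1 with hCdef
  have hC1 : 1 ≤ C := le_max_right _ _
  have hb : ∀ x ∈ K, (22 / 10) / ‖x‖ ^ 2 ≤ C ∧ ‖x‖ ^ 2 ≤ C ∧ ‖P.s1 x‖ ^ 2 ≤ C ∧
      ‖σ (Γ x)‖ ≤ C ∧ ‖σ (mat P.M1)‖ ≤ C := by
    intro x hx
    have h1 := (le_abs_self _).trans ((hC0 x hx).trans (le_max_left C0 1))
    have p1 : 0 ≤ (22 / 10) / ‖x‖ ^ 2 := by positivity
    have p2 : 0 ≤ ‖x‖ ^ 2 := by positivity
    have p3 : 0 ≤ ‖P.s1 x‖ ^ 2 := by positivity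
    have p4 := norm_nonneg (σ (Γ x))
    have p5 := norm_nonneg (σ (mat P.M1))
    refine ⟨?_, ?_, ?_, ?_, ?_⟩ <;> linarith
  set θ := min 1 (m / (8 * C)) with hθdef
  have hθ0 : 0 < θ := lt_min one_pos (by positivity)
  have hθ : 8 * C * θ ≤ m := by
    have := min_le_right 1 (m / (8 * C))
    rw [← hθdef, le_div_iff₀ (by positivity)] at this
    linarith
  refine ⟨max 1 (32 * C / m), lt_max_of_lt_left one_pos, θ ^ 3, by positivity,
    fun lam hlam mu hmu hmu3 φ hφ _ hs => ?_⟩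
  have hl1 : 1 ≤ lam := (le_max_left _ _).trans hlam
  have hl : 32 * C ≤ m * lam := by
    have := (le_max_right _ _).trans hlam
    rw [div_le_iff₀ hm] at this
    linarith
  have hmul : mu ≤ θ * lam := by
    refine le_of_pow_le_pow_left₀ (n := 3) (by norm_num) (by positivity) (hmu3.trans ?_)
    rw [mul_pow]
    exact mul_le_mul_of_nonneg_left (pow_le_pow_right₀ hl1 (by norm_num)) (by positivity)
  obtain ⟨hw, hB⟩ := M.q_cont P lam mu
  have htw := (ibase_tw 1 η mu h0).mono hs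
  have h1 := abs_opf_le hφ (w := fun _ => lam * C + mu * C) continuousOn_const hB.continuousOn
    (fun x hx => by
      obtain ⟨-, -, -, b4, b5⟩ := hb x (hs hx)
      rw [norm_smul, Complex.norm_I, one_mul, ← hσ, ← hΓ, map_add, map_smul, map_smul]
      refine (norm_add_le _ _).trans ?_
      rw [norm_smul, norm_smul, norm_neg, Real.norm_of_nonneg (by linarith),
        Real.norm_of_nonneg hmu]
      exact add_le_add (mul_le_mul_of_nonneg_left b4 (by linarith))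
        (mul_le_mul_of_nonneg_left b5 hmu))
  have h2 := wt_add hφ htw (w' := fun _ => lam * C + mu * C) continuousOn_const
  have h3 := wt_mono hφ (w := fun x => tw 1 η mu x + (lam * C + mu * C)) (htw.add (continuousOn_const (c := lam * C + mu * C))) hw.continuousOn
    (fun x hx => by
      obtain ⟨b1, b2, b3, -, -⟩ := hb x (hs hx)
      have e1 := norm_s0 P.toGam M.L P.he x
      have e2 := hmK x (hs hx)
      refine ibase_arith (s := ‖s0 P.toGam M.L P.e x‖ ^ 2) hm hC1 hθ0 (min_le_left _ _) hθ hl1 hl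
        hmu hmul hη b1 b2 (by linarith) b3 le_rfl ?_
      have := ibase_norm (lam • s0 P.toGam M.L P.e x) (mu • P.s1 x)
      rwa [norm_smul, norm_smul, mul_pow, mul_pow, Real.norm_eq_abs, Real.norm_eq_abs, sq_abs,
        sq_abs] at this)
  have h4 := kin_nonneg φ
  have h5 := neg_abs_le (opf (fun x => I • M.C.spin ((-lam) • Gm P.toGam M.L x + mu • mat P.M1)) φ)
  unfold Mod.q sch
  linarith

end Vale.Agent.P353
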