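import Vale.Agent.P353.IDefs
import Vale.Agent.P353.GPatch

open MeasureTheory NormedSpace
open Complex (I)
open scoped InnerProductSpace ContDiff

noncomputable section
namespace Vale.Agent.P353
variable {V : Type} [NormedAddCommGroup V] [InnerProductSpace ℝ V] [FiniteDimensional ℝ V]
  {L : CL V}

section gen
variable {E : Type} [NormedAddCommGroup E] [NormedSpace ℝ E]

theorem icalc_diff {a : E → ℝ} (ha : ContDiff ℝ ∞ a) : Differentiable ℝ a :=
  ha.differentiable (by simp)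

theorem icalc_D {a : E → ℝ} (ha : ContDiff ℝ ∞ a) : ContDiff ℝ ∞ (fderiv ℝ a) :=
  ha.fderiv_right (m := ∞) (by simp)

theorem icalc_d2 {a : E → ℝ} (ha : ContDiff ℝ ∞ a) (x w : E) :
    HasFDerivAt (fun y => fderiv ℝ a y w) ((fderiv ℝ (fderiv ℝ a) x).flip w) x := by
  have h := (((icalc_D ha).differentiable (by simp)) x).hasFDerivAt.clm_apply
    (hasFDerivAt_const w x)
  simpa using h

theorem icalc_h0 {a : E → ℝ} (ha : ContDiff ℝ ∞ a) (x : E) :
    HasFDerivAt (fun y => a y ^ 2) ((2 * a x) • fderiv ℝ a x) x := by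
  simpa using ((icalc_diff ha) x).hasFDerivAt.pow 2

theorem icalc_h1 {a : E → ℝ} (ha : ContDiff ℝ ∞ a) (x v : E) :
    ∃ A : E →L[ℝ] ℝ, HasFDerivAt (fun y => a y * fderiv ℝ a y v) A x ∧
      A v = fderiv ℝ a x v ^ 2 + a x * fderiv ℝ (fderiv ℝ a) x v v := by
  refine ⟨_, ((icalc_diff ha) x).hasFDerivAt.mul (icalc_d2 ha x v), ?_⟩
  simp
  ring

theorem icalc_const {ι : Type} (T : Finset ι) {a : ι → E → ℝ} (ha : ∀ p ∈ T, ContDiff ℝ ∞ (a p))
    {U : Set E} (hU : IsOpen U) (h1 : ∀ x ∈ U, ∑ p ∈ T, a p x ^ 2 = 1) {x : E} (hx : x ∈ U)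
    (v : E) : ∑ p ∈ T, a p x * fderiv ℝ (a p) x v = 0 ∧
      ∑ p ∈ T, (fderiv ℝ (a p) x v ^ 2 + a p x * fderiv ℝ (fderiv ℝ (a p)) x v v) = 0 := by
  have e1 : ∀ y ∈ U, ∑ p ∈ T, a p y * fderiv ℝ (a p) y v = 0 := by
    intro y hy
    have h := HasFDerivAt.fun_sum (u := T) fun p hp => icalc_h0 (ha p hp) y
    have h' : HasFDerivAt (fun y => ∑ p ∈ T, a p y ^ 2) (0 : E →L[ℝ] ℝ) y :=
      (hasFDerivAt_const (1 : ℝ) y).congr_of_eventuallyEq
        (Filter.eventually_of_mem (hU.mem_nhds hy) h1)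
    have h2 := congrArg (fun A : E →L[ℝ] ℝ => A v) (h.unique h')
    simp only [sum_apply, smul_apply, smul_eq_mul,
      zero_apply, mul_assoc, ← Finset.mul_sum] at h2
    linarith
  refine ⟨e1 x hx, ?_⟩
  choose! A hA hA' using fun p hp => icalc_h1 (ha p hp) x v
  have h := HasFDerivAt.fun_sum (u := T) hA
  have h' : HasFDerivAt (fun y => ∑ p ∈ T, a p y * fderiv ℝ (a p) y v) (0 : E →L[ℝ] ℝ) x :=
    (hasFDerivAt_const (0 : ℝ) x).congr_of_eventuallyEq
      (Filter.eventually_of_mem (hU.mem_nhds hx) e1)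
  have h2 := congrArg (fun A : E →L[ℝ] ℝ => A v) (h.unique h')
  simp only [sum_apply, zero_apply] at h2
  rw [← h2]
  exact Finset.sum_congr rfl fun p hp => (hA' p hp).symm

theorem icalc_pair {a r : E → ℝ} (ha : ContDiff ℝ ∞ a) (hr : ContDiff ℝ ∞ r) {c : ℝ}
    (h : ∀ x, r x ^ 2 = a x ^ 2 + c) (x v : E) :
    r x * fderiv ℝ r x v = a x * fderiv ℝ a x v ∧
      fderiv ℝ r x v ^ 2 + r x * fderiv ℝ (fderiv ℝ r) x v v =
        fderiv ℝ a x v ^ 2 + a x * fderiv ℝ (fderiv ℝ a) x v v := by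
  have e1 : ∀ y, r y * fderiv ℝ r y v = a y * fderiv ℝ a y v := by
    intro y
    have h1 := (icalc_h0 ha y).add_const c
    have h2 := icalc_h0 hr y
    simp only [h] at h2
    have h3 := congrArg (fun A : E →L[ℝ] ℝ => A v) (h2.unique h1)
    simp only [smul_apply, smul_eq_mul] at h3
    linarith
  refine ⟨e1 x, ?_⟩
  obtain ⟨A, hA, hA'⟩ := icalc_h1 ha x v
  obtain ⟨B, hB, hB'⟩ := icalc_h1 hr x v
  simp only [e1] at hB
  rw [← hA', ← hB', hA.unique hB]

/-- the scalar inequality -/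
theorem icalc_alg {A r τ p q p' q' C ε a0 : ℝ} (hA : 0 ≤ A) (hr : 0 < r) (hτ : 0 < τ)
    (h : r ^ 2 = A ^ 2 + τ ^ 2) (e1 : r * p' = A * p) (e2 : p' ^ 2 + r * q' = p ^ 2 + A * q)
    (hq : |q| ≤ C) (h1 : C * τ ≤ ε) (ha0 : 0 < a0) (h2 : p ^ 2 ≤ ε ∨ (a0 ≤ A ∧ p ^ 2 * τ ^ 2 ≤ ε / 2 * a0 ^ 2)) :
    -(A * q) - ε ≤ A ^ 2 * (-q' / r) := by
  have hε : 0 ≤ ε := le_trans (mul_nonneg ((abs_nonneg q).trans hq) hτ.le) h1
  have e3 : A ^ 2 * (-q' / r) = -(A * q) + q * (A * τ ^ 2 / r ^ 2) - p ^ 2 * (A ^ 2 * τ ^ 2 / r ^ 4) := by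
    have hp' : p' = A * p / r := by field_simp; linarith
    have hq' : q' = (p ^ 2 + A * q - p' ^ 2) / r := by field_simp; linarith
    have hτ' : τ ^ 2 = r ^ 2 - A ^ 2 := by linarith
    rw [hq', hp', hτ']
    field_simp
    ring
  have b1 : A * τ ^ 2 / r ^ 2 ≤ τ / 2 := by
    rw [div_le_iff₀ (by positivity), h]
    nlinarith [mul_nonneg hτ.le (sq_nonneg (A - τ))]
  have b0 : 0 ≤ A * τ ^ 2 / r ^ 2 := by positivity
  have b2 : -(ε / 2) ≤ q * (A * τ ^ 2 / r ^ 2) := by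
    have := (abs_le.1 hq).1
    have hC : 0 ≤ C := (abs_nonneg q).trans hq
    nlinarith [mul_le_mul_of_nonneg_left b1 hC, mul_le_mul_of_nonneg_right this b0]
  have b3 : p ^ 2 * (A ^ 2 * τ ^ 2 / r ^ 4) ≤ ε / 2 := by
    have h4 : r ^ 4 = (A ^ 2 + τ ^ 2) ^ 2 := by rw [← h]; ring
    rcases h2 with h2 | ⟨h2, h3⟩
    · have : A ^ 2 * τ ^ 2 / r ^ 4 ≤ 1 / 2 := by
        rw [div_le_iff₀ (by positivity), h4]
        nlinarith [sq_nonneg (A ^ 2), sq_nonneg (τ ^ 2)]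
      have h0 : 0 ≤ A ^ 2 * τ ^ 2 / r ^ 4 := by positivity
      nlinarith [sq_nonneg p]
    · rw [← mul_div_assoc, div_le_iff₀ (by positivity), h4]
      have h5 : a0 ^ 2 ≤ A ^ 2 := by gcongr
      have h6 : p ^ 2 * τ ^ 2 ≤ ε / 2 * A ^ 2 := h3.trans (by gcongr)
      have h7 : A ^ 2 * A ^ 2 ≤ (A ^ 2 + τ ^ 2) ^ 2 := by nlinarith [sq_nonneg A, sq_nonneg τ]
      calc p ^ 2 * (A ^ 2 * τ ^ 2) = p ^ 2 * τ ^ 2 * A ^ 2 := by ring
        _ ≤ ε / 2 * A ^ 2 * A ^ 2 := by gcongr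
        _ = ε / 2 * (A ^ 2 * A ^ 2) := by ring
        _ ≤ _ := by gcongr
  linarith

end gen

section gen2
variable {E : Type} [NormedAddCommGroup E] [InnerProductSpace ℝ E] [FiniteDimensional ℝ E]

theorem icalc_inner (a : E → ℝ) (x v : E) : ⟪gradient a x, v⟫_ℝ = fderiv ℝ a x v :=
  inner_gradient_left

theorem icalc_norm (a : E → ℝ) (x : E) : ‖gradient a x‖ = ‖fderiv ℝ a x‖ := by
  simp [gradient]

theorem icalc_one {a : E → ℝ} (ha : ContDiff ℝ ∞ a) (h0 : ∀ x, 0 ≤ a x) {K : Set E}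
    (hK : IsCompact K) {ε : ℝ} (hε : 0 < ε) : ∀ᶠ τ in nhdsWithin (0 : ℝ) (Set.Ioi 0),
      ∀ r : E → ℝ, ContDiff ℝ ∞ r → (∀ x, 0 < r x) → (∀ x, r x ^ 2 = a x ^ 2 + τ ^ 2) → ∀ x ∈ K,
        ‖(a x ^ 2 / r x) • gradient r x - a x • gradient a x‖ ≤ ε ∧ ∀ v, ‖v‖ ≤ 1 →
          -(a x * fderiv ℝ (fderiv ℝ a) x v v) - ε ≤
            a x ^ 2 * (-fderiv ℝ (fderiv ℝ r) x v v / r x) := by
  have c1 := (icalc_D ha).continuous
  have c2 : Continuous (fderiv ℝ (fderiv ℝ a)) := (icalc_D ha).continuous_fderiv (by simp)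
  obtain ⟨C1, hC1⟩ := hK.exists_bound_of_continuousOn c1.continuousOn
  obtain ⟨C2, hC2⟩ := hK.exists_bound_of_continuousOn (f := fderiv ℝ (fderiv ℝ a))
    c2.continuousOn
  have hK' : IsCompact (K ∩ {x | ε ≤ ‖fderiv ℝ a x‖ ^ 2}) :=
    hK.inter_right (isClosed_le continuous_const (c1.norm.pow 2))
  obtain ⟨a0, ha0, hb⟩ := hK'.exists_forall_le' (f := a) (a := 0) ha.continuous.continuousOn (by
    rintro x ⟨-, hx⟩
    refine (h0 x).lt_of_ne fun h => ?_
    have hm : IsLocalMin a x := Filter.Eventually.of_forall fun y => h ▸ h0 y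
    simp only [Set.mem_ofPred_eq, hm.fderiv_eq_zero, norm_zero] at hx
    linarith)
  have t1 : ∀ C δ : ℝ, 0 < δ → ∀ᶠ τ in nhdsWithin (0 : ℝ) (Set.Ioi 0), C * τ ≤ δ := fun C δ hδ =>
    nhdsWithin_le_nhds (((continuous_const_mul C).tendsto' 0 0 (by simp)).eventually
      (eventually_le_nhds hδ))
  filter_upwards [t1 C1 ε hε, t1 C2 ε hε, t1 (C1 ^ 2) (ε / 2 * a0 ^ 2) (by positivity),
    t1 1 1 one_pos, self_mem_nhdsWithin] with τ h1 h2 h3 h4 hτ r hr hr0 hs x hx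
  have hτ : 0 < τ := hτ
  have hA := h0 x
  have hR := hr0 x
  constructor
  · have e1 : r x • gradient r x = a x • gradient a x := by
      refine ext_inner_right ℝ fun v => ?_
      rw [real_inner_smul_left, real_inner_smul_left, icalc_inner, icalc_inner]
      exact (icalc_pair ha hr hs x v).1
    have e2 : (a x ^ 2 / r x) • gradient r x - a x • gradient a x =
        (-(a x * τ ^ 2 / r x ^ 2)) • gradient a x := by
      have : a x ^ 2 / r x = a x ^ 2 / r x ^ 2 * r x := by field_simp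
      rw [this, mul_smul, e1, smul_smul, ← sub_smul]
      congr 1
      have hτ' : τ ^ 2 = r x ^ 2 - a x ^ 2 := by linarith [hs x]
      rw [hτ']
      field_simp
      ring
    have b1 : a x * τ ^ 2 / r x ^ 2 ≤ τ := by
      rw [div_le_iff₀ (by positivity), hs]
      nlinarith [mul_nonneg hτ.le (sq_nonneg (a x - τ)), mul_nonneg hA (sq_nonneg τ)]
    rw [e2, norm_smul, norm_neg, Real.norm_of_nonneg (by positivity), icalc_norm]
    calc _ ≤ τ * C1 := mul_le_mul b1 (hC1 x hx) (norm_nonneg _) hτ.le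
      _ ≤ ε := by linarith
  · intro v hv
    have hp : |fderiv ℝ a x v| ≤ ‖fderiv ℝ a x‖ :=
      ((fderiv ℝ a x).le_opNorm v).trans (mul_le_of_le_one_right (norm_nonneg _) hv)
    have hp2 : fderiv ℝ a x v ^ 2 ≤ ‖fderiv ℝ a x‖ ^ 2 := by
      rw [← sq_abs]
      gcongr
    refine icalc_alg (C := C2) hA hR hτ (hs x) (icalc_pair ha hr hs x v).1
      (icalc_pair ha hr hs x v).2 ?_ h2 ha0 ?_
    · refine ((fderiv ℝ (fderiv ℝ a) x).le_opNorm₂ v v).trans (le_trans ?_ (hC2 x hx))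
      rw [mul_assoc]
      exact mul_le_of_le_one_right (ContinuousLinearMap.opNorm_nonneg _)
        (mul_le_one₀ hv (norm_nonneg _) hv)
    · by_cases hc : ε ≤ ‖fderiv ℝ a x‖ ^ 2
      · refine Or.inr ⟨hb x ⟨hx, hc⟩, le_trans ?_ h3⟩
        have : ‖fderiv ℝ a x‖ ^ 2 ≤ C1 ^ 2 := by gcongr; exact hC1 x hx
        exact mul_le_mul (hp2.trans this) (by nlinarith) (sq_nonneg _) (sq_nonneg _)
      · exact Or.inl (hp2.trans (not_le.1 hc).le)

end gen2

/-- regularised partition function -/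
def rg (τ : ℝ) (a : EE V → ℝ) (x : EE V) : ℝ := Real.sqrt (a x ^ 2 + τ ^ 2)

theorem rg_smooth {τ : ℝ} (hτ : 0 < τ) {a : EE V → ℝ} (ha : ContDiff ℝ ∞ a) :
    ContDiff ℝ ∞ (rg τ a) ∧ ∀ x, 0 < rg τ a x := by
  refine ⟨ContDiff.sqrt ((ha.pow 2).add contDiff_const) fun x => by positivity, fun x => ?_⟩
  exact Real.sqrt_pos.2 (by positivity)

theorem icalc_lift_norm (z : Submodule ℝ V) (w : EE z) : ‖lift z.subtypeL w‖ = ‖w‖ := by
  rw [norm_eq_sqrt_real_inner, inner_lift_subtype, ← norm_eq_sqrt_real_inner]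

theorem icalc_rank (z : Submodule ℝ V) : Module.finrank ℝ (EE z) ≤ Module.finrank ℝ (EE V) :=
  LinearMap.finrank_le_finrank_of_injective (f := (lift z.subtypeL).toLinearMap)
    ((injective_iff_map_eq_zero _).2 fun w hw => by
      have h : lift z.subtypeL w = 0 := hw
      rw [← norm_eq_zero, ← icalc_lift_norm, h, norm_zero])

theorem icalc_parseval {z : Submodule ℝ V} {a : EE V → ℝ} {x : EE V}
    (h : ∀ i, gradient a x i ∈ z) :
    ∑ k, fderiv ℝ a x (lift z.subtypeL (stdOrthonormalBasis ℝ (EE z) k)) ^ 2 =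
      ‖gradient a x‖ ^ 2 := by
  have e : gradient a x = lift z.subtypeL (WithLp.toLp 2 fun i => (⟨_, h i⟩ : z)) := rfl
  simp only [← icalc_inner]
  rw [e, icalc_lift_norm]
  simp only [inner_lift_subtype]
  exact OrthonormalBasis.sum_sq_inner_left _ _

/-- recovery of the localisation error -/
theorem barta_sum {ι : Type} (T : Finset ι) {a : ι → EE V → ℝ}
    (ha : ∀ p ∈ T, ContDiff ℝ ∞ (a p) ∧ ∀ x, 0 ≤ a p x) {U K : Set (EE V)} (hU : IsOpen U)
    (hK : IsCompact K) (hKU : K ⊆ U) (h1 : ∀ x ∈ U, ∑ p ∈ T, a p x ^ 2 = 1) {η : ℝ} (hη : 0 < η) :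
    ∃ τ > 0, ∀ x ∈ K,
      ‖∑ p ∈ T, (a p x ^ 2 / rg τ (a p) x) • gradient (rg τ (a p)) x‖ ≤ η ∧
      ∀ z : Submodule ℝ V, (∀ p ∈ T, ∀ i, gradient (a p) x i ∈ z) →
        ∑ p ∈ T, ‖gradient (a p) x‖ ^ 2 - η ≤
          ∑ p ∈ T, a p x ^ 2 * (-lapOn z (rg τ (a p)) x / rg τ (a p) x) := by
  obtain ⟨N, hN⟩ : ∃ N : ℝ, N = Module.finrank ℝ (EE V) := ⟨_, rfl⟩
  have hN0 : 0 ≤ N := hN ▸ Nat.cast_nonneg _
  obtain ⟨ε, hε, hε'⟩ : ∃ ε > 0, (T.card : ℝ) * ((N + 1) * ε) ≤ η := by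
    refine ⟨η / (T.card * (N + 1) + 1), by positivity, ?_⟩
    rw [← mul_assoc, ← mul_div_assoc, div_le_iff₀ (by positivity)]
    nlinarith
  obtain ⟨τ, h, hτ⟩ := (((Filter.eventually_all_finset T).2 fun p hp =>
    icalc_one (ha p hp).1 (ha p hp).2 hK hε).and self_mem_nhdsWithin).exists
  have hτ : 0 < τ := hτ
  refine ⟨τ, hτ, fun x hx => ?_⟩
  have h2 := fun p hp => h p hp _ (rg_smooth hτ (ha p hp).1).1 (rg_smooth hτ (ha p hp).1).2
    (fun y => Real.sq_sqrt (by positivity)) x hx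
  have h3 := icalc_const T (fun p hp => (ha p hp).1) hU h1 (hKU hx)
  constructor
  · have e : ∑ p ∈ T, a p x • gradient (a p) x = 0 := by
      refine ext_inner_right ℝ fun v => ?_
      simp only [sum_inner, real_inner_smul_left, icalc_inner, inner_zero_left]
      exact (h3 v).1
    rw [← sub_zero (∑ p ∈ T, _), ← e, ← Finset.sum_sub_distrib]
    refine (norm_sum_le_of_le T (n := fun _ => ε) fun p hp => (h2 p hp).1).trans (le_trans ?_ hε')
    rw [Finset.sum_const, nsmul_eq_mul]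
    gcongr
    nlinarith
  · intro z hz
    have hr : (Module.finrank ℝ (EE z) : ℝ) ≤ N := hN ▸ Nat.cast_le.2 (icalc_rank z)
    set e := fun k => lift z.subtypeL (stdOrthonormalBasis ℝ (EE z) k) with he
    have e1 : ∑ p ∈ T, ‖gradient (a p) x‖ ^ 2 =
        ∑ p ∈ T, ∑ k, -(a p x * fderiv ℝ (fderiv ℝ (a p)) x (e k) (e k)) := by
      rw [← Finset.sum_congr rfl fun p hp => icalc_parseval (hz p hp), Finset.sum_comm,
        Finset.sum_comm (s := T)]
      refine Finset.sum_congr rfl fun k _ => ?_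
      have := (h3 (e k)).2
      rw [Finset.sum_add_distrib] at this
      rw [Finset.sum_neg_distrib]
      exact eq_neg_of_add_eq_zero_left this
    have e2 : ∀ p ∈ T, ∑ k, -(a p x * fderiv ℝ (fderiv ℝ (a p)) x (e k) (e k)) - (N + 1) * ε ≤
        a p x ^ 2 * (-lapOn z (rg τ (a p)) x / rg τ (a p) x) := by
      intro p hp
      have := Finset.sum_le_sum (s := Finset.univ) fun k _ => (h2 p hp).2 (e k) (by
        rw [he, icalc_lift_norm, (stdOrthonormalBasis ℝ (EE z)).norm_eq_one])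
      rw [Finset.sum_sub_distrib, Finset.sum_const, nsmul_eq_mul, Finset.card_univ,
        Fintype.card_fin, ← Finset.mul_sum, ← Finset.sum_div, Finset.sum_neg_distrib,
        Finset.sum_neg_distrib] at this
      refine le_trans ?_ this
      rw [Finset.sum_neg_distrib]
      nlinarith
    have := Finset.sum_le_sum e2
    rw [Finset.sum_sub_distrib, Finset.sum_const, nsmul_eq_mul, ← e1] at this
    linarith

theorem icalc_fix {Y : EE V} {a : V} (ha : a ∈ L.cent Y) (t : ℝ) : lift (L.ex (t • a)) Y = Y := by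
  ext i
  have h := expL_intertwine (ContinuousLinearMap.toSpanSingleton ℝ (Y i)) (T := L.br (t • a))
    (T' := 0) (fun u => by
      simp [L.skew a, (L.mem_cent Y a).1 ha i]) 1
  simpa [CL.ex, GChart_zero] using h

theorem CL.SInv.gradient_mem {u : EE V → ℝ} (h : L.SInv u) (hd : Differentiable ℝ u) (Y : EE V)
    (i : Fin 9) : _root_.gradient u Y i ∈ L.zc Y := by
  refine (Submodule.mem_iInf _).2 fun a => ?_
  have e : ∀ t : ℝ, expL (t • L.br a) (_root_.gradient u Y i) = _root_.gradient u Y i := by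
    intro t
    have h1 := h.gradient hd (L.ex_mem (t • (a : V))) Y
    rw [icalc_fix a.2] at h1
    have h2 := congrArg (fun w : EE V => w i) h1
    simpa [CL.ex] using h2.symm
  have h1 := (hasDerivAt_expL (L.br a) 0).clm_apply (hasDerivAt_const 0 (_root_.gradient u Y i))
  simp only [e] at h1
  have h2 := h1.unique (hasDerivAt_const _ _)
  simpa [GChart_zero] using h2

theorem icalc_comp {E : Type} [NormedAddCommGroup E] [NormedSpace ℝ E] {u : E → ℝ}
    (hd : ContDiff ℝ ∞ u) (g : E →L[ℝ] E) (h : ∀ x, u (g x) = u x) (x v : E) :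
    fderiv ℝ (fderiv ℝ u) (g x) (g v) (g v) = fderiv ℝ (fderiv ℝ u) x v v := by
  have e1 : ∀ y, fderiv ℝ u (g y) (g v) = fderiv ℝ u y v := by
    intro y
    have h1 := (icalc_diff hd (g y)).hasFDerivAt.comp y g.hasFDerivAt
    have h2 : u ∘ g = u := funext h
    rw [h2] at h1
    rw [h1.fderiv]
    rfl
  have h1 := (icalc_d2 hd (g x) (g v)).comp x g.hasFDerivAt
  have h2 : (fun y => fderiv ℝ u y (g v)) ∘ g = fun y => fderiv ℝ u y v := funext e1
  rw [h2] at h1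
  exact congrArg (fun A : E →L[ℝ] ℝ => A v) (h1.unique (icalc_d2 hd x v))

theorem CL.SInv.lapOn_G {u : EE V → ℝ} (h : L.SInv u) (hd : ContDiff ℝ ∞ u) {g : V →L[ℝ] V}
    (hg : g ∈ L.G) {z z' : Submodule ℝ V} (hz : ∀ a, a ∈ z ↔ g a ∈ z') (Y : EE V) :
    lapOn z' u (lift g Y) = lapOn z u Y := by
  obtain ⟨g', -, h1, -⟩ := CL.G_inv hg
  let j : z →L[ℝ] z' := (g ∘L z.subtypeL).codRestrict z' fun a => (hz a).1 a.2
  have hj : ∀ w : EE z, lift z'.subtypeL (lift j w) = lift g (lift z.subtypeL w) := fun w => rfl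
  let f : EE z →ₗᵢ[ℝ] EE z' := ⟨(lift j).toLinearMap, fun w => by
    rw [← icalc_lift_norm]
    exact (congrArg norm (hj w)).trans ((CL.G_norm hg _).trans (icalc_lift_norm z w))⟩
  have hf : Function.Surjective f := by
    intro w
    have e : ∀ b : V, g (g' b) = b := fun b => congrArg (fun A : V →L[ℝ] V => A b) h1
    refine ⟨WithLp.toLp 2 fun i => ⟨g' (w i), (hz _).2 (by rw [e]; exact (w i).2)⟩, ?_⟩
    ext i
    exact e _
  let B : EE z' →ₗ[ℝ] EE z' →ₗ[ℝ] ℝ :=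
    ((fderiv ℝ (fderiv ℝ u) (lift g Y)).bilinearComp (lift z'.subtypeL) (lift z'.subtypeL)).toLinearMap₁₂
  refine (sum_onb B _ ((stdOrthonormalBasis ℝ (EE z)).map
    (LinearIsometryEquiv.ofSurjective f hf))).trans (Finset.sum_congr rfl fun k _ => ?_)
  rw [← icalc_comp hd (lift g) (h.G hd.continuous hg) Y, ← hj]
  rfl

theorem CL.zc_G {g : V →L[ℝ] V} (hg : g ∈ L.G) (Y : EE V) (a : V) :
    a ∈ L.zc Y ↔ g a ∈ L.zc (lift g Y) := by
  obtain ⟨g', -, h1, h2⟩ := CL.G_inv hg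
  have e : ∀ b : V, g (g' b) = b := fun b => congrArg (fun A : V →L[ℝ] V => A b) h1
  have e0 : ∀ b : V, g b = 0 ↔ b = 0 := fun b => by
    rw [← norm_eq_zero, ggroup_norm hg, norm_eq_zero]
  have e1 : ∀ b, g b ∈ L.cent (lift g Y) ↔ b ∈ L.cent Y := fun b => by
    simp only [CL.mem_cent, lift_apply, ← CL.G_br hg, e0]
  have e2 : ∀ (Y : EE V) (a : V), a ∈ L.zc Y ↔ ∀ b ∈ L.cent Y, L.br b a = 0 := fun Y a => by
    simp [CL.zc, Submodule.mem_iInf]
  rw [e2, e2]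
  constructor
  · intro h b hb
    rw [← e b] at hb ⊢
    rw [← CL.G_br hg, e0]
    exact h _ ((e1 _).1 hb)
  · intro h b hb
    rw [← e0, CL.G_br hg]
    exact h _ ((e1 _).2 hb)

theorem continuous_lapOn (z : Submodule ℝ V) {u : EE V → ℝ} (hd : ContDiff ℝ ∞ u) :
    Continuous (lapOn z u) :=
  continuous_finsetSum _ fun _ _ =>
    (((icalc_D hd).continuous_fderiv (by simp)).clm_apply continuous_const).clm_apply
      continuous_const

theorem icalc_grad {Z : Type} [NormedAddCommGroup Z] [InnerProductSpace ℝ Z]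
    [FiniteDimensional ℝ Z] {u : Z → ℝ} (hu : ContDiff ℝ ∞ u) : ContDiff ℝ ∞ (gradient u) := by
  have e : gradient u = fun y => ∑ k, fderiv ℝ u y (stdOrthonormalBasis ℝ Z k) •
      stdOrthonormalBasis ℝ Z k := by
    funext y
    simp only [← icalc_inner]
    rw [← (stdOrthonormalBasis ℝ Z).sum_repr' (gradient u y)]
    simp only [real_inner_comm, OrthonormalBasis.sum_repr']
  rw [e]
  exact ContDiff.sum fun k _ => ((icalc_D hu).clm_apply contDiff_const).smul contDiff_const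

/-- the Riccati expression of the field `-∇ log u + (3/4) y / |y|^2` -/
theorem barta_field {Z : Type} [NormedAddCommGroup Z] [InnerProductSpace ℝ Z]
    [FiniteDimensional ℝ Z] {u : Z → ℝ} (hu : ContDiff ℝ ∞ u) (h0 : ∀ y, 0 < u y) :
    ContDiffOn ℝ 1 (fun y => -(u y)⁻¹ • gradient u y + ((3 / 4) / ‖y‖ ^ 2) • y) {y | y ≠ 0} ∧
    ∀ y ≠ 0, (1 / 2) * (tr (fderiv ℝ (fun y => -(u y)⁻¹ • gradient u y + ((3 / 4) / ‖y‖ ^ 2) • y) y) -
      ‖-(u y)⁻¹ • gradient u y + ((3 / 4) / ‖y‖ ^ 2) • y‖ ^ 2) =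
      -(1 / 2) * (∑ k, fderiv ℝ (fderiv ℝ u) y (stdOrthonormalBasis ℝ Z k)
        (stdOrthonormalBasis ℝ Z k)) / u y + (3 / 4) * ⟪gradient u y, y⟫_ℝ / (u y * ‖y‖ ^ 2) +
      (3 / 8) * (Module.finrank ℝ Z - 11 / 4) / ‖y‖ ^ 2 := by
  have hg := icalc_grad hu
  refine ⟨ContDiffOn.add (ContDiff.contDiffOn ?_) (ContDiffOn.smul ?_ contDiffOn_id), ?_⟩
  · exact ((hu.inv fun y => (h0 y).ne').neg.smul hg).of_le (by simp)
  · exact contDiffOn_const.div (contDiff_norm_sq ℝ).contDiffOn fun y hy =>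
      pow_ne_zero 2 (norm_ne_zero_iff.2 hy)
  intro y hy
  have hn : ‖y‖ ≠ 0 := norm_ne_zero_iff.2 hy
  have hu0 := (h0 y).ne'
  have d1 := ((hasDerivAt_inv hu0).comp_hasFDerivAt y
    (icalc_diff hu y).hasFDerivAt).fun_neg.fun_smul (hg.differentiable (by simp) y).hasFDerivAt
  have d2 := (((hasDerivAt_inv (pow_ne_zero 2 hn)).comp_hasFDerivAt y
    (hasStrictFDerivAt_norm_sq y).hasFDerivAt).const_mul (3 / 4 : ℝ)).fun_smul (hasFDerivAt_id y)
  have d3 := (d1.fun_add d2).fderiv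
  have e1 : ∀ v, ⟪v, fderiv ℝ (gradient u) y v⟫_ℝ = fderiv ℝ (fderiv ℝ u) y v v := by
    intro v
    have h1 := (innerSL ℝ v).hasFDerivAt.comp y (hg.differentiable (by simp) y).hasFDerivAt
    have h2 : (innerSL ℝ v) ∘ gradient u = fun y => fderiv ℝ u y v := by
      funext y
      exact (real_inner_comm _ _).trans (icalc_inner u y v)
    rw [h2] at h1
    exact congrArg (fun A : Z →L[ℝ] ℝ => A v) (h1.unique (icalc_d2 hu y v))
  simp only [Function.comp_def, id, ← div_eq_mul_inv] at d3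
  rw [d3, tr_eq_sum (stdOrthonormalBasis ℝ Z)]
  have s1 := (stdOrthonormalBasis ℝ Z).sum_sq_inner_left (gradient u y)
  have s2 := (stdOrthonormalBasis ℝ Z).sum_sq_inner_left y
  simp only [add_apply, smul_apply, neg_apply, ContinuousLinearMap.smulRight_apply, inner_add_right,
    real_inner_smul_right, e1, ContinuousLinearMap.id_apply, smul_eq_mul, ← icalc_inner,
    innerSL_apply_apply]
  have e2 : ∀ k, ⟪stdOrthonormalBasis ℝ Z k, stdOrthonormalBasis ℝ Z k⟫_ℝ = 1 := fun k => by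
    rw [real_inner_self_eq_norm_sq, (stdOrthonormalBasis ℝ Z).norm_eq_one, one_pow]
  have e3 : ∀ a b c d p q w : ℝ, a * w + -(-b * p) * p + (c * 1 + 3 / 4 * (-d * 2 • q) * q) =
      a * w + b * p ^ 2 + c - 3 / 2 * d * q ^ 2 := fun a b c d p q w => by
    simp only [nsmul_eq_mul]
    ring
  have e4 := fun v k => real_inner_comm v (stdOrthonormalBasis ℝ Z k)
  simp only [e2, e4 (gradient u y), e4 y, e3]
  simp only [Finset.sum_sub_distrib,
    Finset.sum_add_distrib, ← Finset.mul_sum, s1, s2, Finset.sum_const, Finset.card_univ,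
    Fintype.card_fin, nsmul_eq_mul, norm_add_sq_real, norm_smul, real_inner_smul_left,
    real_inner_smul_right, mul_pow, Real.norm_eq_abs, sq_abs]
  field_simp
  ring

end Vale.Agent.P353
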