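import Vale.Agent.P353.IOI
import Vale.Agent.P353.AScale

open MeasureTheory NormedSpace
open Complex (I)
open scoped InnerProductSpace ContDiff

noncomputable section
namespace Vale.Agent.P353
variable {V F : Type} [NormedAddCommGroup V] [InnerProductSpace ℝ V] [FiniteDimensional ℝ V]
  [MeasurableSpace V] [BorelSpace V]
  [NormedAddCommGroup F] [InnerProductSpace ℂ F] [CompleteSpace F]

theorem ih_hs {s : ℝ} (hs0 : 0 < s) : Continuous (hs s) := by
  unfold hs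
  refine Continuous.div (by fun_prop) (by fun_prop) fun t => ?_
  positivity

theorem ih_weight {S t : ℝ} (hS : 0 < S) :
    S ^ 4 / 100 * hs S t - 1 / 100 ≤
      (t ^ 2 / (1 + t ^ 2 / S ^ 2)) ^ 2 * (1 / (100 * (1 + t ^ 2)) + 0 / 2) := by
  have e1 : (t ^ 2 / (1 + t ^ 2 / S ^ 2)) ^ 2 * (1 / (100 * (1 + t ^ 2)) + 0 / 2) =
      S ^ 4 / 100 * hs S t - 1 / 100 * (S ^ 4 / (S ^ 2 + t ^ 2) ^ 2 * (t ^ 2 / (1 + t ^ 2))) := by
    unfold hs
    field_simp
    ring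
  have h1 : S ^ 4 / (S ^ 2 + t ^ 2) ^ 2 ≤ 1 := by
    rw [div_le_one (by positivity)]
    nlinarith [sq_nonneg t, sq_nonneg S, mul_nonneg (sq_nonneg t) (sq_nonneg S), sq_nonneg (t ^ 2)]
  have h2 : t ^ 2 / (1 + t ^ 2) ≤ 1 := by
    rw [div_le_one (by positivity)]
    linarith
  have h3 : S ^ 4 / (S ^ 2 + t ^ 2) ^ 2 * (t ^ 2 / (1 + t ^ 2)) ≤ 1 :=
    mul_le_one₀ h1 (by positivity) h2
  rw [e1]
  linarith

theorem ih_ind {φ : EE V → F} (h : Tst φ) (A : Set (EE V)) :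
    wt (fun _ => 1 + 0) (fun x => A.indicator φ x) ≤ n2 φ := by
  rw [← wt_one]
  refine integral_mono_of_nonneg (Filter.Eventually.of_forall fun x => by positivity)
    (h.int_wt continuousOn_const) (Filter.Eventually.of_forall fun x => ?_)
  have := norm_indicator_le_norm_self (s := A) φ x
  have := pow_le_pow_left₀ (norm_nonneg _) this 2
  simpa using this

theorem ih_sch {w v : EE V → ℝ} (B : EE V → F →L[ℂ] F) (hw : Continuous w) (hv : Continuous v)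
    {φ : EE V → F} (h : Tst φ) : sch (fun x => w x + v x) B φ = sch w B φ + wt v φ := by
  unfold sch
  rw [wt_add h hw.continuousOn hv.continuousOn]
  ring

/-- the statement at unit coupling -/
theorem ih_one (M : Mod V F) (P : Par) (h : M.PO P) : ∃ c > 0, ∃ C > 0, ∃ S0 > 0, ∀ η > 0,
    ∃ ε0 > 0, ∀ S ≥ S0, ∀ ν : ℝ, 0 ≤ ν → ν ≤ ε0 → ∀ φ : EE V → F, Tst φ → M.Inv φ →
      wt (fun x => c * ν ^ 2 * ‖x‖ ^ 2 + c * hs S ‖x‖ - (η * ν + C / S ^ 4)) φ ≤
        M.q P 1 ν φ := by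
  obtain ⟨c1, hc1, H1⟩ := M.PI_of_PO P h
  obtain ⟨R0, hR0, c0, hc0, e0, he0, H0⟩ := h
  obtain ⟨C, hC, HA⟩ := agmon (V := V) (F := F) hR0
  set c := min (min c0 c1) (1 / 100000) with hcdef
  have k0 : c ≤ c0 := (min_le_left _ _).trans (min_le_left _ _)
  have k1 : c ≤ c1 := (min_le_left _ _).trans (min_le_right _ _)
  have k2 : c ≤ 1 / 100000 := min_le_right _ _
  have hc : 0 < c := lt_min (lt_min hc0 hc1) (by norm_num)
  refine ⟨c, hc, C + 1, by positivity, 2 * R0, by positivity, fun η hη => ?_⟩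
  obtain ⟨e1, he1, H1⟩ := H1 η hη
  refine ⟨min e0 e1, lt_min he0 he1, fun S hS ν hν hνe φ hφ hi => ?_⟩
  have hS0 : 0 < S := lt_of_lt_of_le (by positivity) hS
  obtain ⟨hw, hB⟩ := M.q_cont P 1 ν
  have hv : Continuous fun x : EE V => (-1) * (c * ν ^ 2 * ‖x‖ ^ 2 - η * ν) := by fun_prop
  have E : ∀ ψ : EE V → F, Tst ψ → sch (fun x => (1 / 2) *
      ‖(1 : ℝ) • s0 P.toGam M.L P.e x + ν • P.s1 x‖ ^ 2 + (-1) * (c * ν ^ 2 * ‖x‖ ^ 2 - η * ν))
      (fun x => I • M.C.spin ((-1 : ℝ) • Gm P.toGam M.L x + ν • mat P.M1)) ψ =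
      M.q P 1 ν ψ - wt (fun x => c * ν ^ 2 * ‖x‖ ^ 2 - η * ν) ψ := by
    intro ψ hψ
    rw [ih_sch _ hw hv hψ, wt_smul]
    unfold Mod.q
    ring
  have A := HA _ _ (fun _ => 0) {ψ | Tst ψ ∧ M.Inv ψ} (hw.fun_add hv) hB continuous_const
    (fun _ => le_rfl)
    (fun ψ hψ => ⟨hψ.1, by
      rw [E ψ hψ.1]
      have a1 := H1 ν hν (hνe.trans (min_le_right _ _)) ψ hψ.1 hψ.2
      have a2 := wt_mono hψ.1 (w := fun x => c * ν ^ 2 * ‖x‖ ^ 2 - η * ν)
        (w' := fun x => c1 * ν ^ 2 * ‖x‖ ^ 2 - η * ν) (by fun_prop) (by fun_prop) (fun x _ => by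
          have : c * ν ^ 2 * ‖x‖ ^ 2 ≤ c1 * ν ^ 2 * ‖x‖ ^ 2 := by gcongr
          linarith)
      linarith⟩)
    (fun ψ hψ a ha hr => ⟨hψ.1.smul ha, hψ.2.smul fun ξ x => hr _ _ (norm_sinv M.L ξ x)⟩)
    (fun ψ hψ hs => by
      rw [E ψ hψ.1]
      have a1 := H0 ν hν (hνe.trans (min_le_left _ _)) ψ hψ.1 hψ.2 hs
      have cc : ContinuousOn (fun x : EE V => (21 / 10) / ‖x‖ ^ 2) (tsupport ψ) :=
        ContinuousOn.div continuousOn_const (by fun_prop) fun x hx => by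
          have := hR0.trans_le (hs x hx)
          positivity
      have a2 := wt_add hψ.1 (w := fun x => (21 / 10) / ‖x‖ ^ 2 + 0)
        (w' := fun x => c * ν ^ 2 * ‖x‖ ^ 2 - η * ν) (cc.add continuousOn_const) (by fun_prop)
      have a3 := wt_mono hψ.1
        (w := fun x => ((21 / 10) / ‖x‖ ^ 2 + 0) + (c * ν ^ 2 * ‖x‖ ^ 2 - η * ν))
        (w' := fun x => (21 / 10) / ‖x‖ ^ 2 + c0 * ν + c0 * ν ^ 2 * ‖x‖ ^ 2)
        ((cc.add continuousOn_const).add (by fun_prop))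
        ((cc.add continuousOn_const).add (by fun_prop)) (fun x _ => by
          have : c * ν ^ 2 * ‖x‖ ^ 2 ≤ c0 * ν ^ 2 * ‖x‖ ^ 2 := by gcongr
          have := mul_nonneg hc0.le hν
          have := mul_nonneg hη.le hν
          linarith)
      linarith)
    S hS φ ⟨hφ, hi⟩
  rw [E φ hφ] at A
  have b1 := mul_le_mul_of_nonneg_left (ih_ind hφ (Metric.closedBall (0 : EE V) (2 * R0))) hC.le
  have chs : Continuous fun x : EE V => hs S ‖x‖ := (ih_hs hS0).comp continuous_norm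
  have b2 := wt_mono hφ
    (w := fun x => 1000 * S ^ 4 * (c * hs S ‖x‖ - (C + 1) / S ^ 4) + C)
    (w' := fun x => (‖x‖ ^ 2 / (1 + ‖x‖ ^ 2 / S ^ 2)) ^ 2 * (1 / (100 * (1 + ‖x‖ ^ 2)) + 0 / 2))
    (Continuous.continuousOn (by fun_prop))
    (by
      refine ContinuousOn.mul (ContinuousOn.pow (ContinuousOn.div (by fun_prop) (by fun_prop)
        fun x _ => by positivity) 2) (ContinuousOn.add (ContinuousOn.div (by fun_prop)
        (by fun_prop) fun x _ => by positivity) continuousOn_const))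
    (fun x _ => by
      refine le_trans ?_ (ih_weight hS0)
      have hh : 0 ≤ hs S ‖x‖ := by unfold hs; positivity
      have e : 1000 * S ^ 4 * (c * hs S ‖x‖ - (C + 1) / S ^ 4) + C =
          1000 * c * (S ^ 4 * hs S ‖x‖) - 1000 * (C + 1) + C := by field_simp
      have : 1000 * c * (S ^ 4 * hs S ‖x‖) ≤ 1 / 100 * (S ^ 4 * hs S ‖x‖) :=
        mul_le_mul_of_nonneg_right (by linarith) (by positivity)
      rw [e]
      linarith)
  rw [wt_add hφ (Continuous.continuousOn (by fun_prop)) continuousOn_const, wt_smul,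
    wt_const] at b2
  have b3 := wt_add hφ (w := fun x => c * ν ^ 2 * ‖x‖ ^ 2 - η * ν)
    (w' := fun x => c * hs S ‖x‖ - (C + 1) / S ^ 4) (by fun_prop)
    (Continuous.continuousOn (by fun_prop))
  have b4 : (fun x : EE V => c * ν ^ 2 * ‖x‖ ^ 2 + c * hs S ‖x‖ - (η * ν + (C + 1) / S ^ 4)) =
      fun x => (c * ν ^ 2 * ‖x‖ ^ 2 - η * ν) + (c * hs S ‖x‖ - (C + 1) / S ^ 4) := by
    funext x; ring
  have b5 : 1000 * S ^ 4 * wt (fun x => c * hs S ‖x‖ - (C + 1) / S ^ 4) φ ≤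
      1000 * S ^ 4 * (M.q P 1 ν φ - wt (fun x => c * ν ^ 2 * ‖x‖ ^ 2 - η * ν) φ) :=
    le_of_add_le_add_right (b2.trans (A.trans (add_le_add_right b1 _)))
  have b6 := le_of_mul_le_mul_left b5 (by positivity)
  rw [b4, b3]
  linarith

theorem Mod.PH_of_PO (M : Mod V F) (P : Par) (h : M.PO P) : M.PH P := by
  obtain ⟨c, hc, C, hC, S0, hS0, H⟩ := ih_one M P h
  refine ⟨c, hc, fun s hs0 η hη => ?_⟩
  obtain ⟨e, he, H⟩ := H η hη
  set R1 := max (S0 / s) (1 + C / (s ^ 4 * η)) with hR1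
  have hR1p : 0 < R1 := lt_max_of_lt_left (by positivity)
  refine ⟨R1 ^ 3, by positivity, e ^ 3, by positivity, fun lam hlam mu hmu hmu3 φ hφ hi => ?_⟩
  have hl0 : 0 < lam := lt_of_lt_of_le (by positivity) hlam
  obtain ⟨R, hR, rfl⟩ : ∃ R > 0, R ^ 3 = lam :=
    ⟨lam ^ ((3 : ℕ)⁻¹ : ℝ), by positivity, Real.rpow_inv_natCast_pow hl0.le (by norm_num)⟩
  have hRR : R1 ≤ R := le_of_pow_le_pow_left₀ (n := 3) (by norm_num) hR.le hlam
  obtain ⟨ν, rfl⟩ : ∃ ν, mu = ν * R ^ 2 := ⟨mu / R ^ 2, by field_simp⟩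
  have hν : 0 ≤ ν := nonneg_of_mul_nonneg_left hmu (by positivity)
  have hνe : ν ≤ e := by
    refine le_of_pow_le_pow_left₀ (n := 3) (by norm_num) he.le ?_
    have : ν ^ 3 * R ^ 6 ≤ e ^ 3 * R ^ 6 := by
      calc ν ^ 3 * R ^ 6 = (ν * R ^ 2) ^ 3 := by ring
        _ ≤ e ^ 3 * (R ^ 3) ^ 2 := hmu3
        _ = e ^ 3 * R ^ 6 := by ring
    exact le_of_mul_le_mul_right this (by positivity)
  have hS : S0 ≤ s * R := by
    have := (le_max_left _ _).trans hRR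
    rw [div_le_iff₀ hs0] at this
    linarith
  have hR2 : 1 + C / (s ^ 4 * η) ≤ R := (le_max_right _ _).trans hRR
  have hq : 0 < C / (s ^ 4 * η) := by positivity
  have hR3 : C / (s ^ 4 * η) ≤ R ^ 2 := by nlinarith
  have hR4 : R ^ 2 * (C / (s * R) ^ 4) ≤ η := by
    rw [div_le_iff₀ (by positivity)] at hR3
    have : R ^ 2 * (C / (s * R) ^ 4) = C / (s ^ 4 * R ^ 2) := by field_simp
    rw [this, div_le_iff₀ (by positivity)]
    linarith
  have hψ := hφ.scale (inv_pos.2 hR)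
  have a1 := H (s * R) hS ν hν hνe _ hψ (hi.scale R⁻¹)
  have a2 := M.q_scale P 1 ν hψ hR
  have a3 := wt_scale (fun x : EE V => R ^ 2 * (c * ν ^ 2 * ‖x‖ ^ 2 + c * hs (s * R) ‖x‖ -
    (η * ν + C / (s * R) ^ 4))) (fun x => φ (R⁻¹ • x)) hR
  have e1 : (fun x => φ (R⁻¹ • R • x)) = φ := by
    funext x
    rw [smul_smul, inv_mul_cancel₀ hR.ne', one_smul]
  simp only [one_mul, e1] at a2 a3
  rw [wt_smul (R ^ 2) (fun x : EE V => c * ν ^ 2 * ‖x‖ ^ 2 + c * hs (s * R) ‖x‖ -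
    (η * ν + C / (s * R) ^ 4))] at a3
  have c1 : Continuous fun x : EE V => hs s ‖x‖ := (ih_hs hs0).comp continuous_norm
  have c2 : Continuous fun x : EE V => hs (s * R) ‖R • x‖ :=
    (ih_hs (by positivity)).comp (by fun_prop)
  have a4 := wt_mono hφ
    (w := fun x => c * (ν * R ^ 2) ^ 2 * ‖x‖ ^ 2 + c * hs s ‖x‖ - η * (1 + ν * R ^ 2))
    (w' := fun x => R ^ 2 * (c * ν ^ 2 * ‖R • x‖ ^ 2 + c * hs (s * R) ‖R • x‖ -
      (η * ν + C / (s * R) ^ 4))) (Continuous.continuousOn (by fun_prop))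
      (Continuous.continuousOn (by fun_prop)) (fun x _ => by
      have e2 : R ^ 2 * hs (s * R) (R * ‖x‖) = hs s ‖x‖ := by
        unfold hs
        field_simp
      rw [norm_smul, Real.norm_of_nonneg hR.le, ← e2]
      nlinarith)
  rw [a2]
  refine a4.trans (a3.le.trans ?_)
  rw [mul_assoc]
  exact mul_le_mul_of_nonneg_left (mul_le_mul_of_nonneg_left a1 (by positivity)) (by positivity)

end Vale.Agent.P353
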