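import Vale.Agent.P353.IDefs
import Vale.Agent.P353.GBump
import Vale.Agent.P353.AForm2

open MeasureTheory NormedSpace
open Complex (I)
open scoped InnerProductSpace ContDiff

noncomputable section
namespace Vale.Agent.P353
variable {V F : Type} [NormedAddCommGroup V] [InnerProductSpace ℝ V] [FiniteDimensional ℝ V]
  [MeasurableSpace V] [BorelSpace V]
  [NormedAddCommGroup F] [InnerProductSpace ℂ F] [CompleteSpace F]

omit [FiniteDimensional ℝ V] [MeasurableSpace V] [BorelSpace V] in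
theorem istep_tw (c η mu : ℝ) {K : Set (EE V)} (h0 : 0 ∉ K) : ContinuousOn (tw c η mu) K := by
  unfold tw
  refine ((ContinuousOn.add (ContinuousOn.div continuousOn_const (by fun_prop) ?_)
    continuousOn_const).add (by fun_prop)).sub continuousOn_const
  intro x hx
  have : x ≠ 0 := fun h => h0 (h ▸ hx)
  positivity

omit [FiniteDimensional ℝ V] [MeasurableSpace V] [BorelSpace V] in
theorem istep_tw_mono {c c' η mu : ℝ} (h : c ≤ c') (hmu : 0 ≤ mu) (x : EE V) :
    tw c η mu x ≤ tw c' η mu x := by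
  unfold tw
  have h1 : c * mu ≤ c' * mu := mul_le_mul_of_nonneg_right h hmu
  have h2 : c * mu ^ 2 * ‖x‖ ^ 2 ≤ c' * mu ^ 2 * ‖x‖ ^ 2 :=
    mul_le_mul_of_nonneg_right (mul_le_mul_of_nonneg_right h (sq_nonneg _)) (sq_nonneg _)
  linarith

theorem istep_hs {s : ℝ} (hs0 : 0 < s) : Continuous (hs s) := by
  unfold hs
  refine Continuous.div (by fun_prop) (by fun_prop) fun t => ?_
  positivity

omit [MeasurableSpace V] [BorelSpace V] in
theorem istep_grad {ϑ : EE V → ℝ} (h : ContDiff ℝ ∞ ϑ) : Continuous (gradient ϑ) :=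
  (InnerProductSpace.toDual ℝ (EE V)).symm.continuous.comp (h.continuous_fderiv (by simp))

omit [MeasurableSpace V] [BorelSpace V] in
theorem istep_grad_zero {ϑ : EE V → ℝ} {U : Set (EE V)} (hU : IsOpen U) {c : ℝ}
    (h : ∀ x ∈ U, ϑ x = c) {x : EE V} (hx : x ∈ U) : gradient ϑ x = 0 := by
  have : ϑ =ᶠ[nhds x] fun _ => c := by
    filter_upwards [hU.mem_nhds hx] with y hy using h y hy
  rw [this.gradient_eq, gradient_fun_const]

omit [MeasurableSpace V] [BorelSpace V] in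
theorem istep_dist {L : CL V} {k : ℕ} (hne : (L.Str k).Nonempty) {g : V →L[ℝ] V} (hg : g ∈ L.G)
    (x : EE V) : Metric.infDist (lift g x) (L.Str k) ≤ Metric.infDist x (L.Str k) := by
  refine (Metric.le_infDist hne).2 fun y hy => ?_
  refine (Metric.infDist_le_dist_of_mem (CL.Str_lift hg hy)).trans (le_of_eq ?_)
  rw [dist_eq_norm, dist_eq_norm, ← map_sub, CL.G_norm hg]

/-- one localisation step -/
theorem istep_piece (M : Mod V F) (P : Par) {lam mu : ℝ} {K A B : Set (EE V)} (hA : IsClosed A)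
    (hB : IsClosed B) {ϑ : EE V → ℝ} (hϑ : ContDiff ℝ ∞ ϑ) (hi : M.L.SInv ϑ)
    (h1 : ∀ x, x ∉ A → ϑ x = Real.pi / 2) (h2 : ∀ x, x ∉ B → ϑ x = 0) {W1 W2 : EE V → ℝ}
    (c1 : ContinuousOn W1 K) (c2 : ContinuousOn W2 K)
    (H1 : ∀ φ : EE V → F, Tst φ → M.Inv φ → tsupport φ ⊆ K ∩ A → wt W1 φ ≤ M.q P lam mu φ)
    (H2 : ∀ φ : EE V → F, Tst φ → M.Inv φ → tsupport φ ⊆ K ∩ B → wt W2 φ ≤ M.q P lam mu φ)
    {φ : EE V → F} (hφ : Tst φ) (hφi : M.Inv φ) (hs : tsupport φ ⊆ K) :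
    wt (fun x => W1 x * Real.cos (ϑ x) ^ 2 + W2 x * Real.sin (ϑ x) ^ 2 +
      (-(1 / 2)) * ‖gradient ϑ x‖ ^ 2) φ ≤ M.q P lam mu φ := by
  obtain ⟨hw, hBc⟩ := M.q_cont P lam mu
  have e := sch_ims_angle hϑ hw hBc hφ
  have s1 : tsupport (fun x => Real.cos (ϑ x) • φ x) ⊆ K ∩ A := by
    refine Set.subset_inter ((tsupport_smul_subset_right _ _).trans hs)
      (closure_minimal (fun x hx => ?_) hA)
    by_contra hxA
    exact hx (by simp [h1 x hxA])
  have s2 : tsupport (fun x => Real.sin (ϑ x) • φ x) ⊆ K ∩ B := by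
    refine Set.subset_inter ((tsupport_smul_subset_right _ _).trans hs)
      (closure_minimal (fun x hx => ?_) hB)
    by_contra hxB
    exact hx (by simp [h2 x hxB])
  have a1 := H1 _ (hφ.smul hϑ.cos) (hφi.smul fun ξ x => by rw [hi ξ x]) s1
  have a2 := H2 _ (hφ.smul hϑ.sin) (hφi.smul fun ξ x => by rw [hi ξ x]) s2
  rw [wt_mul] at a1 a2
  have hc := hϑ.continuous
  have hg := istep_grad hϑ
  have d1 : ContinuousOn (fun x => W1 x * Real.cos (ϑ x) ^ 2) (tsupport φ) :=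
    (c1.mono hs).mul (by fun_prop)
  have d2 : ContinuousOn (fun x => W2 x * Real.sin (ϑ x) ^ 2) (tsupport φ) :=
    (c2.mono hs).mul (by fun_prop)
  rw [wt_add hφ (d1.fun_add d2) (by fun_prop), wt_add hφ d1 d2, wt_smul]
  unfold Mod.q at a1 a2 ⊢
  linarith

theorem istep_arith {T η t W1 W2 W3 H C1 S1 C2 S2 G1 G2 : ℝ} (ht0 : 0 < t) (ht1 : t ≤ 1)
    (hH : 0 ≤ H) (h1 : T + H ≤ W1) (h2 : T ≤ W2) (h3 : T ≤ W3) (c1 : 0 ≤ C1) (s1 : 0 ≤ S1)
    (c2 : 0 ≤ C2) (s2 : 0 ≤ S2) (e1 : C1 + S1 = 1) (e2 : C2 + S2 = 1) (g1 : 0 ≤ G1)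
    (hG1 : (1 / 2) * G1 ≤ t * (H * C2)) (hG2 : t * ((1 / 2) * G2) ≤ η) :
    T - η ≤ (1 - t) * (W1 * C1 + W2 * S1 + (-(1 / 2)) * G1) +
      t * (W1 * C2 + W3 * S2 + (-(1 / 2)) * G2) := by
  have a1 : T ≤ W1 * C1 + W2 * S1 := by
    have := mul_le_mul_of_nonneg_right h1 c1
    have := mul_le_mul_of_nonneg_right h2 s1
    have := mul_nonneg hH c1
    have : T = T * C1 + T * S1 := by rw [← mul_add, e1, mul_one]
    nlinarith
  have a2 : T + H * C2 ≤ W1 * C2 + W3 * S2 := by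
    have := mul_le_mul_of_nonneg_right h1 c2
    have := mul_le_mul_of_nonneg_right h3 s2
    have : T = T * C2 + T * S2 := by rw [← mul_add, e2, mul_one]
    nlinarith
  have b1 := mul_le_mul_of_nonneg_left a1 (sub_nonneg.2 ht1)
  have b2 := mul_le_mul_of_nonneg_left a2 ht0.le
  have b3 := mul_nonneg ht0.le g1
  nlinarith

theorem istep_g2 {κ g d l : ℝ} (hκ : 0 < κ) (hg : 0 ≤ g) (hd : κ / 4 ≤ d) (hl : 1 ≤ l)
    (h : g * d ≤ 10 / l) : (1 / 2) * g ^ 2 ≤ 800 / κ ^ 2 := by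
  have h1 : 10 / l ≤ 10 := div_le_self (by norm_num) hl
  have h2 : g * (κ / 4) ≤ g * d := mul_le_mul_of_nonneg_left hd hg
  have h3 : g * κ ≤ 40 := by linarith
  have h4 : (g * κ) ^ 2 ≤ 40 ^ 2 := pow_le_pow_left₀ (by positivity) h3 2
  rw [le_div_iff₀ (by positivity)]
  nlinarith

theorem istep_g1 {s g d l a : ℝ} (hs0 : 0 < s) (hg : 0 ≤ g) (hd : s ≤ d) (hl : 1 ≤ l)
    (ha : 0 < a) (hla : 200 ≤ a * l) (h : g * d ≤ 10 / l) : (1 / 2) * g ^ 2 ≤ a * hs s d := by
  have hd0 : 0 < d := hs0.trans_le hd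
  have h1 : g * d * l ≤ 10 := (le_div_iff₀ (by linarith)).1 h
  have h2 : (g * d * l) ^ 2 ≤ 10 ^ 2 := pow_le_pow_left₀ (by positivity) h1 2
  have h3 : s ^ 2 ≤ d ^ 2 := pow_le_pow_left₀ hs0.le hd 2
  have h4 : (s ^ 2 + d ^ 2) ^ 2 ≤ (2 * d ^ 2) ^ 2 :=
    pow_le_pow_left₀ (by positivity) (by linarith) 2
  have h5 : 200 ≤ a * l ^ 2 := by nlinarith
  have h6 : 2 * (g * d) ^ 2 ≤ a := by
    have : 2 * (g * d) ^ 2 * l ^ 2 ≤ a * l ^ 2 := by nlinarith
    exact le_of_mul_le_mul_right this (by positivity)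
  unfold hs
  rw [← mul_div_assoc, le_div_iff₀ (by positivity)]
  have h7 : 1 / 2 * g ^ 2 * (s ^ 2 + d ^ 2) ^ 2 ≤ 1 / 2 * g ^ 2 * (2 * d ^ 2) ^ 2 :=
    mul_le_mul_of_nonneg_left h4 (by positivity)
  have h8 : 2 * (g * d) ^ 2 * d ^ 2 ≤ a * d ^ 2 := mul_le_mul_of_nonneg_right h6 (by positivity)
  nlinarith

theorem Mod.PK_succ (M : Mod V F) (P : Par) {k : ℕ} (hk : k ≤ Module.finrank ℝ V) (h1 : M.PK P k)
    (h2 : M.PN P k) : M.PK P (k + 1) := by
  intro K hK hsat h0 hd η hη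
  have hne : (M.L.Str k).Nonempty := by
    refine ⟨0, fun i j => by simp, ?_⟩
    have : M.L.cent 0 = ⊤ := by
      refine eq_top_iff.2 fun a _ => ?_
      simp [CL.cent]
    rw [this, finrank_top]
    exact hk
  set d : EE V → ℝ := fun x => Metric.infDist x (M.L.Str k) with hdd
  have hdc : Continuous d := Metric.continuous_infDist_pt _
  have outer : ∀ a > 0, ∃ c > 0, M.LB P (K ∩ {x | a ≤ d x}) (tw c (η / 2)) := by
    intro a ha
    refine h1 _ (hK.inter_right (isClosed_le continuous_const hdc)) ?_ (fun h => h0 h.1) ?_ _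
      (half_pos hη)
    · refine Set.Subset.antisymm ?_ (CL.subset_sat _)
      rintro x ⟨g, hg, hx1, hx2⟩
      refine ⟨hsat ▸ ⟨g, hg, hx1⟩, ?_⟩
      exact le_trans hx2 (istep_dist hne hg x)
    · refine Set.disjoint_left.2 fun x hx hx' => ?_
      have : a ≤ Metric.infDist x (M.L.Str k) := hx.2
      rw [Metric.infDist_zero_of_mem hx'] at this
      linarith
  obtain ⟨κ, hκ, c, hc, hN⟩ := h2 K hK hsat h0 hd (η / 2) (half_pos hη)
  set t := min 1 (η * κ ^ 2 / 1600) with htdef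
  have ht0 : 0 < t := lt_min one_pos (by positivity)
  have ht1 : t ≤ 1 := min_le_left _ _
  have ht2 : t * (800 / κ ^ 2) ≤ η / 2 := by
    refine (mul_le_mul_of_nonneg_right (min_le_right _ _) (by positivity)).trans (le_of_eq ?_)
    field_simp
    norm_num
  set l := 3 + 200 / (t * c) with hldef
  have hl0 : 0 < 200 / (t * c) := by positivity
  have hla : 200 ≤ t * c * l := by
    have : t * c * l = 3 * (t * c) + 200 := by rw [hldef]; field_simp
    have : 0 < t * c := by positivity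
    linarith
  set Λ := Real.exp l with hΛdef
  have hΛ : 4 ≤ Λ := by have := Real.add_one_le_exp l; linarith
  set s := κ / (8 * Λ) with hsdef
  have hs0 : 0 < s := by positivity
  have hΛs : Λ * s = κ / 8 := by rw [hsdef]; field_simp
  have hstr : ∀ g ∈ M.L.G, ∀ y ∈ M.L.Str k, lift g y ∈ M.L.Str k := fun g hg y hy =>
    CL.Str_lift hg hy
  obtain ⟨ϑ1, a1, a2, a3, a4, a5⟩ := CL.log_angle hstr hs0 hΛ
  obtain ⟨ϑ2, b1, b2, b3, b4, b5⟩ := CL.log_angle hstr (s := κ / 4) (Λ := 4) (by positivity) le_rfl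
  rw [hΛdef, Real.log_exp] at a5
  have hlog : 1 ≤ Real.log 4 := by
    rw [Real.le_log_iff_exp_le (by norm_num)]
    have := Real.exp_one_lt_d9
    linarith
  obtain ⟨c2, hc2, l2, hl2, e2, he2, H2⟩ := outer s hs0
  obtain ⟨c3, hc3, l3, hl3, e3, he3, H3⟩ := outer (κ / 4) (by positivity)
  obtain ⟨l1, hl1, e1, he1, H1⟩ := hN s hs0
  refine ⟨min c (min c2 c3), lt_min hc (lt_min hc2 hc3), max l1 (max l2 l3),
    lt_max_of_lt_left hl1, min e1 (min e2 e3), lt_min he1 (lt_min he2 he3),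
    fun lam hlam mu hmu hmu3 φ hφ hφi hsK => ?_⟩
  have m1 : mu ^ 3 ≤ e1 * lam ^ 2 :=
    hmu3.trans (mul_le_mul_of_nonneg_right (min_le_left _ _) (sq_nonneg _))
  have m2 : mu ^ 3 ≤ e2 * lam ^ 2 := hmu3.trans (mul_le_mul_of_nonneg_right
    ((min_le_right _ _).trans (min_le_left _ _)) (sq_nonneg _))
  have m3 : mu ^ 3 ≤ e3 * lam ^ 2 := hmu3.trans (mul_le_mul_of_nonneg_right
    ((min_le_right _ _).trans (min_le_right _ _)) (sq_nonneg _))
  have G1 := H1 lam ((le_max_left _ _).trans hlam) mu hmu m1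
  have G2 := H2 lam (((le_max_left _ _).trans (le_max_right _ _)).trans hlam) mu hmu m2
  have G3 := H3 lam (((le_max_right _ _).trans (le_max_right _ _)).trans hlam) mu hmu m3
  have cW1 : ContinuousOn (fun x => tw c (η / 2) mu x + c * hs s (d x)) K :=
    (istep_tw _ _ _ h0).add (continuous_const.mul ((istep_hs hs0).comp hdc)).continuousOn
  have cW2 := istep_tw c2 (η / 2) mu h0
  have cW3 := istep_tw c3 (η / 2) mu h0
  have p1 := istep_piece M P (A := {x | d x ≤ κ}) (B := {x | s ≤ d x})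
    (isClosed_le hdc continuous_const) (isClosed_le continuous_const hdc) a1 a2
    (fun x hx => a4 x (by
      have : κ < d x := not_le.1 hx
      rw [hΛs]; change κ / 8 < d x; linarith))
    (fun x hx => a3 x (not_le.1 hx)) cW1 cW2 G1 G2 hφ hφi hsK
  have p2 := istep_piece M P (A := {x | d x ≤ κ}) (B := {x | κ / 4 ≤ d x})
    (isClosed_le hdc continuous_const) (isClosed_le continuous_const hdc) b1 b2
    (fun x hx => b4 x (by
      have : κ < d x := not_le.1 hx
      change 4 * (κ / 4) < d x; linarith))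
    (fun x hx => b3 x (not_le.1 hx)) cW1 cW3 G1 G3 hφ hφi hsK
  have ca := a1.continuous
  have cb := b1.continuous
  have ga := istep_grad a1
  have gb := istep_grad b1
  have k1 : ContinuousOn (fun x => (tw c (η / 2) mu x + c * hs s (d x)) * Real.cos (ϑ1 x) ^ 2 +
      tw c2 (η / 2) mu x * Real.sin (ϑ1 x) ^ 2 + (-(1 / 2)) * ‖gradient ϑ1 x‖ ^ 2) (tsupport φ) :=
    (((cW1.mono hsK).mul (by fun_prop)).add ((cW2.mono hsK).mul (by fun_prop))).add (by fun_prop)
  have k2 : ContinuousOn (fun x => (tw c (η / 2) mu x + c * hs s (d x)) * Real.cos (ϑ2 x) ^ 2 +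
      tw c3 (η / 2) mu x * Real.sin (ϑ2 x) ^ 2 + (-(1 / 2)) * ‖gradient ϑ2 x‖ ^ 2) (tsupport φ) :=
    (((cW1.mono hsK).mul (by fun_prop)).add ((cW3.mono hsK).mul (by fun_prop))).add (by fun_prop)
  have key := wt_mono hφ ((istep_tw (min c (min c2 c3)) η mu h0).mono hsK)
    (((continuousOn_const (c := 1 - t)).fun_mul k1).fun_add
      ((continuousOn_const (c := t)).fun_mul k2))
    (fun x _ => by
      have e0 : tw (min c (min c2 c3)) η mu x =
          tw (min c (min c2 c3)) (η / 2) mu x - η / 2 := by unfold tw; ring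
      have hh : 0 ≤ hs s (d x) := by unfold hs; positivity
      rw [e0]
      refine istep_arith (H := c * hs s (d x)) ht0 ht1 (by positivity)
        (add_le_add_left (istep_tw_mono (min_le_left _ _) hmu x) _)
        (istep_tw_mono ((min_le_right _ _).trans (min_le_left _ _)) hmu x)
        (istep_tw_mono ((min_le_right _ _).trans (min_le_right _ _)) hmu x)
        (sq_nonneg _) (sq_nonneg _) (sq_nonneg _) (sq_nonneg _) (Real.cos_sq_add_sin_sq _)
        (Real.cos_sq_add_sin_sq _) (sq_nonneg _) ?_ ?_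
      · by_cases hx1 : d x < s
        · rw [istep_grad_zero (isOpen_lt hdc continuous_const) a3 hx1, norm_zero]
          have : 0 ≤ t * (c * hs s (d x) * Real.cos (ϑ2 x) ^ 2) := by positivity
          linarith
        by_cases hx2 : Λ * s < d x
        · rw [istep_grad_zero (isOpen_lt continuous_const hdc) a4 hx2, norm_zero]
          have : 0 ≤ t * (c * hs s (d x) * Real.cos (ϑ2 x) ^ 2) := by positivity
          linarith
        have hx3 : d x < κ / 4 := by
          have := not_lt.1 hx2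
          linarith
        rw [b3 x hx3, Real.cos_zero, one_pow, mul_one, ← mul_assoc]
        exact istep_g1 hs0 (norm_nonneg _) (not_lt.1 hx1) (by linarith) (by positivity) hla (a5 x)
      · refine le_trans (mul_le_mul_of_nonneg_left ?_ ht0.le) ht2
        by_cases hx1 : d x < κ / 4
        · rw [istep_grad_zero (isOpen_lt hdc continuous_const) b3 hx1, norm_zero]
          have : 0 ≤ 800 / κ ^ 2 := by positivity
          linarith
        · exact istep_g2 hκ (norm_nonneg _) (not_lt.1 hx1) hlog (b5 x))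
  rw [wt_add hφ ((continuousOn_const (c := 1 - t)).fun_mul k1)
    ((continuousOn_const (c := t)).fun_mul k2), wt_smul, wt_smul] at key
  have q1 := mul_le_mul_of_nonneg_left p1 (sub_nonneg.2 ht1)
  have q2 := mul_le_mul_of_nonneg_left p2 ht0.le
  linarith

end Vale.Agent.P353
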