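import Vale.Agent.P353.INear
import Vale.Agent.P353.IAnn
import Vale.Agent.P353.IStep
import Vale.Agent.P353.IBase
import Vale.Agent.P353.IH

open MeasureTheory NormedSpace
open Complex (I)
open scoped InnerProductSpace ContDiff

noncomputable section
namespace Vale.Agent.P353

theorem Mod.po_aux {F : Type} [NormedAddCommGroup F] [InnerProductSpace ℂ F] [CompleteSpace F]
    [FiniteDimensional ℂ F] (P : Par) (n : ℕ) : ∀ (V : Type) [NormedAddCommGroup V]
    [InnerProductSpace ℝ V] [FiniteDimensional ℝ V] [MeasurableSpace V] [BorelSpace V]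
    (M : Mod V F), Module.finrank ℝ V = n → M.PO P := by
  induction n using Nat.strong_induction_on with
  | _ n ih =>
    intro V _ _ _ _ _ M hn
    have ih' : ∀ (W : Type) [NormedAddCommGroup W] [InnerProductSpace ℝ W] [FiniteDimensional ℝ W]
        [MeasurableSpace W] [BorelSpace W] (M' : Mod W F),
        Module.finrank ℝ W < Module.finrank ℝ V → M'.PH P := fun W _ _ _ _ _ M' h =>
      M'.PH_of_PO P (ih _ (hn ▸ h) W M' rfl)
    have key : ∀ k, k ≤ Module.finrank ℝ V + 1 → M.PK P k := by
      intro k
      induction k with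
      | zero => exact fun _ => M.PK_zero P
      | succ k hk =>
        intro h
        exact M.PK_succ P (by omega) (hk (by omega)) (M.PN_of_ih P ih' (by omega))
    exact M.PO_of_PK P (key _ le_rfl)

theorem Mod.po {V F : Type} [NormedAddCommGroup V] [InnerProductSpace ℝ V] [FiniteDimensional ℝ V]
    [MeasurableSpace V] [BorelSpace V] [NormedAddCommGroup F] [InnerProductSpace ℂ F]
    [CompleteSpace F] [FiniteDimensional ℂ F] (M : Mod V F) (P : Par) : M.PO P :=
  Mod.po_aux P _ V M rfl

end Vale.Agent.P353
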