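import Vale.Agent.P353.IPatch

open MeasureTheory NormedSpace
open Complex (I)
open scoped InnerProductSpace ContDiff

noncomputable section
namespace Vale.Agent.P353
variable {V F : Type} [NormedAddCommGroup V] [InnerProductSpace ℝ V] [FiniteDimensional ℝ V]
  [MeasurableSpace V] [BorelSpace V]
  [NormedAddCommGroup F] [InnerProductSpace ℂ F] [CompleteSpace F]

theorem inear_min {ι : Type} (T : Finset ι) {f : ι → ℝ} (h : ∀ p ∈ T, 0 < f p) :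
    ∃ m > 0, ∀ p ∈ T, m ≤ f p := by
  rcases T.eq_empty_or_nonempty with rfl | hT
  · exact ⟨1, one_pos, by simp⟩
  · obtain ⟨q, hq, h'⟩ := T.exists_min_image f hT
    exact ⟨f q, h q hq, h'⟩

theorem inear_max {ι : Type} (T : Finset ι) (f : ι → ℝ) : ∃ m > 0, ∀ p ∈ T, f p ≤ m := by
  obtain ⟨m, hm⟩ := (T.finite_toSet.image f).bddAbove
  exact ⟨max m 1, by positivity, fun p hp => (hm ⟨p, hp, rfl⟩).trans (le_max_left _ _)⟩

theorem inear_shrink {E : Type} [MetricSpace E] {K C O : Set E} (hK : IsCompact K)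
    (hC : IsClosed C) (hne : C.Nonempty) (hO : IsOpen O) (h : K ∩ C ⊆ O) :
    ∃ κ > 0, K ∩ {x | Metric.infDist x C ≤ κ} ⊆ O := by
  obtain ⟨κ, hκ, h'⟩ := (hK.diff hO).exists_forall_le' (f := fun x => Metric.infDist x C) (a := 0)
    (Metric.continuous_infDist_pt C).continuousOn
    fun x hx => (hC.notMem_iff_infDist_pos hne).1 fun hx' => hx.2 (h ⟨hx.1, hx'⟩)
  refine ⟨κ / 2, by positivity, fun x hx => by_contra fun hx' => ?_⟩
  have h1 := h' x ⟨hx.1, hx'⟩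
  have h2 : Metric.infDist x C ≤ κ / 2 := hx.2
  linarith

theorem inear_cont {E : Type} [TopologicalSpace E] {w a : E → ℝ} {W : Set E} (hW : IsOpen W)
    (hw : ContinuousOn w W) (ha : Continuous a) (hs : tsupport a ⊆ W) :
    Continuous fun x => w x * a x ^ 2 :=
  (hw.mul (ha.pow 2).continuousOn).continuous_of_tsupport_subset hW
    ((closure_mono (t := Function.support a) (Function.support_subset_iff.2
      fun x hx (h : a x = 0) => hx (by simp [h]))).trans hs)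

theorem inear_ims {E : Type} [NormedAddCommGroup E] [InnerProductSpace ℝ E] [FiniteDimensional ℝ E]
    [MeasurableSpace E] [BorelSpace E] {ι : Type} (T : Finset ι) {a W : ι → E → ℝ}
    (ha : ∀ p ∈ T, ContDiff ℝ ∞ (a p)) {w t : E → ℝ} {B : E → F →L[ℂ] F} (hw : Continuous w)
    (hB : Continuous B) {φ : E → F} (h : Tst φ) {U : Set E} (hU : IsOpen U) (hs : tsupport φ ⊆ U)
    (h1 : ∀ x ∈ U, ∑ p ∈ T, a p x ^ 2 = 1) (ht : ContinuousOn t (tsupport φ))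
    (hW : ∀ p ∈ T, Continuous fun x => W p x * a p x ^ 2)
    (h2 : ∀ p ∈ T, wt (W p) (fun x => a p x • φ x) ≤ sch w B fun x => a p x • φ x)
    (h3 : ∀ x ∈ tsupport φ, t x + (1 / 2) * ∑ p ∈ T, ‖gradient (a p) x‖ ^ 2 ≤
      ∑ p ∈ T, W p x * a p x ^ 2) : wt t φ ≤ sch w B φ := by
  have c1 : Continuous fun x => (1 / 2) * ∑ p ∈ T, ‖gradient (a p) x‖ ^ 2 :=
    continuous_const.mul (continuous_finsetSum _ fun p hp =>
      (icalc_grad (ha p hp)).continuous.norm.pow 2)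
  have e1 := wt_mono h (ht.add c1.continuousOn) (continuous_finsetSum T hW).continuousOn h3
  have e2 : wt (fun x => ∑ p ∈ T, W p x * a p x ^ 2) φ =
      ∑ p ∈ T, wt (W p) fun x => a p x • φ x := by
    simp only [wt_mul]
    simp only [wt, Finset.sum_mul]
    exact integral_finsetSum _ fun p hp => h.int_wt (hW p hp).continuousOn
  have e3 := Finset.sum_le_sum h2
  have e4 := wt_add h ht c1.continuousOn
  rw [wt_smul] at e4
  rw [sch_ims T ha hw hB h hU hs h1] at e3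
  exact le_of_add_le_add_right (e4.symm.trans_le (e1.trans (e2.trans_le e3)))

/-- the weight on a patch -/
def inearW (P : Par) (c η mu : ℝ) (u D h : EE V → ℝ) (x : EE V) : ℝ :=
  (1 / 2) * D x + (3 / 4) * ⟪gradient u x, x⟫_ℝ / (u x * ‖x‖ ^ 2) +
    mu * (99 / 100) * ⟪gradient u x, mat P.Om x⟫_ℝ / u x + (23 / 10) / ‖x‖ ^ 2 + c * mu +
    c * mu ^ 2 * ‖x‖ ^ 2 + c * h x - η

omit [MeasurableSpace V] [BorelSpace V] in
theorem inear_Wc (P : Par) (c η mu : ℝ) {u D h : EE V → ℝ} {W : Set (EE V)} (h0 : 0 ∉ W)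
    (hu : ContDiff ℝ ∞ u) (hu0 : ∀ x, 0 < u x) (hD : ContinuousOn D W) (hh : Continuous h) :
    ContinuousOn (inearW P c η mu u D h) W := by
  have c1 := (icalc_grad hu).continuous
  have c2 := hu.continuous
  have hn : ∀ x ∈ W, ‖x‖ ^ 2 ≠ 0 := fun x hx =>
    pow_ne_zero 2 (norm_ne_zero_iff.2 fun h => h0 (h ▸ hx))
  refine (((((((continuousOn_const.mul hD).add (ContinuousOn.div ?_ ?_ fun x hx =>
    mul_ne_zero (hu0 x).ne' (hn x hx))).add (ContinuousOn.div ?_ c2.continuousOn fun x _ =>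
    (hu0 x).ne')).add (continuousOn_const.div ?_ hn)).add continuousOn_const).add ?_).add ?_).sub
    continuousOn_const <;> exact Continuous.continuousOn (by fun_prop)

theorem inear_hs {s : ℝ} (h : 0 < s) : Continuous (hs s) ∧ ∀ t, 0 ≤ hs s t :=
  ⟨Continuous.div (by fun_prop) (by fun_prop) fun t => by positivity, fun t => by
    unfold hs
    positivity⟩

omit [MeasurableSpace V] [BorelSpace V] in
theorem inear_pt {ι : Type} (T : Finset ι) (P : Par) {c : ι → ℝ} {a u D : ι → EE V → ℝ}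
    {h : EE V → ℝ} {c0 η η1 mu R : ℝ} {x : EE V} (hx : x ≠ 0) (hR : ‖x‖ ≤ R) (hmu : 0 ≤ mu)
    (hh : 0 ≤ h x) (hc0 : 0 < c0) (hc : ∀ p ∈ T, c0 ≤ c p) (h1 : ∑ p ∈ T, a p x ^ 2 = 1)
    (h2 : ‖∑ p ∈ T, (a p x ^ 2 / u p x) • gradient (u p) x‖ ≤ η1)
    (h3 : -(2 * η1) < ∑ p ∈ T, D p x * a p x ^ 2 - ∑ p ∈ T, ‖gradient (a p) x‖ ^ 2)
    (e1 : η1 ≤ η / 2) (e2 : η1 * R ≤ 1 / 10)
    (e3 : η1 * (‖(mat P.Om : EE V →L[ℝ] EE V)‖ * R) ≤ c0 / 2) :
    tw (c0 / 2) η mu x + c0 / 2 * h x + (1 / 2) * ∑ p ∈ T, ‖gradient (a p) x‖ ^ 2 ≤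
      ∑ p ∈ T, inearW P (c p) (η / 2) mu (u p) (D p) h x * a p x ^ 2 := by
  set v := ∑ p ∈ T, (a p x ^ 2 / u p x) • gradient (u p) x with hv
  have hn : 0 < ‖x‖ ^ 2 := pow_pos (norm_pos_iff.2 hx) 2
  have hη : 0 ≤ η1 := (norm_nonneg _).trans h2
  have hm : 0 ≤ mu + mu ^ 2 * ‖x‖ ^ 2 + h x := by positivity
  have s1 : ∑ p ∈ T, inearW P (c p) (η / 2) mu (u p) (D p) h x * a p x ^ 2 =
      (1 / 2) * ∑ p ∈ T, D p x * a p x ^ 2 + (3 / 4) * ⟪v, x⟫_ℝ / ‖x‖ ^ 2 +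
        mu * (99 / 100) * ⟪v, mat P.Om x⟫_ℝ + ((23 / 10) / ‖x‖ ^ 2 - η / 2) * ∑ p ∈ T, a p x ^ 2 +
        ∑ p ∈ T, c p * ((mu + mu ^ 2 * ‖x‖ ^ 2 + h x) * a p x ^ 2) := by
    simp only [hv, sum_inner, real_inner_smul_left, Finset.mul_sum, Finset.sum_div,
      ← Finset.sum_add_distrib]
    refine Finset.sum_congr rfl fun p _ => ?_
    unfold inearW
    ring
  have s2 : c0 * (mu + mu ^ 2 * ‖x‖ ^ 2 + h x) ≤
      ∑ p ∈ T, c p * ((mu + mu ^ 2 * ‖x‖ ^ 2 + h x) * a p x ^ 2) := by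
    refine le_trans (le_of_eq ?_) (Finset.sum_le_sum fun p hp =>
      mul_le_mul_of_nonneg_right (hc p hp) (by positivity))
    rw [← Finset.mul_sum, ← Finset.mul_sum, h1, mul_one]
  have s3 : -(1 / 10) / ‖x‖ ^ 2 ≤ (3 / 4) * ⟪v, x⟫_ℝ / ‖x‖ ^ 2 := by
    have := (abs_le.1 ((abs_real_inner_le_norm v x).trans
      (mul_le_mul h2 hR (norm_nonneg _) hη))).1
    gcongr
    linarith
  have s4 : -(c0 / 2) ≤ (99 / 100) * ⟪v, mat P.Om x⟫_ℝ := by
    have := (abs_le.1 ((abs_real_inner_le_norm v (mat P.Om x)).trans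
      (mul_le_mul h2 ((mat P.Om : EE V →L[ℝ] EE V).le_opNorm_of_le hR) (norm_nonneg _) hη))).1
    linarith
  have s5 := mul_le_mul_of_nonneg_left s4 hmu
  have s6 : (22 / 10) / ‖x‖ ^ 2 = (23 / 10) / ‖x‖ ^ 2 + -(1 / 10) / ‖x‖ ^ 2 := by ring
  have s7 : 0 ≤ c0 * (mu ^ 2 * ‖x‖ ^ 2 + h x) := by positivity
  rw [s1, h1, tw, s6]
  nlinarith

theorem inear_patch [FiniteDimensional ℂ F] (M : Mod V F) (P : Par)
    (ih : ∀ (W : Type) [NormedAddCommGroup W] [InnerProductSpace ℝ W] [FiniteDimensional ℝ W]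
      [MeasurableSpace W] [BorelSpace W] (M' : Mod W F),
      Module.finrank ℝ W < Module.finrank ℝ V → M'.PH P) {k : ℕ} {Y : EE V} (h0 : Y ≠ 0)
    (h1 : Y ∈ M.L.Str k) (h2 : Y ∉ M.L.Str (k + 1)) : ∃ W : Set (EE V), ∃ c > 0, IsOpen W ∧
    M.L.sat W = W ∧ Y ∈ W ∧ 0 ∉ W ∧
    ∀ u : EE V → ℝ, ContDiff ℝ ∞ u → M.L.SInv u → (∀ x, 0 < u x) →
    ∃ D : EE V → ℝ, ContinuousOn D W ∧
      (∀ Y ∈ W, Y ∈ M.L.Str k → D Y = -lapOn (M.L.zc Y) u Y / u Y) ∧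
      ∀ η > 0, ∃ κ > 0, ∀ s > 0, M.LB P (W ∩ {x | Metric.infDist x (M.L.Str k) ≤ κ})
        fun mu => inearW P c η mu u D fun x => hs s (Metric.infDist x (M.L.Str k)) := by
  obtain ⟨pt, rfl⟩ := M.L.exists_patch h1.1
  obtain rfl : k = Module.finrank ℝ pt.l :=
    le_antisymm h1.2 (Nat.le_of_lt_succ (not_le.1 fun h => h2 ⟨h1.1, h⟩))
  obtain ⟨r, hr, c, hc, -, ho, h⟩ := M.patch_bound P ih pt h0
  have hsub : M.L.sat (pt.pts (r / 4)) \ {0} ⊆ M.L.sat (pt.pts r) :=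
    Set.sdiff_subset.trans (CL.sat_mono fun x hx => ⟨hx.1, hx.2.trans (by linarith)⟩)
  refine ⟨M.L.sat (pt.pts (r / 4)) \ {0}, c, hc, (ho _ (by linarith)).sdiff isClosed_singleton,
    (CL.subset_sat _).antisymm' ?_, ⟨CL.subset_sat _ ⟨⟨WithLp.toLp 2 fun i =>
      ⟨pt.p i, (M.L.mem_cent _ _).2 fun j => h1.1 j i⟩, 0, ?_⟩, by simpa using hr⟩, h0⟩,
    fun h => h.2 rfl, fun u hu hi hu0 => ?_⟩
  · rintro x ⟨g, hg, hx, hx'⟩
    exact ⟨(CL.sat_lift hg x).1 hx, fun h => hx' (by rw [h]; exact map_zero _)⟩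
  · ext i
    simp [Patch.io]
  · obtain ⟨D, d1, d2, d3⟩ := h u hu hi hu0
    refine ⟨D, d1.mono hsub, fun Y hY => d2 Y (hsub hY), fun η hη => ?_⟩
    obtain ⟨κ, hκ, d4⟩ := d3 η hη
    refine ⟨κ, hκ, fun s hs => ?_⟩
    obtain ⟨l0, hl, e0, he, d5⟩ := d4 s hs
    exact ⟨l0, hl, e0, he, fun lam a1 mu a2 a3 φ a4 a5 a6 => d5 lam a1 mu a2 a3 φ a4 a5
      (a6.trans (Set.inter_subset_inter_left _ Set.sdiff_subset))⟩

theorem Mod.PN_of_ih [FiniteDimensional ℂ F] (M : Mod V F) (P : Par)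
    (ih : ∀ (W : Type) [NormedAddCommGroup W] [InnerProductSpace ℝ W] [FiniteDimensional ℝ W]
      [MeasurableSpace W] [BorelSpace W] (M' : Mod W F),
      Module.finrank ℝ W < Module.finrank ℝ V → M'.PH P) {k : ℕ} (hk : k ≤ Module.finrank ℝ V) :
    M.PN P k := by
  intro K hK _ hK0 hd η hη
  have hC := M.L.isClosed_Str k
  have hne : (M.L.Str k).Nonempty := by
    refine ⟨0, fun i j => by simp, ?_⟩
    have : M.L.cent 0 = ⊤ := eq_top_iff.2 fun a _ => (M.L.mem_cent _ _).2 fun i => by simp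
    rwa [this, finrank_top]
  have hK1 := hK.inter_right hC
  choose W c hc w1 w2 w3 w4 w5 using fun Y : ↥(K ∩ M.L.Str k) =>
    inear_patch M P ih (Y := Y) (fun h => hK0 (h ▸ Y.2.1)) Y.2.2 (Set.disjoint_left.1 hd Y.2.1)
  obtain ⟨T, hT⟩ := hK1.elim_finite_subcover W w1 fun Y hY => Set.mem_iUnion.2 ⟨⟨Y, hY⟩, w3 _⟩
  obtain ⟨a, U, hU, hKU, -, ha, h1⟩ := CL.partition T (fun p _ => w1 p) (fun p _ => w2 p) hK1 hT
  obtain ⟨κ1, hκ1, k1⟩ := inear_shrink hK hC hne hU hKU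
  obtain ⟨R, hR0, hR⟩ := hK.isBounded.exists_pos_norm_le
  obtain ⟨c0, hc0, hc'⟩ := inear_min T (f := c) fun p _ => hc p
  obtain ⟨η1, hη1, e1, e2, e3⟩ : ∃ η1 > 0, η1 ≤ η / 2 ∧ η1 * R ≤ 1 / 10 ∧
      η1 * (‖(mat P.Om : EE V →L[ℝ] EE V)‖ * R) ≤ c0 / 2 := by
    have t1 : ∀ C δ : ℝ, 0 < δ → ∀ᶠ τ in nhdsWithin (0 : ℝ) (Set.Ioi 0), τ * C ≤ δ := fun C δ hδ =>
      nhdsWithin_le_nhds (((continuous_mul_const C).tendsto' 0 0 (by simp)).eventually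
        (eventually_le_nhds hδ))
    obtain ⟨τ, ⟨⟨b1, b2⟩, b3⟩, b4⟩ := ((((t1 1 _ (half_pos hη)).and
      (t1 R (1 / 10) (by norm_num))).and (t1 _ _ (half_pos hc0))).and self_mem_nhdsWithin).exists
    exact ⟨τ, b4, by simpa using b1, b2, b3⟩
  have cd := Metric.continuous_infDist_pt (M.L.Str k)
  obtain ⟨τ, hτ, hb⟩ := barta_sum T (fun p hp => ⟨(ha p hp).1, (ha p hp).2.2.2.2⟩) hU
    (hK.inter_right (isClosed_le cd continuous_const)) k1 h1 hη1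
  choose! D d1 d2 d3 using fun p (hp : p ∈ T) => w5 p (rg τ (a p)) (rg_smooth hτ (ha p hp).1).1
    (fun ξ x => congrArg (fun t => Real.sqrt (t ^ 2 + τ ^ 2)) ((ha p hp).2.1 ξ x))
    (rg_smooth hτ (ha p hp).1).2
  choose! κ hκ d4 using fun p hp => d3 p hp (η / 2) (half_pos hη)
  obtain ⟨κ2, hκ2, k2⟩ := inear_shrink hK hC hne (O := {x | -(2 * η1) <
      ∑ p ∈ T, D p x * a p x ^ 2 - ∑ p ∈ T, ‖gradient (a p) x‖ ^ 2})
    (isOpen_lt continuous_const ((continuous_finsetSum _ fun p hp => inear_cont (w1 p) (d1 p hp)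
      (ha p hp).1.continuous (ha p hp).2.2.2.1).sub (continuous_finsetSum _ fun p hp =>
      (icalc_grad (ha p hp).1).continuous.norm.pow 2))) (by
      intro Y hY
      have b1 := (hb Y ⟨hY.1, (Metric.infDist_zero_of_mem hY.2).trans_le hκ1.le⟩).2 (M.L.zc Y)
        fun p hp => (ha p hp).2.1.gradient_mem (icalc_diff (ha p hp).1) Y
      have b2 : ∑ p ∈ T, a p Y ^ 2 * (-lapOn (M.L.zc Y) (rg τ (a p)) Y / rg τ (a p) Y) =
          ∑ p ∈ T, D p Y * a p Y ^ 2 := Finset.sum_congr rfl fun p hp => by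
        by_cases h : a p Y = 0
        · simp [h]
        · rw [d2 p hp Y ((ha p hp).2.2.2.1 (subset_tsupport _ h)) hY.2, mul_comm]
      simp only [Set.mem_ofPred_eq]
      linarith)
  obtain ⟨κ3, hκ3, k3⟩ := inear_min T hκ
  refine ⟨min κ1 (min κ2 κ3), by positivity, c0 / 2, half_pos hc0, fun s hs0 => ?_⟩
  choose! l0 _ ε0 hε0 d5 using fun p hp => d4 p hp s hs0
  obtain ⟨l, hl, hl'⟩ := inear_max T l0
  obtain ⟨ε, hε, hε'⟩ := inear_min T hε0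
  refine ⟨l, hl, ε, hε, fun lam a1 mu a2 a3 φ a4 a5 a6 => ?_⟩
  have ch := (inear_hs hs0).1.comp cd
  have f1 : ∀ x ∈ tsupport φ, x ∈ K ∧ Metric.infDist x (M.L.Str k) ≤ κ1 ∧
      Metric.infDist x (M.L.Str k) ≤ κ2 ∧ Metric.infDist x (M.L.Str k) ≤ κ3 := fun x hx => by
    simpa using a6 hx
  have f0 : ∀ x ∈ tsupport φ, x ≠ 0 := fun x hx h => hK0 (h ▸ (f1 x hx).1)
  refine inear_ims T (fun p hp => (ha p hp).1) (M.q_cont P lam mu).1 (M.q_cont P lam mu).2 a4 hU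
    (fun x hx => k1 ⟨(f1 x hx).1, (f1 x hx).2.1⟩) h1 ?_ (fun p hp => inear_cont (w1 p)
      (inear_Wc P (c p) (η / 2) mu (w4 p) (rg_smooth hτ (ha p hp).1).1
        (rg_smooth hτ (ha p hp).1).2 (d1 p hp) ch) (ha p hp).1.continuous (ha p hp).2.2.2.1)
    (fun p hp => d5 p hp lam ((hl' p hp).trans a1) mu a2
      (a3.trans (mul_le_mul_of_nonneg_right (hε' p hp) (sq_nonneg _))) _ (a4.smul (ha p hp).1)
      (a5.smul (ha p hp).2.1) fun x hx => ⟨(ha p hp).2.2.2.1 (tsupport_smul_subset_left _ _ hx),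
        (f1 x (tsupport_smul_subset_right _ _ hx)).2.2.2.trans (k3 p hp)⟩)
    fun x hx => ?_
  · refine ((((continuousOn_const.div ?_ fun x hx => pow_ne_zero 2
      (norm_ne_zero_iff.2 (f0 x hx))).add continuousOn_const).add ?_).sub continuousOn_const).add
      (continuous_const.mul ch).continuousOn <;> exact Continuous.continuousOn (by fun_prop)
  · obtain ⟨g1, g2, g3, -⟩ := f1 x hx
    exact inear_pt T P (h := fun x => hs s (Metric.infDist x (M.L.Str k))) (f0 x hx) (hR x g1) a2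
      ((inear_hs hs0).2 _) hc0 hc' (h1 x (k1 ⟨g1, g2⟩)) (hb x ⟨g1, g2⟩).1 (k2 ⟨g1, g3⟩) e1 e2 e3

end Vale.Agent.P353
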