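import Vale.Agent.P353.IPatchxB
import Vale.Agent.P353.GPatch2

/-! Invariant weights on a patch and the numerical inequalities. -/

open MeasureTheory NormedSpace
open Complex (I)
open scoped InnerProductSpace ContDiff

noncomputable section
namespace Vale.Agent.P353
variable {V : Type} [NormedAddCommGroup V] [InnerProductSpace ℝ V] [FiniteDimensional ℝ V]
  {L : CL V}

lemma IP_infDist {S : Set (EE V)} (hS : ∀ g ∈ L.G, ∀ y ∈ S, lift g y ∈ S) {g : V →L[ℝ] V}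
    (hg : g ∈ L.G) (x : EE V) : Metric.infDist (lift g x) S = Metric.infDist x S := by
  rcases S.eq_empty_or_nonempty with rfl | hne
  · simp
  have h1 : ∀ g ∈ L.G, ∀ x : EE V, Metric.infDist (lift g x) S ≤ Metric.infDist x S :=
    fun g hg x => (Metric.le_infDist hne).2 fun y hy => by
      refine (Metric.infDist_le_dist_of_mem (hS g hg y hy)).trans (le_of_eq ?_)
      rw [dist_eq_norm, dist_eq_norm, ← map_sub, CL.G_norm hg]
  obtain ⟨h, hh, -, h2⟩ := CL.G_inv hg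
  refine le_antisymm (h1 g hg x) ?_
  have h3 := h1 h hh (lift g x)
  rwa [← lift_mul, h2, lift_one] at h3

lemma IP_inner {g : V →L[ℝ] V} (hg : g ∈ L.G) (x y : EE V) :
    ⟪lift g x, lift g y⟫_ℝ = ⟪x, y⟫_ℝ := by
  simp only [PiLp.inner_apply, lift_apply, CL.G_inner hg]

lemma IPa_G {u : EE V → ℝ} (hi : L.SInv u) (hu : ContDiff ℝ ∞ u) (m : ℝ) {g : V →L[ℝ] V}
    (hg : g ∈ L.G) (x : EE V) : IPa m u (lift g x) = IPa m u x := by
  simp only [IPa, hi.gradient (hu.differentiable (by simp)) hg, IP_inner hg, CL.G_norm hg,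
    hi.G hu.continuous hg]

lemma IPw_G (P : Par) {u : EE V → ℝ} (hi : L.SInv u) (hu : ContDiff ℝ ∞ u) {g : V →L[ℝ] V}
    (hg : g ∈ L.G) (x : EE V) : IPw P u (lift g x) = IPw P u x := by
  simp only [IPw, hi.gradient (hu.differentiable (by simp)) hg, ← IP_lift_mat, IP_inner hg,
    hi.G hu.continuous hg]

lemma IPd_G {u : EE V → ℝ} (hi : L.SInv u) (hu : ContDiff ℝ ∞ u) {g : V →L[ℝ] V}
    (hg : g ∈ L.G) {z z' : Submodule ℝ V} (hz : ∀ a, a ∈ z ↔ g a ∈ z') (x : EE V) :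
    IPd z' u (lift g x) = IPd z u x := by
  simp only [IPd, hi.lapOn_G hu hg hz, hi.G hu.continuous hg]

namespace Patch
variable (pt : Patch L)

omit [FiniteDimensional ℝ V] in
lemma ip_pts_mono {r r' : ℝ} (h : r ≤ r') : pt.pts r ⊆ pt.pts r' := fun _ hs =>
  ⟨hs.1, hs.2.trans_le h⟩

/-- invariant extension of a function of the central part -/
lemma ip_ext {r1 : ℝ} (h6 : ∀ w : EE pt.l → ℝ,
      ContinuousOn w {X | lift pt.l.subtypeL X ∈ pt.pts r1} →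
      (∀ g ∈ L.G, lift g pt.p = pt.p → ∀ X X',
        lift g (lift pt.l.subtypeL X) = lift pt.l.subtypeL X' → w X = w X') →
      ∃ u : EE V → ℝ, ContinuousOn u (L.sat (pt.pts r1)) ∧ (∀ g ∈ L.G, ∀ x, u (lift g x) = u x) ∧
        ∀ X z, pt.io X z ∈ pt.pts r1 → u (pt.io X z) = w X)
    {h : EE V → ℝ} (hc : Continuous h)
    (hi : ∀ g ∈ L.G, lift g pt.p = pt.p → ∀ x, h (lift g x) = h x) :
    ∃ (H : EE V → ℝ) (B : ℝ), 0 ≤ B ∧ ContinuousOn H (L.sat (pt.pts r1)) ∧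
      (∀ g ∈ L.G, ∀ x, H (lift g x) = H x) ∧ (∀ s ∈ pt.pts r1, H s = h (IPp pt.z s)) ∧
      ∀ x ∈ L.sat (pt.pts r1), |H x| ≤ B := by
  obtain ⟨H, h1, h2, h3⟩ := h6 (fun X => h (IPp pt.z (lift pt.l.subtypeL X)))
    (hc.comp ((IPp pt.z).continuous.comp (lift pt.l.subtypeL).continuous)).continuousOn
    fun g hg hp X X' hX => by
      simp only [← hX, (pt.ipr_G hg hp _).2, hi g hg hp]
  have h4 : ∀ s ∈ pt.pts r1, H s = h (IPp pt.z s) := by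
    rintro s ⟨⟨X, w, rfl⟩, hs⟩
    rw [h3 X w ⟨⟨X, w, rfl⟩, hs⟩, pt.ipr_io]
  obtain ⟨B, hB⟩ := (isCompact_closedBall pt.p r1).exists_bound_of_continuousOn hc.continuousOn
  refine ⟨H, max B 0, le_max_right _ _, h1, h2, h4, ?_⟩
  rintro x ⟨g, hg, hs⟩
  rw [← h2 g hg, h4 _ hs]
  refine le_max_of_le_left (hB _ ?_)
  rw [mem_closedBall_iff_norm]
  exact (pt.ipr_p _).trans hs.2.le

/-- near the central tuples an invariant function is close to its extension -/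
lemma ip_close {r1 : ℝ} {h H : EE V → ℝ} (hc : Continuous h)
    (hi : ∀ g ∈ L.G, ∀ x, h (lift g x) = h x) (hH : ∀ g ∈ L.G, ∀ x, H (lift g x) = H x)
    (h4 : ∀ s ∈ pt.pts r1, H s = h (IPp pt.z s)) {e : ℝ} (he : 0 < e) :
    ∃ κ > 0, ∀ r ≤ r1, ∀ x ∈ L.sat (pt.reg' r κ), h x ≤ H x + e := by
  obtain ⟨κ, hκ, h1⟩ := Metric.uniformContinuousOn_iff.1
    ((isCompact_closedBall pt.p r1).uniformContinuousOn_of_continuous hc.continuousOn) e he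
  refine ⟨κ, hκ, ?_⟩
  rintro r hr x ⟨g, hg, hs, Y, hY, hsY⟩
  have hs' := pt.ip_pts_mono hr hs
  have h2 := h1 (lift g x) (mem_closedBall_iff_norm.2 hs'.2.le) (IPp pt.z (lift g x))
    (mem_closedBall_iff_norm.2 ((pt.ipr_p _).trans hs'.2.le))
    (by rw [dist_eq_norm]; exact (pt.ipr_min _ hY).trans_lt hsY)
  rw [Real.dist_eq, hi g hg, ← h4 _ hs', hH g hg] at h2
  linarith [(abs_lt.1 h2).2]

end Patch

lemma IP_num0 {e c c' η B0 : ℝ} (he : 0 ≤ e) (he1 : e ≤ 1 / 20) (hc1 : c ≤ 1 / 20) (hc' : 0 ≤ c')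
    (hcc : c ≤ c' / 4) (hB0 : 0 ≤ B0) (hA0 : e * (5 + 10 * B0) ≤ η) :
    (1 + 4 * e) * c ≤ (1 - e) * c' - c' / 4 ∧ (1 + 4 * e) * (e + c - 3 / 10) ≤ -(1 / 5) ∧
      (1 + 4 * e) * (e - η) ≤ e - η := by
  have h1 := mul_le_mul_of_nonneg_left hcc he
  have h2 := mul_le_mul_of_nonneg_right he1 hc'
  have h3 : e * (e + c - 3 / 10) ≤ 0 := mul_nonpos_of_nonneg_of_nonpos he (by linarith)
  have h4 : e * (e - η) ≤ 0 :=
    mul_nonpos_of_nonneg_of_nonpos he (by linarith [mul_nonneg he hB0])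
  exact ⟨by linarith, by linarith, by linarith⟩

lemma IP_num {n nf q q0 qf v0 v1 v2 v3 u0 u1 u2 u3 t0 t1 t2 t3 B0 B1 B2 K0 e c c' m mu η : ℝ}
    (hn : 0 ≤ n) (hnf : nf ≤ n) (hq0 : 0 ≤ q0) (hmu : 0 ≤ mu) (hB0 : 0 ≤ B0) (hB1 : 0 ≤ B1)
    (hK0 : 0 ≤ K0) (he : 0 ≤ e) (he1 : e ≤ 1 / 20) (hc1 : c ≤ 1 / 20) (hc' : 0 ≤ c')
    (hc'1 : c' ≤ 1) (hcc : c ≤ c' / 4) (hm : 0 ≤ m)
    (hv0 : v0 ≤ 2 * B0 * n) (hv1 : v1 ≤ (2 * B1 + 1) * n) (hv2 : m * n ≤ v2) (hv2' : v2 ≤ B2 * n)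
    (hv3 : 0 ≤ v3)
    (H1 : u0 + mu * u1 + c' * mu ^ 2 * u2 + c' * u3 - (B0 + mu * B1 + e * (1 + mu)) * nf ≤ qf)
    (H2 : qf ≤ q + e * q0 + e * (1 + mu + mu ^ 2) * n)
    (H30 : (1 - e) * v0 ≤ u0 + e * n + t0 * q0) (H31 : (1 - e) * v1 ≤ u1 + e * n + t1 * q0)
    (H32 : (1 - e) * v2 ≤ u2 + e * n + t2 * q0) (H33 : (1 - e) * v3 ≤ u3 + e * n + t3 * q0)
    (Ht : t0 + mu * t1 + c' * mu ^ 2 * t2 + c' * t3 ≤ e)
    (H4 : q0 ≤ 2 * q + K0 * (mu * n + mu ^ 2 * v2))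
    (hA0 : e * (5 + 10 * B0) ≤ η) (hA1 : e * (10 * B1 + 8 + 2 * K0) ≤ 1 / 5)
    (hA2 : e * (2 + 2 * K0 * B2) ≤ c' * m / 4) :
    v0 + mu * v1 + c * mu ^ 2 * v2 + c * v3 +
      (e - B0 - η + mu * (e + c - 3 / 10 - B1)) * n ≤ q := by
  obtain ⟨G1, G2, G3⟩ := IP_num0 he he1 hc1 hc' hcc hB0 hA0
  have hmn : 0 ≤ mu * n := by positivity
  have hm2 : 0 ≤ mu ^ 2 * n := by positivity
  have hv2n : 0 ≤ v2 := le_trans (by positivity) hv2
  have F1 := mul_le_mul_of_nonneg_left H31 hmu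
  have F2 := mul_le_mul_of_nonneg_left H32 (by positivity : 0 ≤ c' * mu ^ 2)
  have F3 := mul_le_mul_of_nonneg_left H33 hc'
  have Ft := mul_le_mul_of_nonneg_right Ht hq0
  have F4 := mul_le_mul_of_nonneg_left H4 he
  have F5 := mul_le_mul_of_nonneg_left hv2' (by positivity : 0 ≤ e * K0 * mu ^ 2)
  have F6 := mul_le_mul_of_nonneg_left hnf (by positivity : 0 ≤ B0 + mu * B1 + e * (1 + mu))
  have F7 := mul_le_mul_of_nonneg_right hc'1 (by positivity : 0 ≤ e * (mu ^ 2 * n))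
  have F7' := mul_le_mul_of_nonneg_right hc'1 (by positivity : 0 ≤ e * n)
  have F8 := mul_le_mul_of_nonneg_left hv0 he
  have F8' := mul_le_mul_of_nonneg_left hv1 (by positivity : 0 ≤ e * mu)
  have F9 : 0 ≤ e * (B0 + mu * B1) * n := by positivity
  have F10 := mul_le_mul_of_nonneg_right G1 (by positivity : 0 ≤ mu ^ 2 * v2 + v3)
  have F11 := mul_le_mul_of_nonneg_left hv2 (by positivity : 0 ≤ c' * mu ^ 2)
  have F11' := mul_nonneg hc' hv3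
  have F12 := mul_le_mul_of_nonneg_right G2 hmn
  have F12' := mul_le_mul_of_nonneg_right G3 hn
  have F13 := mul_le_mul_of_nonneg_right hA0 hn
  have F14 := mul_le_mul_of_nonneg_right hA1 hmn
  have F15 := mul_le_mul_of_nonneg_right hA2 hm2
  refine le_of_mul_le_mul_left ?_ (by positivity : 0 < 1 + 4 * e)
  linarith

lemma IP_big {n q v0 v1 v2 v3 B0 B1 B2 B3 e c c1 mu η : ℝ} (hn : 0 ≤ n) (hmu : 0 ≤ mu)
    (hc : 0 ≤ c) (hc1 : 0 < c1) (he : e ≤ η) (he1 : e + c ≤ 3 / 10)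
    (hv0 : v0 ≤ 2 * B0 * n) (hv1 : v1 ≤ (2 * B1 + 1) * n) (hv2 : v2 ≤ B2 * n) (hv3 : v3 ≤ B3 * n)
    (hcB : c * B2 ≤ c1 / 2) (hl : B0 + c * B3 + (B1 + 1) ^ 2 / c1 ≤ c1 / 4 * mu ^ 2)
    (H : c1 * mu ^ 2 * n ≤ q) :
    v0 + mu * v1 + c * mu ^ 2 * v2 + c * v3 +
      (e - B0 - η + mu * (e + c - 3 / 10 - B1)) * n ≤ q := by
  have hmn : 0 ≤ mu * n := by positivity
  have F1 := mul_le_mul_of_nonneg_left hv1 hmu
  have F2 := mul_le_mul_of_nonneg_left hv2 (by positivity : 0 ≤ c * mu ^ 2)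
  have F3 := mul_le_mul_of_nonneg_left hv3 hc
  have F4 := mul_le_mul_of_nonneg_right hcB (by positivity : 0 ≤ mu ^ 2 * n)
  have F5 := mul_le_mul_of_nonneg_right hl hn
  have G : mu * (B1 + 1) ≤ c1 / 4 * mu ^ 2 + (B1 + 1) ^ 2 / c1 := by
    have h1 : (B1 + 1) ^ 2 / c1 = c1 * ((B1 + 1) / c1) ^ 2 := by field_simp
    have h2 : B1 + 1 = c1 * ((B1 + 1) / c1) := by field_simp
    obtain ⟨b, hb⟩ : ∃ b, b = (B1 + 1) / c1 := ⟨_, rfl⟩
    rw [h1, ← hb]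
    rw [← hb] at h2
    rw [h2]
    nlinarith [mul_nonneg hc1.le (sq_nonneg (mu / 2 - b))]
  have F6 := mul_le_mul_of_nonneg_right G hn
  have F7 := mul_le_mul_of_nonneg_right he hn
  have F8 := mul_le_mul_of_nonneg_right he1 hmn
  linarith

lemma IP_tau {lam mu θ e C0 b0 b1 b2 b3 c' : ℝ} (hl : 0 < lam) (hC : 0 ≤ C0) (h1 : 0 ≤ b1)
    (h2 : 0 ≤ b2) (hc : 0 ≤ c') (hθ : mu ^ 2 ≤ θ * lam)
    (e1 : C0 * (b0 + b1 + c' * b3) ≤ e / 2 * lam) (e2 : θ * (C0 * (b1 + c' * b2)) ≤ e / 2) :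
    C0 * b0 / lam + mu * (C0 * b1 / lam) + c' * mu ^ 2 * (C0 * b2 / lam) +
      c' * (C0 * b3 / lam) ≤ e := by
  have h3 : mu ≤ 1 + θ * lam := by nlinarith [sq_nonneg (mu - 1)]
  have h4 := mul_le_mul_of_nonneg_right h3 (by positivity : 0 ≤ C0 * b1)
  have h5 := mul_le_mul_of_nonneg_right hθ (by positivity : 0 ≤ c' * (C0 * b2))
  have h6 := mul_le_mul_of_nonneg_right e2 hl.le
  have h7 : C0 * b0 / lam + mu * (C0 * b1 / lam) + c' * mu ^ 2 * (C0 * b2 / lam) +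
      c' * (C0 * b3 / lam) =
      (C0 * b0 + mu * (C0 * b1) + mu ^ 2 * (c' * (C0 * b2)) + c' * (C0 * b3)) / lam := by
    field_simp
  rw [h7, div_le_iff₀ hl]
  linarith

end Vale.Agent.P353
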