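import Vale.Agent.P353.ICalc
import Vale.Agent.P353.BMain
import Vale.Agent.P353.AFree
import Vale.Agent.P353.ASplit
import Vale.Agent.P353.IPatchxC

open MeasureTheory NormedSpace
open Complex (I)
open scoped InnerProductSpace ContDiff

noncomputable section
namespace Vale.Agent.P353
variable {V F : Type} [NormedAddCommGroup V] [InnerProductSpace ℝ V] [FiniteDimensional ℝ V]
  [MeasurableSpace V] [BorelSpace V]
  [NormedAddCommGroup F] [InnerProductSpace ℂ F] [CompleteSpace F]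

lemma IP_c4 {E : Type} [TopologicalSpace E] {S : Set E} {w : Fin 4 → E → ℝ}
    (hw : ∀ i, ContinuousOn (w i) S) (a b d k : ℝ) :
    ContinuousOn (fun x => w 0 x + a * w 1 x + b * w 2 x + d * w 3 x + k) S :=
  ((((hw 0).add (continuousOn_const.mul (hw 1))).add (continuousOn_const.mul (hw 2))).add
    (continuousOn_const.mul (hw 3))).add continuousOn_const

lemma IP_wt4 {φ : EE V → F} (h : Tst φ) {w : Fin 4 → EE V → ℝ}
    (hw : ∀ i, ContinuousOn (w i) (tsupport φ)) (a b d k : ℝ) :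
    wt (fun x => w 0 x + a * w 1 x + b * w 2 x + d * w 3 x + k) φ =
      wt (w 0) φ + a * wt (w 1) φ + b * wt (w 2) φ + d * wt (w 3) φ + k * n2 φ := by
  have h0 := hw 0
  have h1 := hw 1
  have h2 := hw 2
  have h3 := hw 3
  rw [wt_add h (by fun_prop) (by fun_prop), wt_add h (by fun_prop) (by fun_prop),
    wt_add h (by fun_prop) (by fun_prop), wt_add h (by fun_prop) (by fun_prop), wt_smul, wt_smul,
    wt_smul, wt_const]

omit [MeasurableSpace V] [BorelSpace V] in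
lemma IP_dist {L : CL V} (pt : Patch L) {r1 K : ℝ} (hK : 1 ≤ K)
    (h4 : ∀ s ∈ pt.pts (r1 / K), ∀ Y ∈ L.Str (Module.finrank ℝ pt.l), ‖s - Y‖ < r1 / K →
      ∃ Y' ∈ pt.Z, Y' ∈ pt.pts r1 ∧ (∃ g ∈ L.G, lift g Y = Y') ∧ ‖s - Y'‖ ≤ K * ‖s - Y‖)
    {s : EE V} (hs : s ∈ pt.pts (r1 / K)) :
    Metric.infDist s (L.Str (Module.finrank ℝ pt.l)) ≤ ‖s - IPp pt.z s‖ ∧
      ‖s - IPp pt.z s‖ ≤ K * Metric.infDist s (L.Str (Module.finrank ℝ pt.l)) := by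
  refine ⟨?_, ?_⟩
  · rw [← dist_eq_norm]
    exact Metric.infDist_le_dist_of_mem (pt.Z_mem_Str (pt.ipr_mem s))
  rw [← div_le_iff₀' (by linarith), Metric.le_infDist ⟨_, pt.Z_mem_Str pt.p_mem_Z⟩]
  intro Y hY
  rw [div_le_iff₀' (by linarith), dist_eq_norm]
  rcases lt_or_ge ‖s - Y‖ (r1 / K) with h | h
  · obtain ⟨Y', hY', -, -, h1⟩ := h4 s hs Y hY h
    exact (pt.ipr_min s hY').trans h1
  · have h1 := (pt.ipr_min s pt.p_mem_Z).trans (hs.2.le.trans h)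
    nlinarith [norm_nonneg (s - Y)]

omit [MeasurableSpace V] [BorelSpace V] [FiniteDimensional ℝ V] [InnerProductSpace ℝ V] in
lemma IP_norm_p {p x : EE V} {r : ℝ} (hr : r ≤ ‖p‖ / 2) (hx : ‖x - p‖ ≤ r) :
    ‖p‖ ^ 2 / 4 ≤ ‖x‖ ^ 2 ∧ ‖x‖ ^ 2 ≤ 4 * ‖p‖ ^ 2 := by
  have h1 := abs_le.1 ((abs_norm_sub_norm_le x p).trans (hx.trans hr))
  have h2 := norm_nonneg p
  have h3 := norm_nonneg x
  constructor <;> nlinarith [h1.1, h1.2]

lemma IP_le_min {a b : ℝ} (hb : 0 < b) {e : ℝ} (h : e ≤ a / b) : e * b ≤ a :=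
  (le_div_iff₀ hb).1 h

/-- The lower bound on a patch for a given positive invariant function `u`. -/
theorem Mod.patch_bound [FiniteDimensional ℂ F] (M : Mod V F) (P : Par)
    (ih : ∀ (W : Type) [NormedAddCommGroup W] [InnerProductSpace ℝ W] [FiniteDimensional ℝ W]
      [MeasurableSpace W] [BorelSpace W] (M' : Mod W F),
      Module.finrank ℝ W < Module.finrank ℝ V → M'.PH P)
    (pt : Patch M.L) (hp : pt.p ≠ 0) : ∃ r > 0, ∃ c > 0, IsOpen (M.L.sat (pt.pts r)) ∧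
    (∀ r' ≤ r, IsOpen (M.L.sat (pt.pts r'))) ∧
    ∀ u : EE V → ℝ, ContDiff ℝ ∞ u → M.L.SInv u → (∀ x, 0 < u x) →
    ∃ D : EE V → ℝ, ContinuousOn D (M.L.sat (pt.pts r)) ∧
      (∀ Y ∈ M.L.sat (pt.pts r), Y ∈ M.L.Str (Module.finrank ℝ pt.l) →
        D Y = -lapOn (M.L.zc Y) u Y / u Y) ∧
      ∀ η > 0, ∃ κ > 0, ∀ s > 0,
        M.LB P (M.L.sat (pt.pts (r / 4)) ∩
            {x | Metric.infDist x (M.L.Str (Module.finrank ℝ pt.l)) ≤ κ})
          fun mu x => (1 / 2) * D x + (3 / 4) * ⟪gradient u x, x⟫_ℝ / (u x * ‖x‖ ^ 2) +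
            mu * (99 / 100) * ⟪gradient u x, mat P.Om x⟫_ℝ / u x + (23 / 10) / ‖x‖ ^ 2 + c * mu +
            c * mu ^ 2 * ‖x‖ ^ 2 +
            c * hs s (Metric.infDist x (M.L.Str (Module.finrank ℝ pt.l))) - η := by
  obtain ⟨r1, hr1, K, hK, s1, -, -, s4, -, s6⟩ := pt.slice
  obtain ⟨rS, hrS, hStr⟩ := pt.Str_pts
  obtain ⟨r0, hr0, c1, hc1, C0, hC0, hbo⟩ := M.bo P pt hp
  obtain ⟨c2, hc2, hred⟩ := IP_red M P ih pt hp
  obtain ⟨K0, hK0, hq0⟩ := M.q0_le P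
  have hp0 : 0 < ‖pt.p‖ := norm_pos_iff.2 hp
  have hδ := P.δ0
  obtain ⟨r, hr, hrK, hrS', hr0', hrp⟩ :
      ∃ r > 0, r ≤ r1 / K ∧ r ≤ rS ∧ r ≤ r0 ∧ r ≤ ‖pt.p‖ / 2 :=
    ⟨min (min (r1 / K) rS) (min r0 (‖pt.p‖ / 2)), by positivity,
      (min_le_left _ _).trans (min_le_left _ _), (min_le_left _ _).trans (min_le_right _ _),
      (min_le_right _ _).trans (min_le_left _ _), (min_le_right _ _).trans (min_le_right _ _)⟩
  have hr1' : r ≤ r1 := hrK.trans (div_le_self hr1.le hK)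
  obtain ⟨m, hm⟩ : ∃ m, m = ‖pt.p‖ ^ 2 / 4 := ⟨_, rfl⟩
  obtain ⟨B2, hB2⟩ : ∃ B2, B2 = 4 * ‖pt.p‖ ^ 2 := ⟨_, rfl⟩
  have hm0 : 0 < m := by rw [hm]; positivity
  have hB20 : 0 < B2 := by rw [hB2]; positivity
  have hnp : ∀ x : EE V, ‖x - pt.p‖ ≤ r → m ≤ ‖x‖ ^ 2 ∧ ‖x‖ ^ 2 ≤ B2 := fun x hx =>
    hm ▸ hB2 ▸ IP_norm_p hrp hx
  have hns : ∀ x ∈ M.L.sat (pt.pts r), m ≤ ‖x‖ ^ 2 ∧ ‖x‖ ^ 2 ≤ B2 := by
    rintro x ⟨g, hg, hx⟩
    have := hnp _ hx.2.le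
    rwa [CL.G_norm hg] at this
  obtain ⟨c', hc', k1, k2, k3⟩ : ∃ c' > 0, c' ≤ 1 ∧ c' ≤ P.δ ^ 2 / 200 ∧ c' * K ^ 4 ≤ c2 :=
    ⟨min 1 (min (P.δ ^ 2 / 200) (c2 / K ^ 4)), by positivity, min_le_left _ _,
      (min_le_right _ _).trans (min_le_left _ _),
      IP_le_min (by positivity) ((min_le_right _ _).trans (min_le_right _ _))⟩
  have k4 : c' ≤ c2 := le_trans (le_mul_of_one_le_right hc'.le (one_le_pow₀ hK)) k3
  obtain ⟨c, hc, k5, k6, k7⟩ : ∃ c > 0, c ≤ 1 / 20 ∧ c ≤ c' / 4 ∧ c * B2 ≤ c1 / 2 :=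
    ⟨min (1 / 20) (min (c' / 4) (c1 / 2 / B2)), by positivity, min_le_left _ _,
      (min_le_right _ _).trans (min_le_left _ _),
      IP_le_min hB20 ((min_le_right _ _).trans (min_le_right _ _))⟩
  refine ⟨r, hr, c, hc, s1 r hr1', fun r' h => s1 r' (h.trans hr1'), fun u hu hi h0 => ?_⟩
  have hca := IPa_cont hm0 hu h0
  have hcw := IPw_cont P hu h0
  obtain ⟨D, BD, hBD, hDc, hDG, hDv, hDb⟩ := pt.ip_ext s6 (IPd_cont pt.z hu h0)
    fun g hg hp x => IPd_G hi hu hg (pt.ipr_G hg hp x).1 x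
  obtain ⟨A, BA, hBA, hAc, hAG, hAv, hAb⟩ := pt.ip_ext s6 hca fun g hg _ => IPa_G hi hu m hg
  obtain ⟨Wt, B1, hB1, hWc, hWG, hWv, hWb⟩ := pt.ip_ext s6 hcw fun g hg _ => IPw_G P hi hu hg
  have hsat : M.L.sat (pt.pts r) ⊆ M.L.sat (pt.pts r1) := CL.sat_mono (pt.ip_pts_mono hr1')
  refine ⟨D, hDc.mono hsat, ?_, fun η hη => ?_⟩
  · rintro Y ⟨g, hg, hs⟩ hY
    obtain ⟨hZ, hcent⟩ := hStr _ (pt.ip_pts_mono hrS' hs) (CL.Str_lift hg hY)
    have h1 : M.L.zc (lift g Y) = pt.z := congrArg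
      (fun S : Submodule ℝ V => ⨅ a : S, LinearMap.ker (M.L.br a).toLinearMap) hcent
    rw [← hDG g hg, hDv _ (pt.ip_pts_mono hr1' hs), pt.ipr_of_mem hZ]
    exact IPd_G hi hu hg (fun a => h1 ▸ CL.zc_G hg Y a) Y
  obtain ⟨B0, hB0⟩ : ∃ B0, B0 = BD / 2 + BA := ⟨_, rfl⟩
  have hB00 : 0 ≤ B0 := by rw [hB0]; positivity
  obtain ⟨e, he, e1, e2, e3, e4⟩ : ∃ e > 0, e ≤ 1 / 20 ∧ e * (5 + 10 * B0) ≤ η ∧
      e * (10 * B1 + 8 + 2 * K0) ≤ 1 / 5 ∧ e * (2 + 2 * K0 * B2) ≤ c' * m / 4 :=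
    ⟨min (min (1 / 20) (η / (5 + 10 * B0)))
      (min (1 / 5 / (10 * B1 + 8 + 2 * K0)) (c' * m / 4 / (2 + 2 * K0 * B2))), by positivity,
      (min_le_left _ _).trans (min_le_left _ _),
      IP_le_min (by positivity) ((min_le_left _ _).trans (min_le_right _ _)),
      IP_le_min (by positivity) ((min_le_right _ _).trans (min_le_left _ _)),
      IP_le_min (by positivity) ((min_le_right _ _).trans (min_le_right _ _))⟩
  obtain ⟨θ0, hθ0, hbo1⟩ := hbo r ⟨hr, hr0'⟩ e he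
  obtain ⟨θ, hθ, t1, t2⟩ : ∃ θ > 0, θ ≤ θ0 ∧ θ * (C0 * (2 * B1 + 1 + 1 + c' * (B2 + 1))) ≤ e / 2 :=
    ⟨min θ0 (e / 2 / (C0 * (2 * B1 + 1 + 1 + c' * (B2 + 1)))), by positivity, min_le_left _ _,
      IP_le_min (by positivity) (min_le_right _ _)⟩
  obtain ⟨κb, hκb, hbo2⟩ := hbo1 θ ⟨hθ, t1⟩
  obtain ⟨κa, hκa, hcA⟩ := pt.ip_close hca (fun g hg => IPa_G hi hu m hg) hAG hAv he
  obtain ⟨κw, hκw, hcW⟩ := pt.ip_close hcw (fun g hg => IPw_G P hi hu hg) hWG hWv he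
  obtain ⟨S, hS⟩ : ∃ S, S = M.L.Str (Module.finrank ℝ pt.l) := ⟨_, rfl⟩
  have hdist : ∀ s ∈ pt.pts r, Metric.infDist s S ≤ ‖s - IPp pt.z s‖ ∧
      ‖s - IPp pt.z s‖ ≤ K * Metric.infDist s S := fun s hs =>
    hS ▸ IP_dist pt hK (s4 r1 le_rfl) (pt.ip_pts_mono hrK hs)
  have hSG : ∀ g ∈ M.L.G, ∀ x, Metric.infDist (lift g x) S = Metric.infDist x S :=
    fun g hg => IP_infDist (fun g hg y hy => hS ▸ CL.Str_lift hg (hS ▸ hy)) hg
  rw [← hS]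
  refine ⟨min κb (min κa κw) / (2 * K), by positivity, fun s hs0 => ?_⟩
  have hsup : ∀ κ, min κb (min κa κw) ≤ κ → M.L.sat (pt.pts (r / 4)) ∩
      {x | Metric.infDist x S ≤ min κb (min κa κw) / (2 * K)} ⊆ M.L.sat (pt.reg' (r / 2) κ) := by
    rintro κ hκ x ⟨⟨g, hg, hx⟩, hd⟩
    refine ⟨g, hg, pt.ip_pts_mono (by linarith) hx, _, pt.ipr_mem (lift g x), ?_⟩
    have h1 := (hdist _ (pt.ip_pts_mono (by linarith) hx)).2
    have h2 : Metric.infDist x S * (2 * K) ≤ min κb (min κa κw) := IP_le_min (by positivity) hd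
    have h3 : 0 < min κb (min κa κw) := by positivity
    rw [hSG g hg] at h1
    linarith
  obtain ⟨w, w0, w1, w2, w3⟩ : ∃ w : Fin 4 → EE V → ℝ, (w 0 = fun x => 1 / 2 * D x + A x + B0) ∧
      (w 1 = fun x => Wt x + 3 / 10 + B1) ∧ (w 2 = fun x => ‖x‖ ^ 2) ∧
      w 3 = fun x => hs s (Metric.infDist x S) := ⟨![_, _, _, _], rfl, rfl, rfl, rfl⟩
  obtain ⟨B, b0, b1, b2, b3⟩ : ∃ B : Fin 4 → ℝ, B 0 = 2 * B0 ∧ B 1 = 2 * B1 + 1 ∧ B 2 = B2 ∧
      B 3 = 1 / s ^ 2 := ⟨![_, _, _, _], rfl, rfl, rfl, rfl⟩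
  have hcd : Continuous fun x => hs s (Metric.infDist x S) :=
    (hs_cont hs0).comp (Metric.continuous_infDist_pt S)
  have hD := hDc.mono hsat
  have hwB : ∀ i, ContinuousOn (w i) (M.L.sat (pt.pts r)) ∧
      (∀ g ∈ M.L.G, ∀ x, w i (lift g x) = w i x) ∧
      ∀ x ∈ M.L.sat (pt.pts r), 0 ≤ w i x ∧ w i x ≤ B i := by
    have hA := hAc.mono hsat
    have hW := hWc.mono hsat
    intro i
    rcases (by decide : ∀ i : Fin 4, i = 0 ∨ i = 1 ∨ i = 2 ∨ i = 3) i with rfl | rfl | rfl | rfl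
    · rw [w0, b0]
      refine ⟨by fun_prop, fun g hg x => by simp only [hDG g hg, hAG g hg], fun x hx => ?_⟩
      have h1 := abs_le.1 (hDb x (hsat hx))
      have h2 := abs_le.1 (hAb x (hsat hx))
      exact ⟨by linarith, by linarith⟩
    · rw [w1, b1]
      refine ⟨by fun_prop, fun g hg x => by simp only [hWG g hg], fun x hx => ?_⟩
      have h1 := abs_le.1 (hWb x (hsat hx))
      exact ⟨by linarith, by linarith⟩
    · rw [w2, b2]
      exact ⟨by fun_prop, fun g hg x => by simp only [CL.G_norm hg],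
        fun x hx => ⟨sq_nonneg _, (hns x hx).2⟩⟩
    · rw [w3, b3]
      exact ⟨hcd.continuousOn, fun g hg x => by simp only [hSG g hg],
        fun x _ => ⟨hs_nonneg _ _, hs_le hs0 _⟩⟩
  obtain ⟨lb, hlb, hbo3⟩ := hbo2 4 w B hwB e he
  obtain ⟨lr, hlr, ε0, hε0, hred2⟩ := hred s hs0 e he
  refine ⟨max (max lb lr) (max (C0 * (2 * B0 + 1 + (2 * B1 + 1 + 1) + c' * (1 / s ^ 2 + 1)) / (e / 2))
    ((B0 + c * (1 / s ^ 2) + (B1 + 1) ^ 2 / c1) / (c1 / 4 * θ))), by positivity, min 1 ε0,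
    by positivity, fun lam hlam mu hmu hme φ hφ hinv hts => ?_⟩
  obtain ⟨⟨l1, l2⟩, l3, l4⟩ : (lb ≤ lam ∧ lr ≤ lam) ∧ _ ≤ lam ∧ _ ≤ lam := by
    simpa only [ge_iff_le, max_le_iff] using hlam
  rw [div_le_iff₀' (by positivity)] at l3 l4
  have hl0 : 0 < lam := hlb.trans_le l1
  have hm1 : mu ^ 3 ≤ lam ^ 2 :=
    hme.trans (mul_le_of_le_one_left (sq_nonneg _) (min_le_left _ _))
  have hm2 : mu ^ 3 ≤ ε0 * lam ^ 2 :=
    hme.trans (mul_le_mul_of_nonneg_right (min_le_right _ _) (sq_nonneg _))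
  obtain ⟨hbig, hsmall⟩ := hbo3 lam l1 mu hmu hm1 φ hφ hinv (hts.trans (hsup _ (min_le_left _ _)))
  have htr : tsupport φ ⊆ M.L.sat (pt.pts r) := fun x hx =>
    CL.sat_mono (pt.ip_pts_mono (by linarith)) (hts hx).1
  have hwc : ∀ i, ContinuousOn (w i) (tsupport φ) := fun i => (hwB i).1.mono htr
  have hvB : ∀ i, wt (w i) φ ≤ B i * n2 φ := fun i => wt_const (B i) φ ▸
    wt_mono hφ (hwc i) continuousOn_const fun x hx => ((hwB i).2.2 x (htr hx)).2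
  have hv0 : wt (w 0) φ ≤ 2 * B0 * n2 φ := b0 ▸ hvB 0
  have hv1 : wt (w 1) φ ≤ (2 * B1 + 1) * n2 φ := b1 ▸ hvB 1
  have hv2 : wt (w 2) φ ≤ B2 * n2 φ := b2 ▸ hvB 2
  have hv3 : wt (w 3) φ ≤ 1 / s ^ 2 * n2 φ := b3 ▸ hvB 3
  have hD' : ContinuousOn (fun x => 1 / 2 * D x + IPa m u x + mu * IPw P u x + c * mu +
      c * mu ^ 2 * ‖x‖ ^ 2 + c * hs s (Metric.infDist x S) - η) (tsupport φ) :=
    ((((((continuousOn_const.mul (hD.mono htr)).add hca.continuousOn).add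
      (continuous_const.mul hcw).continuousOn).add continuousOn_const).add
      (continuous_const.mul (continuous_norm.pow 2)).continuousOn).add
      (continuous_const.mul hcd).continuousOn).sub continuousOn_const
  refine le_trans (le_of_eq_of_le (IP_wt_congr (w' := fun x => 1 / 2 * D x + IPa m u x +
    mu * IPw P u x + c * mu + c * mu ^ 2 * ‖x‖ ^ 2 + c * hs s (Metric.infDist x S) - η)
    fun x hx => ?_) (wt_mono hφ hD' (w' := fun x => w 0 x + mu * w 1 x +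
      c * mu ^ 2 * w 2 x + c * w 3 x + (e - B0 - η + mu * (e + c - 3 / 10 - B1)))
      (IP_c4 hwc _ _ _ _) fun x hx => ?_)) ?_
  · simp only [IPa, IPw, max_eq_left (hns x (htr hx)).1]
    ring
  · have h1 := hcA (r / 2) (by linarith) x
      (hsup _ ((min_le_right _ _).trans (min_le_left _ _)) (hts hx))
    have h2 := mul_le_mul_of_nonneg_left (hcW (r / 2) (by linarith) x
      (hsup _ ((min_le_right _ _).trans (min_le_right _ _)) (hts hx))) hmu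
    simp only [w0, w1, w2, w3]
    linarith
  rw [IP_wt4 hφ hwc]
  rcases le_total (θ * lam) (mu ^ 2) with hb | hb
  · refine IP_big (n2_nonneg φ) hmu hc.le hc1
      ((le_mul_of_one_le_right he.le (by linarith only [hB00])).trans e2)
      (by linarith only [e1, k5]) hv0 hv1 hv2 hv3 k7
      (l4.trans ?_) (hbig hb)
    rw [mul_assoc]
    exact mul_le_mul_of_nonneg_left hb (by positivity)
  obtain ⟨f, hf, hfi, hfs, hfn, hfq, hfw⟩ := hsmall hb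
  have hfp : ∀ X ∈ tsupport f, lift pt.l.subtypeL X ∈ pt.pts r := fun X hX =>
    pt.ip_pts_mono (by linarith) (hfs X hX).1
  have hwf : ∀ i, ContinuousOn (fun X => w i (lift pt.l.subtypeL X)) (tsupport f) := fun i =>
    (hwB i).1.comp (lift pt.l.subtypeL).continuous.continuousOn fun X hX =>
      CL.subset_sat _ (hfp X hX)
  have H1 := hred2 lam l2 mu hmu hm2 m hm0 u hu h0 f hf hfi (fun X => w 0 (lift pt.l.subtypeL X) +
    mu * w 1 (lift pt.l.subtypeL X) + c' * mu ^ 2 * w 2 (lift pt.l.subtypeL X) +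
    c' * w 3 (lift pt.l.subtypeL X) + -(B0 + mu * B1 + e * (1 + mu)))
    (IP_c4 (w := fun i X => w i (lift pt.l.subtypeL X)) hwf _ _ _ _) fun X hX => by
      obtain ⟨x, hx⟩ : ∃ x, x = lift pt.l.subtypeL X := ⟨_, rfl⟩
      have hxr := hfp X hX
      rw [← hx] at hxr ⊢
      have hx1 := pt.ip_pts_mono hr1' hxr
      refine ⟨(hnp _ ((pt.ipr_p x).trans hxr.2.le)).1, ?_⟩
      have h1 := mul_le_mul_of_nonneg_left
        (hs_cmp hs0 Metric.infDist_nonneg hK (hdist x hxr).1 (hdist x hxr).2) hc'.le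
      have h2 := mul_le_mul_of_nonneg_right k3 (hs_nonneg s ‖x - IPp pt.z x‖)
      have h3 := mul_le_mul_of_nonneg_right k2 (by positivity : 0 ≤ mu ^ 2 * ‖IPp pt.z x‖ ^ 2)
      have h4 := mul_le_mul_of_nonneg_right k4 (by positivity : 0 ≤ mu ^ 2 * ‖x - IPp pt.z x‖ ^ 2)
      simp only [w0, w1, w2, w3, IPt, hDv x hx1, hAv x hx1, hWv x hx1]
      rw [pt.ipr_pyth x]
      linarith
  rw [IP_wt4 hf (w := fun i X => w i (lift pt.l.subtypeL X)) hwf] at H1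
  have hv2' : m * n2 φ ≤ wt (w 2) φ := wt_const m φ ▸
    wt_mono hφ continuousOn_const (hwc 2) fun x hx => w2 ▸ (hns x (htr hx)).1
  have hv3' : 0 * n2 φ ≤ wt (w 3) φ := wt_const 0 φ ▸
    wt_mono hφ continuousOn_const (hwc 3) fun x hx => ((hwB 3).2.2 x (htr hx)).1
  refine IP_num (n2_nonneg φ) hfn (M.q0_nonneg P.toGam lam hφ) hmu hB00 hB1 hK0.le he.le e1 k5
    hc'.le k1 k6 hm0.le hv0 hv1 hv2' hv2 (by simpa using hv3') (le_of_eq_of_le (by ring) H1) hfq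
    (hfw 0) (hfw 1) (hfw 2) (hfw 3) ?_ (w2 ▸ hq0 lam mu φ hmu hφ) e2 e3 e4
  rw [b0, b1, b2, b3]
  exact IP_tau hl0 hC0.le (by positivity) (by positivity) hc'.le hb l3 t2

end Vale.Agent.P353
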