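import Vale.Agent.P353.ICalc
import Vale.Agent.P353.GPatch
import Vale.Agent.P353.AFree
import Vale.Agent.P353.ASplit

/-! The reduced lower bound on a patch: free part and induction hypothesis. -/

open MeasureTheory NormedSpace
open Complex (I)
open scoped InnerProductSpace ContDiff

noncomputable section
namespace Vale.Agent.P353

lemma IP_onb {E ι ι' : Type} [NormedAddCommGroup E] [InnerProductSpace ℝ E] [Fintype ι]
    [Fintype ι'] (B : E →L[ℝ] E →L[ℝ] ℝ) (b : OrthonormalBasis ι ℝ E)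
    (b' : OrthonormalBasis ι' ℝ E) : ∑ k, B (b' k) (b' k) = ∑ i, B (b i) (b i) := by
  have h1 : ∀ k, B (b' k) (b' k) = ∑ i, ⟪b' k, b i⟫_ℝ * B (b i) (b' k) := fun k => by
    have := congrArg (fun y => B y (b' k)) (b.sum_repr' (b' k))
    simp only [map_sum, map_smul, _root_.sum_apply, _root_.smul_apply, smul_eq_mul] at this
    rw [← this]
    exact Finset.sum_congr rfl fun i _ => by rw [real_inner_comm]
  simp only [h1]
  rw [Finset.sum_comm]
  refine Finset.sum_congr rfl fun i _ => ?_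
  have := congrArg (fun y => B (b i) y) (b'.sum_repr' (b i))
  simp only [map_sum, map_smul, smul_eq_mul] at this
  exact this

lemma IP_fderiv2 {E E' : Type} [NormedAddCommGroup E] [NormedSpace ℝ E] [NormedAddCommGroup E']
    [NormedSpace ℝ E'] {u : E → ℝ} (hu : ContDiff ℝ ∞ u) (J : E' →L[ℝ] E) (y a b : E') :
    fderiv ℝ (fderiv ℝ fun y => u (J y)) y a b = fderiv ℝ (fderiv ℝ u) (J y) (J a) (J b) := by
  have hd : Differentiable ℝ u := hu.differentiable (by simp)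
  have hd2 : Differentiable ℝ (fderiv ℝ u) :=
    (hu.fderiv_right (m := ∞) (by simp)).differentiable (by simp)
  have h1 : (fderiv ℝ fun y => u (J y)) =
      fun y => (ContinuousLinearMap.compL ℝ E' E ℝ).flip J (fderiv ℝ u (J y)) :=
    funext fun y => ((hd (J y)).hasFDerivAt.comp y J.hasFDerivAt).fderiv
  have h2 := ((ContinuousLinearMap.compL ℝ E' E ℝ).flip J).hasFDerivAt.comp y
    ((hd2 (J y)).hasFDerivAt.comp y J.hasFDerivAt)
  rw [h1]
  exact congrArg (fun T => T a b) h2.fderiv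

lemma IP_grad {E E' : Type} [NormedAddCommGroup E] [InnerProductSpace ℝ E] [CompleteSpace E]
    [NormedAddCommGroup E'] [InnerProductSpace ℝ E'] [CompleteSpace E'] {u : E → ℝ}
    (hu : ContDiff ℝ ∞ u) (J : E' →L[ℝ] E) (y a : E') :
    ⟪gradient (fun y => u (J y)) y, a⟫_ℝ = ⟪gradient u (J y), J a⟫_ℝ := by
  have hd : Differentiable ℝ u := hu.differentiable (by simp)
  rw [inner_gradient_left, inner_gradient_left]
  exact congrArg (fun T => T a) ((hd (J y)).hasFDerivAt.comp y J.hasFDerivAt).fderiv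

lemma IP_cgrad {E : Type} [NormedAddCommGroup E] [InnerProductSpace ℝ E] [CompleteSpace E]
    {u : E → ℝ} (hu : ContDiff ℝ ∞ u) : Continuous (gradient u) :=
  (InnerProductSpace.toDual ℝ E).symm.continuous.comp (hu.continuous_fderiv (by simp))

lemma IP_wt_congr {E F : Type} [NormedAddCommGroup E] [InnerProductSpace ℝ E]
    [FiniteDimensional ℝ E] [MeasurableSpace E] [BorelSpace E] [NormedAddCommGroup F]
    {φ : E → F} {w w' : E → ℝ} (h : ∀ x ∈ tsupport φ, w x = w' x) : wt w φ = wt w' φ := by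
  unfold wt
  congr 1
  funext x
  by_cases hx : x ∈ tsupport φ
  · rw [h x hx]
  · simp [image_eq_zero_of_notMem_tsupport hx]

variable {V W F : Type} [NormedAddCommGroup V] [InnerProductSpace ℝ V] [FiniteDimensional ℝ V]
  [NormedAddCommGroup W] [InnerProductSpace ℝ W]
  [NormedAddCommGroup F] [InnerProductSpace ℂ F] [CompleteSpace F]

/-- the radial part of the weight -/
def IPa (m : ℝ) (u : EE V → ℝ) (x : EE V) : ℝ :=
  (3 / 4) * ⟪gradient u x, x⟫_ℝ / (u x * max (‖x‖ ^ 2) m) + (23 / 10) / max (‖x‖ ^ 2) m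

/-- the part of the weight of order `mu` -/
def IPw (P : Par) (u : EE V → ℝ) (x : EE V) : ℝ :=
  (99 / 100) * ⟪gradient u x, mat P.Om x⟫_ℝ / u x

/-- the Barta term -/
def IPd (z : Submodule ℝ V) (u : EE V → ℝ) (x : EE V) : ℝ := -lapOn z u x / u x

lemma IPa_cont {m : ℝ} (hm : 0 < m) {u : EE V → ℝ} (hu : ContDiff ℝ ∞ u) (h0 : ∀ x, 0 < u x) :
    Continuous (IPa m u) := by
  have h1 := IP_cgrad hu
  have h2 := hu.continuous
  have h3 : ∀ x : EE V, max (‖x‖ ^ 2) m ≠ 0 := fun x => (lt_max_of_lt_right hm).ne'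
  exact ((continuous_const.mul (h1.inner continuous_id)).div (by fun_prop)
    fun x => mul_ne_zero (h0 x).ne' (h3 x)).add (continuous_const.div (by fun_prop) h3)

lemma IPw_cont (P : Par) {u : EE V → ℝ} (hu : ContDiff ℝ ∞ u) (h0 : ∀ x, 0 < u x) :
    Continuous (IPw P u) :=
  (continuous_const.mul ((IP_cgrad hu).inner (mat P.Om : EE V →L[ℝ] EE V).continuous)).div
    hu.continuous fun x => (h0 x).ne'

lemma IPd_cont (z : Submodule ℝ V) {u : EE V → ℝ} (hu : ContDiff ℝ ∞ u) (h0 : ∀ x, 0 < u x) :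
    Continuous (IPd z u) :=
  (continuous_lapOn z hu).neg.div hu.continuous fun x => (h0 x).ne'

omit [FiniteDimensional ℝ V] in
lemma IP_lift_mat {n k : ℕ} (g : V →L[ℝ] W) (A : Matrix (Fin n) (Fin k) ℝ)
    (x : PiLp 2 (fun _ : Fin k => V)) : lift g (mat A x) = mat A (lift g x) := by
  ext i
  simp

omit [FiniteDimensional ℝ V] [InnerProductSpace ℝ V] [InnerProductSpace ℝ W] in
lemma IP_norm_le {n : ℕ} {x : PiLp 2 (fun _ : Fin n => V)} {y : PiLp 2 (fun _ : Fin n => W)}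
    (h : ∀ i, ‖x i‖ ≤ ‖y i‖) : ‖x‖ ≤ ‖y‖ := by
  rw [← sq_le_sq₀ (norm_nonneg _) (norm_nonneg _), PiLp.norm_sq_eq_of_L2, PiLp.norm_sq_eq_of_L2]
  exact Finset.sum_le_sum fun i _ => pow_le_pow_left₀ (norm_nonneg _) (h i) 2

omit [FiniteDimensional ℝ V] [InnerProductSpace ℝ V] [InnerProductSpace ℝ W] in
lemma IP_norm_eq {n : ℕ} {x : PiLp 2 (fun _ : Fin n => V)} {y : PiLp 2 (fun _ : Fin n => W)}
    (h : ∀ i, ‖x i‖ = ‖y i‖) : ‖x‖ = ‖y‖ :=
  le_antisymm (IP_norm_le fun i => (h i).le) (IP_norm_le fun i => (h i).ge)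

omit [FiniteDimensional ℝ V] in
lemma IP_Om (P : Par) (y : EE V) : ⟪y, mat P.Om y⟫_ℝ ≤ 6 * ‖y‖ ^ 2 := by
  rw [PiLp.inner_apply, PiLp.norm_sq_eq_of_L2, Finset.mul_sum]
  refine Finset.sum_le_sum fun i _ => ?_
  have h1 : mat P.Om y i = (![6, 6, 5, 5, 6, 6, 5, 5, P.δ] : Fin 9 → ℝ) i • y i := by
    simp [Par.Om, Matrix.diagonal_apply, ite_smul]
  have h2 : (![6, 6, 5, 5, 6, 6, 5, 5, P.δ] : Fin 9 → ℝ) i ≤ 6 := by
    have := P.δ1
    fin_cases i <;> simp <;> linarith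
  rw [h1, real_inner_smul_right, real_inner_self_eq_norm_sq]
  exact mul_le_mul_of_nonneg_right h2 (sq_nonneg _)

lemma IP_finrank (V : Type) [NormedAddCommGroup V] [InnerProductSpace ℝ V]
    [FiniteDimensional ℝ V] : Module.finrank ℝ (EE V) = 9 * Module.finrank ℝ V := by
  rw [(WithLp.linearEquiv 2 ℝ (Fin 9 → V)).finrank_eq, Module.finrank_pi_fintype]
  simp

variable [MeasurableSpace V] [BorelSpace V]

/-- the free multiplet with the Barta field -/
lemma IP_free (M : Mod V F) (P : Par) (hab : ∀ a b, M.L.br a b = 0)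
    (hV : 0 < Module.finrank ℝ V) (lam : ℝ) {mu m : ℝ} (hmu : 0 ≤ mu) (hm : 0 < m)
    {u : EE V → ℝ} (hu : ContDiff ℝ ∞ u) (h0 : ∀ x, 0 < u x) {d : EE V → ℝ} (hd : Continuous d)
    (hd' : ∀ y, d y = -(∑ k, fderiv ℝ (fderiv ℝ u) y (stdOrthonormalBasis ℝ (EE V) k)
      (stdOrthonormalBasis ℝ (EE V) k)) / u y)
    {φ : EE V → F} (h : Tst φ) (hs : tsupport φ ⊆ {y | m ≤ ‖y‖ ^ 2}) :
    wt (fun y => (1 / 2) * d y + IPa m u y + mu * (IPw P u y + 3 / 10) +
      mu ^ 2 * (P.δ ^ 2 / 200) * ‖y‖ ^ 2) φ ≤ M.q P lam mu φ := by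
  obtain ⟨hb1, hb2⟩ := barta_field hu h0
  have hne : ∀ y ∈ tsupport φ, y ≠ 0 := fun y hy h1 => by
    have h2 : m ≤ ‖y‖ ^ 2 := hs hy
    rw [h1] at h2
    simp at h2
    linarith
  have hfb := M.free_bound P hab lam hmu isOpen_ne hb1 h hne
  have ha := IPa_cont hm hu h0
  have hw := IPw_cont P hu h0
  have hO := (mat P.Om : EE V →L[ℝ] EE V).continuous
  obtain ⟨k, hk⟩ : ∃ k : ℝ, k = Module.finrank ℝ V := ⟨_, rfl⟩
  have hk1 : 1 ≤ k := by rw [hk]; exact_mod_cast hV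
  have hk9 : (Module.finrank ℝ (EE V) : ℝ) = 9 * k := by rw [IP_finrank, hk]; push_cast; ring
  have hmx : ∀ y : EE V, max (‖y‖ ^ 2) m ≠ 0 := fun y => (lt_max_of_lt_right hm).ne'
  rw [← hk] at hfb
  refine le_trans ?_ (le_of_eq_of_le (IP_wt_congr (w := fun y => (1 / 2) * d y + IPa m u y +
    ((3 / 8) * (9 * k - 11 / 4) - 23 / 10) / max (‖y‖ ^ 2) m + mu * (IPw P u y -
      (99 / 100) * (3 / 4) * (⟪y, mat P.Om y⟫_ℝ / max (‖y‖ ^ 2) m) + (477 / 100) * k) +
      mu ^ 2 * (P.δ ^ 2 / 200) * ‖y‖ ^ 2) fun y hy => ?_) hfb)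
  · refine wt_mono h (by fun_prop) (Continuous.continuousOn ?_) fun y hy => ?_
    · have h1 : Continuous fun y : EE V =>
        ((3 / 8) * (9 * k - 11 / 4) - 23 / 10) / max (‖y‖ ^ 2) m :=
        continuous_const.div (by fun_prop) hmx
      have h2 : Continuous fun y : EE V => ⟪y, mat P.Om y⟫_ℝ / max (‖y‖ ^ 2) m :=
        (continuous_id.inner hO).div (by fun_prop) hmx
      fun_prop
    · have h1 : 0 < max (‖y‖ ^ 2) m := lt_max_of_lt_right hm
      have h2 : 0 ≤ ((3 / 8) * (9 * k - 11 / 4) - 23 / 10) / max (‖y‖ ^ 2) m :=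
        div_nonneg (by linarith) h1.le
      have h3 : ⟪y, mat P.Om y⟫_ℝ / max (‖y‖ ^ 2) m ≤ 6 := by
        rw [div_le_iff₀ h1]
        have := IP_Om P y
        have := le_max_left (‖y‖ ^ 2) m
        linarith
      have h4 : IPw P u y + 3 / 10 ≤ IPw P u y -
        (99 / 100) * (3 / 4) * (⟪y, mat P.Om y⟫_ℝ / max (‖y‖ ^ 2) m) + (477 / 100) * k := by
        linarith
      have := mul_le_mul_of_nonneg_left h4 hmu
      linarith
  · have h1 : max (‖y‖ ^ 2) m = ‖y‖ ^ 2 := max_eq_left (hs hy)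
    have h2 : ‖y‖ ≠ 0 := norm_ne_zero_iff.2 (hne y hy)
    have h3 := (h0 y).ne'
    rw [hb2 y (hne y hy), hk9, hd' y, IPa, IPw, h1, inner_add_left, real_inner_smul_left,
      real_inner_smul_left]
    field_simp
    ring

end Vale.Agent.P353
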