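import Vale.Agent.P353.IPatchxA

/-! The reduced lower bound on a patch. -/

open MeasureTheory NormedSpace
open Complex (I)
open scoped InnerProductSpace ContDiff

noncomputable section
namespace Vale.Agent.P353
variable {V F : Type} [NormedAddCommGroup V] [InnerProductSpace ℝ V] [FiniteDimensional ℝ V]
  [NormedAddCommGroup F] [InnerProductSpace ℂ F] [CompleteSpace F] {L : CL V}

/-- projection onto the tuples in a subspace -/
def IPp (z : Submodule ℝ V) : EE V →L[ℝ] EE V := lift z.starProjection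

section gen
variable {W : Type} [NormedAddCommGroup W] [InnerProductSpace ℝ W] [FiniteDimensional ℝ W]
  {j : W →L[ℝ] V} {z : Submodule ℝ V} {z' : Submodule ℝ W}

/-- the inclusion of the central tuples -/
def IPj (j : W →L[ℝ] V) (z' : Submodule ℝ W) : EE z' →L[ℝ] EE V := lift (j ∘L z'.subtypeL)

/-- `z'` corresponds to `z` under the isometry `j` -/
structure IPs (j : W →L[ℝ] V) (z : Submodule ℝ V) (z' : Submodule ℝ W) : Prop where
  inn : ∀ a b, ⟪j a, j b⟫_ℝ = ⟪a, b⟫_ℝ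
  mem : ∀ a, a ∈ z' ↔ j a ∈ z
  sur : ∀ w ∈ z, ∃ a, j a = w

omit [FiniteDimensional ℝ V] [FiniteDimensional ℝ W] in
lemma IPs.norm (h : IPs j z z') (a : W) : ‖j a‖ = ‖a‖ := by
  rw [← sq_eq_sq₀ (norm_nonneg _) (norm_nonneg _), ← real_inner_self_eq_norm_sq,
    ← real_inner_self_eq_norm_sq, h.inn]

lemma IPs.proj (h : IPs j z z') (a : W) : j (z'.starProjection a) = z.starProjection (j a) := by
  refine (Submodule.eq_starProjection_of_mem_of_inner_eq_zero (K := z)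
    ((h.mem _).1 (z'.starProjection_apply_mem a)) fun w hw => ?_).symm
  obtain ⟨b, rfl⟩ := h.sur w hw
  rw [← map_sub, h.inn]
  exact z'.starProjection_inner_eq_zero a b ((h.mem _).2 hw)

lemma IPs.j_proj (h : IPs j z z') (X : EE W) :
    IPj j z' (lift z'.orthogonalProjectionOnto X) = IPp z (lift j X) := by
  ext i
  exact h.proj (X i)

omit [FiniteDimensional ℝ V] [FiniteDimensional ℝ W] in
lemma IPs.norm_j (h : IPs j z z') (y : EE z') : ‖IPj j z' y‖ = ‖y‖ :=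
  IP_norm_eq fun i => h.norm (y i)

lemma IPs.norm_orth (h : IPs j z z') (X : EE W) :
    ‖lift z'ᗮ.orthogonalProjectionOnto X‖ = ‖lift j X - IPp z (lift j X)‖ := by
  refine IP_norm_eq fun i => ?_
  have h1 : ‖lift z'ᗮ.orthogonalProjectionOnto X i‖ = ‖z'ᗮ.starProjection (X i)‖ := rfl
  rw [h1, Submodule.starProjection_orthogonal_val, ← h.norm, map_sub, h.proj]
  rfl

lemma IPs.lap (h : IPs j z z') {u : EE V → ℝ} (hu : ContDiff ℝ ∞ u) (y : EE z') :
    lapOn z u (IPj j z' y) = ∑ k, fderiv ℝ (fderiv ℝ fun y => u (IPj j z' y)) y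
      (stdOrthonormalBasis ℝ (EE z') k) (stdOrthonormalBasis ℝ (EE z') k) := by
  let e0 : z' →ₗᵢ[ℝ] z :=
    { toLinearMap := LinearMap.codRestrict z (j.toLinearMap ∘ₗ z'.subtype)
        fun a => (h.mem _).1 a.2
      norm_map' := fun a => h.norm a }
  have hs : Function.Surjective e0 := fun w => by
    obtain ⟨a, ha⟩ := h.sur w w.2
    exact ⟨⟨a, (h.mem _).2 (ha ▸ w.2)⟩, Subtype.ext ha⟩
  let E : EE z' ≃ₗᵢ[ℝ] EE z :=
    LinearIsometryEquiv.piLpCongrRight 2 fun _ => LinearIsometryEquiv.ofSurjective e0 hs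
  have hE : ∀ v, lift z.subtypeL (E v) = IPj j z' v := fun v => by
    ext i
    rfl
  have h := IP_onb ((fderiv ℝ (fderiv ℝ u) (IPj j z' y)).bilinearComp (lift z.subtypeL)
    (lift z.subtypeL)) ((stdOrthonormalBasis ℝ (EE z')).map E) (stdOrthonormalBasis ℝ (EE z))
  simp only [ContinuousLinearMap.bilinearComp_apply, OrthonormalBasis.map_apply, hE] at h
  simp only [IP_fderiv2 hu]
  exact h

end gen

namespace Patch
variable (pt : Patch L)

lemma ipr_mem (x : EE V) : IPp pt.z x ∈ pt.Z := fun i => pt.z.starProjection_apply_mem (x i)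

lemma ipr_of_mem {Y : EE V} (h : Y ∈ pt.Z) : IPp pt.z Y = Y := by
  ext i
  exact Submodule.starProjection_eq_self_iff.2 (h i)

lemma ipr_sub (x : EE V) (i : Fin 9) : (x - IPp pt.z x) i = pt.zᗮ.starProjection (x i) := by
  rw [Submodule.starProjection_orthogonal_val]
  rfl

lemma norm_ipr (x : EE V) : ‖IPp pt.z x‖ ≤ ‖x‖ :=
  IP_norm_le fun i => pt.z.norm_starProjection_apply_le (x i)

lemma ipr_p (x : EE V) : ‖IPp pt.z x - pt.p‖ ≤ ‖x - pt.p‖ := by
  have h := pt.norm_ipr (x - pt.p)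
  rwa [map_sub, pt.ipr_of_mem pt.p_mem_Z] at h

lemma ipr_min (x : EE V) {Y : EE V} (h : Y ∈ pt.Z) : ‖x - IPp pt.z x‖ ≤ ‖x - Y‖ := by
  have h1 : x - IPp pt.z x = (x - Y) - IPp pt.z (x - Y) := by
    rw [map_sub, pt.ipr_of_mem h]
    abel
  rw [h1]
  exact IP_norm_le fun i => by
    rw [pt.ipr_sub]
    exact pt.zᗮ.norm_starProjection_apply_le _

lemma ipr_pyth (x : EE V) : ‖x‖ ^ 2 = ‖IPp pt.z x‖ ^ 2 + ‖x - IPp pt.z x‖ ^ 2 := by
  simp only [PiLp.norm_sq_eq_of_L2, ← Finset.sum_add_distrib]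
  refine Finset.sum_congr rfl fun i _ => ?_
  rw [pt.ipr_sub]
  exact Submodule.norm_sq_eq_add_norm_sq_starProjection (x i) pt.z

lemma ipr_io (X : EE pt.l) (w : pt.H) : IPp pt.z (pt.io X w) = IPp pt.z (lift pt.l.subtypeL X) := by
  rw [io, map_add, add_eq_left]
  ext i
  exact Submodule.eq_starProjection_of_mem_orthogonal' pt.z.zero_mem
    (Submodule.orthogonal_le pt.z_le ((w : EE pt.lᗮ) i).2) (zero_add _).symm

lemma ipr_G {g : V →L[ℝ] V} (hg : g ∈ L.G) (hp : lift g pt.p = pt.p) (x : EE V) :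
    (∀ a, a ∈ pt.z ↔ g a ∈ pt.z) ∧ IPp pt.z (lift g x) = lift g (IPp pt.z x) := by
  have h1 : ∀ a, a ∈ pt.z ↔ g a ∈ pt.z := fun a => by
    have := CL.zc_G hg pt.p a
    rwa [hp] at this
  refine ⟨h1, ?_⟩
  obtain ⟨h, -, h2, -⟩ := CL.G_inv hg
  ext i
  refine Submodule.eq_starProjection_of_mem_of_inner_eq_zero
    ((h1 _).1 (pt.z.starProjection_apply_mem (x i))) fun w hw => ?_
  have h3 : g (h w) = w := congrArg (fun T : V →L[ℝ] V => T w) h2
  have h4 : h w ∈ pt.z := (h1 _).2 (h3.symm ▸ hw)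
  have h5 := pt.z.starProjection_inner_eq_zero (x i) _ h4
  rw [← CL.G_inner hg, h3, map_sub] at h5
  exact h5

end Patch

lemma hs_cont {s : ℝ} (hs0 : 0 < s) : Continuous (hs s) :=
  (continuous_pow 2).div (by fun_prop) fun t => by positivity

lemma hs_nonneg (s t : ℝ) : 0 ≤ hs s t := by
  unfold hs
  positivity

lemma hs_le {s : ℝ} (hs0 : 0 < s) (t : ℝ) : hs s t ≤ 1 / s ^ 2 := by
  unfold hs
  rw [div_le_div_iff₀ (by positivity) (by positivity)]
  nlinarith [sq_nonneg t, sq_nonneg s, sq_nonneg (s ^ 2), sq_nonneg (t ^ 2),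
    mul_nonneg (sq_nonneg t) (sq_nonneg s)]

lemma hs_cmp {s t t' K : ℝ} (hs0 : 0 < s) (h0 : 0 ≤ t) (hK : 1 ≤ K) (h1 : t ≤ t')
    (h2 : t' ≤ K * t) : hs s t ≤ K ^ 4 * hs s t' := by
  unfold hs
  have h3 : t ^ 2 ≤ t' ^ 2 := pow_le_pow_left₀ h0 h1 2
  have h4 : t' ^ 2 ≤ (K * t) ^ 2 := pow_le_pow_left₀ (h0.trans h1) h2 2
  have h5 : 1 ≤ K ^ 2 := one_le_pow₀ hK
  have h6 : s ^ 2 + t' ^ 2 ≤ K ^ 2 * (s ^ 2 + t ^ 2) := by nlinarith [sq_nonneg s]
  have h7 : (s ^ 2 + t' ^ 2) ^ 2 ≤ (K ^ 2 * (s ^ 2 + t ^ 2)) ^ 2 :=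
    pow_le_pow_left₀ (by positivity) h6 2
  rw [← mul_div_assoc, div_le_div_iff₀ (by positivity) (by positivity)]
  calc t ^ 2 * (s ^ 2 + t' ^ 2) ^ 2 ≤ t' ^ 2 * (K ^ 2 * (s ^ 2 + t ^ 2)) ^ 2 := by gcongr
    _ = _ := by ring

variable [MeasurableSpace V] [BorelSpace V]

/-- the weight obtained on the centraliser -/
def IPt (P : Par) (z : Submodule ℝ V) (m c s η mu : ℝ) (u : EE V → ℝ) (x : EE V) : ℝ :=
  (1 / 2) * IPd z u (IPp z x) + IPa m u (IPp z x) + mu * (IPw P u (IPp z x) + 3 / 10) +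
    mu ^ 2 * (P.δ ^ 2 / 200) * ‖IPp z x‖ ^ 2 +
    (c * mu ^ 2 * ‖x - IPp z x‖ ^ 2 + c * hs s ‖x - IPp z x‖ - η * (1 + mu))

/-- the conclusion of the reduced bound -/
def IPr {W : Type} [NormedAddCommGroup W] [InnerProductSpace ℝ W] [FiniteDimensional ℝ W]
    [MeasurableSpace W] [BorelSpace W] (M' : Mod W F) (P : Par) (j : W →L[ℝ] V)
    (z : Submodule ℝ V) : Prop :=
  ∃ c > 0, ∀ s > 0, ∀ η > 0, ∃ lam0 > 0, ∃ ε0 > 0,
    ∀ lam ≥ lam0, ∀ mu : ℝ, 0 ≤ mu → mu ^ 3 ≤ ε0 * lam ^ 2 → ∀ m > 0, ∀ u : EE V → ℝ,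
    ContDiff ℝ ∞ u → (∀ x, 0 < u x) → ∀ f : EE W → F, Tst f → M'.Inv f →
    ∀ om : EE W → ℝ, ContinuousOn om (tsupport f) →
    (∀ X ∈ tsupport f, m ≤ ‖IPp z (lift j X)‖ ^ 2 ∧ om X ≤ IPt P z m c s η mu u (lift j X)) →
    wt om f ≤ M'.q P lam mu f

omit [MeasurableSpace V] [BorelSpace V] in
lemma IP_red0 {W : Type} [NormedAddCommGroup W] [InnerProductSpace ℝ W] [FiniteDimensional ℝ W]
    [MeasurableSpace W] [BorelSpace W] (M' : Mod W F) (P : Par) {j : W →L[ℝ] V}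
    {z : Submodule ℝ V} {z' : Submodule ℝ W} (H : IPs j z z') (hz : z' ≤ M'.L.center)
    (hpos : 0 < Module.finrank ℝ z') (ih : (M'.res z'ᗮ (M'.L.sub_orth hz)).PH P) :
    IPr M' P j z := by
  obtain ⟨c, hc, h1⟩ := ih
  refine ⟨c, hc, fun s hs0 η hη => ?_⟩
  obtain ⟨lam0, hl, ε0, hε, h2⟩ := h1 s hs0 η hη
  refine ⟨lam0, hl, ε0, hε, fun lam hlam mu hmu hme m hm u hu h0 f hf hi om hom hle => ?_⟩
  have hu' : ContDiff ℝ ∞ fun y => u (IPj j z' y) := hu.comp (IPj j z').contDiff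
  have hd : Continuous fun y => IPd z u (IPj j z' y) :=
    (IPd_cont z hu h0).comp (IPj j z').continuous
  have ha := IPa_cont hm hu' fun y => h0 _
  have hw := IPw_cont P hu' fun y => h0 _
  have hh := hs_cont hs0
  have hab : ∀ a b, (M'.res z' (M'.L.sub_center hz)).L.br a b = 0 := fun a b =>
    Subtype.ext (congrArg (fun T : W →L[ℝ] W => T b) (LinearMap.mem_ker.1 (hz a.2)))
  obtain ⟨A, hA⟩ : ∃ A : EE z' → ℝ, A = fun y => (1 / 2) * IPd z u (IPj j z' y) +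
      IPa m (fun y => u (IPj j z' y)) y + mu * (IPw P (fun y => u (IPj j z' y)) y + 3 / 10) +
      mu ^ 2 * (P.δ ^ 2 / 200) * ‖y‖ ^ 2 := ⟨_, rfl⟩
  obtain ⟨B, hB⟩ : ∃ B : EE z'ᗮ → ℝ,
      B = fun y => c * mu ^ 2 * ‖y‖ ^ 2 + c * hs s ‖y‖ - η * (1 + mu) := ⟨_, rfl⟩
  have hAc : Continuous A := by
    rw [hA]
    fun_prop
  have hBc : Continuous B := by
    rw [hB]
    fun_prop
  have key := M'.split P hz lam mu (U := {y | m ≤ ‖y‖ ^ 2}) (a := A) (b := B) hAc.continuousOn hBc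
    (fun h hh hsup => hA ▸ IP_free _ P hab hpos lam hmu hm hu' (fun y => h0 _) hd
      (fun y => by rw [← H.lap hu]; rfl) hh hsup)
    (fun h hh hinv => hB ▸ h2 lam hlam mu hmu hme h hh hinv) hf hi
    (fun X hX => by
      have := (hle X hX).1
      rwa [← H.j_proj, H.norm_j] at this)
  refine le_trans (wt_mono hf hom (Continuous.continuousOn (by fun_prop)) fun X hX => ?_) key
  refine (hle X hX).2.trans (le_of_eq ?_)
  have e1 : ∀ y, IPa m (fun y => u (IPj j z' y)) y = IPa m u (IPj j z' y) := fun y => by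
    simp only [IPa, IP_grad hu, H.norm_j]
  have e2 : ∀ y, IPw P (fun y => u (IPj j z' y)) y = IPw P u (IPj j z' y) := fun y => by
    simp only [IPw, IP_grad hu]
    rw [IPj, IP_lift_mat]
  rw [hA, hB]
  simp only [e1, e2]
  rw [← H.norm_j, H.j_proj, H.norm_orth, IPt]

omit [MeasurableSpace V] [BorelSpace V] in
lemma IP_red1 {W : Type} [NormedAddCommGroup W] [InnerProductSpace ℝ W] [FiniteDimensional ℝ W]
    [MeasurableSpace W] [BorelSpace W] (M' : Mod W F) (P : Par) {j : W →L[ℝ] V}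
    {z : Submodule ℝ V} (ih : ∀ (W : Type) [NormedAddCommGroup W] [InnerProductSpace ℝ W]
      [FiniteDimensional ℝ W] [MeasurableSpace W] [BorelSpace W] (M' : Mod W F),
      Module.finrank ℝ W < Module.finrank ℝ V → M'.PH P)
    (hW : Module.finrank ℝ W ≤ Module.finrank ℝ V)
    (inn : ∀ a b, ⟪j a, j b⟫_ℝ = ⟪a, b⟫_ℝ) (sur : ∀ w ∈ z, ∃ a, j a = w)
    (hc : ∀ a, j a ∈ z → ∀ b, M'.L.br a b = 0) (hne : ∃ w ∈ z, w ≠ 0) : IPr M' P j z := by
  have hz : z.comap j.toLinearMap ≤ M'.L.center := fun a ha =>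
    LinearMap.mem_ker.2 (ContinuousLinearMap.ext (hc a ha))
  have hpos : 0 < Module.finrank ℝ (z.comap j.toLinearMap) := by
    obtain ⟨w, hw, h0⟩ := hne
    obtain ⟨a, rfl⟩ := sur w hw
    refine Module.finrank_pos_iff_exists_ne_zero.2 ⟨⟨a, hw⟩, fun h => h0 ?_⟩
    rw [show a = 0 from congrArg Subtype.val h, map_zero]
  have h2 := (z.comap j.toLinearMap).finrank_add_finrank_orthogonal
  exact IP_red0 M' P ⟨inn, fun _ => Iff.rfl, sur⟩ hz hpos (ih _ _ (by omega))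

/-- the lower bound for the reduced model -/
lemma IP_red (M : Mod V F) (P : Par)
    (ih : ∀ (W : Type) [NormedAddCommGroup W] [InnerProductSpace ℝ W] [FiniteDimensional ℝ W]
      [MeasurableSpace W] [BorelSpace W] (M' : Mod W F),
      Module.finrank ℝ W < Module.finrank ℝ V → M'.PH P)
    (pt : Patch M.L) (hp : pt.p ≠ 0) :
    IPr (M.res pt.l (M.L.sub_cent pt.p)) P pt.l.subtypeL pt.z := by
  refine IP_red1 _ P ih pt.l.finrank_le (fun _ _ => rfl) (fun w hw => ⟨⟨w, pt.z_le hw⟩, rfl⟩)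
    (fun a ha b => Subtype.ext ?_) ?_
  · have h2 := (pt.mem_z a).1 ha b b.2
    rw [M.L.skew, neg_eq_zero] at h2
    exact h2
  · by_contra h
    push Not at h
    refine hp ?_
    ext i
    exact h _ (pt.p_mem_Z i)

end Vale.Agent.P353
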