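import Vale.Agent.P353.SComb

open MeasureTheory NormedSpace
open Complex (I)
open scoped InnerProductSpace ContDiff

noncomputable section
namespace Vale.Agent.P353.SC
variable {N : ℕ}

theorem scomb2_one {u : ℝ} (h1 : 0 ≤ u) (h2 : u < 5) : gs u = 1 := by
  rw [gs, Set.indicator_of_mem (show u ∈ Set.Ico (0 : ℝ) 5 from ⟨h1, h2⟩),
    Set.indicator_of_notMem fun h => by linarith [h.1], Pi.one_apply, sub_zero]

theorem scomb2_neg {u : ℝ} (h1 : 6 ≤ u) (h2 : u < 11) : gs u = -1 := by
  rw [gs, Set.indicator_of_mem (show u ∈ Set.Ico (6 : ℝ) 11 from ⟨h1, h2⟩),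
    Set.indicator_of_notMem fun h => by linarith [h.2], Pi.one_apply, zero_sub]

theorem scomb2_nonneg {u : ℝ} (h : u < 6) : 0 ≤ gs u := by
  rw [gs, Set.indicator_of_notMem (s := Set.Ico 6 11) fun h => by linarith [h.1], sub_zero]
  exact Set.indicator_nonneg (fun _ _ => zero_le_one) u

theorem scomb2_nonpos {u : ℝ} (h : 5 ≤ u) : gs u ≤ 0 := by
  rw [gs, Set.indicator_of_notMem (s := Set.Ico 0 5) fun h => by linarith [h.2], zero_sub,
    neg_nonpos]
  exact Set.indicator_nonneg (fun _ _ => zero_le_one) u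

theorem scomb2_zero {u : ℝ} (h : u < 0 ∨ 11 ≤ u) : gs u = 0 := by
  rw [gs, Set.indicator_of_notMem fun h1 => by rcases h with h | h <;> linarith [h1.1, h1.2],
    Set.indicator_of_notMem fun h1 => by rcases h with h | h <;> linarith [h1.1, h1.2], sub_self]

theorem scomb2_le (u c : ℝ) : ∀ᶠ w in nhdsWithin u (Set.Ici u), (c ≤ w ↔ c ≤ u) := by
  rcases le_or_gt c u with h | h
  · filter_upwards [self_mem_nhdsWithin] with w hw
    exact iff_of_true (h.trans hw) h
  · filter_upwards [nhdsWithin_le_nhds (Iio_mem_nhds h)] with w hw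
    exact iff_of_false (not_le.2 hw) (not_le.2 h)

theorem scomb2_ind (u c d : ℝ) : ∀ᶠ w in nhdsWithin u (Set.Ici u),
    (Set.Ico c d).indicator (1 : ℝ → ℝ) w = (Set.Ico c d).indicator 1 u := by
  filter_upwards [scomb2_le u c, scomb2_le u d] with w h1 h2
  simp only [Set.indicator, Set.mem_Ico, ← not_le, h1, h2, Pi.one_apply]

theorem scomb2_gs (u y : ℝ) : ∀ᶠ w in nhdsWithin u (Set.Ici u), gs (w - y) = gs (u - y) := by
  filter_upwards [scomb2_le u (0 + y), scomb2_le u (5 + y), scomb2_le u (6 + y),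
    scomb2_le u (11 + y)] with w h1 h2 h3 h4
  simp only [gs, Set.indicator, Set.mem_Ico, ← not_le, le_sub_iff_add_le, h1, h2, h3, h4,
    Pi.one_apply]

/-- Let `G u = ∑ gs (u - x i)`, `a` the smallest and `b` the largest of the `x i`.  `G` is integer
valued and locally constant to the right, `G ≥ 1` on `[a, a+5)`, `G ≤ -1` on `[b+6, b+11)`.  So
`∫ G² ≥ 10`, and `∫ G² ≤ 10` forces `G = 1` on `[a, a+5)` and `G = 0` on `[a+5, b+6)` at every
point (otherwise `G²` exceeds the indicator of the two intervals by `1` on a small interval). -/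
theorem G_of_Ef {n : ℕ} {x : Fin (n + 1) → ℝ} (hx : Monotone x) (h : Ef x ≤ 0) :
    (∀ u ∈ Set.Ico (x 0) (x 0 + 5), ∑ i, gs (u - x i) = 1) ∧
      ∀ u ∈ Set.Ico (x 0 + 5) (x (Fin.last n) + 6), ∑ i, gs (u - x i) = 0 := by
  obtain ⟨hi, he⟩ := Ef_eq x
  obtain ⟨a, ha⟩ : ∃ a, a = x 0 := ⟨_, rfl⟩
  obtain ⟨b, hb⟩ : ∃ b, b = x (Fin.last n) := ⟨_, rfl⟩
  have hab : a ≤ b := ha ▸ hb ▸ hx (Fin.zero_le _)
  have g1 : ∀ u ∈ Set.Ico a (a + 5), 1 ≤ ∑ i, gs (u - x i) := fun u hu => by
    refine le_trans ?_ (Finset.single_le_sum (f := fun i => gs (u - x i))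
      (fun i _ => scomb2_nonneg (by linarith [hx (Fin.zero_le i), hu.2])) (Finset.mem_univ 0))
    exact (scomb2_one (by linarith [hu.1]) (by linarith [hu.2])).ge
  have g2 : ∀ u ∈ Set.Ico (b + 6) (b + 11), 1 ≤ -∑ i, gs (u - x i) := fun u hu => by
    rw [← Finset.sum_neg_distrib]
    refine le_trans ?_ (Finset.single_le_sum (f := fun i => -gs (u - x i))
      (fun i _ => neg_nonneg.2 (scomb2_nonpos (by linarith [hx (Fin.le_last i), hu.1])))
      (Finset.mem_univ (Fin.last n)))
    rw [scomb2_neg (by linarith [hu.1]) (by linarith [hu.2]), neg_neg]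
  obtain ⟨H, hH⟩ : ∃ H : ℝ → ℝ, H = fun u => (∑ i, gs (u - x i)) ^ 2 -
      ((Set.Ico a (a + 5)).indicator 1 u + (Set.Ico (b + 6) (b + 11)).indicator 1 u) := ⟨_, rfl⟩
  have i1 : ∀ c d : ℝ, Integrable ((Set.Ico c d).indicator (1 : ℝ → ℝ)) := fun c d =>
    (integrableOn_const (C := (1 : ℝ)) measure_Ico_lt_top.ne).integrable_indicator
      measurableSet_Ico
  have h1 : 0 ≤ H := fun u => by
    simp only [hH, Set.indicator, Pi.zero_apply, Pi.one_apply]
    split_ifs with h1 h2 h2
    · linarith [h1.2, h2.1]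
    · nlinarith [g1 u h1]
    · nlinarith [g2 u h2]
    · nlinarith [sq_nonneg (∑ i, gs (u - x i))]
  have h2 : Integrable H := hH ▸ hi.sub ((i1 _ _).add (i1 _ _))
  have h3 : ∫ u, H u ≤ 0 := by
    have i2 : Integrable fun u => (Set.Ico a (a + 5)).indicator (1 : ℝ → ℝ) u +
      (Set.Ico (b + 6) (b + 11)).indicator 1 u := (i1 _ _).add (i1 _ _)
    simp only [hH]
    rw [integral_sub hi i2, integral_add (i1 _ _) (i1 _ _),
      integral_indicator_one measurableSet_Ico, integral_indicator_one measurableSet_Ico,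
      Real.volume_real_Ico_of_le (by linarith), Real.volume_real_Ico_of_le (by linarith)]
    linarith
  have h4 := (integral_eq_zero_iff_of_nonneg h1 h2).1 (h3.antisymm (integral_nonneg h1))
  have h5 : ∀ u, H u = 0 := fun u => by
    have h6 : ∀ᶠ w in nhdsWithin u (Set.Ici u), H w = H u := by
      filter_upwards [Filter.eventually_all.2 fun i => scomb2_gs u (x i), scomb2_ind u a (a + 5),
        scomb2_ind u (b + 6) (b + 11)] with w h7 h8 h9
      simp only [hH, h7, h8, h9]
    obtain ⟨c, hc, h7⟩ := mem_nhdsGE_iff_exists_Ico_subset.1 h6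
    obtain ⟨w, hw, h8⟩ := Measure.exists_mem_of_measure_ne_zero_of_ae (μ := volume)
      (s := Set.Ico u c) (by simpa using hc) (ae_restrict_of_ae h4)
    exact (h7 hw).symm.trans h8
  rw [← ha, ← hb]
  refine ⟨fun u hu => ?_, fun u hu => ?_⟩
  · have h6 := h5 u
    simp only [hH] at h6
    rw [Set.indicator_of_mem hu, Set.indicator_of_notMem fun h7 => by linarith [h7.1, hu.2],
      Pi.one_apply] at h6
    nlinarith [g1 u hu]
  · have h6 := h5 u
    simp only [hH] at h6
    rw [Set.indicator_of_notMem fun h7 => by linarith [h7.2, hu.1],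
      Set.indicator_of_notMem fun h7 => by linarith [h7.1, hu.2], add_zero, sub_zero] at h6
    exact pow_eq_zero_iff two_ne_zero |>.1 h6

/-- Induction on `n`: evaluate `G` at `x 1` and at `x 0 + 6` to get `x 1 = x 0 + 6`, then remove
`x 0` (`Fin.sum_univ_succ`). -/
theorem step_of_G {n : ℕ} {x : Fin (n + 1) → ℝ} (hx : Monotone x)
    (h1 : ∀ u ∈ Set.Ico (x 0) (x 0 + 5), ∑ i, gs (u - x i) = 1)
    (h2 : ∀ u ∈ Set.Ico (x 0 + 5) (x (Fin.last n) + 6), ∑ i, gs (u - x i) = 0) (i : Fin (n + 1)) :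
    x i = x 0 + 6 * (i : ℝ) := by
  induction n with
  | zero => simp [Fin.fin_one_eq_zero i]
  | succ n ih =>
    simp only [Fin.sum_univ_succ (n := n + 1)] at h1 h2
    have m0 : ∀ k : Fin (n + 1), x (Fin.succ 0) ≤ x k.succ := fun k =>
      hx (Fin.succ_le_succ_iff.2 (Fin.zero_le k))
    have m1 : x 0 ≤ x (Fin.succ 0) := hx (Fin.zero_le _)
    have m2 : x (Fin.succ 0) ≤ x (Fin.last (n + 1)) := hx (Fin.le_last _)
    have h3 : 1 ≤ ∑ k : Fin (n + 1), gs (x (Fin.succ 0) - x k.succ) := by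
      refine le_trans ?_ (Finset.single_le_sum (f := fun k : Fin (n + 1) =>
        gs (x (Fin.succ 0) - x k.succ)) (fun k _ => scomb2_nonneg (by linarith [m0 k]))
        (Finset.mem_univ 0))
      exact (scomb2_one (by linarith) (by linarith)).ge
    have h4 : x (Fin.succ 0) = x 0 + 6 := by
      refine le_antisymm (not_lt.1 fun h4 => ?_) (not_lt.1 fun h4 => ?_)
      · have h5 := h2 (x 0 + 6) ⟨by linarith, by linarith⟩
        rw [scomb2_neg (by linarith) (by linarith), Finset.sum_eq_zero fun k _ =>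
          scomb2_zero (Or.inl (by linarith [m0 k]))] at h5
        linarith
      · rcases lt_or_ge (x (Fin.succ 0)) (x 0 + 5) with h5 | h5
        · have h6 := h1 _ ⟨m1, h5⟩
          rw [scomb2_one (by linarith) (by linarith)] at h6
          linarith
        · have h6 := h2 _ ⟨h5, by linarith⟩
          linarith [scomb2_nonneg (u := x (Fin.succ 0) - x 0) (by linarith)]
    have h5 := ih (x := fun k => x k.succ) (fun _ _ h => hx (Fin.succ_le_succ_iff.2 h))
      (fun u hu => by
        have h6 := h2 u ⟨by linarith [hu.1], by linarith [hu.2]⟩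
        rw [scomb2_neg (by linarith [hu.1]) (by linarith [hu.2])] at h6
        linarith)
      fun u hu => by
        have h6 := h2 u ⟨by linarith [hu.1], hu.2⟩
        rwa [scomb2_zero (Or.inr (by linarith [hu.1])), zero_add] at h6
    refine Fin.cases (by simp) (fun k => ?_) i
    rw [h5 k, h4, Fin.val_succ, Nat.cast_succ]
    ring

theorem chain_of_Ef (hN : 0 < N) {x : Fin N → ℝ} (hx : Monotone x) (h0 : ∑ i, x i = 0)
    (h : Ef x ≤ 0) : x = chain N := by
  obtain ⟨n, rfl⟩ : ∃ n, N = n + 1 := ⟨N - 1, by omega⟩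
  obtain ⟨h1, h2⟩ := G_of_Ef hx h
  have h3 : ∀ i, x i = chain (n + 1) i + (x 0 + 3 * n) := fun i => by
    rw [step_of_G hx h1 h2 i, chain, Nat.cast_succ]
    ring
  rw [Finset.sum_congr rfl fun i _ => h3 i, Finset.sum_add_distrib, sum_chain, zero_add,
    Finset.sum_const, Finset.card_univ, Fintype.card_fin, smul_eq_zero] at h0
  exact funext fun i => by rw [h3 i, h0.resolve_left n.succ_ne_zero, add_zero]

/-- compactness -/
theorem Ef_lower (hN : 0 < N) (R : ℝ) : ∃ η > 0, ∀ x : Fin N → ℝ, Monotone x → ∑ i, x i = 0 →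
    (∀ i, |x i| ≤ R) → (∃ i, 1 / 4 ≤ |x i - chain N i|) → η ≤ Ef x := by
  have h1 : IsCompact {x : Fin N → ℝ | Monotone x ∧ ∑ i, x i = 0 ∧ (∀ i, |x i| ≤ R) ∧
      ∃ i, 1 / 4 ≤ |x i - chain N i|} := by
    refine (isCompact_univ_pi fun _ : Fin N => isCompact_Icc (a := -R) (b := R)).of_isClosed_subset
      (isClosed_monotone.and ((isClosed_eq (by fun_prop) continuous_const).and (IsClosed.and ?_ ?_)))
      fun x hx i _ => abs_le.1 (hx.2.2.1 i)
    · rw [Set.ofPred_forall]
      exact isClosed_iInter fun i => isClosed_le (by fun_prop) continuous_const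
    · rw [Set.ofPred_exists]
      exact isClosed_iUnion_of_finite fun i => isClosed_le continuous_const (by fun_prop)
  obtain ⟨η, hη, h2⟩ := h1.exists_forall_le' (a := 0) continuous_Ef.continuousOn fun x hx => by
    refine not_le.1 fun h => ?_
    obtain ⟨i, hi⟩ := hx.2.2.2
    rw [chain_of_Ef hN hx.1 hx.2.1 h, sub_self, abs_zero] at hi
    linarith
  exact ⟨η, hη, fun x a b c d => h2 x ⟨a, b, c, d⟩⟩

end Vale.Agent.P353.SC
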