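import Vale.Agent.P353.SId
import Vale.Agent.P353.GMyers

open MeasureTheory NormedSpace
open Complex (I)
open scoped InnerProductSpace ContDiff

noncomputable section
namespace Vale.Agent.P353.SC
variable {V F : Type} [NormedAddCommGroup V] [InnerProductSpace ℝ V] [FiniteDimensional ℝ V]
  [MeasurableSpace V] [BorelSpace V]
  [NormedAddCommGroup F] [InnerProductSpace ℂ F] [CompleteSpace F]

theorem sfar_tri {S : Type} [NormedAddCommGroup S] [InnerProductSpace ℝ S] (A B : S →L[ℝ] S) :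
    ‖A‖ ≤ ‖A - B‖ + ‖B‖ := by simpa using norm_add_le (A - B) B

theorem sfar_cont {S X : Type} [NormedAddCommGroup S] [InnerProductSpace ℝ S] [TopologicalSpace X]
    {T : X → S →L[ℝ] S} (h : Continuous T) : Continuous fun x => ‖T x‖ := h.norm

/-- pointwise criterion -/
theorem sfar_good (M : Mod V F) (P : Par) {W : Set (EE V)} {l0 : ℝ} (h0 : 0 ≤ l0)
    (h : ∀ lam, l0 ≤ lam → ∀ x ∈ W,
      1 + Module.finrank ℝ (SS V) * ‖Lam P M.L x‖ ≤ lam / 2 * ‖sv P M.L x‖ ^ 2) : Good M P W := by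
  refine ⟨1, one_pos, l0, fun lam hl φ hφ hs => ?_⟩
  have hl0 : 0 ≤ lam := h0.trans hl
  obtain ⟨σ, hσ⟩ := M.C.spin_clm
  have c1 := continuous_Lam P M.L
  have c2 := (contDiff_sv P M.L).continuous
  have c3 : Continuous fun x => lam * (Module.finrank ℝ (SS V) * ‖Lam P M.L x‖) :=
    continuous_const.mul (continuous_const.mul (sfar_cont c1))
  have c4 : Continuous fun x => lam • (I • M.C.spin (Lam P M.L x)) := by
    simp only [← hσ]; fun_prop
  have c5 : Continuous fun x => lam ^ 2 / 2 * ‖sv P M.L x‖ ^ 2 := by fun_prop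
  have a1 := abs_opf_le hφ c3.continuousOn c4.continuousOn fun x _ => by
    rw [norm_smul, norm_smul, Complex.norm_I, one_mul, Real.norm_of_nonneg hl0]
    exact mul_le_mul_of_nonneg_left (M.C.norm_spin_le _) hl0
  have a2 := wt_mono hφ (continuous_const (y := lam).add c3).continuousOn c5.continuousOn
    fun x hx => by
      have := mul_le_mul_of_nonneg_left (h lam hl x (hs hx)) hl0
      simp only [Pi.add_apply]
      nlinarith
  have a3 := wt_add hφ (continuous_const (y := lam)).continuousOn c3.continuousOn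
  rw [wt_const] at a3
  rw [q_eq, sch]
  have a4 := kin_nonneg φ
  have a5 := (abs_le.1 a1).1
  have a6 : wt ((fun _ => lam) + fun x => lam * (Module.finrank ℝ (SS V) * ‖Lam P M.L x‖)) φ = _ :=
    a3
  linarith

/-- the potential `lam² ‖sv‖² / 2` dominates (`abs_opf_le`) -/
theorem good_of_ne (M : Mod V F) (P : Par) {x0 : EE V} (h : sv P M.L x0 ≠ 0) :
    ∃ W, IsOpen W ∧ x0 ∈ W ∧ Good M P W := by
  have c1 := continuous_Lam P M.L
  have c2 := (contDiff_sv P M.L).continuous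
  have hp : 0 < ‖sv P M.L x0‖ := norm_pos_iff.2 h
  set a := ‖sv P M.L x0‖
  set b := ‖Lam P M.L x0‖ + 1
  have hb : 0 < b := by positivity
  refine ⟨{x | a / 2 < ‖sv P M.L x‖} ∩ {x | ‖Lam P M.L x‖ < b},
    (isOpen_lt continuous_const c2.norm).inter (isOpen_lt (sfar_cont c1) continuous_const),
    ⟨half_lt_self hp, lt_add_one ‖Lam P M.L x0‖⟩,
    sfar_good M P (l0 := 8 * (1 + Module.finrank ℝ (SS V) * b) / a ^ 2) (by positivity)
      fun lam hl x hx => ?_⟩
  have a1 : (a / 2) ^ 2 ≤ ‖sv P M.L x‖ ^ 2 := pow_le_pow_left₀ (by positivity) (le_of_lt hx.1) 2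
  have a2 : (Module.finrank ℝ (SS V) : ℝ) * ‖Lam P M.L x‖ ≤ Module.finrank ℝ (SS V) * b :=
    mul_le_mul_of_nonneg_left (le_of_lt hx.2) (Nat.cast_nonneg _)
  have hl0 : 0 ≤ lam := le_trans (by positivity) hl
  rw [div_le_iff₀ (by positivity)] at hl
  nlinarith [mul_le_mul_of_nonneg_left a1 hl0]

/-- `Par.coercive` with `mu = 1`, `Lam_lip` -/
theorem good_far (M : Mod V F) (P : Par) : ∃ R > 0, Good M P {x | R ≤ ‖x‖} := by
  obtain ⟨c, hc, C, hco⟩ := P.coercive M.L one_pos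
  obtain ⟨K, hK, hL⟩ := Lam_lip P M.L
  set d : ℝ := ((Module.finrank ℝ (SS V) : ℕ) : ℝ)
  have hd : 0 ≤ d := Nat.cast_nonneg _
  set b := ‖Lam P M.L 0‖
  have hb : 0 ≤ b := ContinuousLinearMap.opNorm_nonneg _
  refine ⟨max 1 (2 * |C| / c), by positivity, sfar_good M P
    (l0 := 4 * (1 + d * (K + b)) / c) (by positivity) fun lam hl x hx => ?_⟩
  have h1 : 1 ≤ ‖x‖ := (le_max_left _ _).trans hx
  have h2 : 2 * |C| / c ≤ ‖x‖ := (le_max_right _ _).trans hx
  rw [div_le_iff₀ hc] at h2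
  have hl0 : 0 ≤ lam := le_trans (by positivity) hl
  rw [div_le_iff₀ hc] at hl
  have a1 := hco x
  rw [one_smul, one_smul] at a1
  have a2 := pot_nonneg M.L x
  have a3 : ‖x‖ ≤ ‖x‖ ^ 2 := by nlinarith
  have a4 : c / 2 * ‖x‖ ≤ ‖sv P M.L x‖ ^ 2 := by
    have := le_abs_self C
    change _ ≤ ‖sv P M.L x‖ ^ 2 at a1
    nlinarith [mul_le_mul_of_nonneg_left a3 hc.le, mul_nonneg hc.le a2]
  have a5 : ‖Lam P M.L x‖ ≤ (K + b) * ‖x‖ := by
    have e1 := hL x 0
    have e2 := sfar_tri (Lam P M.L x) (Lam P M.L 0)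
    rw [sub_zero] at e1
    nlinarith
  have a6 := mul_le_mul_of_nonneg_left a5 hd
  have a7 := mul_le_mul_of_nonneg_left a4 hl0
  have a8 := mul_le_mul_of_nonneg_right hl (norm_nonneg x)
  nlinarith

end Vale.Agent.P353.SC
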