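import Vale.Agent.P353.SBase
import Vale.Agent.P353.GChart

open MeasureTheory NormedSpace
open Complex (I)
open scoped InnerProductSpace ContDiff

noncomputable section
namespace Vale.Agent.P353.SC
variable {V : Type} [NormedAddCommGroup V] [InnerProductSpace ℝ V] [FiniteDimensional ℝ V]
  {L : CL V}

/-- the normal space as a submodule -/
def nsub (L : CL V) (p : EE V) : Submodule ℝ (EE V) where
  carrier := {n | Nrm L p n}
  add_mem' := fun {a b} ha hb ξ => by rw [inner_add_right, ha ξ, hb ξ, add_zero]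
  zero_mem' := fun ξ => inner_zero_right _
  smul_mem' := fun c a ha ξ => by rw [inner_smul_right, ha ξ, mul_zero]

theorem isN_nsub (L : CL V) (p : EE V) : IsN L p (nsub L p).subtypeL := ⟨fun _ _ => rfl, fun t => t.2, fun n hn => ⟨⟨n, hn⟩, rfl⟩⟩

/-- the tangent map of the orbit -/
def SSlice_tan (L : CL V) (p : EE V) : V →ₗ[ℝ] EE V where
  toFun ξ := lift (L.br ξ) p
  map_add' a b := by ext i; simp
  map_smul' a b := by ext i; simp

theorem bij_nsub {p : EE V} (hc : ∀ ξ, lift (L.br ξ) p = 0 → ξ = 0) :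
    Function.Bijective fun y : V × nsub L p => lift (L.br y.1) p + (y.2 : EE V) := by
  constructor
  · rintro ⟨ξ, n⟩ ⟨ξ', n'⟩ h
    have h1 : SSlice_tan L p (ξ - ξ') = ((n' - n : nsub L p) : EE V) := by
      rw [map_sub, Submodule.coe_sub, sub_eq_sub_iff_add_eq_add, add_comm (n' : EE V)]
      exact h
    have h2 : ⟪SSlice_tan L p (ξ - ξ'), ((n' - n : nsub L p) : EE V)⟫_ℝ = 0 := (n' - n).2 _
    rw [← h1, inner_self_eq_zero] at h2
    rw [h2, eq_comm, Submodule.coe_eq_zero, sub_eq_zero] at h1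
    rw [sub_eq_zero.1 (hc _ h2), h1]
  · intro x
    obtain ⟨_, ⟨ξ, rfl⟩, n, hn, rfl⟩ :=
      (LinearMap.range (SSlice_tan L p)).exists_add_mem_mem_orthogonal x
    exact ⟨(ξ, ⟨n, fun η => hn _ ⟨η, rfl⟩⟩), rfl⟩

theorem SSlice_ex0 (L : CL V) : L.ex 0 = 1 := by rw [CL.ex, map_zero, GChart_zero]

theorem SSlice_chart {T : Type} [NormedAddCommGroup T] [NormedSpace ℝ T] [FiniteDimensional ℝ T]
    (p : EE V) (j : T →L[ℝ] EE V)
    (hb : Function.Bijective fun y : V × T => lift (L.br y.1) p + j y.2) :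
    ∃ F : OpenPartialHomeomorph (V × T) (EE V), 0 ∈ F.source ∧ p ∈ F.target ∧ F.symm p = 0 ∧
      ∀ y, F y = lift (L.ex y.1) (p + j y.2) := by
  have hs : ContDiff ℝ ∞ fun y : V × T => lift (L.ex y.1) (p + j y.2) := by
    refine (contDiff_piLp 2).2 fun i => ?_
    have h1 : ContDiff ℝ ∞ fun y : V × T => expL (L.br y.1) :=
      contDiff_expL.comp (L.br.contDiff.comp contDiff_fst)
    have h2 : ContDiff ℝ ∞ fun y : V × T => (p + j y.2) i :=
      (PiLp.proj (𝕜 := ℝ) 2 (fun _ : Fin 9 => V) i).contDiff.comp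
        (contDiff_const.add (j.contDiff.comp contDiff_snd))
    exact h1.clm_apply h2
  let e : (V × T) ≃L[ℝ] EE V := (LinearEquiv.ofBijective
    ((SSlice_tan L p).coprod j.toLinearMap) hb).toContinuousLinearEquiv
  have hd : HasFDerivAt (fun y : V × T => lift (L.ex y.1) (p + j y.2))
      (e : (V × T) →L[ℝ] EE V) 0 := by
    have h3 := (hs.differentiable (by simp) 0).hasFDerivAt
    refine h3.congr_fderiv (ContinuousLinearMap.ext fun z => ?_)
    ext1 i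
    have h0 := (PiLp.proj (𝕜 := ℝ) 2 (fun _ : Fin 9 => V) i).hasFDerivAt.comp 0 h3
    have h1 : HasFDerivAt (expL : (V →L[ℝ] V) → V →L[ℝ] V) (ContinuousLinearMap.id ℝ _)
        (L.br.comp (ContinuousLinearMap.fst ℝ V T) 0) := by
      rw [map_zero]
      exact hasFDerivAt_expL_zero
    have h2 := (PiLp.proj (𝕜 := ℝ) 2 (fun _ : Fin 9 => V) i).hasFDerivAt.comp (0 : V × T)
      ((j.comp (ContinuousLinearMap.snd ℝ V T)).hasFDerivAt.const_add p)
    have h4 := congrArg (· z) (h0.unique ((h1.comp 0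
      (L.br.comp (ContinuousLinearMap.fst ℝ V T)).hasFDerivAt).clm_apply h2))
    refine h4.trans ?_
    simp [e, SSlice_tan, GChart_zero, add_comm]
  have h0 := hs.contDiffAt.mem_toOpenPartialHomeomorph_source hd (by simp)
  have hF : ∀ y, hs.contDiffAt.toOpenPartialHomeomorph _ hd (by simp) y =
      lift (L.ex y.1) (p + j y.2) := fun _ => rfl
  generalize hs.contDiffAt.toOpenPartialHomeomorph _ hd (by simp) = F at h0 hF
  have hp : F 0 = p := by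
    rw [hF, Prod.fst_zero, Prod.snd_zero, SSlice_ex0, lift_one, map_zero, add_zero]
  exact ⟨F, h0, hp ▸ F.map_source h0, hp ▸ F.left_inv h0, hF⟩

/-- inverse function theorem for `(ξ, n) ↦ lift (ex ξ) (p + n)` at `0` (`contDiff_expL`,
`hasFDerivAt_expL_zero`, `HasStrictFDerivAt.toOpenPartialHomeomorph`) -/
theorem chart_nsub {p : EE V} (hc : ∀ ξ, lift (L.br ξ) p = 0 → ξ = 0) : ∃ a > 0,
    (∀ (ξ ξ' : V) (n n' : nsub L p), ‖ξ‖ < a → ‖n‖ < a → ‖ξ'‖ < a → ‖n'‖ < a →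
      lift (L.ex ξ) (p + (n : EE V)) = lift (L.ex ξ') (p + (n' : EE V)) → ξ = ξ' ∧ n = n') ∧
    ∀ b > 0, ∃ ρ > 0, ∀ x, ‖x - p‖ < ρ →
      ∃ (ξ : V) (n : nsub L p), ‖ξ‖ < b ∧ ‖n‖ < b ∧ x = lift (L.ex ξ) (p + (n : EE V)) := by
  obtain ⟨F, h0, ht, h1, hF⟩ := SSlice_chart p (nsub L p).subtypeL (bij_nsub hc)
  obtain ⟨a, ha, h2⟩ := Metric.mem_nhds_iff.1 (F.open_source.mem_nhds h0)
  have h8 : ∀ (ξ : V) (n : nsub L p), ‖ξ‖ < a → ‖n‖ < a → (ξ, n) ∈ F.source := fun ξ n h3 h4 =>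
    h2 (by rw [mem_ball_zero_iff, Prod.norm_mk]; exact max_lt h3 h4)
  refine ⟨a, ha, fun ξ ξ' n n' h3 h4 h5 h6 h7 => ?_, fun b hb => ?_⟩
  · have h9 : F (ξ, n) = F (ξ', n') := by
      rw [hF, hF]
      exact h7
    exact Prod.mk.inj (F.injOn (h8 _ _ h3 h4) (h8 _ _ h5 h6) h9)
  · have h9 : Metric.ball 0 b ∈ nhds (F.symm p) := by
      rw [h1]
      exact Metric.ball_mem_nhds _ hb
    obtain ⟨ρ, hρ, h3⟩ := Metric.mem_nhds_iff.1 (Filter.inter_mem (F.open_target.mem_nhds ht)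
      ((F.continuousAt_symm ht).preimage_mem_nhds h9))
    refine ⟨ρ, hρ, fun x hx => ?_⟩
    obtain ⟨h4, h5⟩ := h3 (mem_ball_iff_norm.2 hx)
    have h6 : ‖F.symm x‖ < b := mem_ball_zero_iff.1 h5
    exact ⟨(F.symm x).1, (F.symm x).2, (norm_fst_le _).trans_lt h6, (norm_snd_le _).trans_lt h6,
      (F.right_inv h4).symm.trans (hF _)⟩

/-- The normal slice, with `c = ⊤`.  For `stab`: if `g (p + n) = p + n'` then `g p` is close to
`p`, so `g p = ex ξ (p + m)` with small `ξ`, `m`; `p + m` is in the orbit, so `m = 0`; then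
`ex (-ξ) * g` fixes `p`, so `g = ex ξ`, and injectivity of the chart gives `ξ = 0`, `g = 1`. -/
theorem exists_slice {p : EE V} (hc : ∀ ξ, lift (L.br ξ) p = 0 → ξ = 0)
    (hs : ∀ g ∈ L.G, lift g p = p → g = 1)
    (hn : ∃ ρ > 0, ∀ n, Nrm L p n → ‖n‖ < ρ → p + n ∈ orb L p → n = 0) :
    ∃ σ : Slice L (nsub L p), σ.p = p ∧ σ.j = (nsub L p).subtypeL := by
  obtain ⟨a, ha, h1, h2⟩ := chart_nsub hc
  obtain ⟨ρ₀, hρ₀, hn⟩ := hn
  obtain ⟨ρ, hρ, h2⟩ := h2 (min a ρ₀) (lt_min ha hρ₀)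
  refine ⟨⟨p, ⊤, (nsub L p).subtypeL, min a (ρ / 2), lt_min ha (half_pos hρ), ?_,
    fun η hη t => ⟨0, ?_⟩, fun g hg t t' h3 h4 h5 => ?_⟩, rfl, rfl⟩
  · refine ⟨fun y y' h => ?_, fun x => ?_⟩
    · have h3 := Prod.mk.inj ((bij_nsub hc).1 (a₁ := (y.1, y.2)) (a₂ := (y'.1, y'.2)) h)
      exact Prod.ext (Subtype.ext h3.1) h3.2
    · obtain ⟨y, hy⟩ := (bij_nsub hc).2 x
      exact ⟨(⟨y.1, trivial⟩, y.2), hy⟩
  · rw [Submodule.top_orthogonal_eq_bot, Submodule.mem_bot] at hη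
    ext i
    simp [hη]
  · rw [lt_min_iff] at h3 h4
    obtain ⟨ξ, m, h6, h7, h8⟩ := h2 (lift g p) (by
      rw [map_add, ← eq_sub_iff_add_eq] at h5
      rw [h5, sub_right_comm, add_sub_cancel_left]
      refine (norm_sub_le _ _).trans_lt ?_
      rw [CL.G_norm hg]
      linarith [h3.2, h4.2])
    rw [lt_min_iff] at h6 h7
    have h9 : lift (L.ex (-ξ) * g) p = p + m := by
      rw [lift_mul, h8, ← lift_mul, (L.ex_neg ξ).2, lift_one]
    have h10 := CL.mul_mem (L.ex_mem (-ξ)) hg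
    rw [hn m m.2 h7.2 ⟨_, h10, h9⟩, add_zero] at h9
    have h11 : g = L.ex ξ := by
      rw [← mul_one (L.ex ξ), ← hs _ h10 h9, ← mul_assoc, (L.ex_neg ξ).1, one_mul]
    have h12 := h1 ξ 0 t t' h6.1 h3.1 (by rwa [norm_zero]) h4.1 (by
      rw [SSlice_ex0, lift_one, ← h11]
      exact h5)
    rw [h11, h12.1, SSlice_ex0]
    exact ⟨lift_one _, fun t => ⟨t, lift_one _⟩⟩

theorem orb_G (p : EE V) : ∀ g ∈ L.G, ∀ y ∈ orb L p, lift g y ∈ orb L p :=
  fun _ hg _ ⟨_, hk, h⟩ => ⟨_, CL.mul_mem hg hk, by rw [lift_mul, h]⟩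
theorem mem_orb (p : EE V) : p ∈ orb L p := ⟨1, L.one_mem, lift_one p⟩

variable {T : Type} [NormedAddCommGroup T] [InnerProductSpace ℝ T] [FiniteDimensional ℝ T]

/-- a tube contains a uniform neighbourhood of the orbit -/
theorem tube_nhds (σ : Slice L T) {r : ℝ} (hr : 0 < r) (ho : IsOpen (L.sat (σ.pts r))) :
    ∃ ρ > 0, ∀ x, Metric.infDist x (orb L σ.p) ≤ ρ → x ∈ L.sat (σ.pts r) := by
  have hp : σ.p ∈ L.sat (σ.pts r) := CL.subset_sat _ ⟨0, by simpa using hr, by simp⟩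
  obtain ⟨ε, hε, h⟩ := Metric.isOpen_iff.1 ho _ hp
  refine ⟨ε / 2, half_pos hε, fun x hx => ?_⟩
  obtain ⟨_, ⟨g, hg, rfl⟩, h1⟩ :=
    (Metric.infDist_lt_iff ⟨_, mem_orb σ.p⟩).1 (hx.trans_lt (half_lt_self hε))
  obtain ⟨k, hk, -, h2⟩ := CL.G_inv hg
  refine (CL.sat_lift hk x).1 (h (mem_ball_iff_norm.2 ?_))
  rw [dist_eq_norm, ← CL.G_norm hk, map_sub, ← lift_mul, h2, lift_one] at h1
  exact h1

/-- points of the slice that lie in a thinner tube (`σ.stab`, `G_norm`) -/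
theorem slice_thin (σ : Slice L T) {r : ℝ} (hr : r ≤ σ.r0) {t : T} (ht : ‖σ.j t‖ < σ.r0)
    (h : σ.p + σ.j t ∈ L.sat (σ.pts r)) : ‖σ.j t‖ < r := by
  obtain ⟨g, hg, t', h1, h2⟩ := h
  have h3 := (σ.stab g hg t t' ht (h1.trans_le hr) h2).1
  rw [map_add, h3, add_right_inj] at h2
  rwa [← CL.G_norm hg, h2]

end Vale.Agent.P353.SC
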