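import Vale.Agent.P353.SGood
import Vale.Agent.P353.SSlice
import Vale.Agent.P353.AScale

open MeasureTheory NormedSpace
open Complex (I)
open scoped InnerProductSpace ContDiff

noncomputable section
namespace Vale.Agent.P353.SC
variable {V F : Type} [NormedAddCommGroup V] [InnerProductSpace ℝ V] [FiniteDimensional ℝ V]
  [MeasurableSpace V] [BorelSpace V]
  [NormedAddCommGroup F] [InnerProductSpace ℂ F] [CompleteSpace F]

/-- scaling: `lam = mu ^ 3`, `R = mu` in `q_scale` -/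
theorem oneLow_of_scale (M : Mod V F) (P : Par) {lam c : ℝ} (hl : 0 < lam) (hc : 0 < c)
    (ℓ : (EE V → F) → ℂ)
    (h1 : ∀ φ χ, Tst φ → Tst χ → ∀ a b : ℂ, ℓ (a • φ + b • χ) = a * ℓ φ + b * ℓ χ)
    (h2 : ∃ φ, Tst φ ∧ M.Inv φ ∧ M.RInv P.toGam Amat φ ∧ M.q P lam lam φ < c / 4 * n2 φ)
    (h3 : ∀ φ, Tst φ → M.Inv φ → ℓ φ = 0 → c * n2 φ ≤ M.q P lam lam φ) :
    ∃ mu > 0, M.OneLow P mu := by
  obtain ⟨mu, hmu, rfl⟩ : ∃ mu : ℝ, 0 < mu ∧ mu ^ 3 = lam :=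
    ⟨lam ^ (((3 : ℕ) : ℝ)⁻¹), Real.rpow_pos_of_pos hl _, Real.rpow_inv_natCast_pow hl.le (by norm_num)⟩
  have hn : 0 < (mu ^ Module.finrank ℝ (EE V))⁻¹ := by positivity
  have hq : ∀ φ : EE V → F, Tst φ → M.q P (mu ^ 3) (mu ^ 3) (fun x => φ (mu • x)) =
      (mu ^ Module.finrank ℝ (EE V))⁻¹ * mu ^ 2 * M.q P 1 mu φ := fun φ h => by
    have a := M.q_scale P 1 mu h hmu
    rwa [one_mul, ← pow_succ'] at a
  have hm2 : 0 < mu ^ 2 := by positivity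
  refine ⟨mu, hmu, c / mu ^ 2, by positivity, fun φ => ℓ fun x => φ (mu • x),
    fun φ χ hφ hχ a b => h1 _ _ (hφ.scale hmu) (hχ.scale hmu) a b, ?_, fun φ hφ hi _ h0 => ?_⟩
  · obtain ⟨φ, hφ, hi, hr, hlt⟩ := h2
    have ht := hφ.scale (inv_pos.2 hmu)
    refine ⟨fun x => φ (mu⁻¹ • x), ht, hi.scale _, hr.scale _, ?_⟩
    have a := hq _ ht
    have b := n2_scale (fun x => φ (mu⁻¹ • x)) hmu
    simp only [inv_smul_smul₀ hmu.ne'] at a b
    rw [a, b, mul_assoc, mul_left_comm (c / 4), mul_lt_mul_iff_right₀ hn] at hlt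
    rw [div_right_comm, div_mul_eq_mul_div, lt_div_iff₀ hm2, mul_comm]
    exact hlt
  · have a := h3 _ (hφ.scale hmu) (hi.scale mu) h0
    rw [hq φ hφ, n2_scale φ hmu, mul_assoc, mul_left_comm, mul_le_mul_iff_right₀ hn] at a
    rw [div_mul_eq_mul_div, div_le_iff₀ hm2, mul_comm _ (mu ^ 2)]
    exact a

/-- `exists_angle` for the orbit with `s = ρ / 4`, `q_angle`, `ℓ' φ = ℓ (cos ϑ • φ)` -/
theorem glue (M : Mod V F) (P : Par) (p : EE V)
    (hin : ∃ c > 0, ∃ ρ > 0, ∀ lam > 0, ∃ ℓ : (EE V → F) → ℂ,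
      (∀ φ χ, Tst φ → Tst χ → ∀ a b : ℂ, ℓ (a • φ + b • χ) = a * ℓ φ + b * ℓ χ) ∧
      ∀ φ, Tst φ → M.Inv φ → tsupport φ ⊆ {x | Metric.infDist x (orb M.L p) ≤ ρ} → ℓ φ = 0 →
        c * lam * n2 φ ≤ M.q P lam lam φ)
    (hout : ∀ s > 0, Good M P {x | s ≤ Metric.infDist x (orb M.L p)})
    (htr : ∀ η > 0, ∃ l0 : ℝ, ∀ lam, l0 ≤ lam → ∃ φ : EE V → F, Tst φ ∧ M.Inv φ ∧
      M.RInv P.toGam Amat φ ∧ M.q P lam lam φ < η * lam * n2 φ) :
    ∃ mu > 0, M.OneLow P mu := by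
  obtain ⟨c, hc, ρ, hρ, hin⟩ := hin
  have hs : 0 < ρ / 4 := by positivity
  obtain ⟨ϑ, K, hϑ, hsi, hK, hcos, hsin⟩ := exists_angle (F := F) M.L (orb_G p) hs
  obtain ⟨η, hη, l0, hout⟩ := hout _ hs
  have hc1 : 0 < min c η := lt_min hc hη
  obtain ⟨l1, htr⟩ := htr (min c η / 8) (by positivity)
  obtain ⟨lam, hl, h0, h1, h2⟩ : ∃ lam : ℝ, 0 < lam ∧ l0 ≤ lam ∧ l1 ≤ lam ∧ K ≤ min c η * lam := by
    refine ⟨max (max l0 l1) (max 1 (K / min c η)), ?_, ?_, ?_, ?_⟩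
    · exact one_pos.trans_le ((le_max_left _ _).trans (le_max_right _ _))
    · exact (le_max_left _ _).trans (le_max_left _ _)
    · exact (le_max_right _ _).trans (le_max_left _ _)
    · rw [mul_comm, ← div_le_iff₀ hc1]
      exact (le_max_right _ _).trans (le_max_right _ _)
  obtain ⟨ℓ, hlin, hlow⟩ := hin lam hl
  refine oneLow_of_scale M P hl (c := min c η * lam / 2) (by positivity)
    (fun φ => ℓ fun x => Real.cos (ϑ x) • φ x) (fun φ χ hφ hχ a b => ?_) ?_ fun φ hφ hi hz => ?_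
  · refine Eq.trans (congrArg ℓ (funext fun x => ?_))
      (hlin _ _ (q_angle M P lam hϑ hK hφ).1 (q_angle M P lam hϑ hK hχ).1 a b)
    simp only [Pi.add_apply, Pi.smul_apply, smul_add]
    rw [smul_comm _ a, smul_comm _ b]
  · obtain ⟨φ, hφ, hi, hr, hlt⟩ := htr lam h1
    refine ⟨φ, hφ, hi, hr, hlt.trans_eq ?_⟩
    ring
  · obtain ⟨t1, t2, hn, hq⟩ := q_angle M P lam hϑ hK hφ
    have a := hlow _ t1 (hi.smul (a := fun x => Real.cos (ϑ x)) fun ξ x => congrArg _ (hsi ξ x))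
      (fun x hx => le_of_le_of_eq (hcos φ hx).2 (mul_div_cancel₀ ρ four_ne_zero)) hz
    have b := hout lam h0 _ t2 fun x hx => (hsin φ hx).2
    have n1 : 0 ≤ n2 fun x => Real.cos (ϑ x) • φ x := integral_nonneg fun x => sq_nonneg _
    have n2' : 0 ≤ n2 fun x => Real.sin (ϑ x) • φ x := integral_nonneg fun x => sq_nonneg _
    have n3 : 0 ≤ n2 φ := integral_nonneg fun x => sq_nonneg _
    have e1 := mul_le_mul_of_nonneg_right (mul_le_mul_of_nonneg_right (min_le_left c η) hl.le) n1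
    have e2 := mul_le_mul_of_nonneg_right (mul_le_mul_of_nonneg_right (min_le_right c η) hl.le) n2'
    have e3 := mul_le_mul_of_nonneg_right h2 n3
    have e4 := congrArg (min c η * lam * ·) hn
    simp only [mul_add] at e4
    linarith

end Vale.Agent.P353.SC
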