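import Vale.Agent.P353.SBase

open MeasureTheory NormedSpace
open Complex (I)
open scoped InnerProductSpace ContDiff

noncomputable section
namespace Vale.Agent.P353.SC
variable (P : Par)

/-! The adapted spinor basis `f_k = γ^k e` (chirality `+1` for `- σ γ 8`) and `γ^0 γ^k e`.
With `I_a = γ (p1 a) γ (p2 a)` one has `I_a e = χ` for all `a`; hence for `p = p1 b`, `q = p2 b`,
`b ≠ 0`: `γ 1 e = γ 0 γ p γ q e`, `γ 1 γ p e = γ 0 γ q e`, `γ 1 γ q e = - γ 0 γ p e`. -/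

open Matrix

theorem sspin_sw {i j : Fin 9} (h : i ≠ j) (v : R16) :
    P.g i *ᵥ P.g j *ᵥ v = -(P.g j *ᵥ P.g i *ᵥ v) := by
  rw [mulVec_mulVec, P.anti h, neg_mulVec, mulVec_mulVec]

theorem sspin_ne : ∀ a b : Fin 4, p2 a ≠ p1 b := by decide
theorem sspin_p1 : ∀ a b : Fin 4, p1 a = p1 b ↔ a = b := by decide
theorem sspin_p2 : ∀ a b : Fin 4, p2 a = p2 b ↔ a = b := by decide

theorem sspin_A (a : Fin 4) (l : Fin 9) : Amat l (p1 a) = (if l = p2 a then eps a else 0) ∧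
    Amat l (p2 a) = if l = p1 a then -eps a else 0 := by
  simp only [Amat, plane, Matrix.sum_apply, Matrix.smul_apply, Matrix.sub_apply,
    Matrix.single_apply, sspin_ne, sspin_p1, sspin_p2, (sspin_ne _ _).symm, and_false, if_false,
    zero_sub, sub_zero, smul_eq_mul]
  constructor
  · rw [Finset.sum_eq_single a (fun b _ hb => by simp [hb]) (by simp)]
    simp [eq_comm]
  · rw [Finset.sum_eq_single a (fun b _ hb => by simp [hb]) (by simp)]
    by_cases h : l = p1 a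
    · simp [h]
    · simp [h, Ne.symm h]

theorem sspin_c1 (a : Fin 4) (v : R16) : P.hat Amat *ᵥ P.g (p1 a) *ᵥ v =
    P.g (p1 a) *ᵥ P.hat Amat *ᵥ v + eps a • P.g (p2 a) *ᵥ v := by
  have h := P.hat_comm Amat_transpose (p1 a)
  simp only [(sspin_A a _).1, ite_smul, zero_smul, Finset.sum_ite_eq', Finset.mem_univ,
    if_true] at h
  rw [mulVec_mulVec, mulVec_mulVec, eq_add_of_sub_eq' h, add_mulVec, smul_mulVec]

theorem sspin_c2 (a : Fin 4) (v : R16) : P.hat Amat *ᵥ P.g (p2 a) *ᵥ v =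
    P.g (p2 a) *ᵥ P.hat Amat *ᵥ v + (-eps a) • P.g (p1 a) *ᵥ v := by
  have h := P.hat_comm Amat_transpose (p2 a)
  simp only [(sspin_A a _).2, ite_smul, zero_smul, Finset.sum_ite_eq', Finset.mem_univ,
    if_true] at h
  rw [mulVec_mulVec, mulVec_mulVec, eq_add_of_sub_eq' h, add_mulVec, smul_mulVec]

theorem sspin_a1 (a : Fin 4) :
    P.hat Amat *ᵥ P.g (p1 a) *ᵥ P.e = eps a • P.g (p2 a) *ᵥ P.e := by
  rw [sspin_c1, P.hat_e.1, mulVec_zero, zero_add]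

theorem sspin_a2 (a : Fin 4) :
    P.hat Amat *ᵥ P.g (p2 a) *ᵥ P.e = (-eps a) • P.g (p1 a) *ᵥ P.e := by
  rw [sspin_c2, P.hat_e.1, mulVec_zero, zero_add]

theorem sspin_chi (a : Fin 4) : P.g (p1 a) *ᵥ P.g (p2 a) *ᵥ P.e = P.χ := by
  rw [mulVec_mulVec, P.hχ]

theorem sspin_i1 {a b : Fin 4} (h : a ≠ b) :
    P.g (p1 b) *ᵥ P.g (p2 b) *ᵥ P.g (p1 a) *ᵥ P.e = P.g (p2 a) *ᵥ P.e := by
  rw [sspin_sw P (sspin_ne b a), mulVec_neg, sspin_sw P fun e => h ((sspin_p1 _ _).1 e).symm,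
    neg_neg, sspin_chi, ← sspin_chi P a, gx_gg]

theorem sspin_i2 {a b : Fin 4} (h : a ≠ b) :
    P.g (p1 b) *ᵥ P.g (p2 b) *ᵥ P.g (p2 a) *ᵥ P.e = -(P.g (p1 a) *ᵥ P.e) := by
  rw [sspin_sw P fun e => h ((sspin_p2 _ _).1 e).symm, mulVec_neg,
    sspin_sw P (sspin_ne a b).symm, neg_neg, sspin_chi, ← sspin_chi P a,
    sspin_sw P (sspin_ne a a), gx_gg]

theorem sspin_b1 {a : Fin 4} (h : a ≠ 0) : P.hat Amat *ᵥ P.g (p1 0) *ᵥ P.g (p1 a) *ᵥ P.e =
    (eps a + eps 0) • P.g (p1 0) *ᵥ P.g (p2 a) *ᵥ P.e := by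
  rw [sspin_c1, sspin_a1, mulVec_smul, add_smul, ← sspin_i1 P h, gx_gg]

theorem sspin_b2 {a : Fin 4} (h : a ≠ 0) : P.hat Amat *ᵥ P.g (p1 0) *ᵥ P.g (p2 a) *ᵥ P.e =
    (-(eps a + eps 0)) • P.g (p1 0) *ᵥ P.g (p1 a) *ᵥ P.e := by
  have h1 := congrArg (fun v => P.g (p1 0) *ᵥ v) (sspin_i2 P h)
  simp only [gx_gg, mulVec_neg] at h1
  rw [sspin_c1, sspin_a2, mulVec_smul, h1, neg_add, add_smul, smul_neg, neg_smul (eps 0)]

theorem sspin_idx (k : Fin 8) : ∃ a : Fin 4, (k.castSucc = p1 a ∨ k.castSucc = p2 a) ∧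
    uw (.inl k) = |eps a| ∧ uw (.inr k) = if a = 0 then 0 else eps a + eps 0 := by
  fin_cases k
  · exact ⟨0, .inl rfl, by simp [uw, eps], by simp [uw]⟩
  · exact ⟨0, .inr rfl, by simp [uw, eps], by simp [uw]⟩
  · exact ⟨1, .inl rfl, by simp [uw, eps], by norm_num [uw, eps]⟩
  · exact ⟨1, .inr rfl, by simp [uw, eps], by norm_num [uw, eps]⟩
  · exact ⟨2, .inl rfl, by simp [uw, eps], by simp [uw, eps]⟩
  · exact ⟨2, .inr rfl, by simp [uw, eps], by simp [uw, eps]⟩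
  · exact ⟨3, .inl rfl, by simp [uw, eps], by simp [uw, eps]; norm_num⟩
  · exact ⟨3, .inr rfl, by simp [uw, eps], by simp [uw, eps]; norm_num⟩

theorem sspin_inr (k : Fin 8) : ub P (.inr k) = P.g 0 *ᵥ P.g k.castSucc *ᵥ P.e :=
  (mulVec_mulVec _ _ _).symm

theorem sspin_8 (k : Fin 8) : k.castSucc ≠ 8 := (Fin.castSucc_lt_last k).ne

theorem sspin_chir (k : Fin 8) : P.g 8 *ᵥ ub P (.inr k) = P.σ • ub P (.inr k) := by
  rw [sspin_inr, sspin_sw P (by decide), P.gx_opp (sspin_8 k), mulVec_neg, neg_neg, mulVec_smul]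

theorem sspin_sig : P.σ = 1 ∨ P.σ = -1 := mul_self_eq_one_iff.1 P.hσ

theorem ub_dot (α β : Fin 8 ⊕ Fin 8) : ub P α ⬝ᵥ ub P β = if α = β then 1 else 0 := by
  rcases α with k | k <;> rcases β with l | l
  · simp only [ub, P.dot P.he, Fin.castSucc_inj, Sum.inl.injEq]
  · rw [if_neg Sum.inl_ne_inr, dotProduct_comm]
    exact P.gx_orth (sspin_chir P l) (sspin_8 k)
  · rw [if_neg Sum.inr_ne_inl]
    exact P.gx_orth (sspin_chir P k) (sspin_8 l)
  · rw [sspin_inr, sspin_inr, gx_dot (gx_T _ _), gx_gg, P.dot P.he]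
    simp only [Fin.castSucc_inj, Sum.inr.injEq]
/-- sixteen orthonormal vectors: the matrix with these rows is orthogonal (`mul_eq_one_comm`) -/
theorem ub_complete : ∑ α, Matrix.vecMulVec (ub P α) (ub P α) = 1 := by
  have h : (Matrix.of (ub P)) * (Matrix.of (ub P))ᵀ = 1 := by
    ext α β
    rw [Matrix.one_apply, ← ub_dot P]
    rfl
  rw [← (Matrix.mul_eq_one_comm_of_card_eq _ _ _ (by simp)).1 h]
  ext i j
  simp [Matrix.sum_apply, Matrix.mul_apply, vecMulVec_apply]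
theorem kap_ub (α : Fin 8 ⊕ Fin 8) :
    ((-P.σ) • P.g 8).mulVec (ub P α) = uk α • ub P α := by
  rw [smul_mulVec]
  rcases α with k | k
  · rw [ub, P.gx_opp (sspin_8 k), neg_smul, smul_neg, neg_neg, smul_smul, P.hσ, uk]
  · rw [sspin_chir, smul_smul, neg_mul, P.hσ, uk]
/-- `A^ f_p = ε f_q`, `A^ f_q = -ε f_p`, `A^ γ0 γp e = (6 + ε_b) γ0 γq e`,
`A^ γ0 γq e = -(6 + ε_b) γ0 γp e`, `A^ e = A^ χ = 0` (`hat_comm`, `hat_e`) -/
theorem hat_sq_ub (α : Fin 8 ⊕ Fin 8) :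
    (P.hat Amat * P.hat Amat).mulVec (ub P α) = -(uw α ^ 2) • ub P α := by
  rw [← mulVec_mulVec]
  rcases α with k | k
  · obtain ⟨a, h, h1, -⟩ := sspin_idx k
    rw [h1, sq_abs, ub]
    rcases h with h | h
    · rw [h, sspin_a1, mulVec_smul, sspin_a2, smul_smul, mul_neg, sq]
    · rw [h, sspin_a2, mulVec_smul, sspin_a1, smul_smul, neg_mul, sq]
  · obtain ⟨a, h, -, h1⟩ := sspin_idx k
    rw [h1, sspin_inr]
    split_ifs with ha
    · subst ha
      have h2 : P.hat Amat *ᵥ P.g 0 *ᵥ P.g k.castSucc *ᵥ P.e = 0 := by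
        rcases h with h | h
        · rw [h, show p1 0 = 0 from rfl, gx_gg, P.hat_e.1]
        · rw [h, show (0 : Fin 9) = p1 0 from rfl, sspin_chi, P.hat_e.2]
      rw [h2]
      simp
    · rw [show (0 : Fin 9) = p1 0 from rfl]
      rcases h with h | h
      · rw [h, sspin_b1 P ha, mulVec_smul, sspin_b2 P ha, smul_smul, mul_neg, sq]
      · rw [h, sspin_b2 P ha, mulVec_smul, sspin_b1 P ha, smul_smul, neg_mul, sq]
/-- on the planes of weight six -/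
theorem plane_ub (k : Fin 8) (hk : uw (.inl k) = 6) :
    (P.σ • (P.g (p1 (ap P)) * P.g (p2 (ap P)) * P.hat Amat)).mulVec (ub P (.inl k)) =
      (6 : ℝ) • ub P (.inl k) := by
  obtain ⟨a, h, h1, -⟩ := sspin_idx k
  have h2 : P.g (p1 (ap P)) *ᵥ P.g (p2 (ap P)) *ᵥ P.hat Amat *ᵥ ub P (.inl k) =
      (if a = ap P then eps a else -eps a) • ub P (.inl k) := by
    rw [ub]
    split_ifs with ha
    · rw [← ha]
      rcases h with h | h
      · rw [h, sspin_a1, mulVec_smul, mulVec_smul, gx_gg]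
      · rw [h, sspin_a2, mulVec_smul, mulVec_smul, sspin_sw P (sspin_ne a a), mulVec_neg, gx_gg,
          smul_neg, neg_smul, neg_neg]
    · rcases h with h | h
      · rw [h, sspin_a1, mulVec_smul, mulVec_smul, sspin_i2 P ha, smul_neg, neg_smul]
      · rw [h, sspin_a2, mulVec_smul, mulVec_smul, sspin_i1 P ha]
  rw [smul_mulVec, ← mulVec_mulVec, ← mulVec_mulVec, h2, smul_smul]
  congr 1
  rw [hk] at h1
  rcases sspin_sig P with hs | hs
  · rw [ap, if_pos hs, hs]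
    fin_cases a <;> simp [eps] at h1 ⊢
  · rw [ap, if_neg (show ¬ P.σ = 1 by rw [hs]; norm_num), hs]
    fin_cases a <;> simp [eps] at h1 ⊢
theorem xe_ub (k : Fin 8) : (xe P).mulVec (ub P (.inl k)) = 0 := by
  rw [xe, sub_mulVec, vecMulVec_mulVec, vecMulVec_mulVec, ub, P.χ_dot, P.e_dot,
    if_neg (sspin_8 k)]
  simp
theorem kap_xe : ((-P.σ) • P.g 8) * xe P = -xe P ∧ xe P * ((-P.σ) • P.g 8) = -xe P := by
  have h1 : ((-P.σ) • P.g 8) *ᵥ P.e = -P.e := by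
    rw [smul_mulVec, P.h9, smul_smul, neg_mul, P.hσ, neg_one_smul]
  have h2 : ((-P.σ) • P.g 8) *ᵥ P.χ = -P.χ := by
    rw [smul_mulVec, P.h9χ, smul_smul, neg_mul, P.hσ, neg_one_smul]
  have h3 : ∀ v : R16, v ᵥ* ((-P.σ) • P.g 8) = ((-P.σ) • P.g 8) *ᵥ v := fun v => by
    rw [← mulVec_transpose, transpose_smul, gx_T]
  constructor
  · rw [xe, mul_sub, mul_vecMulVec, mul_vecMulVec, h1, h2, neg_vecMulVec, neg_vecMulVec, neg_sub']
  · rw [xe, sub_mul, vecMulVec_mul, vecMulVec_mul, h3, h3, h1, h2, vecMulVec_neg, vecMulVec_neg,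
      neg_sub']
theorem sum_uk_max (t : ℝ) : ∑ α, uk α * max (uw α) |t| = pint t := by
  have h : max 0 |t| = |t| := max_eq_right (abs_nonneg t)
  simp only [Fintype.sum_sum_type, Fin.sum_univ_eight, uk, uw, pint, Matrix.cons_val, h]
  ring
theorem uw_nat (α : Fin 8 ⊕ Fin 8) : ∃ n : ℕ, uw α = n := by
  rcases α with k | k
  · exact ⟨![6, 6, 5, 5, 6, 6, 5, 5] k, by fin_cases k <;> simp [uw]⟩
  · exact ⟨![0, 0, 11, 11, 0, 0, 1, 1] k, by fin_cases k <;> simp [uw]⟩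

end Vale.Agent.P353.SC
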