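import Vale.Agent.P353.SCov
import Vale.Agent.P353.SSpin

open MeasureTheory NormedSpace
open Complex (I)
open scoped InnerProductSpace ContDiff

noncomputable section
namespace Vale.Agent.P353.SC
variable {V : Type} [NormedAddCommGroup V] [InnerProductSpace ℝ V] [FiniteDimensional ℝ V]
  [MeasurableSpace V] [BorelSpace V] {P : Par} {L : CL V}

theorem inj_mat_tens {n m : ℕ} (M : Matrix (Fin n) (Fin m) ℝ) (u : Fin m → ℝ) (a : V) :
    mat M (tens u a) = tens (M.mulVec u) a := by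
  ext i
  simp [Matrix.mulVec, dotProduct, Finset.sum_smul, mul_smul]

theorem inj_lift_tens {n : ℕ} (g : V →L[ℝ] V) (u : Fin n → ℝ) (a : V) :
    lift g (tens u a) = tens u (g a) := by
  ext i
  simp

theorem inj_tens_smul {n : ℕ} (c : ℝ) (u : Fin n → ℝ) (a : V) :
    tens (c • u) a = c • tens u a := by
  ext i
  simp [mul_smul]

theorem inj_contr_mat {n : ℕ} (M : Matrix (Fin n) (Fin n) ℝ) (u : Fin n → ℝ)
    (v : PiLp 2 fun _ : Fin n => V) : contr u (mat M v) = contr (M.transpose.mulVec u) v := by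
  simp only [contr_apply, mat_apply, Finset.smul_sum, Matrix.mulVec, dotProduct,
    Matrix.transpose_apply, Finset.sum_smul, smul_smul]
  rw [Finset.sum_comm]
  simp [mul_comm]

theorem inj_contr_lift {n : ℕ} (g : V →L[ℝ] V) (u : Fin n → ℝ) (v : PiLp 2 fun _ : Fin n => V) :
    contr u (lift g v) = g (contr u v) := by
  simp

theorem inj_mat_mul {n : ℕ} (M N : Matrix (Fin n) (Fin n) ℝ) (v : PiLp 2 fun _ : Fin n => V) :
    mat (M * N) v = mat M (mat N v) := by
  rw [mat_mul]; rfl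

theorem inj_mat_lift {n : ℕ} (M : Matrix (Fin n) (Fin n) ℝ) (g : V →L[ℝ] V)
    (v : PiLp 2 fun _ : Fin n => V) : mat M (lift g v) = lift g (mat M v) :=
  congrArg (fun T => T v) (mat_lift M g)

theorem inj_mat_smul {n : ℕ} (c : ℝ) (M : Matrix (Fin n) (Fin n) ℝ)
    (v : PiLp 2 fun _ : Fin n => V) : mat (c • M) v = c • mat M v := by
  ext i
  simp [Finset.smul_sum, mul_smul]

theorem inj_mat_neg {n : ℕ} (M : Matrix (Fin n) (Fin n) ℝ)
    (v : PiLp 2 fun _ : Fin n => V) : mat (-M) v = -mat M v := by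
  ext i
  simp

theorem inj_mat_one {n : ℕ} (v : PiLp 2 fun _ : Fin n => V) :
    mat (1 : Matrix (Fin n) (Fin n) ℝ) v = v := by
  ext i
  simp [Matrix.one_apply, ite_smul]

theorem inj_p_ne (a : Fin 4) : p1 a ≠ p2 a ∧ p1 a ≠ 8 ∧ p2 a ≠ 8 := by
  revert a; decide

theorem inj_ker {X : V} {v : SS V} (h : AF P L X v = 0) :
    mat (P.hat Amat) v = (-P.σ) • lift (L.br X) v ∧
      lift (L.br X) v = (-P.σ) • mat (P.hat Amat) v := by
  have h1 : mat (P.hat Amat) v = (-P.σ) • lift (L.br X) v := by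
    rw [neg_smul]; exact eq_neg_of_add_eq_zero_left h
  refine ⟨h1, ?_⟩
  rw [h1, smul_smul, neg_mul_neg, P.hσ, one_smul]

theorem Vac.Gm_apply {p : EE V} (h : Vac P L p) (v : SS V) : Gm P.toGam L (zp p) v =
    mat (P.g (p1 (ap P))) (lift (L.br (p (p1 (ap P)))) v) +
      mat (P.g (p2 (ap P))) (lift (L.br (p (p2 (ap P)))) v) := by
  obtain ⟨h1, h2, h3⟩ := inj_p_ne (ap P)
  have h0 : (lift (L.br 0) v : SS V) = 0 := by ext i; simp
  rw [Gm, sum_apply, Finset.sum_eq_add (p1 (ap P)) (p2 (ap P)) h1]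
  · simp only [ContinuousLinearMap.comp_apply, zp_apply, if_neg h2, if_neg h3]
  · intro k _ hk
    rw [ContinuousLinearMap.comp_apply, zp_apply]
    split_ifs with h8
    · rw [h0, map_zero]
    · rw [h.zero k hk.1 hk.2 h8, h0, map_zero]
  · simp
  · simp

theorem inj_kap_g (P : Par) {k : Fin 9} (hk : k ≠ 8) (v : SS V) :
    kap P (mat (P.g k) v) = -mat (P.g k) (kap P v) := by
  rw [kap, ← inj_mat_mul, ← inj_mat_mul, ← inj_mat_neg, Matrix.smul_mul, Matrix.mul_smul,
    P.anti hk.symm, smul_neg]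

theorem Vac.kap_Gm {p : EE V} (h : Vac P L p) (v : SS V) :
    kap P (Gm P.toGam L (zp p) v) = -Gm P.toGam L (zp p) (kap P v) := by
  obtain ⟨-, h2, h3⟩ := inj_p_ne (ap P)
  rw [h.Gm_apply, h.Gm_apply, map_add, inj_kap_g P h2, inj_kap_g P h3, neg_add]
  simp only [kap, inj_mat_lift]

/-- coordinates in the adapted basis (`ub_complete`) -/
theorem eq_sum_ub (P : Par) (v : SS V) : v = ∑ α, tens (ub P α) (contr (ub P α) v) := by
  ext i
  have h := fun j => congrFun (congrFun (ub_complete P) i) j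
  simp only [Matrix.sum_apply, Matrix.vecMulVec_apply] at h
  simp only [WithLp.ofLp_sum, Finset.sum_apply, tens_apply, contr_apply, Finset.smul_sum,
    smul_smul]
  rw [Finset.sum_comm]
  simp only [← Finset.sum_smul, h]
  simp [Matrix.one_apply, ite_smul]

/-- on the kernel of `𝒜^F`, `(mat A^)² v = (ad X)² v`; contract with `ub α` (`hat_sq_ub`) -/
theorem ker_coord (P : Par) (L : CL V) {X : V} {v : SS V} (h : AF P L X v = 0)
    (α : Fin 8 ⊕ Fin 8) :
    L.br X (L.br X (contr (ub P α) v)) = -(uw α ^ 2) • contr (ub P α) v := by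
  obtain ⟨h1, -⟩ := inj_ker h
  have h2 : mat (P.hat Amat * P.hat Amat) v = lift (L.br X) (lift (L.br X) v) := by
    rw [inj_mat_mul, h1, map_smul, inj_mat_lift, h1, map_smul, smul_smul, neg_mul_neg, P.hσ,
      one_smul]
  have h3 := congrArg (contr (ub P α)) h2
  rw [inj_contr_lift, inj_contr_lift, inj_contr_mat, Matrix.transpose_mul, P.hat_transpose,
    neg_mul_neg, hat_sq_ub] at h3
  rw [← h3]
  simp [Finset.smul_sum, mul_smul]

/-- `Γ = γ_p ⊗ ad a + γ_q ⊗ ad b`, `Γ² = (ad a)² + (ad b)² + γ_p γ_q ⊗ ad (br a b)` -/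
theorem Vac.norm_Gm {p : EE V} (h : Vac P L p) (v : SS V) :
    ‖Gm P.toGam L (zp p) v‖ ^ 2 =
      ‖lift (L.br (p (p1 (ap P)))) v‖ ^ 2 + ‖lift (L.br (p (p2 (ap P)))) v‖ ^ 2 -
        P.δ * ⟪v, mat (P.g (p1 (ap P)) * P.g (p2 (ap P))) (lift (L.br (p 8)) v)⟫_ℝ := by
  obtain ⟨h1, -, -⟩ := inj_p_ne (ap P)
  have hm := h.mom
  rw [h.Gm_apply]
  set i := p1 (ap P)
  set j := p2 (ap P)
  set a : SS V →L[ℝ] SS V := lift (L.br (p i)) with ha
  set b : SS V →L[ℝ] SS V := lift (L.br (p j)) with hb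
  have sa : Skew a := skew_lift (L.skew_br _)
  have sb : Skew b := skew_lift (L.skew_br _)
  have sg : ∀ k, Symm (mat (P.g k) : SS V →L[ℝ] SS V) := fun k => symm_mat (P.symm k)
  have n1 : ∀ k (w : SS V), ‖mat (P.g k) w‖ ^ 2 = ‖w‖ ^ 2 := fun k w => by
    rw [← real_inner_self_eq_norm_sq, ← real_inner_self_eq_norm_sq, sg, ← inj_mat_mul, P.sq,
      inj_mat_one]
  have c1 : ⟪mat (P.g i) (a v), mat (P.g j) (b v)⟫_ℝ = -⟪v, mat (P.g i * P.g j) (a (b v))⟫_ℝ := by
    rw [sg, ← inj_mat_mul, sa, ha, ← inj_mat_lift]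
  have c2 : ⟪mat (P.g i) (a v), mat (P.g j) (b v)⟫_ℝ = ⟪v, mat (P.g i * P.g j) (b (a v))⟫_ℝ := by
    rw [real_inner_comm, sg, ← inj_mat_mul, sb, P.anti h1.symm, inj_mat_neg, map_neg,
      inner_neg_right, neg_neg, hb, ← inj_mat_lift]
  have c3 : a (b v) = P.δ • lift (L.br (p 8)) v + b (a v) := by
    ext k
    simp only [ha, hb, lift_apply, PiLp.add_apply, PiLp.smul_apply]
    rw [L.jac, hm]
    simp
  rw [c3, map_add, map_smul, inner_add_right, inner_smul_right] at c1
  rw [norm_add_sq_real, n1, n1]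
  linarith

/-- Injectivity on weight zero.  Split `v = v₊ + v₋` (`inr` and `inl` coordinates).  By
`ker_coord` and `spec`, `ad X v₊ = 0` and `v₋` has only coordinates of weight six; `kap` commutes
with `𝒜^F`, so both parts are in the kernel.  By `Lam_split`, `Λ v = -Γ v + δ σ xe v`; `Γ`
anticommutes with `kap`, `kap_xe`: the `kap = 1` part gives `Γ v₊ = 0`, so `v₊ = 0` by `norm_Gm`
and `cent`; then `Γ v₋ = 0` (`xe_ub`) and `norm_Gm`, `plane_ub` give `6 δ ‖v₋‖² ≤ 0`. -/
theorem Vac.inj_zero {p : EE V} (h : Vac P L p) {v : SS V} (h1 : AF P L (p 8) v = 0)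
    (h2 : Lam P L p v = 0) : v = 0 := by
  have hc := ker_coord P L h1
  set c := fun α => contr (ub P α) v with hcd
  set vm : SS V := ∑ k, tens (ub P (.inl k)) (c (.inl k)) with hvm
  set vp : SS V := ∑ k, tens (ub P (.inr k)) (c (.inr k)) with hvp
  have hv : v = vm + vp := by
    rw [hvm, hvp, ← Fintype.sum_sum_type fun α => tens (ub P α) (c α)]
    exact eq_sum_ub P v
  have km : kap P vm = vm := by
    rw [hvm, map_sum]
    refine Finset.sum_congr rfl fun k _ => ?_
    rw [kap, inj_mat_tens, kap_ub, uk, one_smul]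
  have kp : kap P vp = -vp := by
    rw [hvp, map_sum, ← Finset.sum_neg_distrib]
    refine Finset.sum_congr rfl fun k _ => ?_
    rw [kap, inj_mat_tens, kap_ub, uk, inj_tens_smul, neg_one_smul]
  have hX : lift (L.br (p 8)) vp = 0 := by
    rw [hvp, map_sum]
    refine Finset.sum_eq_zero fun k _ => ?_
    have hw : uw (.inr k) = 0 ∨ (uw (.inr k) = 1 ∨ uw (.inr k) = 5 ∨ uw (.inr k) = 11) := by
      fin_cases k <;> simp [uw]
    have : L.br (p 8) (c (.inr k)) = 0 := by
      rcases hw with hw | hw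
      · have e := hc (.inr k)
        rw [hw] at e
        have := L.skew_br (p 8) (c (.inr k)) (L.br (p 8) (c (.inr k)))
        rw [e] at this
        simpa using this
      · rw [h.spec _ hw (c (.inr k)) (hc (.inr k)), map_zero]
    rw [inj_lift_tens, this, map_zero]
  have hG : Gm P.toGam L (zp p) v = (P.δ * P.σ) • mat (xe P) v := by
    rw [Lam_split] at h2
    simp only [add_apply, sub_apply,
      mul_apply_eq_comp, h1, map_zero, zero_sub, smul_apply] at h2
    exact (neg_add_eq_zero.1 h2)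
  have hGp : Gm P.toGam L (zp p) vp = 0 := by
    have e := congrArg (kap P) hG
    rw [h.kap_Gm, map_smul, kap, ← inj_mat_mul, (kap_xe P).1, inj_mat_neg, smul_neg, ← hG,
      ← kap, neg_inj, hv, map_add, km, kp, map_add, map_add, map_neg, add_right_inj] at e
    have : (2 : ℝ) • Gm P.toGam L (zp p) vp = 0 := by rw [two_smul]; nth_rw 1 [← e]; simp
    simpa using this
  have hp0 : vp = 0 := by
    have e := h.norm_Gm vp
    rw [hGp, hX, map_zero, inner_zero_right, norm_zero] at e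
    have ea : lift (L.br (p (p1 (ap P)))) vp = 0 := by
      rw [← norm_eq_zero, ← sq_eq_zero_iff]
      nlinarith [sq_nonneg ‖lift (L.br (p (p1 (ap P)))) vp‖,
        sq_nonneg ‖lift (L.br (p (p2 (ap P)))) vp‖]
    have eb : lift (L.br (p (p2 (ap P)))) vp = 0 := by
      rw [← norm_eq_zero, ← sq_eq_zero_iff]
      nlinarith [sq_nonneg ‖lift (L.br (p (p1 (ap P)))) vp‖,
        sq_nonneg ‖lift (L.br (p (p2 (ap P)))) vp‖]
    ext i
    refine h.cent (vp i) ?_
    ext k
    have key : ∀ y : V, lift (L.br y) vp = 0 → L.br (vp i) y = 0 := fun y hy => by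
      have := congrArg (fun w : SS V => w i) hy
      simp only [lift_apply, PiLp.zero_apply] at this
      rw [L.skew, this, neg_zero]
    rw [lift_apply, PiLp.zero_apply]
    by_cases k1 : k = p1 (ap P)
    · exact k1 ▸ key _ ea
    by_cases k2 : k = p2 (ap P)
    · exact k2 ▸ key _ eb
    by_cases k3 : k = 8
    · exact k3 ▸ key _ hX
    rw [h.zero k k1 k2 k3, map_zero]
  rw [hp0, add_zero] at hv
  have hx : mat (xe P) v = 0 := by
    rw [hv, hvm, map_sum]
    refine Finset.sum_eq_zero fun k _ => ?_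
    rw [inj_mat_tens, xe_ub]
    ext i
    simp
  have h6 : mat (P.σ • (P.g (p1 (ap P)) * P.g (p2 (ap P)) * P.hat Amat)) v = (6 : ℝ) • v := by
    rw [hv, hvm, map_sum, Finset.smul_sum]
    refine Finset.sum_congr rfl fun k _ => ?_
    have hw : uw (.inl k) = 6 ∨ uw (.inl k) = 5 := by fin_cases k <;> simp [uw]
    rcases hw with hw | hw
    · rw [inj_mat_tens, plane_ub P k hw, inj_tens_smul]
    · rw [h.spec _ (.inr (.inl hw)) (c (.inl k)) (hc (.inl k))]
      simp
  have e := h.norm_Gm v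
  rw [hG, hx, smul_zero, norm_zero, (inj_ker h1).2, map_smul, ← inj_mat_mul, neg_smul,
    ← inj_mat_smul, h6, inner_neg_right, inner_smul_right, real_inner_self_eq_norm_sq] at e
  rw [← norm_eq_zero, ← sq_eq_zero_iff]
  have := P.δ0
  have h0 : P.δ * ‖v‖ ^ 2 ≤ 0 := by
    nlinarith [sq_nonneg ‖lift (L.br (p (p1 (ap P)))) v‖,
      sq_nonneg ‖lift (L.br (p (p2 (ap P)))) v‖]
  exact le_antisymm (by by_contra hh; push Not at hh; nlinarith) (sq_nonneg _)

/-- the kernel is invariant under `𝒜^F` (`AF_Lam`), and on it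
`‖𝒜^F u‖ = ‖kap 𝒜^F u‖ ≤ ‖Λ - kap 𝒜^F‖ ‖u‖`; apply this to `u = 𝒜^F v` -/
theorem Vac.inj {p : EE V} (h : Vac P L p)
    (hg : ∀ u, ‖AF P L (p 8) u‖ ≤ ‖AF P L (p 8) (AF P L (p 8) u)‖)
    (hn : ‖Lam P L p - kap P * AF P L (p 8)‖ < 1) (v : SS V) (h2 : Lam P L p v = 0) :
    v = 0 := by
  refine h.inj_zero ?_ h2
  set A := AF P L (p 8)
  have hu : Lam P L p (A v) = 0 := by
    have := congrArg (fun T : SS V →L[ℝ] SS V => T v) (AF_Lam P L h.fix)
    simp only [mul_apply_eq_comp, h2, map_zero] at this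
    exact this.symm
  have hk : ∀ w : SS V, ‖kap P w‖ = ‖w‖ := fun w => by
    have : kap P (kap P w) = w := congrArg (fun T : SS V →L[ℝ] SS V => T w) (kap_sq P)
    rw [← sq_eq_sq₀ (norm_nonneg _) (norm_nonneg _), ← real_inner_self_eq_norm_sq,
      ← real_inner_self_eq_norm_sq, symm_kap P, this]
  have h3 := (Lam P L p - kap P * A).le_opNorm (A v)
  rw [sub_apply, hu, zero_sub, norm_neg, mul_apply_eq_comp,
    hk] at h3
  have h4 := hg v
  rw [← norm_eq_zero]
  by_contra hh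
  have : 0 < ‖A v‖ := lt_of_le_of_ne (norm_nonneg _) (Ne.symm hh)
  nlinarith

end Vale.Agent.P353.SC
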