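import Vale.Agent.P353.SBase
import Vale.Agent.P353.AOsc2
import Vale.Agent.P353.AFock2

open MeasureTheory NormedSpace
open Complex (I)
open scoped InnerProductSpace ContDiff

noncomputable section
namespace Vale.Agent.P353.SC
variable {S F : Type} [NormedAddCommGroup S] [InnerProductSpace ℝ S] [FiniteDimensional ℝ S]
  [NormedAddCommGroup F] [InnerProductSpace ℂ F] [CompleteSpace F]
  {T : Type} [NormedAddCommGroup T] [InnerProductSpace ℝ T] [FiniteDimensional ℝ T]
  [MeasurableSpace T] [BorelSpace T]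

/-- `osc_gap` with a trivial `D` (for instance `T := 0`) -/
theorem osc_gap' [FiniteDimensional ℂ F] {W : T →L[ℝ] T} {c : ℝ} (hc : 0 < c) (hW : Pos c W)
    {f : T → F} (h : Tst f) : (1 / 2) * tr W * n2 f +
      c * (n2 f - ‖∫ z, gau W z • f z‖ ^ 2 / ∫ z, gau W z ^ 2) ≤ osc W f := by
  have h1 := osc_gap (0 : T →L[ℝ] T) hc hW h
  have h2 : tr (0 : T →L[ℝ] T) = 0 := map_zero (LinearMap.trace ℝ T)
  simpa [osc, h2] using h1

/-- Cauchy-Schwarz with the Gaussian -/
theorem smodel_cs {W : T →L[ℝ] T} {c : ℝ} (hc : 0 < c) (hW : Pos c W) {g : T → F} (h : Tst g) :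
    ‖∫ z, gau W z • g z‖ ^ 2 / ∫ z, gau W z ^ 2 ≤ n2 g := by
  obtain ⟨Z, hZ⟩ : ∃ Z, Z = ∫ z, gau W z ^ 2 := ⟨_, rfl⟩
  obtain ⟨A, hA⟩ : ∃ A, A = ∫ z, gau W z * ‖g z‖ := ⟨_, rfl⟩
  have Z0 : 0 ≤ Z := hZ ▸ integral_nonneg fun z => sq_nonneg _
  rw [← hZ]
  rcases Z0.eq_or_lt with rfl | Z1
  · rw [div_zero]
    exact n2_nonneg g
  have i1 : Integrable fun z => gau W z * ‖g z‖ :=
    ((aosc_cont W).mul h.continuous.norm).integrable_of_hasCompactSupport h.2.norm.mul_left
  have i2 : Integrable fun z => ‖g z‖ ^ 2 := by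
    simpa using h.int_wt (w := fun _ => 1) continuousOn_const
  have i3 := (aosc_int hc hW).const_mul ((A / Z) ^ 2)
  have h1 : ‖∫ z, gau W z • g z‖ ≤ A := by
    refine (norm_integral_le_integral_norm _).trans_eq ?_
    simp only [hA, norm_smul, Real.norm_of_nonneg (aosc_pos W _).le]
  have h2 := integral_mono (i1.const_mul (2 * (A / Z))) (i3.add i2) fun z => by
    simp only [Pi.add_apply]
    nlinarith [sq_nonneg (A / Z * gau W z - ‖g z‖)]
  simp only [Pi.add_apply] at h2
  rw [integral_add i3 i2, integral_const_mul, integral_const_mul, ← hZ, ← hA] at h2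
  have h3 : 2 * (A / Z) * A - (A / Z) ^ 2 * Z = A ^ 2 / Z := by
    field_simp
    ring
  refine (div_le_div_of_nonneg_right (pow_le_pow_left₀ (norm_nonneg _) h1 2) Z0).trans ?_
  rw [n2]
  linarith

/-- Gap of the model operator.  Put `g = f - ⟪w, f⟫ w`.  If `⟪w, ∫ gau f⟫ = 0` then
`∫ gau f = ∫ gau g`, so `‖∫ gau f‖² ≤ Z n2 g` (Cauchy-Schwarz), and `vac_gap` gives
`opf ≥ -(tr W / 4) n2 f + c n2 g`. -/
theorem model_gap [FiniteDimensional ℂ F] (C : Cl S F) {J W : S →L[ℝ] S} {Om : T →L[ℝ] T} {c : ℝ}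
    (hc : 0 < c) (hJ : CS J) (hW : Pos c W) (hJW : J * W = W * J) (hO : Pos c Om)
    (htr : tr Om / 2 = tr W / 4) {w : F} (hw : ‖w‖ = 1) (hv : ∀ v, C.vac J v = ⟪w, v⟫_ℂ • w)
    {η lam : ℝ} (hη : 0 ≤ η) (hη1 : η ≤ 1) (hl : 0 < lam) {f : T → F} (h : Tst f)
    (h0 : ⟪w, ∫ z, gau (lam • Om) z • f z⟫_ℂ = 0) :
    lam * ((1 - η) * c - η * (tr Om / 2)) * n2 f ≤
      (1 - η) * osc (lam • Om) f + lam * opf (fun _ => I • C.spin (J * W)) f := by
  have hP : Pos (lam * c) (lam • Om) := by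
    refine ⟨fun u v => ?_, fun u => ?_⟩
    · simp only [ContinuousLinearMap.smul_apply, real_inner_smul_left, real_inner_smul_right,
        hO.1 u v]
    · rw [ContinuousLinearMap.smul_apply, real_inner_smul_right, mul_assoc]
      exact mul_le_mul_of_nonneg_left (hO.2 u) hl.le
  have ht : tr (lam • Om) = lam * tr Om := map_smul (LinearMap.trace ℝ T) lam Om.toLinearMap
  have hg : Tst fun x => (1 - C.vac J) (f x) := h.clm contDiff_const
  have hn : ∀ v : F, ‖(1 - C.vac J) v‖ ^ 2 = ‖v‖ ^ 2 - ‖C.vac J v‖ ^ 2 := fun v => by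
    rw [ContinuousLinearMap.sub_apply, ContinuousLinearMap.one_apply, hv, norm_sub_sq (𝕜 := ℂ),
      inner_smul_right, ← inner_conj_symm v w, Complex.mul_conj, Complex.normSq_eq_norm_sq,
      norm_smul, hw, mul_one, RCLike.re_to_complex, Complex.ofReal_re]
    ring
  have i1 : Integrable fun z => gau (lam • Om) z • f z :=
    ((aosc_cont _).smul h.continuous).integrable_of_hasCompactSupport h.2.smul_left
  have e1 : ∫ z, gau (lam • Om) z • (1 - C.vac J) (f z) = ∫ z, gau (lam • Om) z • f z := by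
    simp only [← ContinuousLinearMap.map_smul_of_tower]
    rw [ContinuousLinearMap.integral_comp_comm _ i1, ContinuousLinearMap.sub_apply, hv, h0,
      zero_smul, sub_zero, ContinuousLinearMap.one_apply]
  have h1 := osc_gap' (mul_pos hl hc) hP h
  have h2 := smodel_cs (mul_pos hl hc) hP hg
  have h3 := n2_nonneg fun x => (1 - C.vac J) (f x)
  have j1 := h.int_wt (w := fun _ => -(tr W / 4)) continuousOn_const
  have j2 := hg.int_wt (w := fun _ => c) continuousOn_const
  have h4 := integral_mono (j1.add j2)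
    (h.int_opf (B := fun _ => I • C.spin (J * W)) continuousOn_const) fun x => by
      simp only [Pi.add_apply, hn]
      exact C.vac_gap hJ hc.le hW hJW (f x)
  simp only [Pi.add_apply] at h4
  rw [integral_add j1 j2, integral_const_mul, integral_const_mul, ← htr] at h4
  change -(tr Om / 2) * n2 f + c * n2 (fun x => (1 - C.vac J) (f x)) ≤
    opf (fun _ => I • C.spin (J * W)) f at h4
  rw [e1] at h2
  rw [ht] at h1
  have h5 := mul_le_mul_of_nonneg_left (h1.trans' (add_le_add_right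
    (mul_le_mul_of_nonneg_left (sub_le_sub_left h2 (n2 f)) (mul_pos hl hc).le) _))
    (sub_nonneg.2 hη1)
  have h6 := mul_le_mul_of_nonneg_left h4 hl.le
  nlinarith [mul_nonneg (mul_nonneg (mul_pos hl hc).le hη) h3]

/-- `spin_vac` -/
theorem spin_w (C : Cl S F) {J W : S →L[ℝ] S} (hJ : CS J) (hW : Symm W) (hJW : J * W = W * J)
    {w : F} (hv : C.vac J w = w) : (I • C.spin (J * W)) w = (-(tr W / 4) : ℝ) • w := by
  have h1 : Skew (J * W) := fun u v => by
    rw [ContinuousLinearMap.mul_apply, hJ.1, hW, hJW, ContinuousLinearMap.mul_apply]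
  have h2 : J * (J * W) = J * W * J := by rw [mul_assoc, ← hJW]
  have h3 : tr (J * (J * W)) = -tr W := by
    rw [← mul_assoc, hJ.2, neg_one_mul]
    exact map_neg (LinearMap.trace ℝ S) W.toLinearMap
  have h4 := DFunLike.congr_fun (C.spin_vac hJ h1 h2) w
  rw [ContinuousLinearMap.mul_apply, ContinuousLinearMap.smul_apply, hv, h3] at h4
  rw [ContinuousLinearMap.smul_apply, h4, smul_smul, ← Complex.coe_smul]
  congr 1
  push_cast
  linear_combination (tr W / 4 : ℂ) * Complex.I_mul_I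

end Vale.Agent.P353.SC
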