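import Vale.Agent.P353.SComp
import Vale.Agent.P353.SModel
import Vale.Agent.P353.SSlice

open MeasureTheory NormedSpace
open Complex (I)
open scoped InnerProductSpace ContDiff

noncomputable section
namespace Vale.Agent.P353.SC
variable {V F : Type} [NormedAddCommGroup V] [InnerProductSpace ℝ V] [FiniteDimensional ℝ V]
  [MeasurableSpace V] [BorelSpace V]
  [NormedAddCommGroup F] [InnerProductSpace ℂ F] [CompleteSpace F]
  {T : Type} [NormedAddCommGroup T] [InnerProductSpace ℝ T] [FiniteDimensional ℝ T]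
  [MeasurableSpace T] [BorelSpace T]

/-- Lower bound near the orbit.  Take `r ≤ min r1 (r0 / 2)`, a bump `β` on `T` with `β = 1` on
the ball `r` and support in the ball `2 r`, `f = β · φ (p + j ·)`, `ρ` from `tube_nhds` for
`r / 2`; `slice_thin` shows that `f` vanishes for `‖t‖ ≥ r / 2`.
`ℓ φ = ⟪w, ∫ gau (lam • Om) • f⟫` with `w` from `Irr.vac_rank`; `compare`, `model_gap`. -/
theorem inner_bound [FiniteDimensional ℂ F] [Nontrivial F] (M : Mod V F) (hirr : M.C.Irr)
    {P : Par} (σ : Slice M.L T) (h : sv P M.L σ.p = 0) (hj : IsN M.L σ.p σ.j)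
    (H : Harm P M.L σ.p σ.j) : ∃ c > 0, ∃ ρ > 0, ∀ lam > 0, ∃ ℓ : (EE V → F) → ℂ,
      (∀ φ χ, Tst φ → Tst χ → ∀ a b : ℂ, ℓ (a • φ + b • χ) = a * ℓ φ + b * ℓ χ) ∧
      ∀ φ, Tst φ → M.Inv φ → tsupport φ ⊆ {x | Metric.infDist x (orb M.L σ.p) ≤ ρ} → ℓ φ = 0 →
        c * lam * n2 φ ≤ M.q P lam lam φ := by
  have hc := H.c_pos
  have hd : 0 < 2 * (H.c + |tr H.Om / 2| + 1) := by positivity
  obtain ⟨η, hη, hη1, hη2⟩ : ∃ η : ℝ, 0 < η ∧ η ≤ 1 ∧
      H.c / 2 ≤ (1 - η) * H.c - η * (tr H.Om / 2) - η := by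
    refine ⟨H.c / (2 * (H.c + |tr H.Om / 2| + 1)), by positivity, ?_, ?_⟩
    · rw [div_le_one hd]
      linarith [abs_nonneg (tr H.Om / 2)]
    · have h1 : H.c / (2 * (H.c + |tr H.Om / 2| + 1)) * (H.c + |tr H.Om / 2| + 1) = H.c / 2 := by
        field_simp
      have h2 := mul_le_mul_of_nonneg_left (le_abs_self (tr H.Om / 2)) (div_pos hc hd).le
      linarith
  obtain ⟨r1, hr1, K, -, hcmp⟩ := compare M σ h hj H hη
  obtain ⟨r, hr, hrr, hr0⟩ : ∃ r : ℝ, 0 < r ∧ r ≤ r1 ∧ 2 * r ≤ σ.r0 :=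
    ⟨min r1 (σ.r0 / 2), lt_min hr1 (half_pos σ.r0_pos), min_le_left _ _, by
      linarith [min_le_right r1 (σ.r0 / 2)]⟩
  obtain ⟨ρ, hρ, htube⟩ := tube_nhds σ (half_pos hr) (hcmp (r / 2) ⟨half_pos hr, by linarith⟩).1
  obtain ⟨-, c0, hc0, hq⟩ := hcmp r ⟨hr, hrr⟩
  obtain ⟨w, hw, hv⟩ := hirr.vac_rank H.cs
  have hjn : ∀ t, ‖σ.j t‖ = ‖t‖ := fun t => by
    rw [norm_eq_sqrt_real_inner, hj.iso, ← norm_eq_sqrt_real_inner]
  let β : ContDiffBump (0 : T) := ⟨r, 2 * r, hr, by linarith⟩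
  let f : (EE V → F) → T → F := fun φ t => β t • φ (σ.p + σ.j t)
  have hf : ∀ φ, Tst φ → Tst (f φ) := fun φ hφ =>
    ⟨β.contDiff.smul (hφ.1.comp (contDiff_const.add σ.j.contDiff)),
      β.hasCompactSupport.smul_right⟩
  refine ⟨H.c / 4, by positivity, ρ, hρ, fun lam hl =>
    ⟨fun φ => ⟪w, ∫ z, gau (lam • H.Om) z • f φ z⟫_ℂ, fun φ χ hφ hχ a b => ?_,
      fun φ hφ hi hs h0 => ?_⟩⟩
  · have hg : Continuous (gau (lam • H.Om)) := by
      unfold gau
      fun_prop
    have hint : ∀ φ, Tst φ → Integrable fun z => gau (lam • H.Om) z • f φ z := fun φ hφ =>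
      (hg.smul (hf φ hφ).continuous).integrable_of_hasCompactSupport (hf φ hφ).2.smul_left
    have e : (fun z => gau (lam • H.Om) z • f (a • φ + b • χ) z) = fun z =>
        a • (gau (lam • H.Om) z • f φ z) + b • (gau (lam • H.Om) z • f χ z) := by
      funext z
      simp only [f, Pi.add_apply, Pi.smul_apply, smul_add, smul_comm a, smul_comm b]
    have i1 : Integrable fun z => a • (gau (lam • H.Om) z • f φ z) := (hint φ hφ).smul a
    have i2 : Integrable fun z => b • (gau (lam • H.Om) z • f χ z) := (hint χ hχ).smul b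
    beta_reduce
    rw [e, integral_add i1 i2, integral_smul, integral_smul, inner_add_right, inner_smul_right,
      inner_smul_right]
  · have hs2 : tsupport φ ⊆ M.L.sat (σ.pts (r / 2)) := fun x hx => htube x (hs hx)
    have hs1 : tsupport φ ⊆ M.L.sat (σ.pts r) := by
      intro x hx
      obtain ⟨g, hg, t, ht, e⟩ := hs2 hx
      exact ⟨g, hg, t, by linarith, e⟩
    have hsf : tsupport (f φ) ⊆ Metric.ball 0 r := by
      refine (closure_minimal (t := Metric.closedBall 0 (r / 2)) (fun t ht => ?_)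
        Metric.isClosed_closedBall).trans (Metric.closedBall_subset_ball (half_lt_self hr))
      have h1 : β t ≠ 0 := left_ne_zero_of_smul ht
      have h2 : φ (σ.p + σ.j t) ≠ 0 := right_ne_zero_of_smul ht
      have h3 : t ∈ Metric.ball (0 : T) (2 * r) := by
        have h4 : t ∈ Function.support β := h1
        rwa [β.support_eq] at h4
      rw [mem_ball_zero_iff] at h3
      have h5 := slice_thin σ (r := r / 2) (by linarith) (t := t) (by rw [hjn]; linarith)
        (hs2 (subset_tsupport _ h2))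
      rw [hjn] at h5
      exact mem_closedBall_zero_iff.2 h5.le
    have hag : ∀ t, ‖t‖ < r → f φ t = φ (σ.p + σ.j t) := by
      intro t ht
      have h1 : β t = 1 := β.one_of_mem_closedBall (mem_closedBall_zero_iff.2 ht.le)
      simp only [f, h1, one_smul]
    obtain ⟨-, h2, h3, -⟩ := hq lam φ (f φ) hl.le hφ hi hs1 (hf φ hφ) hsf hag
    have h4 := model_gap M.C hc H.cs H.posW H.comm H.posO H.trace hw hv hη.le hη1 hl (hf φ hφ) h0
    have h5 : 0 ≤ n2 (f φ) := integral_nonneg fun x => sq_nonneg _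
    have h6 : 0 ≤ lam * n2 (f φ) := mul_nonneg hl.le h5
    have h7 := mul_le_mul_of_nonneg_right hη2 h6
    have h8 : n2 φ ≤ 2 * c0 * n2 (f φ) := by
      have h9 := mul_le_mul_of_nonneg_right hη1 (mul_nonneg hc0.le h5)
      linarith
    have h10 := mul_le_mul_of_nonneg_left h8 (show 0 ≤ H.c / 4 * lam by positivity)
    have h11 : H.c / 2 * (lam * n2 (f φ)) ≤ (1 - η) * osc (lam • H.Om) (f φ) +
        lam * opf (fun _ => I • M.C.spin (H.J * H.W)) (f φ) - η * lam * n2 (f φ) := by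
      linarith
    have h12 := mul_le_mul_of_nonneg_left h11 hc0.le
    linarith


end Vale.Agent.P353.SC
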