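import Vale.Agent.P353.SHarm
import Vale.Agent.P353.AFock
import Vale.Agent.P353.AForm2

open MeasureTheory NormedSpace
open Complex (I)
open scoped InnerProductSpace ContDiff

noncomputable section
namespace Vale.Agent.P353.SC
variable {V F : Type} [NormedAddCommGroup V] [InnerProductSpace ℝ V] [FiniteDimensional ℝ V]
  [MeasurableSpace V] [BorelSpace V]
  [NormedAddCommGroup F] [InnerProductSpace ℂ F] [CompleteSpace F]

section aux
variable {S E : Type} [NormedAddCommGroup S] [InnerProductSpace ℝ S] [FiniteDimensional ℝ S]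
  [NormedAddCommGroup E] [InnerProductSpace ℝ E] [FiniteDimensional ℝ E]

theorem slocal_fb (C : Cl S F) {J W : S →L[ℝ] S} (hJ : Skew J) (hJ1 : ∀ u, ‖J u‖ ≤ ‖u‖)
    (hW : Pos 0 W) (hc : J * W = W * J) {lam : ℝ} (h0 : 0 ≤ lam) (Λ : S →L[ℝ] S) (v : F) :
    lam * (-(tr W / 4) - Module.finrank ℝ S * ‖Λ - J * W‖) * ‖v‖ ^ 2 ≤
      (⟪v, (lam • (I • C.spin Λ)) v⟫_ℂ).re := by
  have h1 := C.fb hJ hJ1 hW hc v
  have h2 : |(⟪v, (I • C.spin (Λ - J * W)) v⟫_ℂ).re| ≤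
      Module.finrank ℝ S * ‖Λ - J * W‖ * ‖v‖ ^ 2 := by
    refine (Complex.abs_re_le_norm _).trans ((norm_inner_le_norm _ _).trans ?_)
    rw [smul_apply, norm_smul, Complex.norm_I, one_mul, sq, ← mul_assoc,
      mul_comm ‖v‖]
    exact mul_le_mul_of_nonneg_right (((C.spin _).le_opNorm v).trans
      (mul_le_mul_of_nonneg_right (C.norm_spin_le _) (norm_nonneg _))) (norm_nonneg _)
  have h3 : C.spin Λ = C.spin (J * W) + C.spin (Λ - J * W) := by
    rw [← C.spin_add, add_sub_cancel]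
  rw [smul_apply, inner_smul_right_eq_smul, Complex.smul_re, smul_eq_mul,
    mul_assoc, h3, smul_add, add_apply, inner_add_right, Complex.add_re]
  refine mul_le_mul_of_nonneg_left ?_ h0
  linarith [(abs_le.1 h2).1]

theorem slocal_tr {J W : S →L[ℝ] S} (hJ1 : ∀ u, ‖J u‖ ≤ ‖u‖) (hJJ : J * J * W = -W)
    (Λ : S →L[ℝ] S) : tr (J * Λ) + tr W ≤ Module.finrank ℝ S * ‖Λ - J * W‖ := by
  have h1 : tr (J * (Λ - J * W)) = tr (J * Λ) + tr W := by
    rw [mul_sub, ← mul_assoc, hJJ, sub_neg_eq_add]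
    simp [tr]
  have h2 : ‖J‖ ≤ 1 := J.opNorm_le_bound zero_le_one fun u => by rw [one_mul]; exact hJ1 u
  rw [← h1]
  exact (le_abs_self _).trans ((abs_tr_le _).trans (mul_le_mul_of_nonneg_left
    ((norm_mul_le _ _).trans (mul_le_of_le_one_left (norm_nonneg _) h2)) (Nat.cast_nonneg _)))

theorem slocal_adj {ψ : E →L[ℝ] S} (h : ∀ u v, ⟪ψ u, ψ v⟫_ℝ = ⟪u, v⟫_ℝ) (u : S) :
    ‖ψ.adjoint u‖ ≤ ‖u‖ := by
  have h1 : ‖ψ‖ ≤ 1 := ψ.opNorm_le_bound zero_le_one fun u => by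
    rw [one_mul, norm_eq_sqrt_real_inner, h, ← norm_eq_sqrt_real_inner]
  refine (ψ.adjoint.le_opNorm u).trans (mul_le_of_le_one_left (norm_nonneg _) ?_)
  rwa [ContinuousLinearMap.adjoint.norm_map]

theorem slocal_cont : Continuous (tr : (S →L[ℝ] S) → ℝ) :=
  ((LinearMap.trace ℝ S).comp (ContinuousLinearMap.coeLM ℝ)).continuous_of_finiteDimensional

omit [FiniteDimensional ℝ S] [FiniteDimensional ℝ E] in
theorem slocal_smul (c : ℝ) (A : S →L[ℝ] E) (J : S →L[ℝ] S) (D : E →L[ℝ] S) :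
    tr ((c • (A ∘L J)) ∘L D) = c * tr (A ∘L J ∘L D) := by
  rw [ContinuousLinearMap.smul_comp, ContinuousLinearMap.comp_assoc]
  simp [tr]

omit [FiniteDimensional ℝ S] [FiniteDimensional ℝ E] in
theorem slocal_nc {Λ : E → S →L[ℝ] S} (h : Continuous Λ) (T : S →L[ℝ] S) :
    Continuous fun x => ‖Λ x - T‖ := (h.sub continuous_const).norm

theorem slocal_main [MeasurableSpace E] [BorelSpace E] (C : Cl S F) {J W : S →L[ℝ] S}
    (hJ : Skew J) (hJ1 : ∀ u, ‖J u‖ ≤ ‖u‖) (hW : Pos 0 W) (hc : J * W = W * J)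
    (hJJ : J * J * W = -W) {lam : ℝ} (h0 : 0 ≤ lam) {φ : E → F} (h : Tst φ) {ψ : E →L[ℝ] S}
    (hψ : ∀ u v, ⟪ψ u, ψ v⟫_ℝ = ⟪u, v⟫_ℝ) {s : E → S} (hs : ContDiff ℝ ∞ s) {Λ : E → S →L[ℝ] S}
    (hΛ : Continuous Λ) {a : E → ℝ} (ha : Continuous a)
    (ht : ∀ x, tr (J * Λ x) = 2 * tr (ψ.adjoint ∘L J ∘L fderiv ℝ s x) - a x) :
    lam * wt (fun x => -(1 / 4) * a x - 2 * Module.finrank ℝ S * ‖Λ x - J * W‖) φ ≤
      sch (fun x => lam ^ 2 / 2 * ‖s x‖ ^ 2) (fun x => lam • (I • C.spin (Λ x))) φ := by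
  let B : S →L[ℝ] E := (-lam) • (ψ.adjoint ∘L J)
  have hw : ContDiff ℝ 1 fun x => B (s x) := B.contDiff.comp (hs.of_le (by simp))
  have hd : ∀ x, tr (fderiv ℝ (fun x => B (s x)) x) = -lam * ((tr (J * Λ x) + a x) / 2) :=
    fun x => by
      have h1 : fderiv ℝ (fun x => B (s x)) x = B ∘L fderiv ℝ s x :=
        (B.hasFDerivAt.comp x (hs.differentiable (by simp) x).hasFDerivAt).fderiv
      rw [h1, slocal_smul, ht]
      ring
  have hn : ∀ x, ‖B (s x)‖ ^ 2 ≤ lam ^ 2 * ‖s x‖ ^ 2 := fun x => by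
    rw [← mul_pow]
    refine pow_le_pow_left₀ (norm_nonneg _) ?_ 2
    rw [smul_apply, norm_smul, norm_neg, Real.norm_of_nonneg h0]
    exact mul_le_mul_of_nonneg_left ((slocal_adj hψ _).trans (hJ1 _)) h0
  have h3 := riccati isOpen_univ hw.contDiffOn h (Set.subset_univ _)
  have c0 := slocal_nc hΛ (J * W)
  have c1 : Continuous fun x => (1 / 2) * (tr (fderiv ℝ (fun x => B (s x)) x) -
      ‖B (s x)‖ ^ 2) := continuous_const.mul ((slocal_cont.comp
        (hw.continuous_fderiv one_ne_zero)).sub (hw.continuous.norm.pow 2))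
  have c2 : Continuous fun x => lam ^ 2 / 2 * ‖s x‖ ^ 2 :=
    continuous_const.mul (hs.continuous.norm.pow 2)
  have c3 : Continuous fun x => lam * (-(tr W / 4) - Module.finrank ℝ S * ‖Λ x - J * W‖) :=
    continuous_const.mul (continuous_const.sub (continuous_const.mul c0))
  have c4 : Continuous fun x => lam • (I • C.spin (Λ x)) := by
    obtain ⟨σ, hσ⟩ := C.spin_clm
    simp only [← hσ]
    exact ((σ.continuous.comp hΛ).const_smul I).const_smul lam
  have h4 := wt_le_opf h c3.continuousOn c4.continuousOn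
    fun x _ v => slocal_fb C hJ hJ1 hW hc h0 _ v
  rw [sch, ← wt_smul]
  refine le_trans ?_ (add_le_add (add_le_add h3 le_rfl) h4)
  rw [← wt_add h c1.continuousOn c2.continuousOn,
    ← wt_add h (c1.fun_add c2).continuousOn c3.continuousOn]
  refine wt_mono h (continuous_const.mul ((continuous_const.mul ha).sub
    (continuous_const.mul c0))).continuousOn ((c1.add c2).add c3).continuousOn fun x _ => ?_
  have h5 := mul_le_mul_of_nonneg_left (slocal_tr hJ1 hJJ (Λ x)) h0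
  have h6 : 0 ≤ lam * (Module.finrank ℝ S * ‖Λ x - J * W‖) := by positivity
  have h7 := hn x
  rw [hd]
  linarith

end aux

theorem slocal_AF (P : Par) (L : CL V) {J : SS V →L[ℝ] SS V} (hJ : Skew J) :
    Continuous fun x : EE V => tr (J * AF P L (x 8)) := by
  have h1 : (fun x : EE V => tr (J * AF P L (x 8))) = fun x =>
      2 * tr ((P.psi P.e).adjoint ∘L J ∘L ds P L x) - tr (J * Lam P L x) := by
    funext x
    rw [tr_J_Lam P L hJ]
    ring
  have h2 : Continuous (ds P L) := (contDiff_sv P L).continuous_fderiv (by simp)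
  rw [h1]
  exact (continuous_const.mul (slocal_cont.comp (continuous_const.clm_comp
    (continuous_const.clm_comp h2)))).sub
    (slocal_cont.comp (continuous_const.mul (continuous_Lam P L)))

theorem slocal_f (P : Par) (L : CL V) {J : SS V →L[ℝ] SS V} (hJ : Skew J) (T : SS V →L[ℝ] SS V) :
    Continuous fun x : EE V => -(1 / 4) * tr (J * AF P L (x 8)) -
      2 * Module.finrank ℝ (SS V) * ‖Lam P L x - T‖ :=
  (continuous_const.mul (slocal_AF P L hJ)).sub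
    (continuous_const.mul (slocal_nc (continuous_Lam P L) T))

/-- Riccati bound with the field `w = - lam ψᵀ J sv` (`riccati`, `‖w‖ ≤ lam ‖sv‖`), `Cl.fb` for
`i spin (J W)`, `norm_spin_le` for the remainder, `tr W = - tr (J J W)`, `tr_J_Lam`,
`abs_tr_le`. -/
theorem q_ge (M : Mod V F) (P : Par) {J W : SS V →L[ℝ] SS V} (hJ : Skew J)
    (hJ1 : ∀ u, ‖J u‖ ≤ ‖u‖) (hW : Pos 0 W) (hc : J * W = W * J) (hJJ : J * J * W = -W)
    {lam : ℝ} (h0 : 0 ≤ lam) {φ : EE V → F} (h : Tst φ) :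
    lam * wt (fun x => -(1 / 4) * tr (J * AF P M.L (x 8)) -
      2 * Module.finrank ℝ (SS V) * ‖Lam P M.L x - J * W‖) φ ≤ M.q P lam lam φ := by
  rw [q_eq]
  exact slocal_main M.C hJ hJ1 hW hc hJJ h0 h (P.psi_inner P.he) (contDiff_sv P M.L)
    (continuous_Lam P M.L) (slocal_AF P M.L hJ) (tr_J_Lam P M.L hJ)

/-- `polar_kap` for `A = AF P L (x0 8)`, `q_ge`, `Lam_near`, on a small ball around `x0` -/
theorem good_of_E0 (M : Mod V F) (G : Gam) : ∃ K > 0, ∀ P : Par, P.toGam = G → ∀ x0 : EE V,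
    K * (‖zp x0‖ + P.δ) < E0 P M.L (x0 8) → ∃ W, IsOpen W ∧ x0 ∈ W ∧ Good M P W := by
  obtain ⟨K, hK, h⟩ := Lam_near M.L G
  refine ⟨8 * Module.finrank ℝ (SS V) * K + 1, by positivity, fun P hP x0 h0 => ?_⟩
  obtain ⟨J, h1, h2, h3, h4, h5, h6, -, -, h7⟩ :=
    polar_kap (skew_AF P M.L (x0 8)) (symm_kap P) (kap_sq P) (kap_AF P M.L (x0 8))
  have hc := slocal_f P M.L h1 (J * psq (-(AF P M.L (x0 8) * AF P M.L (x0 8))))
  obtain ⟨f, hf⟩ : ∃ f : EE V → ℝ, f = fun x : EE V => -(1 / 4) * tr (J * AF P M.L (x 8)) -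
      2 * Module.finrank ℝ (SS V) *
        ‖Lam P M.L x - J * psq (-(AF P M.L (x0 8) * AF P M.L (x0 8)))‖ := ⟨_, rfl⟩
  have hq := fun lam (hl : 0 ≤ lam) (φ : EE V → F) (hφ : Tst φ) => q_ge M P h1 h2 h3 h4 h6 hl hφ
  rw [← hf] at hc hq
  have hp : 0 < f x0 := by
    have h8 := mul_le_mul_of_nonneg_left (h P hP x0 (x0 8)).1
      (Nat.cast_nonneg (α := ℝ) (Module.finrank ℝ (SS V)))
    have h9 : 0 ≤ ‖zp x0‖ + P.δ := add_nonneg (norm_nonneg _) P.δ0.le
    rw [hf]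
    simp only [h5, h7]
    unfold E0 at h0
    unfold zp at h0 h9
    linarith
  refine ⟨{x | f x0 / 2 < f x}, isOpen_lt continuous_const hc, half_lt_self hp, f x0 / 2,
    half_pos hp, 0, fun lam hl φ hφ hs => le_trans ?_ (hq lam hl φ hφ)⟩
  rw [mul_comm _ lam, mul_assoc, ← wt_const]
  exact mul_le_mul_of_nonneg_left (wt_mono hφ continuousOn_const hc.continuousOn
    fun x hx => (hs hx).le) hl

end Vale.Agent.P353.SC
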