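import Vale.Agent.P353.SId0

open MeasureTheory NormedSpace
open Complex (I)
open scoped InnerProductSpace ContDiff

noncomputable section
namespace Vale.Agent.P353.SC
variable {V : Type} [NormedAddCommGroup V] [InnerProductSpace ℝ V] [FiniteDimensional ℝ V]
  [MeasurableSpace V] [BorelSpace V] (P : Par) (L : CL V)

section aux
omit [FiniteDimensional ℝ V] [MeasurableSpace V] [BorelSpace V]

theorem sid_I {W : Type} [AddCommGroup W] [Module ℝ W] (f : Fin 9 → Fin 9 → W) :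
    ∑ i, ∑ j, Imat i j • f i j = ∑ a, (f (p2 a) (p1 a) - f (p1 a) (p2 a)) := by
  have h : ∀ k l : Fin 9, ∑ i, ∑ j, (Matrix.single k l (1 : ℝ) : M9) i j • f i j = f k l :=
    fun k l => by simp [Matrix.single_apply, ite_and]
  simp only [Imat, plane, Matrix.sum_apply, Matrix.sub_apply, Finset.sum_smul, sub_smul]
  refine ((Finset.sum_congr rfl fun _ _ => Finset.sum_comm).trans Finset.sum_comm).trans
    (Finset.sum_congr rfl fun a _ => ?_)
  simp only [Finset.sum_sub_distrib, h]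

theorem sid_contr {n : ℕ} (v e : Fin n → ℝ) (a : V) : contr v (tens e a) = (e ⬝ᵥ v) • a := by
  simp only [contr_apply, tens_apply, smul_smul, dotProduct, Finset.sum_smul, mul_comm]

theorem sid_inner (x : EE V) (X : V) :
    ⟪lift (L.br X) x, mat Imat x⟫_ℝ = -2 * ⟪mom L x, X⟫_ℝ := by
  have h : ∀ a b, ⟪L.br X a, b⟫_ℝ = ⟪L.br a b, X⟫_ℝ := fun a b => by
    rw [L.skew X, inner_neg_left, L.inv, neg_neg, real_inner_comm]
  rw [PiLp.inner_apply (f := fun _ : Fin 9 => V)]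
  simp only [lift_apply, mat_apply, inner_sum, real_inner_smul_right]
  simp only [h, ← smul_eq_mul]
  rw [sid_I fun i j => ⟪L.br (x i) (x j), X⟫_ℝ, mom, sum_inner, Finset.smul_sum]
  refine Finset.sum_congr rfl fun a _ => ?_
  rw [L.skew (x (p2 a)), inner_neg_left, smul_eq_mul]
  ring

end aux

theorem sid_pot (x : EE V) :
    2 * L.pot x = ‖lift (L.br (x 8)) x‖ ^ 2 + 2 * L.pot (zp x) := by
  have h : ∀ i j, ‖L.br (x i) (x j)‖ ^ 2 = ‖L.br (zp x i) (zp x j)‖ ^ 2 +
      (if i = 8 then ‖L.br (x 8) (x j)‖ ^ 2 else 0) +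
      if j = 8 then ‖L.br (x 8) (x i)‖ ^ 2 else 0 := fun i j => by
    rw [zp_apply, zp_apply]
    split_ifs with h1 h2 h2
    · simp [h1, h2, amod0_self]
    · simp [h1]
    · rw [h2, L.skew (x i)]
      simp
    · simp
  rw [CL.pot, CL.pot, PiLp.norm_sq_eq_of_L2,
    Finset.sum_congr rfl fun i _ => Finset.sum_congr rfl fun j _ => h i j]
  simp only [Finset.sum_add_distrib, Finset.sum_ite_irrel, Finset.sum_ite_eq', Finset.mem_univ,
    if_true, Finset.sum_const_zero, lift_apply]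
  ring

/-- `psi_adj_s0`, `psi_adj_s1`, `e_dot` -/
theorem psi_adj_sv (x : EE V) : (P.psi P.e).adjoint (sv P L x) = AB P L (x 8) x := by
  have h1 : contr (fun j => P.e ⬝ᵥ (P.g j).mulVec P.e) x = P.σ • x 8 := by
    simp [P.e_dot]
  rw [sv, map_add, psi_adj_s0, P.psi_adj_s1, h1, add_comm]
  ext i
  simp [AB]

/-- `g2_dot`, `χ_dot`, `χ_unit` -/
theorem chi_sv (x : EE V) : contr P.χ (sv P L x) = P.δ • x 8 - mom L x := by
  have h1 : contr P.χ (s0 P.toGam L P.e x) = -mom L x := by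
    simp only [s0, map_smul, map_sum, sid_contr, P.g2_dot, neg_smul, Finset.sum_neg_distrib]
    rw [sid_I fun i j => L.br (x i) (x j), mom, ← Finset.sum_neg_distrib,
      ← Finset.sum_neg_distrib, Finset.smul_sum]
    refine Finset.sum_congr rfl fun a _ => ?_
    rw [L.skew (x (p2 a))]
    module
  have h2 : contr P.χ (P.s1 x) = P.δ • x 8 := by
    rw [amod0_s1, amod0_psi]
    simp only [map_add, map_smul, map_sum, sid_contr, dotProduct_comm _ P.χ, P.χ_dot, P.χ_unit.1,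
      zero_smul, one_smul, Finset.sum_const_zero, zero_add]
  rw [sv, map_add, h1, h2]
  abel

/-- From `norm_s0`, `norm_s1`, `inner_s0_s1`: `2 pot x = ‖lift (br X) x‖² + 2 pot (zp x)` and
`⟪lift (br X) x, mat Imat x⟫ = -2 ⟪X, mom x⟫`, where `X = x 8`. -/
theorem norm_sv (x : EE V) : ‖sv P L x‖ ^ 2 = ‖AB P L (x 8) x‖ ^ 2 +
    ‖mom L x - P.δ • x 8‖ ^ 2 + (2 * L.pot (zp x) - ‖mom L x‖ ^ 2) := by
  have h2 : mat P.A' x = mat Amat x + (P.σ * P.δ / 2) • mat Imat x := by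
    ext i
    simp [Par.A', add_smul, Finset.sum_add_distrib, Finset.smul_sum, smul_smul]
  have h3 : AB P L (x 8) x = mat Amat x + P.σ • lift (L.br (x 8)) x := rfl
  have h4 := norm_s0 P.toGam L P.he x
  have h5 := sid_pot L x
  rw [sv, norm_add_sq_real, P.inner_s0_s1, P.norm_s1, h2, h3, norm_add_sq_real, norm_sub_sq_real,
    inner_add_right, real_inner_smul_right, real_inner_smul_right, real_inner_smul_right,
    sid_inner, real_inner_comm (mat Amat x), norm_smul, norm_smul, mul_pow, mul_pow,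
    Real.norm_eq_abs, Real.norm_eq_abs, sq_abs, sq_abs]
  linear_combination 2 * h4 + h5 -
    (‖lift (L.br (x 8)) x‖ ^ 2 + 2 * P.δ * ⟪mom L x, x 8⟫_ℝ) * P.hσ

/-- the equations of a zero -/
theorem zero_eqs {x : EE V} (h : sv P L x = 0) : mom L x = P.δ • x 8 ∧
    2 * L.pot (zp x) = ‖mom L x‖ ^ 2 ∧ AB P L (x 8) x = 0 ∧ ∀ a,
      L.br (x 8) (x (p1 a)) = (P.σ * eps a) • x (p2 a) ∧
      L.br (x 8) (x (p2 a)) = -(P.σ * eps a) • x (p1 a) := by
  have h1 := chi_sv P L x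
  have h2 := psi_adj_sv P L x
  have h3 := norm_sv P L x
  rw [h, map_zero] at h1 h2
  have h4 : mom L x = P.δ • x 8 := (sub_eq_zero.1 h1.symm).symm
  rw [h, ← h2, h4, sub_self] at h3
  refine ⟨h4, ?_, h2.symm, fun a => ?_⟩
  · rw [h4]
    simp only [norm_zero] at h3
    linarith
  · have h5 : ∀ i, mat Amat x i + P.σ • L.br (x 8) (x i) = 0 := fun i =>
      congrArg (fun y : EE V => y i) h2.symm
    have h6 := h5 (p1 a)
    have h7 := h5 (p2 a)
    rw [(Amat_apply x a).1] at h6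
    rw [(Amat_apply x a).2.1] at h7
    constructor
    · linear_combination (norm := module) P.σ • h6 - P.hσ • L.br (x 8) (x (p1 a))
    · linear_combination (norm := module) P.σ • h7 - P.hσ • L.br (x 8) (x (p2 a))

/-- the vacuum is a zero: use `norm_sv`; only one bracket survives in `pot (zp p)` and `mom` -/
theorem Vac.sv_zero {P : Par} {L : CL V} {p : EE V} (h : Vac P L p) : sv P L p = 0 := by
  have n1 : ∀ a b : Fin 4, a ≠ b → p1 a ≠ p1 b ∧ p1 a ≠ p2 b ∧ p1 a ≠ 8 := by decide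
  have n2 : ∀ a : Fin 4, p1 a ≠ p2 a ∧ p1 a ≠ 8 ∧ p2 a ≠ 8 := by decide
  have h1 : SC.mom L p = L.br (p (p1 (ap P))) (p (p2 (ap P))) :=
    Fintype.sum_eq_single _ fun a ha => by
      obtain ⟨h1, h2, h3⟩ := n1 a _ ha
      rw [h.zero _ h1 h2 h3, map_zero, ContinuousLinearMap.zero_apply]
  have h2 : ∀ k, k ≠ p1 (ap P) ∧ k ≠ p2 (ap P) → zp p k = 0 := fun k hk => by
    rw [zp_apply]
    split_ifs with h3
    · rfl
    · exact h.zero k hk.1 hk.2 h3
  have h3 : ∀ y, ∑ j, ‖L.br y (zp p j)‖ ^ 2 =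
      ‖L.br y (p (p1 (ap P)))‖ ^ 2 + ‖L.br y (p (p2 (ap P)))‖ ^ 2 := fun y => by
    rw [Fintype.sum_eq_add _ _ (n2 (ap P)).1 fun k hk => by simp [h2 k hk], zp_apply, zp_apply,
      if_neg (n2 _).2.1, if_neg (n2 _).2.2]
  have h4 : 2 * L.pot (zp p) = ‖SC.mom L p‖ ^ 2 := by
    simp only [CL.pot, h3]
    rw [Fintype.sum_eq_add _ _ (n2 (ap P)).1 fun k hk => by simp [h2 k hk], zp_apply, zp_apply,
      if_neg (n2 _).2.1, if_neg (n2 _).2.2, h1, L.skew (p (p2 (ap P))) (p (p1 (ap P))),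
      amod0_self, amod0_self, norm_neg, norm_zero]
    ring
  have h5 := norm_sv P L p
  rw [h4, sub_self, h.fix, h1, h.mom, sub_self, norm_zero, norm_zero] at h5
  exact norm_eq_zero.1 (pow_eq_zero_iff two_ne_zero |>.1 (by rw [h5]; ring))

end Vale.Agent.P353.SC
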