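import Vale.Agent.P353.SBase

open MeasureTheory NormedSpace
open Complex (I)
open scoped InnerProductSpace ContDiff

noncomputable section
namespace Vale.Agent.P353.SC
variable {N : ℕ}

theorem shift_apply (δ : ℝ) (i j : Fin N) : shift N δ i j =
    if (i : ℕ) = j + 1 then (Real.sqrt (6 * δ * (i : ℝ) * ((N : ℝ) - i)) : ℂ) else 0 := rfl

theorem shift_nonneg {δ : ℝ} (hδ : 0 < δ) (i : Fin N) : 0 ≤ 6 * δ * (i : ℝ) * ((N : ℝ) - i) := by
  have h1 : ((i : ℕ) : ℝ) < N := by exact_mod_cast i.2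
  have h2 : 0 ≤ (N : ℝ) - i := by linarith
  positivity

theorem shift_pos {δ : ℝ} (hδ : 0 < δ) {i j : Fin N} (h : (i : ℕ) = j + 1) :
    0 < Real.sqrt (6 * δ * (i : ℝ) * ((N : ℝ) - i)) := by
  have h1 : ((i : ℕ) : ℝ) < N := by exact_mod_cast i.2
  have h2 : 0 < (N : ℝ) - i := by linarith
  have h3 : (0 : ℝ) < (i : ℕ) := by exact_mod_cast (by omega : 0 < (i : ℕ))
  exact Real.sqrt_pos.2 (by positivity)

theorem shift_sq {δ : ℝ} (hδ : 0 < δ) (i : Fin N) :
    (Real.sqrt (6 * δ * (i : ℝ) * ((N : ℝ) - i)) : ℂ) *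
      star (Real.sqrt (6 * δ * (i : ℝ) * ((N : ℝ) - i)) : ℂ) =
      ((6 * δ * (i : ℝ) * ((N : ℝ) - i) : ℝ) : ℂ) := by
  rw [Complex.star_def, Complex.conj_ofReal, ← Complex.ofReal_mul,
    Real.mul_self_sqrt (shift_nonneg hδ i)]

theorem shift_mul_adj {δ : ℝ} (hδ : 0 < δ) : shift N δ * (shift N δ).conjTranspose =
    Matrix.diagonal fun i : Fin N => ((6 * δ * (i : ℝ) * ((N : ℝ) - i) : ℝ) : ℂ) := by
  ext i k
  rw [Matrix.mul_apply]
  simp only [Matrix.conjTranspose_apply, shift_apply]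
  by_cases hik : i = k
  · subst hik
    rw [Matrix.diagonal_apply_eq]
    rcases Nat.eq_zero_or_pos (i : ℕ) with h0 | h0
    · simp [h0]
    · rw [Finset.sum_eq_single (⟨i - 1, by omega⟩ : Fin N), if_pos (by simp only; omega),
        shift_sq hδ]
      · intro j _ hj
        rw [if_neg, zero_mul]
        exact fun h => hj (Fin.ext (by simp only; omega))
      · simp
  · rw [Matrix.diagonal_apply_ne _ hik]
    refine Finset.sum_eq_zero fun j _ => ?_
    by_cases h1 : (i : ℕ) = j + 1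
    · rw [if_neg (fun h : (k : ℕ) = j + 1 => hik (Fin.ext (by omega))), star_zero, mul_zero]
    · rw [if_neg h1, zero_mul]

theorem adj_mul_shift {δ : ℝ} (hδ : 0 < δ) : (shift N δ).conjTranspose * shift N δ =
    Matrix.diagonal fun i : Fin N =>
      ((6 * δ * ((i : ℝ) + 1) * ((N : ℝ) - (i + 1)) : ℝ) : ℂ) := by
  ext i k
  rw [Matrix.mul_apply]
  simp only [Matrix.conjTranspose_apply, shift_apply]
  by_cases hik : i = k
  · subst hik
    rw [Matrix.diagonal_apply_eq]
    by_cases h0 : (i : ℕ) + 1 < N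
    · rw [Finset.sum_eq_single (⟨i + 1, h0⟩ : Fin N), if_pos rfl, mul_comm, shift_sq hδ]
      · simp
      · intro j _ hj
        rw [if_neg, mul_zero]
        exact fun h => hj (Fin.ext h)
      · simp
    · have h1 : (N : ℝ) = (i : ℕ) + 1 := by exact_mod_cast (by omega : N = (i : ℕ) + 1)
      rw [Finset.sum_eq_zero, h1, sub_self, mul_zero, Complex.ofReal_zero]
      intro j _
      rw [if_neg (by omega), mul_zero]
  · rw [Matrix.diagonal_apply_ne _ hik]
    refine Finset.sum_eq_zero fun j _ => ?_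
    by_cases h1 : (j : ℕ) = i + 1
    · rw [if_neg (fun h : (j : ℕ) = k + 1 => hik (Fin.ext (by omega))), mul_zero]
    · rw [if_neg h1, star_zero, zero_mul]

/-- the accumulated phases -/
def phs (w : ℕ → ℂ) : ℕ → ℂ
  | 0 => 1
  | j + 1 => phs w j * (star (w j) / (‖w j‖ : ℝ))

theorem norm_phs {w : ℕ → ℂ} (hw : ∀ j, w j ≠ 0) : ∀ j, ‖phs w j‖ = 1
  | 0 => norm_one
  | j + 1 => by
    rw [phs, norm_mul, norm_phs hw j, norm_div, norm_star, Complex.norm_real, norm_norm,
      div_self (norm_ne_zero_iff.2 (hw j)), one_mul]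

theorem phs_fix {w : ℕ → ℂ} (hw : ∀ j, w j ≠ 0) (j : ℕ) :
    phs w (j + 1) * w j * star (phs w j) = (‖w j‖ : ℝ) := by
  have h1 : phs w j * star (phs w j) = 1 := by
    rw [Complex.star_def, Complex.mul_conj, Complex.normSq_eq_norm_sq, norm_phs hw]
    simp
  have h2 : w j * star (w j) = (‖w j‖ : ℝ) * (‖w j‖ : ℝ) := by
    rw [Complex.star_def, Complex.mul_conj, Complex.normSq_eq_norm_sq, ← Complex.ofReal_mul, sq]
  have h3 : ((‖w j‖ : ℝ) : ℂ) ≠ 0 := Complex.ofReal_ne_zero.2 (norm_ne_zero_iff.2 (hw j))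
  calc phs w (j + 1) * w j * star (phs w j)
      = phs w j * star (phs w j) * (w j * star (w j)) / (‖w j‖ : ℝ) := by rw [phs]; ring
    _ = _ := by rw [h1, h2, one_mul, mul_div_cancel_right₀ _ h3]

/-- remove the phases with a diagonal unitary: `u 0 = 1`, `u (j+1) = u j * conj (w j) / |w j|` -/
theorem phase_fix {Z : Matrix (Fin N) (Fin N) ℂ} {δ : ℝ} (hδ : 0 < δ)
    (hZ : ∀ i j, ‖Z i j‖ = ‖shift N δ i j‖) : ∃ u : Fin N → ℂ, (∀ i, ‖u i‖ = 1) ∧
      Matrix.diagonal u * Z * star (Matrix.diagonal u) = shift N δ := by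
  let w : ℕ → ℂ := fun j => if h : j + 1 < N then Z ⟨j + 1, h⟩ ⟨j, by omega⟩ else 1
  have hn : ∀ i j : Fin N, (i : ℕ) = j + 1 →
      ‖Z i j‖ = Real.sqrt (6 * δ * (i : ℝ) * ((N : ℝ) - i)) := fun i j h => by
    rw [hZ, shift_apply, if_pos h, Complex.norm_real, Real.norm_of_nonneg (Real.sqrt_nonneg _)]
  have hw : ∀ j, w j ≠ 0 := fun j => by
    simp only [w]
    split_ifs with h
    · rw [← norm_pos_iff, hn _ _ rfl]
      exact shift_pos hδ (j := ⟨j, by omega⟩) rfl
    · exact one_ne_zero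
  refine ⟨fun i => phs w i, fun i => norm_phs hw i, ?_⟩
  ext i j
  rw [Matrix.star_eq_conjTranspose, Matrix.diagonal_conjTranspose, Matrix.mul_diagonal,
    Matrix.diagonal_mul, shift_apply]
  split_ifs with h
  · have h1 : w j = Z i j := by
      have h2 : (j : ℕ) + 1 < N := h ▸ i.2
      simp only [w, dif_pos h2]
      congr 1
      exact Fin.ext h.symm
    rw [← hn i j h, ← h1, h]
    exact phs_fix hw j
  · have h1 : Z i j = 0 := by
      rw [← norm_eq_zero, hZ, shift_apply, if_neg h, norm_zero]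
    rw [h1, mul_zero, zero_mul]

/-- the commutant of the vacuum is scalar -/
theorem scalar_of_comm {U : Matrix (Fin N) (Fin N) ℂ} {δ : ℝ} (hδ : 0 < δ)
    (h1 : U * dg (chain N) = dg (chain N) * U) (h2 : U * shift N δ = shift N δ * U) :
    ∃ c : ℂ, U = c • 1 := by
  have hd : U = Matrix.diagonal fun i => U i i := by
    ext i j
    by_cases hij : i = j
    · subst hij
      rw [Matrix.diagonal_apply_eq]
    · rw [Matrix.diagonal_apply_ne _ hij]
      have e := congrFun (congrFun h1 i) j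
      rw [dg, Matrix.mul_diagonal, Matrix.diagonal_mul, mul_comm] at e
      refine (mul_eq_mul_right_iff.1 e).resolve_left fun h => hij (Fin.ext ?_)
      have h3 := Complex.ofReal_injective h
      unfold chain at h3
      exact_mod_cast (by linarith : ((i : ℕ) : ℝ) = (j : ℕ))
  rcases Nat.eq_zero_or_pos N with rfl | hN
  · exact ⟨0, Subsingleton.elim _ _⟩
  have key : ∀ (n : ℕ) (h : n < N), U ⟨n, h⟩ ⟨n, h⟩ = U ⟨0, hN⟩ ⟨0, hN⟩ := by
    intro n
    induction n with
    | zero => exact fun _ => rfl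
    | succ n ih =>
      intro h
      have e := congrFun (congrFun h2 ⟨n + 1, h⟩) ⟨n, by omega⟩
      rw [hd, Matrix.mul_diagonal, Matrix.diagonal_mul, shift_apply, if_pos rfl, mul_comm] at e
      rw [← ih (by omega)]
      exact mul_left_cancel₀
        (Complex.ofReal_ne_zero.2 (shift_pos hδ (i := ⟨n + 1, h⟩) (j := ⟨n, by omega⟩) rfl).ne') e
  refine ⟨U ⟨0, hN⟩ ⟨0, hN⟩, hd.trans ?_⟩
  rw [Matrix.smul_one_eq_diagonal]
  exact congrArg _ (funext fun i => key i i.2)

theorem chain_shift (δ : ℝ) :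
    dg (chain N) * shift N δ - shift N δ * dg (chain N) = (6 : ℂ) • shift N δ := by
  ext i j
  rw [Matrix.sub_apply, dg, Matrix.mul_diagonal, Matrix.diagonal_mul, Matrix.smul_apply,
    shift_apply, smul_eq_mul]
  split_ifs with h
  · have e : (chain N i : ℂ) = chain N j + 6 := by
      unfold chain
      rw [h]
      push_cast
      ring
    rw [e]
    ring
  · simp

theorem shift_comm {δ : ℝ} (hδ : 0 < δ) :
    shift N δ * (shift N δ).conjTranspose - (shift N δ).conjTranspose * shift N δ =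
      ((2 * δ : ℝ) : ℂ) • dg (chain N) := by
  rw [shift_mul_adj hδ, adj_mul_shift hδ, Matrix.diagonal_sub, dg, ← Matrix.diagonal_smul]
  congr 1
  funext i
  simp only [Pi.smul_apply, smul_eq_mul, chain]
  push_cast
  ring

theorem shift_trace (δ : ℝ) : (shift N δ).trace = 0 :=
  Finset.sum_eq_zero fun i _ => by
    rw [Matrix.diag_apply, shift_apply, if_neg (by omega)]

end Vale.Agent.P353.SC
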