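import Vale.Agent.P353.SHad
import Vale.Agent.P353.GGroup

open MeasureTheory NormedSpace
open Complex (I)
open scoped InnerProductSpace ContDiff

noncomputable section
namespace Vale.Agent.P353.SC
variable {V : Type} [NormedAddCommGroup V] [InnerProductSpace ℝ V] [FiniteDimensional ℝ V]
  {L : CL V} {N : ℕ}

theorem sunit_phase (t : ℝ) :
    Complex.exp (t * I) * star (Complex.exp (t * I)) = 1 := by
  rw [Complex.star_def, Complex.mul_conj, Complex.normSq_eq_norm_sq,
    Complex.norm_exp_ofReal_mul_I]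
  simp

/-- multiply `U` by a phase `c` with `c ^ N * det U = 1`; `exp_surj`, `ex_conj` -/
theorem G_of_unitary (h : SUN L N) (hN : 0 < N) {U : Matrix (Fin N) (Fin N) ℂ}
    (hU : U ∈ Matrix.unitaryGroup (Fin N) ℂ) :
    ∃ g ∈ L.G, ∀ a, h.hat (g a) = U * h.hat a * star U := by
  have h1 : ‖U.det‖ = 1 := CStarRing.norm_of_mem_unitary (Matrix.det_of_mem_unitary hU)
  have h2 := Complex.norm_mul_exp_arg_mul_I U.det
  rw [h1, Complex.ofReal_one, one_mul] at h2
  set c : ℂ := Complex.exp ((-(Complex.arg U.det) / N : ℝ) * I) with hc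
  have h3 : c * star c = 1 := sunit_phase _
  have h4 : ∀ A : Matrix (Fin N) (Fin N) ℂ, (c • U) * A * star (c • U) = U * A * star U :=
    fun A => by
      rw [star_smul, smul_mul_assoc, smul_mul_assoc, mul_smul_comm, smul_smul, h3, one_smul]
  have h5 : c • U ∈ Matrix.unitaryGroup (Fin N) ℂ := by
    rw [Matrix.mem_unitaryGroup_iff] at hU ⊢
    simpa only [mul_one, hU] using h4 1
  have h6 : (c • U).det = 1 := by
    have hN' : (N : ℂ) ≠ 0 := by exact_mod_cast hN.ne'
    rw [Matrix.det_smul, Fintype.card_fin, hc, ← Complex.exp_nat_mul, ← h2, ← Complex.exp_add,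
      h2, ← Complex.exp_zero]
    congr 1
    push_cast
    field_simp
    ring
  obtain ⟨ξ, hξ⟩ := h.exp_surj ⟨c • U, h5, h6⟩
  refine ⟨L.ex ξ, L.ex_mem ξ, fun a => ?_⟩
  rw [(h.ex_conj ξ).2 a, ← hξ]
  exact h4 _

theorem sunit_compact : IsCompact (Matrix.unitaryGroup (Fin N) ℂ : Set (Matrix (Fin N) (Fin N) ℂ)) := by
  have h1 : IsCompact (Set.univ.pi fun _ : Fin N => Set.univ.pi fun _ : Fin N =>
      Metric.closedBall (0 : ℂ) 1) :=
    isCompact_univ_pi fun _ => isCompact_univ_pi fun _ => isCompact_closedBall _ _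
  refine h1.of_isClosed_subset ?_ fun U hU i _ j _ => ?_
  · have e : (Matrix.unitaryGroup (Fin N) ℂ : Set (Matrix (Fin N) (Fin N) ℂ)) =
        {U | U * star U = 1} := by
      ext U
      exact Matrix.mem_unitaryGroup_iff
    rw [e]
    exact isClosed_eq (by fun_prop) continuous_const
  · rw [mem_closedBall_zero_iff]
    exact entry_norm_bound_of_unitary hU i j

/-- the set of such `g` is a closed submonoid (the unitary group is compact) -/
theorem unitary_of_G (h : SUN L N) {g : V →L[ℝ] V} (hg : g ∈ L.G) :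
    ∃ U ∈ Matrix.unitaryGroup (Fin N) ℂ, ∀ a, h.hat (g a) = U * h.hat a * star U := by
  refine ggroup_ind (P := fun g => ∃ U ∈ Matrix.unitaryGroup (Fin N) ℂ,
    ∀ a, h.hat (g a) = U * h.hat a * star U) ?_ ⟨1, one_mem _, fun a => by simp⟩ ?_ hg
  · have : CompactSpace (Matrix.unitaryGroup (Fin N) ℂ) :=
      isCompact_iff_compactSpace.1 sunit_compact
    have hc : Continuous h.hat := h.hat.continuous_of_finiteDimensional
    have h1 : IsClosed {y : (V →L[ℝ] V) × Matrix.unitaryGroup (Fin N) ℂ |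
        ∀ a, h.hat (y.1 a) = y.2.1 * h.hat a * star y.2.1} := by
      simp only [Set.ofPred_forall]
      exact isClosed_iInter fun a => isClosed_eq (hc.comp (by fun_prop)) (by fun_prop)
    convert isClosedMap_fst_of_compactSpace _ h1 using 1
    ext g
    constructor
    · rintro ⟨U, hU, e⟩
      exact ⟨(g, ⟨U, hU⟩), e, rfl⟩
    · rintro ⟨y, e, rfl⟩
      exact ⟨y.2.1, y.2.2, e⟩
  · rintro ξ g ⟨U, hU, e⟩
    refine ⟨_, mul_mem (h.ex_conj ξ).1.1 hU, fun a => ?_⟩
    rw [mul_apply_eq_comp, (h.ex_conj ξ).2, e, star_mul]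
    simp only [mul_assoc]

theorem sunit_perm (σ : Equiv.Perm (Fin N)) (A : Matrix (Fin N) (Fin N) ℂ) :
    σ.permMatrix ℂ * A * star (σ.permMatrix ℂ) = A.submatrix σ σ := by
  rw [Matrix.star_eq_conjTranspose, Matrix.conjTranspose_permMatrix,
    PEquiv.toMatrix_toPEquiv_mul, PEquiv.mul_toMatrix_toPEquiv]
  rfl

/-- spectral theorem, then sort the eigenvalues with a permutation matrix (`Tuple.sort`) -/
theorem exists_diag (h : SUN L N) (hN : 0 < N) (X : V) :
    ∃ g ∈ L.G, ∃ x : Fin N → ℝ, Monotone x ∧ h.hat (g X) = dg x := by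
  obtain ⟨W, d, hW⟩ := xsu_herm (h.herm X)
  have hP : (Tuple.sort d).permMatrix ℂ ∈ Matrix.unitaryGroup (Fin N) ℂ :=
    Matrix.mem_unitaryGroup_iff.2 (by simpa using sunit_perm (Tuple.sort d) 1)
  obtain ⟨g, hg, e⟩ := G_of_unitary h hN (mul_mem hP (star W).2)
  refine ⟨g, hg, d ∘ Tuple.sort d, Tuple.monotone_sort d, ?_⟩
  have h1 : star W.1 * (W.1 * xsuR d * star W.1) * star (star W.1) = xsuR d := by
    rw [star_star, ← mul_assoc, ← mul_assoc, W.2.1, one_mul, mul_assoc, W.2.1, mul_one]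
  have h2 : dg (d ∘ Tuple.sort d) = (xsuR d).submatrix (Tuple.sort d) (Tuple.sort d) := by
    rw [xsuR, dg, Matrix.submatrix_diagonal_equiv]
    rfl
  have h3 : ∀ P A B : Matrix (Fin N) (Fin N) ℂ,
      P * A * B * star (P * A) = P * (A * B * star A) * star P := fun P A B => by
    rw [star_mul]
    simp only [mul_assoc]
  rw [e, hW, h2, ← sunit_perm, h3]
  exact congrArg (fun z => _ * z * _) h1

/-- change of frame -/
theorem exists_conj (h : SUN L N) {g : V →L[ℝ] V} (hg : g ∈ L.G) :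
    ∃ h' : SUN L N, ∀ a, h'.hat a = h.hat (g a) := by
  obtain ⟨g', -, e, -⟩ := CL.G_inv hg
  refine ⟨⟨h.hat ∘ₗ g.toLinearMap, fun a => h.herm (g a), fun a => h.tr0 (g a),
    fun a b => ?_, fun X hX h0 => ?_, fun a b => ?_⟩, fun a => rfl⟩
  · rw [← CL.G_inner hg a b]
    exact h.inn (g a) (g b)
  · obtain ⟨a, ha⟩ := h.surj X hX h0
    refine ⟨g' a, ?_⟩
    change h.hat ((g * g') a) = X
    rw [e]
    exact ha
  · change h.hat (g a) * h.hat (g b) - h.hat (g b) * h.hat (g a) = I • h.hat (g (L.br a b))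
    rw [CL.G_br hg]
    exact h.comm (g a) (g b)

end Vale.Agent.P353.SC
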