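import Vale.Agent.P353.SNearM
import Vale.Agent.P353.SShift
import Vale.Agent.P353.SUnit
import Vale.Agent.P353.SId

open MeasureTheory NormedSpace
open Complex (I)
open scoped InnerProductSpace ContDiff

noncomputable section
namespace Vale.Agent.P353.SC
variable {V : Type} [NormedAddCommGroup V] [InnerProductSpace ℝ V] [FiniteDimensional ℝ V]
  [MeasurableSpace V] [BorelSpace V] {L : CL V} {N : ℕ}

/-- Jacobi identity -/
theorem four_br (L : CL V) (a b c d : V) :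
    ‖L.br a b‖ ^ 2 + ‖L.br c d‖ ^ 2 + ‖L.br a c‖ ^ 2 + ‖L.br a d‖ ^ 2 + ‖L.br b c‖ ^ 2 +
      ‖L.br b d‖ ^ 2 = ‖L.br a b + L.br c d‖ ^ 2 + ‖L.br a c - L.br b d‖ ^ 2 +
        ‖L.br a d + L.br b c‖ ^ 2 := by
  have h : ∀ u v w : V, ⟪L.br u v, w⟫_ℝ = ⟪u, L.br v w⟫_ℝ := fun u v w => by
    rw [L.skew u v, inner_neg_left, L.inv, neg_neg]
  rw [norm_add_sq_real, norm_sub_sq_real, norm_add_sq_real, h, h, h, L.jac b c d,
    L.skew (L.br b c) d, inner_add_right, inner_neg_right]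
  ring

theorem snear_five {y : Fin N → ℝ} (hy : ∀ i, |y i - chain N i| < 1 / 4) (i j : Fin N) :
    (y i - y j) ^ 2 ≠ 25 := by
  intro h
  have h1 := abs_lt.1 (hy i)
  have h2 := abs_lt.1 (hy j)
  unfold chain at h1 h2
  have h3 : y i - y j = 5 ∨ y i - y j = -5 := sq_eq_sq_iff_eq_or_eq_neg.1 (by rw [h]; norm_num)
  have h4 : ∀ a b : ℕ, (a : ℝ) ≤ b ∨ (b : ℝ) + 1 ≤ a := fun a b => by
    rcases le_or_gt a b with e | e
    · exact Or.inl (by exact_mod_cast e)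
    · exact Or.inr (by exact_mod_cast e)
  rcases h3 with h3 | h3
  · rcases h4 i j with e | e <;> linarith [h1.1, h1.2, h2.1, h2.2]
  · rcases h4 j i with e | e <;> linarith [h1.1, h1.2, h2.1, h2.2]

/-- A zero near the chain is conjugate to the standard vacuum.  `zero_eqs`, `reson`: the planes
`1`, `3` vanish (`|6 k ∓ 5| ≥ 1`); `four_br` gives `Z W = W Z` (`comm_zw`); `near_abs`,
`phase_fix`, `G_of_unitary`. -/
theorem zero_near (h : SUN L N) (hN : 0 < N) (P : Par) {x : EE V} (hx : sv P L x = 0)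
    {y : Fin N → ℝ} (hX : h.hat (x 8) = dg y) (hy : ∀ i, |y i - chain N i| < 1 / 4) :
    ∃ g ∈ L.G, Std h P (lift g x) := by
  obtain ⟨h1, h2, -, h3⟩ := zero_eqs P L hx
  obtain ⟨s1, s2, s3, s4⟩ := sigma_eps P
  have hr := fun a => reson h hX (h3 a).1 (h3 a).2
  have hz : ∀ a, h.hat (x (p1 a)) + I • h.hat (x (p2 a)) = 0 → x (p1 a) = 0 ∧ x (p2 a) = 0 :=
    fun a e => z_inj h (by rw [e, map_zero, smul_zero, add_zero])
  have h5 : ∀ a, (P.σ * eps a) ^ 2 = 25 → x (p1 a) = 0 ∧ x (p2 a) = 0 := fun a e =>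
    hz a (Matrix.ext fun i j => by_contra fun h0 => snear_five hy i j (by rw [hr a i j h0, e]))
  obtain ⟨z2, z3⟩ : x 2 = 0 ∧ x 3 = 0 := h5 1 s3
  obtain ⟨z6, z7⟩ : x 6 = 0 ∧ x 7 = 0 := h5 3 s4
  have hm : mom L x = L.br (x 0) (x 1) + L.br (x 4) (x 5) := by
    rw [mom, Fin.sum_univ_four]
    change L.br (x 0) (x 1) + L.br (x 2) (x 3) + L.br (x 4) (x 5) + L.br (x 6) (x 7) = _
    simp [z2, z6]
  have hs : ∀ a b, ‖L.br a b‖ = ‖L.br b a‖ := fun a b => by rw [L.skew, norm_neg]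
  have h0 : ∀ a, L.br a a = 0 := fun a => by
    have := L.skew a a
    rw [eq_neg_iff_add_eq_zero, ← two_smul ℝ, smul_eq_zero] at this
    exact this.resolve_left two_ne_zero
  have h6 := four_br L (x 0) (x 1) (x 4) (x 5)
  have h7 : 2 * L.pot (zp x) = ‖L.br (x 0) (x 1)‖ ^ 2 + ‖L.br (x 4) (x 5)‖ ^ 2 +
      ‖L.br (x 0) (x 4)‖ ^ 2 + ‖L.br (x 0) (x 5)‖ ^ 2 + ‖L.br (x 1) (x 4)‖ ^ 2 +
      ‖L.br (x 1) (x 5)‖ ^ 2 := by
    simp only [CL.pot, Fin.sum_univ_succ, zp_apply]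
    simp [z2, z3, z6, z7, h0, hs (x 1) (x 0), hs (x 4) (x 0), hs (x 5) (x 0), hs (x 4) (x 1),
      hs (x 5) (x 1), hs (x 5) (x 4)]
    ring
  rw [← h7, h2, hm] at h6
  have h8 : L.br (x 0) (x 4) - L.br (x 1) (x 5) = 0 := by
    rw [← norm_eq_zero, ← sq_eq_zero_iff]
    nlinarith [sq_nonneg ‖L.br (x 0) (x 4) - L.br (x 1) (x 5)‖,
      sq_nonneg ‖L.br (x 0) (x 5) + L.br (x 1) (x 4)‖]
  have h9 : L.br (x 0) (x 5) + L.br (x 1) (x 4) = 0 := by
    rw [← norm_eq_zero, ← sq_eq_zero_iff]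
    nlinarith [sq_nonneg ‖L.br (x 0) (x 4) - L.br (x 1) (x 5)‖,
      sq_nonneg ‖L.br (x 0) (x 5) + L.br (x 1) (x 4)‖]
  have h10 := comm_zw h (x 0) (x 1) (x 4) (x 5)
  rw [h8, h9, map_zero, smul_zero, add_zero, smul_zero, sub_eq_zero] at h10
  have h11 : (2 : ℂ) • h.hat (L.br (x 0) (x 1)) + (2 : ℂ) • h.hat (L.br (x 4) (x 5)) =
      ((2 * P.δ : ℝ) : ℂ) • dg y := by
    rw [← smul_add, ← map_add, ← hm, h1, map_smul, hX, Complex.ofReal_mul, mul_smul,
      Complex.ofReal_ofNat, Complex.coe_smul]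
  obtain ⟨h12, rfl, h13⟩ := near_abs (sum_dg h hX) hy (fun i j e => (hr _ i j e).trans s1)
    (fun i j e => (hr _ i j e).trans s2) (by
      rcases sigma_cases P with ⟨-, e1, e2⟩ | ⟨-, e1, e2⟩ <;> rw [e1, e2]
      · exact h10
      · exact h10.symm) P.δ0 (by
      rw [comm_z, comm_z]
      rcases sigma_cases P with ⟨-, e1, e2⟩ | ⟨-, e1, e2⟩ <;> rw [e1, e2]
      · exact h11
      · exact (add_comm _ _).trans h11)
  obtain ⟨u, h14, h15⟩ := phase_fix P.δ0 h13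
  have h16 : ∀ i, u i * star (u i) = 1 := fun i => by
    rw [Complex.star_def, Complex.mul_conj, Complex.normSq_eq_norm_sq, h14]
    simp
  obtain ⟨g, h17, h18⟩ := G_of_unitary h hN (U := Matrix.diagonal u) (by
    rw [Matrix.mem_unitaryGroup_iff, Matrix.star_eq_conjTranspose, Matrix.diagonal_conjTranspose,
      Matrix.diagonal_mul_diagonal, ← Matrix.diagonal_one]
    exact congrArg _ (funext h16))
  refine ⟨g, h17, ?_, ?_, fun k k1 k2 k3 => ?_⟩
  · change h.hat (g (x 8)) = _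
    rw [h18, hX, dg, Matrix.star_eq_conjTranspose, Matrix.diagonal_conjTranspose,
      Matrix.diagonal_mul_diagonal, Matrix.diagonal_mul_diagonal]
    refine congrArg _ (funext fun i => ?_)
    rw [mul_right_comm, Pi.star_apply, h16, one_mul]
  · change h.hat (g (x _)) + I • h.hat (g (x _)) = _
    rw [h18, h18, ← h15, mul_add, add_mul, mul_smul_comm, smul_mul_assoc]
  · change g (x k) = 0
    have h19 := hz _ h12
    rw [show x k = 0 from ?_, map_zero]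
    rcases sigma_cases P with ⟨-, e1, e2⟩ | ⟨-, e1, e2⟩ <;> rw [e1] at k1 k2 <;> rw [e2] at h19 <;>
      fin_cases k <;>
      first | exact z2 | exact z3 | exact z6 | exact z7 | exact h19.1 | exact h19.2 |
        exact absurd rfl k1 | exact absurd rfl k2 | exact absurd rfl k3

end Vale.Agent.P353.SC
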