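import Vale.Agent.P353.SBase

open MeasureTheory NormedSpace
open Complex (I)
open scoped InnerProductSpace ContDiff

noncomputable section
namespace Vale.Agent.P353.SC
variable {N : ℕ}

/-- the step function -/
def gs (u : ℝ) : ℝ := (Set.Ico (0 : ℝ) 5).indicator 1 u - (Set.Ico (6 : ℝ) 11).indicator 1 u

/-- the indicator of an interval of length five -/
def bx (a u : ℝ) : ℝ := (Set.Ico a (a + 5)).indicator 1 u

theorem gs_eq (a u : ℝ) : gs (u - a) = bx a u - bx (a + 6) u := by
  have h1 : u - a ∈ Set.Ico (0 : ℝ) 5 ↔ u ∈ Set.Ico a (a + 5) := by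
    simp only [Set.mem_Ico]
    constructor <;> rintro ⟨h, h'⟩ <;> constructor <;> linarith
  have h2 : u - a ∈ Set.Ico (6 : ℝ) 11 ↔ u ∈ Set.Ico (a + 6) (a + 6 + 5) := by
    simp only [Set.mem_Ico]
    constructor <;> rintro ⟨h, h'⟩ <;> constructor <;> linarith
  simp only [gs, bx, Set.indicator_apply, h1, h2, Pi.one_apply]

theorem bx_mul (a b : ℝ) : (fun u => bx a u * bx b u) =
    (Set.Ico (max a b) (min (a + 5) (b + 5))).indicator 1 := by
  funext u
  rw [← Set.Ico_inter_Ico, Set.inter_indicator_one]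
  rfl

theorem bx_int (a b : ℝ) : Integrable (fun u => bx a u * bx b u) ∧
    ∫ u, bx a u * bx b u = max (5 - |a - b|) 0 := by
  rw [bx_mul]
  constructor
  · exact (integrable_indicator_iff measurableSet_Ico).2
      (integrableOn_const (by simp [Real.volume_Ico]))
  · rw [integral_indicator_one measurableSet_Ico, Real.volume_real_Ico]
    congr 1
    rcases le_total a b with h | h
    · rw [max_eq_right h, min_eq_left (by linarith), abs_of_nonpos (by linarith)]
      ring
    · rw [max_eq_left h, min_eq_right (by linarith), abs_of_nonneg (by linarith)]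
      ring

theorem pint_neg (t : ℝ) : pint (-t) = pint t := by
  simp only [pint, abs_neg]

theorem pint_tent0 {t : ℝ} (h : 0 ≤ t) : pint t =
    4 * max (5 - |t|) 0 - 2 * max (5 - |t - 6|) 0 - 2 * max (5 - |t + 6|) 0 := by
  unfold pint
  rw [abs_of_nonneg h, abs_of_nonneg (by linarith : 0 ≤ t + 6),
    max_eq_right (by linarith : 5 - (t + 6) ≤ 0)]
  have a1 : max (5 - t) 0 = max 5 t - t := by
    rw [← max_sub_sub_right, sub_self]
  rw [a1]
  rcases le_total t 6 with h6 | h6
  · have a2 : max (5 - -(t - 6)) 0 = max 1 t - 1 := by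
      rw [← max_sub_sub_right, sub_self, max_comm]
      congr 1
      ring
    rw [abs_of_nonpos (by linarith), a2, max_eq_left h6, max_eq_left (by linarith : t ≤ 11)]
    ring
  · have a2 : max (5 - (t - 6)) 0 = max 11 t - t := by
      rw [← max_sub_sub_right, sub_self]
      congr 1
      ring
    rw [abs_of_nonneg (by linarith), a2, max_eq_right h6, max_eq_right (by linarith : 1 ≤ t)]
    ring

theorem pint_tent (t : ℝ) : pint t =
    4 * max (5 - |t|) 0 - 2 * max (5 - |t - 6|) 0 - 2 * max (5 - |t + 6|) 0 := by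
  rcases le_total 0 t with h | h
  · exact pint_tent0 h
  · rw [← pint_neg, pint_tent0 (neg_nonneg.2 h), abs_neg, show -t - 6 = -(t + 6) by ring,
      show -t + 6 = -(t - 6) by ring, abs_neg, abs_neg]
    ring

theorem pint_zero : pint 0 = 20 := by
  norm_num [pint]

theorem pint_six : pint 6 = -10 := by
  norm_num [pint]

theorem pint_far {t : ℝ} (h : 11 ≤ t) : pint t = 0 := by
  unfold pint
  rw [abs_of_nonneg (by linarith), max_eq_right (by linarith), max_eq_right (by linarith),
    max_eq_right h, max_eq_right (by linarith)]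
  ring

theorem pint_row (M : ℕ) :
    ∑ i ∈ Finset.range (M + 1), pint (6 * ((M + 1 : ℕ) : ℝ) - 6 * (i : ℝ)) = -10 := by
  rw [Finset.sum_range_succ, Finset.sum_eq_zero, zero_add, ← pint_six]
  · congr 1
    push_cast
    ring
  · intro i hi
    have h1 : i + 1 ≤ M := Finset.mem_range.1 hi
    have h2 : (i : ℝ) + 1 ≤ M := by exact_mod_cast h1
    refine pint_far ?_
    push_cast
    linarith

theorem pint_sum (M : ℕ) : ∑ i ∈ Finset.range (M + 1), ∑ j ∈ Finset.range (M + 1),
    pint (6 * (i : ℝ) - 6 * (j : ℝ)) = 20 := by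
  induction M with
  | zero => simp [pint_zero]
  | succ M ih =>
    rw [Finset.sum_range_succ, Finset.sum_range_succ _ (M + 1), pint_row, sub_self, pint_zero]
    simp only [Finset.sum_range_succ _ (M + 1), Finset.sum_add_distrib]
    have h : ∑ i ∈ Finset.range (M + 1), pint (6 * (i : ℝ) - 6 * ((M + 1 : ℕ) : ℝ)) = -10 := by
      rw [← pint_row M]
      exact Finset.sum_congr rfl fun i _ => by rw [← pint_neg, neg_sub]
    rw [ih, h]
    norm_num

theorem sum_aff (c : ℝ) (n : ℕ) :
    ∑ k ∈ Finset.range n, (6 * (k : ℝ) - c) = 3 * (n * ((n : ℝ) - 1)) - n * c := by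
  induction n with
  | zero => simp
  | succ n ih =>
    rw [Finset.sum_range_succ, ih]
    push_cast
    ring

/-- `∫ 1_[a,a+5) 1_[b,b+5) = max 0 (5 - |a - b|)` -/
theorem pint_eq (a b : ℝ) : Integrable (fun u => gs (u - a) * gs (u - b)) ∧
    2 * ∫ u, gs (u - a) * gs (u - b) = pint (a - b) := by
  have e : (fun u => gs (u - a) * gs (u - b)) = fun u => (bx a u * bx b u - bx a u * bx (b + 6) u) -
      (bx (a + 6) u * bx b u - bx (a + 6) u * bx (b + 6) u) := by
    funext u
    rw [gs_eq, gs_eq]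
    ring
  have i1 : Integrable fun u => bx a u * bx b u - bx a u * bx (b + 6) u :=
    (bx_int a b).1.sub (bx_int a (b + 6)).1
  have i2 : Integrable fun u => bx (a + 6) u * bx b u - bx (a + 6) u * bx (b + 6) u :=
    (bx_int (a + 6) b).1.sub (bx_int (a + 6) (b + 6)).1
  rw [e]
  refine ⟨i1.sub i2, ?_⟩
  rw [integral_sub i1 i2, integral_sub (bx_int _ _).1 (bx_int _ _).1,
    integral_sub (bx_int _ _).1 (bx_int _ _).1, (bx_int _ _).2, (bx_int _ _).2, (bx_int _ _).2,
    (bx_int _ _).2, pint_tent, show a - (b + 6) = a - b - 6 by ring,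
    show a + 6 - b = a - b + 6 by ring, show a + 6 - (b + 6) = a - b by ring]
  ring

theorem Ef_eq (x : Fin N → ℝ) : Integrable (fun u => (∑ i, gs (u - x i)) ^ 2) ∧
    Ef x = 2 * (∫ u, (∑ i, gs (u - x i)) ^ 2) - 20 := by
  have e : (fun u => (∑ i, gs (u - x i)) ^ 2) =
      fun u => ∑ i, ∑ j, gs (u - x i) * gs (u - x j) := by
    funext u
    rw [sq, Finset.sum_mul_sum]
  have i1 : ∀ i, Integrable fun u => ∑ j, gs (u - x i) * gs (u - x j) := fun i =>
    integrable_finsetSum _ fun j _ => (pint_eq _ _).1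
  rw [e]
  refine ⟨integrable_finsetSum _ fun i _ => i1 i, ?_⟩
  rw [integral_finsetSum _ fun i _ => i1 i, Ef, pint_zero, Finset.mul_sum]
  congr 1
  refine Finset.sum_congr rfl fun i _ => ?_
  rw [integral_finsetSum _ fun j _ => (pint_eq _ _).1, Finset.mul_sum]
  exact Finset.sum_congr rfl fun j _ => (pint_eq _ _).2.symm

theorem continuous_Ef : Continuous (Ef : (Fin N → ℝ) → ℝ) := by
  unfold Ef pint
  fun_prop

/-- `pint 0 = 20`, `pint (±6) = -10`, `pint t = 0` for `11 ≤ |t|` -/
theorem Ef_chain (hN : 0 < N) : Ef (chain N) = 0 := by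
  obtain ⟨M, rfl⟩ : ∃ M, N = M + 1 := ⟨N - 1, by omega⟩
  have h : ∀ i j : Fin (M + 1), chain (M + 1) i - chain (M + 1) j =
      6 * ((i : ℕ) : ℝ) - 6 * ((j : ℕ) : ℝ) := fun i j => by
    unfold chain
    ring
  unfold Ef
  simp only [h]
  rw [pint_zero, ← pint_sum M, ← Fin.sum_univ_eq_sum_range
    (fun i => ∑ j ∈ Finset.range (M + 1), pint (6 * (i : ℝ) - 6 * (j : ℝ))), sub_eq_zero]
  exact Finset.sum_congr rfl fun i _ =>
    Fin.sum_univ_eq_sum_range (fun j => pint (6 * ((i : ℕ) : ℝ) - 6 * (j : ℝ))) (M + 1)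

theorem sum_chain : ∑ i, chain N i = 0 := by
  unfold chain
  rw [Fin.sum_univ_eq_sum_range (fun k => 6 * (k : ℝ) - 3 * ((N : ℝ) - 1)) N, sum_aff]
  ring

/-- partial sums of the chain -/
theorem psum_chain (i : Fin N) : ∑ k ∈ Finset.Iic i, chain N k =
    -3 * (((i : ℝ) + 1) * ((N : ℝ) - 1 - i)) := by
  have h : ∑ k ∈ Finset.Iic i, chain N k =
      ∑ k ∈ Finset.range (i + 1), (6 * (k : ℝ) - 3 * ((N : ℝ) - 1)) := by
    rw [Nat.range_succ_eq_Iic, ← Fin.map_valEmbedding_Iic, Finset.sum_map]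
    rfl
  rw [h, sum_aff]
  push_cast
  ring

end Vale.Agent.P353.SC
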