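import Vale.Agent.P353.SShift
import Vale.Agent.P353.SComb
import Vale.Agent.P353.SUnit
import Vale.Agent.P353.SId

open MeasureTheory NormedSpace
open Complex (I)
open scoped InnerProductSpace ContDiff

noncomputable section
namespace Vale.Agent.P353.SC
variable {V : Type} [NormedAddCommGroup V] [InnerProductSpace ℝ V] [FiniteDimensional ℝ V]
  [MeasurableSpace V] [BorelSpace V] {L : CL V} {N : ℕ}

section aux
omit [MeasurableSpace V] [BorelSpace V]

theorem sstd_idx : ∀ k : Fin 9, k = 8 ∨ ∃ c, k = p1 c ∨ k = p2 c := by decide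

theorem sstd_ne : ∀ c d : Fin 4, p1 c ≠ 8 ∧ p2 c ≠ 8 ∧ p1 c ≠ p2 d ∧
    (c ≠ d → p1 c ≠ p1 d ∧ p2 c ≠ p2 d) := by decide

theorem sstd_brz (h : SUN L N) (ξ a b : V) : h.hat (L.br ξ a) + I • h.hat (L.br ξ b) =
    (-I) • (h.hat ξ * (h.hat a + I • h.hat b) - (h.hat a + I • h.hat b) * h.hat ξ) := by
  simp only [hat_br, mul_add, add_mul, Matrix.mul_smul, Matrix.smul_mul]
  module

theorem sstd_zero {M : Matrix (Fin N) (Fin N) ℂ} (h : 0 = (-I) • M) : M = 0 :=
  (smul_eq_zero.1 h.symm).resolve_left (neg_ne_zero.2 Complex.I_ne_zero)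

end aux

/-- `z_surj`, `h.surj`, `sum_chain` -/
theorem exists_std (h : SUN L N) (P : Par) : ∃ p, Std h P p := by
  obtain ⟨a, b, hab⟩ := z_surj h (shift_trace (N := N) P.δ)
  obtain ⟨X, hX⟩ := h.surj (dg (chain N))
    (Matrix.isHermitian_diagonal_of_self_adjoint _ (by funext j; simp)) (by
      rw [dg, Matrix.trace_diagonal, ← Complex.ofReal_sum, sum_chain, Complex.ofReal_zero])
  obtain ⟨n1, n2, n3, -⟩ := sstd_ne (ap P) (ap P)
  refine ⟨WithLp.toLp 2 fun k => if k = 8 then X else if k = p1 (ap P) then a else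
    if k = p2 (ap P) then b else 0, ?_, ?_, fun k h1 h2 h3 => ?_⟩
  · simpa using hX
  · simpa [n1, n2, n3.symm] using hab
  · simp [h1, h2, h3]

theorem Std.unique {h : SUN L N} {P : Par} {p p' : EE V} (h1 : Std h P p) (h2 : Std h P p') :
    p = p' := by
  obtain ⟨e1, e2⟩ := z_inj h (h1.sh.trans h2.sh.symm)
  ext k
  by_cases a1 : k = p1 (ap P)
  · rw [a1, e1]
  by_cases a2 : k = p2 (ap P)
  · rw [a2, e2]
  by_cases a3 : k = 8
  · rw [a3, h.hat_inj (h1.nin.trans h2.nin.symm)]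
  rw [h1.zero k a1 a2 a3, h2.zero k a1 a2 a3]

/-- `fix`: `chain_shift` gives `br X a = 6 b`, `br X b = -6 a` (`z_inj`), then `Amat_apply`,
`sigma_eps`; `mom`: `comm_z`, `shift_comm`; `cent`, `stab`: `scalar_of_comm`, `unitary_of_G`;
`spec`: `hat_br_dg`, `36 k² ≠ w²`. -/
theorem Std.vac {h : SUN L N} (hN : 0 < N) {P : Par} {p : EE V} (hp : Std h P p) :
    Vac P L p := by
  refine ⟨hp.zero, ?_, h.hat_inj ?_, fun ξ hξ => ?_, fun g hg hgp => ?_, fun w hw a ha => ?_⟩
  · obtain ⟨e1, e2⟩ := z_inj h (a' := (6 : ℝ) • p (p2 (ap P))) (b' := (-6 : ℝ) • p (p1 (ap P)))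
      ((sstd_brz h (p 8) (p (p1 (ap P))) (p (p2 (ap P)))).trans (by
        rw [hp.nin, hp.sh, chain_shift, ← hp.sh, map_smul, map_smul]
        ext i j
        simp
        linear_combination (-6 * h.hat (p (p2 (ap P))) i j) * Complex.I_mul_I))
    have e3 : eps (ap P) = P.σ * 6 := by
      linear_combination P.σ * (sigma_eps P).1 - eps (ap P) * P.hσ
    ext k
    change mat Amat p k + P.σ • L.br (p 8) (p k) = 0
    obtain rfl | ⟨c, hc⟩ := sstd_idx k
    · rw [(Amat_apply p 0).2.2, amod0_self, smul_zero, add_zero]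
    by_cases hc' : c = ap P
    · rcases hc with rfl | rfl
      · rw [(Amat_apply p c).1, hc', e1, e3]
        module
      · rw [(Amat_apply p c).2.1, hc', e2, e3]
        module
    · obtain ⟨n1, n2, n3, n4⟩ := sstd_ne c (ap P)
      have z1 := hp.zero _ (n4 hc').1 n3 n1
      have z2 := hp.zero _ (sstd_ne _ _).2.2.1.symm (n4 hc').2 n2
      rcases hc with rfl | rfl
      · simp [(Amat_apply p c).1, z1, z2]
      · simp [(Amat_apply p c).2.1, z1, z2]
  · have h1 := comm_z h (p (p1 (ap P))) (p (p2 (ap P)))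
    rw [hp.sh, shift_comm P.δ0, ← hp.nin] at h1
    refine smul_right_injective _ (two_ne_zero (α := ℂ)) (h1.symm.trans ?_)
    rw [map_smul]
    ext i j
    simp [mul_assoc]
  · have h0 : ∀ k, L.br ξ (p k) = 0 := fun k => congrArg (fun y : EE V => y k) hξ
    have h1 := hat_br h ξ (p 8)
    have h2 := sstd_brz h ξ (p (p1 (ap P))) (p (p2 (ap P)))
    rw [h0, map_zero, hp.nin] at h1
    rw [h0, h0, map_zero, smul_zero, add_zero, hp.sh] at h2
    obtain ⟨c, hc⟩ := scalar_of_comm P.δ0 (sub_eq_zero.1 (sstd_zero h1))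
      (sub_eq_zero.1 (sstd_zero h2))
    have h3 := h.tr0 ξ
    rw [hc, Matrix.trace_smul, Matrix.trace_one, Fintype.card_fin, smul_eq_mul] at h3
    rw [(mul_eq_zero.1 h3).resolve_right (Nat.cast_ne_zero.2 hN.ne'), zero_smul] at hc
    exact h.hat_inj (hc.trans (map_zero _).symm)
  · obtain ⟨U, hU, hg'⟩ := unitary_of_G h hg
    have h0 : ∀ k, U * h.hat (p k) = h.hat (p k) * U := fun k => by
      have h1 := hg' (p k)
      rw [show g (p k) = p k from congrArg (fun y : EE V => y k) hgp] at h1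
      conv_rhs => rw [h1, mul_assoc, hU.1, mul_one]
    obtain ⟨c, hc⟩ := scalar_of_comm (U := U) P.δ0 (hp.nin ▸ h0 8) (by
      rw [← hp.sh, mul_add, add_mul, Matrix.mul_smul, Matrix.smul_mul, h0, h0])
    ext a
    refine h.hat_inj ((hg' a).trans ?_)
    rw [show U * h.hat a = h.hat a * U by simp [hc], mul_assoc, hU.2, mul_one]
    rfl
  · refine h.hat_inj ((Matrix.ext fun i j => ?_).trans (map_zero _).symm)
    have h1 := congrArg (fun y => h.hat y i j) ha
    simp only [hat_br_dg h hp.nin, map_smul, Matrix.smul_apply, Complex.real_smul] at h1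
    have h2 : (((chain N i - chain N j) ^ 2 - w ^ 2 : ℝ) : ℂ) * h.hat a i j = 0 := by
      push_cast at h1 ⊢
      linear_combination -h1 + ((chain N i : ℂ) - chain N j) ^ 2 * h.hat a i j * Complex.I_mul_I
    refine (mul_eq_zero.1 h2).resolve_left (Complex.ofReal_ne_zero.2 fun h3 => ?_)
    have h4 : chain N i - chain N j = ((6 * ((i : ℤ) - j) : ℤ) : ℝ) := by
      simp only [chain]
      push_cast
      ring
    rw [h4, sub_eq_zero, sq_eq_sq_iff_eq_or_eq_neg] at h3
    rcases hw with rfl | rfl | rfl <;> norm_cast at h3 <;> omega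

end Vale.Agent.P353.SC
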