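import Vale.Agent.P353.SLam

open MeasureTheory NormedSpace
open Complex (I)
open scoped InnerProductSpace ContDiff

noncomputable section
namespace Vale.Agent.P353.SC
variable {V : Type} [NormedAddCommGroup V] [InnerProductSpace ℝ V] [FiniteDimensional ℝ V]
  [MeasurableSpace V] [BorelSpace V] (P : Par) (L : CL V)

section aux
omit [FiniteDimensional ℝ V] [MeasurableSpace V] [BorelSpace V]

theorem scv_tens {n m : ℕ} (M : Matrix (Fin n) (Fin m) ℝ) (v : Fin m → ℝ) (a : V) :
    mat M (tens v a) = tens (M.mulVec v) a := by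
  ext i
  simp [Matrix.mulVec, dotProduct, Finset.sum_smul, smul_smul]

theorem scv_add {n : ℕ} (u v : Fin n → ℝ) (a : V) : tens (u + v) a = tens u a + tens v a := by
  ext i
  simp [add_smul]

theorem scv_sum {n : ℕ} {ι : Type} [Fintype ι] (c : ι → ℝ) (v : ι → Fin n → ℝ) (a : V) :
    tens (∑ l, c l • v l) a = ∑ l, c l • tens (v l) a := by
  ext i
  simp [Finset.sum_smul, smul_smul]

theorem scv_zero {n : ℕ} (a : V) : tens (0 : Fin n → ℝ) a = 0 := by
  ext i
  simp

theorem scv_ml {n m : ℕ} (M : Matrix (Fin n) (Fin m) ℝ) (g : V →L[ℝ] V)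
    (x : PiLp 2 (fun _ : Fin m => V)) : mat M (lift g x) = lift g (mat M x) := by
  ext i
  simp

theorem scv_AB (X : V) (y : EE V) : AB P L X y = mat Amat y + P.σ • lift (L.br X) y := rfl

theorem scv_AF (X : V) (u : SS V) :
    AF P L X u = mat (P.hat Amat) u + P.σ • lift (L.br X) u := rfl

theorem scv_jac (X ξ : V) (p : EE V) : lift (L.br X) (lift (L.br ξ) p) =
    lift (L.br (L.br X ξ)) p + lift (L.br ξ) (lift (L.br X) p) := by
  ext i
  exact L.jac X ξ (p i)

theorem scv_tang {X : V} {p : EE V} (h : AB P L X p = 0) (ξ : V) :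
    AB P L X (lift (L.br ξ) p) = P.σ • lift (L.br (L.br X ξ)) p := by
  have h1 : lift (L.br ξ) (AB P L X p) = 0 := by rw [h, map_zero]
  rw [scv_AB, map_add, map_smul] at h1
  rw [scv_AB, scv_ml, scv_jac, smul_add, add_comm (P.σ • _), ← add_assoc, h1, zero_add]

end aux

theorem scv_hat (G : Gam) {A : M9} (hA : A.transpose = -A) (i j : Fin 9) :
    G.hat A * G.g2 i j =
      G.g2 i j * G.hat A + (∑ l, A l i • G.g2 l j + ∑ l, A l j • G.g2 i l) := by
  have h1 : ∑ l, A l i • G.g2 l j = (1 / 2 : ℝ) •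
      ((∑ l, A l i • G.g l) * G.g j - G.g j * ∑ l, A l i • G.g l) := by
    rw [Finset.sum_mul, Finset.mul_sum, ← Finset.sum_sub_distrib, Finset.smul_sum]
    refine Finset.sum_congr rfl fun l _ => ?_
    rw [Gam.g2, smul_mul_assoc, mul_smul_comm, ← smul_sub, smul_comm]
  have h2 : ∑ l, A l j • G.g2 i l = (1 / 2 : ℝ) •
      (G.g i * (∑ l, A l j • G.g l) - (∑ l, A l j • G.g l) * G.g i) := by
    rw [Finset.sum_mul, Finset.mul_sum, ← Finset.sum_sub_distrib, Finset.smul_sum]
    refine Finset.sum_congr rfl fun l _ => ?_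
    rw [Gam.g2, smul_mul_assoc, mul_smul_comm, ← smul_sub, smul_comm]
  rw [h1, h2, ← G.hat_comm hA, ← G.hat_comm hA, Gam.g2, mul_smul_comm, smul_mul_assoc,
    ← smul_add, ← smul_add]
  congr 1
  noncomm_ring

theorem scv_adj {S S' : Type} [NormedAddCommGroup S] [InnerProductSpace ℝ S]
    [FiniteDimensional ℝ S] [CompleteSpace S] [NormedAddCommGroup S'] [InnerProductSpace ℝ S']
    [FiniteDimensional ℝ S'] [CompleteSpace S'] {A : S →L[ℝ] S} {A' : S' →L[ℝ] S'}
    (hA : Skew A) (hA' : Skew A') {C : S →L[ℝ] S'} (h : ∀ y, A' (C y) = C (A y)) (u : S') :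
    A (C.adjoint u) = C.adjoint (A' u) :=
  ext_inner_left ℝ fun y => by
    have h1 := hA y (C.adjoint u)
    have h2 := hA' (C y) u
    rw [ContinuousLinearMap.adjoint_inner_right, ← h] at h1
    rw [ContinuousLinearMap.adjoint_inner_right]
    linarith

theorem scv_psi (n : EE V) : (P.psi P.e).adjoint (P.psi P.e n) = n :=
  ext_inner_left ℝ fun y => by
    rw [ContinuousLinearMap.adjoint_inner_right, Gam.psi_inner _ P.he]

theorem scv_Lam (x : EE V) (u : SS V) : Lam P L x u = ds P L x ((P.psi P.e).adjoint u) -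
    P.psi P.e ((ds P L x).adjoint u) - AF P L (x 8) u := by
  rw [Lam_eq, ContinuousLinearMap.adjoint_comp, ContinuousLinearMap.adjoint_adjoint]
  rfl

theorem scv_fix {S : Type} [NormedAddCommGroup S] [InnerProductSpace ℝ S] [FiniteDimensional ℝ S]
    {T : S →L[ℝ] S} {p : S} (h : T p = 0) : expL T p = p := by
  have := expL_intertwine (ContinuousLinearMap.toSpanSingleton ℝ p) (T := T) (T' := 0)
    (fun u => by simp [h]) 1
  simpa [expL] using this

theorem scv_low {S : Type} [NormedAddCommGroup S] [InnerProductSpace ℝ S] [FiniteDimensional ℝ S]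
    {T : S →L[ℝ] S} (h : ∀ u, T u = 0 → u = 0) : ∃ c > 0, ∀ u, ‖u‖ ≤ c * ‖T u‖ := by
  obtain ⟨K, hK, hT⟩ := T.toLinearMap.exists_antilipschitzWith (LinearMap.ker_eq_bot'.2 h)
  exact ⟨K, hK, fun u => ZeroHomClass.bound_of_antilipschitz T.toLinearMap hT u⟩

theorem scv_rot {A ι : Type} [AddCommMonoid A] [Fintype ι] (f : ι → ι → ι → A) :
    ∑ i, ∑ j, ∑ l, f i j l = ∑ l, ∑ j, ∑ i, f i j l := by
  rw [Finset.sum_comm, Finset.sum_congr rfl fun j _ => Finset.sum_comm, Finset.sum_comm]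

/-- Jacobi identity -/
theorem bil_gauge (ξ : V) (x y : EE V) : lift (L.br ξ) (bil P L x y) =
    bil P L (lift (L.br ξ) x) y + bil P L x (lift (L.br ξ) y) := by
  simp only [bil, map_neg, map_sum, amod0_lift, L.jac ξ, map_add, Finset.sum_add_distrib, neg_add,
    lift_apply]
/-- `A^ γ^{ij} e = [A^, γ^{ij}] e = ∑ l, (A l i γ^{lj} + A l j γ^{il}) e` by `hat_comm`, `hat_e`,
`mul_eq` (the scalar terms cancel because `A` is antisymmetric) -/
theorem bil_rot (x y : EE V) : mat (P.hat Amat) (bil P L x y) =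
    bil P L (mat Amat x) y + bil P L x (mat Amat y) := by
  have h1 (i j : Fin 9) : (P.hat Amat).mulVec ((P.g2 i j).mulVec P.e) =
      ∑ l, Amat l i • (P.g2 l j).mulVec P.e + ∑ l, Amat l j • (P.g2 i l).mulVec P.e := by
    rw [Matrix.mulVec_mulVec, scv_hat _ Amat_transpose, Matrix.add_mulVec, ← Matrix.mulVec_mulVec,
      P.hat_e.1, Matrix.mulVec_zero, zero_add, Matrix.add_mulVec, Matrix.sum_mulVec,
      Matrix.sum_mulVec]
    simp only [Matrix.smul_mulVec]
  simp only [bil, map_neg, map_sum, scv_tens, h1, scv_add, scv_sum, Finset.sum_add_distrib,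
    neg_add, mat_apply, map_smul, sum_apply, smul_apply]
  congr 2
  · exact (scv_rot _).trans rfl
  · exact Finset.sum_congr rfl fun i _ => Finset.sum_comm
theorem AF_s1 (X : V) (y : EE V) : AF P L X (P.s1 y) = P.s1 (AB P L X y) := by
  have h8 : AB P L X y 8 = P.σ • L.br X (y 8) := by
    rw [scv_AB, PiLp.add_apply, (Amat_apply y 0).2.2, zero_add]
    rfl
  have h1 : AB P L X (mat Amat y) = mat Amat (AB P L X y) := by
    rw [scv_AB, scv_AB, map_add, map_smul, scv_ml]
  rw [amod0_s1, amod0_s1, map_add, map_smul, AF_psi, h1, h8, scv_AF, scv_tens, P.hat_e.2, scv_zero,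
    zero_add, amod0_lift, map_smul]
theorem AF_ds {X : V} {p : EE V} (h : AB P L X p = 0) (y : EE V) :
    AF P L X (ds P L p y) = ds P L p (AB P L X y) := by
  obtain ⟨B, hB⟩ := bil_clm P L
  have h1 : AF P L X (bil P L p y) = B (AB P L X p) y + B p (AB P L X y) := by
    rw [scv_AF, bil_rot, bil_gauge, scv_AB, scv_AB]
    simp only [← hB, map_add, map_smul, add_apply, smul_apply, smul_add]
    abel
  rw [ds_apply, ds_apply, map_add, AF_s1, h1, h, map_zero, zero_apply, zero_add, hB]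
theorem ds_tang {p : EE V} (h : sv P L p = 0) (ξ : V) :
    ds P L p (lift (L.br ξ) p) = 0 := by
  have h1 : lift (L.br ξ) (sv P L p) = 0 := by rw [h, map_zero]
  rw [sv, s0_eq_bil, map_add, map_smul, bil_gauge, bil_symm P L _ p, ← two_smul ℝ, smul_smul,
    ← P.s1_lift] at h1
  rw [ds_apply, ← h1]
  norm_num
/-- `Lam_eq`, `AF_ds`, and the adjoint of `AF_psi` -/
theorem AF_Lam {p : EE V} (h : AB P L (p 8) p = 0) :
    AF P L (p 8) * Lam P L p = Lam P L p * AF P L (p 8) := by
  ext1 u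
  have h1 := scv_adj (skew_AB P L (p 8)) (skew_AF P L (p 8)) (AF_psi P L (p 8)) u
  have h2 := scv_adj (skew_AB P L (p 8)) (skew_AF P L (p 8)) (AF_ds P L h) u
  change AF P L (p 8) (Lam P L p u) = Lam P L p (AF P L (p 8) u)
  rw [scv_Lam, scv_Lam, map_sub, map_sub, AF_ds P L h, AF_psi, h1, h2]
/-- derivative of `psi_adj_sv` (or polarise it) -/
theorem psi_adj_ds (p y : EE V) : (P.psi P.e).adjoint (ds P L p y) =
    AB P L (p 8) y + P.σ • lift (L.br (y 8)) p := by
  have h1 := psi_adj_sv P L (p + y)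
  have h2 := psi_adj_sv P L y
  have h3 (z : EE V) : lift (L.br ((p + y) 8)) z = lift (L.br (p 8)) z + lift (L.br (y 8)) z := by
    ext i
    simp
  rw [sv, map_add, P.psi_adj_s1, scv_AB, add_comm, add_right_inj] at h2
  rw [sv_add, map_add, map_add, psi_adj_sv, h2, scv_AB, scv_AB, h3] at h1
  simp only [map_add, smul_add] at h1
  rw [scv_AB]
  linear_combination (norm := abel1) h1
/-- `dsᵀ ψ n = - 𝒜 n` for normal `n` -/
theorem Lam_psi {p n : EE V} (hn : Nrm L p n) : Lam P L p (P.psi P.e n) = ds P L p n := by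
  have h1 : (ds P L p).adjoint (P.psi P.e n) = -AB P L (p 8) n :=
    ext_inner_left ℝ fun y => by
      rw [ContinuousLinearMap.adjoint_inner_right, ← ContinuousLinearMap.adjoint_inner_left,
        psi_adj_ds, inner_add_left, real_inner_smul_left, hn, skew_AB, inner_neg_right, mul_zero,
        add_zero]
  rw [scv_Lam, scv_psi, h1, AF_psi, map_neg, sub_neg_eq_add, add_sub_cancel_right]
/-- `Λ (ds n) = ds (ψᵀ ds n) - ψ dsᵀ ds n - 𝒜^F ds n`, then `psi_adj_ds`, `ds_tang`, `AF_ds` -/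
theorem Lam_ds {p : EE V} (h : sv P L p = 0) (n : EE V) : Lam P L p (ds P L p n) =
    -P.psi P.e ((ds P L p).adjoint (ds P L p n)) := by
  rw [scv_Lam, psi_adj_ds, map_add, map_smul, ds_tang P L h, smul_zero, add_zero,
    AF_ds P L (zero_eqs P L h).2.2.1]
  abel
theorem nrm_adj {p : EE V} (h : sv P L p = 0) (u : SS V) :
    Nrm L p ((ds P L p).adjoint u) := fun ξ => by
  rw [ContinuousLinearMap.adjoint_inner_right, ds_tang P L h, inner_zero_left]
/-- `𝒜 [ξ, p] = σ [[X, ξ], p]` when `𝒜 p = 0` -/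
theorem nrm_AB {X : V} {p n : EE V} (h : AB P L X p = 0) (hn : Nrm L p n) :
    Nrm L p (AB P L X n) := fun ξ => by
  have h1 := skew_AB P L X (lift (L.br ξ) p) n
  rw [scv_tang P L h, real_inner_smul_left, hn, mul_zero] at h1
  linarith
/-- `expL_intertwine` with the inclusion of the normal space, or closedness of the normal space -/
theorem nrm_exp {X : V} {p n : EE V} (h : AB P L X p = 0) (hn : Nrm L p n) (r : ℝ) :
    Nrm L p (expL (r • AB P L X) n) := fun ξ => by
  let τ : V →L[ℝ] EE V := LinearMap.toContinuousLinearMap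
    { toFun := fun ξ => lift (L.br ξ) p
      map_add' := fun a b => by ext i; simp
      map_smul' := fun a b => by ext i; simp }
  have hs : Skew (r • AB P L X) := fun u v => by
    rw [smul_apply, smul_apply, real_inner_smul_left, real_inner_smul_right, skew_AB, mul_neg]
  have h1 := expL_intertwine τ (T := r • AB P L X) (T' := (r * P.σ) • L.br X) (fun u => by
    rw [smul_apply, smul_apply, map_smul, mul_smul]
    exact congrArg (r • ·) (scv_tang P L h u)) (expL (-((r * P.σ) • L.br X)) ξ)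
  have h2 : expL ((r * P.σ) • L.br X) (expL (-((r * P.σ) • L.br X)) ξ) = ξ :=
    DFunLike.congr_fun (expL_mul_neg ((r * P.σ) • L.br X)).1 ξ
  rw [h2] at h1
  change ⟪τ ξ, _⟫_ℝ = 0
  rw [← h1, expL_inner hs]
  exact hn _
theorem exp_fix {X : V} {p : EE V} (h : AB P L X p = 0) (r : ℝ) :
    expL (r • AB P L X) p = p := scv_fix (by rw [smul_apply, h, smul_zero])
/-- `expL_add`, `expL_lift`, `mat_lift` -/
theorem exp_AB (X : V) (r : ℝ) (x : EE V) : expL (r • AB P L X) x =
    lift (L.ex ((r * P.σ) • X)) (expL (r • (mat Amat : EE V →L[ℝ] EE V)) x) := by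
  have h1 : r • AB P L X =
      lift (L.br ((r * P.σ) • X)) + r • (mat Amat : EE V →L[ℝ] EE V) := by
    ext y i
    simp [scv_AB, smul_smul, add_comm]
  have h2 : lift (L.br ((r * P.σ) • X)) * (r • (mat Amat : EE V →L[ℝ] EE V)) =
      (r • (mat Amat : EE V →L[ℝ] EE V)) * lift (L.br ((r * P.σ) • X)) := by
    ext1 y
    change lift _ (r • mat Amat y) = r • mat Amat (lift (L.br ((r * P.σ) • X)) y)
    rw [map_smul, scv_ml]
  rw [h1, expL_add h2, expL_lift]
  rfl
/-- nondegeneracy implies that the orbit meets the normal slice only at `p` -/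
theorem orb_nrm {p : EE V} (h : sv P L p = 0) (hi : ∀ u, Lam P L p u = 0 → u = 0) :
    ∃ ρ > 0, ∀ n, Nrm L p n → ‖n‖ < ρ → p + n ∈ orb L p → n = 0 := by
  obtain ⟨c, hc, hl⟩ := scv_low hi
  obtain ⟨K, hK, hs⟩ := norm_s0_le P L
  refine ⟨1 / (c * K), by positivity, fun n hn hρ ⟨g, hg, e⟩ => ?_⟩
  have h1 := sv_add P L p n
  rw [← e, sv_G P L hg, h, map_zero, zero_add, eq_comm, add_eq_zero_iff_eq_neg] at h1
  have h2 := hl (P.psi P.e n)
  have h3 : ‖P.psi P.e n‖ = ‖n‖ := by
    rw [norm_eq_sqrt_real_inner, Gam.psi_inner _ P.he, ← norm_eq_sqrt_real_inner]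
  rw [Lam_psi P L hn, h1, norm_neg, h3] at h2
  rw [lt_div_iff₀ (by positivity)] at hρ
  have h4 := h2.trans (mul_le_mul_of_nonneg_left (hs n) hc.le)
  by_contra h0
  nlinarith [mul_lt_mul_of_pos_left hρ (norm_pos_iff.2 h0)]

end Vale.Agent.P353.SC
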