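import Vale.Agent.P353.SBase

open MeasureTheory NormedSpace
open Complex (I)
open scoped InnerProductSpace ContDiff

noncomputable section
namespace Vale.Agent.P353.SC
variable {S F : Type} [NormedAddCommGroup S] [InnerProductSpace ℝ S] [FiniteDimensional ℝ S]
  [NormedAddCommGroup F] [InnerProductSpace ℂ F] [CompleteSpace F]
  {T : Type} [NormedAddCommGroup T] [InnerProductSpace ℝ T] [FiniteDimensional ℝ T]
  [MeasurableSpace T] [BorelSpace T]

omit [FiniteDimensional ℝ T] [MeasurableSpace T] [BorelSpace T] in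
theorem SModel2_smooth (W : T →L[ℝ] T) : ContDiff ℝ ∞ (gau W) :=
  Real.contDiff_exp.comp ((contDiff_id.inner ℝ W.contDiff).neg.div_const 2)

omit [FiniteDimensional ℝ T] [MeasurableSpace T] [BorelSpace T] in
theorem SModel2_gd {W : T →L[ℝ] T} (hW : Symm W) (t : T) :
    HasFDerivAt (gau W) (-gau W t • innerSL ℝ (W t)) t := by
  have h := ((aosc_quad_deriv hW t).fun_neg.mul_const 2⁻¹).exp
  simp only [← div_eq_mul_inv] at h
  refine h.congr_fderiv (ContinuousLinearMap.ext fun v => ?_)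
  simp [gau]

theorem SModel2_sq {s : ℝ} (hs : 0 < s) (a b : ℝ) :
    (a - b) ^ 2 ≤ (1 + s) * b ^ 2 + (1 + s⁻¹) * a ^ 2 := by
  have e : (1 + s) * b ^ 2 + (1 + s⁻¹) * a ^ 2 - (a - b) ^ 2 = s⁻¹ * (s * b + a) ^ 2 := by
    field_simp
    ring
  exact sub_nonneg.1 (e ▸ by positivity)

omit [CompleteSpace F] in
theorem SModel2_ns (a : ℝ) {w : F} (hw : ‖w‖ = 1) : ‖a • w‖ ^ 2 = a ^ 2 := by
  rw [norm_smul, hw, mul_one, Real.norm_eq_abs, sq_abs]

omit [MeasurableSpace T] [BorelSpace T] [CompleteSpace F] in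
theorem SModel2_g2 {W : T →L[ℝ] T} (hW : Symm W) {β : T → ℝ} (hβ : Differentiable ℝ β)
    (h1 : ∀ t, β t ^ 2 ≤ 1) {C s : ℝ} (hC : ∀ t, ‖fderiv ℝ β t‖ ≤ C) (hs : 0 < s) {w : F}
    (hw : ‖w‖ = 1) (t : T) : g2 (fun t => (β t * gau W t) • w) t ≤
      (1 + s) * (⟪t, (W * W) t⟫_ℝ * gau W t ^ 2) +
        (1 + s⁻¹) * (Module.finrank ℝ T * C ^ 2) * gau W t ^ 2 := by
  have h2 : ⟪t, (W * W) t⟫_ℝ = ∑ k, ⟪W t, stdOrthonormalBasis ℝ T k⟫_ℝ ^ 2 := by
    rw [OrthonormalBasis.sum_sq_inner_left, ← real_inner_self_eq_norm_sq, hW]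
    rfl
  have h3 : (Module.finrank ℝ T * C ^ 2 : ℝ) = ∑ _k : Fin (Module.finrank ℝ T), C ^ 2 := by simp
  rw [g2, (((hβ t).hasFDerivAt.fun_mul (SModel2_gd hW t)).smul_const w).fderiv, h2, h3]
  simp only [Finset.sum_mul, Finset.mul_sum, ← Finset.sum_add_distrib]
  refine Finset.sum_le_sum fun k _ => ?_
  rw [ContinuousLinearMap.smulRight_apply, SModel2_ns _ hw]
  simp only [ContinuousLinearMap.add_apply, ContinuousLinearMap.smul_apply, innerSL_apply_apply,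
    smul_eq_mul]
  have h4 : |fderiv ℝ β t (stdOrthonormalBasis ℝ T k)| ≤ C := by
    have h5 := (fderiv ℝ β t).le_opNorm (stdOrthonormalBasis ℝ T k)
    rw [OrthonormalBasis.norm_eq_one, mul_one] at h5
    exact h5.trans (hC t)
  have h5 := pow_le_pow_left₀ (abs_nonneg _) h4 2
  rw [sq_abs] at h5
  generalize fderiv ℝ β t (stdOrthonormalBasis ℝ T k) = a at h5
  generalize ⟪W t, stdOrthonormalBasis ℝ T k⟫_ℝ = b
  generalize gau W t = G
  have h6 := mul_le_mul_of_nonneg_right (SModel2_sq hs a (β t * b)) (sq_nonneg G)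
  have h7 := mul_le_mul_of_nonneg_right (h1 t) (show 0 ≤ (1 + s) * (b ^ 2 * G ^ 2) by positivity)
  have h8 := mul_le_mul_of_nonneg_right h5 (show 0 ≤ (1 + s⁻¹) * G ^ 2 by positivity)
  linarith

omit [CompleteSpace F] in
theorem SModel2_osc {W : T →L[ℝ] T} {c : ℝ} (hc : 0 < c) (hW : Pos c W) {β : T → ℝ}
    (hβ : Differentiable ℝ β) (h1 : ∀ t, β t ^ 2 ≤ 1) {C s : ℝ} (hC : ∀ t, ‖fderiv ℝ β t‖ ≤ C)
    (hs : 0 < s) {w : F} (hw : ‖w‖ = 1) : osc W (fun t => (β t * gau W t) • w) ≤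
      ((2 + s) * tr W / 4 + (1 + s⁻¹) * (Module.finrank ℝ T * C ^ 2) / 2) *
        ∫ t, gau W t ^ 2 := by
  obtain ⟨i1, e1⟩ := gau_cov hc hW (W * W)
  rw [Ring.mul_inverse_cancel_right _ _ (hW.isUnit hc).1] at e1
  have i2 := aosc_int hc hW
  have h2 := integral_mono_of_nonneg
    (Filter.Eventually.of_forall fun t => Finset.sum_nonneg fun k _ => sq_nonneg _)
    ((i1.const_mul _).fun_add (i2.const_mul _))
    (Filter.Eventually.of_forall (SModel2_g2 hW.1 hβ h1 hC hs hw))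
  rw [integral_add (i1.const_mul _) (i2.const_mul _), integral_const_mul, integral_const_mul,
    e1] at h2
  have h3 : wt (fun t => (1 / 2) * ‖W t‖ ^ 2) (fun t => (β t * gau W t) • w) ≤
      ∫ t, (1 / 2) * (⟪t, (W * W) t⟫_ℝ * gau W t ^ 2) := by
    refine integral_mono_of_nonneg (Filter.Eventually.of_forall fun t => by positivity)
      (i1.const_mul _) (Filter.Eventually.of_forall fun t => ?_)
    have h4 : ⟪t, (W * W) t⟫_ℝ = ‖W t‖ ^ 2 := by
      rw [← real_inner_self_eq_norm_sq, hW.1]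
      rfl
    have h5 := mul_le_mul_of_nonneg_right (h1 t)
      (show 0 ≤ ‖W t‖ ^ 2 * gau W t ^ 2 by positivity)
    simp only [SModel2_ns _ hw, h4]
    linarith
  rw [integral_const_mul, e1] at h3
  have h4 : ∫ t, g2 (fun t => (β t * gau W t) • w) t ≤ _ := h2
  rw [osc, kin]
  linarith

omit [CompleteSpace F] in
theorem SModel2_n2 {W : T →L[ℝ] T} {c : ℝ} (hc : 0 < c) (hW : Pos c W) {β : T → ℝ}
    (hβ : Continuous β) (h1 : ∀ t, β t ^ 2 ≤ 1) {a K : ℝ} (ha : 0 ≤ a)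
    (h2 : ∀ t, 1 - a * ‖t‖ ^ 2 ≤ β t ^ 2)
    (hK : ∫ z, ‖z‖ ^ (2 * 1) * gau W z ^ 2 ≤ K / c ^ 1 * ∫ z, gau W z ^ 2) {w : F}
    (hw : ‖w‖ = 1) :
    (1 - a * K / c) * ∫ t, gau W t ^ 2 ≤ n2 fun t => (β t * gau W t) • w := by
  have i1 := aosc_int_pow hc hW 1
  have i2 := aosc_int hc hW
  have i3 : Integrable fun t => β t ^ 2 * gau W t ^ 2 :=
    i2.bdd_mul (c := 1) (hβ.pow 2).aestronglyMeasurable
      (Filter.Eventually.of_forall fun t => (Real.norm_of_nonneg (sq_nonneg _)).trans_le (h1 t))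
  have h3 := integral_mono (i2.sub' (i1.const_mul a)) i3 fun t => by
    have h4 := mul_le_mul_of_nonneg_right (h2 t) (sq_nonneg (gau W t))
    simp only [mul_one]
    linarith
  rw [integral_sub i2 (i1.const_mul a), integral_const_mul] at h3
  have h4 := mul_le_mul_of_nonneg_left hK ha
  simp only [n2, SModel2_ns _ hw, mul_pow]
  rw [pow_one] at h4
  rw [mul_div_assoc]
  linarith

/-- Trial function `b = β · gau (lam • Om)` with the radial cut off
`β t = Real.smoothTransition (2 - 8 ‖t‖² / r²)`.  `|∇b|² ≤ (1+s) |W t|² G² + (1+1/s) |∇β|² G²`,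
`∫ |W t|² G² = (1/2) tr W · Z` (`gau_cov` with `A = W * W`), `∫ b² ≥ (1 - K / (lam c r²)) Z`
(`gau_moment` with `k = 1`). -/
theorem model_trial {Om : T →L[ℝ] T} {c : ℝ} (hc : 0 < c) (hO : Pos c Om) {r η : ℝ} (hr : 0 < r)
    (hη : 0 < η) : ∃ l0 : ℝ, ∀ lam, l0 ≤ lam → ∃ b : T → ℝ,
      (∀ t t', ‖t'‖ = ‖t‖ → ⟪t', Om t'⟫_ℝ = ⟪t, Om t⟫_ℝ → b t' = b t) ∧
      ∀ w : F, ‖w‖ = 1 → Tst (fun t => b t • w) ∧
        tsupport (fun t => b t • w) ⊆ Metric.ball 0 r ∧ 0 < n2 (fun t => b t • w) ∧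
        osc (lam • Om) (fun t => b t • w) ≤ lam * (tr Om / 2 + η) * n2 (fun t => b t • w) := by
  obtain ⟨β, hβ⟩ : ∃ β : T → ℝ, β = fun t => Real.smoothTransition (2 - 8 / r ^ 2 * ‖t‖ ^ 2) :=
    ⟨_, rfl⟩
  have hs : ContDiff ℝ ∞ β := hβ ▸ Real.smoothTransition.contDiff.comp
    (contDiff_const.sub (contDiff_const.mul (contDiff_norm_sq ℝ)))
  have h0 : ∀ t, t ∉ Metric.closedBall (0 : T) (r / 2) → β t = 0 := fun t ht => by
    rw [mem_closedBall_zero_iff, not_le] at ht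
    rw [hβ]
    refine Real.smoothTransition.zero_of_nonpos ?_
    rw [sub_nonpos, div_mul_eq_mul_div, le_div_iff₀ (by positivity)]
    nlinarith
  have h1 : ∀ t, β t ^ 2 ≤ 1 := fun t => by
    rw [hβ]
    exact pow_le_one₀ (Real.smoothTransition.nonneg _) (Real.smoothTransition.le_one _)
  have h2 : ∀ t, 1 - 8 / r ^ 2 * ‖t‖ ^ 2 ≤ β t ^ 2 := fun t => by
    rcases le_total (8 / r ^ 2 * ‖t‖ ^ 2) 1 with h | h
    · have h3 : β t = 1 := by
        rw [hβ]
        exact Real.smoothTransition.one_of_one_le (by linarith)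
      rw [h3, one_pow]
      exact sub_le_self _ (by positivity)
    · exact (sub_nonpos.2 h).trans (sq_nonneg _)
  obtain ⟨C, hC⟩ := (hs.continuous_fderiv (by simp)).bounded_above_of_compact_support
    ((HasCompactSupport.intro (isCompact_closedBall _ _) h0).fderiv ℝ)
  obtain ⟨K, hK, h3⟩ := gau_moment (E := T) 1
  have hτ : 0 ≤ tr Om := by
    rw [tr_eq_sum (stdOrthonormalBasis ℝ T)]
    exact Finset.sum_nonneg fun k _ => le_trans (by positivity) (hO.2 _)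
  obtain ⟨s, hs0, hsη⟩ : ∃ s : ℝ, 0 < s ∧ s * tr Om ≤ 2 * η :=
    ⟨2 * η / (tr Om + 1), by positivity, by
      rw [div_mul_eq_mul_div, div_le_iff₀ (by positivity)]
      nlinarith⟩
  obtain ⟨A, hA⟩ : ∃ A, A = 8 / r ^ 2 * K / c := ⟨_, rfl⟩
  obtain ⟨B, hB⟩ : ∃ B, B = (1 + s⁻¹) * (Module.finrank ℝ T * C ^ 2) / 2 := ⟨_, rfl⟩
  have hA0 : 0 < A := hA ▸ by positivity
  refine ⟨max (A + 1) ((B + A * (tr Om / 2 + η)) / (η / 2)), fun lam hl =>
    ⟨fun t => β t * gau (lam • Om) t, fun t t' h4 h5 => ?_, fun w hw => ?_⟩⟩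
  · simp only [hβ, gau, h4, ContinuousLinearMap.smul_apply, inner_smul_right, h5]
  obtain ⟨hl1, hl2⟩ := max_le_iff.1 hl
  have hl0 : 0 < lam := by linarith
  have hW : Pos (lam * c) (lam • Om) :=
    ⟨fun u v => by
      simp only [ContinuousLinearMap.smul_apply, inner_smul_right, real_inner_smul_left, hO.1 u v],
    fun u => by
      rw [ContinuousLinearMap.smul_apply, inner_smul_right, mul_assoc]
      exact mul_le_mul_of_nonneg_left (hO.2 u) hl0.le⟩
  have hlc := mul_pos hl0 hc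
  have h4 : ∀ t, t ∉ Metric.closedBall (0 : T) (r / 2) → (β t * gau (lam • Om) t) • w = 0 :=
    fun t ht => by rw [h0 t ht, zero_mul, zero_smul]
  have hZ : 0 < ∫ t, gau (lam • Om) t ^ 2 := by
    rw [(gau_sq_integral hlc hW).2]
    exact Real.sqrt_pos.2 (div_pos (pow_pos Real.pi_pos _) (det_pos_of_pos hlc hW))
  have h5 := SModel2_n2 hlc hW hs.continuous h1 (by positivity) h2 (h3 _ _ hlc hW).2 hw
  have h6 := SModel2_osc hlc hW (hs.differentiable (by simp)) h1 hC hs0 hw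
  have h7 : tr (lam • Om) = lam * tr Om := by simp [tr]
  rw [h7, ← hB] at h6
  rw [mul_comm lam c, ← div_div, ← hA] at h5
  have h8 : 0 < 1 - A / lam := by
    rw [sub_pos, div_lt_one hl0]
    linarith
  refine ⟨⟨(hs.mul (SModel2_smooth _)).smul contDiff_const,
    HasCompactSupport.intro (isCompact_closedBall _ _) h4⟩,
    (closure_minimal (Function.support_subset_iff'.2 h4) Metric.isClosed_closedBall).trans
      (Metric.closedBall_subset_ball (half_lt_self hr)), (mul_pos h8 hZ).trans_le h5,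
    h6.trans (le_trans ?_ (mul_le_mul_of_nonneg_left h5 (by positivity)))⟩
  rw [← mul_assoc _ (1 - A / lam)]
  refine mul_le_mul_of_nonneg_right ?_ hZ.le
  rw [div_le_iff₀ (half_pos hη)] at hl2
  have h9 : lam * (tr Om / 2 + η) * (1 - A / lam) =
      lam * (tr Om / 2 + η) - A * (tr Om / 2 + η) := by field_simp
  have h10 := mul_le_mul_of_nonneg_left hsη hl0.le
  rw [h9]
  linarith

end Vale.Agent.P353.SC
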