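import Vale.Agent.P353.SComp
import Vale.Agent.P353.SModel
import Vale.Agent.P353.SModel2
import Vale.Agent.P353.SCov
import Vale.Agent.P353.GExt

open MeasureTheory NormedSpace
open Complex (I)
open scoped InnerProductSpace ContDiff

noncomputable section
namespace Vale.Agent.P353.SC
variable {V F : Type} [NormedAddCommGroup V] [InnerProductSpace ℝ V] [FiniteDimensional ℝ V]
  [MeasurableSpace V] [BorelSpace V]
  [NormedAddCommGroup F] [InnerProductSpace ℂ F] [CompleteSpace F]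
  {T : Type} [NormedAddCommGroup T] [InnerProductSpace ℝ T] [FiniteDimensional ℝ T]
  [MeasurableSpace T] [BorelSpace T]

/-- the vacuum vector is fixed by the unbroken one-parameter group: the two spins commute
(`spin_lie`), their sum is `spin (r • AF)`, which kills `w` (`spin_vac`, `charge`) -/
theorem vac_fixed (M : Mod V F) {P : Par} {p : EE V} {j : T →L[ℝ] EE V} (H : Harm P M.L p j)
    {w : F} (hw : M.C.vac H.J w = w) (r : ℝ) :
    M.rho ((r * P.σ) • p 8) (exp (r • M.C.spin (mat (P.hat Amat))) w) = w := by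
  have h2 : Commute (M.C.spin (mat (P.hat Amat))) (M.C.spin (lift (M.L.br ((r * P.σ) • p 8)))) :=
    cv_spin_commute M.C (skew_mat (P.toGam.hat_transpose Amat)) (skew_lift (M.L.skew_br _))
      (cv_mat_lift _ _)
  have e1 : (lift (M.L.br ((r * P.σ) • p 8)) : SS V →L[ℝ] SS V) =
      r • (P.σ • lift (M.L.br (p 8))) := by
    ext x i
    simp [mul_smul]
  have e2 : M.C.spin (lift (M.L.br ((r * P.σ) • p 8))) + r • M.C.spin (mat (P.hat Amat)) =
      r • M.C.spin (AF P M.L (p 8)) := by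
    rw [e1, AF, M.C.spin_add, M.C.spin_smul r, smul_add, add_comm]
  have h1 := M.C.spin_vac H.cs (skew_AF P M.L (p 8)) H.commA
  rw [H.charge] at h1
  have h3 : SemiconjBy (M.C.vac H.J) 0 (r • M.C.spin (AF P M.L (p 8))) := by
    rw [SemiconjBy, smul_mul_assoc, h1]
    simp
  have h5 := AExp.add (h2.smul_left r).symm
  let _ : NormedAlgebra ℚ (F →L[ℂ] F) := NormedAlgebra.restrictScalars ℚ ℂ _
  have h4 := h3.exp_right.eq
  rw [exp_zero, mul_one, ← e2, h5] at h4
  have h6 := congrArg (fun B : F →L[ℂ] F => B w) h4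
  simp only [mul_apply_eq_comp, hw] at h6
  exact h6.symm

theorem rot_rho (M : Mod V F) (G : Gam) (r : ℝ) (ξ : V) :
    exp (r • M.C.spin (mat (G.hat Amat))) * M.rho ξ =
      M.rho ξ * exp (r • M.C.spin (mat (G.hat Amat))) := by
  have h2 : Commute (M.C.spin (mat (G.hat Amat))) (M.C.spin (lift (M.L.br ξ))) :=
    cv_spin_commute M.C (skew_mat (G.hat_transpose Amat)) (skew_lift (M.L.skew_br ξ))
      (cv_mat_lift _ _)
  exact (h2.smul_left r).exp

/-- the fermionic energy of a function with values on an eigenline -/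
theorem str_opf {B : F →L[ℂ] F} {w : F} {a : ℝ} (h : B w = a • w) (b : T → ℝ) :
    opf (fun _ => B) (fun t => b t • w) = a * n2 (fun t => b t • w) := by
  rw [opf, n2, ← integral_const_mul]
  refine integral_congr_ae (Filter.Eventually.of_forall fun t => ?_)
  have e : B (b t • w) = a • (b t • w) := by
    rw [B.map_smul_of_tower, h, smul_comm]
  simp only [e]
  rw [← Complex.coe_smul a, inner_smul_right, Complex.re_ofReal_mul, af0_self]

/-- the numerical part of the trial estimate -/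
theorem str_num {η e a K lam c n N o q : ℝ} (he : 0 < e) (he1 : e ≤ 1 / 2)
    (he2 : e * (|a| + 3) ≤ η / 4) (hK : 4 * K < η * lam) (hl : 0 < lam) (hη : 0 < η) (hc : 0 < c)
    (hn : 0 < n) (hN : (1 - e) * c * n ≤ N) (ho : o ≤ lam * (a + e) * n)
    (hq : q ≤ c * ((1 + e) * o + lam * (-a * n) + (e * lam + K) * n)) : q < η * lam * N := by
  have h1 : (1 + e) * o ≤ (1 + e) * (lam * (a + e) * n) :=
    mul_le_mul_of_nonneg_left ho (by linarith)
  have h2 : e * (a + 2 + e) ≤ η / 4 :=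
    le_trans (mul_le_mul_of_nonneg_left (by linarith [le_abs_self a]) he.le) he2
  have h3 : lam * (e * (a + 2 + e)) ≤ lam * (η / 4) := mul_le_mul_of_nonneg_left h2 hl.le
  have h4 : lam * (e * (a + 2 + e)) + K < η * lam / 2 := by linarith
  have hcn : 0 < c * n := mul_pos hc hn
  have h5 : q ≤ (c * n) * (lam * (e * (a + 2 + e)) + K) := by
    refine hq.trans ?_
    have h6 := mul_le_mul_of_nonneg_left h1 hc.le
    nlinarith [h6]
  have h7 := mul_lt_mul_of_pos_left h4 hcn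
  have h8 : (1 / 2) * (c * n) ≤ N := by
    have := mul_le_mul_of_nonneg_right (show 1 / 2 ≤ 1 - e by linarith) hcn.le
    linarith
  have h9 := mul_le_mul_of_nonneg_left h8 (mul_pos hη hl).le
  linarith

/-- The trial state: `model_trial`, `Slice.extend_tst` with `R = expL (r • mat Amat)`,
`U = exp (r • spin (mat A^))`, `ξ = (r σ) • p 8` (`exp_AB`, `exp_fix`, `nrm_exp`, `H.inv`,
`vac_fixed`), `spin_w`, `compare`. -/
theorem trial [FiniteDimensional ℂ F] [Nontrivial F] (M : Mod V F) (hirr : M.C.Irr)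
    {P : Par} (σ : Slice M.L T) (h : sv P M.L σ.p = 0) (hj : IsN M.L σ.p σ.j)
    (H : Harm P M.L σ.p σ.j) (hs : ∀ g ∈ M.L.G, lift g σ.p = σ.p → g = 1) {η : ℝ} (hη : 0 < η) :
    ∃ l0 : ℝ, ∀ lam, l0 ≤ lam → ∃ φ : EE V → F, Tst φ ∧ M.Inv φ ∧ M.RInv P.toGam Amat φ ∧
      M.q P lam lam φ < η * lam * n2 φ := by
  obtain ⟨e, he, he1, he2⟩ : ∃ e : ℝ, 0 < e ∧ e ≤ 1 / 2 ∧ e * (|tr H.Om / 2| + 3) ≤ η / 4 := by
    have h0 : 0 < |tr H.Om / 2| + 3 := by positivity
    refine ⟨min (1 / 2) (η / 4 / (|tr H.Om / 2| + 3)), by positivity, min_le_left _ _, ?_⟩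
    exact (le_div_iff₀ h0).1 (min_le_right _ _)
  have hn : ∀ t, ‖σ.j t‖ = ‖t‖ := fun t => by
    rw [norm_eq_sqrt_real_inner, hj.iso, ← norm_eq_sqrt_real_inner]
  have hAB : AB P M.L (σ.p 8) σ.p = 0 := by rw [← psi_adj_sv, h, map_zero]
  obtain ⟨w, hw1, hw⟩ := hirr.vac_rank H.cs
  have hv : M.C.vac H.J w = w := by
    rw [hw, inner_self_eq_norm_sq_to_K, hw1]
    simp
  obtain ⟨r1, hr1, K, hK, hcmp⟩ := compare M σ h hj H he
  obtain ⟨r2, hr2, hext⟩ := Slice.extend_tst M P.toGam hirr σ hs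
  have hr : 0 < min r1 r2 := lt_min hr1 hr2
  obtain ⟨-, c, hc, hcm⟩ := hcmp _ ⟨hr, min_le_left _ _⟩
  obtain ⟨l0, hl0⟩ := model_trial (F := F) H.c_pos H.posO hr he
  refine ⟨max l0 (4 * K / η + 1), fun lam hlam => ?_⟩
  obtain ⟨b, hb, hbw⟩ := hl0 lam ((le_max_left _ _).trans hlam)
  obtain ⟨hf, hsupp, hpos, hosc⟩ := hbw w hw1
  have hl1 : 4 * K / η < lam := by linarith [(le_max_right _ _).trans hlam]
  have hl : 0 < lam := lt_trans (by positivity) hl1
  obtain ⟨φ, hφ, hinv, hsφ, hval, hcov⟩ := hext _ ⟨hr, min_le_right _ _⟩ _ hf fun t ht => by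
    have := hsupp ht
    rw [mem_ball_zero_iff] at this
    show ‖σ.j t‖ < _
    rwa [hn]
  refine ⟨φ, hφ, hinv, fun r => ?_, ?_⟩
  · refine hcov _ _ ((r * P.σ) • σ.p 8) (fun ξ x => ?_) (rot_rho M P.toGam r) (fun x => ?_)
      fun t => ?_
    · refine expL_intertwine (lift (M.L.ex ξ)) (fun u => ?_) x
      rw [smul_apply, smul_apply, map_smul, cv_mat_lift]
    · rw [norm_eq_sqrt_real_inner, cv_R_inner Amat_transpose, ← norm_eq_sqrt_real_inner]
    · obtain ⟨t', ht'⟩ := hj.surj _ (nrm_exp P M.L hAB (hj.nrm t) r)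
      have hnn : ‖σ.j t'‖ = ‖σ.j t‖ := by
        rw [ht', norm_eq_sqrt_real_inner, expL_inner (cv_skew_smul (skew_AB P M.L _) r),
          ← norm_eq_sqrt_real_inner]
      refine ⟨t', hnn, ?_, ?_⟩
      · rw [← exp_AB, map_add, exp_fix P M.L hAB, ht']
      · rw [hb t t' (by rwa [hn, hn] at hnn) (H.inv r t t' ht'),
          ContinuousLinearMap.map_smul_of_tower, ContinuousLinearMap.map_smul_of_tower,
          vac_fixed M H hv r]
  · obtain ⟨h1, -, -, h2⟩ := hcm lam φ _ hl.le hφ hinv hsφ hf hsupp fun t ht =>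
      (hval t (by rwa [hn])).symm
    rw [str_opf (spin_w M.C H.cs H.posW.1 H.comm hv), ← H.trace] at h2
    exact str_num he he1 he2 (by rwa [div_lt_iff₀ hη, mul_comm lam] at hl1) hl hη hc hpos h1 hosc h2

end Vale.Agent.P353.SC
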