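import Vale.Agent.P353.SUnit
import Vale.Agent.P353.SId

open MeasureTheory NormedSpace
open Complex (I)
open scoped InnerProductSpace ContDiff

noncomputable section
namespace Vale.Agent.P353.SC
variable {V : Type} [NormedAddCommGroup V] [InnerProductSpace ℝ V] [FiniteDimensional ℝ V]
  [MeasurableSpace V] [BorelSpace V] {L : CL V} {N : ℕ}

theorem szero_diag (Z : Matrix (Fin N) (Fin N) ℂ) (i : Fin N) :
    (Z * Z.conjTranspose - Z.conjTranspose * Z) i i =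
      ((∑ j, ‖Z i j‖ ^ 2 - ∑ j, ‖Z j i‖ ^ 2 : ℝ) : ℂ) := by
  rw [Matrix.sub_apply, Matrix.mul_apply, Matrix.mul_apply]
  push_cast
  congr 1
  · refine Finset.sum_congr rfl fun j _ => ?_
    rw [Matrix.conjTranspose_apply, Complex.star_def, Complex.mul_conj']
  · refine Finset.sum_congr rfl fun j _ => ?_
    rw [Matrix.conjTranspose_apply, Complex.star_def, Complex.conj_mul']

/-- Strictly triangular matrices: with `D = diagonal i`,
`∑ |Z i j|² ≤ ∑ (i - j) |Z i j|² = re tr (D (Z Zᴴ - Zᴴ Z))`. -/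
theorem tri_bound {Z : Matrix (Fin N) (Fin N) ℂ} (hZ : ∀ i j, Z i j ≠ 0 → j < i) {b : ℝ}
    (hb : ∀ i, ‖(Z * Z.conjTranspose - Z.conjTranspose * Z) i i‖ ≤ b) :
    ∑ i, ∑ j, ‖Z i j‖ ^ 2 ≤ (N : ℝ) ^ 2 * b := by
  have h1 : ∀ i : Fin N, ((i : ℕ) : ℝ) * (∑ j, ‖Z i j‖ ^ 2 - ∑ j, ‖Z j i‖ ^ 2) ≤ N * b := by
    intro i
    have k := hb i
    rw [szero_diag, Complex.norm_real, Real.norm_eq_abs] at k
    have k0 : 0 ≤ b := (abs_nonneg _).trans k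
    have k1 : ((i : ℕ) : ℝ) ≤ N := by exact_mod_cast i.2.le
    calc _ ≤ ((i : ℕ) : ℝ) * b :=
          mul_le_mul_of_nonneg_left ((le_abs_self _).trans k) (Nat.cast_nonneg _)
      _ ≤ N * b := mul_le_mul_of_nonneg_right k1 k0
  have h2 : ∑ i : Fin N, ((i : ℕ) : ℝ) * (∑ j, ‖Z i j‖ ^ 2 - ∑ j, ‖Z j i‖ ^ 2) =
      ∑ i : Fin N, ∑ j : Fin N, (((i : ℕ) : ℝ) - ((j : ℕ) : ℝ)) * ‖Z i j‖ ^ 2 := by
    simp only [mul_sub, sub_mul, Finset.sum_sub_distrib, Finset.mul_sum]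
    congr 1
    exact Finset.sum_comm
  have h3 : ∑ i, ∑ j, ‖Z i j‖ ^ 2 ≤
      ∑ i : Fin N, ∑ j : Fin N, (((i : ℕ) : ℝ) - ((j : ℕ) : ℝ)) * ‖Z i j‖ ^ 2 := by
    refine Finset.sum_le_sum fun i _ => Finset.sum_le_sum fun j _ => ?_
    by_cases h : Z i j = 0
    · simp [h]
    · have k : ((j : ℕ) : ℝ) + 1 ≤ ((i : ℕ) : ℝ) := by exact_mod_cast hZ i j h
      exact le_mul_of_one_le_left (sq_nonneg _) (by linarith)
  have h4 := Finset.sum_le_sum fun i (_ : i ∈ (Finset.univ : Finset (Fin N))) => h1 i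
  rw [h2, Finset.sum_const, Finset.card_fin, nsmul_eq_mul] at h4
  calc _ ≤ _ := h3
    _ ≤ _ := h4
    _ = _ := by ring

omit [MeasurableSpace V] [BorelSpace V] in
theorem szero_pos (h : SUN L N) (hN : 0 < N) {X a b : V} {ε : ℝ} (hε : 0 < ε)
    (h1 : L.br X a = ε • b) (h2 : L.br X b = -ε • a) :
    ‖a‖ ^ 2 + ‖b‖ ^ 2 ≤ 2 * (N : ℝ) ^ 2 * ‖L.br a b‖ := by
  obtain ⟨g, hg, x, hx, hX⟩ := exists_diag h hN X
  obtain ⟨h', e⟩ := exists_conj h hg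
  rw [← e] at hX
  have k := tri_bound (Z := h'.hat a + I • h'.hat b) (b := 2 * ‖L.br a b‖)
    (fun i j hz => hx.reflect_lt (by linarith [reson h' hX h1 h2 i j hz])) fun i => by
      rw [comm_z, Matrix.smul_apply, norm_smul, Complex.norm_ofNat]
      exact mul_le_mul_of_nonneg_left (entry_le h' _ i i) zero_le_two
  rw [← norm_z] at k
  linarith

/-- Diagonalise `X` (`exists_diag`, `exists_conj`), `reson`, `comm_z`, `norm_z`, `entry_le`; for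
`ε < 0` replace `b` by `-b`. -/
theorem nil_bound (h : SUN L N) (hN : 0 < N) {X a b : V} {ε : ℝ} (hε : ε ≠ 0)
    (h1 : L.br X a = ε • b) (h2 : L.br X b = -ε • a) :
    ‖a‖ ^ 2 + ‖b‖ ^ 2 ≤ 2 * (N : ℝ) ^ 2 * ‖L.br a b‖ := by
  rcases hε.lt_or_gt with hε | hε
  · have k := szero_pos h hN (X := X) (a := a) (b := -b) (ε := -ε) (by linarith)
      (by rw [h1, neg_smul_neg]) (by rw [map_neg, h2, neg_neg, neg_smul, neg_neg])
    rwa [norm_neg, map_neg, norm_neg] at k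
  · exact szero_pos h hN hε h1 h2

theorem szero_p1 (a : Fin 4) : p1 a ≠ 8 := by revert a; decide
theorem szero_p2 (a : Fin 4) : p2 a ≠ 8 := by revert a; decide
theorem szero_p12 (a : Fin 4) : p1 a ≠ p2 a := by revert a; decide

theorem br_le_pot (L : CL V) (x : EE V) (a : Fin 4) :
    ‖L.br (x (p1 a)) (x (p2 a))‖ ^ 2 ≤ 2 * L.pot (zp x) := by
  have k1 := Finset.add_le_sum (s := Finset.univ)
    (f := fun i => ∑ j, ‖L.br (zp x i) (zp x j)‖ ^ 2)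
    (fun i _ => Finset.sum_nonneg fun j _ => sq_nonneg _) (Finset.mem_univ (p1 a))
    (Finset.mem_univ (p2 a)) (szero_p12 a)
  have k2 := Finset.single_le_sum (s := Finset.univ)
    (f := fun j => ‖L.br (zp x (p1 a)) (zp x j)‖ ^ 2) (fun j _ => sq_nonneg _)
    (Finset.mem_univ (p2 a))
  have k3 := Finset.single_le_sum (s := Finset.univ)
    (f := fun j => ‖L.br (zp x (p2 a)) (zp x j)‖ ^ 2) (fun j _ => sq_nonneg _)
    (Finset.mem_univ (p1 a))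
  have e1 : zp x (p1 a) = x (p1 a) := by rw [zp_apply, if_neg (szero_p1 a)]
  have e2 : zp x (p2 a) = x (p2 a) := by rw [zp_apply, if_neg (szero_p2 a)]
  have e3 : ‖L.br (zp x (p2 a)) (zp x (p1 a))‖ = ‖L.br (zp x (p1 a)) (zp x (p2 a))‖ := by
    rw [L.skew, norm_neg]
  rw [e3] at k3
  rw [← e1, ← e2, CL.pot]
  linarith

theorem szero_eps (P : Par) (a : Fin 4) : P.σ * eps a ≠ 0 ∧ P.σ * eps a ≤ 6 := by
  rcases sigma_cases P with ⟨h, -⟩ | ⟨h, -⟩ <;> rw [h] <;> fin_cases a <;> simp [eps] <;> norm_num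

/-- With `X = x 8`, `zero_eqs` gives `‖br x_p x_q‖ ≤ δ ‖X‖`, so `‖zp x‖² ≤ 8 N² δ ‖X‖`; and
`δ ‖X‖² = ⟪X, mom x⟫ = ∑ σ ε ‖x_q‖² ≤ 6 ‖zp x‖²`. -/
theorem zero_bound (h : SUN L N) (hN : 0 < N) : ∃ R > 0, ∀ (P : Par) (x : EE V), sv P L x = 0 →
    ‖x 8‖ ≤ R ∧ ‖zp x‖ ^ 2 ≤ R * P.δ := by
  have hN' : (0 : ℝ) < N := by exact_mod_cast hN
  refine ⟨48 * (N : ℝ) ^ 2 + 384 * (N : ℝ) ^ 4, by positivity, fun P x hx => ?_⟩
  obtain ⟨e1, e2, -, e3⟩ := zero_eqs P L hx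
  have hδ := P.δ0
  have k1 : ∀ a, ‖L.br (x (p1 a)) (x (p2 a))‖ ≤ P.δ * ‖x 8‖ := fun a => by
    have k := br_le_pot L x a
    rw [e2, e1, norm_smul, Real.norm_of_nonneg hδ.le] at k
    exact (pow_le_pow_iff_left₀ (norm_nonneg _) (by positivity) two_ne_zero).1 k
  have k2 : ‖zp x‖ ^ 2 ≤ 8 * (N : ℝ) ^ 2 * (P.δ * ‖x 8‖) := by
    rw [norm_zp]
    calc _ ≤ ∑ _a : Fin 4, 2 * (N : ℝ) ^ 2 * (P.δ * ‖x 8‖) := Finset.sum_le_sum fun a _ =>
          (nil_bound h hN (szero_eps P a).1 (e3 a).1 (e3 a).2).trans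
            (mul_le_mul_of_nonneg_left (k1 a) (by positivity))
      _ = _ := by
          rw [Finset.sum_const, Finset.card_fin, nsmul_eq_mul]
          push_cast
          ring
  have k3 : P.δ * ‖x 8‖ ^ 2 ≤ 6 * ‖zp x‖ ^ 2 := by
    have k : ⟪mom L x, x 8⟫_ℝ = P.δ * ‖x 8‖ ^ 2 := by
      rw [e1, real_inner_smul_left, real_inner_self_eq_norm_sq]
    rw [← k, mom, sum_inner, norm_zp, Finset.mul_sum]
    refine Finset.sum_le_sum fun a _ => ?_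
    rw [L.inv, L.skew, (e3 a).1, inner_neg_right, neg_neg, real_inner_smul_right,
      real_inner_self_eq_norm_sq]
    nlinarith [(szero_eps P a).2, sq_nonneg ‖x (p1 a)‖, sq_nonneg ‖x (p2 a)‖]
  have k4 : ‖x 8‖ ≤ 48 * (N : ℝ) ^ 2 := by
    by_contra hn
    push Not at hn
    have h0 : 0 < P.δ * ‖x 8‖ := mul_pos hδ (lt_trans (by positivity) hn)
    nlinarith [mul_lt_mul_of_pos_left hn h0]
  refine ⟨k4.trans (le_add_of_nonneg_right (by positivity)), k2.trans ?_⟩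
  have k5 : 8 * (N : ℝ) ^ 2 * (P.δ * ‖x 8‖) ≤ 8 * (N : ℝ) ^ 2 * (P.δ * (48 * (N : ℝ) ^ 2)) := by
    gcongr
  have k6 : 0 ≤ 48 * (N : ℝ) ^ 2 * P.δ := by positivity
  nlinarith

end Vale.Agent.P353.SC
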