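import Vale.Agent.P353.STrace
import Vale.Agent.P353.SComb2
import Vale.Agent.P353.SZero
import Vale.Agent.P353.SStd
import Vale.Agent.P353.SNear
import Vale.Agent.P353.SFar
import Vale.Agent.P353.STrial
import Vale.Agent.P353.SInj
import Vale.Agent.P353.SLocal
import Vale.Agent.P353.SInner
import Vale.Agent.P353.SGlue

open MeasureTheory NormedSpace
open Complex (I)
open scoped InnerProductSpace ContDiff

noncomputable section
namespace Vale.Agent.P353
variable {V F : Type} [NormedAddCommGroup V] [InnerProductSpace ℝ V] [FiniteDimensional ℝ V]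
  [MeasurableSpace V] [BorelSpace V]
  [NormedAddCommGroup F] [InnerProductSpace ℂ F] [CompleteSpace F]

namespace SC

/-- a small `δ` -/
theorem exists_delta {K R η : ℝ} (hK : 0 < K) (hR : 0 < R) (hη : 0 < η) :
    ∃ δ > 0, δ ≤ 1 ∧ ∀ d, d ≤ δ → ∀ z : ℝ, 0 ≤ z → z ^ 2 ≤ R * d → K * (z + d) < η := by
  set a := η / (4 * K) with ha
  have ha0 : 0 < a := by positivity
  refine ⟨min 1 (min a (a ^ 2 / R)), by positivity, min_le_left _ _, fun d hd z hz h => ?_⟩
  have h1 : d ≤ a := hd.trans ((min_le_right _ _).trans (min_le_left _ _))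
  have h2 : d ≤ a ^ 2 / R := hd.trans ((min_le_right _ _).trans (min_le_right _ _))
  have h3 : z ≤ a := by
    rw [le_div_iff₀ hR] at h2
    exact le_of_sq_le_sq (by linarith) ha0.le
  have : K * a = η / 4 := by rw [ha]; field_simp
  nlinarith

theorem outer (M : Mod V F) (G : Gam) {N : ℕ} (hN : 0 < N) (h : SUN M.L N) :
    ∃ δ0 > 0, ∀ P : Par, P.toGam = G → P.δ ≤ δ0 → ∀ p, Std h P p →
      ∀ s > 0, Good M P {x | s ≤ Metric.infDist x (orb M.L p)} := by
  obtain ⟨R, hR, hz⟩ := zero_bound h hN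
  obtain ⟨η, hη, hE⟩ := Ef_lower hN R
  obtain ⟨K, hK, hg⟩ := good_of_E0 M G
  obtain ⟨δ, hδ, -, hd⟩ := exists_delta hK hR hη
  refine ⟨δ, hδ, fun P hP hPδ p hp s hs => ?_⟩
  obtain ⟨R', hR', hfar⟩ := good_far M P
  refine good_closed M P hR' hfar
    (isClosed_le continuous_const (Metric.continuous_infDist_pt _)) fun x hx => ?_
  by_cases h0 : sv P M.L x = 0
  swap
  · exact good_of_ne M P h0
  obtain ⟨g, hgG, y, hy, hX⟩ := exists_diag h hN (x 8)
  obtain ⟨h', hh'⟩ := exists_conj h hgG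
  have hX' : h'.hat (x 8) = dg y := by rw [hh', hX]
  obtain ⟨b1, b2⟩ := hz P x h0
  by_cases hc : ∀ i, |y i - chain N i| < 1 / 4
  · exfalso
    have h1 : sv P M.L (lift g x) = 0 := by rw [sv_G P M.L hgG, h0, map_zero]
    obtain ⟨g', hg', hs'⟩ := zero_near h hN P h1 (y := y) (by simpa using hX) hc
    have e : lift (g' * g) x = p := by rw [lift_mul]; exact hs'.unique hp
    obtain ⟨k, hk, -, hk2⟩ := CL.G_inv (CL.mul_mem hg' hgG)
    have : x ∈ orb M.L p := ⟨k, hk, by rw [← e, ← lift_mul, hk2, lift_one]⟩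
    have := Metric.infDist_zero_of_mem this
    simp only [Set.mem_ofPred_eq] at hx
    linarith
  · push Not at hc
    apply hg P hP x
    rw [E0_eq h' hN P hX']
    refine (hd P.δ hPδ _ (norm_nonneg _) b2).trans_le (hE y hy (sum_dg h' hX') (fun i => ?_) hc)
    have := entry_le h' (x 8) i i
    rw [hX'] at this
    simp only [dg, Matrix.diagonal_apply_eq, Complex.norm_real, Real.norm_eq_abs] at this
    exact this.trans b1

end SC

open SC in
/-- Semiclassical limit (module S, see PROOF.md). -/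
theorem Mod.semi [FiniteDimensional ℂ F] [Nontrivial F] (M : Mod V F) (G : Gam) {N : ℕ}
    (hN : 2 ≤ N) (h : SUN M.L N) (hirr : M.C.Irr) :
    ∃ P : Par, P.toGam = G ∧ ∃ mu > 0, M.OneLow P mu := by
  have hN0 : 0 < N := by omega
  obtain ⟨δ0, hδ0, hout⟩ := outer M G hN0 h
  obtain ⟨R, hR, hz⟩ := zero_bound h hN0
  obtain ⟨K, hK, hnear⟩ := Lam_near M.L G
  obtain ⟨δ, hδ, hδ1, hd⟩ := exists_delta hK hR one_pos
  obtain ⟨P, hP, hPδ⟩ := G.exists_par (lt_min hδ0 hδ) ((min_le_right _ _).trans hδ1)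
  obtain ⟨p, hp⟩ := exists_std h P
  have hv := hp.vac hN0
  have h0 := hv.sv_zero
  have hg := gap_AF h hN0 P hp.nin
  have hn : ‖Lam P M.L p - kap P * AF P M.L (p 8)‖ < 1 :=
    (hnear P hP p (p 8)).1.trans_lt
      (hd P.δ (hPδ ▸ min_le_right _ _) _ (norm_nonneg _) (hz P p h0).2)
  have hi := hv.inj hg hn
  obtain ⟨σ, hσp, hσj⟩ := exists_slice hv.cent hv.stab (orb_nrm P M.L h0 hi)
  have hj : IsN M.L σ.p σ.j := by rw [hσp, hσj]; exact isN_nsub _ _
  rw [← hσp] at hp hv h0 hg hn hi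
  obtain ⟨H⟩ := exists_harm h0 hj hi hg hn (by rw [E0_eq h hN0 P hp.nin, Ef_chain hN0])
  exact ⟨P, hP, glue M P σ.p (inner_bound M hirr σ h0 hj H)
    (hout P hP (hPδ ▸ min_le_left _ _) _ hp) fun η hη => trial M hirr σ h0 hj H hv.stab hη⟩

end Vale.Agent.P353
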