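import Vale.Agent.P353.HMain
import Vale.Agent.P353.SMain
import Vale.Agent.P353.IMain

open MeasureTheory NormedSpace
open Complex (I)
open scoped InnerProductSpace ContDiff

noncomputable section
namespace Vale.Agent.P353
variable {V F : Type} [NormedAddCommGroup V] [InnerProductSpace ℝ V] [FiniteDimensional ℝ V]
  [MeasurableSpace V] [BorelSpace V]
  [NormedAddCommGroup F] [InnerProductSpace ℂ F] [CompleteSpace F]

theorem Mod.unique [FiniteDimensional ℂ F] [Nontrivial F] (M : Mod V F) (G : Gam) {N : ℕ}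
    (hN : 2 ≤ N) (h : SUN M.L N) (hirr : M.C.Irr) :
    ∃ ψ ≠ 0, ∀ φ, φ ∈ M.Ker G ↔ ∃ c : ℂ, φ = c • ψ := by
  obtain ⟨P, rfl, mu, hmu, hS⟩ := M.semi G hN h hirr
  exact M.unique_of P hirr (M.po P) hmu hS

end Vale.Agent.P353
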