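import Vale.Agent.P353.SDefs
import Vale.Agent.P353.APsq
import Vale.Agent.P353.AOsc

/-! Definitions for module S (semiclassics).  FROZEN.  See skeleton/P353/PROOF_S.md. -/

open MeasureTheory NormedSpace
open Complex (I)
open scoped InnerProductSpace ContDiff

noncomputable section
namespace Vale.Agent.P353.SC

section alg
variable {V : Type} [NormedAddCommGroup V] [InnerProductSpace ℝ V]

/-- the potential vector `s = s0 + s1` -/
def sv (P : Par) (L : CL V) (x : EE V) : SS V := s0 P.toGam L P.e x + P.s1 x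

/-- the symmetric bilinear map with `s0 x = (1/2) bil x x` -/
def bil (P : Par) (L : CL V) (x y : EE V) : SS V :=
  -∑ i, ∑ j, tens ((P.g2 i j).mulVec P.e) (L.br (x i) (y j))

/-- derivative of `sv` -/
def ds (P : Par) (L : CL V) (x : EE V) : EE V →L[ℝ] SS V := fderiv ℝ (sv P L) x

/-- rotation plus gauge generator on the bosons -/
def AB (P : Par) (L : CL V) (X : V) : EE V →L[ℝ] EE V := mat Amat + P.σ • lift (L.br X)

/-- rotation plus gauge generator on the fermions -/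
def AF (P : Par) (L : CL V) (X : V) : SS V →L[ℝ] SS V :=
  mat (P.hat Amat) + P.σ • lift (L.br X)

/-- the fermion mass operator at `x` -/
def Lam (P : Par) (L : CL V) (x : EE V) : SS V →L[ℝ] SS V := mat P.M1 - Gm P.toGam L x

/-- the chirality `- σ γ 8` -/
def kap (P : Par) : SS V →L[ℝ] SS V := mat ((-P.σ) • P.g 8)

/-- the antisymmetric matrix `χ eᵀ - e χᵀ` -/
def xe (P : Par) : M16 := Matrix.vecMulVec P.χ P.e - Matrix.vecMulVec P.e P.χ

/-- the moment map of the first eight components -/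
def mom (L : CL V) (x : EE V) : V := ∑ a, L.br (x (p1 a)) (x (p2 a))

/-- the tuple with only a ninth component -/
def nine (X : V) : EE V := tens (Pi.single 8 1) X

/-- the first eight components -/
def zp (x : EE V) : EE V := x - nine (x 8)

/-- the orbit -/
def orb (L : CL V) (p : EE V) : Set (EE V) := {y | ∃ g ∈ L.G, lift g p = y}

/-- normal to the orbit -/
def Nrm (L : CL V) (p n : EE V) : Prop := ∀ ξ, ⟪lift (L.br ξ) p, n⟫_ℝ = 0

/-- `j` is an isometry onto the normal space of the orbit at `p` -/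
structure IsN (L : CL V) (p : EE V) {T : Type} [NormedAddCommGroup T] [InnerProductSpace ℝ T]
    (j : T →L[ℝ] EE V) : Prop where
  iso : ∀ t t', ⟪j t, j t'⟫_ℝ = ⟪t, t'⟫_ℝ
  nrm : ∀ t, Nrm L p (j t)
  surj : ∀ n, Nrm L p n → ∃ t, j t = n

/-- the plane that carries the raising operator, and the opposite plane -/
def ap (P : Par) : Fin 4 := if P.σ = 1 then 0 else 2
def am (P : Par) : Fin 4 := if P.σ = 1 then 2 else 0

/-- abstract properties of the isolated vacuum -/
structure Vac (P : Par) (L : CL V) (p : EE V) : Prop where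
  zero : ∀ k, k ≠ p1 (ap P) → k ≠ p2 (ap P) → k ≠ 8 → p k = 0
  fix : AB P L (p 8) p = 0
  mom : L.br (p (p1 (ap P))) (p (p2 (ap P))) = P.δ • p 8
  cent : ∀ ξ, lift (L.br ξ) p = 0 → ξ = 0
  stab : ∀ g ∈ L.G, lift g p = p → g = 1
  spec : ∀ w : ℝ, w = 1 ∨ w = 5 ∨ w = 11 → ∀ a,
    L.br (p 8) (L.br (p 8) a) = -(w ^ 2) • a → a = 0

variable [FiniteDimensional ℝ V]

/-- the classical zero point energy (times four) at the point `nine X` for vanishing `δ` -/
def E0 (P : Par) (L : CL V) (X : V) : ℝ := tr (kap P * psq (-(AF P L X * AF P L X)))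

/-- data of the harmonic approximation at `p` -/
structure Harm (P : Par) (L : CL V) (p : EE V) {T : Type} [NormedAddCommGroup T]
    [InnerProductSpace ℝ T] [FiniteDimensional ℝ T] (j : T →L[ℝ] EE V) where
  J : SS V →L[ℝ] SS V
  W : SS V →L[ℝ] SS V
  Om : T →L[ℝ] T
  c : ℝ
  c_pos : 0 < c
  cs : CS J
  posW : Pos c W
  comm : J * W = W * J
  polar : J * W = Lam P L p
  posO : Pos c Om
  normO : ∀ t, ‖Om t‖ = ‖ds P L p (j t)‖
  trace : tr Om / 2 = tr W / 4
  commA : J * AF P L (p 8) = AF P L (p 8) * J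
  charge : tr (J * AF P L (p 8)) = 0
  inv : ∀ (r : ℝ) t t', j t' = expL (r • AB P L (p 8)) (j t) → ⟪t', Om t'⟫_ℝ = ⟪t, Om t⟫_ℝ

end alg

/-- the adapted orthonormal basis of spinors, its chirality and its weights -/
def ub (P : Par) : Fin 8 ⊕ Fin 8 → R16
  | .inl k => (P.g k.castSucc).mulVec P.e
  | .inr k => (P.g 0 * P.g k.castSucc).mulVec P.e
def uk : Fin 8 ⊕ Fin 8 → ℝ
  | .inl _ => 1
  | .inr _ => -1
def uw : Fin 8 ⊕ Fin 8 → ℝ
  | .inl k => ![6, 6, 5, 5, 6, 6, 5, 5] k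
  | .inr k => ![0, 0, 11, 11, 0, 0, 1, 1] k

/-- the pair interaction -/
def pint (t : ℝ) : ℝ :=
  4 * max 6 |t| + 4 * max 5 |t| - 4 * |t| - 2 * max 11 |t| - 2 * max 1 |t|

/-- `E0` in terms of the eigenvalues -/
def Ef {N : ℕ} (x : Fin N → ℝ) : ℝ := ∑ i, ∑ j, pint (x i - x j) - pint 0

/-- the centred chain of spacing six -/
def chain (N : ℕ) (i : Fin N) : ℝ := 6 * (i : ℝ) - 3 * ((N : ℝ) - 1)

/-- real diagonal matrix -/
def dg {N : ℕ} (x : Fin N → ℝ) : Matrix (Fin N) (Fin N) ℂ := Matrix.diagonal fun i => (x i : ℂ)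

/-- the weighted shift -/
def shift (N : ℕ) (δ : ℝ) : Matrix (Fin N) (Fin N) ℂ := Matrix.of fun i j =>
  if (i : ℕ) = j + 1 then (Real.sqrt (6 * δ * (i : ℝ) * ((N : ℝ) - i)) : ℂ) else 0

/-- the standard vacuum -/
structure Std {V : Type} [NormedAddCommGroup V] [InnerProductSpace ℝ V] {L : CL V} {N : ℕ}
    (h : SUN L N) (P : Par) (p : EE V) : Prop where
  nin : h.hat (p 8) = dg (chain N)
  sh : h.hat (p (p1 (ap P))) + I • h.hat (p (p2 (ap P))) = shift N P.δ
  zero : ∀ k, k ≠ p1 (ap P) → k ≠ p2 (ap P) → k ≠ 8 → p k = 0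

section ana
variable {V F : Type} [NormedAddCommGroup V] [InnerProductSpace ℝ V] [FiniteDimensional ℝ V]
  [NormedAddCommGroup F] [InnerProductSpace ℂ F] [CompleteSpace F]

/-- the energy density of `M.q P lam lam` -/
def den (M : Mod V F) (P : Par) (lam : ℝ) (φ : EE V → F) (x : EE V) : ℝ :=
  (1 / 2) * g2 φ x + lam ^ 2 / 2 * ‖sv P M.L x‖ ^ 2 * ‖φ x‖ ^ 2 +
    lam * (⟪φ x, (I • M.C.spin (Lam P M.L x)) (φ x)⟫_ℂ).re

variable [MeasurableSpace V] [BorelSpace V]

/-- a region in which the energy is at least of order `lam` -/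
def Good (M : Mod V F) (P : Par) (W : Set (EE V)) : Prop :=
  ∃ η > 0, ∃ l0 : ℝ, ∀ lam, l0 ≤ lam → ∀ φ : EE V → F, Tst φ → tsupport φ ⊆ W →
    η * lam * n2 φ ≤ M.q P lam lam φ

/-- the harmonic oscillator form with frequency `W` -/
def osc {T : Type} [NormedAddCommGroup T] [InnerProductSpace ℝ T] [FiniteDimensional ℝ T]
    [MeasurableSpace T] [BorelSpace T] (W : T →L[ℝ] T) (f : T → F) : ℝ :=
  kin f + wt (fun t => (1 / 2) * ‖W t‖ ^ 2) f

end ana

end Vale.Agent.P353.SC
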