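import Vale.Agent.P353.SBase
import Vale.Agent.P353.ASpin

open MeasureTheory NormedSpace
open Complex (I)
open scoped InnerProductSpace ContDiff

noncomputable section
namespace Vale.Agent.P353.SC
variable {S : Type} [NormedAddCommGroup S] [InnerProductSpace ℝ S] [FiniteDimensional ℝ S]

theorem abs_tr_le (A : S →L[ℝ] S) : |tr A| ≤ Module.finrank ℝ S * ‖A‖ := by
  rw [tr_eq_sum (stdOrthonormalBasis ℝ S)]
  refine (Finset.abs_sum_le_sum_abs _ _).trans ?_
  have h : ∀ i, |⟪stdOrthonormalBasis ℝ S i, A (stdOrthonormalBasis ℝ S i)⟫_ℝ| ≤ ‖A‖ := fun i => by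
    have h1 := (stdOrthonormalBasis ℝ S).orthonormal.1 i
    have h2 := abs_real_inner_le_norm (stdOrthonormalBasis ℝ S i) (A (stdOrthonormalBasis ℝ S i))
    have h3 := A.le_opNorm (stdOrthonormalBasis ℝ S i)
    rw [h1, one_mul] at h2
    rw [h1, mul_one] at h3
    exact h2.trans h3
  refine (Finset.sum_le_sum fun i _ => h i).trans ?_
  simp

omit [FiniteDimensional ℝ S] in
theorem sch_sq_zero {W : S →L[ℝ] S} (hW : Symm W) {u : S} (h : W (W u) = 0) : W u = 0 := by
  have h1 := hW u (W u)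
  rw [h, inner_zero_right] at h1
  exact inner_self_eq_zero.1 h1

omit [FiniteDimensional ℝ S] in
theorem sch_ext {A B : S →L[ℝ] S} (h : ∀ u v, ⟪A u, v⟫_ℝ = ⟪B u, v⟫_ℝ) : A = B :=
  ContinuousLinearMap.ext fun u => ext_inner_right ℝ (h u)

theorem sch_tr_neg (A : S →L[ℝ] S) : tr (-A) = -tr A := by
  simp [tr]

/-- `W W = - (J W) (J W) = - J J W W`, so `(1 + J J) W W = 0` and then `(1 + J J) W = 0` -/
theorem polar_sq {Λ J W : S →L[ℝ] S} (hW : Symm W) (h1 : J * W = Λ) (h2 : W * J = Λ)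
    (h3 : W * W = -(Λ * Λ)) : J * J * W = -W := by
  have hc : W * J = J * W := h2.trans h1.symm
  have h4 : W * W * (1 + J * J) = 0 := by
    have e : Λ * Λ = W * W * (J * J) := by
      calc Λ * Λ = W * J * (W * J) := by rw [h2]
        _ = W * (J * W) * J := by simp only [mul_assoc]
        _ = W * W * (J * J) := by rw [← hc]; simp only [mul_assoc]
    rw [mul_add, mul_one, ← e, h3, neg_add_cancel]
  have h5 : W * (1 + J * J) = 0 := ContinuousLinearMap.ext fun u =>
    sch_sq_zero hW (congrArg (fun T : S →L[ℝ] S => T u) h4)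
  have h6 : J * J * W = W * (J * J) := by
    calc J * J * W = J * (W * J) := by rw [hc]; simp only [mul_assoc]
      _ = W * (J * J) := by rw [← mul_assoc, ← hc]; simp only [mul_assoc]
  rw [mul_add, mul_one] at h5
  rw [h6]
  exact eq_neg_of_add_eq_zero_right h5

/-- polar decomposition of `κ A` (`skew_polar`; `(κ A)² = A²`) -/
theorem polar_kap {A κ : S →L[ℝ] S} (hA : Skew A) (hκ : Symm κ) (hκ2 : κ * κ = 1)
    (hc : κ * A = A * κ) : ∃ J : S →L[ℝ] S, Skew J ∧ (∀ u, ‖J u‖ ≤ ‖u‖) ∧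
      Pos 0 (psq (-(A * A))) ∧ J * psq (-(A * A)) = psq (-(A * A)) * J ∧
      J * psq (-(A * A)) = κ * A ∧ J * J * psq (-(A * A)) = -psq (-(A * A)) ∧
      J * A = A * J ∧ J * κ = κ * J ∧ tr (J * A) = -tr (κ * psq (-(A * A))) := by
  have hc' : ∀ v, κ (A v) = A (κ v) := fun v => congrArg (fun T : S →L[ℝ] S => T v) hc
  have hT : Skew (κ * A) := fun u v => by
    rw [ContinuousLinearMap.mul_apply, ContinuousLinearMap.mul_apply, hκ, hA, hc']
  have hTT : κ * A * (κ * A) = A * A := by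
    calc κ * A * (κ * A) = κ * (A * κ) * A := by simp only [mul_assoc]
      _ = κ * κ * (A * A) := by rw [← hc]; simp only [mul_assoc]
      _ = A * A := by rw [hκ2, one_mul]
  obtain ⟨h0, J, hJ, hn, h1, h2, h3, -⟩ := skew_polar hT
  rw [hTT] at h0 h1 h2
  obtain ⟨hp, hq⟩ := psq_spec h0
  have h4 := polar_sq hp.1 h1 h2 (by rw [hTT, hq])
  have h5 : A * J = J * A := h3 A (by rw [← mul_assoc, hc])
  have h6 : κ * J = J * κ := h3 κ (by rw [mul_assoc κ A κ, ← hc])
  refine ⟨J, hJ, hn, hp, h1.trans h2.symm, h1, h4, h5.symm, h6.symm, ?_⟩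
  rw [← sch_tr_neg]
  congr 1
  calc J * A = J * (κ * κ * A) := by rw [hκ2, one_mul]
    _ = J * κ * (J * psq (-(A * A))) := by rw [h1]; simp only [mul_assoc]
    _ = κ * (J * J * psq (-(A * A))) := by rw [← h6]; simp only [mul_assoc]
    _ = -(κ * psq (-(A * A))) := by rw [h4, mul_neg]

/-- the orthogonal projection onto the kernel of an antisymmetric operator -/
theorem sch_proj {A : S →L[ℝ] S} (hA : Skew A) : ∃ P : S →L[ℝ] S, Symm P ∧ (∀ u, A (P u) = 0) ∧
    (∀ u, ∃ y, u - P u = A y) ∧ ∀ w, A w = 0 → P w = w := by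
  set K : Submodule ℝ S := LinearMap.range A.toLinearMap with hK
  have hm : ∀ w, w ∈ Kᗮ ↔ A w = 0 := fun w => by
    rw [Submodule.mem_orthogonal]
    constructor
    · intro h
      have h1 := h (A (A w)) ⟨A w, rfl⟩
      rw [hA, neg_eq_zero] at h1
      exact inner_self_eq_zero.1 h1
    · rintro h _ ⟨y, rfl⟩
      have := hA y w
      rw [h, inner_zero_right, neg_zero] at this
      exact this
  refine ⟨Kᗮ.starProjection, fun u v => Kᗮ.inner_starProjection_left_eq_right u v,
    fun u => (hm _).1 (Kᗮ.starProjection_apply_mem u), fun u => ?_,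
    fun w hw => Submodule.starProjection_eq_self_iff.2 ((hm w).2 hw)⟩
  have h1 := Kᗮ.sub_starProjection_mem_orthogonal u
  rw [Submodule.orthogonal_orthogonal] at h1
  obtain ⟨y, hy⟩ := h1
  exact ⟨y, hy.symm⟩

omit [FiniteDimensional ℝ S] in
theorem sch_comm {A P B : S →L[ℝ] S} (hP : Symm P) (h1 : ∀ u, A (P u) = 0)
    (h3 : ∀ w, A w = 0 → P w = w) (hB : Skew B) (hc : B * A = A * B) : P * B = B * P := by
  have h4 : ∀ u, P (B (P u)) = B (P u) := fun u => h3 _ (by
    have := congrArg (fun T : S →L[ℝ] S => T (P u)) hc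
    simp only [ContinuousLinearMap.mul_apply, h1, map_zero] at this
    exact this.symm)
  refine sch_ext fun u v => ?_
  rw [ContinuousLinearMap.mul_apply, ContinuousLinearMap.mul_apply, hP, hB, ← h4 v, ← hP, ← hB,
    ← hP, h4]

/-- the square root is at least one on the complement of the kernel -/
theorem sch_gap {A P : S →L[ℝ] S} (hA : Skew A) (hg : ∀ u, ‖A u‖ ≤ ‖A (A u)‖) (hP : Symm P)
    (h1 : ∀ u, A (P u) = 0) (h2 : ∀ u, ∃ y, u - P u = A y) (h3 : ∀ w, A w = 0 → P w = w)
    {v : S} (hv : P v = 0) : ‖v‖ ^ 2 ≤ ⟪v, psq (-(A * A)) v⟫_ℝ := by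
  obtain ⟨hp, hq⟩ := psq_spec (skew_polar hA).1
  set W0 := psq (-(A * A)) with hW0
  have hPP : ∀ u, P (P u) = P u := fun u => h3 _ (h1 u)
  have hWP' : ∀ u, W0 (P u) = 0 := fun u => sch_sq_zero hp.1 (by
    have := congrArg (fun T : S →L[ℝ] S => T (P u)) hq
    simpa only [ContinuousLinearMap.mul_apply, ContinuousLinearMap.neg_apply, h1, map_zero,
      neg_zero] using this)
  have hWP : W0 * P = 0 := ContinuousLinearMap.ext hWP'
  have hPW : P * W0 = 0 := sch_ext fun u w => by
    rw [ContinuousLinearMap.mul_apply, hP, hp.1, hWP', inner_zero_right,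
      ContinuousLinearMap.zero_apply, inner_zero_left]
  have hPP' : P * P = P := ContinuousLinearMap.ext hPP
  have hPn : ∀ u, ⟪u, P u⟫_ℝ = ‖P u‖ ^ 2 := fun u => by
    rw [← real_inner_self_eq_norm_sq, hP, hPP]
  have h0 : Pos 0 (W0 + P) := ⟨fun u w => by
      simp only [ContinuousLinearMap.add_apply, inner_add_left, inner_add_right, hp.1 u w, hP u w],
    fun u => by
      rw [ContinuousLinearMap.add_apply, inner_add_right, hPn]
      have := hp.2 u
      nlinarith [sq_nonneg ‖P u‖]⟩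
  have hsq : (W0 + P) * (W0 + P) = -(A * A) + P := by
    rw [add_mul, mul_add, mul_add, hq, hWP, hPW, hPP', add_zero, zero_add]
  have hpos : Pos (1 ^ 2) (-(A * A) + P) := by
    refine ⟨fun u w => ?_, fun u => ?_⟩
    · simp only [ContinuousLinearMap.add_apply, inner_add_left, inner_add_right,
        (skew_polar hA).1.1 u w, hP u w]
    · obtain ⟨y, hy⟩ := h2 u
      have e1 : A u = A (A y) := by rw [← hy, map_sub, h1, sub_zero]
      have e2 : ⟪u, (-(A * A)) u⟫_ℝ = ‖A u‖ ^ 2 := by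
        rw [ContinuousLinearMap.neg_apply, inner_neg_right, ContinuousLinearMap.mul_apply, ← hA,
          real_inner_self_eq_norm_sq]
      have e3 : ‖u‖ ^ 2 = ‖A y‖ ^ 2 + ‖P u‖ ^ 2 := by
        have e4 : ⟪A y, P u⟫_ℝ = 0 := by rw [hA, h1, inner_zero_right, neg_zero]
        have e5 : u = A y + P u := by rw [← hy, sub_add_cancel]
        conv_lhs => rw [e5, norm_add_sq_real, e4]
        ring
      have e6 : ‖A y‖ ^ 2 ≤ ‖A u‖ ^ 2 := by
        rw [e1]
        exact pow_le_pow_left₀ (norm_nonneg _) (hg y) 2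
      rw [ContinuousLinearMap.add_apply, inner_add_right, e2, hPn]
      linarith
  have h7 := (psq_pos zero_le_one hpos).2 v
  rw [psq_unique h0 hsq, ContinuousLinearMap.add_apply, hv, add_zero, one_mul] at h7
  exact h7

/-- The charge of the vacuum is constant along the deformation.  Let `J0` be as in `polar_kap`,
`W0 = psq (-(A A))`, `Π` the orthogonal projection onto `ker A` (it commutes with `J`, `J0`), and
`R = (J + J0) (1 - Π) + Π`.  Then `(J A) R = R (J0 A)` (`J0 J0 A = -A`).  `R` is injective: if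
`R v = 0` then `Π v = 0`, `J v = - J0 v`, and
`0 ≤ ⟪v, W v⟫ = ⟪J v, Λ v⟫ = -⟪v, W0 v⟫ - ⟪J0 v, (Λ - κ A) v⟫`, while `‖v‖² ≤ ⟪v, W0 v⟫` because
`W0 + Π = psq (-(A A) + Π)` and `Pos 1 (-(A A) + Π)` (`psq_unique`, `psq_pos`, the range of `A` is
the complement of the kernel). -/
theorem charge_eq {A κ J W : S →L[ℝ] S} (hA : Skew A) (hκ : Symm κ) (hκ2 : κ * κ = 1)
    (hc : κ * A = A * κ) (hg : ∀ u, ‖A u‖ ≤ ‖A (A u)‖) (hJ : CS J) (hW : Pos 0 W)
    (hJA : J * A = A * J) (hn : ‖J * W - κ * A‖ < 1) :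
    tr (J * A) = -tr (κ * psq (-(A * A))) := by
  obtain ⟨J0, hJ0, hn0, -, -, h1, h2, h3, h4, h5⟩ := polar_kap hA hκ hκ2 hc
  obtain ⟨P, hP, p1, p2, p3⟩ := sch_proj hA
  have gap := fun v (hv : P v = 0) => sch_gap hA hg hP p1 p2 p3 hv
  set W0 := psq (-(A * A)) with hW0
  have cJ : P * J = J * P := sch_comm hP p1 p3 hJ.1 hJA
  have cJ0 : P * J0 = J0 * P := sch_comm hP p1 p3 hJ0 h3
  have hAP : A * P = 0 := ContinuousLinearMap.ext p1
  have hPA : P * A = 0 := sch_ext fun u v => by
    rw [ContinuousLinearMap.mul_apply, hP, hA, p1, inner_zero_right, neg_zero,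
      ContinuousLinearMap.zero_apply, inner_zero_left]
  have hPP : P * P = P := ContinuousLinearMap.ext fun u => p3 _ (p1 u)
  have h00 : J0 * J0 * A = -A := by
    calc J0 * J0 * A = J0 * J0 * (κ * κ * A) := by rw [hκ2, one_mul]
      _ = J0 * (J0 * κ) * (J0 * W0) := by rw [h1]; simp only [mul_assoc]
      _ = J0 * (κ * J0) * (J0 * W0) := by rw [h4]
      _ = J0 * κ * (J0 * J0 * W0) := by simp only [mul_assoc]
      _ = -(κ * (J0 * W0)) := by rw [h2, h4, mul_neg, mul_assoc]
      _ = -A := by rw [h1, ← mul_assoc, hκ2, one_mul]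
  set R := (J + J0) * (1 - P) + P with hR
  have hint : J * A * R = R * (J0 * A) := by
    have e1 : A * (J + J0) = (J + J0) * A := by rw [mul_add, add_mul, hJA, h3]
    have e2 : A * (1 - P) = A := by rw [mul_sub, mul_one, hAP, sub_zero]
    have e3 : P * (J0 * A) = 0 := by rw [← mul_assoc, cJ0, mul_assoc, hPA, mul_zero]
    have l : J * A * R = -A + J * J0 * A := by
      calc J * A * R = J * (A * (J + J0)) * (1 - P) + J * (A * P) := by
            rw [hR, mul_add]; simp only [mul_assoc]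
        _ = J * (J + J0) * (A * (1 - P)) := by rw [e1, hAP, mul_zero, add_zero]; simp only [mul_assoc]
        _ = -A + J * J0 * A := by rw [e2, mul_add, add_mul, hJ.2, neg_one_mul]
    have r : R * (J0 * A) = J * J0 * A + -A := by
      rw [hR, add_mul, e3, add_zero, mul_assoc, sub_mul, e3, sub_zero, one_mul, add_mul,
        ← mul_assoc J0, h00, ← mul_assoc J]
    rw [l, r, add_comm]
  have hinj : ∀ v, R v = 0 → v = 0 := fun v hv => by
    have e1 : P * R = P := by
      have : P * (J + J0) = (J + J0) * P := by rw [mul_add, add_mul, cJ, cJ0]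
      rw [hR, mul_add, ← mul_assoc, this, mul_assoc, mul_sub, mul_one, hPP, sub_self, mul_zero,
        zero_add]
    have e2 : P v = 0 := by
      rw [← e1, ContinuousLinearMap.mul_apply, hv, map_zero]
    have e3 : J v = -J0 v := by
      rw [hR] at hv
      simp only [ContinuousLinearMap.add_apply, ContinuousLinearMap.mul_apply,
        ContinuousLinearMap.sub_apply, ContinuousLinearMap.one_apply, e2, sub_zero,
        add_zero] at hv
      exact eq_neg_of_add_eq_zero_left hv
    have e4 : ⟪J v, (J * W) v⟫_ℝ = ⟪v, W v⟫_ℝ := by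
      have := congrArg (fun T : S →L[ℝ] S => T (W v)) hJ.2
      simp only [ContinuousLinearMap.mul_apply, ContinuousLinearMap.neg_apply,
        ContinuousLinearMap.one_apply] at this
      rw [hJ.1, ContinuousLinearMap.mul_apply, this, inner_neg_right, neg_neg]
    have e5 : ⟪J0 v, (κ * A) v⟫_ℝ = ⟪v, W0 v⟫_ℝ := by
      have := congrArg (fun T : S →L[ℝ] S => T v) h2
      simp only [ContinuousLinearMap.mul_apply, ContinuousLinearMap.neg_apply] at this
      rw [← h1, hJ0, ContinuousLinearMap.mul_apply, this, inner_neg_right, neg_neg]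
    have e6 : |⟪J0 v, (J * W - κ * A) v⟫_ℝ| ≤ ‖J * W - κ * A‖ * ‖v‖ ^ 2 := by
      refine (abs_real_inner_le_norm _ _).trans ?_
      have := mul_le_mul (hn0 v) ((J * W - κ * A).le_opNorm v) (norm_nonneg _) (norm_nonneg _)
      linarith
    have e7 := hW.2 v
    have e8 := gap v e2
    rw [ContinuousLinearMap.sub_apply, inner_sub_right, e5] at e6
    rw [e3, inner_neg_left] at e4
    have e9 := (abs_le.1 e6).1
    have e10 : (1 - ‖J * W - κ * A‖) * ‖v‖ ^ 2 ≤ 0 := by linarith
    have e11 : ‖v‖ ^ 2 ≤ 0 := by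
      by_contra hcon
      have := mul_pos (sub_pos.2 hn) (not_le.1 hcon)
      linarith
    exact norm_eq_zero.1 (pow_eq_zero_iff two_ne_zero |>.1 (le_antisymm e11 (sq_nonneg _)))
  haveI := FiniteDimensional.complete ℝ S
  have hi : Function.Injective R := (injective_iff_map_eq_zero R).2 hinj
  have hu : IsUnit R := ContinuousLinearMap.isUnit_iff_bijective.2
    ⟨hi, LinearMap.injective_iff_surjective.1 hi⟩
  obtain ⟨U, hU⟩ := hu
  rw [← h5]
  calc tr (J * A) = tr (J * A * R * ↑U⁻¹) := by rw [← hU, Units.mul_inv_cancel_right]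
    _ = tr (↑U⁻¹ * (R * (J0 * A))) := by rw [hint, tr_mul_comm]
    _ = tr (J0 * A) := by rw [← hU, Units.inv_mul_cancel_left]

end Vale.Agent.P353.SC
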