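import Vale.Agent.P353.SId
import Vale.Agent.P353.SSlice
import Vale.Agent.P353.ACov
import Vale.Agent.P353.GInt

open MeasureTheory NormedSpace
open Complex (I)
open scoped InnerProductSpace ContDiff

noncomputable section
namespace Vale.Agent.P353.SC
variable {V F : Type} [NormedAddCommGroup V] [InnerProductSpace ℝ V] [FiniteDimensional ℝ V]
  [MeasurableSpace V] [BorelSpace V]
  [NormedAddCommGroup F] [InnerProductSpace ℂ F] [CompleteSpace F]
  {T : Type} [NormedAddCommGroup T] [InnerProductSpace ℝ T] [FiniteDimensional ℝ T]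
  [MeasurableSpace T] [BorelSpace T]

theorem sden_spin (M : Mod V F) (P : Par) : Continuous fun x => I • M.C.spin (Lam P M.L x) := by
  obtain ⟨σ, hσ⟩ := M.C.spin_clm
  simp only [← hσ]
  exact (σ.continuous.comp (continuous_Lam P M.L)).const_smul I

theorem sden_wt (M : Mod V F) (P : Par) (lam : ℝ) :
    Continuous fun x => lam ^ 2 / 2 * ‖sv P M.L x‖ ^ 2 :=
  continuous_const.mul ((contDiff_sv P M.L).continuous.norm.pow 2)

theorem q_den (M : Mod V F) (P : Par) (lam : ℝ) {φ : EE V → F} (h : Tst φ) :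
    M.q P lam lam φ = ∫ x, den M P lam φ x := by
  have h1 := h.int_g2.const_mul (1 / 2)
  have h2 := h.int_wt (sden_wt M P lam).continuousOn
  have h3 := (h.int_opf (sden_spin M P).continuousOn).const_mul lam
  rw [q_eq, sch, opf_smul, kin, wt, opf, ← integral_const_mul, ← integral_const_mul,
    ← integral_add h1 h2]
  exact (integral_add (h1.add h2) h3).symm
theorem continuous_den (M : Mod V F) (P : Par) (lam : ℝ) {φ : EE V → F} (h : Tst φ) :
    Continuous (den M P lam φ) :=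
  ((continuous_const.mul h.continuous_g2).add ((sden_wt M P lam).mul
    (h.continuous.norm.pow 2))).add (continuous_const.mul (Complex.continuous_re.comp
      (h.continuous.inner ((sden_spin M P).clm_apply h.continuous))))
theorem tsupport_den (M : Mod V F) (P : Par) (lam : ℝ) (φ : EE V → F) :
    tsupport (den M P lam φ) ⊆ tsupport φ := by
  refine closure_minimal (fun x hx => by_contra fun h => hx ?_) (isClosed_tsupport φ)
  simp [den, g2, fderiv_of_notMem_tsupport ℝ h, image_eq_zero_of_notMem_tsupport h]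
/-- `Inv.g2`, `Inv.norm`, `Inv.opf_density`, `sv_G`, `Lam_G` -/
theorem sinv_den (M : Mod V F) (P : Par) (lam : ℝ) {φ : EE V → F} (h : Tst φ) (hi : M.Inv φ) :
    M.L.SInv (den M P lam φ) := fun ξ x => by
  have h1 := hi.norm ξ x
  have h2 := hi.opf_density (fun ξ => Lam_G P M.L (M.L.ex_mem ξ)) ξ x
  simp only at h1 h2
  rw [den, den, hi.g2 h.differentiable ξ x, h1, h2, sv_G P M.L (M.L.ex_mem ξ),
    CL.G_norm (M.L.ex_mem ξ)]

/-- `Slice.integral` -/
theorem slice_formula (M : Mod V F) (P : Par) (σ : Slice M.L T) : ∃ r1 > 0, ∀ r ∈ Set.Ioc 0 r1,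
    IsOpen (M.L.sat (σ.pts r)) ∧ ∃ c > 0, ∀ (lam : ℝ) (φ : EE V → F), Tst φ → M.Inv φ →
      tsupport φ ⊆ M.L.sat (σ.pts r) →
      n2 φ = c * ∫ t in {t | ‖σ.j t‖ < r}, σ.jac t * ‖φ (σ.p + σ.j t)‖ ^ 2 ∧
      M.q P lam lam φ = c * ∫ t in {t | ‖σ.j t‖ < r}, σ.jac t * den M P lam φ (σ.p + σ.j t) := by
  obtain ⟨r1, h1, h2⟩ := σ.integral
  refine ⟨r1, h1, fun r hr => ?_⟩
  obtain ⟨h3, c, hc, h4⟩ := h2 r hr
  refine ⟨h3, c, hc, fun lam φ h hi hs => ⟨?_, ?_⟩⟩
  · have h5 : tsupport (fun x => ‖φ x‖ ^ 2) ⊆ tsupport φ :=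
      closure_mono fun x hx h0 => hx (by simp [h0])
    exact h4 (fun x => ‖φ x‖ ^ 2) (h.continuous.norm.pow 2)
      (h.2.of_isClosed_subset (isClosed_tsupport _) h5)
      (fun ξ x => congrArg (· ^ 2) (hi.norm ξ x)) (h5.trans hs)
  · have h5 := tsupport_den M P lam φ
    exact (q_den M P lam h).trans (h4 _ (continuous_den M P lam h)
      (h.2.of_isClosed_subset (isClosed_tsupport _) h5) (sinv_den M P lam h hi) (h5.trans hs))

end Vale.Agent.P353.SC
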