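import Vale.Agent.P353.SPoint
import Vale.Agent.P353.SDen

open MeasureTheory NormedSpace
open Complex (I)
open scoped InnerProductSpace ContDiff

noncomputable section
namespace Vale.Agent.P353.SC
variable {V F : Type} [NormedAddCommGroup V] [InnerProductSpace ℝ V] [FiniteDimensional ℝ V]
  [MeasurableSpace V] [BorelSpace V]
  [NormedAddCommGroup F] [InnerProductSpace ℂ F] [CompleteSpace F]
  {T : Type} [NormedAddCommGroup T] [InnerProductSpace ℝ T] [FiniteDimensional ℝ T]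
  [MeasurableSpace T] [BorelSpace T]

/-- Integrated comparison.  On the ball `f` agrees with `φ (p + j ·)`, so `g2` agrees; outside
the ball all densities of `f` vanish (`setIntegral_eq_integral_of_forall_compl_eq_zero`). -/
theorem compare (M : Mod V F) {P : Par} (σ : Slice M.L T) (h : sv P M.L σ.p = 0)
    (hj : IsN M.L σ.p σ.j) (H : Harm P M.L σ.p σ.j) {η : ℝ} (hη : 0 < η) :
    ∃ r1 > 0, ∃ K > 0, ∀ r ∈ Set.Ioc 0 r1, IsOpen (M.L.sat (σ.pts r)) ∧ ∃ c > 0,
      ∀ (lam : ℝ) (φ : EE V → F) (f : T → F), 0 ≤ lam → Tst φ → M.Inv φ →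
        tsupport φ ⊆ M.L.sat (σ.pts r) → Tst f → tsupport f ⊆ Metric.ball 0 r →
        (∀ t, ‖t‖ < r → f t = φ (σ.p + σ.j t)) →
        (1 - η) * c * n2 f ≤ n2 φ ∧ n2 φ ≤ (1 + η) * c * n2 f ∧
        c * ((1 - η) * osc (lam • H.Om) f + lam * opf (fun _ => I • M.C.spin (H.J * H.W)) f -
          η * lam * n2 f) ≤ M.q P lam lam φ ∧
        M.q P lam lam φ ≤ c * ((1 + η) * osc (lam • H.Om) f +
          lam * opf (fun _ => I • M.C.spin (H.J * H.W)) f + (η * lam + K) * n2 f) := by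
  obtain ⟨r1, hr1, hs⟩ := slice_formula M P σ
  obtain ⟨r2, hr2, K, hK, hd⟩ := den_near M σ h hj H hη
  refine ⟨min r1 r2, lt_min hr1 hr2, K, hK, fun r hr => ?_⟩
  obtain ⟨ho, c, hc, hf⟩ := hs r ⟨hr.1, hr.2.trans (min_le_left _ _)⟩
  refine ⟨ho, c, hc, fun lam φ f hl hφ hi hsupp hft hfs hfe => ?_⟩
  obtain ⟨e1, e2⟩ := hf lam φ hφ hi hsupp
  have hn : ∀ t, ‖σ.j t‖ = ‖t‖ := fun t => by
    rw [← sq_eq_sq₀ (norm_nonneg _) (norm_nonneg _), ← real_inner_self_eq_norm_sq,
      ← real_inner_self_eq_norm_sq, hj.iso]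
  have hB : {t | ‖σ.j t‖ < r} = Metric.ball (0 : T) r := by
    ext t
    simp [hn]
  rw [hB] at e1 e2
  have hlt : ∀ t ∈ Metric.ball (0 : T) r, ‖t‖ < r := fun t ht => mem_ball_zero_iff.1 ht
  have hlt2 : ∀ t ∈ Metric.ball (0 : T) r, ‖t‖ < r2 := fun t ht =>
    (hlt t ht).trans_le (hr.2.trans (min_le_right _ _))
  have cp : Continuous fun t => σ.p + σ.j t := continuous_const.add σ.j.continuous
  have onB : ∀ u : T → ℝ, Continuous u → IntegrableOn u (Metric.ball (0 : T) r) := fun u hu =>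
    (hu.continuousOn.integrableOn_compact (isCompact_closedBall 0 r)).mono_set
      Metric.ball_subset_closedBall
  have i1 := onB (fun t => σ.jac t * ‖φ (σ.p + σ.j t)‖ ^ 2)
    (σ.continuous_jac.1.mul ((hφ.1.continuous.comp cp).norm.pow 2))
  have i2 := onB (fun t => σ.jac t * den M P lam φ (σ.p + σ.j t))
    (σ.continuous_jac.1.mul ((continuous_den M P lam hφ).comp cp))
  obtain ⟨A, hA⟩ : ∃ A : T → ℝ, A = fun t => (1 / 2) * g2 f t +
    (1 / 2) * ‖(lam • H.Om) t‖ ^ 2 * ‖f t‖ ^ 2 := ⟨_, rfl⟩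
  obtain ⟨Bf, hBf⟩ : ∃ Bf : T → ℝ, Bf = fun t =>
    (⟪f t, (I • M.C.spin (H.J * H.W)) (f t)⟫_ℂ).re := ⟨_, rfl⟩
  obtain ⟨N, hN⟩ : ∃ N : T → ℝ, N = fun t => ‖f t‖ ^ 2 := ⟨_, rfl⟩
  have iw : Integrable fun t => (1 / 2) * ‖(lam • H.Om) t‖ ^ 2 * ‖f t‖ ^ 2 :=
    hft.int_wt (w := fun t => (1 / 2) * ‖(lam • H.Om) t‖ ^ 2) (by fun_prop)
  have iA : Integrable A := hA ▸ (hft.int_g2.const_mul _).add iw
  have iB : Integrable Bf :=
    hBf ▸ hft.int_opf (B := fun _ => I • M.C.spin (H.J * H.W)) continuousOn_const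
  have iN : Integrable N := by
    have := hft.int_wt (w := fun _ => 1) continuousOn_const
    simpa only [one_mul, hN] using this
  have vA : ∫ t, A t = osc (lam • H.Om) f := by
    rw [hA, integral_add (hft.int_g2.const_mul _) iw, integral_const_mul]
    rfl
  have vB : ∫ t, Bf t = opf (fun _ => I • M.C.spin (H.J * H.W)) f := by rw [hBf]; rfl
  have vN : ∫ t, N t = n2 f := by rw [hN]; rfl
  have z : ∀ t, t ∉ Metric.ball (0 : T) r → A t = 0 ∧ Bf t = 0 ∧ N t = 0 := fun t ht => by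
    have h1 : t ∉ tsupport f := fun h => ht (hfs h)
    have h2 : f t = 0 := image_eq_zero_of_notMem_tsupport h1
    have h3 : fderiv ℝ f t = 0 := fderiv_of_notMem_tsupport ℝ h1
    simp [hA, hBf, hN, g2, h2, h3]
  have lin : ∀ a b d : ℝ, IntegrableOn (fun t => a * A t + b * Bf t + d * N t)
      (Metric.ball (0 : T) r) ∧ ∫ t in Metric.ball (0 : T) r, (a * A t + b * Bf t + d * N t) =
        a * osc (lam • H.Om) f + b * opf (fun _ => I • M.C.spin (H.J * H.W)) f + d * n2 f := by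
    intro a b d
    have j1 : Integrable fun t => a * A t + b * Bf t := (iA.const_mul a).add (iB.const_mul b)
    refine ⟨(j1.add (iN.const_mul d)).integrableOn, ?_⟩
    rw [setIntegral_eq_integral_of_forall_compl_eq_zero fun t ht => by
        rw [(z t ht).1, (z t ht).2.1, (z t ht).2.2]; ring,
      integral_add j1 (iN.const_mul d), integral_add (iA.const_mul a) (iB.const_mul b),
      integral_const_mul, integral_const_mul, integral_const_mul, vA, vB, vN]
  have pt : ∀ t ∈ Metric.ball (0 : T) r,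
      (1 - η) * A t + lam * Bf t - η * lam * N t ≤ σ.jac t * den M P lam φ (σ.p + σ.j t) ∧
      σ.jac t * den M P lam φ (σ.p + σ.j t) ≤
        (1 + η) * A t + lam * Bf t + (η * lam + K) * N t := fun t ht => by
    have h1 : f =ᶠ[nhds t] fun s => φ (σ.p + σ.j s) := by
      filter_upwards [Metric.isOpen_ball.mem_nhds ht] with s hs using hfe s (hlt s hs)
    have h2 : g2 f t = g2 (fun s => φ (σ.p + σ.j s)) t := by
      unfold g2
      rw [h1.fderiv_eq]
    refine (hd t (hlt2 t ht)).2 lam φ hl (hφ.1.differentiable (by simp)) hi _ _ _ ?_ ?_ ?_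
    · simp only [hA, h2, hfe t (hlt t ht)]
    · simp only [hBf, hfe t (hlt t ht)]
    · simp only [hN, hfe t (hlt t ht)]
  have pn : ∀ t ∈ Metric.ball (0 : T) r,
      (1 - η) * N t ≤ σ.jac t * ‖φ (σ.p + σ.j t)‖ ^ 2 ∧
      σ.jac t * ‖φ (σ.p + σ.j t)‖ ^ 2 ≤ (1 + η) * N t := fun t ht => by
    have h1 := abs_le.1 (hd t (hlt2 t ht)).1
    simp only [hN, hfe t (hlt t ht)]
    exact ⟨mul_le_mul_of_nonneg_right (by linarith) (sq_nonneg _),
      mul_le_mul_of_nonneg_right (by linarith) (sq_nonneg _)⟩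
  have mb : MeasurableSet (Metric.ball (0 : T) r) := measurableSet_ball
  have a1 := setIntegral_mono_on (lin 0 0 (1 - η)).1 i1 mb fun t ht => by linarith [(pn t ht).1]
  have a2 := setIntegral_mono_on i1 (lin 0 0 (1 + η)).1 mb fun t ht => by linarith [(pn t ht).2]
  have a3 := setIntegral_mono_on (lin (1 - η) lam (-(η * lam))).1 i2 mb fun t ht => by
    linarith [(pt t ht).1]
  have a4 := setIntegral_mono_on i2 (lin (1 + η) lam (η * lam + K)).1 mb fun t ht => (pt t ht).2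
  rw [(lin _ _ _).2] at a1 a2 a3 a4
  rw [e1, e2]
  refine ⟨?_, ?_, mul_le_mul_of_nonneg_left (by linarith) hc.le,
    mul_le_mul_of_nonneg_left a4 hc.le⟩
  · nlinarith [mul_le_mul_of_nonneg_left a1 hc.le]
  · nlinarith [mul_le_mul_of_nonneg_left a2 hc.le]

end Vale.Agent.P353.SC
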