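import Vale.Agent.P353.GDefs

open MeasureTheory NormedSpace
open Complex (I)
open scoped InnerProductSpace ContDiff

noncomputable section
namespace Vale.Agent.P353
variable {V F : Type} [NormedAddCommGroup V] [InnerProductSpace ℝ V] [FiniteDimensional ℝ V]
  [MeasurableSpace V] [BorelSpace V]
  [NormedAddCommGroup F] [InnerProductSpace ℂ F] [CompleteSpace F]

/-- exactly one low lying state of the deformed form in the invariant sector -/
def Mod.OneLow (M : Mod V F) (P : Par) (mu : ℝ) : Prop :=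
  ∃ c > 0, ∃ ℓ : (EE V → F) → ℂ,
    (∀ φ χ, Tst φ → Tst χ → ∀ a b : ℂ, ℓ (a • φ + b • χ) = a * ℓ φ + b * ℓ χ) ∧
    (∃ φ, Tst φ ∧ M.Inv φ ∧ M.RInv P.toGam Amat φ ∧ M.q P 1 mu φ < c / 4 * n2 φ) ∧
    ∀ φ, Tst φ → M.Inv φ → M.RInv P.toGam Amat φ → ℓ φ = 0 → c * n2 φ ≤ M.q P 1 mu φ

end Vale.Agent.P353
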