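import Vale.Agent.P353.SBase
import Vale.Agent.P353.AExp
import Vale.Agent.P353.AForm0

open MeasureTheory NormedSpace
open Complex (I)
open scoped InnerProductSpace ContDiff

noncomputable section
namespace Vale.Agent.P353.SC
variable {V F : Type} [NormedAddCommGroup V] [InnerProductSpace ℝ V] [FiniteDimensional ℝ V]
  [MeasurableSpace V] [BorelSpace V]
  [NormedAddCommGroup F] [InnerProductSpace ℂ F] [CompleteSpace F]
  {T : Type} [NormedAddCommGroup T] [InnerProductSpace ℝ T] [FiniteDimensional ℝ T]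
  [MeasurableSpace T] [BorelSpace T]

omit [MeasurableSpace T] [BorelSpace T] in
theorem sg2_split {E : Type} [NormedAddCommGroup E] [InnerProductSpace ℝ E] [FiniteDimensional ℝ E]
    {j : T →L[ℝ] E} (hj : ∀ t t', ⟪j t, j t'⟫_ℝ = ⟪t, t'⟫_ℝ) (p : E) {φ : E → F}
    (hd : Differentiable ℝ φ) (t : T) : g2 φ (p + j t) = g2 (fun s => φ (p + j s)) t +
      ∑ a, ‖fderiv ℝ φ (p + j t) (stdOrthonormalBasis ℝ (LinearMap.range j.toLinearMap)ᗮ a)‖ ^ 2 := by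
  let _ : InnerProductSpace ℝ F := InnerProductSpace.rclikeToReal ℂ F
  have h := sum_onb_split ((innerₗ F).compl₁₂ (fderiv ℝ φ (p + j t)).toLinearMap
    (fderiv ℝ φ (p + j t)).toLinearMap) j (LinearMap.range j.toLinearMap)ᗮ.subtypeL hj
    (fun _ _ => rfl) (fun u v => v.2 _ ⟨u, rfl⟩) fun x => by
      obtain ⟨_, ⟨u, rfl⟩, z, hz, e⟩ :=
        (LinearMap.range j.toLinearMap).exists_add_mem_mem_orthogonal x
      exact ⟨u, ⟨z, hz⟩, e⟩
  have e : fderiv ℝ (fun s => φ (p + j s)) t = fderiv ℝ φ (p + j t) ∘L j :=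
    ((hd _).hasFDerivAt.comp t (j.hasFDerivAt.const_add p)).fderiv
  simpa [g2, e] using h

/-- the derivative along an isometric slice (`sum_onb_split`, or extend the basis) -/
theorem g2_slice_le {j : T →L[ℝ] EE V} (hj : ∀ t t', ⟪j t, j t'⟫_ℝ = ⟪t, t'⟫_ℝ) (p : EE V)
    {φ : EE V → F} (hd : Differentiable ℝ φ) (t : T) :
    g2 (fun s => φ (p + j s)) t ≤ g2 φ (p + j t) := by
  rw [sg2_split hj p hd t]
  exact le_add_of_nonneg_right (by positivity)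

/-- The tangent derivatives are small.  Choose an orthonormal basis `τ k = lift (br (ξ k)) p` of
the tangent space (the range of `ξ ↦ lift (br ξ) p`); `Inv.deriv` at `x = p + j t` gives
`∂_τ φ = spin (lift (br ξ)) φ - ∂_{lift (br ξ) (j t)} φ`; `norm_fderiv_sq_le`. -/
theorem g2_le_slice (M : Mod V F) {p : EE V} {j : T →L[ℝ] EE V} (hj : IsN M.L p j) :
    ∃ K > 0, ∀ φ : EE V → F, Differentiable ℝ φ → M.Inv φ → ∀ t,
      g2 φ (p + j t) ≤ g2 (fun s => φ (p + j s)) t + K * ‖φ (p + j t)‖ ^ 2 +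
        K * ‖t‖ ^ 2 * g2 φ (p + j t) := by
  let A : V →ₗ[ℝ] EE V :=
    { toFun := fun ξ => lift (M.L.br ξ) p
      map_add' := fun a b => by ext i; simp
      map_smul' := fun a b => by ext i; simp }
  have hA : ∀ n ∈ (LinearMap.range j.toLinearMap)ᗮ, ∃ ξ, lift (M.L.br ξ) p = n := fun n hn => by
    have : n ∈ (LinearMap.range A)ᗮᗮ := fun u hu => by
      obtain ⟨t, rfl⟩ := hj.surj u fun ξ => hu _ ⟨ξ, rfl⟩
      exact hn _ ⟨t, rfl⟩
    rwa [Submodule.orthogonal_orthogonal] at this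
  choose ξ hξ using fun a => hA _ (stdOrthonormalBasis ℝ (LinearMap.range j.toLinearMap)ᗮ a).2
  obtain ⟨a, ha⟩ : ∃ a : _ → ℝ, ∀ k, 0 ≤ a k ∧
      ∀ w, ‖M.C.spin (lift (M.L.br (ξ k))) w‖ ^ 2 ≤ a k * ‖w‖ ^ 2 :=
    ⟨fun k => ‖M.C.spin (lift (M.L.br (ξ k)))‖ ^ 2, fun k => ⟨sq_nonneg _, fun w => by
      rw [← mul_pow]
      exact pow_le_pow_left₀ (norm_nonneg _) (ContinuousLinearMap.le_opNorm _ w) 2⟩⟩
  obtain ⟨b, hb⟩ : ∃ b : _ → ℝ, ∀ k, 0 ≤ b k ∧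
      ∀ t, ‖lift (M.L.br (ξ k)) (j t)‖ ^ 2 ≤ b k * ‖t‖ ^ 2 :=
    ⟨fun k => ‖(lift (M.L.br (ξ k)) : EE V →L[ℝ] EE V) ∘L j‖ ^ 2, fun k => ⟨sq_nonneg _, fun t => by
      rw [← mul_pow]
      exact pow_le_pow_left₀ (norm_nonneg _)
        (((lift (M.L.br (ξ k)) : EE V →L[ℝ] EE V) ∘L j).le_opNorm t) 2⟩⟩
  have a0 := Finset.sum_nonneg fun k (_ : k ∈ Finset.univ) => (ha k).1
  have b0 := Finset.sum_nonneg fun k (_ : k ∈ Finset.univ) => (hb k).1
  refine ⟨2 * ∑ k, a k + 2 * ∑ k, b k + 1, by linarith, fun φ hd hφ t => ?_⟩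
  have g0 : 0 ≤ g2 φ (p + j t) := Finset.sum_nonneg fun _ _ => sq_nonneg _
  have h1 := Finset.sum_le_sum (s := Finset.univ) fun k _ => show
      ‖fderiv ℝ φ (p + j t) (stdOrthonormalBasis ℝ (LinearMap.range j.toLinearMap)ᗮ k)‖ ^ 2 ≤
        a k * (2 * ‖φ (p + j t)‖ ^ 2) + b k * (2 * (‖t‖ ^ 2 * g2 φ (p + j t))) by
    have e := hφ.deriv hd (ξ k) (p + j t)
    rw [map_add, map_add, hξ, ← eq_sub_iff_add_eq] at e
    have c1 := (norm_fderiv_sq_le φ (p + j t) _).trans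
      (mul_le_mul_of_nonneg_right ((hb k).2 t) g0)
    have c2 := pow_le_pow_left₀ (norm_nonneg _) (e ▸ norm_sub_le _ _ :
      ‖fderiv ℝ φ (p + j t) (stdOrthonormalBasis ℝ (LinearMap.range j.toLinearMap)ᗮ k)‖ ≤ _) 2
    nlinarith [(ha k).2 (φ (p + j t)), sq_nonneg (‖M.C.spin (lift (M.L.br (ξ k))) (φ (p + j t))‖ -
      ‖fderiv ℝ φ (p + j t) (lift (M.L.br (ξ k)) (j t))‖)]
  rw [Finset.sum_add_distrib, ← Finset.sum_mul, ← Finset.sum_mul] at h1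
  have h2 := sg2_split hj.iso p hd t
  have h3 : 0 ≤ ‖t‖ ^ 2 * g2 φ (p + j t) := by positivity
  nlinarith [mul_nonneg a0 h3, mul_nonneg b0 (sq_nonneg ‖φ (p + j t)‖), sq_nonneg ‖φ (p + j t)‖]

end Vale.Agent.P353.SC
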