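import Vale.Agent.P353.SId
import Vale.Agent.P353.GBump
import Vale.Agent.P353.AForm2

open MeasureTheory NormedSpace
open Complex (I)
open scoped InnerProductSpace ContDiff

noncomputable section
namespace Vale.Agent.P353.SC
variable {V F : Type} [NormedAddCommGroup V] [InnerProductSpace ℝ V] [FiniteDimensional ℝ V]
  [MeasurableSpace V] [BorelSpace V]
  [NormedAddCommGroup F] [InnerProductSpace ℂ F] [CompleteSpace F]

theorem Good.mono {M : Mod V F} {P : Par} {W W' : Set (EE V)} (h : Good M P W) (hs : W' ⊆ W) :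
    Good M P W' := by
  obtain ⟨η, h0, l0, h1⟩ := h
  exact ⟨η, h0, l0, fun lam hl φ hφ h2 => h1 lam hl φ hφ (h2.trans hs)⟩

theorem sgood_n2 (a : EE V → ℝ) (φ : EE V → F) :
    n2 (fun x => a x • φ x) = wt (fun x => a x ^ 2) φ := by
  rw [← wt_one, wt_mul]
  simp only [one_mul]

theorem sgood_sum {ι : Type} (T : Finset ι) {a : ι → EE V → ℝ} (ha : ∀ p ∈ T, Continuous (a p))
    {φ : EE V → F} (h : Tst φ) (h1 : ∀ x ∈ tsupport φ, ∑ p ∈ T, a p x ^ 2 = 1) :
    ∑ p ∈ T, n2 (fun x => a p x • φ x) = n2 φ := by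
  simp only [sgood_n2, wt]
  rw [← integral_finsetSum _ fun p hp => h.int_wt ((ha p hp).fun_pow 2).continuousOn]
  refine integral_congr_ae (Filter.Eventually.of_forall fun x => ?_)
  simp only [← Finset.sum_mul]
  by_cases hx : x ∈ tsupport φ
  · rw [h1 x hx, one_mul]
  · rw [image_eq_zero_of_notMem_tsupport hx]
    simp

theorem sgood_bdd {E : Type} [NormedAddCommGroup E] [InnerProductSpace ℝ E] [CompleteSpace E]
    {a : E → ℝ} (h : ContDiff ℝ ∞ a) (hc : HasCompactSupport a) :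
    ∃ C, ∀ x, ‖gradient a x‖ ^ 2 ≤ C := by
  obtain ⟨C, hC⟩ := (hc.fderiv ℝ).exists_bound_of_continuous (h.continuous_fderiv (by simp))
  refine ⟨C ^ 2, fun x => pow_le_pow_left₀ (norm_nonneg _) ?_ 2⟩
  rw [gradient, LinearIsometryEquiv.norm_map]
  exact hC x

/-- gluing along a localisation whose cost does not depend on `lam` -/
theorem sgood_glue {M : Mod V F} {P : Par} {ι : Type} (T : Finset ι) {W : ι → Set (EE V)}
    (hW : ∀ p ∈ T, Good M P (W p)) {A : Set (EE V)} {K : ℝ}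
    (h : ∀ lam (φ : EE V → F), Tst φ → tsupport φ ⊆ A → ∃ ψ : ι → EE V → F,
      (∀ p ∈ T, Tst (ψ p) ∧ tsupport (ψ p) ⊆ W p) ∧ ∑ p ∈ T, n2 (ψ p) = n2 φ ∧
      ∑ p ∈ T, M.q P lam lam (ψ p) ≤ M.q P lam lam φ + K / 2 * n2 φ) : Good M P A := by
  choose! η h0 l h1 using hW
  obtain ⟨e, e1, e0⟩ := (((Filter.eventually_all_finset T).2 fun p hp =>
    Filter.mem_of_superset (Ioc_mem_nhdsGT (h0 p hp)) fun e he => he.2).and
    (self_mem_nhdsWithin (s := Set.Ioi (0 : ℝ)) (a := 0))).exists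
  replace e0 : 0 < e := e0
  obtain ⟨l0, h2⟩ := Filter.eventually_atTop.1 (((Filter.eventually_all_finset T).2 fun p _ =>
    Filter.eventually_ge_atTop (l p)).and ((Filter.eventually_ge_atTop 0).and
      (Filter.eventually_ge_atTop (K / e))))
  refine ⟨e / 2, half_pos e0, l0, fun lam hl φ hφ hs => ?_⟩
  obtain ⟨a1, a2, a3⟩ := h2 lam hl
  obtain ⟨ψ, b1, b2, b3⟩ := h lam φ hφ hs
  have h3 : e * lam * n2 φ ≤ ∑ p ∈ T, M.q P lam lam (ψ p) := by
    rw [← b2, Finset.mul_sum]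
    refine Finset.sum_le_sum fun p hp => le_trans ?_ (h1 p hp lam (a1 p hp) _ (b1 p hp).1 (b1 p hp).2)
    exact mul_le_mul_of_nonneg_right (mul_le_mul_of_nonneg_right (e1 p hp) a2) (n2_nonneg _)
  have h4 := mul_le_mul_of_nonneg_right ((div_le_iff₀' e0).1 a3) (n2_nonneg φ)
  linarith

/-- Finite subcover and a partition of unity of squares: use `CL.partition` for the abelian
structure `br = 0` on `V`, for which `G = {1}` and `sat W = W`; then `sch_ims`, whose cost is
bounded independently of `lam`. -/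
theorem good_compact (M : Mod V F) (P : Par) {K : Set (EE V)} (hK : IsCompact K)
    (h : ∀ x ∈ K, ∃ W, IsOpen W ∧ x ∈ W ∧ Good M P W) : Good M P K := by
  choose W w1 w2 w3 using fun x : K => h x x.2
  obtain ⟨T, hT⟩ := hK.elim_finite_subcover W w1 fun x hx => Set.mem_iUnion.2 ⟨⟨x, hx⟩, w2 _⟩
  let L : CL V := ⟨0, by simp, by simp, by simp⟩
  have hL : ∀ A : Set (EE V), L.sat A = A := by
    refine fun A => Set.Subset.antisymm ?_ (CL.subset_sat A)
    rintro x ⟨g, hg, hx⟩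
    have h1 : lift g x = x := by
      ext i
      exact CL.G_center hg (by simp [CL.center, L])
    rwa [h1] at hx
  obtain ⟨a, U, u1, u2, -, a1, a2⟩ := CL.partition (L := L) T (fun p _ => w1 p)
    (fun p _ => hL _) hK hT
  choose! C hC using fun p hp => sgood_bdd (a1 p hp).1 (a1 p hp).2.2.1
  refine sgood_glue T (W := W) (fun p _ => w3 p) (K := ∑ p ∈ T, C p) fun lam φ hφ hs =>
    ⟨fun p x => a p x • φ x, fun p hp => ⟨hφ.smul (a1 p hp).1,
      (tsupport_smul_subset_left _ _).trans (a1 p hp).2.2.2.1⟩,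
      sgood_sum T (fun p hp => (a1 p hp).1.continuous) hφ fun x hx => a2 x (u2 (hs hx)), ?_⟩
  obtain ⟨q1, q2⟩ := M.q_cont P lam lam
  have h2 := sch_ims T (fun p hp => (a1 p hp).1) q1 q2 hφ u1 (hs.trans u2) a2
  have h3 := wt_mono hφ (w := fun x => ∑ p ∈ T, ‖gradient (a p) x‖ ^ 2)
    (w' := fun _ => ∑ p ∈ T, C p)
    (continuous_finsetSum _ fun p hp => af2_cont (a1 p hp).1).continuousOn continuousOn_const
    fun x _ => Finset.sum_le_sum fun p hp => hC p hp x
  rw [wt_const] at h3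
  simp only [Mod.q]
  linarith

/-- an angle function adapted to an invariant set, with bounded gradient (`CL.log_angle` with
`Λ = 4`; where the distance is below `s` the gradient vanishes) -/
theorem exists_angle (L : CL V) {C : Set (EE V)} (hC : ∀ g ∈ L.G, ∀ y ∈ C, lift g y ∈ C) {s : ℝ}
    (hs : 0 < s) : ∃ (ϑ : EE V → ℝ) (K : ℝ), ContDiff ℝ ∞ ϑ ∧ L.SInv ϑ ∧
      (∀ x, ‖gradient ϑ x‖ ^ 2 ≤ K) ∧
      (∀ φ : EE V → F, tsupport (fun x => Real.cos (ϑ x) • φ x) ⊆
        tsupport φ ∩ {x | Metric.infDist x C ≤ 4 * s}) ∧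
      ∀ φ : EE V → F, tsupport (fun x => Real.sin (ϑ x) • φ x) ⊆
        tsupport φ ∩ {x | s ≤ Metric.infDist x C} := by
  obtain ⟨ϑ, h1, h2, h3, h4, h5⟩ := CL.log_angle hC hs (Λ := 4) le_rfl
  have hc := Metric.continuous_infDist_pt C
  refine ⟨ϑ, (10 / Real.log 4 / s) ^ 2, h1, h2, fun x => ?_, fun φ => ?_, fun φ => ?_⟩
  · rcases lt_or_ge (Metric.infDist x C) s with hx | hx
    · have h6 : ϑ =ᶠ[nhds x] fun _ => 0 := by
        filter_upwards [(isOpen_lt hc continuous_const).mem_nhds hx] with y hy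
        exact h3 y hy
      rw [h6.gradient_eq, gradient_fun_const, norm_zero, zero_pow two_ne_zero]
      positivity
    · refine pow_le_pow_left₀ (norm_nonneg _) ((le_div_iff₀ hs).2 (le_trans ?_ (h5 x))) 2
      exact mul_le_mul_of_nonneg_left hx (norm_nonneg _)
  · refine Set.subset_inter (tsupport_smul_subset_right _ _)
      (closure_minimal (fun x hx => ?_) (isClosed_le hc continuous_const))
    by_contra h6
    exact hx (by simp only [h4 x (not_le.1 h6), Real.cos_pi_div_two, zero_smul])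
  · refine Set.subset_inter (tsupport_smul_subset_right _ _)
      (closure_minimal (fun x hx => ?_) (isClosed_le continuous_const hc))
    by_contra h6
    exact hx (by simp only [h3 x (not_le.1 h6), Real.sin_zero, zero_smul])

/-- `sch_ims_angle` for `q` and `cos² + sin² = 1` -/
theorem q_angle (M : Mod V F) (P : Par) (lam : ℝ) {ϑ : EE V → ℝ} (hϑ : ContDiff ℝ ∞ ϑ) {K : ℝ}
    (hK : ∀ x, ‖gradient ϑ x‖ ^ 2 ≤ K) {φ : EE V → F} (h : Tst φ) :
    Tst (fun x => Real.cos (ϑ x) • φ x) ∧ Tst (fun x => Real.sin (ϑ x) • φ x) ∧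
    n2 (fun x => Real.cos (ϑ x) • φ x) + n2 (fun x => Real.sin (ϑ x) • φ x) = n2 φ ∧
    M.q P lam lam (fun x => Real.cos (ϑ x) • φ x) + M.q P lam lam (fun x => Real.sin (ϑ x) • φ x)
      ≤ M.q P lam lam φ + K / 2 * n2 φ := by
  refine ⟨h.smul hϑ.cos, h.smul hϑ.sin, ?_, ?_⟩
  · rw [sgood_n2, sgood_n2, ← wt_add h (hϑ.cos.continuous.fun_pow 2).continuousOn
      (hϑ.sin.continuous.fun_pow 2).continuousOn]
    simp only [Real.cos_sq_add_sin_sq, wt_one]
  · obtain ⟨q1, q2⟩ := M.q_cont P lam lam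
    have h2 := sch_ims_angle hϑ q1 q2 h
    have h3 := wt_mono h (w' := fun _ => K) (af2_cont hϑ).continuousOn continuousOn_const
      fun x _ => hK x
    rw [wt_const] at h3
    simp only [Mod.q]
    linarith

/-- `exists_angle` with `C = {0}` -/
theorem good_closed (M : Mod V F) (P : Par) {R : ℝ} (hR : 0 < R) (h1 : Good M P {x | R ≤ ‖x‖})
    {A : Set (EE V)} (hA : IsClosed A) (h : ∀ x ∈ A, ∃ W, IsOpen W ∧ x ∈ W ∧ Good M P W) :
    Good M P A := by
  obtain ⟨ϑ, K, a1, -, a2, a3, a4⟩ := exists_angle (F := F) M.L (C := {0})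
    (fun g _ y hy => by rw [Set.mem_singleton_iff.1 hy, map_zero]; rfl) hR
  simp only [Metric.infDist_singleton, dist_zero_right] at a3 a4
  have h2 : Good M P (A ∩ Metric.closedBall 0 (4 * R)) :=
    good_compact M P ((isCompact_closedBall _ _).inter_left hA) fun x hx => h x hx.1
  refine sgood_glue (ι := Bool) Finset.univ
    (W := fun b => cond b (A ∩ Metric.closedBall 0 (4 * R)) {x | R ≤ ‖x‖}) (K := K)
    (fun b _ => by cases b; exacts [h1, h2]) fun lam φ hφ hs => ?_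
  obtain ⟨b1, b2, b3, b4⟩ := q_angle M P lam a1 a2 hφ
  refine ⟨fun b => cond b (fun x => Real.cos (ϑ x) • φ x) fun x => Real.sin (ϑ x) • φ x,
    fun b _ => ?_, by rw [Fintype.sum_bool]; exact b3, by rw [Fintype.sum_bool]; exact b4⟩
  cases b
  · exact ⟨b2, fun x hx => (a4 φ hx).2⟩
  · exact ⟨b1, fun x hx => ⟨hs (a3 φ hx).1, mem_closedBall_zero_iff.2 (a3 φ hx).2⟩⟩

end Vale.Agent.P353.SC
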