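import Vale.Agent.P353.AFock2

open MeasureTheory NormedSpace
open Complex (I)
open scoped InnerProductSpace ContDiff

noncomputable section
namespace Vale.Agent.P353
variable {V : Type} [NormedAddCommGroup V] [InnerProductSpace ℝ V] [FiniteDimensional ℝ V]
  {L : CL V} {N : ℕ}

/-- diagonal matrix of phases -/
def xsuD (d : Fin N → ℝ) : Matrix (Fin N) (Fin N) ℂ :=
  Matrix.diagonal fun j => Complex.exp (d j * I)

/-- real diagonal matrix -/
def xsuR (d : Fin N → ℝ) : Matrix (Fin N) (Fin N) ℂ := Matrix.diagonal fun j => (d j : ℂ)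

theorem xsuD_add (d e : Fin N → ℝ) : xsuD (d + e) = xsuD d * xsuD e := by
  simp only [xsuD, Matrix.diagonal_mul_diagonal, Pi.add_apply, Complex.ofReal_add, add_mul,
    Complex.exp_add]

theorem xsuD_zero : xsuD (0 : Fin N → ℝ) = 1 := by simp [xsuD]

theorem xsuD_star (d : Fin N → ℝ) : star (xsuD d) = xsuD (-d) := by
  rw [xsuD, xsuD, Matrix.star_eq_conjTranspose, Matrix.diagonal_conjTranspose]
  congr 1
  funext j
  simp [← Complex.exp_conj]

theorem xsuD_det (d : Fin N → ℝ) : (xsuD d).det = Complex.exp ((∑ j, d j : ℝ) * I) := by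
  rw [xsuD, Matrix.det_diagonal, ← Complex.exp_sum, Complex.ofReal_sum, Finset.sum_mul]

theorem xsuD_unitary (d : Fin N → ℝ) : xsuD d ∈ Matrix.unitaryGroup (Fin N) ℂ := by
  rw [Matrix.mem_unitaryGroup_iff, xsuD_star, ← xsuD_add, add_neg_cancel, xsuD_zero]

theorem xsuD_mem {d : Fin N → ℝ} (h : ∑ j, d j = 0) :
    xsuD d ∈ Matrix.specialUnitaryGroup (Fin N) ℂ :=
  ⟨xsuD_unitary d, by
    change (xsuD d).det = 1
    rw [xsuD_det, h]
    simp⟩

theorem xsu_det_conj (W : Matrix.unitaryGroup (Fin N) ℂ) (A : Matrix (Fin N) (Fin N) ℂ) :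
    (W.1 * A * star W.1).det = A.det := by
  rw [Matrix.det_mul_comm, ← mul_assoc, W.2.1, one_mul]

theorem xsu_exp (W : Matrix.unitaryGroup (Fin N) ℂ) (d : Fin N → ℝ) :
    exp (I • (W.1 * xsuR d * star W.1)) = W.1 * xsuD d * star W.1 := by
  have h1 : star W.1 = W.1⁻¹ := (Matrix.inv_eq_right_inv W.2.2).symm
  have h2 : IsUnit W.1 := (Unitary.toUnits W).isUnit
  rw [← smul_mul_assoc, ← mul_smul_comm, h1, Matrix.exp_conj _ _ h2, xsuR, ← Matrix.diagonal_smul,
    Matrix.exp_diagonal, Pi.exp_def, xsuD]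
  congr 3
  funext j
  rw [← Complex.exp_eq_exp_ℂ, Pi.smul_apply, smul_eq_mul, mul_comm]

theorem xsu_herm {H : Matrix (Fin N) (Fin N) ℂ} (h : H.IsHermitian) :
    ∃ (W : Matrix.unitaryGroup (Fin N) ℂ) (d : Fin N → ℝ), H = W.1 * xsuR d * star W.1 :=
  ⟨h.eigenvectorUnitary, h.eigenvalues, h.spectral_theorem⟩

theorem xsu_trace (W : Matrix.unitaryGroup (Fin N) ℂ) (d : Fin N → ℝ) :
    (W.1 * xsuR d * star W.1).trace = (∑ j, d j : ℝ) := by
  rw [Matrix.trace_mul_comm, ← mul_assoc, W.2.1, one_mul, xsuR, Matrix.trace_diagonal,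
    Complex.ofReal_sum]

theorem xsu_herm' (W : Matrix.unitaryGroup (Fin N) ℂ) (d : Fin N → ℝ) :
    (W.1 * xsuR d * star W.1).IsHermitian :=
  Matrix.isHermitian_mul_mul_conjTranspose _ (Matrix.isHermitian_diagonal_of_self_adjoint _ (by
    funext j
    simp))

open scoped Matrix.Norms.L2Operator in
theorem xsu_log (u : Matrix.unitaryGroup (Fin N) ℂ) :
    ∃ H : Matrix (Fin N) (Fin N) ℂ, H.IsHermitian ∧ exp (I • H) = u.1 := by
  have hn : IsStarNormal u.1 := isStarNormal_of_mem_unitary u.2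
  have hf : ∀ f : ℂ → ℂ, ContinuousOn f (spectrum ℂ u.1) := fun f =>
    (Matrix.finite_spectrum u.1).continuousOn f
  refine ⟨cfc (fun z => (Complex.arg z : ℂ)) u.1, IsSelfAdjoint.cfc_arg u.1, ?_⟩
  rw [← cfc_const_mul I _ u.1 (hf _), ← CFC.exp_eq_normedSpace_exp (𝕜 := ℂ),
    ← cfc_comp' _ _ u.1 (by fun_prop) (hf _)]
  conv_rhs => rw [← cfc_id' ℂ u.1]
  refine cfc_congr fun y hy => ?_
  have h1 : ‖y‖ = 1 := spectrum.norm_eq_one_of_unitary u.2 hy
  have h2 := Complex.norm_mul_exp_arg_mul_I y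
  rw [h1, Complex.ofReal_one, one_mul] at h2
  rw [← Complex.exp_eq_exp_ℂ, mul_comm, h2]

theorem xsu_diag (g : Matrix.specialUnitaryGroup (Fin N) ℂ) :
    ∃ (W : Matrix.unitaryGroup (Fin N) ℂ) (d : Fin N → ℝ), ∑ j, d j = 0 ∧
      g.1 = W.1 * xsuD d * star W.1 := by
  obtain ⟨H, hH, h1⟩ := xsu_log ⟨g.1, g.2.1⟩
  obtain ⟨W, d, rfl⟩ := xsu_herm hH
  rw [xsu_exp] at h1
  change _ = g.1 at h1
  have h2 : Complex.exp ((∑ j, d j : ℝ) * I) = 1 := by
    rw [← xsuD_det, ← xsu_det_conj W, h1]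
    exact g.2.2
  cases N with
  | zero => exact ⟨W, d, by simp, h1.symm⟩
  | succ n =>
    refine ⟨W, d + Pi.single 0 (-∑ j, d j), by simp [Finset.sum_add_distrib], ?_⟩
    have h3 : xsuD (Pi.single 0 (-∑ j, d j) : Fin (n + 1) → ℝ) = 1 := by
      rw [xsuD, ← Matrix.diagonal_one]
      congr 1
      funext j
      by_cases hj : j = 0
      · rw [hj, Pi.single_eq_same, Complex.ofReal_neg, neg_mul, Complex.exp_neg, h2, inv_one]
      · simp [hj]
    rw [xsuD_add, h3, mul_one, h1]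

open scoped Matrix.Norms.Operator in
theorem xsu_ode (h : SUN L N) (ξ a : V) :
    exp (-((-I) • h.hat ξ)) * h.hat (L.ex ξ a) * exp ((-I) • h.hat ξ) = h.hat a := by
  set X := (-I) • h.hat ξ with hX
  have hb : ∀ b, h.hat (L.br ξ b) = X * h.hat b - h.hat b * X := fun b => by
    rw [hX, smul_mul_assoc, mul_smul_comm, ← smul_sub, h.comm, smul_smul]
    simp
  let T : (V →L[ℝ] V) →L[ℝ] Matrix (Fin N) (Fin N) ℂ :=
    LinearMap.toContinuousLinearMap h.hat ∘L ContinuousLinearMap.apply ℝ V a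
  have hd : ∀ t : ℝ, HasDerivAt
      (fun t : ℝ => exp (t • (-X)) * T (exp (t • L.br ξ)) * exp (t • X)) 0 t := fun t => by
    have h1 := ((hasDerivAt_exp_smul_const (-X) t).mul
      (T.hasFDerivAt.comp_hasDerivAt t (hasDerivAt_exp_smul_const' (L.br ξ) t))).mul
      (hasDerivAt_exp_smul_const' X t)
    refine h1.congr_deriv ?_
    have h2 : ∀ b, (exp (t • -X) * -X * h.hat b + exp (t • -X) * h.hat (L.br ξ b)) * exp (t • X) +
        exp (t • -X) * h.hat b * (X * exp (t • X)) = 0 := fun b => by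
      rw [hb]
      noncomm_ring
    exact h2 (exp (t • L.br ξ) a)
  have h3 := is_const_of_deriv_eq_zero (fun t => (hd t).differentiableAt) (fun t => (hd t).deriv) 1 0
  simp only [one_smul, zero_smul, exp_zero, one_mul, mul_one] at h3
  exact h3

/-- the exponential of the bracket is conjugation by a special unitary matrix -/
theorem SUN.ex_conj (h : SUN L N) (ξ : V) : exp ((-I) • h.hat ξ) ∈ Matrix.specialUnitaryGroup (Fin N) ℂ ∧
    ∀ a, h.hat (L.ex ξ a) = exp ((-I) • h.hat ξ) * h.hat a * star (exp ((-I) • h.hat ξ)) := by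
  have h1 : exp ((-I) • h.hat ξ) ∈ Matrix.specialUnitaryGroup (Fin N) ℂ := by
    obtain ⟨W, d, hW⟩ := xsu_herm (h.herm ξ).neg
    have h2 : ∑ j, d j = 0 := by
      have := xsu_trace W d
      rw [← hW, Matrix.trace_neg, h.tr0, neg_zero] at this
      exact_mod_cast this.symm
    rw [neg_smul, ← smul_neg, hW, xsu_exp]
    exact ⟨mul_mem (mul_mem W.2 (xsuD_unitary d)) (star W).2,
      (xsu_det_conj W _).trans (xsuD_mem h2).2⟩
  refine ⟨h1, fun a => ?_⟩
  have h3 : exp ((-I) • h.hat ξ) * exp (-((-I) • h.hat ξ)) = 1 := by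
    rw [← Matrix.exp_add_of_commute _ _ (Commute.refl ((-I) • h.hat ξ)).neg_right, add_neg_cancel, exp_zero]
  rw [← xsu_ode h ξ a, ← mul_assoc, ← mul_assoc, h3, one_mul, mul_assoc, h1.1.2, mul_one]

/-- every special unitary matrix is an exponential (diagonalise via the Cayley transform) -/
theorem SUN.exp_surj (h : SUN L N) (g : Matrix.specialUnitaryGroup (Fin N) ℂ) :
    ∃ ξ, g.1 = exp ((-I) • h.hat ξ) := by
  obtain ⟨W, d, hd, hg⟩ := xsu_diag g
  obtain ⟨ξ, hξ⟩ := h.surj _ (xsu_herm' W d).neg (by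
    rw [Matrix.trace_neg, xsu_trace, hd]
    simp)
  exact ⟨ξ, by rw [hξ, neg_smul_neg, xsu_exp, hg]⟩

theorem xsu_conj (χ : Matrix.specialUnitaryGroup (Fin N) ℂ →* ℂ)
    (W : Matrix.unitaryGroup (Fin N) ℂ) {d : Fin N → ℝ} (hd : ∑ j, d j = 0)
    (g : Matrix.specialUnitaryGroup (Fin N) ℂ) (hg : g.1 = W.1 * xsuD d * star W.1) :
    χ g = χ ⟨xsuD d, xsuD_mem hd⟩ := by
  cases N with
  | zero => exact congrArg χ (Subtype.ext (Subsingleton.elim _ _))
  | succ n =>
    have h1 : ‖W.1.det‖ = 1 := CStarRing.norm_of_mem_unitary (Matrix.det_of_mem_unitary W.2)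
    have h2 := Complex.norm_mul_exp_arg_mul_I W.1.det
    rw [h1, Complex.ofReal_one, one_mul] at h2
    let e : Fin (n + 1) → ℝ := Pi.single 0 (-Complex.arg W.1.det)
    let W' : Matrix.specialUnitaryGroup (Fin (n + 1)) ℂ :=
      ⟨W.1 * xsuD e, mul_mem W.2 (xsuD_unitary e), by
        change (W.1 * xsuD e).det = 1
        rw [Matrix.det_mul, xsuD_det, Finset.sum_pi_single', if_pos (Finset.mem_univ _),
          Complex.ofReal_neg, neg_mul, Complex.exp_neg, h2, mul_inv_cancel₀]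
        rw [← norm_ne_zero_iff, h1]
        exact one_ne_zero⟩
    have h3 : g * W' = W' * ⟨xsuD d, xsuD_mem hd⟩ := Subtype.ext (by
      change g.1 * (W.1 * xsuD e) = W.1 * xsuD e * xsuD d
      rw [hg, mul_assoc, ← mul_assoc (star W.1), W.2.1, one_mul, mul_assoc, mul_assoc,
        ← xsuD_add, ← xsuD_add, add_comm d e])
    have h4 := congrArg χ h3
    rw [map_mul, map_mul, mul_comm] at h4
    exact mul_left_cancel₀ ((Group.isUnit W').map χ).ne_zero h4

theorem xsu_perm (σ : Equiv.Perm (Fin N)) (d : Fin N → ℝ) :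
    ∃ W : Matrix.unitaryGroup (Fin N) ℂ, xsuD (d ∘ σ) = W.1 * xsuD d * star W.1 := by
  have h1 : ∀ A : Matrix (Fin N) (Fin N) ℂ,
      σ.permMatrix ℂ * A * star (σ.permMatrix ℂ) = A.submatrix σ σ := fun A => by
    rw [Matrix.star_eq_conjTranspose, Matrix.conjTranspose_permMatrix,
      PEquiv.toMatrix_toPEquiv_mul, PEquiv.mul_toMatrix_toPEquiv]
    rfl
  refine ⟨⟨σ.permMatrix ℂ, Matrix.mem_unitaryGroup_iff.2 ?_⟩, ?_⟩
  · simpa using h1 1
  · rw [h1, xsuD, xsuD, Matrix.submatrix_diagonal_equiv]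
    rfl

theorem xsu_sum (χ : Matrix.specialUnitaryGroup (Fin N) ℂ →* ℂ) {ι : Type} (s : Finset ι)
    (f : ι → Fin N → ℝ) (hf : ∀ i, ∑ j, f i j = 0) (h : ∑ j, (∑ i ∈ s, f i) j = 0) :
    χ ⟨xsuD (∑ i ∈ s, f i), xsuD_mem h⟩ = ∏ i ∈ s, χ ⟨xsuD (f i), xsuD_mem (hf i)⟩ := by
  classical
  induction s using Finset.induction_on with
  | empty =>
    rw [Finset.prod_empty, ← χ.map_one]
    exact congrArg χ (Subtype.ext xsuD_zero)
  | insert i s hi ih =>
    have h2 : ∑ j, (∑ i ∈ s, f i) j = 0 := by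
      simp only [Finset.sum_apply]
      rw [Finset.sum_comm]
      exact Finset.sum_eq_zero fun i _ => hf i
    rw [Finset.prod_insert hi, ← ih h2, ← map_mul]
    refine congrArg χ (Subtype.ext ?_)
    change xsuD _ = xsuD _ * xsuD _
    rw [Finset.sum_insert hi, xsuD_add]

/-- characters of the special unitary group are trivial -/
theorem su_char (χ : Matrix.specialUnitaryGroup (Fin N) ℂ →* ℂ) (g) : χ g = 1 := by
  obtain ⟨W, d, hd, hg⟩ := xsu_diag g
  rw [xsu_conj χ W hd g hg]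
  cases N with
  | zero => rw [← χ.map_one]; exact congrArg χ (Subtype.ext (Subsingleton.elim _ _))
  | succ n =>
    let y : Fin (n + 1) → ℝ := ((n : ℝ) + 1)⁻¹ • d
    have hy : ∑ j, y j = 0 := by simp [y, ← Finset.mul_sum, hd]
    have h1 : ∑ _k : Fin (n + 1), y = d := by
      rw [Finset.sum_const, Finset.card_fin, ← Nat.cast_smul_eq_nsmul ℝ, smul_smul, Nat.cast_succ,
        mul_inv_cancel₀ (by positivity), one_smul]
    have hs : ∀ k : Fin (n + 1), ∑ j, (y ∘ Equiv.addLeft k) j = 0 := fun k =>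
      (Equiv.sum_comp (Equiv.addLeft k) y).trans hy
    have h2 : ∑ k : Fin (n + 1), y ∘ Equiv.addLeft k = 0 := by
      funext j
      rw [Finset.sum_apply]
      exact (Equiv.sum_comp (Equiv.addRight j) y).trans hy
    have h3 := xsu_sum χ Finset.univ (fun _ : Fin (n + 1) => y) (fun _ => hy) (by rw [h1, hd])
    have h4 := xsu_sum χ Finset.univ (fun k => y ∘ Equiv.addLeft k) hs (by rw [h2]; simp)
    have h5 : ∀ k : Fin (n + 1), χ ⟨xsuD (y ∘ Equiv.addLeft k), xsuD_mem (hs k)⟩ =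
        χ ⟨xsuD y, xsuD_mem hy⟩ := fun k => by
      obtain ⟨P, hP⟩ := xsu_perm (Equiv.addLeft k) y
      exact xsu_conj χ P hy _ hP
    simp only [h5, h2, xsuD_zero] at h4
    simp only [h1] at h3
    rw [h3, ← h4]
    exact χ.map_one

theorem SUN.hat_inj (h : SUN L N) : Function.Injective h.hat := by
  rw [injective_iff_map_eq_zero]
  intro a ha
  have h1 := h.inn a a
  rw [ha, mul_zero, Matrix.trace_zero] at h1
  exact inner_self_eq_zero.1 (by exact_mod_cast h1.symm)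

end Vale.Agent.P353
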