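import Vale.Agent.P353.SBase
import Vale.Agent.P353.XSU

open MeasureTheory NormedSpace
open Complex (I)
open scoped InnerProductSpace ContDiff

noncomputable section
namespace Vale.Agent.P353.SC
variable {V : Type} [NormedAddCommGroup V] [InnerProductSpace ℝ V] [FiniteDimensional ℝ V]
  {L : CL V} {N : ℕ}

theorem shad_tr (Z : Matrix (Fin N) (Fin N) ℂ) :
    (Z * Z.conjTranspose).trace = ((∑ i, ∑ j, ‖Z i j‖ ^ 2 : ℝ) : ℂ) := by
  simp only [Matrix.trace, Matrix.diag_apply, Matrix.mul_apply, Matrix.conjTranspose_apply]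
  push_cast
  refine Finset.sum_congr rfl fun i _ => Finset.sum_congr rfl fun j _ => ?_
  exact Complex.mul_conj' _

omit [FiniteDimensional ℝ V] in
theorem shad_ct (h : SUN L N) (a b : V) :
    (h.hat a + I • h.hat b).conjTranspose = h.hat a + (-I) • h.hat b := by
  rw [Matrix.conjTranspose_add, Matrix.conjTranspose_smul, (h.herm a).eq, (h.herm b).eq]
  simp

omit [FiniteDimensional ℝ V] in
theorem shad_comm (h : SUN L N) (a b : V) (i j : Fin N) :
    (h.hat a * h.hat b) i j - (h.hat b * h.hat a) i j = I * h.hat (L.br a b) i j :=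
  congrFun (congrFun (h.comm a b) i) j

/-- `tr (a^ a^) = ∑ |a i j|²` -/
theorem norm_hat (h : SUN L N) (a : V) : ‖a‖ ^ 2 = ∑ i, ∑ j, ‖h.hat a i j‖ ^ 2 := by
  have h1 := shad_tr (h.hat a)
  rw [(h.herm a).eq, h.inn, real_inner_self_eq_norm_sq] at h1
  exact_mod_cast h1
theorem entry_le (h : SUN L N) (a : V) (i j : Fin N) : ‖h.hat a i j‖ ≤ ‖a‖ := by
  refine le_of_sq_le_sq ?_ (norm_nonneg _)
  rw [norm_hat h a]
  exact (Finset.single_le_sum (f := fun j => ‖h.hat a i j‖ ^ 2) (fun _ _ => sq_nonneg _)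
    (Finset.mem_univ j)).trans (Finset.single_le_sum (f := fun i => ∑ j, ‖h.hat a i j‖ ^ 2)
      (fun _ _ => Finset.sum_nonneg fun _ _ => sq_nonneg _) (Finset.mem_univ i))
theorem hat_br (h : SUN L N) (a b : V) :
    h.hat (L.br a b) = (-I) • (h.hat a * h.hat b - h.hat b * h.hat a) := by
  rw [h.comm, smul_smul, neg_mul, Complex.I_mul_I, neg_neg, one_smul]
theorem hat_br_dg (h : SUN L N) {X : V} {x : Fin N → ℝ} (hX : h.hat X = dg x) (a : V)
    (i j : Fin N) : h.hat (L.br X a) i j = -I * ((x i - x j : ℝ) : ℂ) * h.hat a i j := by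
  rw [hat_br, hX]
  simp only [dg, Matrix.smul_apply, Matrix.sub_apply, Matrix.diagonal_mul, Matrix.mul_diagonal,
    smul_eq_mul]
  push_cast
  ring
theorem sum_dg (h : SUN L N) {X : V} {x : Fin N → ℝ} (hX : h.hat X = dg x) : ∑ i, x i = 0 := by
  have h1 := h.tr0 X
  rw [hX, dg, Matrix.trace_diagonal] at h1
  exact_mod_cast h1
/-- resonance: the complex combination `z` satisfies `[X, z] = ε z` -/
theorem reson (h : SUN L N) {X : V} {x : Fin N → ℝ} (hX : h.hat X = dg x) {a b : V} {ε : ℝ}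
    (h1 : L.br X a = ε • b) (h2 : L.br X b = -ε • a) (i j : Fin N)
    (hz : (h.hat a + I • h.hat b) i j ≠ 0) : x i - x j = ε := by
  have e1 := hat_br_dg h hX a i j
  have e2 := hat_br_dg h hX b i j
  rw [h1, map_smul] at e1
  rw [h2, map_smul] at e2
  simp only [Matrix.smul_apply, Complex.real_smul, Complex.ofReal_neg] at e1 e2
  have e3 : (((x i - x j : ℝ) : ℂ) - ε) * (h.hat a + I • h.hat b) i j = 0 := by
    simp only [Matrix.add_apply, Matrix.smul_apply, smul_eq_mul]
    linear_combination -I * e1 + e2 + ((x i - x j : ℝ) : ℂ) * h.hat a i j * Complex.I_sq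
  exact_mod_cast sub_eq_zero.1 ((mul_eq_zero.1 e3).resolve_right hz)
theorem comm_z (h : SUN L N) (a b : V) :
    (h.hat a + I • h.hat b) * (h.hat a + I • h.hat b).conjTranspose -
      (h.hat a + I • h.hat b).conjTranspose * (h.hat a + I • h.hat b) =
      (2 : ℂ) • h.hat (L.br a b) := by
  rw [shad_ct]
  ext i j
  simp only [add_mul, mul_add, smul_mul_assoc, mul_smul_comm, Matrix.add_apply, Matrix.sub_apply,
    Matrix.smul_apply, smul_eq_mul]
  linear_combination -2 * I * shad_comm h a b i j - 2 * h.hat (L.br a b) i j * Complex.I_sq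
theorem comm_zw (h : SUN L N) (a b c d : V) :
    (h.hat a + I • h.hat b) * (h.hat c + I • h.hat d) -
      (h.hat c + I • h.hat d) * (h.hat a + I • h.hat b) =
      I • (h.hat (L.br a c - L.br b d) + I • h.hat (L.br a d + L.br b c)) := by
  ext i j
  simp only [add_mul, mul_add, smul_mul_assoc, mul_smul_comm, Matrix.add_apply, Matrix.sub_apply,
    Matrix.smul_apply, smul_eq_mul, map_add, map_sub]
  linear_combination shad_comm h a c i j + I * shad_comm h a d i j + I * shad_comm h b c i j +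
    I ^ 2 * shad_comm h b d i j + I * h.hat (L.br b d) i j * Complex.I_sq
theorem norm_z (h : SUN L N) (a b : V) :
    ‖a‖ ^ 2 + ‖b‖ ^ 2 = ∑ i, ∑ j, ‖(h.hat a + I • h.hat b) i j‖ ^ 2 := by
  have h1 := shad_tr (h.hat a + I • h.hat b)
  rw [shad_ct] at h1
  simp only [add_mul, mul_add, smul_mul_assoc, mul_smul_comm, Matrix.trace_add, Matrix.trace_smul,
    h.inn, real_inner_self_eq_norm_sq, smul_eq_mul, real_inner_comm a b] at h1
  have h2 : ((‖a‖ ^ 2 + ‖b‖ ^ 2 : ℝ) : ℂ) =
      ((∑ i, ∑ j, ‖(h.hat a + I • h.hat b) i j‖ ^ 2 : ℝ) : ℂ) := by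
    rw [← h1, Complex.ofReal_add]
    linear_combination ((‖b‖ ^ 2 : ℝ) : ℂ) * Complex.I_sq
  exact_mod_cast h2
theorem z_inj (h : SUN L N) {a b a' b' : V}
    (hz : h.hat a + I • h.hat b = h.hat a' + I • h.hat b') : a = a' ∧ b = b' := by
  have h0 : h.hat (a - a') + I • h.hat (b - b') = 0 := by
    rw [map_sub, map_sub, smul_sub, ← add_sub_add_comm, hz, sub_self]
  have h1 := norm_z h (a - a') (b - b')
  rw [h0] at h1
  simp only [Matrix.zero_apply, norm_zero, ne_eq, OfNat.ofNat_ne_zero, not_false_eq_true, zero_pow,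
    Finset.sum_const_zero] at h1
  have h2 := (add_eq_zero_iff_of_nonneg (sq_nonneg _) (sq_nonneg _)).1 h1
  exact ⟨sub_eq_zero.1 (norm_eq_zero.1 (pow_eq_zero_iff two_ne_zero |>.1 h2.1)),
    sub_eq_zero.1 (norm_eq_zero.1 (pow_eq_zero_iff two_ne_zero |>.1 h2.2))⟩
theorem z_surj (h : SUN L N) {Z : Matrix (Fin N) (Fin N) ℂ} (hZ : Z.trace = 0) :
    ∃ a b, h.hat a + I • h.hat b = Z := by
  have ht : Z.conjTranspose.trace = 0 := by rw [Matrix.trace_conjTranspose, hZ, star_zero]
  obtain ⟨a, ha⟩ := h.surj ((1 / 2 : ℂ) • (Z + Z.conjTranspose)) (by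
    rw [Matrix.IsHermitian, Matrix.conjTranspose_smul, Matrix.conjTranspose_add,
      Matrix.conjTranspose_conjTranspose, add_comm]
    simp) (by rw [Matrix.trace_smul, Matrix.trace_add, hZ, ht, add_zero, smul_zero])
  obtain ⟨b, hb⟩ := h.surj ((-I / 2 : ℂ) • (Z - Z.conjTranspose)) (by
    rw [Matrix.IsHermitian, Matrix.conjTranspose_smul, Matrix.conjTranspose_sub,
      Matrix.conjTranspose_conjTranspose, ← neg_sub Z, smul_neg, ← neg_smul]
    congr 1
    simp [neg_div]) (by rw [Matrix.trace_smul, Matrix.trace_sub, hZ, ht, sub_zero, smul_zero])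
  refine ⟨a, b, ?_⟩
  rw [ha, hb]
  ext i j
  simp only [Matrix.add_apply, Matrix.sub_apply, Matrix.smul_apply, smul_eq_mul]
  linear_combination (-1 / 2 : ℂ) * (Z i j - Z.conjTranspose i j) * Complex.I_sq

end Vale.Agent.P353.SC
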