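import Vale.Agent.P353.SHad

open MeasureTheory NormedSpace
open Complex (I)
open scoped InnerProductSpace ContDiff

noncomputable section
namespace Vale.Agent.P353.SC
variable {V : Type} [NormedAddCommGroup V] [InnerProductSpace ℝ V] [FiniteDimensional ℝ V]
  {L : CL V} {N : ℕ}

/-- completeness relation -/
theorem sh2_compl (h : SUN L N) (hN : 0 < N) (i j : Fin N) :
    ∑ A, h.hat (stdOrthonormalBasis ℝ V A) j i * h.hat (stdOrthonormalBasis ℝ V A) i j =
      1 - if i = j then (N : ℂ)⁻¹ else 0 := by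
  have hN' : (N : ℂ) ≠ 0 := Nat.cast_ne_zero.2 hN.ne'
  set v := stdOrthonormalBasis ℝ V
  have h1 : ∀ a, h.hat a i j = ∑ A, (h.hat (v A) * h.hat a).trace * h.hat (v A) i j := fun a => by
    conv_lhs => rw [← v.sum_repr' a]
    simp only [map_sum, map_smul, Matrix.sum_apply, Matrix.smul_apply, Complex.real_smul, h.inn]
  obtain ⟨a, b, hz⟩ := z_surj h
    (Z := Matrix.single i j 1 - (if i = j then (N : ℂ)⁻¹ else 0) • (1 : Matrix (Fin N) (Fin N) ℂ))
    (by
      by_cases e : i = j
      · simp [e, hN']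
      · simp [e, Matrix.trace_single_eq_of_ne])
  have h2 : (h.hat a + I • h.hat b) i j =
      ∑ A, (h.hat (v A) * (h.hat a + I • h.hat b)).trace * h.hat (v A) i j := by
    rw [Matrix.add_apply, Matrix.smul_apply, h1 a, h1 b, Finset.smul_sum, ← Finset.sum_add_distrib]
    simp only [mul_add, Matrix.trace_add, Matrix.mul_smul, Matrix.trace_smul, smul_eq_mul, add_mul,
      mul_assoc]
  simp only [hz, mul_sub, Matrix.trace_sub, Matrix.mul_smul, Matrix.trace_smul, mul_one, h.tr0,
    smul_zero, sub_zero, Matrix.trace_mul_single] at h2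
  by_cases e : i = j <;> simpa [e] using h2.symm

/-- Hadamard multipliers.  For a real symmetric `m` with constant diagonal `d` there is a linear
map with `hat (H a) i j = m i j * hat a i j`.  Its trace is `∑ m i j - d`: with an orthonormal
basis `v` of `V`, `∑ A, |hat (v A) i j|² = 1 - δ_ij / N` (real and imaginary part of the entry are
inner products with `(E_ij + E_ji)/2 - δ_ij / N` and `± i (E_ij - E_ji)/2`; Parseval). -/
theorem exists_had (h : SUN L N) (hN : 0 < N) {m : Matrix (Fin N) (Fin N) ℝ} (hm : m.IsSymm)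
    {d : ℝ} (hd : ∀ i, m i i = d) : ∃ H : V →L[ℝ] V,
      (∀ a i j, h.hat (H a) i j = (m i j : ℂ) * h.hat a i j) ∧ tr H = ∑ i, ∑ j, m i j - d := by
  have h1 : ∀ a, ∃ b, h.hat b = Matrix.of fun i j => (m i j : ℂ) * h.hat a i j := fun a => by
    refine h.surj _ (Matrix.IsHermitian.ext fun i j => ?_) ?_
    · rw [Matrix.of_apply, Matrix.of_apply, star_mul', (h.herm a).apply, hm.apply]
      simp
    · have := h.tr0 a
      simp only [Matrix.trace, Matrix.diag_apply, Matrix.of_apply, hd, ← Finset.mul_sum] at this ⊢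
      rw [this, mul_zero]
  choose f hf using h1
  let H : V →ₗ[ℝ] V :=
    { toFun := f
      map_add' := fun a b => h.hat_inj (by
        ext i j
        simp [hf, mul_add])
      map_smul' := fun r a => h.hat_inj (by
        ext i j
        simp [hf, mul_left_comm]) }
  have hH : ∀ a i j, h.hat (H.toContinuousLinearMap a) i j = (m i j : ℂ) * h.hat a i j :=
    fun a i j => congrFun (congrFun (hf a) i) j
  refine ⟨_, hH, Complex.ofReal_injective ?_⟩
  have hN' : (N : ℂ) ≠ 0 := Nat.cast_ne_zero.2 hN.ne'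
  rw [tr_eq_sum (stdOrthonormalBasis ℝ V), Complex.ofReal_sum]
  simp only [← h.inn, Matrix.trace, Matrix.diag_apply, Matrix.mul_apply, hH,
    fun (a b : ℂ) i j => mul_left_comm a (m i j : ℂ) b]
  rw [Finset.sum_comm]
  simp only [fun i => Finset.sum_comm (s := Finset.univ) (t := Finset.univ) (f := fun A j =>
    (m j i : ℂ) * (h.hat (stdOrthonormalBasis ℝ V A) i j * h.hat (stdOrthonormalBasis ℝ V A) j i)),
    ← Finset.mul_sum, sh2_compl h hN]
  rw [Finset.sum_comm]
  simp [mul_sub, Finset.sum_sub_distrib, hd, mul_left_comm (N : ℂ), hN']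

/-- the multipliers of the root decomposition -/
def sh2_mu (i j k l : Fin N) : ℝ :=
  if k = l then (if i = j then (N : ℝ)⁻¹ else 0) else
    (if k = i ∧ l = j then 2⁻¹ else 0) + if k = j ∧ l = i then 2⁻¹ else 0

theorem sh2_symm (i j k l : Fin N) : sh2_mu i j k l = sh2_mu k l i j := by
  unfold sh2_mu
  grind

theorem sh2_sum (hN : 0 < N) (k l : Fin N) : ∑ i, ∑ j, sh2_mu i j k l = 1 := by
  unfold sh2_mu
  by_cases e : k = l
  · simp [e, hN.ne']
  · simp [e, Finset.sum_add_distrib, ite_and]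
    norm_num

/-- root decomposition: `m = (E_ij + E_ji)/2` for `i ≠ j`, `m = 1 / N` (identity matrix) for
`i = j` -/
theorem exists_Q (h : SUN L N) (hN : 0 < N) : ∃ Q : Fin N → Fin N → V →L[ℝ] V,
    ∑ i, ∑ j, Q i j = 1 ∧ (∀ i j, tr (Q i j) = 1 - if i = j then (N : ℝ)⁻¹ else 0) ∧
    ∀ (X : V) (x : Fin N → ℝ), h.hat X = dg x → ∀ i j a,
      L.br X (L.br X (Q i j a)) = -((x i - x j) ^ 2) • Q i j a := by
  have hd : ∀ i j k : Fin N, sh2_mu i j k k = if i = j then (N : ℝ)⁻¹ else 0 := fun i j k =>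
    if_pos rfl
  have hs : ∀ i j : Fin N, (Matrix.of (sh2_mu i j)).IsSymm := fun i j =>
    Matrix.IsSymm.ext fun k l => by
      simp only [Matrix.of_apply, sh2_mu, eq_comm (a := l) (b := k), and_comm, add_comm]
  choose Q hQ hT using fun i j => exists_had h hN (hs i j) (hd i j)
  simp only [Matrix.of_apply] at hQ hT
  refine ⟨Q, ContinuousLinearMap.ext fun a => h.hat_inj (Matrix.ext fun k l => ?_), fun i j => ?_,
    fun X x hX i j a => h.hat_inj (Matrix.ext fun k l => ?_)⟩
  · simp only [FunLike.coe_sum, Finset.sum_apply, map_sum, Matrix.sum_apply, hQ, ← Finset.sum_mul,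
      ← Complex.ofReal_sum, sh2_sum hN, Complex.ofReal_one, one_mul, one_apply_eq_self]
  · simp only [hT, sh2_symm i j, sh2_sum hN]
  · rw [hat_br_dg h hX, hat_br_dg h hX, map_smul, Matrix.smul_apply, hQ, Complex.real_smul]
    have h1 : (x k - x l) ^ 2 * sh2_mu i j k l = (x i - x j) ^ 2 * sh2_mu i j k l := by
      unfold sh2_mu
      split_ifs <;> simp_all
      all_goals ring
    have h2 := congrArg Complex.ofReal h1
    push_cast at h2 ⊢
    linear_combination (x k - x l) ^ 2 * sh2_mu i j k l * h.hat a k l * Complex.I_sq -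
      h.hat a k l * h2

end Vale.Agent.P353.SC
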