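import Vale.Agent.P353.SCov
import Vale.Agent.P353.SCharge

open MeasureTheory NormedSpace
open Complex (I)
open scoped InnerProductSpace ContDiff

noncomputable section
namespace Vale.Agent.P353.SC
variable {V : Type} [NormedAddCommGroup V] [InnerProductSpace ℝ V] [FiniteDimensional ℝ V]
  [MeasurableSpace V] [BorelSpace V] {P : Par} {L : CL V}
  {T : Type} [NormedAddCommGroup T] [InnerProductSpace ℝ T] [FiniteDimensional ℝ T]

section aux
variable {A B : Type} [NormedAddCommGroup A] [InnerProductSpace ℝ A] [FiniteDimensional ℝ A]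
  [NormedAddCommGroup B] [InnerProductSpace ℝ B] [FiniteDimensional ℝ B]

theorem SHarm_comm (f : A →L[ℝ] B) (g : B →L[ℝ] A) : tr (f ∘L g) = tr (g ∘L f) :=
  LinearMap.trace_comp_comm' g.toLinearMap f.toLinearMap

theorem SHarm_adj {j : A →L[ℝ] B} (hj : ∀ u v, ⟪j u, j v⟫_ℝ = ⟪u, v⟫_ℝ) (u : A) :
    j.adjoint (j u) = u :=
  ext_inner_left ℝ fun v => by rw [ContinuousLinearMap.adjoint_inner_right, hj]

theorem SHarm_tr {J : A →L[ℝ] A} (hJ : Skew J) (C D : A →L[ℝ] A) :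
    tr (J * (C - C.adjoint - D)) = 2 * tr (J * C) - tr (J * D) := by
  have h1 : tr (J * C.adjoint) = -tr (C * J) := by
    rw [tr_eq_sum (stdOrthonormalBasis ℝ A), tr_eq_sum (stdOrthonormalBasis ℝ A),
      ← Finset.sum_neg_distrib]
    refine Finset.sum_congr rfl fun a _ => ?_
    rw [mul_apply_eq_comp, mul_apply_eq_comp, ← neg_eq_iff_eq_neg, ← hJ,
      ContinuousLinearMap.adjoint_inner_right, real_inner_comm]
  have h2 : tr (J * (C - C.adjoint - D)) = tr (J * C) - tr (J * C.adjoint) - tr (J * D) := by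
    simp only [mul_sub, tr, ContinuousLinearMap.coe_sub, map_sub]
  rw [h2, h1, tr_mul_comm C J]
  ring

omit [FiniteDimensional ℝ A] in
theorem SHarm_mono {c d : ℝ} {W : A →L[ℝ] A} (h : Pos c W) (hd : d ≤ c) : Pos d W :=
  ⟨h.1, fun u => (mul_le_mul_of_nonneg_right hd (sq_nonneg _)).trans (h.2 u)⟩

theorem SHarm_gram (D : A →L[ℝ] B) : Pos 0 (D.adjoint ∘L D) ∧
    ∀ t, ‖psq (D.adjoint ∘L D) t‖ = ‖D t‖ := by
  have h1 : ∀ t, ⟪t, (D.adjoint ∘L D) t⟫_ℝ = ‖D t‖ ^ 2 := fun t => by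
    rw [ContinuousLinearMap.comp_apply, ContinuousLinearMap.adjoint_inner_right,
      real_inner_self_eq_norm_sq]
  have h2 : Pos 0 (D.adjoint ∘L D) := ⟨fun u v => by
    rw [ContinuousLinearMap.comp_apply, ContinuousLinearMap.comp_apply,
      ContinuousLinearMap.adjoint_inner_right, ContinuousLinearMap.adjoint_inner_left],
    fun u => by rw [h1, zero_mul]; positivity⟩
  refine ⟨h2, fun t => (pow_left_inj₀ (norm_nonneg _) (norm_nonneg _) two_ne_zero).1 ?_⟩
  rw [← h1, ← real_inner_self_eq_norm_sq, (psq_spec h2).1.1, ← mul_apply_eq_comp, (psq_spec h2).2]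

/-- invariance of the quadratic form under a commuting rotation -/
theorem SHarm_inv {W R : A →L[ℝ] A} (hR : Skew R) (h : ∀ u, W (R u) = R (W u)) (r : ℝ) (u : A) :
    ⟪expL (r • R) u, W (expL (r • R) u)⟫_ℝ = ⟪u, W u⟫_ℝ := by
  rw [← expL_intertwine W (T := r • R) fun u => by rw [smul_apply, smul_apply, map_smul, h],
    expL_inner fun u v => by
      rw [smul_apply, smul_apply, real_inner_smul_left, inner_smul_right, hR, mul_neg]]

end aux

/-- the tangent map of the orbit -/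
def SHarm_tan (L : CL V) (p : EE V) : V →ₗ[ℝ] EE V where
  toFun ξ := lift (L.br ξ) p
  map_add' a b := by ext i; simp
  map_smul' a b := by ext i; simp

/-- every vector is tangent plus normal -/
theorem IsN.split {p : EE V} {j : T →L[ℝ] EE V} (hj : IsN L p j) (x : EE V) :
    ∃ ξ t, x = lift (L.br ξ) p + j t := by
  obtain ⟨_, ⟨ξ, rfl⟩, n, hn, rfl⟩ :=
    (LinearMap.range (SHarm_tan L p)).exists_add_mem_mem_orthogonal x
  obtain ⟨t, rfl⟩ := hj.surj n fun η => hn _ ⟨η, rfl⟩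
  exact ⟨ξ, t, rfl⟩

/-- an operator that kills the tangent space has the trace of its compression (`sum_onb_split`
with the range of `ξ ↦ lift (br ξ) p` as a submodule, or `jᵀ`: `j ∘ jᵀ` is the projection) -/
theorem IsN.tr_eq {p : EE V} {j : T →L[ℝ] EE V} (hj : IsN L p j) {B : EE V →L[ℝ] EE V}
    (hB : ∀ ξ, B (lift (L.br ξ) p) = 0) : tr B = tr (j.adjoint ∘L B ∘L j) := by
  rw [SHarm_comm]
  refine congrArg tr (ContinuousLinearMap.ext fun x => ?_)
  obtain ⟨ξ, t, rfl⟩ := hj.split x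
  have h : j.adjoint (lift (L.br ξ) p) = 0 := ext_inner_left ℝ fun v => by
    rw [ContinuousLinearMap.adjoint_inner_right, real_inner_comm, hj.nrm v ξ, inner_zero_right]
  simp only [ContinuousLinearMap.comp_apply, map_add, hB, h, SHarm_adj hj.iso, map_zero]

/-- `tr (J Λ) = 2 tr (ψᵀ J ds) - tr (J 𝒜^F)` for antisymmetric `J` (`Lam_eq`) -/
theorem tr_J_Lam (P : Par) (L : CL V) {J : SS V →L[ℝ] SS V} (hJ : Skew J) (x : EE V) :
    tr (J * Lam P L x) = 2 * tr ((P.psi P.e).adjoint ∘L J ∘L ds P L x) -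
      tr (J * AF P L (x 8)) := by
  rw [Lam_eq, SHarm_tr hJ, SHarm_comm]
  rfl

/-- `W = psq (-(Λ Λ))`, `J` from `skew_polar`, `Om = psq ((ds ∘ j)ᵀ (ds ∘ j))`.  By `Lam_psi`,
`Lam_ds`, `nrm_adj`, `psq_intertwine`: `W ψ j t = ψ j (Om t)`, so `J ψ j (Om t) = ds (j t)` and
`tr (ψᵀ J ds) = - tr Om`; `tr W = - tr (J Λ)`.  For `inv`: `⟪t, Om t⟫ = ⟪ψ j t, W ψ j t⟫`, `W`
commutes with `𝒜^F` (`AF_Lam`, `psq_intertwine`), `AF_psi`, `expL_intertwine`, `expL_inner`. -/
theorem exists_harm {p : EE V} (h : sv P L p = 0) {j : T →L[ℝ] EE V} (hj : IsN L p j)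
    (hi : ∀ u, Lam P L p u = 0 → u = 0)
    (hg : ∀ u, ‖AF P L (p 8) u‖ ≤ ‖AF P L (p 8) (AF P L (p 8) u)‖)
    (hn : ‖Lam P L p - kap P * AF P L (p 8)‖ < 1) (h0 : E0 P L (p 8) = 0) :
    Nonempty (Harm P L p j) := by
  obtain ⟨h1, J, hJ, -, hJW, hWJ, hc, hCS⟩ := skew_polar (skew_Lam P L p)
  have hCS := hCS hi
  have hW := (psq_spec h1).1
  have hA := AF_Lam P L (zero_eqs P L h).2.2.1
  obtain ⟨h2, h3⟩ := SHarm_gram (ds P L p ∘L j)
  have hψ : ∀ u v : EE V, ⟪P.psi P.e u, P.psi P.e v⟫_ℝ = ⟪u, v⟫_ℝ := P.psi_inner P.he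
  have h4 : ∀ t, Lam P L p (P.psi P.e (j t)) = ds P L p (j t) := fun t => Lam_psi P L (hj.nrm t)
  have h5 := psq_intertwine h1 h2 (P.psi P.e ∘L j) fun t => by
    obtain ⟨t', ht'⟩ := hj.surj _ (nrm_adj P L h (ds P L p (j t)))
    simp only [ContinuousLinearMap.comp_apply, ContinuousLinearMap.adjoint_comp, neg_apply,
      mul_apply_eq_comp, h4, Lam_ds P L h, neg_neg, ← ht', SHarm_adj hj.iso]
  have h6 := psq_intertwine h1 h1 (AF P L (p 8)) fun u => by
    have h7 : ∀ v, AF P L (p 8) (Lam P L p v) = Lam P L p (AF P L (p 8) v) := fun v =>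
      congrArg (· v) hA
    simp only [neg_apply, mul_apply_eq_comp, map_neg, h7]
  have hO := (psq_spec h2).1
  generalize psq (-(Lam P L p * Lam P L p)) = W at hJW hWJ hW h5 h6
  generalize psq ((ds P L p ∘L j).adjoint ∘L ds P L p ∘L j) = Om at h3 h5 hO
  simp only [ContinuousLinearMap.comp_apply] at h3 h5
  have h7 : ∀ u, J (W u) = Lam P L p u := fun u => congrArg (· u) hJW
  have h8 : ∀ u, J (J u) = -u := fun u => congrArg (· u) hCS.2
  obtain ⟨c, hc0, hcW⟩ := hW.exists_pos fun u hu => hi u (by rw [← h7, hu, map_zero])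
  obtain ⟨d, hd0, hdO⟩ := hO.exists_pos fun t ht => by
    have h9 := h3 t
    rw [ht, norm_zero, eq_comm, norm_eq_zero, ← h4] at h9
    rw [← inner_self_eq_zero (𝕜 := ℝ), ← hj.iso, ← hψ, hi _ h9, inner_zero_left]
  have hJA := (hc _ hA).symm
  have hq : tr (J * AF P L (p 8)) = 0 := by
    rw [charge_eq (skew_AF P L _) (symm_kap P) (kap_sq P) (kap_AF P L _) hg hCS hW hJA
      (hJW ▸ hn), neg_eq_zero]
    exact h0
  have h9 : ∀ t, ⟪t, Om t⟫_ℝ = ⟪P.psi P.e (j t), W (P.psi P.e (j t))⟫_ℝ := fun t => by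
    rw [h5, hψ, hj.iso]
  refine ⟨⟨J, W, Om, min c d, lt_min hc0 hd0, hCS, SHarm_mono hcW (min_le_left _ _),
    hJW.trans hWJ.symm, hJW, SHarm_mono hdO (min_le_right _ _), h3, ?_, hJA, hq,
    fun r t t' ht => ?_⟩⟩
  · have e1 := tr_J_Lam P L hJ p
    have e2 : j.adjoint ∘L ((P.psi P.e).adjoint ∘L J ∘L ds P L p) ∘L j = -Om :=
      ContinuousLinearMap.ext fun t => by
        simp only [ContinuousLinearMap.comp_apply, neg_apply]
        rw [← h4, ← h7, h5, h8, map_neg, map_neg, SHarm_adj hψ, SHarm_adj hj.iso]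
    have e3 : tr (-Om) = -tr Om := by simp [tr]
    have e4 : tr (-W) = -tr W := by simp [tr]
    have e5 : J * Lam P L p = -W := ContinuousLinearMap.ext fun u => by
      rw [mul_apply_eq_comp, ← h7, h8, neg_apply]
    rw [hq, hj.tr_eq fun ξ => by
      simp only [ContinuousLinearMap.comp_apply, ds_tang P L h, map_zero], e2, e3, e5,
      e4] at e1
    linarith
  · rw [h9, h9, ht, ← expL_intertwine (P.psi P.e) (T := r • AF P L (p 8)) fun u => by
      rw [smul_apply, smul_apply, map_smul, AF_psi]]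
    exact SHarm_inv (skew_AF P L _) h6 r _

end Vale.Agent.P353.SC
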