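import Vale.Agent.P353.SBase
import Vale.Agent.P353.GGroup

open MeasureTheory NormedSpace
open Complex (I)
open scoped InnerProductSpace ContDiff

noncomputable section
namespace Vale.Agent.P353.SC
variable {V : Type} [NormedAddCommGroup V] [InnerProductSpace ℝ V] [FiniteDimensional ℝ V]
  [MeasurableSpace V] [BorelSpace V] (P : Par) (L : CL V)

theorem nine_apply (X : V) (k : Fin 9) : nine X k = if k = 8 then X else 0 := by
  rw [nine, tens_apply, Pi.single_apply]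
  split_ifs
  · exact one_smul _ _
  · exact zero_smul _ _
theorem norm_nine (X : V) : ‖nine X‖ = ‖X‖ := by
  refine (sq_eq_sq₀ (norm_nonneg _) (norm_nonneg _)).1 ?_
  rw [PiLp.norm_sq_eq_of_L2, Finset.sum_eq_single (8 : Fin 9)]
  · rw [nine_apply, if_pos rfl]
  · intro k _ hk
    rw [nine_apply, if_neg hk, norm_zero, zero_pow two_ne_zero]
  · intro h
    exact absurd (Finset.mem_univ _) h
theorem zp_apply (x : EE V) (k : Fin 9) : zp x k = if k = 8 then 0 else x k := by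
  rw [zp, PiLp.sub_apply, nine_apply]
  split_ifs with h
  · rw [h, sub_self]
  · rw [sub_zero]
theorem norm_zp (x : EE V) :
    ‖zp x‖ ^ 2 = ∑ a, (‖x (p1 a)‖ ^ 2 + ‖x (p2 a)‖ ^ 2) := by
  rw [PiLp.norm_sq_eq_of_L2]
  simp only [zp_apply, Fin.sum_univ_succ, Fin.sum_univ_zero]
  simp [p1, p2, Fin.ext_iff]
  ring
/-- components of the rotation -/
theorem Amat_apply (x : EE V) (a : Fin 4) : mat Amat x (p1 a) = -(eps a) • x (p2 a) ∧
    mat Amat x (p2 a) = eps a • x (p1 a) ∧ mat Amat x 8 = 0 := by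
  simp only [amod0_A, Fin.sum_univ_succ, Fin.sum_univ_zero]
  fin_cases a <;> simp [p1, p2, Fin.ext_iff]
theorem sigma_cases : (P.σ = 1 ∧ ap P = 0 ∧ am P = 2) ∨ (P.σ = -1 ∧ ap P = 2 ∧ am P = 0) := by
  by_cases h : P.σ = 1
  · exact Or.inl ⟨h, if_pos h, if_pos h⟩
  · exact Or.inr ⟨(mul_self_eq_one_iff.1 P.hσ).resolve_left h, if_neg h, if_neg h⟩
theorem sigma_eps : P.σ * eps (ap P) = 6 ∧ P.σ * eps (am P) = -6 ∧
    (P.σ * eps 1) ^ 2 = 25 ∧ (P.σ * eps 3) ^ 2 = 25 := by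
  rcases sigma_cases P with ⟨h1, h2, h3⟩ | ⟨h1, h2, h3⟩ <;> rw [h1, h2, h3] <;> simp [eps] <;>
    norm_num

theorem contDiff_sv : ContDiff ℝ ∞ (sv P L) :=
  (contDiff_s0 P.toGam L P.e).add
    (ContinuousLinearMap.contDiff (𝕜 := ℝ) (E := EE V) (F := SS V) P.s1)
/-- `fderiv_s0` -/
theorem ds_apply (x y : EE V) : ds P L x y = bil P L x y + P.s1 y := by
  have h : HasFDerivAt (sv P L) (fderiv ℝ (s0 P.toGam L P.e) x + P.s1) x :=
    (((contDiff_s0 P.toGam L P.e).differentiable (by simp)) x).hasFDerivAt.add P.s1.hasFDerivAt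
  rw [ds, h.fderiv, add_apply, fderiv_s0, bil]
theorem s0_eq_bil (x : EE V) : s0 P.toGam L P.e x = (1 / 2 : ℝ) • bil P L x x := by
  rw [s0, bil]
  module
/-- `g2_swap` and `L.skew` -/
theorem bil_symm (x y : EE V) : bil P L x y = bil P L y x := by
  rw [bil, bil, neg_inj]
  exact Finset.sum_comm.trans (Finset.sum_congr rfl fun i _ => Finset.sum_congr rfl fun j _ => by
    rw [P.toGam.g2_swap, Matrix.neg_mulVec, L.skew, amod0_neg])
theorem sid0_add (x y z : EE V) : bil P L x (y + z) = bil P L x y + bil P L x z := by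
  simp only [bil, PiLp.add_apply, map_add, Finset.sum_add_distrib, neg_add]
theorem sid0_smul (c : ℝ) (x y : EE V) : bil P L x (c • y) = c • bil P L x y := by
  simp only [bil, PiLp.smul_apply, map_smul, ← Finset.smul_sum, smul_neg]
theorem bil_clm : ∃ B : EE V →L[ℝ] EE V →L[ℝ] SS V, ∀ x y, B x y = bil P L x y := by
  let B : EE V →ₗ[ℝ] EE V →ₗ[ℝ] SS V := LinearMap.mk₂ ℝ (bil P L)
    (fun x y z => by rw [bil_symm, sid0_add, bil_symm P L z, bil_symm P L z])
    (fun c x y => by rw [bil_symm, sid0_smul, bil_symm]) (sid0_add P L)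
    fun c x y => sid0_smul P L c x y
  exact ⟨LinearMap.toContinuousLinearMap
    ((LinearMap.toContinuousLinearMap (𝕜 := ℝ) (E := EE V) (F' := SS V)).toLinearMap ∘ₗ B),
    fun _ _ => rfl⟩
theorem sv_add (p n : EE V) :
    sv P L (p + n) = sv P L p + ds P L p n + s0 P.toGam L P.e n := by
  rw [sv, sv, ds_apply, s0_eq_bil, s0_eq_bil, s0_eq_bil, sid0_add, bil_symm P L (p + n),
    bil_symm P L (p + n), sid0_add, sid0_add, bil_symm P L n p, map_add]
  module
theorem sid0_bd {E F : Type} [NormedAddCommGroup E] [NormedSpace ℝ E] [NormedAddCommGroup F]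
    [NormedSpace ℝ F] (B : E →L[ℝ] E →L[ℝ] F) : ∃ K > 0, ∀ n, ‖B n n‖ ≤ K * ‖n‖ ^ 2 := by
  refine ⟨‖B‖ + 1, by positivity, fun n => ?_⟩
  have h1 := B.le_opNorm₂ n n
  nlinarith [sq_nonneg ‖n‖]
theorem norm_s0_le : ∃ K > 0, ∀ n : EE V, ‖s0 P.toGam L P.e n‖ ≤ K * ‖n‖ ^ 2 := by
  obtain ⟨B, hB⟩ := bil_clm P L
  obtain ⟨K, hK, h⟩ := sid0_bd (E := EE V) (F := SS V) B
  refine ⟨K, hK, fun n => ?_⟩
  rw [s0_eq_bil, ← hB, norm_smul, Real.norm_of_nonneg (by norm_num)]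
  have h1 := h n
  have h2 := norm_nonneg (B n n)
  linarith
/-- `s0_aut`, `s1_lift`, `G_br` -/
theorem sv_G {g : V →L[ℝ] V} (hg : g ∈ L.G) (x : EE V) :
    sv P L (lift g x) = lift g (sv P L x) := by
  rw [sv, sv, s0_aut _ _ _ (CL.G_br hg), P.s1_lift, map_add]
theorem Lam_G {g : V →L[ℝ] V} (hg : g ∈ L.G) (x : EE V) (u : SS V) :
    Lam P L (lift g x) (lift g u) = lift g (Lam P L x u) := by
  ext s
  simp [Lam, Gm, CL.G_br hg, map_sum]
theorem sid0_skew_add {S : Type} [NormedAddCommGroup S] [InnerProductSpace ℝ S]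
    [FiniteDimensional ℝ S] {T U : S →L[ℝ] S} (hT : Skew T) (hU : Skew U) (c : ℝ) :
    Skew (T + c • U) := fun u v => by
  simp only [add_apply, smul_apply, inner_add_left,
    inner_add_right, real_inner_smul_left, real_inner_smul_right, hT u v, hU u v]
  ring
theorem skew_AB (X : V) : Skew (AB P L X) :=
  sid0_skew_add (skew_mat Amat_transpose) (skew_lift (L.skew_br X)) _
theorem skew_AF (X : V) : Skew (AF P L X) :=
  sid0_skew_add (skew_mat (P.toGam.hat_transpose Amat)) (skew_lift (L.skew_br X)) _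
theorem skew_Lam (x : EE V) : Skew (Lam P L x) := by
  have h := sid0_skew_add (skew_mat (V := V) P.M1_transpose) (skew_Gm P.toGam L x) (-1)
  rwa [neg_one_smul, ← sub_eq_add_neg] at h
theorem continuous_Lam : Continuous (Lam P L) := by
  obtain ⟨Γ, hΓ⟩ := Gm_clm P.toGam L
  have e : Lam P L = fun x => mat P.M1 - Γ x := funext fun x => by rw [Lam, hΓ]
  rw [e]
  exact continuous_const.sub Γ.continuous
theorem sid0_bd1 {E F : Type} [NormedAddCommGroup E] [NormedSpace ℝ E] [NormedAddCommGroup F]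
    [NormedSpace ℝ F] (B : E →L[ℝ] F →L[ℝ] F) : ∃ K > 0, ∀ n, ‖B n‖ ≤ K * ‖n‖ := by
  refine ⟨‖B‖ + 1, by positivity, fun n => ?_⟩
  have h1 := B.le_opNorm n
  nlinarith [norm_nonneg n]
theorem Lam_lip : ∃ K > 0, ∀ x y : EE V, ‖Lam P L x - Lam P L y‖ ≤ K * ‖x - y‖ := by
  obtain ⟨Γ, hΓ⟩ := Gm_clm P.toGam L
  obtain ⟨K, hK, h⟩ := sid0_bd1 (E := EE V) (F := SS V) Γ
  refine ⟨K, hK, fun x y => ?_⟩
  rw [Lam, Lam, sub_sub_sub_cancel_left, ← hΓ, ← hΓ, ← map_sub, norm_sub_rev x y]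
  exact h _
theorem q_eq {F : Type} [NormedAddCommGroup F] [InnerProductSpace ℂ F] [CompleteSpace F]
    (M : Mod V F) (lam : ℝ) : M.q P lam lam =
      sch (fun x => lam ^ 2 / 2 * ‖sv P M.L x‖ ^ 2)
        fun x => lam • (I • M.C.spin (Lam P M.L x)) := by
  rw [Mod.q]
  congr 1
  · funext x
    rw [← smul_add, norm_smul, mul_pow, Real.norm_eq_abs, sq_abs, sv]
    ring
  · funext x
    have e : (-lam) • Gm P.toGam M.L x + lam • mat P.M1 = lam • Lam P M.L x := by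
      rw [Lam]
      module
    rw [e, Cl.spin_smul, smul_comm]

end Vale.Agent.P353.SC
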