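import Vale.Agent.P353.SId
import Vale.Agent.P353.AId1x

set_option linter.unusedSectionVars false

open MeasureTheory NormedSpace
open Complex (I)
open scoped InnerProductSpace ContDiff

noncomputable section
namespace Vale.Agent.P353.SC
variable {V : Type} [NormedAddCommGroup V] [InnerProductSpace ℝ V] [FiniteDimensional ℝ V]
  [MeasurableSpace V] [BorelSpace V] (P : Par) (L : CL V)

section gen
variable {S E : Type} [NormedAddCommGroup S] [InnerProductSpace ℝ S]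
  [NormedAddCommGroup E] [InnerProductSpace ℝ E]

theorem slam_g1 (A B : S →L[ℝ] S) {c : ℝ} (hc : c * c = 1) :
    ((-c) • A) * (c • B) = -(A ∘L B) := by
  rw [mul_smul_comm, smul_mul_assoc, smul_smul, mul_neg, hc, neg_one_smul]
  rfl

theorem slam_g2 {A B C : S →L[ℝ] S} (c : ℝ) (h1 : A * B = B * A) (h2 : A ∘L C = C ∘L A) :
    A * (B + c • C) = (B + c • C) * A := by
  rw [mul_add, add_mul, h1, mul_smul_comm, smul_mul_assoc]
  exact congrArg (fun T => B * A + c • T) h2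

theorem slam_g3 (A B : S →L[ℝ] S) (c : ℝ) : ‖c • A - B‖ ≤ |c| * ‖A‖ + ‖B‖ := by
  refine (norm_sub_le _ _).trans ?_
  rw [norm_smul, Real.norm_eq_abs]

theorem slam_g4 (Γ : E →L[ℝ] S →L[ℝ] S) : ∃ K, 0 ≤ K ∧ ∀ x, ‖Γ x‖ ≤ K * ‖x‖ :=
  ⟨‖Γ‖, Γ.opNorm_nonneg, Γ.le_opNorm⟩

theorem slam_g5 (A : S →L[ℝ] S) (c : ℝ) : ‖c • A‖ = |c| * ‖A‖ := by
  rw [norm_smul, Real.norm_eq_abs]

theorem slam_g6 (A B : S →L[ℝ] S) : ‖A - B‖ ≤ ‖A‖ + ‖B‖ := norm_sub_le _ _

end gen

theorem slam_comm : P.g 8 * P.hat Amat = P.hat Amat * P.g 8 := by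
  have h := P.hat_comm Amat_transpose 8
  simp only [(Amat_eight _).1, zero_smul, Finset.sum_const_zero, sub_eq_zero] at h
  exact h.symm

theorem slam_mul (A B : M16) : (mat A : SS V →L[ℝ] SS V) * mat B = mat (A * B) :=
  (mat_mul A B).symm

theorem slam_nine (G : Gam) (X : V) : Gm G L (nine X) = mat (G.g 8) ∘L lift (L.br X) := by
  rw [Gm, Finset.sum_eq_single 8 (fun j _ hj => by ext; simp [nine_apply, hj]) (by simp),
    nine_apply, if_pos rfl]

theorem slam_sub (G : Gam) (x y : EE V) : Gm G L (x - y) = Gm G L x - Gm G L y := by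
  obtain ⟨Γ, hΓ⟩ := Gm_clm G L
  simp only [← hΓ, map_sub]

theorem slam_kap (X : V) : kap P * AF P L X =
    mat (((-P.σ) • P.g 8) * P.hat Amat) - Gm P.toGam L (nine X) := by
  have h : (kap P : SS V →L[ℝ] SS V) = (-P.σ) • mat (P.g 8) := (matL V 16 16).map_smul _ _
  rw [AF, mul_add, slam_nine, sub_eq_add_neg]
  congr 1
  · exact slam_mul _ _
  · rw [h]
    exact slam_g1 _ _ P.hσ

theorem slam_tens {n : ℕ} {a : Fin n → ℝ} (ha : a ⬝ᵥ a = 1) (y : V) : ‖tens a y‖ = ‖y‖ := by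
  rw [norm_eq_sqrt_real_inner, inner_tens, ha, one_mul, ← norm_eq_sqrt_real_inner]

theorem slam_contr {n : ℕ} {a : Fin n → ℝ} (ha : a ⬝ᵥ a = 1) (u : PiLp 2 fun _ : Fin n => V) :
    ‖contr a u‖ ≤ ‖u‖ := by
  have h : ⟪tens a (contr a u), u⟫_ℝ = ‖contr a u‖ ^ 2 := by
    have h1 : ∀ y : V, ⟪tens a y, u⟫_ℝ = ⟪y, contr a u⟫_ℝ := fun y => by
      simp only [PiLp.inner_apply, tens_apply, contr_apply, inner_sum, real_inner_smul_left,
        real_inner_smul_right]
    rw [h1, real_inner_self_eq_norm_sq]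
  have h2 := real_inner_le_norm (tens a (contr a u)) u
  rw [h, slam_tens ha] at h2
  rcases (norm_nonneg (contr a u)).eq_or_lt with h0 | h0
  · rw [← h0]
    exact norm_nonneg _
  · nlinarith

theorem slam_one {a b : R16} (ha : a ⬝ᵥ a = 1) (hb : b ⬝ᵥ b = 1) :
    ‖(mat (Matrix.vecMulVec a b) : SS V →L[ℝ] SS V)‖ ≤ 1 := by
  refine ContinuousLinearMap.opNorm_le_bound _ zero_le_one fun u => ?_
  have h : mat (Matrix.vecMulVec a b) u = tens a (contr b u) := by
    ext s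
    simp only [mat_apply, tens_apply, contr_apply, Matrix.vecMulVec_apply, Finset.smul_sum,
      mul_smul]
  rw [h, slam_tens ha, one_mul]
  exact slam_contr hb u

theorem slam_xe : ‖(mat (xe P) : SS V →L[ℝ] SS V)‖ ≤ 2 := by
  have h : (mat (xe P) : SS V →L[ℝ] SS V) =
      mat (Matrix.vecMulVec P.χ P.e) - mat (Matrix.vecMulVec P.e P.χ) := (matL V 16 16).map_sub _ _
  rw [h]
  refine (slam_g6 _ _).trans ?_
  linarith [slam_one (V := V) P.χ_unit.1 P.he, slam_one (V := V) P.he P.χ_unit.1]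

theorem slam_abs : |P.σ| = 1 := by
  rcases mul_self_eq_one_iff.1 P.hσ with h | h <;> simp [h]

theorem slam_lift (T : V →L[ℝ] V) : ‖(lift T : SS V →L[ℝ] SS V)‖ ≤ ‖T‖ := by
  refine ContinuousLinearMap.opNorm_le_bound _ (norm_nonneg _) fun u => ?_
  refine le_of_sq_le_sq ?_ (by positivity)
  rw [mul_pow, PiLp.norm_sq_eq_of_L2, PiLp.norm_sq_eq_of_L2, Finset.mul_sum]
  refine Finset.sum_le_sum fun i _ => ?_
  rw [← mul_pow]
  exact pow_le_pow_left₀ (norm_nonneg _) (T.le_opNorm _) 2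

theorem symm_kap : Symm (kap P : SS V →L[ℝ] SS V) := symm_mat ((P.symm 8).smul _)
theorem kap_sq : (kap P : SS V →L[ℝ] SS V) * kap P = 1 := by
  rw [kap, slam_mul, smul_mul_assoc, mul_smul_comm, smul_smul, neg_mul_neg, P.hσ, one_smul, P.sq,
    mat_one']
  rfl
/-- `hat_comm` with `k = 8`, `Amat_eight`, `mat_lift` -/
theorem kap_AF (X : V) : kap P * AF P L X = AF P L X * kap P := by
  refine slam_g2 _ ?_ (mat_lift _ _)
  rw [kap, slam_mul, slam_mul, smul_mul_assoc, mul_smul_comm, slam_comm]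
/-- `hat_comm`, `hat_e` -/
theorem hat_mulVec (k : Fin 9) : (P.hat Amat).mulVec ((P.g k).mulVec P.e) =
    ∑ l, Amat l k • (P.g l).mulVec P.e := by
  have := congrArg (fun M : M16 => M.mulVec P.e) (P.hat_comm Amat_transpose k)
  simp only [Matrix.sub_mulVec, ← Matrix.mulVec_mulVec, P.hat_e.1, Matrix.mulVec_zero, sub_zero,
    Matrix.sum_mulVec, Matrix.smul_mulVec] at this
  exact this
theorem AF_psi (X : V) (y : EE V) : AF P L X (P.psi P.e y) = P.psi P.e (AB P L X y) := by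
  have h : P.hat Amat * (Matrix.of fun s i => (P.g i).mulVec P.e s) =
      (Matrix.of fun s i => (P.g i).mulVec P.e s) * Amat := by
    ext s k
    have := congrFun (hat_mulVec P k) s
    simp only [Finset.sum_apply, Pi.smul_apply, smul_eq_mul] at this
    rw [Matrix.mul_apply, Matrix.mul_apply]
    simp only [Matrix.of_apply, mul_comm _ (Amat _ k)]
    exact this
  have h1 := DFunLike.congr_fun (mat_mul (V := V) (P.hat Amat)
    (Matrix.of fun s i => (P.g i).mulVec P.e s)) y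
  have h2 := DFunLike.congr_fun (mat_mul (V := V)
    (Matrix.of fun s i => (P.g i).mulVec P.e s) Amat) y
  have h3 := DFunLike.congr_fun (mat_lift
    (Matrix.of fun s i => (P.g i).mulVec P.e s) (L.br X)) y
  rw [h, h2] at h1
  simp only [ContinuousLinearMap.comp_apply] at h1 h3
  simp only [AF, AB, Gam.psi, add_apply, smul_apply, map_add, map_smul, h1, h3]
/-- `2 ∑ A l k f_l f_kᵀ = 2 A^ P₋` by `hat_mulVec` and `complete` -/
theorem M1_eq : P.M1 = ((-P.σ) • P.g 8) * P.hat Amat + (P.δ * P.σ) • xe P := by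
  rw [P.gx_M1, smul_mul_assoc, slam_comm, neg_smul, xe]

theorem slam_key (x : EE V) (X : V) : Lam P L x - kap P * AF P L X =
    (P.δ * P.σ) • mat (xe P) - Gm P.toGam L (x - nine X) := by
  have h : (mat P.M1 : SS V →L[ℝ] SS V) =
      mat (((-P.σ) • P.g 8) * P.hat Amat) + (P.δ * P.σ) • mat (xe P) := by
    rw [M1_eq, ← matL_apply, map_add, map_smul]
    rfl
  rw [Lam, slam_kap, slam_sub, h]
  abel

theorem Lam_split (x : EE V) : Lam P L x =
    kap P * AF P L (x 8) - Gm P.toGam L (zp x) + (P.δ * P.σ) • mat (xe P) := by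
  rw [eq_add_of_sub_eq (slam_key P L x (x 8)), zp]
  abel
/-- The basic identity `Λ = C - Cᵀ - 𝒜^F`, `C = ds ∘ ψᵀ`.  `(ψᵀ ω) j = contr (γ j e) ω`, so
`C = - ∑ (γ^{ij} e)(γ^j e)ᵀ ⊗ ad x_i + ∑ A l k (γ^l e)(γ^k e)ᵀ + δ σ χ eᵀ`; use `Par.fierz`. -/
theorem Lam_eq (x : EE V) : Lam P L x = ds P L x ∘L (P.psi P.e).adjoint -
    (ds P L x ∘L (P.psi P.e).adjoint).adjoint - AF P L (x 8) := by
  have h : ds P L x = fderiv ℝ (s0 P.toGam L P.e) x + P.s1 := by
    have := fderiv_comb (contDiff_s0 P.toGam L P.e) P.s1 1 1 x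
    simp only [one_smul] at this
    exact this
  have h2 := skw_add (P.psi P.e) (fderiv ℝ (s0 P.toGam L P.e) x) P.s1
  rw [← h, P.skw_s0, P.skw_s1, skw] at h2
  rw [h2, Lam, AF]
  abel
/-- constants that do not depend on `δ`: `Gm_clm`, and `mat (vecMulVec a b) = tens a ∘L contr b`
has norm at most one for unit vectors -/
theorem Lam_near (G : Gam) : ∃ K > 0, ∀ P : Par, P.toGam = G → ∀ (x : EE V) (X : V),
    ‖Lam P L x - kap P * AF P L X‖ ≤ K * (‖x - nine X‖ + P.δ) ∧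
    ‖AF P L (x 8) - AF P L X‖ ≤ K * ‖x - nine X‖ := by
  obtain ⟨Γ, hΓ⟩ := Gm_clm G L
  obtain ⟨K, h0, hK⟩ := slam_g4 Γ
  have h0' := norm_nonneg L.br
  refine ⟨K + ‖L.br‖ + 2, by positivity, fun P hP x X => ⟨?_, ?_⟩⟩
  · rw [slam_key, hP, ← hΓ]
    refine (slam_g3 _ _ _).trans ?_
    have h1 := hK (x - nine X)
    have h2 := slam_xe (V := V) P
    have h3 := P.δ0
    have h4 := norm_nonneg (x - nine X)
    rw [abs_mul, slam_abs, abs_of_pos h3, mul_one]
    nlinarith [mul_le_mul_of_nonneg_left h2 h3.le, mul_nonneg h0' h4, mul_nonneg h0' h3.le,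
      mul_nonneg h0 h3.le]
  · have h1 : AF P L (x 8) - AF P L X = P.σ • lift (L.br (x 8 - X)) := by
      ext u s
      simp [AF, smul_sub]
    have h2 : ‖x 8 - X‖ ≤ ‖x - nine X‖ := by
      have := PiLp.norm_apply_le (x - nine X) 8
      rwa [PiLp.sub_apply, nine_apply, if_pos rfl] at this
    rw [h1, slam_g5, slam_abs, one_mul]
    refine ((slam_lift _).trans (L.br.le_opNorm _)).trans ?_
    exact mul_le_mul (by linarith) h2 (norm_nonneg _) (by positivity)

end Vale.Agent.P353.SC
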