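import Vale.Agent.P353.SComb

open MeasureTheory NormedSpace
open Complex (I)
open scoped InnerProductSpace ContDiff

noncomputable section
namespace Vale.Agent.P353.SC
variable {N : ℕ}

theorem snearm_tel {A : Type} [AddCommGroup A] {f : Fin N → Fin N → A}
    (hf : ∀ i j : Fin N, (i : ℕ) ≠ j + 1 → f i j = 0) {c : Fin N → A}
    (h : ∀ i, ∑ j, f i j - ∑ j, f j i = c i) {i j : Fin N} (hij : (i : ℕ) = j + 1) :
    f i j = -∑ k ∈ Finset.Iic j, c k := by
  have h1 : ∑ k ∈ Finset.Iic j, c k =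
      ∑ k, ∑ l, ((if k ≤ j then f k l else 0) - if l ≤ j then f k l else 0) := by
    have h2 : ∀ g : Fin N → A, ∑ k ∈ Finset.Iic j, g k = ∑ k, if k ≤ j then g k else 0 := fun g => by
      rw [← Finset.sum_filter]
      exact Finset.sum_congr (by ext; simp) fun _ _ => rfl
    simp only [← h, Finset.sum_sub_distrib]
    rw [Finset.sum_comm (s := Finset.Iic j) (f := fun k l => f l k), h2]
    simp only [h2, Finset.sum_ite_irrel, Finset.sum_const_zero]
  rw [h1, Finset.sum_eq_single i, Finset.sum_eq_single j, if_neg (by rw [Fin.le_def]; omega),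
    if_pos le_rfl, zero_sub, neg_neg]
  · intro l _ hl
    rw [hf i l fun h2 => hl (Fin.ext (by omega)), ite_self, ite_self, sub_self]
  · exact fun h2 => absurd (Finset.mem_univ _) h2
  · refine fun k _ hk => Finset.sum_eq_zero fun l _ => ?_
    by_cases h2 : (k : ℕ) = l + 1
    · have h3 : (k : ℕ) ≠ i := fun h3 => hk (Fin.ext h3)
      rw [if_congr (show k ≤ j ↔ l ≤ j by rw [Fin.le_def, Fin.le_def]; omega) rfl rfl, sub_self]
    · rw [hf k l h2, ite_self, ite_self, sub_self]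
  · exact fun h2 => absurd (Finset.mem_univ _) h2

theorem snearm_idx {y : Fin N → ℝ} (hy : ∀ i, |y i - chain N i| < 1 / 4) {i j : Fin N}
    (h : y i - y j = 6) : (i : ℕ) = j + 1 := by
  have h1 := abs_lt.1 (hy i)
  have h2 := abs_lt.1 (hy j)
  simp only [chain] at h1 h2
  have h3 : ((i : ℕ) : ℝ) < (j : ℕ) + 2 := by linarith [h1.1, h2.2]
  have h4 : ((j : ℕ) : ℝ) < (i : ℕ) := by linarith [h1.2, h2.1]
  have h5 : (i : ℕ) < j + 2 := by exact_mod_cast h3
  have h6 : (j : ℕ) < i := by exact_mod_cast h4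
  omega

theorem snearm_chain {y : Fin N → ℝ} (h0 : ∑ i, y i = 0)
    (h : ∀ i j : Fin N, (i : ℕ) = j + 1 → y i - y j = 6) : y = chain N := by
  rcases N with _ | n
  · exact Subsingleton.elim _ _
  have h1 : ∀ i, y i = chain (n + 1) i + (y 0 - chain (n + 1) 0) := fun i => by
    induction i using Fin.induction with
    | zero => ring
    | succ i ih =>
      have h2 := h i.succ i.castSucc rfl
      simp only [chain, Fin.val_succ, Fin.val_castSucc, Nat.cast_succ] at ih ⊢
      linarith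
  rw [Finset.sum_congr rfl fun i _ => h1 i, Finset.sum_add_distrib, sum_chain, zero_add,
    Finset.sum_const, Finset.card_univ, Fintype.card_fin, smul_eq_zero] at h0
  exact funext fun i => by rw [h1 i, h0.resolve_left n.succ_ne_zero, add_zero]

/-- Pure matrix statement.  Closeness to the chain leaves only the entries `w j = Z (j+1) j` and
`v j = W j (j+1)`.  The diagonal of `Z W = W Z` gives `w j * v j = 0` by induction; the diagonal of
the moment map equation gives `|w j|² - |v j|² = -2 δ ∑_{k ≤ j} y k > 0` for `j + 1 < N`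
(`psum_chain`).  So `w j ≠ 0`, `v = 0`, the spacing is six, `y = chain N` by the trace, and
`|w j|² = 6 δ (j+1) (N-1-j)`. -/
theorem near_abs {y : Fin N → ℝ} (h0 : ∑ i, y i = 0) (hy : ∀ i, |y i - chain N i| < 1 / 4)
    {Z W : Matrix (Fin N) (Fin N) ℂ} (hZ : ∀ i j, Z i j ≠ 0 → y i - y j = 6)
    (hW : ∀ i j, W i j ≠ 0 → y i - y j = -6) (hc : Z * W = W * Z) {δ : ℝ} (hδ : 0 < δ)
    (hm : (Z * Z.conjTranspose - Z.conjTranspose * Z) +
      (W * W.conjTranspose - W.conjTranspose * W) = ((2 * δ : ℝ) : ℂ) • dg y) :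
    W = 0 ∧ y = chain N ∧ ∀ i j, ‖Z i j‖ = ‖shift N δ i j‖ := by
  have hZ' : ∀ i j : Fin N, (i : ℕ) ≠ j + 1 → Z i j = 0 := fun i j h =>
    not_not.1 fun h1 => h (snearm_idx hy (hZ i j h1))
  have hW' : ∀ i j : Fin N, (i : ℕ) ≠ j + 1 → W j i = 0 := fun i j h =>
    not_not.1 fun h1 => h (snearm_idx hy (by linarith [hW j i h1]))
  have h1 : ∀ i j : Fin N, (i : ℕ) = j + 1 → Z i j * W j i = 0 := fun i j hij => by
    rw [snearm_tel (f := fun i j => Z i j * W j i) (c := fun _ => 0)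
      (fun i j h => by rw [hZ' i j h, zero_mul]) (fun i => ?_) hij, Finset.sum_const_zero, neg_zero]
    rw [← Matrix.mul_apply, hc, Matrix.mul_apply, sub_eq_zero]
    exact Finset.sum_congr rfl fun j _ => mul_comm _ _
  have h2 : ∀ i j : Fin N, (i : ℕ) = j + 1 →
      ‖Z i j‖ ^ 2 - ‖W j i‖ ^ 2 = -(2 * δ * ∑ k ∈ Finset.Iic j, y k) := fun i j hij => by
    rw [snearm_tel (f := fun i j => ‖Z i j‖ ^ 2 - ‖W j i‖ ^ 2) (c := fun k => 2 * δ * y k)
      (fun i j h => by rw [hZ' i j h, hW' i j h, sub_self]) (fun i => ?_) hij, Finset.mul_sum]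
    have h3 := congrFun (congrFun hm i) i
    simp only [Matrix.add_apply, Matrix.sub_apply, Matrix.mul_apply, Matrix.conjTranspose_apply,
      Matrix.smul_apply, dg, Matrix.diagonal_apply_eq, smul_eq_mul, Complex.star_def,
      Complex.mul_conj', Complex.conj_mul'] at h3
    have h4 : ∑ j, ‖Z i j‖ ^ 2 - ∑ j, ‖Z j i‖ ^ 2 + (∑ j, ‖W i j‖ ^ 2 - ∑ j, ‖W j i‖ ^ 2) =
        2 * δ * y i := by exact_mod_cast h3
    simp only [Finset.sum_sub_distrib]
    linarith
  have h3 : ∀ i j : Fin N, (i : ℕ) = j + 1 → Z i j ≠ 0 := fun i j hij h => by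
    have h4 := h2 i j hij
    have h5 : ∑ k ∈ Finset.Iic j, y k ≤ ∑ k ∈ Finset.Iic j, (chain N k + 1 / 4) :=
      Finset.sum_le_sum fun k _ => by linarith [(abs_lt.1 (hy k)).2]
    rw [Finset.sum_add_distrib, psum_chain, Finset.sum_const, Fin.card_Iic, nsmul_eq_mul] at h5
    have h6 : ((j : ℕ) : ℝ) + 2 ≤ N := by exact_mod_cast (by omega : (j : ℕ) + 2 ≤ N)
    have h7 : (0 : ℝ) ≤ (j : ℕ) := Nat.cast_nonneg _
    have h8 : ∑ k ∈ Finset.Iic j, y k < 0 := by
      push_cast at h5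
      nlinarith
    rw [h, norm_zero] at h4
    nlinarith [sq_nonneg ‖W j i‖, mul_pos hδ (neg_pos.2 h8)]
  have h4 : W = 0 := Matrix.ext fun j i => by
    by_cases h : (i : ℕ) = j + 1
    · exact (mul_eq_zero.1 (h1 i j h)).resolve_left (h3 i j h)
    · exact hW' i j h
  have h5 := snearm_chain h0 fun i j h => hZ i j (h3 i j h)
  refine ⟨h4, h5, fun i j => ?_⟩
  rw [shift, Matrix.of_apply]
  split_ifs with h
  · have h6 := h2 i j h
    rw [h4, Matrix.zero_apply, norm_zero, h5, psum_chain] at h6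
    rw [Complex.norm_real, Real.norm_of_nonneg (Real.sqrt_nonneg _),
      ← Real.sqrt_sq (norm_nonneg (Z i j)), h]
    push_cast
    exact congrArg _ (by linarith)
  · rw [hZ' i j h]

end Vale.Agent.P353.SC
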