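import Vale.Agent.P353.SG2
import Vale.Agent.P353.SId
import Vale.Agent.P353.GChart

open MeasureTheory NormedSpace
open Complex (I)
open scoped InnerProductSpace ContDiff

noncomputable section
namespace Vale.Agent.P353.SC
variable {V F : Type} [NormedAddCommGroup V] [InnerProductSpace ℝ V] [FiniteDimensional ℝ V]
  [MeasurableSpace V] [BorelSpace V]
  [NormedAddCommGroup F] [InnerProductSpace ℂ F] [CompleteSpace F]
  {T : Type} [NormedAddCommGroup T] [InnerProductSpace ℝ T] [FiniteDimensional ℝ T]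
  [MeasurableSpace T] [BorelSpace T]

theorem spt_real {a' a b' b J c c0 n lam ε η K u : ℝ} (ha' : 0 ≤ a') (hb' : 0 ≤ b') (hn : 0 ≤ n)
    (hl : 0 ≤ lam) (hε : 0 < ε) (hε1 : ε ≤ 1 / 2) (hη : 4 * ε ≤ η) (hK : 0 < K) (hu : u ≤ ε)
    (hJ : |J - 1| ≤ ε) (h1 : a' ≤ a) (h2 : a ≤ a' + K * n + u * a) (h3 : (1 - ε) * b' ≤ b)
    (h4 : b ≤ (1 + ε) * b') (h5 : |J * c - c0| ≤ η * n) :
    (1 - η) * (a' + b') + lam * c0 - η * lam * n ≤ J * (a + b + lam * c) ∧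
      J * (a + b + lam * c) ≤ (1 + η) * (a' + b') + lam * c0 + (η * lam + 3 * K) * n := by
  obtain ⟨j1, j2⟩ := abs_le.1 hJ
  obtain ⟨c1, c2⟩ := abs_le.1 h5
  have ha : 0 ≤ a := ha'.trans h1
  have hb : 0 ≤ b := le_trans (mul_nonneg (by linarith) hb') h3
  have hKn : 0 ≤ K * n := mul_nonneg hK.le hn
  have d1 := mul_le_mul_of_nonneg_left c1 hl
  have d2 := mul_le_mul_of_nonneg_left c2 hl
  have e1 : (1 - η) * a' ≤ J * a :=
    mul_le_mul (by linarith) h1 ha' (by linarith)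
  have e2 : (1 - η) * b' ≤ J * b := by
    have : (1 - ε) * ((1 - ε) * b') ≤ J * b :=
      mul_le_mul (by linarith) h3 (mul_nonneg (by linarith) hb') (by linarith)
    nlinarith [mul_nonneg hb' hε.le, mul_nonneg (mul_nonneg hb' hε.le) hε.le]
  have e3 : J * b ≤ (1 + η) * b' := by
    have : J * b ≤ (1 + ε) * ((1 + ε) * b') := mul_le_mul (by linarith) h4 hb (by linarith)
    have h6 : ε * ε ≤ ε := by nlinarith
    nlinarith [mul_le_mul_of_nonneg_left h6 hb', mul_nonneg hb' hε.le,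
      mul_le_mul_of_nonneg_left hη hb']
  have e4 : J * a ≤ (1 + η) * a' + 3 * K * n := by
    have h6 : (1 - ε) * a ≤ a' + K * n := by nlinarith [mul_le_mul_of_nonneg_right hu ha]
    have h7 : 1 + ε ≤ (1 + 4 * ε) * (1 - ε) := by nlinarith
    have h8 : J * a ≤ (1 + 4 * ε) * (a' + K * n) :=
      calc J * a ≤ (1 + 4 * ε) * (1 - ε) * a := mul_le_mul_of_nonneg_right (by linarith) ha
        _ = (1 + 4 * ε) * ((1 - ε) * a) := by ring
        _ ≤ _ := mul_le_mul_of_nonneg_left h6 (by linarith)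
    nlinarith [mul_le_mul_of_nonneg_left hη ha', mul_le_mul_of_nonneg_left hε1 hKn]
  constructor <;> nlinarith

theorem spt_sc {l s o n k : ℝ} (hn : 0 ≤ n) :
    (k * o ≤ s → k * (1 / 2 * (l ^ 2 * o) * n) ≤ l ^ 2 / 2 * s * n) ∧
      (s ≤ k * o → l ^ 2 / 2 * s * n ≤ k * (1 / 2 * (l ^ 2 * o) * n)) := by
  have hq : 0 ≤ l ^ 2 / 2 * n := by positivity
  constructor <;> intro h <;> nlinarith [mul_le_mul_of_nonneg_left h hq]

theorem spt_c {J c b ε η B n : ℝ} (hε : 0 < ε) (hε1 : ε ≤ 1 / 2) (hε3 : ε * (B + 2) ≤ η)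
    (hn : 0 ≤ n) (hJ : |J - 1| ≤ ε) (u1 : |c - b| ≤ ε * n) (u2 : |b| ≤ B * n) :
    |J * c - b| ≤ η * n := by
  have hJ2 : |J| ≤ 2 := by
    obtain ⟨j1, j2⟩ := abs_le.1 hJ
    exact abs_le.2 ⟨by linarith, by linarith⟩
  calc |J * c - b| = |J * (c - b) + (J - 1) * b| := by congr 1; ring
    _ ≤ |J| * |c - b| + |J - 1| * |b| := by
      rw [← abs_mul, ← abs_mul]; exact abs_add_le _ _
    _ ≤ 2 * (ε * n) + ε * (B * n) :=
      add_le_add (mul_le_mul hJ2 u1 (abs_nonneg _) two_pos.le)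
        (mul_le_mul hJ u2 (abs_nonneg _) hε.le)
    _ = ε * (B + 2) * n := by ring
    _ ≤ η * n := mul_le_mul_of_nonneg_right hε3 hn

theorem spt_eps {B η : ℝ} (hB : 0 ≤ B) (hη : 0 < η) :
    ∃ ε > 0, ε ≤ 1 / 2 ∧ 4 * ε ≤ η ∧ ε * (B + 2) ≤ η := by
  refine ⟨min (1 / 2) (η / (B + 4)), lt_min (by norm_num) (by positivity), min_le_left _ _, ?_⟩
  have h1 : min (1 / 2) (η / (B + 4)) ≤ η / (B + 4) := min_le_right _ _
  have h2 : 0 < min (1 / 2) (η / (B + 4)) := lt_min (by norm_num) (by positivity)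
  rw [le_div_iff₀ (by positivity)] at h1
  constructor <;> nlinarith [mul_nonneg h2.le hB]

theorem spt_t {D K1 K2 x y ε : ℝ} (hD : 0 ≤ D) (h1 : 0 < K1) (h2 : 0 < K2) (hx : 0 ≤ x)
    (t3 : x < 1) (t4 : x < ε / (D * K1 + K2 + 1)) (hy : y ≤ K1 * x) :
    D * y ≤ ε ∧ K2 * x ^ 2 ≤ ε := by
  rw [lt_div_iff₀ (by positivity)] at t4
  have hDt : 0 ≤ D * K1 * x := by positivity
  have hKt : 0 ≤ K2 * x := by positivity
  constructor
  · nlinarith [mul_le_mul_of_nonneg_left hy hD]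
  · nlinarith [mul_le_mul_of_nonneg_left t3.le hKt]

theorem spt_re (A : F →L[ℂ] F) (w : F) : |(⟪w, (I • A) w⟫_ℂ).re| ≤ ‖A‖ * ‖w‖ ^ 2 := by
  refine (Complex.abs_re_le_norm _).trans ((norm_inner_le_norm _ _).trans ?_)
  have h1 : ‖(I • A) w‖ ≤ ‖A‖ * ‖w‖ := by
    rw [smul_apply, norm_smul, Complex.norm_I, one_mul]
    exact A.le_opNorm w
  calc ‖w‖ * ‖(I • A) w‖ ≤ ‖w‖ * (‖A‖ * ‖w‖) := mul_le_mul_of_nonneg_left h1 (norm_nonneg _)
    _ = _ := by ring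

theorem spt_spin {S : Type} [NormedAddCommGroup S] [InnerProductSpace ℝ S] [FiniteDimensional ℝ S]
    (C : Cl S F) (A B : S →L[ℝ] S) (w : F) :
    |(⟪w, (I • C.spin A) w⟫_ℂ).re - (⟪w, (I • C.spin B) w⟫_ℂ).re| ≤
      Module.finrank ℝ S * ‖A - B‖ * ‖w‖ ^ 2 ∧
    |(⟪w, (I • C.spin B) w⟫_ℂ).re| ≤ Module.finrank ℝ S * ‖B‖ * ‖w‖ ^ 2 := by
  have h (B : S →L[ℝ] S) :
      |(⟪w, (I • C.spin B) w⟫_ℂ).re| ≤ Module.finrank ℝ S * ‖B‖ * ‖w‖ ^ 2 :=
    (spt_re _ w).trans (mul_le_mul_of_nonneg_right (C.norm_spin_le B) (sq_nonneg _))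
  refine ⟨?_, h B⟩
  have e : C.spin A = C.spin (A - B) + C.spin B := by rw [← C.spin_add, sub_add_cancel]
  rw [e, smul_add, add_apply, inner_add_right, Complex.add_re, add_sub_cancel_right]
  exact h _

omit [FiniteDimensional ℝ V] [MeasurableSpace V] [BorelSpace V] [FiniteDimensional ℝ T]
  [MeasurableSpace T] [BorelSpace T] in
theorem spt_norm {L : CL V} {p : EE V} {j : T →L[ℝ] EE V} (hj : IsN L p j) (t : T) :
    ‖j t‖ = ‖t‖ := by
  rw [norm_eq_sqrt_real_inner, hj.iso, ← norm_eq_sqrt_real_inner]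

/-- `sv_add`, `norm_s0_le`, `normO`, `posO` -/
theorem sv_near {P : Par} {L : CL V} {p : EE V} (h : sv P L p = 0) {j : T →L[ℝ] EE V}
    (hj : IsN L p j) (H : Harm P L p j) {η : ℝ} (hη : 0 < η) : ∃ r > 0, ∀ t, ‖t‖ < r →
      (1 - η) * ‖H.Om t‖ ^ 2 ≤ ‖sv P L (p + j t)‖ ^ 2 ∧
        ‖sv P L (p + j t)‖ ^ 2 ≤ (1 + η) * ‖H.Om t‖ ^ 2 := by
  obtain ⟨K, hK, hs⟩ := norm_s0_le P L
  have hc := H.c_pos
  have hε : 0 < min 1 (η / 3) := lt_min one_pos (by positivity)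
  have h1 : min 1 (η / 3) ≤ 1 := min_le_left _ _
  have h2 : min 1 (η / 3) ≤ η / 3 := min_le_right _ _
  generalize min 1 (η / 3) = ε at hε h1 h2
  refine ⟨ε * H.c / K, by positivity, fun t ht => ?_⟩
  have e1 := sv_add P L p (j t)
  rw [h, zero_add] at e1
  have e2 := hs (j t)
  rw [spt_norm hj] at e2
  have e3 := APsq.le_norm H.posO t
  have e4 : K * ‖t‖ ≤ ε * H.c := by
    rw [lt_div_iff₀ hK] at ht
    linarith
  have e5 : ‖s0 P.toGam L P.e (j t)‖ ≤ ε * ‖H.Om t‖ :=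
    calc _ ≤ K * ‖t‖ * ‖t‖ := by rw [mul_assoc, ← sq]; exact e2
      _ ≤ ε * H.c * ‖t‖ := mul_le_mul_of_nonneg_right e4 (norm_nonneg _)
      _ ≤ _ := by rw [mul_assoc]; exact mul_le_mul_of_nonneg_left e3 hε.le
  have e6 : ‖sv P L (p + j t)‖ ≤ (1 + ε) * ‖H.Om t‖ := by
    rw [e1]
    refine (norm_add_le _ _).trans ?_
    rw [← H.normO]
    linarith
  have e7 : (1 - ε) * ‖H.Om t‖ ≤ ‖sv P L (p + j t)‖ := by
    have := norm_sub_le (sv P L (p + j t)) (s0 P.toGam L P.e (j t))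
    rw [show sv P L (p + j t) - s0 P.toGam L P.e (j t) = ds P L p (j t) by
      rw [e1, add_sub_cancel_right], ← H.normO] at this
    linarith
  have h0 := norm_nonneg (H.Om t)
  have e8 := pow_le_pow_left₀ (norm_nonneg _) e6 2
  have e9 := pow_le_pow_left₀ (mul_nonneg (by linarith) h0) e7 2
  rw [mul_pow] at e8 e9
  have q := sq_nonneg ‖H.Om t‖
  constructor
  · exact le_trans (mul_le_mul_of_nonneg_right (by nlinarith) q) e9
  · exact e8.trans (mul_le_mul_of_nonneg_right (by nlinarith) q)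

/-- Pointwise comparison of the densities: `continuous_jac`, `sv_near`, `Lam_lip`,
`norm_spin_le`, `g2_slice_le`, `g2_le_slice`. -/
theorem den_near (M : Mod V F) {P : Par} (σ : Slice M.L T) (h : sv P M.L σ.p = 0)
    (hj : IsN M.L σ.p σ.j) (H : Harm P M.L σ.p σ.j) {η : ℝ} (hη : 0 < η) :
    ∃ r > 0, ∃ K > 0, ∀ t, ‖t‖ < r → |σ.jac t - 1| ≤ η ∧
      ∀ (lam : ℝ) (φ : EE V → F), 0 ≤ lam → Differentiable ℝ φ → M.Inv φ →
      ∀ (a b n : ℝ), a = (1 / 2) * g2 (fun s => φ (σ.p + σ.j s)) t +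
          (1 / 2) * ‖(lam • H.Om) t‖ ^ 2 * ‖φ (σ.p + σ.j t)‖ ^ 2 →
        b = (⟪φ (σ.p + σ.j t), (I • M.C.spin (H.J * H.W)) (φ (σ.p + σ.j t))⟫_ℂ).re →
        n = ‖φ (σ.p + σ.j t)‖ ^ 2 →
        (1 - η) * a + lam * b - η * lam * n ≤ σ.jac t * den M P lam φ (σ.p + σ.j t) ∧
        σ.jac t * den M P lam φ (σ.p + σ.j t) ≤ (1 + η) * a + lam * b + (η * lam + K) * n := by
  obtain ⟨K1, hK1, hlip⟩ := Lam_lip P M.L
  obtain ⟨K2, hK2, hg⟩ := g2_le_slice M hj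
  set D : ℝ := (Module.finrank ℝ (SS V) : ℝ) with hD
  have hD0 : 0 ≤ D := Nat.cast_nonneg _
  set B : ℝ := D * ‖Lam P M.L σ.p‖ with hB
  have hB0 : 0 ≤ B := by positivity
  obtain ⟨ε, hε, hε1, hε2, hε3⟩ := spt_eps hB0 hη
  obtain ⟨r1, hr1, hsv⟩ := sv_near h hj H hε
  obtain ⟨r2, hr2, hjac⟩ := Metric.continuousAt_iff.1 (σ.continuous_jac.1.continuousAt (x := 0))
    ε hε
  have hQ : 0 < D * K1 + K2 + 1 := by positivity
  refine ⟨min (min r1 r2) (min 1 (ε / (D * K1 + K2 + 1))),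
    lt_min (lt_min hr1 hr2) (lt_min one_pos (by positivity)), 3 * (K2 / 2), by positivity,
    fun t ht => ?_⟩
  simp only [lt_min_iff] at ht
  obtain ⟨⟨t1, t2⟩, t3, t4⟩ := ht
  have hJ : |σ.jac t - 1| ≤ ε := by
    have := hjac (x := t) (by rwa [dist_zero_right])
    rw [σ.continuous_jac.2, Real.dist_eq] at this
    exact this.le
  refine ⟨hJ.trans (by linarith), fun lam φ hl hd hi a b n ha hb hn => ?_⟩
  have hn0 : 0 ≤ n := hn ▸ sq_nonneg _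
  obtain ⟨s1, s2⟩ := hsv t t1
  obtain ⟨u1, u2⟩ := spt_spin M.C (Lam P M.L (σ.p + σ.j t)) (Lam P M.L σ.p) (φ (σ.p + σ.j t))
  have u3 := hlip (σ.p + σ.j t) σ.p
  rw [add_sub_cancel_left, spt_norm hj] at u3
  rw [H.polar] at hb
  rw [← hb, ← hn, ← hD] at u1 u2
  rw [← hB] at u2
  obtain ⟨u4, u5⟩ := spt_t hD0 hK1 hK2 (norm_nonneg t) t3 t4 u3
  replace u1 := u1.trans (mul_le_mul_of_nonneg_right u4 hn0)
  have g1 := g2_slice_le hj.iso σ.p hd t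
  have g3 := hg φ hd hi t
  have g0 : 0 ≤ g2 (fun s => φ (σ.p + σ.j s)) t := Finset.sum_nonneg fun _ _ => sq_nonneg _
  rw [← hn] at g3 ha
  have key := spt_real (a' := (1 / 2) * g2 (fun s => φ (σ.p + σ.j s)) t)
    (a := (1 / 2) * g2 φ (σ.p + σ.j t)) (b' := (1 / 2) * ‖(lam • H.Om) t‖ ^ 2 * n)
    (b := lam ^ 2 / 2 * ‖sv P M.L (σ.p + σ.j t)‖ ^ 2 * n) (J := σ.jac t)
    (c := (⟪φ (σ.p + σ.j t), (I • M.C.spin (Lam P M.L (σ.p + σ.j t))) (φ (σ.p + σ.j t))⟫_ℂ).re)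
    (c0 := b) (K := K2 / 2) (u := K2 * ‖t‖ ^ 2) (by linarith only [g0]) (by positivity) hn0 hl hε hε1 hε2
    (by positivity) u5 hJ (by linarith only [g1]) (by linarith only [g3]) ?_ ?_
    (spt_c hε hε1 hε3 hn0 hJ u1 u2)
  · rw [← ha] at key
    unfold den
    rw [← hn]
    exact key
  · rw [smul_apply, norm_smul, mul_pow, Real.norm_eq_abs, sq_abs]
    exact (spt_sc hn0).1 s1
  · rw [smul_apply, norm_smul, mul_pow, Real.norm_eq_abs, sq_abs]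
    exact (spt_sc hn0).2 s2

end Vale.Agent.P353.SC
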