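import Vale.Agent.P353.SBase

open MeasureTheory NormedSpace
open Complex (I)
open scoped InnerProductSpace ContDiff

noncomputable section
namespace Vale.Agent.P353.SC
variable {S : Type} [NormedAddCommGroup S] [InnerProductSpace ℝ S] [FiniteDimensional ℝ S]

/-- `(R + a) (R - a) v = 0`; if `a > 0` then `R + a` is injective, if `a = 0` then `‖R v‖ = 0` -/
theorem Pos.eig {R : S →L[ℝ] S} (h : Pos 0 R) {a : ℝ} (ha : 0 ≤ a) {v : S}
    (hv : R (R v) = a ^ 2 • v) : R v = a • v := by
  have h1 := APsq.root_eig h (v := v) (l := a ^ 2) hv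
  rwa [Real.sqrt_sq ha] at h1

omit [FiniteDimensional ℝ S] in
theorem rot_zero {A : S →L[ℝ] S} (hA : Skew A) {v : S} (hv : A (A v) = 0) : A v = 0 := by
  have h1 := hA v (A v)
  rw [hv, inner_zero_right, neg_zero] at h1
  exact inner_self_eq_zero.1 h1

theorem rot_psq {T : S →L[ℝ] S} (hT : Skew T) {a : ℝ} {v : S} (hv : T (T v) = -(a ^ 2) • v) :
    psq (-(T * T)) v = |a| • v := by
  have h1 := psq_spec (skew_polar hT).1
  refine Pos.eig h1.1 (abs_nonneg a) ?_
  rw [← ContinuousLinearMap.mul_apply, h1.2, ContinuousLinearMap.neg_apply,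
    ContinuousLinearMap.mul_apply, hv, sq_abs, neg_smul, neg_neg]

/-- two commuting rotations: `v = v₁ + v₂` with `v_± = (v ± A B v / (w t)) / 2` if `w t ≠ 0`;
if `w t = 0` then `A B v = 0` -/
theorem two_rot {A B : S →L[ℝ] S} (hA : Skew A) (hB : Skew B) (hc : A * B = B * A) {w t : ℝ}
    (hw : 0 ≤ w) (ht : 0 ≤ t) : ∃ β : ℝ, ∀ v, A (A v) = -(w ^ 2) • v → B (B v) = -(t ^ 2) • v →
      psq (-((A + B) * (A + B))) v = max w t • v + β • A (B v) ∧
      ∃ v₁ v₂, v = v₁ + v₂ ∧ (A + B) ((A + B) v₁) = -((w - t) ^ 2) • v₁ ∧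
        (A + B) ((A + B) v₂) = -((w + t) ^ 2) • v₂ := by
  have hc' : ∀ u, B (A u) = A (B u) := fun u => by
    rw [← ContinuousLinearMap.mul_apply, ← hc, ContinuousLinearMap.mul_apply]
  have hS : Skew (A + B) := fun u v => by
    rw [ContinuousLinearMap.add_apply, ContinuousLinearMap.add_apply, inner_add_left,
      inner_add_right, hA, hB]
    ring
  refine ⟨(|w - t| - (w + t)) / (2 * (w * t)), fun v h1 h2 => ?_⟩
  have e1 : (A + B) ((A + B) v) = -(w ^ 2 + t ^ 2) • v + (2 : ℝ) • A (B v) := by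
    simp only [ContinuousLinearMap.add_apply, map_add, h1, h2, hc']
    module
  have e2 : (A + B) ((A + B) (A (B v))) =
      -(w ^ 2 + t ^ 2) • A (B v) + (2 * (w * t) ^ 2) • v := by
    have a1 : A (A (B v)) = -(w ^ 2) • B v := by rw [← hc', ← hc', h1, map_smul]
    simp only [ContinuousLinearMap.add_apply, map_add, hc', a1, h2, map_smul, h1]
    module
  have hm : max w t = (|w - t| + (w + t)) / 2 := by
    rcases le_total w t with h | h
    · rw [max_eq_right h, abs_of_nonpos (sub_nonpos.2 h)]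
      ring
    · rw [max_eq_left h, abs_of_nonneg (sub_nonneg.2 h)]
      ring
  have hwt : |w + t| = w + t := abs_of_nonneg (add_nonneg hw ht)
  by_cases h0 : w * t = 0
  · have e3 : A (B v) = 0 := by
      rcases mul_eq_zero.1 h0 with h | h
      · rw [← hc', rot_zero hA (by rw [h1, h]; simp), map_zero]
      · rw [rot_zero hB (by rw [h2, h]; simp), map_zero]
    have e4 : (A + B) ((A + B) v) = -((w + t) ^ 2) • v := by
      rw [e1, e3, smul_zero, add_zero]
      congr 1
      linear_combination 2 * h0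
    refine ⟨?_, 0, v, (zero_add v).symm, by simp, e4⟩
    rw [rot_psq hS e4, e3, smul_zero, add_zero, hwt]
    congr 1
    rcases mul_eq_zero.1 h0 with h | h
    · rw [h, zero_add, max_eq_right ht]
    · rw [h, add_zero, max_eq_left hw]
  · have hw0 : w ≠ 0 := left_ne_zero_of_mul h0
    have ht0 : t ≠ 0 := right_ne_zero_of_mul h0
    have e5 : (A + B) ((A + B) ((1 / 2 : ℝ) • v + (1 / (2 * (w * t))) • A (B v))) =
        -((w - t) ^ 2) • ((1 / 2 : ℝ) • v + (1 / (2 * (w * t))) • A (B v)) := by
      rw [map_add, map_add, map_smul, map_smul, map_smul, map_smul, e1, e2]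
      match_scalars <;> field_simp <;> ring
    have e6 : (A + B) ((A + B) ((1 / 2 : ℝ) • v - (1 / (2 * (w * t))) • A (B v))) =
        -((w + t) ^ 2) • ((1 / 2 : ℝ) • v - (1 / (2 * (w * t))) • A (B v)) := by
      rw [map_sub, map_sub, map_smul, map_smul, map_smul, map_smul, e1, e2]
      match_scalars <;> field_simp <;> ring
    have e7 : v = ((1 / 2 : ℝ) • v + (1 / (2 * (w * t))) • A (B v)) +
        ((1 / 2 : ℝ) • v - (1 / (2 * (w * t))) • A (B v)) := by module
    refine ⟨?_, _, _, e7, e5, e6⟩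
    conv_lhs => rw [e7]
    rw [map_add, rot_psq hS e5, rot_psq hS e6, hwt, hm]
    match_scalars <;> field_simp <;> ring

/-- If the space is spanned by eigenvectors of `- A²` with eigenvalues squares of integers then
`A` has a gap: an eigenvector of the symmetric operator `- A²` whose eigenvalue is not of this
form is orthogonal to all of them; then expand in an eigenbasis. -/
theorem gap_of_span {A : S →L[ℝ] S} (hA : Skew A)
    (h : Submodule.span ℝ {v | ∃ k : ℤ, A (A v) = -((k : ℝ) ^ 2) • v} = ⊤) (u : S) :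
    ‖A u‖ ≤ ‖A (A u)‖ := by
  have hp := (skew_polar hA).1
  obtain ⟨b, μ, hb⟩ := APsq.exists_eig hp.1
  have h1 : ∀ i, ∃ k : ℤ, μ i = (k : ℝ) ^ 2 := fun i => by
    by_contra hk
    push Not at hk
    have h2 : ∀ v ∈ Submodule.span ℝ {v | ∃ k : ℤ, A (A v) = -((k : ℝ) ^ 2) • v},
        ⟪b i, v⟫_ℝ = 0 := by
      intro v hv
      induction hv using Submodule.span_induction with
      | mem v hv =>
        obtain ⟨k, hv⟩ := hv
        have h3 := hp.1 (b i) v
        rw [hb, ContinuousLinearMap.neg_apply, ContinuousLinearMap.mul_apply, hv, neg_smul,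
          neg_neg, real_inner_smul_left, real_inner_smul_right] at h3
        exact (mul_eq_mul_right_iff.1 h3).resolve_left (hk k)
      | zero => exact inner_zero_right _
      | add x y _ _ hx hy => rw [inner_add_right, hx, hy, add_zero]
      | smul a x _ hx => rw [real_inner_smul_right, hx, mul_zero]
    exact b.orthonormal.ne_zero i (inner_self_eq_zero.1 (h2 _ (h ▸ Submodule.mem_top)))
  have h2 : Pos 0 (-(A * A) * -(A * A) - -(A * A)) :=
    APsq.pos_eig (b := b) (μ := fun i => μ i * μ i - μ i) (fun i => by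
      rw [ContinuousLinearMap.sub_apply, ContinuousLinearMap.mul_apply, hb, map_smul, hb,
        smul_smul, sub_smul]) fun i => by
      obtain ⟨k, hk⟩ := h1 i
      have h3 : (k ^ 2 : ℤ) ≤ k ^ 2 * k ^ 2 := by
        rw [← sq]
        exact Int.le_self_sq _
      have h4 : ((k : ℝ) ^ 2) ≤ (k : ℝ) ^ 2 * (k : ℝ) ^ 2 := by exact_mod_cast h3
      rw [hk]
      linarith
  have h3 := h2.2 u
  have h4 := hA u (A u)
  have h5 := hA u (A (A (A u)))
  have h6 := hA (A u) (A (A u))
  rw [real_inner_self_eq_norm_sq] at h4 h6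
  simp only [ContinuousLinearMap.sub_apply, ContinuousLinearMap.mul_apply,
    ContinuousLinearMap.neg_apply, map_neg, neg_neg, inner_sub_right, inner_neg_right] at h3
  exact (pow_le_pow_iff_left₀ (norm_nonneg _) (norm_nonneg _) two_ne_zero).1 (by linarith)

end Vale.Agent.P353.SC
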