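import Vale.Agent.P353.SLam
import Vale.Agent.P353.SSpin
import Vale.Agent.P353.SHad2
import Vale.Agent.P353.SRot

open MeasureTheory NormedSpace
open Complex (I)
open scoped InnerProductSpace ContDiff

noncomputable section
namespace Vale.Agent.P353.SC
variable {V : Type} [NormedAddCommGroup V] [InnerProductSpace ℝ V] [FiniteDimensional ℝ V]
  [MeasurableSpace V] [BorelSpace V] {L : CL V} {N : ℕ}

section aux
omit [MeasurableSpace V] [BorelSpace V]

omit [FiniteDimensional ℝ V] in
theorem strace_mat (M : M16) (u : R16) (a : V) : mat M (tens u a) = tens (M.mulVec u) a := by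
  ext i
  simp only [mat_apply, tens_apply, Matrix.mulVec, dotProduct, Finset.sum_smul, smul_smul]

omit [FiniteDimensional ℝ V] in
theorem strace_lift (g : V →L[ℝ] V) (u : R16) (a : V) : lift g (tens u a) = tens u (g a) := by
  ext i
  simp only [lift_apply, tens_apply, map_smul]

omit [FiniteDimensional ℝ V] in
theorem strace_smul (c : ℝ) (u : R16) (a : V) : tens (c • u) a = c • tens u a := by
  ext i
  simp only [tens_apply, Pi.smul_apply, PiLp.smul_apply, smul_eq_mul, smul_smul]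

omit [FiniteDimensional ℝ V] in
theorem strace_vec (v u : R16) (g : V →L[ℝ] V) (y : SS V) :
    (mat (Matrix.vecMulVec v u) ∘L lift g) y = tens v (g (contr u y)) := by
  ext i
  rw [tens_apply]
  simp only [ContinuousLinearMap.comp_apply, mat_apply, lift_apply, contr_apply,
    map_sum, map_smul, Finset.smul_sum, smul_smul, Matrix.vecMulVec_apply]

omit [FiniteDimensional ℝ V] in
theorem strace_dec (P : Par) {Q : Fin N → Fin N → V →L[ℝ] V} (hQ : ∑ i, ∑ j, Q i j = 1)
    (y : SS V) : y = ∑ α, ∑ i, ∑ j, tens (ub P α) (Q i j (contr (ub P α) y)) := by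
  have h1 : ∀ a, ∑ i, ∑ j, Q i j a = a := fun a => by
    simpa only [ContinuousLinearMap.sum_apply, ContinuousLinearMap.one_apply] using
      congrArg (fun T : V →L[ℝ] V => T a) hQ
  simp only [← map_sum, h1]
  ext k
  have h2 : ∀ l, ∑ α, ub P α k * ub P α l = if k = l then 1 else 0 := fun l => by
    simpa only [Matrix.sum_apply, Matrix.vecMulVec_apply, Matrix.one_apply] using
      congrFun (congrFun (ub_complete P) k) l
  rw [WithLp.ofLp_sum, Finset.sum_apply]
  simp only [tens_apply, contr_apply, Finset.smul_sum, smul_smul]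
  rw [Finset.sum_comm]
  simp only [← Finset.sum_smul, h2, ite_smul, one_smul, zero_smul, Finset.sum_ite_eq,
    Finset.mem_univ, if_true]

theorem strace_rot (P : Par) (L : CL V) (X : V) (α : Fin 8 ⊕ Fin 8) (t : ℝ) : ∃ β : ℝ, ∀ a,
    L.br X (L.br X a) = -(t ^ 2) • a →
    kap P (psq (-(AF P L X * AF P L X)) (tens (ub P α) a)) =
      (uk α * max (uw α) |t|) • tens (ub P α) a +
        β • tens (((-P.σ) • P.g 8).mulVec ((P.hat Amat).mulVec (ub P α))) (L.br X a) ∧
    ∃ v₁ v₂, tens (ub P α) a = v₁ + v₂ ∧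
      AF P L X (AF P L X v₁) = -((uw α - |t|) ^ 2) • v₁ ∧
      AF P L X (AF P L X v₂) = -((uw α + |t|) ^ 2) • v₂ := by
  have hB : Skew (P.σ • lift (n := 16) (L.br X)) := fun u v => by
    rw [ContinuousLinearMap.smul_apply, ContinuousLinearMap.smul_apply, real_inner_smul_left,
      real_inner_smul_right, skew_lift (L.skew_br X) u v, mul_neg]
  have hc : (mat (P.hat Amat) : SS V →L[ℝ] SS V) * (P.σ • lift (L.br X)) =
      (P.σ • lift (L.br X)) * mat (P.hat Amat) := by
    refine ContinuousLinearMap.ext fun y => ?_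
    simp only [ContinuousLinearMap.mul_apply, ContinuousLinearMap.smul_apply, map_smul]
    exact congrArg (fun T : SS V →L[ℝ] SS V => P.σ • T y) (mat_lift _ _)
  obtain ⟨n, hn⟩ := uw_nat α
  obtain ⟨β, hβ⟩ := two_rot (skew_mat (P.hat_transpose Amat)) hB hc (w := uw α) (t := |t|)
    (hn ▸ n.cast_nonneg) (abs_nonneg t)
  refine ⟨β * P.σ, fun a ha => ?_⟩
  obtain ⟨h1, h2⟩ := hβ (tens (ub P α) a)
    (by rw [strace_mat, strace_mat, Matrix.mulVec_mulVec, hat_sq_ub, strace_smul])
    (by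
      simp only [ContinuousLinearMap.smul_apply, map_smul, strace_lift, ha, smul_smul, sq_abs]
      rw [← mul_assoc, P.hσ, one_mul])
  refine ⟨?_, h2⟩
  rw [AF, h1]
  simp only [ContinuousLinearMap.smul_apply, map_smul, map_add, strace_lift, strace_mat, kap,
    kap_ub, strace_smul, smul_smul, mul_comm (uk α)]

theorem strace_perp (P : Par) (α : Fin 8 ⊕ Fin 8) :
    ((-P.σ) • P.g 8).mulVec ((P.hat Amat).mulVec (ub P α)) ⬝ᵥ ub P α = 0 := by
  have h1 : ((-P.σ) • P.g 8).transpose = (-P.σ) • P.g 8 := by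
    rw [Matrix.transpose_smul, (P.symm 8).eq]
  have h2 : (P.hat Amat).mulVec (ub P α) ⬝ᵥ ub P α = 0 := by
    have h3 := Matrix.dotProduct_mulVec (ub P α) (P.hat Amat) (ub P α)
    rw [← Matrix.mulVec_transpose, P.hat_transpose, Matrix.neg_mulVec, neg_dotProduct,
      dotProduct_comm] at h3
    linarith
  rw [dotProduct_comm, Matrix.dotProduct_mulVec, ← Matrix.mulVec_transpose, h1, kap_ub,
    smul_dotProduct, dotProduct_comm, h2, smul_zero]

end aux

/-- The trace formula.  `1 = ∑ mat (u uᵀ) ∘L lift (Q i j)` (`ub_complete`, `exists_Q`), on the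
range of a term use `two_rot` with `A = mat A^`, `B = σ • lift (br X)`, `w = uw α`,
`t = |x i - x j|`; `tr_mat_lift`; the `β` term has the factor `u ⬝ᵥ κ A^ u = 0`. -/
theorem E0_eq (h : SUN L N) (hN : 0 < N) (P : Par) {X : V} {x : Fin N → ℝ} (hX : h.hat X = dg x) :
    E0 P L X = Ef x := by
  obtain ⟨Q, hQ, ht, hb⟩ := exists_Q h hN
  choose β hβ using strace_rot P L X
  have e : kap P * psq (-(AF P L X * AF P L X)) = ∑ α, ∑ i, ∑ j,
      ((uk α * max (uw α) |x i - x j|) •
        (mat (Matrix.vecMulVec (ub P α) (ub P α)) ∘L lift (Q i j)) +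
      β α (x i - x j) • (mat (Matrix.vecMulVec
        (((-P.σ) • P.g 8).mulVec ((P.hat Amat).mulVec (ub P α))) (ub P α)) ∘L
          lift (L.br X ∘L Q i j))) := by
    refine ContinuousLinearMap.ext fun y => ?_
    conv_lhs => rw [strace_dec P hQ y]
    simp only [map_sum, ContinuousLinearMap.sum_apply, ContinuousLinearMap.add_apply,
      ContinuousLinearMap.smul_apply, strace_vec, ContinuousLinearMap.mul_apply]
    exact Finset.sum_congr rfl fun α _ => Finset.sum_congr rfl fun i _ =>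
      Finset.sum_congr rfl fun j _ => (hβ α _ _ (hb X x hX i j _)).1
  have hl : ∀ (c d : ℝ) (A B : SS V →L[ℝ] SS V), tr (c • A + d • B) = c * tr A + d * tr B :=
    fun c d A B => by simp [tr]
  have hs : ∀ {ι : Type} [Fintype ι] (A : ι → SS V →L[ℝ] SS V), tr (∑ i, A i) = ∑ i, tr (A i) :=
    fun A => by simp [tr]
  have hN' : (N : ℝ) ≠ 0 := Nat.cast_ne_zero.2 hN.ne'
  rw [E0, e]
  simp only [hs, hl, tr_mat_lift, Matrix.trace_vecMulVec, strace_perp, ub_dot, if_true, ht,
    zero_mul, mul_zero, add_zero, one_mul]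
  rw [Finset.sum_comm, Finset.sum_congr rfl fun i _ => Finset.sum_comm]
  simp only [← Finset.sum_mul, sum_uk_max]
  simp only [mul_sub, mul_one, Finset.sum_sub_distrib, mul_ite,
    mul_zero, Finset.sum_ite_eq, Finset.mem_univ, if_true, sub_self, Finset.sum_const,
    Finset.card_univ, Fintype.card_fin, nsmul_eq_mul, Ef]
  rw [mul_comm (N : ℝ), mul_assoc, inv_mul_cancel₀ hN', mul_one]

theorem gap_AF (h : SUN L N) (hN : 0 < N) (P : Par) {X : V} (hX : h.hat X = dg (chain N))
    (u : SS V) : ‖AF P L X u‖ ≤ ‖AF P L X (AF P L X u)‖ := by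
  obtain ⟨Q, hQ, -, hb⟩ := exists_Q h hN
  refine gap_of_span (skew_AF P L X) (eq_top_iff.2 fun y _ => ?_) u
  rw [strace_dec P hQ y]
  refine Submodule.sum_mem _ fun α _ => Submodule.sum_mem _ fun i _ =>
    Submodule.sum_mem _ fun j _ => ?_
  obtain ⟨β, hβ⟩ := strace_rot P L X α (chain N i - chain N j)
  obtain ⟨v₁, v₂, e, h1, h2⟩ := (hβ _ (hb X _ hX i j (contr (ub P α) y))).2
  obtain ⟨n, hn⟩ := uw_nat α
  have e2 : |chain N i - chain N j| = ((|6 * ((i : ℕ) : ℤ) - 6 * (j : ℕ)| : ℤ) : ℝ) := by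
    push_cast
    exact congrArg abs (by simp only [chain]; ring)
  rw [hn, e2] at h1 h2
  rw [e]
  exact add_mem (Submodule.subset_span ⟨n - |6 * ((i : ℕ) : ℤ) - 6 * (j : ℕ)|, by
      rw [h1, Int.cast_sub (n : ℤ), Int.cast_natCast]⟩)
    (Submodule.subset_span ⟨n + |6 * ((i : ℕ) : ℤ) - 6 * (j : ℕ)|, by
      rw [h2, Int.cast_add (n : ℤ), Int.cast_natCast]⟩)

end Vale.Agent.P353.SC
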