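import Mathlib

open MeasureTheory Filter
open Complex (I)
open scoped ContDiff

noncomputable section
namespace Vale.Agent.P353S

/-- the bosonic variables `x i A` -/
abbrev Bos (ι : Type) := PiLp 2 (fun _ : Fin 9 => EuclideanSpace ℝ ι)

variable {N : ℕ} {ι F : Type} [Fintype ι] [DecidableEq ι]
  [NormedAddCommGroup F] [InnerProductSpace ℂ F] [CompleteSpace F]

/-- matrix of the adjoint action `X ↦ g X g⁻¹` in the basis `T` -/
def adj (T : ι → Matrix (Fin N) (Fin N) ℂ) (g : Matrix.specialUnitaryGroup (Fin N) ℂ) (B A : ι) : ℝ :=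
  (T B * (g.1 * T A * star g.1)).trace.re

/-- adjoint action on the bosonic variables -/
def act (T : ι → Matrix (Fin N) (Fin N) ℂ) (g : Matrix.specialUnitaryGroup (Fin N) ℂ)
    (x : Bos ι) : Bos ι :=
  WithLp.toLp 2 fun i => WithLp.toLp 2 fun B => ∑ A, adj T g B A * x i A

/-- the coordinate direction `(i, A)` -/
def dir (i : Fin 9) (A : ι) : Bos ι := WithLp.toLp 2 (Pi.single i (EuclideanSpace.single A 1))

/-- the supercharge `Q α` -/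
def Q (f : ι → ι → ι → ℝ) (γ : Fin 9 → Matrix (Fin 16) (Fin 16) ℝ) (θ : Fin 16 → ι → F →L[ℂ] F)
    (α : Fin 16) (Ψ : Bos ι → F) (x : Bos ι) : F :=
  (-I) • ∑ i, ∑ β, ∑ A, γ i α β • θ β A (fderiv ℝ Ψ x (dir i A)) +
    ∑ i, ∑ j, ∑ β, ∑ A, ∑ B, ∑ C, ((1 / 2) * f A B C * x i B * x j C *
      ((1 / 2) * (γ i * γ j - γ j * γ i) α β)) • θ β A (Ψ x)

/-- the quadratic form `q_N` -/
def form (f : ι → ι → ι → ℝ) (γ : Fin 9 → Matrix (Fin 16) (Fin 16) ℝ)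
    (θ : Fin 16 → ι → F →L[ℂ] F) (Ψ : Bos ι → F) : ℝ :=
  (1 / 16) * ∑ α, ∫ x, ‖Q f γ θ α Ψ x‖ ^ 2

/-- `SU(N)`-invariant smooth compactly supported functions -/
def Test (T : ι → Matrix (Fin N) (Fin N) ℂ)
    (ρ : Matrix.specialUnitaryGroup (Fin N) ℂ →* unitary (F →L[ℂ] F)) (Ψ : Bos ι → F) : Prop :=
  ContDiff ℝ ∞ Ψ ∧ HasCompactSupport Ψ ∧ ∀ g x, Ψ (act T g x) = (ρ g : F →L[ℂ] F) (Ψ x)

/-- the null space of the closure of the form, that is the kernel of `H_N` -/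
def KerH (T : ι → Matrix (Fin N) (Fin N) ℂ) (f : ι → ι → ι → ℝ)
    (γ : Fin 9 → Matrix (Fin 16) (Fin 16) ℝ) (θ : Fin 16 → ι → F →L[ℂ] F)
    (ρ : Matrix.specialUnitaryGroup (Fin N) ℂ →* unitary (F →L[ℂ] F)) :
    Set (Lp F 2 (volume : Measure (Bos ι))) :=
  {ψ | ∃ Ψ : ℕ → Bos ι → F, (∀ n, Test T ρ (Ψ n)) ∧
    Tendsto (fun n => ∫ x, ‖Ψ n x - ψ x‖ ^ 2) atTop (nhds 0) ∧
    Tendsto (fun n => form f γ θ (Ψ n)) atTop (nhds 0)}

end Vale.Agent.P353S
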