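import Mathlib

open MeasureTheory Filter
open Complex (I)
open scoped ContDiff

noncomputable section
namespace Vale.Agent.P353T

variable {N : ℕ} {ι F : Type} [Fintype ι] [DecidableEq ι]
  [NormedAddCommGroup F] [InnerProductSpace ℂ F]

/-- matrix of the adjoint action `X ↦ g X g⁻¹` in the basis `T` -/
def adj (T : ι → Matrix (Fin N) (Fin N) ℂ) (g : Matrix.specialUnitaryGroup (Fin N) ℂ) (B A : ι) : ℝ :=
  (T B * (g.1 * T A * star g.1)).trace.re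

/-- adjoint action on the bosonic variables `x (i, A)` -/
def act (T : ι → Matrix (Fin N) (Fin N) ℂ) (g : Matrix.specialUnitaryGroup (Fin N) ℂ)
    (x : Fin 9 × ι → ℝ) : Fin 9 × ι → ℝ :=
  fun p => ∑ A, adj T g p.2 A * x (p.1, A)

/-- the derivative with respect to `x (i, A)` -/
def pd (i : Fin 9) (A : ι) (Ψ : (Fin 9 × ι → ℝ) → F) (x : Fin 9 × ι → ℝ) : F :=
  fderiv ℝ Ψ x (Pi.single (i, A) 1)

/-- the matrix `γ^{ij}` -/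
def gam2 (γ : Fin 9 → Matrix (Fin 16) (Fin 16) ℝ) (i j : Fin 9) : Matrix (Fin 16) (Fin 16) ℝ :=
  (1 / 2 : ℝ) • (γ i * γ j - γ j * γ i)

/-- the supercharge `Q α` -/
def Q (f : ι → ι → ι → ℝ) (γ : Fin 9 → Matrix (Fin 16) (Fin 16) ℝ) (θ : Fin 16 → ι → F →L[ℂ] F)
    (α : Fin 16) (Ψ : (Fin 9 × ι → ℝ) → F) (x : Fin 9 × ι → ℝ) : F :=
  (-I) • ∑ i, ∑ β, ∑ A, γ i α β • θ β A (pd i A Ψ x) +
    ∑ i, ∑ j, ∑ β, ∑ A, ∑ B, ∑ C,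
      ((1 / 2) * f A B C * x (i, B) * x (j, C) * gam2 γ i j α β) • θ β A (Ψ x)

/-- the quadratic form `q_N` -/
def form (f : ι → ι → ι → ℝ) (γ : Fin 9 → Matrix (Fin 16) (Fin 16) ℝ)
    (θ : Fin 16 → ι → F →L[ℂ] F) (Ψ : (Fin 9 × ι → ℝ) → F) : ℝ :=
  (1 / 16) * ∑ α, ∫ x, ‖Q f γ θ α Ψ x‖ ^ 2

/-- `SU(N)`-invariant smooth compactly supported functions -/
def Test (T : ι → Matrix (Fin N) (Fin N) ℂ)
    (ρ : Matrix.specialUnitaryGroup (Fin N) ℂ → F →L[ℂ] F) (Ψ : (Fin 9 × ι → ℝ) → F) : Prop :=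
  ContDiff ℝ ∞ Ψ ∧ HasCompactSupport Ψ ∧ ∀ g x, Ψ (act T g x) = ρ g (Ψ x)

/-- `ψ` lies in the null space of the closure of the form, that is in the kernel of `H_N` -/
def ZeroEnergy (T : ι → Matrix (Fin N) (Fin N) ℂ) (f : ι → ι → ι → ℝ)
    (γ : Fin 9 → Matrix (Fin 16) (Fin 16) ℝ) (θ : Fin 16 → ι → F →L[ℂ] F)
    (ρ : Matrix.specialUnitaryGroup (Fin N) ℂ → F →L[ℂ] F) (ψ : (Fin 9 × ι → ℝ) → F) : Prop :=
  ∃ Ψ : ℕ → (Fin 9 × ι → ℝ) → F, (∀ n, Test T ρ (Ψ n)) ∧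
    Tendsto (fun n => ∫ x, ‖Ψ n x - ψ x‖ ^ 2) atTop (nhds 0) ∧
    Tendsto (fun n => form f γ θ (Ψ n)) atTop (nhds 0)

end Vale.Agent.P353T
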