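import Vale.Agent.P353.XRho
import Vale.Agent.P353.Stmt
import Vale.Agent.P353.AMod0

open MeasureTheory NormedSpace
open Complex (I)
open scoped InnerProductSpace ContDiff

noncomputable section
namespace Vale.Agent.P353

section aux
variable {N : ℕ} {ι F : Type} [Fintype ι] [DecidableEq ι]
  {T : ι → Matrix (Fin N) (Fin N) ℂ} {f : ι → ι → ι → ℝ}

/-- the matrix with given coordinates -/
def xbHat (T : ι → Matrix (Fin N) (Fin N) ℂ) :
    EuclideanSpace ℝ ι →ₗ[ℝ] Matrix (Fin N) (Fin N) ℂ where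
  toFun a := ∑ A, a A • T A
  map_add' a b := by simp [add_smul, Finset.sum_add_distrib]
  map_smul' c a := by simp [Finset.smul_sum, mul_smul]

omit [DecidableEq ι] in
theorem xb_hat (a : EuclideanSpace ℝ ι) : xbHat T a = ∑ A, a A • T A := rfl

/-- the coordinates of a matrix -/
def xbCo (T : ι → Matrix (Fin N) (Fin N) ℂ) (X : Matrix (Fin N) (Fin N) ℂ) : EuclideanSpace ℝ ι :=
  WithLp.toLp 2 fun B => (T B * X).trace.re

theorem xb_real {X Y : Matrix (Fin N) (Fin N) ℂ} (hX : X.IsHermitian) (hY : Y.IsHermitian) :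
    ((X * Y).trace.re : ℂ) = (X * Y).trace := by
  refine Complex.conj_eq_iff_re.1 ?_
  have h := Matrix.trace_conjTranspose (X * Y)
  rw [Matrix.conjTranspose_mul, hX.eq, hY.eq, Matrix.trace_mul_comm] at h
  exact h.symm

omit [DecidableEq ι] in
theorem xb_herm (hT1 : ∀ A, (T A).IsHermitian) (a : EuclideanSpace ℝ ι) :
    (xbHat T a).IsHermitian := by
  simp [xb_hat, Matrix.IsHermitian, Matrix.conjTranspose_sum, (hT1 _).eq]

omit [DecidableEq ι] in
theorem xb_tr0 (hT2 : ∀ A, (T A).trace = 0) (a : EuclideanSpace ℝ ι) : (xbHat T a).trace = 0 := by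
  simp [xb_hat, hT2]

theorem xb_tr (hT3 : ∀ A B, (T A * T B).trace = if A = B then 1 else 0) (B : ι)
    (a : EuclideanSpace ℝ ι) : (T B * xbHat T a).trace = a B := by
  simp [xb_hat, Finset.mul_sum, hT3]

theorem xb_inn (hT3 : ∀ A B, (T A * T B).trace = if A = B then 1 else 0)
    (a b : EuclideanSpace ℝ ι) : (xbHat T a * xbHat T b).trace = (⟪a, b⟫_ℝ : ℝ) := by
  rw [xb_hat a, Finset.sum_mul, Matrix.trace_sum]
  simp [xb_tr hT3, PiLp.inner_apply, mul_comm]

theorem xb_inj (hT3 : ∀ A B, (T A * T B).trace = if A = B then 1 else 0)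
    {a b : EuclideanSpace ℝ ι} (h : I • xbHat T a = I • xbHat T b) : a = b := by
  ext B
  have h1 := xb_tr hT3 B a
  rw [smul_right_injective _ Complex.I_ne_zero h, xb_tr hT3] at h1
  exact_mod_cast h1.symm

open scoped ComplexOrder in
theorem xb_surj (hcard : Fintype.card ι = N ^ 2 - 1) (hT1 : ∀ A, (T A).IsHermitian)
    (hT2 : ∀ A, (T A).trace = 0) (hT3 : ∀ A B, (T A * T B).trace = if A = B then 1 else 0)
    {X : Matrix (Fin N) (Fin N) ℂ} (h1 : X.IsHermitian) (h2 : X.trace = 0) :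
    xbHat T (xbCo T X) = X := by
  rcases Nat.eq_zero_or_pos N with rfl | hN
  · exact Subsingleton.elim _ _
  obtain ⟨Y, hY⟩ : ∃ Y, Y = xbHat T (xbCo T X) - X := ⟨_, rfl⟩
  rw [← sub_eq_zero, ← hY]
  by_contra h0
  have e1 : Y.IsHermitian := hY ▸ (xb_herm hT1 _).sub h1
  have e2 : Y.trace = 0 := by rw [hY, Matrix.trace_sub, xb_tr0 hT2, h2, sub_zero]
  have e3 : ∀ A, (T A * Y).trace = 0 := fun A => by
    rw [hY, mul_sub, Matrix.trace_sub, xb_tr hT3, sub_eq_zero]
    exact xb_real (hT1 A) h1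
  have e4 : ∀ A, (Y * T A).trace = 0 := fun A => (Matrix.trace_mul_comm _ _).trans (e3 A)
  have e5 : (Y * Y).trace ≠ 0 := fun h => h0
    (Matrix.trace_conjTranspose_mul_self_eq_zero_iff.1 (by rwa [e1.eq]))
  clear hY
  have li := LinearMap.linearIndependent_of_isOrthoᵢ
    (B := (LinearMap.mul ℂ (Matrix (Fin N) (Fin N) ℂ)).compr₂ (Matrix.traceLinearMap _ ℂ ℂ))
    (v := fun o : Option (Option ι) => o.elim Y fun o => o.elim 1 T) (by
      rintro (_ | _ | A) (_ | _ | B) h <;> simp_all [Function.onFun]) (by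
      rintro (_ | _ | A) <;> simp [e5, hT3, hN.ne'])
  have h3 := li.fintype_card_le_finrank
  have h4 : 0 < N ^ 2 := by positivity
  simp only [Fintype.card_option, Module.finrank_matrix, Fintype.card_fin, Module.finrank_self,
    hcard, mul_one, ← sq] at h3
  omega

/-- the bracket -/
def xbBr (f : ι → ι → ι → ℝ) :
    EuclideanSpace ℝ ι →L[ℝ] EuclideanSpace ℝ ι →L[ℝ] EuclideanSpace ℝ ι :=
  (LinearMap.mk₂ ℝ (fun a b : EuclideanSpace ℝ ι =>
      (WithLp.toLp 2 fun C => ∑ A, ∑ B, f A B C * a A * b B : EuclideanSpace ℝ ι))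
    (fun a a' b => by ext; simp [mul_add, add_mul, Finset.sum_add_distrib])
    (fun c a b => by ext; simp [Finset.mul_sum, mul_assoc, mul_left_comm])
    (fun a b b' => by ext; simp [mul_add, Finset.sum_add_distrib])
    (fun c a b => by ext; simp [Finset.mul_sum, mul_assoc, mul_left_comm])).toContinuousBilinearMap

omit [DecidableEq ι] in
theorem xb_br (a b : EuclideanSpace ℝ ι) (C : ι) :
    xbBr f a b C = ∑ A, ∑ B, f A B C * a A * b B := rfl

omit [DecidableEq ι] in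
theorem xb_comm (hf : ∀ A B, T A * T B - T B * T A = ∑ C, (I * f A B C) • T C)
    (a b : EuclideanSpace ℝ ι) :
    xbHat T a * xbHat T b - xbHat T b * xbHat T a = I • xbHat T (xbBr f a b) := by
  have e : ∀ A B, (a A • T A) * (b B • T B) - (b B • T B) * (a A • T A) =
      ∑ C, I • ((f A B C * a A * b B) • T C) := fun A B => by
    rw [smul_mul_smul_comm, smul_mul_smul_comm, mul_comm (b B), ← smul_sub, hf, Finset.smul_sum]
    refine Finset.sum_congr rfl fun C _ => ?_
    simp only [← Complex.coe_smul, smul_smul]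
    congr 1
    push_cast
    ring
  simp only [xb_hat, xb_br, Finset.sum_smul, Finset.smul_sum]
  rw [Finset.sum_mul_sum, Finset.sum_mul_sum, Finset.sum_comm (f := fun B A => b B • T B * _)]
  simp only [← Finset.sum_sub_distrib, e]
  exact (Finset.sum_comm.trans (Finset.sum_congr rfl fun A _ => Finset.sum_comm)).symm

theorem xb_cyc (hT3 : ∀ A B, (T A * T B).trace = if A = B then 1 else 0)
    (hf : ∀ A B, T A * T B - T B * T A = ∑ C, (I * f A B C) • T C) (A B C : ι) :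
    f B C A = f A B C := by
  have e : ∀ A B C, I * f A B C = (T A * T B * T C).trace - (T B * T A * T C).trace :=
    fun A B C => by
      rw [← Matrix.trace_sub, ← sub_mul, hf, Finset.sum_mul, Matrix.trace_sum]
      simp [hT3]
  have h : I * f B C A = I * f A B C := by
    rw [e, e, Matrix.trace_mul_cycle (T B), Matrix.trace_mul_cycle (T B) (T A)]
  exact_mod_cast mul_left_cancel₀ Complex.I_ne_zero h

/-- the Lie algebra -/
def xbL (hT3 : ∀ A B, (T A * T B).trace = if A = B then 1 else 0)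
    (hf : ∀ A B, T A * T B - T B * T A = ∑ C, (I * f A B C) • T C) : CL (EuclideanSpace ℝ ι) where
  br := xbBr f
  skew a b := xb_inj hT3 (by rw [map_neg, smul_neg, ← xb_comm hf, ← xb_comm hf, neg_sub])
  inv a b c := by
    have h : I * (⟪xbBr f a b, c⟫_ℝ : ℝ) = I * (-⟪b, xbBr f a c⟫_ℝ : ℝ) := by
      rw [Complex.ofReal_neg, mul_neg, ← xb_inn hT3, ← xb_inn hT3, ← smul_eq_mul I, ← smul_eq_mul I,
        ← Matrix.trace_smul, ← Matrix.trace_smul, ← smul_mul_assoc, ← mul_smul_comm,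
        ← xb_comm hf, ← xb_comm hf, sub_mul, mul_sub, Matrix.trace_sub, Matrix.trace_sub, neg_sub,
        ← mul_assoc, ← mul_assoc, Matrix.trace_mul_cycle (xbHat T b) (xbHat T c)]
    exact_mod_cast mul_left_cancel₀ Complex.I_ne_zero h
  jac a b c := xb_inj hT3 (smul_right_injective _ Complex.I_ne_zero (by
    have l : ∀ a b X, I • (X * xbHat T (xbBr f a b)) =
        X * (xbHat T a * xbHat T b - xbHat T b * xbHat T a) := fun a b X => by
      rw [xb_comm hf, mul_smul_comm]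
    have r : ∀ a b X, I • (xbHat T (xbBr f a b) * X) =
        (xbHat T a * xbHat T b - xbHat T b * xbHat T a) * X := fun a b X => by
      rw [xb_comm hf, smul_mul_assoc]
    simp only [map_add, smul_add, ← xb_comm hf, smul_sub, l, r]
    noncomm_ring))

theorem xb_car {κ A : Type} [Fintype κ] [DecidableEq κ] [Ring A] [Algebra ℝ A] {Θ : κ → A}
    (h : ∀ p q, Θ p * Θ q + Θ q * Θ p = if p = q then 1 else 0) (c d : κ → ℝ) :
    (∑ p, c p • Θ p) * (∑ p, d p • Θ p) + (∑ p, d p • Θ p) * (∑ p, c p • Θ p) =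
      (∑ p, c p * d p) • (1 : A) := by
  rw [Finset.sum_mul_sum, Finset.sum_mul_sum, Finset.sum_comm (f := fun q p => d q • Θ q * _)]
  simp only [← Finset.sum_add_distrib, smul_mul_smul_comm, mul_comm (d _), ← smul_add, h]
  simp [Finset.sum_smul]

variable [NormedAddCommGroup F] [InnerProductSpace ℂ F] [CompleteSpace F]
  {θ : Fin 16 → ι → F →L[ℂ] F}

/-- the Clifford map -/
def xbTh (θ : Fin 16 → ι → F →L[ℂ] F) : SS (EuclideanSpace ℝ ι) →L[ℝ] F →L[ℂ] F :=
  ∑ p : Fin 16 × ι, ((EuclideanSpace.proj p.2).comp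
    (PiLp.proj 2 (fun _ : Fin 16 => EuclideanSpace ℝ ι) p.1)).smulRight (θ p.1 p.2)

omit [DecidableEq ι] in
theorem xb_th (u : SS (EuclideanSpace ℝ ι)) :
    xbTh θ u = ∑ p : Fin 16 × ι, u p.1 p.2 • θ p.1 p.2 := by
  simp [xbTh]

theorem xb_tens (c : Fin 16 → ℝ) (A : ι) :
    xbTh θ (tens c (EuclideanSpace.single A 1)) = ∑ β, c β • θ β A := by
  simp [xb_th, Fintype.sum_prod_type, PiLp.single_apply]

/-- the Clifford module -/
def xbC (hθ1 : ∀ α A, IsSelfAdjoint (θ α A))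
    (hθ2 : ∀ α A β B, θ α A * θ β B + θ β B * θ α A = if α = β ∧ A = B then 1 else 0) :
    Cl (SS (EuclideanSpace ℝ ι)) F where
  th := xbTh θ
  sa u := by
    rw [xb_th]
    exact isSelfAdjoint_sum _ fun p _ => (IsSelfAdjoint.all _).smul (hθ1 _ _)
  car u v := by
    rw [xb_th, xb_th, xb_car (Θ := fun p : Fin 16 × ι => θ p.1 p.2)
      fun p q => by simp only [hθ2, Prod.ext_iff]]
    simp [PiLp.inner_apply, Fintype.sum_prod_type, mul_comm]

open P353S in
/-- the adjoint action -/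
def xbR (T : ι → Matrix (Fin N) (Fin N) ℂ) (g : Matrix.specialUnitaryGroup (Fin N) ℂ) :
    EuclideanSpace ℝ ι →L[ℝ] EuclideanSpace ℝ ι :=
  Matrix.toEuclideanCLM (𝕜 := ℝ) (Matrix.of (adj T g))

open P353S in
theorem xb_R (g : Matrix.specialUnitaryGroup (Fin N) ℂ) (a : EuclideanSpace ℝ ι) (B : ι) :
    xbR T g a B = ∑ A, adj T g B A * a A := rfl

theorem xb_R_co (g : Matrix.specialUnitaryGroup (Fin N) ℂ) (a : EuclideanSpace ℝ ι) :
    xbR T g a = xbCo T (g.1 * xbHat T a * star g.1) := by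
  ext B
  simp [xb_R, xbCo, xb_hat, P353S.adj, Finset.mul_sum, Finset.sum_mul, mul_comm]

open P353S in
theorem xb_Q (hT3 : ∀ A B, (T A * T B).trace = if A = B then 1 else 0)
    (hf : ∀ A B, T A * T B - T B * T A = ∑ C, (I * f A B C) • T C) (G : Gam)
    (hθ1 : ∀ α A, IsSelfAdjoint (θ α A))
    (hθ2 : ∀ α A β B, θ α A * θ β B + θ β B * θ α A = if α = β ∧ A = B then 1 else 0)
    (α : Fin 16) (Ψ : Bos ι → F) :
    Mod.Q ⟨xbL hT3 hf, xbC hθ1 hθ2⟩ G (Pi.single α 1) 1 Ψ = Q f G.g θ α Ψ := by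
  funext x
  have e1 : ∀ i (A : ι),
      G.psi (Pi.single α 1) (dir i A) = tens (G.g i α) (EuclideanSpace.single A 1) :=
    fun i A => by
      ext β
      simp [Gam.psi, dir, (G.symm i).apply α β]
  have e2 : ∀ i (A : ι), Pi.orthonormalBasis
      (fun _ : Fin 9 => EuclideanSpace.basisFun ι ℝ) ⟨i, A⟩ = dir i A := fun i A => by
    rw [Pi.orthonormalBasis_apply, EuclideanSpace.basisFun_apply]
    rfl
  have e3 : ∀ i j β, (G.g2 i j).mulVec (Pi.single α 1) β =
      -(1 / 2 * (G.g i * G.g j - G.g j * G.g i) α β) := fun i j β => by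
    have h : ∀ i j, (G.g i * G.g j) β α = (G.g j * G.g i) α β := fun i j => by
      rw [← Matrix.transpose_apply (G.g j * G.g i), Matrix.transpose_mul, (G.symm i).eq,
        (G.symm j).eq]
    simp [Gam.g2, h]
    ring
  rw [Mod.Q, dirac_onb _ _ _ (Pi.orthonormalBasis fun _ => EuclideanSpace.basisFun ι ℝ), Q]
  congr 1
  · congr 1
    rw [Fintype.sum_sigma]
    refine Finset.sum_congr rfl fun i _ => Eq.trans ?_ Finset.sum_comm
    refine Finset.sum_congr rfl fun A _ => ?_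
    rw [e2, e1]
    simp [xbC, xb_tens]
  · simp only [one_smul, s0, map_smul, map_sum, Finset.smul_sum, sum_apply]
    refine Finset.sum_congr rfl fun i _ => Finset.sum_congr rfl fun j _ => ?_
    change ((-1 / 2 : ℝ) • xbTh θ (tens _ (xbBr f _ _))) _ = _
    simp only [xb_th, Fintype.sum_prod_type, Finset.smul_sum, sum_apply,
      smul_apply, tens_apply, PiLp.smul_apply, xb_br, e3, smul_smul,
      smul_eq_mul, Finset.mul_sum, Finset.sum_smul]
    refine Finset.sum_congr rfl fun β _ => Finset.sum_congr rfl fun A _ =>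
      Finset.sum_congr rfl fun B _ => Finset.sum_congr rfl fun C _ => ?_
    rw [xb_cyc hT3 hf A B C]
    congr 1
    ring

end aux

open P353S in
/-- The concrete data define a model with the same kernel. -/
theorem bridge (N : ℕ) (ι F : Type) [Fintype ι] [DecidableEq ι] [NormedAddCommGroup F]
    [InnerProductSpace ℂ F] [CompleteSpace F] [FiniteDimensional ℂ F] [Nontrivial F]
    (T : ι → Matrix (Fin N) (Fin N) ℂ) (f : ι → ι → ι → ℝ)
    (hcard : Fintype.card ι = N ^ 2 - 1) (hT1 : ∀ A, (T A).IsHermitian) (hT2 : ∀ A, (T A).trace = 0)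
    (hT3 : ∀ A B, (T A * T B).trace = if A = B then 1 else 0)
    (hf : ∀ A B, T A * T B - T B * T A = ∑ C, (I * f A B C) • T C)
    (γ : Fin 9 → Matrix (Fin 16) (Fin 16) ℝ) (hγ1 : ∀ i, (γ i).IsSymm)
    (hγ2 : ∀ i j, γ i * γ j + γ j * γ i = if i = j then (2 : ℝ) • 1 else 0)
    (θ : Fin 16 → ι → F →L[ℂ] F) (hθ1 : ∀ α A, IsSelfAdjoint (θ α A))
    (hθ2 : ∀ α A β B, θ α A * θ β B + θ β B * θ α A = if α = β ∧ A = B then 1 else 0)
    (hirr : ∀ W : Submodule ℂ F, (∀ α A, ∀ w ∈ W, θ α A w ∈ W) → W = ⊥ ∨ W = ⊤)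
    (ρ : Matrix.specialUnitaryGroup (Fin N) ℂ →* unitary (F →L[ℂ] F))
    (hρ : ∀ g α A, (ρ g : F →L[ℂ] F) * θ α A = (∑ B, adj T g B A • θ α B) * (ρ g : F →L[ℂ] F)) :
    ∃ (M : Mod (EuclideanSpace ℝ ι) F) (G : Gam), Nonempty (SUN M.L N) ∧ M.C.Irr ∧
      M.Ker G = KerH T f γ θ ρ := by
  let S : SUN (xbL hT3 hf) N := ⟨xbHat T, xb_herm hT1, xb_tr0 hT2, xb_inn hT3,
    fun X h1 h2 => ⟨_, xb_surj hcard hT1 hT2 hT3 h1 h2⟩, xb_comm hf⟩
  have irr : (xbC hθ1 hθ2).Irr := fun W hW => hirr W fun α A w hw => by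
    have h := hW (tens (Pi.single α 1) (EuclideanSpace.single A 1)) w hw
    simpa [xbC, xb_tens, Pi.single_apply] using h
  have inv := fun φ => SUN.rho_eq ⟨xbL hT3 hf, xbC hθ1 hθ2⟩ ⟨γ, hγ1, hγ2⟩ S irr ρ (xbR T)
    (fun g a => ?_) (fun g u => ?_) φ
  · refine ⟨⟨xbL hT3 hf, xbC hθ1 hθ2⟩, ⟨γ, hγ1, hγ2⟩, ⟨S⟩, irr, Set.ext fun ψ => ?_⟩
    refine exists_congr fun Ψ => and_congr (forall_congr' fun n => ?_) (and_congr Iff.rfl ?_)
    · rw [← inv]
      exact and_assoc
    · simp only [xb_Q]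
      refine ⟨fun h => (h.const_mul (1 / 16)).mono_right (by rw [mul_zero]), fun h => ?_⟩
      simpa [form, n2] using h.const_mul 16
  · rw [xb_R_co]
    refine xb_surj hcard hT1 hT2 hT3 (Matrix.isHermitian_mul_mul_conjTranspose _ (xb_herm hT1 a)) ?_
    rw [Matrix.trace_mul_cycle, Matrix.mem_unitaryGroup_iff'.1 g.2.1, one_mul, xb_tr0 hT2]
  · change _ * xbTh θ u = xbTh θ _ * _
    rw [xb_th, xb_th]
    simp only [Finset.mul_sum, mul_smul_comm, hρ, ← smul_mul_assoc, ← Finset.sum_mul,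
      Fintype.sum_prod_type, lift_apply, xb_R, Finset.sum_smul, Finset.smul_sum, smul_smul]
    congr 1
    refine Finset.sum_congr rfl fun α _ => Finset.sum_comm.trans ?_
    simp only [mul_comm]

end Vale.Agent.P353
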