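import Vale.Agent.P353.Stmt
import Vale.Agent.P353.Stmt2

open MeasureTheory Filter
open Complex (I)
open scoped ContDiff

noncomputable section
namespace Vale.Agent.P353
open P353S

variable {N : ℕ} {ι F : Type} [Fintype ι] [DecidableEq ι]
  [NormedAddCommGroup F] [InnerProductSpace ℂ F] [CompleteSpace F]

/-- currying as an isometry -/
def flatI (ι : Type) [Fintype ι] : EuclideanSpace ℝ (Fin 9 × ι) ≃ₗᵢ[ℝ] Bos ι where
  toFun x := WithLp.toLp 2 fun i => WithLp.toLp 2 fun A => x (i, A)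
  invFun y := WithLp.toLp 2 fun p => y p.1 p.2
  map_add' _ _ := rfl
  map_smul' _ _ := rfl
  left_inv _ := rfl
  right_inv _ := rfl
  norm_map' x := by
    rw [← sq_eq_sq₀ (norm_nonneg _) (norm_nonneg _), PiLp.norm_sq_eq_of_L2, PiLp.norm_sq_eq_of_L2,
      Fintype.sum_prod_type]
    exact Finset.sum_congr rfl fun i _ => PiLp.norm_sq_eq_of_L2 _ _

def flat (ι : Type) [Fintype ι] : (Fin 9 × ι → ℝ) ≃L[ℝ] Bos ι :=
  (PiLp.continuousLinearEquiv 2 ℝ fun _ : Fin 9 × ι => ℝ).symm.trans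
    (flatI ι).toContinuousLinearEquiv

omit [DecidableEq ι] in
theorem flat_mp : MeasurePreserving (flat ι) volume volume :=
  (flatI ι).measurePreserving.comp (PiLp.volume_preserving_toLp (Fin 9 × ι))

omit [DecidableEq ι] in
theorem flat_int (u : Bos ι → ℝ) : ∫ x, u (flat ι x) = ∫ y, u y :=
  flat_mp.integral_comp (flat ι).toHomeomorph.measurableEmbedding u

omit [DecidableEq ι] in
theorem flat_mp' : MeasurePreserving (flat ι).symm volume volume :=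
  MeasurePreserving.symm (flat ι).toHomeomorph.toMeasurableEquiv flat_mp

theorem flat_dir (i : Fin 9) (A : ι) : flat ι (Pi.single (i, A) 1) = dir i A := by
  ext j B
  change (Pi.single (i, A) (1 : ℝ) : Fin 9 × ι → ℝ) (j, B) =
    (Pi.single i (EuclideanSpace.single A (1 : ℝ)) : Fin 9 → EuclideanSpace ℝ ι) j B
  by_cases h : j = i
  · subst h
    simp [Pi.single_apply]
  · simp [h]

omit [CompleteSpace F] in
theorem flat_Q (f : ι → ι → ι → ℝ) (γ : Fin 9 → Matrix (Fin 16) (Fin 16) ℝ)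
    (θ : Fin 16 → ι → F →L[ℂ] F) (α : Fin 16) (Ψ : Bos ι → F) (x : Fin 9 × ι → ℝ) :
    P353T.Q f γ θ α (Ψ ∘ flat ι) x = Q f γ θ α Ψ (flat ι x) := by
  have h : ∀ i A, P353T.pd i A (Ψ ∘ flat ι) x = fderiv ℝ Ψ (flat ι x) (dir i A) := fun i A => by
    rw [P353T.pd, (flat ι).comp_right_fderiv, ← flat_dir]
    rfl
  simp only [P353T.Q, Q, h]
  rfl

omit [CompleteSpace F] in
theorem flat_form (f : ι → ι → ι → ℝ) (γ : Fin 9 → Matrix (Fin 16) (Fin 16) ℝ)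
    (θ : Fin 16 → ι → F →L[ℂ] F) (Ψ : Bos ι → F) :
    P353T.form f γ θ (Ψ ∘ flat ι) = form f γ θ Ψ := by
  simp only [P353T.form, form, flat_Q]
  congr 1
  exact Finset.sum_congr rfl fun α _ => flat_int fun y => ‖Q f γ θ α Ψ y‖ ^ 2

omit [DecidableEq ι] in
theorem flat_test (T : ι → Matrix (Fin N) (Fin N) ℂ)
    (ρ : Matrix.specialUnitaryGroup (Fin N) ℂ →* unitary (F →L[ℂ] F)) (Ψ : Bos ι → F) :
    P353T.Test T (fun g => (ρ g : F →L[ℂ] F)) (Ψ ∘ flat ι) ↔ Test T ρ Ψ := by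
  refine and_congr (flat ι).contDiff_comp_iff (and_congr ⟨fun h => ?_, fun h => ?_⟩
    ⟨fun h g x => ?_, fun h g x => h g (flat ι x)⟩)
  · have := h.comp_homeomorph (flat ι).symm.toHomeomorph
    rwa [show (Ψ ∘ flat ι) ∘ (flat ι).symm.toHomeomorph = Ψ from funext fun y => by simp] at this
  · exact h.comp_homeomorph (flat ι).toHomeomorph
  · exact h g ((flat ι).symm x)

theorem flat_ker (T : ι → Matrix (Fin N) (Fin N) ℂ) (f : ι → ι → ι → ℝ)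
    (γ : Fin 9 → Matrix (Fin 16) (Fin 16) ℝ) (θ : Fin 16 → ι → F →L[ℂ] F)
    (ρ : Matrix.specialUnitaryGroup (Fin N) ℂ →* unitary (F →L[ℂ] F))
    (φ : Lp F 2 (volume : Measure (Bos ι))) {φ' : (Fin 9 × ι → ℝ) → F}
    (h : φ' =ᵐ[volume] φ ∘ flat ι) :
    P353T.ZeroEnergy T f γ θ (fun g => (ρ g : F →L[ℂ] F)) φ' ↔ φ ∈ KerH T f γ θ ρ := by
  have e : ∀ Ψ : Bos ι → F, ∫ x, ‖(Ψ ∘ flat ι) x - φ' x‖ ^ 2 = ∫ y, ‖Ψ y - φ y‖ ^ 2 := fun Ψ => by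
    rw [← flat_int fun y => ‖Ψ y - φ y‖ ^ 2]
    exact integral_congr_ae (h.mono fun x hx => by simp only [hx, Function.comp_apply])
  constructor
  · rintro ⟨Ψ, h1, h2, h3⟩
    have e2 : ∀ n, Ψ n = (Ψ n ∘ (flat ι).symm) ∘ flat ι := fun n => funext fun y => by simp
    refine ⟨fun n => Ψ n ∘ (flat ι).symm, fun n => (flat_test T ρ _).1 (e2 n ▸ h1 n), ?_, ?_⟩
    · simpa only [← e, ← e2] using h2
    · simpa only [← flat_form, ← e2] using h3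
  · rintro ⟨Ψ, h1, h2, h3⟩
    refine ⟨fun n => Ψ n ∘ flat ι, fun n => (flat_test T ρ _).2 (h1 n), ?_, ?_⟩
    · simpa only [e] using h2
    · simpa only [flat_form] using h3

theorem flat_final (T : ι → Matrix (Fin N) (Fin N) ℂ) (f : ι → ι → ι → ℝ)
    (γ : Fin 9 → Matrix (Fin 16) (Fin 16) ℝ) (θ : Fin 16 → ι → F →L[ℂ] F)
    (ρ : Matrix.specialUnitaryGroup (Fin N) ℂ →* unitary (F →L[ℂ] F))
    (h : ∃ ψ ≠ 0, ∀ φ, φ ∈ KerH T f γ θ ρ ↔ ∃ c : ℂ, φ = c • ψ) :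
    ∃ ψ : Lp F 2 (volume : Measure (Fin 9 × ι → ℝ)), ψ ≠ 0 ∧
      ∀ φ : Lp F 2 (volume : Measure (Fin 9 × ι → ℝ)),
        P353T.ZeroEnergy T f γ θ (fun g => (ρ g : F →L[ℂ] F)) φ ↔ ∃ c : ℂ, φ = c • ψ := by
  obtain ⟨ψ, h0, h⟩ := h
  let A := Lp.compMeasurePreservingₗ (E := F) (p := 2) ℂ (flat ι) flat_mp
  let B := Lp.compMeasurePreservingₗ (E := F) (p := 2) ℂ (flat ι).symm flat_mp'
  have hA : ∀ φ, A φ =ᵐ[volume] φ ∘ flat ι := fun φ => Lp.coeFn_compMeasurePreserving φ flat_mp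
  have hB : ∀ φ, B φ =ᵐ[volume] φ ∘ (flat ι).symm := fun φ =>
    Lp.coeFn_compMeasurePreserving φ flat_mp'
  have AB : ∀ φ, A (B φ) = φ := fun φ => Lp.ext ((hA _).trans
    ((flat_mp.quasiMeasurePreserving.ae_eq_comp (hB φ)).mono fun x hx => by simpa using hx))
  have BA : ∀ φ, B (A φ) = φ := fun φ => Lp.ext ((hB _).trans
    ((flat_mp'.quasiMeasurePreserving.ae_eq_comp (hA φ)).mono fun x hx => by simpa using hx))
  refine ⟨A ψ, fun h1 => h0 (by rw [← BA ψ, h1, map_zero]), fun φ => ?_⟩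
  rw [flat_ker T f γ θ ρ (B φ) (by simpa only [AB] using hA (B φ)), h]
  refine exists_congr fun c => ⟨fun h1 => ?_, fun h1 => ?_⟩
  · rw [← AB φ, h1, map_smul]
  · rw [h1, map_smul, BA]

omit [CompleteSpace F] in
theorem zero_congr (T : ι → Matrix (Fin N) (Fin N) ℂ) (f : ι → ι → ι → ℝ)
    (γ : Fin 9 → Matrix (Fin 16) (Fin 16) ℝ) (θ : Fin 16 → ι → F →L[ℂ] F)
    (ρ : Matrix.specialUnitaryGroup (Fin N) ℂ → F →L[ℂ] F) {φ φ' : (Fin 9 × ι → ℝ) → F}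
    (h : φ =ᵐ[volume] φ') : P353T.ZeroEnergy T f γ θ ρ φ ↔ P353T.ZeroEnergy T f γ θ ρ φ' := by
  have e : ∀ Ψ : (Fin 9 × ι → ℝ) → F, ∫ x, ‖Ψ x - φ x‖ ^ 2 = ∫ x, ‖Ψ x - φ' x‖ ^ 2 := fun Ψ =>
    integral_congr_ae (h.mono fun x hx => by simp only [hx])
  simp only [P353T.ZeroEnergy, e]

theorem flat_final' (T : ι → Matrix (Fin N) (Fin N) ℂ) (f : ι → ι → ι → ℝ)
    (γ : Fin 9 → Matrix (Fin 16) (Fin 16) ℝ) (θ : Fin 16 → ι → F →L[ℂ] F)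
    (ρ : Matrix.specialUnitaryGroup (Fin N) ℂ →* unitary (F →L[ℂ] F))
    (h : ∃ ψ ≠ 0, ∀ φ, φ ∈ KerH T f γ θ ρ ↔ ∃ c : ℂ, φ = c • ψ) :
    ∃ ψ : (Fin 9 × ι → ℝ) → F, MemLp ψ 2 volume ∧ ¬ψ =ᵐ[volume] 0 ∧
      ∀ φ : (Fin 9 × ι → ℝ) → F, MemLp φ 2 volume →
        (P353T.ZeroEnergy T f γ θ (fun g => (ρ g : F →L[ℂ] F)) φ ↔
          ∃ c : ℂ, φ =ᵐ[volume] c • ψ) := by
  obtain ⟨ψ, h0, h⟩ := flat_final T f γ θ ρ h
  refine ⟨ψ, Lp.memLp ψ, fun h1 => h0 (Lp.eq_zero_iff_ae_eq_zero.2 h1), fun φ hφ => ?_⟩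
  rw [zero_congr T f γ θ _ hφ.coeFn_toLp.symm, h]
  refine exists_congr fun c => ⟨fun h1 => ?_, fun h1 => Lp.ext ?_⟩
  · exact hφ.coeFn_toLp.symm.trans (h1 ▸ Lp.coeFn_smul c ψ)
  · exact hφ.coeFn_toLp.trans (h1.trans (Lp.coeFn_smul c ψ).symm)

end Vale.Agent.P353
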