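import Vale.Agent.P353.XSU

open MeasureTheory NormedSpace
open Complex (I)
open scoped InnerProductSpace ContDiff

noncomputable section
namespace Vale.Agent.P353
variable {V F : Type} [NormedAddCommGroup V] [InnerProductSpace ℝ V] [FiniteDimensional ℝ V]
  [NormedAddCommGroup F] [InnerProductSpace ℂ F] [CompleteSpace F] [FiniteDimensional ℂ F]
  [Nontrivial F] {N : ℕ}

omit [Nontrivial F] in
/-- two implementers of the same rotation differ by a scalar -/
theorem Mod.impl_scalar (M : Mod V F) (hirr : M.C.Irr) (ξ : V) {A : F →L[ℂ] F}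
    (hA : ∀ u, A * M.C.th u = M.C.th (lift (M.L.ex ξ) u) * A) : ∃ c : ℂ, A = c • M.rho ξ := by
  have hU := M.rho_unitary ξ
  have h1 : star (M.rho ξ) * M.rho ξ = 1 := (Unitary.mem_iff.1 hU).1
  have h2 : M.rho ξ * star (M.rho ξ) = 1 := (Unitary.mem_iff.1 hU).2
  have h3 : ∀ u, star (M.rho ξ) * M.C.th (lift (M.L.ex ξ) u) = M.C.th u * star (M.rho ξ) := by
    intro u
    calc star (M.rho ξ) * M.C.th (lift (M.L.ex ξ) u)
        = star (M.rho ξ) * (M.C.th (lift (M.L.ex ξ) u) * M.rho ξ) * star (M.rho ξ) := by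
          rw [mul_assoc, mul_assoc, h2, mul_one]
      _ = M.C.th u * star (M.rho ξ) := by
          rw [← M.rho_th, ← mul_assoc, h1, one_mul]
  obtain ⟨c, hc⟩ := hirr.scalar (A := star (M.rho ξ) * A) fun u => by
    rw [mul_assoc, hA, ← mul_assoc, h3, mul_assoc]
  refine ⟨c, ?_⟩
  calc A = M.rho ξ * (star (M.rho ξ) * A) := by rw [← mul_assoc, h2, one_mul]
    _ = c • M.rho ξ := by rw [hc, mul_smul_comm, mul_one]

/-- A unitary representation of `SU(N)` that implements the adjoint rotation is the spin action: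
it preserves the vacuum line of `Mod.exists_fixed`, acts there by a character, and the Schur lemma
applies. -/
theorem SUN.rho_eq (M : Mod V F) (G : Gam) (h : SUN M.L N) (hirr : M.C.Irr)
    (ρ : Matrix.specialUnitaryGroup (Fin N) ℂ →* unitary (F →L[ℂ] F))
    (R : Matrix.specialUnitaryGroup (Fin N) ℂ → V →L[ℝ] V)
    (hR : ∀ g a, h.hat (R g a) = g.1 * h.hat a * star g.1)
    (hρ : ∀ g u, (ρ g : F →L[ℂ] F) * M.C.th u = M.C.th (lift (R g) u) * (ρ g : F →L[ℂ] F))
    (φ : EE V → F) :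
    (∀ g x, φ (lift (R g) x) = (ρ g : F →L[ℂ] F) (φ x)) ↔ M.Inv φ := by
  obtain ⟨w, hw, -, -, hfix⟩ := M.exists_fixed G
  have hRe : ∀ g ξ, g.1 = exp ((-I) • h.hat ξ) → R g = M.L.ex ξ := by
    intro g ξ hg
    ext a
    apply h.hat_inj
    rw [hR, (h.ex_conj ξ).2 a, hg]
  have hsc : ∀ g ξ, g.1 = exp ((-I) • h.hat ξ) →
      ∃ c : ℂ, (ρ g : F →L[ℂ] F) = c • M.rho ξ := fun g ξ hg =>
    M.impl_scalar hirr ξ fun u => by rw [hρ, hRe g ξ hg]
  have hch : ∀ g, ∃ c : ℂ, (ρ g : F →L[ℂ] F) w = c • w := by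
    intro g
    obtain ⟨ξ, hξ⟩ := h.exp_surj g
    obtain ⟨c, hc⟩ := hsc g ξ hξ
    exact ⟨c, by rw [hc, smul_apply, hfix]⟩
  choose χ hχ using hch
  have hinj := smul_left_injective ℂ hw
  let χ' : Matrix.specialUnitaryGroup (Fin N) ℂ →* ℂ :=
    { toFun := χ
      map_one' := hinj (by
        show χ 1 • w = (1 : ℂ) • w
        rw [← hχ, map_one, one_smul]
        rfl)
      map_mul' := fun a b => hinj (by
        show χ (a * b) • w = (χ a * χ b) • w
        rw [← hχ, map_mul, mul_comm, mul_smul, ← hχ a, ← map_smul, ← hχ b]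
        rfl) }
  have hone : ∀ g, (ρ g : F →L[ℂ] F) w = w := by
    intro g
    have h1 : χ g = 1 := su_char χ' g
    rw [hχ, h1, one_smul]
  have key : ∀ g ξ, g.1 = exp ((-I) • h.hat ξ) → (ρ g : F →L[ℂ] F) = M.rho ξ := by
    intro g ξ hg
    obtain ⟨c, hc⟩ := hsc g ξ hg
    have h1 := hone g
    rw [hc, smul_apply, hfix] at h1
    have h2 : c = 1 := hinj (by
      show c • w = (1 : ℂ) • w
      rw [h1, one_smul])
    rw [hc, h2, one_smul]
  constructor
  · intro H ξ x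
    have h1 := H ⟨_, (h.ex_conj ξ).1⟩ x
    rwa [hRe _ ξ rfl, key _ ξ rfl] at h1
  · intro H g x
    obtain ⟨ξ, hξ⟩ := h.exp_surj g
    rw [hRe g ξ hξ, key g ξ hξ]
    exact H ξ x

end Vale.Agent.P353
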